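import Vale.Agent.Lib.P161E.AnaTail

/-! Job A5: Helly selection on dyadic grids. -/

open MeasureTheory Finset Filter Topology
open scoped ENNReal

noncomputable section

namespace Vale.Agent.Lib.P161E

/-- Dyadic grid points. -/
def dy (l k : ℕ) : ℝ := (k : ℝ) * Vale.Agent.Lib.P161.dlt l

/-- A real number is dyadic. -/
def IsDy (u : ℝ) : Prop := ∃ l k : ℕ, u = dy l k

private theorem dlt_pos' (l : ℕ) : 0 < Vale.Agent.Lib.P161.dlt l := by
  unfold Vale.Agent.Lib.P161.dlt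
  positivity

private theorem dlt_mul_pow {l₁ l : ℕ} (h : l₁ ≤ l) :
    Vale.Agent.Lib.P161.dlt l * ((2 ^ (l - l₁) : ℕ) : ℝ) = Vale.Agent.Lib.P161.dlt l₁ := by
  unfold Vale.Agent.Lib.P161.dlt
  obtain ⟨m, rfl⟩ := Nat.exists_eq_add_of_le h
  have : l₁ + m - l₁ = m := by omega
  rw [this, pow_add]
  push_cast
  rw [mul_assoc, ← mul_pow]
  norm_num

private theorem sum_div_fiber (h : ℕ → ℝ) {W : ℕ} (hW : 0 < W) (n : ℕ) :
    ∑ k ∈ range (n * W), h (k / W) = (W : ℝ) * ∑ a ∈ range n, h a := by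
  induction n with
  | zero => simp
  | succ n ih =>
    have : (n + 1) * W = n * W + W := by ring
    rw [this, sum_range_add, ih, sum_range_succ, mul_add]
    congr 1
    have h2 : ∀ j ∈ range W, h ((n * W + j) / W) = h n := by
      intro j hj
      congr 1
      rw [mem_range] at hj
      rw [add_comm, Nat.add_mul_div_right _ _ hW, Nat.div_eq_of_lt hj, zero_add]
    rw [sum_congr rfl h2, sum_const, card_range, nsmul_eq_mul]

/-- A5. Helly selection for the Riemann sums at dyadic grids, for functions antitone on dyadics. -/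
theorem helly_dyadic (φ : ℕ → ℝ → ℝ) (h01 : ∀ i u, 0 ≤ φ i u ∧ φ i u ≤ 1)
    (hanti : ∀ i u v, IsDy u → IsDy v → 0 < u → u ≤ v → φ i v ≤ φ i u) :
    ∃ σ : ℕ → ℕ, StrictMono σ ∧ ∀ (s T : ℝ), 0 < s → ∀ ε : ℝ, 0 < ε → ∃ J L₀ : ℕ,
      ∀ i j, J ≤ i → J ≤ j → ∀ l, L₀ ≤ l →
        ∑ k ∈ (range (⌊T * 2 ^ l⌋₊ + 1)).filter (fun k => s ≤ dy l k),
          Vale.Agent.Lib.P161.dlt l * (φ (σ i) (dy l k) - φ (σ j) (dy l k)) ^ 2 ≤ ε := by
  -- the diagonal subsequence, from compactness of a countable product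
  let x : ℕ → (ℕ × ℕ → Set.Icc (0 : ℝ) 1) := fun i p => ⟨φ i (dy p.1 p.2), h01 i _⟩
  obtain ⟨L, σ, hσ, hL⟩ := CompactSpace.tendsto_subseq x
  refine ⟨σ, hσ, ?_⟩
  have hconv : ∀ l k : ℕ, Tendsto (fun i => φ (σ i) (dy l k)) atTop (𝓝 ((L (l, k) : Set.Icc (0 : ℝ) 1) : ℝ)) := by
    intro l k
    have h1 := tendsto_pi_nhds.1 hL (l, k)
    exact (continuous_subtype_val.tendsto _).comp h1
  intro s T hs ε hε
  -- the coarse level
  obtain ⟨l₁, hl₁⟩ : ∃ l₁ : ℕ, (1 / 2 : ℝ) ^ l₁ < min s (ε / 2) :=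
    exists_pow_lt_of_lt_one (lt_min hs (by linarith)) (by norm_num)
  have hl₁s : Vale.Agent.Lib.P161.dlt l₁ ≤ s := (hl₁.trans_le (min_le_left _ _)).le
  have hl₁ε : Vale.Agent.Lib.P161.dlt l₁ ≤ ε / 2 := (hl₁.trans_le (min_le_right _ _)).le
  have hl₁1 : Vale.Agent.Lib.P161.dlt l₁ ≤ 1 := by
    unfold Vale.Agent.Lib.P161.dlt
    exact pow_le_one₀ (by norm_num) (by norm_num)
  have hdp := dlt_pos' l₁
  set a₀ := ⌊s * 2 ^ l₁⌋₊ with ha₀
  set a₁ := ⌈T * 2 ^ l₁⌉₊ + 1 with ha₁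
  have hpow_inv : Vale.Agent.Lib.P161.dlt l₁ * (2 : ℝ) ^ l₁ = 1 := by
    unfold Vale.Agent.Lib.P161.dlt
    rw [← mul_pow]
    norm_num
  have ha₀1 : 1 ≤ a₀ := by
    apply Nat.le_floor
    have h2 : (0 : ℝ) < 2 ^ l₁ := by positivity
    push_cast
    calc (1 : ℝ) = Vale.Agent.Lib.P161.dlt l₁ * 2 ^ l₁ := hpow_inv.symm
      _ ≤ s * 2 ^ l₁ := mul_le_mul_of_nonneg_right hl₁s h2.le
  set η : ℝ := ε / (4 * ((a₁ : ℝ) + 1)) with hη
  have hηpos : 0 < η := by positivity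
  -- the fixed index
  have hev : ∀ᶠ i in atTop, ∀ a ∈ range (a₁ + 2),
      |φ (σ i) (dy l₁ a) - ((L (l₁, a) : Set.Icc (0 : ℝ) 1) : ℝ)| < η / 2 := by
    rw [Filter.eventually_all_finset]
    intro a _
    have := (Metric.tendsto_nhds.1 (hconv l₁ a)) (η / 2) (by linarith)
    simpa [Real.dist_eq] using this
  obtain ⟨J, hJ⟩ := eventually_atTop.1 hev
  have hcauchy : ∀ i j, J ≤ i → J ≤ j → ∀ a, a < a₁ + 2 →
      φ (σ i) (dy l₁ a) - φ (σ j) (dy l₁ a) ≤ η := by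
    intro i j hi hj a ha
    have h1 := hJ i hi a (mem_range.2 ha)
    have h2 := hJ j hj a (mem_range.2 ha)
    rw [abs_lt] at h1 h2
    linarith [h1.2, h2.1]
  refine ⟨J, l₁, ?_⟩
  intro i j hi hj l hl
  set W := 2 ^ (l - l₁) with hW
  have hWpos : 0 < W := by positivity
  have hdyW : ∀ a : ℕ, dy l₁ a = dy l (a * W) := by
    intro a
    unfold dy
    rw [← dlt_mul_pow hl]
    push_cast
    rw [hW]
    push_cast
    ring
  set ψ : ℕ → ℝ := fun a => φ (σ J) (dy l₁ (max a a₀)) with hψ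
  have hdy_pos : ∀ a, 1 ≤ a → 0 < dy l₁ a := by
    intro a ha
    unfold dy
    have : (1 : ℝ) ≤ a := by exact_mod_cast ha
    have h3 := dlt_pos' l₁
    positivity
  have hψanti : ∀ a, ψ (a + 1) ≤ ψ a := by
    intro a
    apply hanti
    · exact ⟨l₁, _, rfl⟩
    · exact ⟨l₁, _, rfl⟩
    · exact hdy_pos _ (ha₀1.trans (le_max_right _ _))
    · unfold dy
      apply mul_le_mul_of_nonneg_right _ (dlt_pos' l₁).le
      have : max a a₀ ≤ max (a + 1) a₀ := max_le_max (by omega) le_rfl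
      exact_mod_cast this
  set Gg : ℕ → ℝ := fun a => ψ a - ψ (a + 1) + 2 * η with hGg
  have hGg0 : ∀ a, 0 ≤ Gg a := fun a => by
    have := hψanti a
    simp only [hGg]
    linarith
  set F := (range (⌊T * 2 ^ l⌋₊ + 1)).filter (fun k => s ≤ dy l k) with hF
  have hdlt := dlt_pos' l
  have hkey : ∀ k ∈ F, (k / W) < a₁ ∧
      (φ (σ i) (dy l k) - φ (σ j) (dy l k)) ^ 2 ≤ Gg (k / W) := by
    intro k hk
    rw [hF, mem_filter, mem_range] at hk
    obtain ⟨hk1, hk2⟩ := hk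
    set a := k / W with ha
    have hlow : a * W ≤ k := Nat.div_mul_le_self k W
    have hhigh : k < (a + 1) * W := by
      have := Nat.lt_div_mul_add (a := k) hWpos
      rw [← ha] at this
      calc k < a * W + W := this
        _ = (a + 1) * W := by ring
    have hk_pos : 0 < dy l k := lt_of_lt_of_le hs hk2
    have hk0 : k ≠ 0 := by
      rintro rfl
      simp [dy] at hk_pos
    have hmono : ∀ m n : ℕ, m ≤ n → dy l m ≤ dy l n := by
      intro m n hmn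
      unfold dy
      exact mul_le_mul_of_nonneg_right (by exact_mod_cast hmn) hdlt.le
    have h_up : dy l k ≤ dy l₁ (a + 1) := by
      rw [hdyW]
      exact hmono _ _ hhigh.le
    have h_lo : dy l₁ a ≤ dy l k := by
      rw [hdyW]
      exact hmono _ _ hlow
    have h_a₀ : a₀ ≤ a := by
      have h1 : s ≤ ((a + 1 : ℕ) : ℝ) * Vale.Agent.Lib.P161.dlt l₁ := hk2.trans h_up
      have h2 : s * 2 ^ l₁ ≤ ((a + 1 : ℕ) : ℝ) := by
        have h3 := mul_le_mul_of_nonneg_right h1 (by positivity : (0 : ℝ) ≤ 2 ^ l₁)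
        rwa [mul_assoc, hpow_inv, mul_one] at h3
      have hstrict : k < (a + 1) * W := hhigh
      have h_up' : dy l k < dy l₁ (a + 1) := by
        rw [hdyW]
        unfold dy
        exact mul_lt_mul_of_pos_right (by exact_mod_cast hstrict) hdlt
      have h1' : s < ((a + 1 : ℕ) : ℝ) * Vale.Agent.Lib.P161.dlt l₁ := lt_of_le_of_lt hk2 h_up'
      have h2' : s * 2 ^ l₁ < ((a + 1 : ℕ) : ℝ) := by
        have h3 := mul_lt_mul_of_pos_right h1' (by positivity : (0 : ℝ) < 2 ^ l₁)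
        rwa [mul_assoc, hpow_inv, mul_one] at h3
      have h4 : (a₀ : ℝ) ≤ s * 2 ^ l₁ := Nat.floor_le (by positivity)
      have h5 : (a₀ : ℝ) < ((a + 1 : ℕ) : ℝ) := lt_of_le_of_lt h4 h2'
      have h6 : a₀ < a + 1 := by exact_mod_cast h5
      omega
    have h_a₁ : a < a₁ := by
      have hk3 : k ≤ ⌊T * 2 ^ l⌋₊ := by omega
      have hk4 : (k : ℝ) ≤ T * 2 ^ l := (Nat.le_floor_iff' hk0).1 hk3
      have hdyT : dy l k ≤ T := by
        unfold dy Vale.Agent.Lib.P161.dlt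
        have h7 : (1 / 2 : ℝ) ^ l * 2 ^ l = 1 := by
          rw [← mul_pow]
          norm_num
        calc (k : ℝ) * (1 / 2) ^ l ≤ (T * 2 ^ l) * (1 / 2) ^ l :=
              mul_le_mul_of_nonneg_right hk4 (by positivity)
          _ = T * ((1 / 2 : ℝ) ^ l * 2 ^ l) := by ring
          _ = T := by rw [h7, mul_one]
      have h8 : (a : ℝ) * Vale.Agent.Lib.P161.dlt l₁ ≤ T := h_lo.trans hdyT
      have h9 : (a : ℝ) ≤ T * 2 ^ l₁ := by
        have h3 := mul_le_mul_of_nonneg_right h8 (by positivity : (0 : ℝ) ≤ 2 ^ l₁)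
        rwa [mul_assoc, hpow_inv, mul_one] at h3
      have h10 : T * 2 ^ l₁ ≤ (⌈T * 2 ^ l₁⌉₊ : ℝ) := Nat.le_ceil _
      have h11 : (a : ℝ) ≤ (⌈T * 2 ^ l₁⌉₊ : ℝ) := h9.trans h10
      have h12 : a ≤ ⌈T * 2 ^ l₁⌉₊ := by exact_mod_cast h11
      omega
    refine ⟨h_a₁, ?_⟩
    have ha_pos : 0 < dy l₁ a := hdy_pos a (ha₀1.trans h_a₀)
    have hdyk : IsDy (dy l k) := ⟨l, k, rfl⟩
    have hua : IsDy (dy l₁ a) := ⟨l₁, a, rfl⟩
    have hub : IsDy (dy l₁ (a + 1)) := ⟨l₁, a + 1, rfl⟩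
    have hψ1 : ψ a = φ (σ J) (dy l₁ a) := by
      simp only [hψ]
      rw [max_eq_left h_a₀]
    have hψ2 : ψ (a + 1) = φ (σ J) (dy l₁ (a + 1)) := by
      simp only [hψ]
      rw [max_eq_left (by omega)]
    have bound : ∀ i' j', J ≤ i' → J ≤ j' →
        φ (σ i') (dy l k) - φ (σ j') (dy l k) ≤ Gg a := by
      intro i' j' hi' hj'
      have h1 : φ (σ i') (dy l k) ≤ φ (σ i') (dy l₁ a) := hanti _ _ _ hua hdyk ha_pos h_lo
      have h2 : φ (σ j') (dy l₁ (a + 1)) ≤ φ (σ j') (dy l k) := hanti _ _ _ hdyk hub hk_pos h_up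
      have h3 := hcauchy i' J hi' le_rfl a (by omega)
      have h4 := hcauchy J j' le_rfl hj' (a + 1) (by omega)
      simp only [hGg]
      rw [hψ1, hψ2]
      linarith
    have hb1 := bound i j hi hj
    have hb2 := bound j i hj hi
    have hx := h01 (σ i) (dy l k)
    have hy := h01 (σ j) (dy l k)
    have habs : |φ (σ i) (dy l k) - φ (σ j) (dy l k)| ≤ Gg a := abs_le.2 ⟨by linarith, hb1⟩
    have habs1 : |φ (σ i) (dy l k) - φ (σ j) (dy l k)| ≤ 1 := by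
      rw [abs_le]
      constructor <;> linarith [hx.1, hx.2, hy.1, hy.2]
    calc (φ (σ i) (dy l k) - φ (σ j) (dy l k)) ^ 2
        = |φ (σ i) (dy l k) - φ (σ j) (dy l k)| ^ 2 := (sq_abs _).symm
      _ = |φ (σ i) (dy l k) - φ (σ j) (dy l k)| * |φ (σ i) (dy l k) - φ (σ j) (dy l k)| := sq _
      _ ≤ |φ (σ i) (dy l k) - φ (σ j) (dy l k)| * 1 :=
          mul_le_mul_of_nonneg_left habs1 (abs_nonneg _)
      _ ≤ Gg a := by rw [mul_one]; exact habs
  have hsub : F ⊆ range (a₁ * W) := by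
    intro k hk
    have := (hkey k hk).1
    rw [mem_range]
    exact (Nat.div_lt_iff_lt_mul hWpos).1 this
  calc ∑ k ∈ F, Vale.Agent.Lib.P161.dlt l * (φ (σ i) (dy l k) - φ (σ j) (dy l k)) ^ 2
      ≤ ∑ k ∈ F, Vale.Agent.Lib.P161.dlt l * Gg (k / W) :=
        sum_le_sum fun k hk => mul_le_mul_of_nonneg_left (hkey k hk).2 hdlt.le
    _ ≤ ∑ k ∈ range (a₁ * W), Vale.Agent.Lib.P161.dlt l * Gg (k / W) :=
        sum_le_sum_of_subset_of_nonneg hsub
          (fun k _ _ => mul_nonneg hdlt.le (hGg0 _))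
    _ = Vale.Agent.Lib.P161.dlt l * ∑ k ∈ range (a₁ * W), Gg (k / W) := by rw [mul_sum]
    _ = Vale.Agent.Lib.P161.dlt l * ((W : ℝ) * ∑ a ∈ range a₁, Gg a) := by
        rw [sum_div_fiber Gg hWpos]
    _ = Vale.Agent.Lib.P161.dlt l₁ * ∑ a ∈ range a₁, Gg a := by
        rw [← mul_assoc, dlt_mul_pow hl]
    _ ≤ ε := by
        have htel : ∑ a ∈ range a₁, Gg a = ψ 0 - ψ a₁ + a₁ * (2 * η) := by
          simp only [hGg]
          rw [sum_add_distrib, sum_range_sub', sum_const, card_range, nsmul_eq_mul]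
        have hψ0 : ψ 0 ≤ 1 := (h01 _ _).2
        have hψ1 : 0 ≤ ψ a₁ := (h01 _ _).1
        have hηbd : (a₁ : ℝ) * (2 * η) ≤ ε / 2 := by
          have ha1pos : (0 : ℝ) < (a₁ : ℝ) + 1 := by positivity
          have h1 : η * (4 * ((a₁ : ℝ) + 1)) = ε := by
            rw [hη]
            field_simp
          have ha10 : (0 : ℝ) ≤ a₁ := Nat.cast_nonneg _
          nlinarith [mul_pos hηpos ha1pos]
        rw [htel]
        have h2 : ψ 0 - ψ a₁ + a₁ * (2 * η) ≤ 1 + ε / 2 := by linarith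
        have hd := dlt_pos' l₁
        calc Vale.Agent.Lib.P161.dlt l₁ * (ψ 0 - ψ a₁ + a₁ * (2 * η))
            ≤ Vale.Agent.Lib.P161.dlt l₁ * (1 + ε / 2) := mul_le_mul_of_nonneg_left h2 hd.le
          _ = Vale.Agent.Lib.P161.dlt l₁ + Vale.Agent.Lib.P161.dlt l₁ * (ε / 2) := by ring
          _ ≤ ε / 2 + 1 * (ε / 2) :=
              add_le_add hl₁ε (mul_le_mul_of_nonneg_right hl₁1 (by linarith))
          _ = ε := by ring

end Vale.Agent.Lib.P161E
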