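import Vale.Agent.Lib.P161E.AnaYoung

/-! Job A2: discrete Osgood lemma. -/

open MeasureTheory Finset Filter Topology
open scoped ENNReal

noncomputable section

namespace Vale.Agent.Lib.P161E

/-- A2. Discrete Osgood lemma. -/
theorem osgood_discrete {n : ℕ} {D b e : ℕ → ℝ} {E₀ Bb : ℝ} (hE₀ : 0 < E₀)
    (hD0 : ∀ k, k ≤ n → 0 ≤ D k) (hD8 : ∀ k, k ≤ n → D k ≤ 8)
    (hb0 : ∀ k, 0 ≤ b k) (hb1 : ∀ k, k < n → b k ≤ 1 / 2) (he0 : ∀ k, 0 ≤ e k)
    (hBb : ∑ k ∈ range n, b k ≤ Bb)
    (hrec : ∀ k, k ≤ n → D k ≤ E₀ + ∑ i ∈ range k, (b i * psi (D i) + e i))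
    (hsmall : 1 ≤ (1 + Real.log (8 / (E₀ + ∑ i ∈ range n, e i))) * Real.exp (-(2 * Bb))) :
    D n ≤ 8 * Real.exp 1 *
      Real.exp (-((1 + Real.log (8 / (E₀ + ∑ i ∈ range n, e i))) * Real.exp (-(2 * Bb)))) := by
  set E := E₀ + ∑ i ∈ range n, e i with hE
  have hsum_e : 0 ≤ ∑ i ∈ range n, e i := sum_nonneg fun i _ => he0 i
  have hEpos : 0 < E := by rw [hE]; linarith
  set R : ℕ → ℝ := fun k => E + ∑ i ∈ range k, b i * psi (D i) with hR
  set a₀ := 1 + Real.log (8 / E) with ha₀
  set S : ℕ → ℝ := fun k => ∑ i ∈ range k, b i with hS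
  have hS_mono : ∀ k, k ≤ n → S k ≤ Bb := by
    intro k hk
    refine le_trans ?_ hBb
    exact sum_le_sum_of_subset_of_nonneg (range_subset_range.2 hk) (fun i _ _ => hb0 i)
  -- main induction
  have hD_R : ∀ k, k ≤ n → D k ≤ R k := by
    intro k hk
    refine (hrec k hk).trans ?_
    simp only [hR, hE]
    rw [sum_add_distrib]
    have : ∑ i ∈ range k, e i ≤ ∑ i ∈ range n, e i :=
      sum_le_sum_of_subset_of_nonneg (range_subset_range.2 hk) (fun i _ _ => he0 i)
    linarith
  have hmain : ∀ k, k ≤ n → 0 < R k ∧ R k ≤ 8 ∧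
      a₀ * Real.exp (-(2 * S k)) ≤ 1 + Real.log (8 / R k) := by
    intro k
    induction k with
    | zero =>
      intro _
      simp only [hR, hS, range_zero, sum_empty, add_zero, mul_zero, neg_zero, Real.exp_zero, mul_one]
      refine ⟨hEpos, ?_, le_refl _⟩
      -- `E ≤ 8` because `1 ≤ a₀ * exp (...)`, and hence `a₀ ≥ 1`
      by_contra hgt
      rw [not_le] at hgt
      have hlog : Real.log (8 / E) < 0 :=
        Real.log_neg (by positivity) ((div_lt_one hEpos).2 hgt)
      have hexp1 : Real.exp (-(2 * Bb)) > 0 := Real.exp_pos _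
      have : (1 + Real.log (8 / E)) * Real.exp (-(2 * Bb)) ≥ 1 := hsmall
      -- a₀ < 1
      have hbb : 0 ≤ Bb := by
        refine le_trans ?_ hBb
        exact sum_nonneg fun i _ => hb0 i
      have hexp2 : Real.exp (-(2 * Bb)) ≤ 1 := Real.exp_le_one_iff.2 (by linarith)
      nlinarith
    | succ k ih =>
      intro hk
      obtain ⟨hR0, hR8, ha⟩ := ih (by omega)
      have hkn : k ≤ n := by omega
      have hb := hb0 k
      have hb2 := hb1 k (by omega)
      have hDk0 := hD0 k hkn
      have hDkR := hD_R k hkn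
      have hpsi : psi (D k) ≤ psi (R k) := psi_mono hDk0 hDkR hR8
      have hpsi0 : 0 ≤ psi (D k) := psi_nonneg hDk0 (hDkR.trans hR8)
      have hstep : R (k + 1) = R k + b k * psi (D k) := by
        simp only [hR, sum_range_succ]
        ring
      have hRs0 : 0 < R (k + 1) := by
        rw [hstep]
        have := mul_nonneg hb hpsi0
        linarith
      set ak := 1 + Real.log (8 / R k) with hak
      have hak_psi : psi (R k) = R k * ak := rfl
      have hak1 : 1 ≤ ak := by
        have : 0 ≤ Real.log (8 / R k) := Real.log_nonneg ((one_le_div hR0).2 hR8)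
        rw [hak]
        linarith
      have hRs_le : R (k + 1) ≤ R k * (1 + b k * ak) := by
        rw [hstep]
        have := mul_le_mul_of_nonneg_left hpsi hb
        rw [hak_psi] at this
        nlinarith
      have hlog_step : Real.log (8 / R k) - b k * ak ≤ Real.log (8 / R (k + 1)) := by
        have hpos1 : 0 < 1 + b k * ak := by positivity
        have h1 : Real.log (8 / (R k * (1 + b k * ak))) ≤ Real.log (8 / R (k + 1)) :=
          Real.log_le_log (by positivity) (div_le_div_of_nonneg_left (by norm_num) hRs0 hRs_le)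
        have h2 : Real.log (8 / (R k * (1 + b k * ak))) =
            Real.log (8 / R k) - Real.log (1 + b k * ak) := by
          rw [← Real.log_div (by positivity) hpos1.ne']
          congr 1
          field_simp
        have h3 : Real.log (1 + b k * ak) ≤ b k * ak := by
          have := Real.log_le_sub_one_of_pos hpos1
          linarith
        linarith
      have hfac : Real.exp (-(2 * b k)) ≤ 1 - b k := by
        have h1 : 1 + 2 * b k ≤ Real.exp (2 * b k) := by
          have := Real.add_one_le_exp (2 * b k)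
          linarith
        rw [Real.exp_neg]
        have hpos : 0 < 1 + 2 * b k := by linarith
        have h2 : (Real.exp (2 * b k))⁻¹ ≤ (1 + 2 * b k)⁻¹ := inv_anti₀ hpos h1
        have h3 : (1 + 2 * b k)⁻¹ ≤ 1 - b k := by
          rw [inv_le_iff_one_le_mul₀ hpos]
          nlinarith
        exact h2.trans h3
      have hak_next : ak * (1 - b k) ≤ 1 + Real.log (8 / R (k + 1)) := by
        have : ak * (1 - b k) = 1 + Real.log (8 / R k) - b k * ak := by
          rw [hak]; ring
        rw [this]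
        linarith
      have hSs : S (k + 1) = S k + b k := by
        simp only [hS, sum_range_succ]
      have hfinal : a₀ * Real.exp (-(2 * S (k + 1))) ≤ 1 + Real.log (8 / R (k + 1)) := by
        have h1 : a₀ * Real.exp (-(2 * S (k + 1))) =
            (a₀ * Real.exp (-(2 * S k))) * Real.exp (-(2 * b k)) := by
          rw [hSs, mul_assoc, ← Real.exp_add]
          congr 2
          ring
        rw [h1]
        have hexp := Real.exp_pos (-(2 * b k))
        calc (a₀ * Real.exp (-(2 * S k))) * Real.exp (-(2 * b k))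
            ≤ ak * Real.exp (-(2 * b k)) := mul_le_mul_of_nonneg_right ha hexp.le
          _ ≤ ak * (1 - b k) := mul_le_mul_of_nonneg_left hfac (by linarith)
          _ ≤ _ := hak_next
      have ha₀pos : 0 < a₀ := by
        by_contra hneg
        rw [not_lt] at hneg
        have : a₀ * Real.exp (-(2 * Bb)) ≤ 0 :=
          mul_nonpos_of_nonpos_of_nonneg hneg (Real.exp_pos _).le
        linarith [hsmall]
      have hge1 : 1 ≤ 1 + Real.log (8 / R (k + 1)) := by
        have h1 : a₀ * Real.exp (-(2 * Bb)) ≤ a₀ * Real.exp (-(2 * S (k + 1))) := by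
          refine mul_le_mul_of_nonneg_left ?_ ha₀pos.le
          apply Real.exp_le_exp.2
          have := hS_mono (k + 1) hk
          linarith
        linarith [hsmall]
      refine ⟨hRs0, ?_, hfinal⟩
      by_contra hgt
      rw [not_le] at hgt
      have hlog : Real.log (8 / R (k + 1)) < 0 :=
        Real.log_neg (by positivity) ((div_lt_one hRs0).2 hgt)
      linarith
  obtain ⟨hR0, _, ha⟩ := hmain n le_rfl
  set A := a₀ * Real.exp (-(2 * Bb)) with hA
  have ha₀pos : 0 < a₀ := by
    by_contra hneg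
    rw [not_lt] at hneg
    have : a₀ * Real.exp (-(2 * Bb)) ≤ 0 :=
      mul_nonpos_of_nonpos_of_nonneg hneg (Real.exp_pos _).le
    linarith [hsmall]
  have hA_le : A ≤ 1 + Real.log (8 / R n) := by
    refine le_trans ?_ ha
    rw [hA]
    refine mul_le_mul_of_nonneg_left ?_ ha₀pos.le
    apply Real.exp_le_exp.2
    have := hS_mono n le_rfl
    linarith
  have hlog : A - 1 ≤ Real.log (8 / R n) := by linarith
  have hexp := Real.exp_le_exp.2 hlog
  rw [Real.exp_log (by positivity)] at hexp
  have hRn : R n ≤ 8 * Real.exp 1 * Real.exp (-A) := by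
    have h1 : Real.exp (A - 1) * R n ≤ 8 := by
      rw [le_div_iff₀ hR0] at hexp
      exact hexp
    have h3 : Real.exp 1 * Real.exp (-A) * Real.exp (A - 1) = 1 := by
      rw [← Real.exp_add, ← Real.exp_add]
      have : 1 + -A + (A - 1) = 0 := by ring
      rw [this, Real.exp_zero]
    have hpos : 0 < Real.exp 1 * Real.exp (-A) := by positivity
    calc R n = (Real.exp 1 * Real.exp (-A) * Real.exp (A - 1)) * R n := by rw [h3, one_mul]
      _ = (Real.exp 1 * Real.exp (-A)) * (Real.exp (A - 1) * R n) := by ring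
      _ ≤ (Real.exp 1 * Real.exp (-A)) * 8 := mul_le_mul_of_nonneg_left h1 hpos.le
      _ = 8 * Real.exp 1 * Real.exp (-A) := by ring
  exact (hD_R n le_rfl).trans hRn

/-- A2'. The bound of the Osgood lemma tends to zero with `E`. -/
theorem osgood_small (Bb η : ℝ) (hη : 0 < η) : ∃ ε₁ : ℝ, 0 < ε₁ ∧ ∀ E, 0 < E → E ≤ ε₁ →
    1 ≤ (1 + Real.log (8 / E)) * Real.exp (-(2 * Bb)) ∧
    8 * Real.exp 1 * Real.exp (-((1 + Real.log (8 / E)) * Real.exp (-(2 * Bb)))) ≤ η := by
  set κ := Real.exp (-(2 * Bb)) with hκ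
  have hκpos : 0 < κ := Real.exp_pos _
  set X := max 1 (Real.log (8 * Real.exp 1 / η)) with hX
  have hX1 : 1 ≤ X := le_max_left _ _
  refine ⟨8 * Real.exp (1 - X / κ), by positivity, ?_⟩
  intro E hE hEle
  have hlog : X / κ - 1 ≤ Real.log (8 / E) := by
    rw [Real.le_log_iff_exp_le (by positivity), le_div_iff₀ hE]
    have h1 : Real.exp (X / κ - 1) * Real.exp (1 - X / κ) = 1 := by
      rw [← Real.exp_add]
      have : X / κ - 1 + (1 - X / κ) = 0 := by ring
      rw [this, Real.exp_zero]
    calc Real.exp (X / κ - 1) * E ≤ Real.exp (X / κ - 1) * (8 * Real.exp (1 - X / κ)) :=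
          mul_le_mul_of_nonneg_left hEle (Real.exp_pos _).le
      _ = 8 * (Real.exp (X / κ - 1) * Real.exp (1 - X / κ)) := by ring
      _ = 8 := by rw [h1]; ring
  have hprod : X ≤ (1 + Real.log (8 / E)) * κ := by
    have h1 : X / κ ≤ 1 + Real.log (8 / E) := by linarith
    rwa [div_le_iff₀ hκpos] at h1
  refine ⟨hX1.trans hprod, ?_⟩
  have h2 : Real.log (8 * Real.exp 1 / η) ≤ (1 + Real.log (8 / E)) * κ :=
    (le_max_right _ _).trans hprod
  have h3 : Real.exp (-((1 + Real.log (8 / E)) * κ)) ≤ Real.exp (-(Real.log (8 * Real.exp 1 / η))) :=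
    Real.exp_le_exp.2 (by linarith)
  have h4 : Real.exp (-(Real.log (8 * Real.exp 1 / η))) = (8 * Real.exp 1 / η)⁻¹ := by
    rw [Real.exp_neg, Real.exp_log (by positivity)]
  rw [h4] at h3
  have hpos : 0 < 8 * Real.exp 1 := by positivity
  calc 8 * Real.exp 1 * Real.exp (-((1 + Real.log (8 / E)) * κ))
      ≤ 8 * Real.exp 1 * (8 * Real.exp 1 / η)⁻¹ := mul_le_mul_of_nonneg_left h3 hpos.le
    _ = η := by field_simp

end Vale.Agent.Lib.P161E
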