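import Vale.Agent.Lib.P161E.AnaHelly

/-! Job A6: geometric sums and Riemann sums. -/

open MeasureTheory Finset Filter Topology
open scoped ENNReal

noncomputable section

namespace Vale.Agent.Lib.P161E

/-- A6. Geometric sums. -/
private theorem one_sub_exp_neg_ge {a : ℝ} (ha : 0 < a) (ha1 : a ≤ 1) : a / 2 ≤ 1 - Real.exp (-a) := by
  have h1 : 1 + a ≤ Real.exp a := by linarith [Real.add_one_le_exp a]
  rw [Real.exp_neg]
  have hpos : 0 < 1 + a := by linarith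
  have h2 : (Real.exp a)⁻¹ ≤ (1 + a)⁻¹ := inv_anti₀ hpos h1
  have h3 : (1 + a)⁻¹ ≤ 1 - a / 2 := by
    rw [inv_le_iff_one_le_mul₀ hpos]
    nlinarith
  linarith

private theorem exp_neg_mul_nat (a : ℝ) (n : ℕ) : Real.exp (-(a * n)) = Real.exp (-a) ^ n := by
  rw [← Real.exp_nat_mul]
  congr 1
  ring

private theorem abel_geom (f : ℕ → ℝ) (hf : f 0 = 0) (q : ℝ) (N : ℕ) :
    (1 - q) * ∑ n ∈ range N, f (n + 1) * q ^ n + f N * q ^ N =
      ∑ n ∈ range N, (f (n + 1) - f n) * q ^ n := by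
  induction N with
  | zero => simp [hf]
  | succ N ih =>
    rw [sum_range_succ, sum_range_succ, ← ih]
    ring

private theorem sum_geom_le {q : ℝ} (hq0 : 0 ≤ q) (hq1 : q < 1) (N : ℕ) :
    ∑ n ∈ range N, q ^ n ≤ (1 - q)⁻¹ := by
  rw [← tsum_geometric_of_lt_one hq0 hq1]
  exact (summable_geometric_of_lt_one hq0 hq1).sum_le_tsum _ (fun i _ => by positivity)

private theorem sum_one_mul_le {q : ℝ} (hq0 : 0 ≤ q) (hq1 : q < 1) (N : ℕ) :
    ∑ n ∈ range N, ((n : ℝ) + 1) * q ^ n ≤ ((1 - q)⁻¹) ^ 2 := by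
  have hr : 0 < 1 - q := by linarith
  have h : (1 - q) * ∑ n ∈ range N, ((n + 1 : ℕ) : ℝ) * q ^ n + (N : ℝ) * q ^ N =
      ∑ n ∈ range N, (((n + 1 : ℕ) : ℝ) - (n : ℝ)) * q ^ n :=
    abel_geom (fun n => (n : ℝ)) (by simp) q N
  have h1 : ∑ n ∈ range N, (((n + 1 : ℕ) : ℝ) - (n : ℝ)) * q ^ n = ∑ n ∈ range N, q ^ n :=
    sum_congr rfl fun n _ => by push_cast; ring
  rw [h1] at h
  have h2 : (0 : ℝ) ≤ (N : ℝ) * q ^ N := by positivity
  have h3 := sum_geom_le hq0 hq1 N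
  have h4 : (1 - q) * ∑ n ∈ range N, ((n + 1 : ℕ) : ℝ) * q ^ n ≤ (1 - q)⁻¹ := by linarith
  have h5 : ∑ n ∈ range N, ((n : ℝ) + 1) * q ^ n = ∑ n ∈ range N, ((n + 1 : ℕ) : ℝ) * q ^ n :=
    sum_congr rfl fun n _ => by push_cast; ring
  rw [h5]
  rw [sq, ← div_eq_mul_inv, le_div_iff₀ hr]
  rw [mul_comm]
  exact h4

private theorem sum_sq_mul_le {q : ℝ} (hq0 : 0 ≤ q) (hq1 : q < 1) (N : ℕ) :
    ∑ n ∈ range N, ((n : ℝ) + 1) ^ 2 * q ^ n ≤ 2 * ((1 - q)⁻¹) ^ 3 := by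
  have hr : 0 < 1 - q := by linarith
  have h : (1 - q) * ∑ n ∈ range N, ((n + 1 : ℕ) : ℝ) ^ 2 * q ^ n + (N : ℝ) ^ 2 * q ^ N =
      ∑ n ∈ range N, (((n + 1 : ℕ) : ℝ) ^ 2 - (n : ℝ) ^ 2) * q ^ n :=
    abel_geom (fun n => (n : ℝ) ^ 2) (by simp) q N
  have h2 : (0 : ℝ) ≤ (N : ℝ) ^ 2 * q ^ N := by positivity
  have h3 := sum_one_mul_le hq0 hq1 N
  have h6 : ∑ n ∈ range N, (((n + 1 : ℕ) : ℝ) ^ 2 - (n : ℝ) ^ 2) * q ^ n ≤
      2 * ∑ n ∈ range N, ((n : ℝ) + 1) * q ^ n := by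
    rw [mul_sum]
    refine sum_le_sum fun n _ => ?_
    have : 0 ≤ q ^ n := by positivity
    push_cast
    nlinarith [mul_nonneg (Nat.cast_nonneg (α := ℝ) n) this]
  have h4 : (1 - q) * ∑ n ∈ range N, ((n + 1 : ℕ) : ℝ) ^ 2 * q ^ n ≤ 2 * ((1 - q)⁻¹) ^ 2 := by
    linarith
  have h5 : ∑ n ∈ range N, ((n : ℝ) + 1) ^ 2 * q ^ n = ∑ n ∈ range N, ((n + 1 : ℕ) : ℝ) ^ 2 * q ^ n :=
    sum_congr rfl fun n _ => by push_cast; ring
  rw [h5]
  have h7 : 2 * ((1 - q)⁻¹) ^ 3 = 2 * ((1 - q)⁻¹) ^ 2 / (1 - q) := by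
    field_simp
  rw [h7, le_div_iff₀ hr, mul_comm]
  exact h4

theorem sum_exp_le {a : ℝ} (ha : 0 < a) (ha1 : a ≤ 1) (N : ℕ) :
    ∑ n ∈ range N, Real.exp (-(a * n)) ≤ 2 / a := by
  have hq1 : Real.exp (-a) < 1 := by
    rw [← Real.exp_zero]
    exact Real.exp_lt_exp.2 (by linarith)
  have hr := one_sub_exp_neg_ge ha ha1
  have h := sum_geom_le (Real.exp_pos (-a)).le hq1 N
  simp_rw [exp_neg_mul_nat]
  refine h.trans ?_
  have hapos : 0 < a / 2 := by linarith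
  have h2 : (1 - Real.exp (-a))⁻¹ ≤ (a / 2)⁻¹ := inv_anti₀ hapos hr
  have h3 : (a / 2)⁻¹ = 2 / a := by field_simp
  linarith

theorem sum_mul_exp_le {a : ℝ} (ha : 0 < a) (ha1 : a ≤ 1) (N : ℕ) :
    ∑ n ∈ range N, (n + 1 : ℝ) * Real.exp (-(a * n)) ≤ 8 / a ^ 2 := by
  have hq1 : Real.exp (-a) < 1 := by
    rw [← Real.exp_zero]
    exact Real.exp_lt_exp.2 (by linarith)
  have hr := one_sub_exp_neg_ge ha ha1
  have h := sum_one_mul_le (Real.exp_pos (-a)).le hq1 N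
  simp_rw [exp_neg_mul_nat]
  refine h.trans ?_
  have hapos : 0 < a / 2 := by linarith
  have h2 : (1 - Real.exp (-a))⁻¹ ≤ (a / 2)⁻¹ := inv_anti₀ hapos hr
  have h0 : 0 ≤ (1 - Real.exp (-a))⁻¹ := inv_nonneg.2 (by linarith)
  have h3 : (a / 2)⁻¹ = 2 / a := by field_simp
  have h4 : ((1 - Real.exp (-a))⁻¹) ^ 2 ≤ (2 / a) ^ 2 := by
    rw [← h3]
    exact pow_le_pow_left₀ h0 h2 2
  have h5 : (2 / a) ^ 2 ≤ 8 / a ^ 2 := by
    rw [div_pow]
    have : 0 < a ^ 2 := by positivity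
    exact div_le_div_of_nonneg_right (by norm_num) this.le
  linarith

theorem sum_sq_mul_exp_le {a : ℝ} (ha : 0 < a) (ha1 : a ≤ 1) (N : ℕ) :
    ∑ n ∈ range N, (n + 1 : ℝ) ^ 2 * Real.exp (-(a * n)) ≤ 64 / a ^ 3 := by
  have hq1 : Real.exp (-a) < 1 := by
    rw [← Real.exp_zero]
    exact Real.exp_lt_exp.2 (by linarith)
  have hr := one_sub_exp_neg_ge ha ha1
  have h := sum_sq_mul_le (Real.exp_pos (-a)).le hq1 N
  simp_rw [exp_neg_mul_nat]
  refine h.trans ?_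
  have hapos : 0 < a / 2 := by linarith
  have h2 : (1 - Real.exp (-a))⁻¹ ≤ (a / 2)⁻¹ := inv_anti₀ hapos hr
  have h0 : 0 ≤ (1 - Real.exp (-a))⁻¹ := inv_nonneg.2 (by linarith)
  have h3 : (a / 2)⁻¹ = 2 / a := by field_simp
  have h4 : ((1 - Real.exp (-a))⁻¹) ^ 3 ≤ (2 / a) ^ 3 := by
    rw [← h3]
    exact pow_le_pow_left₀ h0 h2 3
  have h5 : 2 * (2 / a) ^ 3 ≤ 64 / a ^ 3 := by
    rw [div_pow, ← mul_div_assoc]
    have : 0 < a ^ 3 := by positivity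
    exact div_le_div_of_nonneg_right (by norm_num) this.le
  linarith

/-- Tail of the quadratic sum. -/
theorem sum_tail_sq_exp_le {a : ℝ} (ha : 0 < a) (ha1 : a ≤ 1) (K N : ℕ) :
    ∑ n ∈ Finset.Ico K N, (n + 1 : ℝ) ^ 2 * Real.exp (-(a * n)) ≤
      64 * ((K + 1 : ℝ) ^ 2 / a ^ 3) * Real.exp (-(a * K)) := by
  rcases le_total N K with hNK | hKN
  · rw [Finset.Ico_eq_empty_of_le hNK, sum_empty]
    positivity
  · rw [Finset.sum_Ico_eq_sum_range]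
    have hterm : ∀ m ∈ range (N - K), ((K + m : ℕ) + 1 : ℝ) ^ 2 * Real.exp (-(a * ((K + m : ℕ) : ℝ))) ≤
        ((K + 1 : ℝ) ^ 2 * Real.exp (-(a * K))) * ((m + 1 : ℝ) ^ 2 * Real.exp (-(a * m))) := by
      intro m _
      have hexp : Real.exp (-(a * ((K + m : ℕ) : ℝ))) = Real.exp (-(a * K)) * Real.exp (-(a * m)) := by
        rw [← Real.exp_add]
        congr 1
        push_cast
        ring
      rw [hexp]
      have hK : (0 : ℝ) ≤ K := Nat.cast_nonneg K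
      have hm : (0 : ℝ) ≤ m := Nat.cast_nonneg m
      have hpoly : ((K + m : ℕ) + 1 : ℝ) ≤ (K + 1) * (m + 1) := by
        push_cast
        nlinarith [mul_nonneg hK hm]
      have hpoly2 : ((K + m : ℕ) + 1 : ℝ) ^ 2 ≤ ((K + 1) * (m + 1)) ^ 2 :=
        pow_le_pow_left₀ (by positivity) hpoly 2
      have hexp0 : 0 ≤ Real.exp (-(a * K)) * Real.exp (-(a * m)) := by positivity
      calc ((K + m : ℕ) + 1 : ℝ) ^ 2 * (Real.exp (-(a * K)) * Real.exp (-(a * m)))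
          ≤ ((K + 1) * (m + 1)) ^ 2 * (Real.exp (-(a * K)) * Real.exp (-(a * m))) :=
            mul_le_mul_of_nonneg_right hpoly2 hexp0
        _ = _ := by ring
    calc _ ≤ ∑ m ∈ range (N - K), ((K + 1 : ℝ) ^ 2 * Real.exp (-(a * K))) *
          ((m + 1 : ℝ) ^ 2 * Real.exp (-(a * m))) := sum_le_sum hterm
      _ = ((K + 1 : ℝ) ^ 2 * Real.exp (-(a * K))) *
          ∑ m ∈ range (N - K), ((m + 1 : ℝ) ^ 2 * Real.exp (-(a * m))) := by rw [mul_sum]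
      _ ≤ ((K + 1 : ℝ) ^ 2 * Real.exp (-(a * K))) * (64 / a ^ 3) :=
          mul_le_mul_of_nonneg_left (sum_sq_mul_exp_le ha ha1 _) (by positivity)
      _ = _ := by ring

/-- Riemann sums of a negative power, on a grid. -/
theorem sum_rpow_grid {α δ : ℝ} (hα : 0 < α) (hα1 : α < 1) (hδ : 0 < δ) (N : ℕ) :
    ∑ k ∈ range N, δ * (((k + 1 : ℕ) : ℝ) * δ) ^ (-α) ≤ (N * δ) ^ (1 - α) / (1 - α) := by
  have hpos : 0 < 1 - α := by linarith
  induction N with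
  | zero =>
    simp only [range_zero, sum_empty, Nat.cast_zero, zero_mul]
    rw [Real.zero_rpow hpos.ne']
    simp
  | succ N ih =>
    rw [sum_range_succ]
    set y := ((N + 1 : ℕ) : ℝ) * δ with hy
    set x := (N : ℝ) * δ with hx
    have hypos : 0 < y := by positivity
    have hx0 : 0 ≤ x := by positivity
    have hδy : δ = y - x := by rw [hy, hx]; push_cast; ring
    set t := x / y with ht
    have ht0 : 0 ≤ t := by positivity
    have hxt : x = t * y := by rw [ht]; field_simp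
    have hb := rpow_one_add_le_one_add_mul_self (s := t - 1) (p := 1 - α) (by linarith)
      hpos.le (by linarith)
    have h1t : (1 + (t - 1)) = t := by ring
    rw [h1t] at hb
    have hxp : x ^ (1 - α) = t ^ (1 - α) * y ^ (1 - α) := by
      rw [hxt, Real.mul_rpow ht0 hypos.le]
    have hyp : y * y ^ (-α) = y ^ (1 - α) := by
      have : y ^ (1 - α) = y ^ (1 : ℝ) * y ^ (-α) := by
        rw [← Real.rpow_add hypos]
        congr 1
        try ring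
      rw [this, Real.rpow_one]
    have hstep : δ * y ^ (-α) ≤ (y ^ (1 - α) - x ^ (1 - α)) / (1 - α) := by
      rw [le_div_iff₀ hpos, hxp]
      have hY : 0 < y ^ (1 - α) := Real.rpow_pos_of_pos hypos _
      have : δ * y ^ (-α) = (1 - t) * y ^ (1 - α) := by
        rw [hδy, hxt, ← hyp]
        ring
      rw [this]
      nlinarith [mul_le_mul_of_nonneg_right hb hY.le]
    have hsplit : y ^ (1 - α) / (1 - α) = x ^ (1 - α) / (1 - α) +
        (y ^ (1 - α) - x ^ (1 - α)) / (1 - α) := by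
      field_simp
      try ring
    rw [hsplit]
    exact add_le_add ih hstep

end Vale.Agent.Lib.P161E
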