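import Vale.Agent.Lib.P161E.AnaOsgood

/-! Job A4: exponential moments from tails and good events. -/

open MeasureTheory Finset Filter Topology
open scoped ENNReal

noncomputable section

namespace Vale.Agent.Lib.P161E

section tails

variable {Ω : Type*} [MeasurableSpace Ω] {P : Measure Ω} [IsProbabilityMeasure P]

private theorem exp_half_bounds : Real.exp (1 / 2) < 1.65 ∧ Real.exp (-(1 / 2)) < 0.625 := by
  have he : Real.exp 1 < 2.7182818286 := Real.exp_one_lt_d9
  have he2 : (2.7182818283 : ℝ) < Real.exp 1 := Real.exp_one_gt_d9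
  have hsq : Real.exp (1 / 2) * Real.exp (1 / 2) = Real.exp 1 := by
    rw [← Real.exp_add]; norm_num
  have hpos := Real.exp_pos (1 / 2 : ℝ)
  have h1 : Real.exp (1 / 2) < 1.65 := by nlinarith
  have h2 : (1.6 : ℝ) < Real.exp (1 / 2) := by nlinarith
  refine ⟨h1, ?_⟩
  rw [Real.exp_neg]
  have : (Real.exp (1 / 2))⁻¹ < (1.6 : ℝ)⁻¹ := inv_strictAnti₀ (by norm_num) h2
  calc (Real.exp (1 / 2))⁻¹ < (1.6 : ℝ)⁻¹ := this
    _ = 0.625 := by norm_num

private theorem tsum_geom_half :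
    Summable (fun s : ℕ => Real.exp (-(1 / 2)) ^ s) ∧
      ∑' s : ℕ, Real.exp (-(1 / 2)) ^ s = (1 - Real.exp (-(1 / 2)))⁻¹ := by
  have hq0 : 0 ≤ Real.exp (-(1 / 2)) := (Real.exp_pos _).le
  have hq1 : Real.exp (-(1 / 2)) < 1 := by
    have := exp_half_bounds.2
    linarith
  exact ⟨summable_geometric_of_lt_one hq0 hq1, tsum_geometric_of_lt_one hq0 hq1⟩

private theorem exp_nat_half (s : ℕ) : Real.exp (-(s : ℝ)) * Real.exp ((s : ℝ) / 2) =
    Real.exp (-(1 / 2)) ^ s := by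
  rw [← Real.exp_add, ← Real.exp_nat_mul]
  congr 1
  ring

/-- General tail summation for lintegrals: a pointwise bound by a series of indicators of sets whose measures decay
exponentially. -/
private theorem lintegral_series_le {B : ℕ → Set Ω} (hBm : ∀ s, MeasurableSet (B s)) {A c : ℝ} (hA : 0 ≤ A)
    (hc : 0 ≤ c) (hB : ∀ s : ℕ, P (B s) ≤ ENNReal.ofReal (A * Real.exp (-(s : ℝ)))) :
    ∫⁻ ω, ∑' s : ℕ, (B s).indicator (fun _ => ENNReal.ofReal (c * Real.exp ((s : ℝ) / 2))) ω ∂P ≤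
      ENNReal.ofReal (A * c * (1 - Real.exp (-(1 / 2)))⁻¹) := by
  rw [lintegral_tsum (fun s => (measurable_const.indicator (hBm s)).aemeasurable)]
  have hterm : ∀ s : ℕ, ∫⁻ ω, (B s).indicator (fun _ => ENNReal.ofReal (c * Real.exp ((s : ℝ) / 2))) ω ∂P ≤
      ENNReal.ofReal (A * c * Real.exp (-(1 / 2)) ^ s) := by
    intro s
    rw [lintegral_indicator (hBm s), setLIntegral_const]
    calc ENNReal.ofReal (c * Real.exp ((s : ℝ) / 2)) * P (B s)
        ≤ ENNReal.ofReal (c * Real.exp ((s : ℝ) / 2)) * ENNReal.ofReal (A * Real.exp (-(s : ℝ))) := by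
          gcongr
          exact hB s
      _ = ENNReal.ofReal (A * c * Real.exp (-(1 / 2)) ^ s) := by
          rw [← ENNReal.ofReal_mul (by positivity), ← exp_nat_half]
          congr 1
          ring
  obtain ⟨hs, ht⟩ := tsum_geom_half
  have hs2 : Summable (fun s : ℕ => A * c * Real.exp (-(1 / 2)) ^ s) := hs.mul_left _
  calc ∑' s : ℕ, ∫⁻ ω, (B s).indicator (fun _ => ENNReal.ofReal (c * Real.exp ((s : ℝ) / 2))) ω ∂P
      ≤ ∑' s : ℕ, ENNReal.ofReal (A * c * Real.exp (-(1 / 2)) ^ s) := ENNReal.tsum_le_tsum hterm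
    _ = ENNReal.ofReal (∑' s : ℕ, A * c * Real.exp (-(1 / 2)) ^ s) :=
        (ENNReal.ofReal_tsum_of_nonneg (fun s => by positivity) hs2).symm
    _ = _ := by rw [tsum_mul_left, ht]

/-- A4. Exponential moment from an exponential tail. -/
theorem exp_moment_of_tail {X : Ω → ℝ} (hXm : Measurable X) (hX0 : ∀ ω, 0 ≤ X ω) {A : ℝ} (hA : 1 ≤ A)
    (htail : ∀ s : ℕ, P {ω | (s : ℝ) ≤ X ω} ≤ ENNReal.ofReal (A * Real.exp (-(s : ℝ)))) :
    ∫⁻ ω, ENNReal.ofReal (Real.exp (X ω / 2)) ∂P ≤ ENNReal.ofReal (5 * A) := by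
  set B : ℕ → Set Ω := fun s => {ω | (s : ℝ) ≤ X ω} with hB
  have hBm : ∀ s, MeasurableSet (B s) := fun s => measurableSet_le measurable_const hXm
  set c := Real.exp (1 / 2) with hc
  have hpt : ∀ ω, ENNReal.ofReal (Real.exp (X ω / 2)) ≤
      ∑' s : ℕ, (B s).indicator (fun _ => ENNReal.ofReal (c * Real.exp ((s : ℝ) / 2))) ω := by
    intro ω
    set s := ⌊X ω⌋₊ with hs
    have h1 : (s : ℝ) ≤ X ω := Nat.floor_le (hX0 ω)
    have h2 : X ω < s + 1 := Nat.lt_floor_add_one _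
    calc ENNReal.ofReal (Real.exp (X ω / 2))
        ≤ ENNReal.ofReal (c * Real.exp ((s : ℝ) / 2)) := by
          apply ENNReal.ofReal_le_ofReal
          rw [hc, ← Real.exp_add]
          apply Real.exp_le_exp.2
          linarith
      _ = (B s).indicator (fun _ => ENNReal.ofReal (c * Real.exp ((s : ℝ) / 2))) ω := by
          rw [Set.indicator_of_mem]
          exact h1
      _ ≤ _ := ENNReal.le_tsum s
  calc ∫⁻ ω, ENNReal.ofReal (Real.exp (X ω / 2)) ∂P
      ≤ ∫⁻ ω, ∑' s : ℕ, (B s).indicator (fun _ => ENNReal.ofReal (c * Real.exp ((s : ℝ) / 2))) ω ∂P :=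
        lintegral_mono hpt
    _ ≤ ENNReal.ofReal (A * c * (1 - Real.exp (-(1 / 2)))⁻¹) :=
        lintegral_series_le hBm (by linarith) (Real.exp_pos _).le htail
    _ ≤ ENNReal.ofReal (5 * A) := by
        apply ENNReal.ofReal_le_ofReal
        obtain ⟨h1, h2⟩ := exp_half_bounds
        have hr : (0.375 : ℝ) ≤ 1 - Real.exp (-(1 / 2)) := by linarith
        have hinv : (1 - Real.exp (-(1 / 2)))⁻¹ ≤ (0.375 : ℝ)⁻¹ := inv_anti₀ (by norm_num) hr
        have hc0 : 0 ≤ c := (Real.exp_pos _).le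
        have h3 : c * (1 - Real.exp (-(1 / 2)))⁻¹ ≤ 1.65 * (0.375 : ℝ)⁻¹ :=
          mul_le_mul h1.le hinv (inv_nonneg.2 (by linarith)) (by norm_num)
        have h4 : (1.65 : ℝ) * (0.375 : ℝ)⁻¹ ≤ 5 := by norm_num
        have hA0 : 0 ≤ A := by linarith
        calc A * c * (1 - Real.exp (-(1 / 2)))⁻¹ = A * (c * (1 - Real.exp (-(1 / 2)))⁻¹) := by ring
          _ ≤ A * 5 := mul_le_mul_of_nonneg_left (h3.trans h4) hA0
          _ = 5 * A := by ring

private theorem rpow_quarter_le (z : ℕ) : ((2 : ℝ) + z) ^ (1 / 4 : ℝ) ≤ 2 + (z : ℝ) / 2 := by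
  set y : ℝ := 2 + z with hy
  have hy0 : 0 ≤ y := by positivity
  set t := y ^ (1 / 4 : ℝ) with ht
  have ht0 : 0 ≤ t := Real.rpow_nonneg hy0 _
  have ht4 : t ^ 4 = y := by
    rw [ht, ← Real.rpow_natCast, ← Real.rpow_mul hy0]
    norm_num
  have hz : (z : ℝ) = y - 2 := by rw [hy]; ring
  rw [hz, ← ht4]
  nlinarith [sq_nonneg (t ^ 2 - 1), sq_nonneg (t - 1 / 2)]

/-- A4'. Exponential moment from a family of good events on which `X` is controlled by `(1+z)^(1/4)`.
Proof: `(2+z)^(1/4) ≤ 2 + z/2`, sum over the first `z` with `ω ∈ Good z`. -/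
theorem exp_moment_good {X : Ω → ℝ} (hXm : Measurable X) (hX0 : ∀ ω, 0 ≤ X ω) {A : ℝ} (hA : 1 ≤ A)
    (Good : ℕ → Set Ω) (hGm : ∀ z, MeasurableSet (Good z))
    (hG : ∀ z : ℕ, P (Good z)ᶜ ≤ ENNReal.ofReal (A * Real.exp (-(z : ℝ))))
    (hX : ∀ (z : ℕ), ∀ ω ∈ Good z, X ω ≤ (1 + (z : ℝ)) ^ (1 / 4 : ℝ)) :
    ∫⁻ ω, ENNReal.ofReal (Real.exp (X ω)) ∂P ≤ ENNReal.ofReal (30 * A) := by
  set B : ℕ → Set Ω := fun s => (Good s)ᶜ with hB
  have hBm : ∀ s, MeasurableSet (B s) := fun s => (hGm s).compl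
  set c := Real.exp 2 with hc
  have hc1 : 1 ≤ c := Real.one_le_exp (by norm_num)
  have hpt : ∀ ω, ENNReal.ofReal (Real.exp (X ω)) ≤ ENNReal.ofReal (Real.exp 1) +
      ∑' s : ℕ, (B s).indicator (fun _ => ENNReal.ofReal (c * Real.exp ((s : ℝ) / 2))) ω := by
    intro ω
    by_cases hex : ∃ z, ω ∈ Good z
    · classical
      set z := Nat.find hex with hz
      have hzmem : ω ∈ Good z := Nat.find_spec hex
      rcases Nat.eq_zero_or_pos z with h0 | hpos
      · have h1 : X ω ≤ 1 := by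
          have := hX z ω hzmem
          rw [h0] at this
          simpa using this
        refine le_trans ?_ le_self_add
        exact ENNReal.ofReal_le_ofReal (Real.exp_le_exp.2 h1)
      · obtain ⟨w, hw⟩ : ∃ w, z = w + 1 := ⟨z - 1, by omega⟩
        have hnot : ω ∉ Good w := Nat.find_min hex (by omega)
        have h1 := hX z ω hzmem
        have h2 : (1 + (z : ℝ)) = 2 + (w : ℝ) := by rw [hw]; push_cast; ring
        rw [h2] at h1
        have h3 := h1.trans (rpow_quarter_le w)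
        refine le_trans ?_ le_add_self
        calc ENNReal.ofReal (Real.exp (X ω))
            ≤ ENNReal.ofReal (c * Real.exp ((w : ℝ) / 2)) := by
              apply ENNReal.ofReal_le_ofReal
              rw [hc, ← Real.exp_add]
              exact Real.exp_le_exp.2 h3
          _ = (B w).indicator (fun _ => ENNReal.ofReal (c * Real.exp ((w : ℝ) / 2))) ω := by
              rw [Set.indicator_of_mem]
              exact hnot
          _ ≤ _ := ENNReal.le_tsum w
    · rw [not_exists] at hex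
      have htop : ∑' s : ℕ, (B s).indicator (fun _ => ENNReal.ofReal (c * Real.exp ((s : ℝ) / 2))) ω = ⊤ := by
        have h1 : ∑' _s : ℕ, (1 : ℝ≥0∞) = ⊤ := ENNReal.tsum_const_eq_top_of_ne_zero one_ne_zero
        refine top_le_iff.1 (h1 ▸ ENNReal.tsum_le_tsum fun s => ?_)
        rw [Set.indicator_of_mem (hex s)]
        rw [← ENNReal.ofReal_one]
        apply ENNReal.ofReal_le_ofReal
        have : 1 ≤ Real.exp ((s : ℝ) / 2) := Real.one_le_exp (by positivity)
        nlinarith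
      rw [htop]
      simp
  have hmeas : Measurable fun ω => ∑' s : ℕ,
      (B s).indicator (fun _ => ENNReal.ofReal (c * Real.exp ((s : ℝ) / 2))) ω :=
    Measurable.tsum fun s => measurable_const.indicator (hBm s)
  calc ∫⁻ ω, ENNReal.ofReal (Real.exp (X ω)) ∂P
      ≤ ∫⁻ ω, (ENNReal.ofReal (Real.exp 1) +
        ∑' s : ℕ, (B s).indicator (fun _ => ENNReal.ofReal (c * Real.exp ((s : ℝ) / 2))) ω) ∂P :=
        lintegral_mono hpt
    _ = ENNReal.ofReal (Real.exp 1) +
        ∫⁻ ω, ∑' s : ℕ, (B s).indicator (fun _ => ENNReal.ofReal (c * Real.exp ((s : ℝ) / 2))) ω ∂P := by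
        rw [lintegral_add_left measurable_const]
        simp
    _ ≤ ENNReal.ofReal (Real.exp 1) + ENNReal.ofReal (A * c * (1 - Real.exp (-(1 / 2)))⁻¹) := by
        gcongr
        exact lintegral_series_le hBm (by linarith) (by linarith) hG
    _ ≤ ENNReal.ofReal (30 * A) := by
        obtain ⟨h1, h2⟩ := exp_half_bounds
        have hr : (0.375 : ℝ) ≤ 1 - Real.exp (-(1 / 2)) := by linarith
        have hinv : (1 - Real.exp (-(1 / 2)))⁻¹ ≤ (0.375 : ℝ)⁻¹ := inv_anti₀ (by norm_num) hr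
        have he : Real.exp 1 < 2.7182818286 := Real.exp_one_lt_d9
        have hc2 : c ≤ 7.39 := by
          have : c = Real.exp 1 * Real.exp 1 := by rw [hc, ← Real.exp_add]; norm_num
          rw [this]
          have he0 := Real.exp_pos 1
          nlinarith
        have h3 : c * (1 - Real.exp (-(1 / 2)))⁻¹ ≤ 7.39 * (0.375 : ℝ)⁻¹ :=
          mul_le_mul hc2 hinv (inv_nonneg.2 (by linarith)) (by norm_num)
        have hinvpos : 0 ≤ (1 - Real.exp (-(1 / 2)))⁻¹ := inv_nonneg.2 (by linarith)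
        have hA0 : 0 ≤ A := by linarith
        have hpos : 0 ≤ A * c * (1 - Real.exp (-(1 / 2)))⁻¹ := by positivity
        rw [← ENNReal.ofReal_add (Real.exp_pos _).le hpos]
        apply ENNReal.ofReal_le_ofReal
        have h4 : A * c * (1 - Real.exp (-(1 / 2)))⁻¹ ≤ A * (7.39 * (0.375 : ℝ)⁻¹) := by
          calc A * c * (1 - Real.exp (-(1 / 2)))⁻¹ = A * (c * (1 - Real.exp (-(1 / 2)))⁻¹) := by ring
            _ ≤ _ := mul_le_mul_of_nonneg_left h3 hA0
        have h5 : (7.39 : ℝ) * (0.375 : ℝ)⁻¹ ≤ 20 := by norm_num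
        nlinarith

end tails

end Vale.Agent.Lib.P161E
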