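import Vale.Agent.Lib.P161E.Defs

/-! Job A1: entropy inequality of Yudovich type and the modulus psi. -/

open MeasureTheory Finset Filter Topology
open scoped ENNReal

noncomputable section

namespace Vale.Agent.Lib.P161E

section young

variable {Ω : Type*} [MeasurableSpace Ω] {P : Measure Ω} [IsProbabilityMeasure P]

/-- Pointwise Young inequality behind `yudovich`. -/
private theorem young_pt {w y c : ℝ} (hy0 : 0 ≤ y) (hy8 : y ≤ 8) (hc : 0 < c) :
    w * y ≤ y * Real.log (8 / c) - y + c * Real.exp w := by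
  rcases hy0.eq_or_lt with rfl | hy
  · have := Real.exp_pos w
    have : 0 < c * Real.exp w := by positivity
    simpa using this.le
  · have hx : 0 < y / c := div_pos hy hc
    have h1 : Real.log (Real.exp w / (y / c)) ≤ Real.exp w / (y / c) - 1 :=
      Real.log_le_sub_one_of_pos (div_pos (Real.exp_pos w) hx)
    rw [Real.log_div (Real.exp_pos w).ne' hx.ne', Real.log_exp] at h1
    have h2 : Real.log (y / c) ≤ Real.log (8 / c) :=
      Real.log_le_log hx (div_le_div_of_nonneg_right hy8 hc.le)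
    have h3 : y * w ≤ y * Real.log (y / c) - y + c * Real.exp w := by
      have h4 := mul_le_mul_of_nonneg_left h1 hy.le
      have h5 : y * (Real.exp w / (y / c)) = c * Real.exp w := by
        field_simp
      nlinarith [h4, h5]
    have h6 := mul_le_mul_of_nonneg_left h2 hy.le
    nlinarith [h3, h6]

private theorem one_le_of_lintegral_exp {W : Ω → ℝ} (hW0 : ∀ ω, 0 ≤ W ω) {M : ℝ}
    (hM : ∫⁻ ω, ENNReal.ofReal (Real.exp (W ω)) ∂P ≤ ENNReal.ofReal M) : 1 ≤ M := by
  have h1 : (1 : ℝ≥0∞) ≤ ∫⁻ ω, ENNReal.ofReal (Real.exp (W ω)) ∂P := by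
    calc (1 : ℝ≥0∞) = ∫⁻ _ω, 1 ∂P := by simp
      _ ≤ _ := lintegral_mono (fun ω => by
        rw [← ENNReal.ofReal_one]
        exact ENNReal.ofReal_le_ofReal (Real.one_le_exp (hW0 ω)))
  have h2 := h1.trans hM
  by_contra hlt
  rw [not_le] at hlt
  have : ENNReal.ofReal M < 1 := by
    rw [← ENNReal.ofReal_one]
    exact (ENNReal.ofReal_lt_ofReal_iff one_pos).2 hlt
  exact absurd h2 (not_le.2 this)

/-- A1. Entropy inequality of Yudovich type. Proof: Young `x s ≤ x log x - x + exp s`. -/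
theorem yudovich {W Y : Ω → ℝ} (hWm : Measurable W) (hYm : Measurable Y) (hW0 : ∀ ω, 0 ≤ W ω)
    (hY0 : ∀ ω, 0 ≤ Y ω) (hY8 : ∀ ω, Y ω ≤ 8) {M : ℝ}
    (hM : ∫⁻ ω, ENNReal.ofReal (Real.exp (W ω)) ∂P ≤ ENNReal.ofReal M) :
    ∫ ω, W ω * Y ω ∂P ≤ (∫ ω, Y ω ∂P) * Real.log (8 / ∫ ω, Y ω ∂P) + (∫ ω, Y ω ∂P) * Real.log M := by
  have hM1 : 1 ≤ M := one_le_of_lintegral_exp hW0 hM
  have hMpos : 0 < M := by linarith
  have hexpm : Measurable fun ω => Real.exp (W ω) := Real.measurable_exp.comp hWm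
  -- integrability of exp W
  have hexpint : Integrable (fun ω => Real.exp (W ω)) P := by
    refine ⟨hexpm.aestronglyMeasurable, ?_⟩
    rw [hasFiniteIntegral_iff_ofReal (Filter.Eventually.of_forall fun ω => (Real.exp_pos _).le)]
    exact lt_of_le_of_lt hM ENNReal.ofReal_lt_top
  have hexple : ∫ ω, Real.exp (W ω) ∂P ≤ M := by
    rw [integral_eq_lintegral_of_nonneg_ae (Filter.Eventually.of_forall fun ω => (Real.exp_pos _).le)
      hexpm.aestronglyMeasurable]
    exact ENNReal.toReal_le_of_le_ofReal hMpos.le hM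
  have hYint : Integrable Y P := by
    refine Integrable.mono' (integrable_const (8 : ℝ)) hYm.aestronglyMeasurable
      (Filter.Eventually.of_forall fun ω => ?_)
    rw [Real.norm_eq_abs, abs_of_nonneg (hY0 ω)]
    exact hY8 ω
  have hWYint : Integrable (fun ω => W ω * Y ω) P := by
    refine Integrable.mono' (hexpint.const_mul 8) (hWm.mul hYm).aestronglyMeasurable
      (Filter.Eventually.of_forall fun ω => ?_)
    rw [Real.norm_eq_abs, abs_of_nonneg (mul_nonneg (hW0 ω) (hY0 ω))]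
    have h1 : W ω ≤ Real.exp (W ω) := by linarith [Real.add_one_le_exp (W ω)]
    calc W ω * Y ω ≤ Real.exp (W ω) * 8 :=
          mul_le_mul h1 (hY8 ω) (hY0 ω) (Real.exp_pos _).le
      _ = 8 * Real.exp (W ω) := by ring
  set I := ∫ ω, Y ω ∂P with hI
  have hI0 : 0 ≤ I := integral_nonneg hY0
  rcases hI0.eq_or_lt with hI00 | hIpos
  · -- `Y = 0` a.e.
    have hYae : Y =ᵐ[P] 0 := by
      have := (integral_eq_zero_iff_of_nonneg hY0 hYint).1 hI00.symm
      exact this
    have : ∫ ω, W ω * Y ω ∂P = 0 := by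
      apply integral_eq_zero_of_ae
      filter_upwards [hYae] with ω hω
      simp [hω]
    rw [this, ← hI00]
    simp
  · set c := I / M with hc
    have hcpos : 0 < c := div_pos hIpos hMpos
    have hpt : ∀ ω, W ω * Y ω ≤ Y ω * Real.log (8 / c) - Y ω + c * Real.exp (W ω) :=
      fun ω => young_pt (hY0 ω) (hY8 ω) hcpos
    have hint : ∫ ω, W ω * Y ω ∂P ≤ ∫ ω, (Y ω * Real.log (8 / c) - Y ω + c * Real.exp (W ω)) ∂P :=
      integral_mono hWYint (((hYint.mul_const _).sub hYint).add (hexpint.const_mul c)) hpt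
    have hcomp : ∫ ω, (Y ω * Real.log (8 / c) - Y ω + c * Real.exp (W ω)) ∂P =
        I * Real.log (8 / c) - I + c * ∫ ω, Real.exp (W ω) ∂P := by
      have h1 : Integrable (fun ω => Y ω * Real.log (8 / c) - Y ω) P :=
        (hYint.mul_const _).sub hYint
      have h2 : Integrable (fun ω => c * Real.exp (W ω)) P := hexpint.const_mul c
      rw [integral_add h1 h2, integral_sub (hYint.mul_const _) hYint, integral_mul_const,
        integral_const_mul]
    have hlog : Real.log (8 / c) = Real.log (8 / I) + Real.log M := by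
      rw [← Real.log_mul (by positivity) hMpos.ne']
      congr 1
      rw [hc]
      field_simp
    have hcM : c * ∫ ω, Real.exp (W ω) ∂P ≤ I := by
      calc c * ∫ ω, Real.exp (W ω) ∂P ≤ c * M := mul_le_mul_of_nonneg_left hexple hcpos.le
        _ = I := by rw [hc]; field_simp
    rw [hcomp, hlog] at hint
    nlinarith [hint, hcM]

/-- A1'. Scaled form, with the modulus `psi`. -/
theorem yudovich_psi {W Y : Ω → ℝ} (hWm : Measurable W) (hYm : Measurable Y) (hW0 : ∀ ω, 0 ≤ W ω)
    (hY0 : ∀ ω, 0 ≤ Y ω) (hY8 : ∀ ω, Y ω ≤ 8) {M lam : ℝ} (hlam : 0 < lam) (hM1 : 1 ≤ M)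
    (hM : ∫⁻ ω, ENNReal.ofReal (Real.exp (lam * W ω)) ∂P ≤ ENNReal.ofReal M) :
    ∫ ω, W ω * Y ω ∂P ≤ (1 / lam) * (1 + Real.log M) * psi (∫ ω, Y ω ∂P) := by
  have h := yudovich (P := P) (W := fun ω => lam * W ω) (Y := Y) (hWm.const_mul lam) hYm
    (fun ω => mul_nonneg hlam.le (hW0 ω)) hY0 hY8 hM
  have heq : ∫ ω, lam * W ω * Y ω ∂P = lam * ∫ ω, W ω * Y ω ∂P := by
    rw [← integral_const_mul]
    congr 1
    ext ω
    ring
  rw [heq] at h
  set I := ∫ ω, Y ω ∂P with hI
  have hI0 : 0 ≤ I := integral_nonneg hY0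
  have hI8 : I ≤ 8 := by
    have : I ≤ ∫ _ω, (8 : ℝ) ∂P := by
      refine integral_mono_of_nonneg (Filter.Eventually.of_forall hY0) (integrable_const _)
        (Filter.Eventually.of_forall hY8)
    simpa using this
  have hL : 0 ≤ Real.log M := Real.log_nonneg hM1
  have hl : 0 ≤ Real.log (8 / I) := by
    rcases hI0.eq_or_lt with h0 | h0
    · simp [← h0]
    · exact Real.log_nonneg ((one_le_div h0).2 hI8)
  have hmain : I * Real.log (8 / I) + I * Real.log M ≤ (1 + Real.log M) * psi I := by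
    unfold psi
    have : 0 ≤ I * Real.log M * Real.log (8 / I) := by positivity
    nlinarith [this, hI0]
  have h2 : lam * ∫ ω, W ω * Y ω ∂P ≤ (1 + Real.log M) * psi I := h.trans hmain
  have : ∫ ω, W ω * Y ω ∂P = (1 / lam) * (lam * ∫ ω, W ω * Y ω ∂P) := by
    field_simp
  rw [this, mul_assoc]
  exact mul_le_mul_of_nonneg_left h2 (by positivity)

end young

theorem psi_nonneg {x : ℝ} (hx : 0 ≤ x) (hx8 : x ≤ 8) : 0 ≤ psi x := by
  unfold psi
  rcases hx.eq_or_lt with h0 | h0
  · simp [← h0]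
  · have : 0 ≤ Real.log (8 / x) := Real.log_nonneg ((one_le_div h0).2 hx8)
    positivity

theorem le_psi {x : ℝ} (hx : 0 ≤ x) (hx8 : x ≤ 8) : x ≤ psi x := by
  unfold psi
  rcases hx.eq_or_lt with h0 | h0
  · simp [← h0]
  · have : 0 ≤ Real.log (8 / x) := Real.log_nonneg ((one_le_div h0).2 hx8)
    nlinarith [mul_nonneg h0.le this]

/-- `psi` is monotone on `[0, 8]`, nonnegative, and `x ≤ psi x` there. -/
theorem psi_mono {x y : ℝ} (hx : 0 ≤ x) (hxy : x ≤ y) (hy : y ≤ 8) : psi x ≤ psi y := by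
  rcases hx.eq_or_lt with h0 | h0
  · have : psi x = 0 := by simp [psi, ← h0]
    rw [this]
    exact psi_nonneg (hx.trans hxy) hy
  · have hy0 : 0 < y := lt_of_lt_of_le h0 hxy
    unfold psi
    have h1 : Real.log (8 / x) = Real.log (8 / y) + Real.log (y / x) := by
      rw [← Real.log_mul (by positivity) (by positivity)]
      congr 1
      field_simp
    have h2 : 0 ≤ Real.log (8 / y) := Real.log_nonneg ((one_le_div hy0).2 hy)
    have h3 : Real.log (y / x) ≤ y / x - 1 := Real.log_le_sub_one_of_pos (by positivity)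
    have h4 : x * Real.log (y / x) ≤ y - x := by
      have := mul_le_mul_of_nonneg_left h3 h0.le
      have h5 : x * (y / x - 1) = y - x := by
        field_simp
      linarith
    rw [h1]
    nlinarith [mul_nonneg (sub_nonneg.2 hxy) h2]

end Vale.Agent.Lib.P161E
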