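import Vale.Agent.Lib.P161E.TwoStep

/-! Job F12: the integrated inequality on grids. -/

open MeasureTheory Finset Filter Topology
open scoped Classical ENNReal

noncomputable section

namespace Vale.Agent.Lib.P161E

open Vale.Agent.Lib.P161

variable {V : Type*} {G : SimpleGraph V} [G.LocallyFinite] {d : ℕ} {β₁ β₂ : ℝ}
  {g : ℕ → ℕ → unitInterval → ℝ}

/-- The distance of the two mean fields at time `u`. -/
def Dhat (g : ℕ → ℕ → unitInterval → ℝ) (G : SimpleGraph V) [G.LocallyFinite] (P₁ : Par d β₁)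
    (P₂ : Par d β₂) (r : V) (u : ℝ) : ℝ :=
  Dd (MuL g G β₁ P₁ u) (MuL g G β₂ P₂ u) r

section aux

variable {Ω : Type*} [MeasurableSpace Ω] {μ : Measure Ω} [IsProbabilityMeasure μ]

theorem sq_sub_split_clA (a b c e η : ℝ) (hη : 0 < η) :
    (a - b) ^ 2 ≤ (1 + η) * (c - e) ^ 2 + 2 * (1 + 1 / η) * ((a - c) ^ 2 + (b - e) ^ 2) := by
  have h0 : 0 ≤ (η * (c - e) - ((a - c) - (b - e))) ^ 2 / η := by positivity
  have e1 : (η * (c - e) - ((a - c) - (b - e))) ^ 2 / η =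
      η * (c - e) ^ 2 - 2 * (c - e) * ((a - c) - (b - e)) + ((a - c) - (b - e)) ^ 2 / η := by
    field_simp
    ring
  have e2 : (a - b) ^ 2 = (c - e) ^ 2 + 2 * (c - e) * ((a - c) - (b - e)) + ((a - c) - (b - e)) ^ 2 := by
    ring
  have e3 : ((a - c) - (b - e)) ^ 2 / η = (1 / η) * ((a - c) - (b - e)) ^ 2 := by ring
  have h1 : ((a - c) - (b - e)) ^ 2 ≤ 2 * ((a - c) ^ 2 + (b - e) ^ 2) := by
    nlinarith [sq_nonneg ((a - c) + (b - e))]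
  have h2 : 0 ≤ 1 + 1 / η := by positivity
  have h3 : (1 + 1 / η) * ((a - c) - (b - e)) ^ 2 ≤ (1 + 1 / η) * (2 * ((a - c) ^ 2 + (b - e) ^ 2)) :=
    mul_le_mul_of_nonneg_left h1 h2
  rw [e1, e3] at h0
  rw [e2]
  nlinarith

theorem integrable_sub_sq_clA {a b : Ω → ℝ} (ha : Measurable a) (hb : Measurable b)
    (ha1 : ∀ ω, |a ω| ≤ 1) (hb1 : ∀ ω, |b ω| ≤ 1) : Integrable (fun ω => (a ω - b ω) ^ 2) μ := by
  refine Integrable.of_bound ((ha.sub hb).pow_const 2).aestronglyMeasurable 4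
    (Eventually.of_forall fun ω => ?_)
  have h1 := abs_le.1 (ha1 ω)
  have h2 := abs_le.1 (hb1 ω)
  rw [Real.norm_eq_abs, abs_of_nonneg (sq_nonneg _)]
  nlinarith

theorem integral_sub_sq_le_four_clA {a b : Ω → ℝ} (ha1 : ∀ ω, |a ω| ≤ 1) (hb1 : ∀ ω, |b ω| ≤ 1) :
    ∫ ω, (a ω - b ω) ^ 2 ∂μ ≤ 4 := by
  have h : ∫ ω, (a ω - b ω) ^ 2 ∂μ ≤ ∫ _ω, (4 : ℝ) ∂μ := by
    refine integral_mono_of_nonneg (Eventually.of_forall fun ω => sq_nonneg _) (integrable_const _)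
      (Eventually.of_forall fun ω => ?_)
    have h1 := abs_le.1 (ha1 ω)
    have h2 := abs_le.1 (hb1 ω)
    show (a ω - b ω) ^ 2 ≤ 4
    nlinarith
  simpa using h

/-- Comparison of two squared differences in the mean. -/
theorem integral_sub_sq_le_clA {a₁ a₂ b₁ b₂ : Ω → ℝ} (ha₁ : Measurable a₁) (ha₂ : Measurable a₂)
    (hb₁ : Measurable b₁) (hb₂ : Measurable b₂) (ha₁1 : ∀ ω, |a₁ ω| ≤ 1) (ha₂1 : ∀ ω, |a₂ ω| ≤ 1)
    (hb₁1 : ∀ ω, |b₁ ω| ≤ 1) (hb₂1 : ∀ ω, |b₂ ω| ≤ 1) {η e₁ e₂ : ℝ} (hη : 0 < η)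
    (h₁ : ∫ ω, (a₁ ω - b₁ ω) ^ 2 ∂μ ≤ e₁) (h₂ : ∫ ω, (a₂ ω - b₂ ω) ^ 2 ∂μ ≤ e₂) :
    ∫ ω, (a₁ ω - a₂ ω) ^ 2 ∂μ ≤
      ∫ ω, (b₁ ω - b₂ ω) ^ 2 ∂μ + 4 * η + 2 * (1 + 1 / η) * (e₁ + e₂) := by
  have i1 := integrable_sub_sq_clA (μ := μ) hb₁ hb₂ hb₁1 hb₂1
  have i2 := integrable_sub_sq_clA (μ := μ) ha₁ hb₁ ha₁1 hb₁1
  have i3 := integrable_sub_sq_clA (μ := μ) ha₂ hb₂ ha₂1 hb₂1
  have i0 := integrable_sub_sq_clA (μ := μ) ha₁ ha₂ ha₁1 ha₂1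
  have hb4 := integral_sub_sq_le_four_clA (μ := μ) hb₁1 hb₂1
  have hc : 0 ≤ 2 * (1 + 1 / η) := by positivity
  have key : ∫ ω, (a₁ ω - a₂ ω) ^ 2 ∂μ ≤ ∫ ω, ((1 + η) * (b₁ ω - b₂ ω) ^ 2 +
      2 * (1 + 1 / η) * ((a₁ ω - b₁ ω) ^ 2 + (a₂ ω - b₂ ω) ^ 2)) ∂μ :=
    integral_mono i0 ((i1.const_mul _).add (Integrable.const_mul (i2.add i3) _))
      fun ω => sq_sub_split_clA _ _ _ _ _ hη
  have e : ∫ ω, ((1 + η) * (b₁ ω - b₂ ω) ^ 2 +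
      2 * (1 + 1 / η) * ((a₁ ω - b₁ ω) ^ 2 + (a₂ ω - b₂ ω) ^ 2)) ∂μ =
      (1 + η) * ∫ ω, (b₁ ω - b₂ ω) ^ 2 ∂μ +
        2 * (1 + 1 / η) * (∫ ω, (a₁ ω - b₁ ω) ^ 2 ∂μ + ∫ ω, (a₂ ω - b₂ ω) ^ 2 ∂μ) := by
    have i23 : Integrable (fun ω => (a₁ ω - b₁ ω) ^ 2 + (a₂ ω - b₂ ω) ^ 2) μ := i2.add i3
    rw [integral_add (i1.const_mul _) (i23.const_mul _), integral_const_mul,
      integral_const_mul, integral_add i2 i3]
  rw [e] at key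
  have h3 : 2 * (1 + 1 / η) * (∫ ω, (a₁ ω - b₁ ω) ^ 2 ∂μ + ∫ ω, (a₂ ω - b₂ ω) ^ 2 ∂μ) ≤
      2 * (1 + 1 / η) * (e₁ + e₂) := mul_le_mul_of_nonneg_left (add_le_add h₁ h₂) hc
  nlinarith

/-- The same for a finite sum, with a multiplicative loss. -/
theorem integral_sum_sub_sq_le_clA {ι : Type*} {R : Finset ι} {c₁ c₂ f₁ f₂ : ι → Ω → ℝ}
    (hc₁ : ∀ v, Measurable (c₁ v)) (hc₂ : ∀ v, Measurable (c₂ v))
    (hf₁ : ∀ v, Measurable (f₁ v)) (hf₂ : ∀ v, Measurable (f₂ v))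
    (hc₁1 : ∀ v ω, |c₁ v ω| ≤ 1) (hc₂1 : ∀ v ω, |c₂ v ω| ≤ 1)
    (hf₁1 : ∀ v ω, |f₁ v ω| ≤ 1) (hf₂1 : ∀ v ω, |f₂ v ω| ≤ 1) {η e : ℝ} (hη : 0 < η)
    (h₁ : ∀ v ∈ R, ∫ ω, (c₁ v ω - f₁ v ω) ^ 2 ∂μ ≤ e)
    (h₂ : ∀ v ∈ R, ∫ ω, (c₂ v ω - f₂ v ω) ^ 2 ∂μ ≤ e) :
    ∫ ω, ∑ v ∈ R, (c₁ v ω - c₂ v ω) ^ 2 ∂μ ≤
      (1 + η) * ∫ ω, ∑ v ∈ R, (f₁ v ω - f₂ v ω) ^ 2 ∂μ +
        2 * (1 + 1 / η) * (R.card * (2 * e)) := by
  have i0 : Integrable (fun ω => ∑ v ∈ R, (c₁ v ω - c₂ v ω) ^ 2) μ :=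
    integrable_finsetSum _ fun v _ => integrable_sub_sq_clA (hc₁ v) (hc₂ v) (hc₁1 v) (hc₂1 v)
  have i1 : Integrable (fun ω => ∑ v ∈ R, (f₁ v ω - f₂ v ω) ^ 2) μ :=
    integrable_finsetSum _ fun v _ => integrable_sub_sq_clA (hf₁ v) (hf₂ v) (hf₁1 v) (hf₂1 v)
  have i2 : ∀ v, Integrable (fun ω => (c₁ v ω - f₁ v ω) ^ 2) μ := fun v =>
    integrable_sub_sq_clA (hc₁ v) (hf₁ v) (hc₁1 v) (hf₁1 v)
  have i3 : ∀ v, Integrable (fun ω => (c₂ v ω - f₂ v ω) ^ 2) μ := fun v =>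
    integrable_sub_sq_clA (hc₂ v) (hf₂ v) (hc₂1 v) (hf₂1 v)
  have i4 : Integrable (fun ω => ∑ v ∈ R, ((c₁ v ω - f₁ v ω) ^ 2 + (c₂ v ω - f₂ v ω) ^ 2)) μ :=
    integrable_finsetSum _ fun v _ => (i2 v).add (i3 v)
  have hc : 0 ≤ 2 * (1 + 1 / η) := by positivity
  have key : ∫ ω, ∑ v ∈ R, (c₁ v ω - c₂ v ω) ^ 2 ∂μ ≤ ∫ ω, ((1 + η) * ∑ v ∈ R, (f₁ v ω - f₂ v ω) ^ 2 +
      2 * (1 + 1 / η) * ∑ v ∈ R, ((c₁ v ω - f₁ v ω) ^ 2 + (c₂ v ω - f₂ v ω) ^ 2)) ∂μ := by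
    refine integral_mono i0 ((i1.const_mul _).add (i4.const_mul _)) fun ω => ?_
    show ∑ v ∈ R, (c₁ v ω - c₂ v ω) ^ 2 ≤ _
    rw [Finset.mul_sum, Finset.mul_sum, ← Finset.sum_add_distrib]
    exact Finset.sum_le_sum fun v _ => sq_sub_split_clA _ _ _ _ _ hη
  have e1 : ∫ ω, ((1 + η) * ∑ v ∈ R, (f₁ v ω - f₂ v ω) ^ 2 +
      2 * (1 + 1 / η) * ∑ v ∈ R, ((c₁ v ω - f₁ v ω) ^ 2 + (c₂ v ω - f₂ v ω) ^ 2)) ∂μ =
      (1 + η) * ∫ ω, ∑ v ∈ R, (f₁ v ω - f₂ v ω) ^ 2 ∂μ +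
        2 * (1 + 1 / η) * ∑ v ∈ R, (∫ ω, (c₁ v ω - f₁ v ω) ^ 2 ∂μ + ∫ ω, (c₂ v ω - f₂ v ω) ^ 2 ∂μ) := by
    have i23 : ∀ v, Integrable (fun ω => (c₁ v ω - f₁ v ω) ^ 2 + (c₂ v ω - f₂ v ω) ^ 2) μ :=
      fun v => (i2 v).add (i3 v)
    rw [integral_add (i1.const_mul _) (i4.const_mul _), integral_const_mul, integral_const_mul,
      integral_finsetSum _ fun v _ => i23 v]
    congr 2
    refine Finset.sum_congr rfl fun v _ => ?_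
    rw [integral_add (i2 v) (i3 v)]
  rw [e1] at key
  have h3 : ∑ v ∈ R, (∫ ω, (c₁ v ω - f₁ v ω) ^ 2 ∂μ + ∫ ω, (c₂ v ω - f₂ v ω) ^ 2 ∂μ) ≤
      R.card * (2 * e) := by
    calc _ ≤ ∑ _v ∈ R, (2 * e) := Finset.sum_le_sum fun v hv => by
          have := h₁ v hv
          have := h₂ v hv
          linarith
      _ = _ := by rw [Finset.sum_const, nsmul_eq_mul]
  have h4 := mul_le_mul_of_nonneg_left h3 hc
  linarith

/-- Telescoping of the step inequality. -/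
theorem tele_clA (A B : ℕ → ℝ) (δ c : ℝ)
    (h : ∀ k, |A (k + 1) - A k - δ * B k| ≤ c) {J K : ℕ} (hJK : J ≤ K) :
    A K ≤ A J + ∑ k ∈ Finset.Ico J K, δ * B k + ((K : ℝ) - J) * c := by
  induction K, hJK using Nat.le_induction with
  | base => simp
  | succ K hK ih =>
    rw [Finset.sum_Ico_succ_top hK]
    have h1 := (abs_le.1 (h K)).2
    push_cast
    nlinarith

end aux

theorem measurable_gm_clA (θ : ℝ) : Measurable (gm θ) := by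
  unfold gm
  fun_prop

theorem tanh_nonneg_clA {β : ℝ} (hβ : 0 ≤ β) : 0 ≤ Real.tanh β := by
  rw [Real.tanh_eq_sinh_div_cosh]
  exact div_nonneg (Real.sinh_nonneg_iff.mpr hβ) (Real.cosh_pos β).le

theorem Par.tanh_lt_one_clA {β : ℝ} (P : Par d β) : Real.tanh β < 1 :=
  P.hθκ.trans_lt (P.hκρ.trans P.hρ)

theorem Par.q_lt_one_clA {β : ℝ} (P : Par d β) (hβ : 0 ≤ β) (hd : 2 ≤ d) :
    ((d : ℝ) - 1) * Real.tanh β ^ 2 < 1 := by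
  have h0 := tanh_nonneg_clA hβ
  have h1 : Real.tanh β ≤ P.ρ := P.hθκ.trans P.hκρ.le
  have h2 : Real.tanh β ^ 2 ≤ P.ρ ^ 2 := pow_le_pow_left₀ h0 h1 2
  have h3 : (2 : ℝ) ≤ d := by exact_mod_cast hd
  have h4 := P.hρ2
  nlinarith

omit [G.LocallyFinite] in
theorem measurable_fl_clA (hg : DN g) (β : ℝ) (S : Finset V) (l k : ℕ) :
    Measurable (fl g G β S l k : (V → unitInterval) → V → ℝ) := by
  have h1 : Measurable (fun U : V → unitInterval =>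
      ((xiN g l U, (0 : V → ℝ)) : (ℕ → V → ℝ) × (V → ℝ))) :=
    (measurable_xiN g hg.hm l).prodMk measurable_const
  exact (measurable_flow (G := G) (β := β) S (dlt l) 0 k).comp h1

theorem integral_xiN_clA (hg : DN g) (l : ℕ) {F : (ℕ → V → ℝ) → ℝ} (hF : Measurable F) :
    ∫ U, F (xiN g l U) ∂iidUniform V = ∫ ξ, F ξ ∂nu V := by
  rw [← map_xiN g hg.hm hg.hlaw l,
    integral_map (measurable_xiN g hg.hm l).aemeasurable hF.aestronglyMeasurable]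

omit [G.LocallyFinite] in
/-- `two_step_flow` read off the uniform variables. -/
theorem two_step_U_clA (hg : DN g) (S₁ S₂ : Finset V) (r : V) (l k : ℕ) :
    |∫ U, (mean G β₁ S₁ (fl g G β₁ S₁ l (k + 1) U) r -
          mean G β₂ S₂ (fl g G β₂ S₂ l (k + 1) U) r) ^ 2 ∂iidUniform V -
        ∫ U, (mean G β₁ S₁ (fl g G β₁ S₁ l k U) r -
          mean G β₂ S₂ (fl g G β₂ S₂ l k U) r) ^ 2 ∂iidUniform V -
        dlt l * ∫ U, ∑ v ∈ S₁ ∪ S₂, (cov G β₁ S₁ (fl g G β₁ S₁ l k U) r v -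
          cov G β₂ S₂ (fl g G β₂ S₂ l k U) r v) ^ 2 ∂iidUniform V| ≤
      Cts ((S₁.card : ℝ) + S₂.card) * dlt l ^ (3 / 2 : ℝ) := by
  have h := two_step_flow (G := G) (β₁ := β₁) (β₂ := β₂) (S₁ := S₁) (S₂ := S₂) (r := r)
    (dlt_pos l).le (dlt_le_one l) k
  have hm : ∀ (β : ℝ) (S : Finset V) (k : ℕ),
      Measurable (fun ξ : ℕ → V → ℝ => flow G β S (dlt l) ξ 0 k 0) := fun β S k =>
    measurable_pi_iff.2 fun v => measurable_flow_noise S (dlt l) k v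
  have hF : ∀ k : ℕ, Measurable (fun ξ : ℕ → V → ℝ =>
      (mean G β₁ S₁ (flow G β₁ S₁ (dlt l) ξ 0 k 0) r -
        mean G β₂ S₂ (flow G β₂ S₂ (dlt l) ξ 0 k 0) r) ^ 2) := fun k =>
    (((measurable_mean S₁ r).comp (hm β₁ S₁ k)).sub ((measurable_mean S₂ r).comp (hm β₂ S₂ k))).pow_const 2
  have hH : Measurable (fun ξ : ℕ → V → ℝ => ∑ v ∈ S₁ ∪ S₂,
      (cov G β₁ S₁ (flow G β₁ S₁ (dlt l) ξ 0 k 0) r v -
        cov G β₂ S₂ (flow G β₂ S₂ (dlt l) ξ 0 k 0) r v) ^ 2) :=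
    Finset.measurable_sum _ fun v _ =>
      (((measurable_cov S₁ r v).comp (hm β₁ S₁ k)).sub
        ((measurable_cov S₂ r v).comp (hm β₂ S₂ k))).pow_const 2
  have e1 := integral_xiN_clA hg l (hF (k + 1))
  have e2 := integral_xiN_clA hg l (hF k)
  have e3 := integral_xiN_clA hg l hH
  rw [← e1, ← e2, ← e3] at h
  exact h

section field

variable {β : ℝ}

theorem measurable_Cf_clA (hg : DN g) (P : Par d β) (u : ℝ) (r v : V) :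
    Measurable (fun U => Cf G (Real.tanh β) (MuL g G β P u U) (XiL g G β P u U) r v) := by
  unfold Cf pathG
  refine (measurable_const.sub ((measurable_MuL P u hg r).pow_const 2)).mul ?_
  exact Finset.measurable_prod _ fun j _ =>
    measurable_const.mul ((measurable_gm_clA _).comp (measurable_XiL P u hg _ _))

theorem abs_Cf_le_clA (hβ : 0 ≤ β) (P : Par d β) (u : ℝ) (U : V → unitInterval) (r v : V) :
    |Cf G (Real.tanh β) (MuL g G β P u U) (XiL g G β P u U) r v| ≤ 1 := by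
  have h0 := tanh_nonneg_clA hβ
  have h1 := P.tanh_lt_one_clA
  unfold Cf pathG
  rw [abs_mul, Finset.abs_prod]
  have hm := abs_le.1 (abs_MuL_le (g := g) (G := G) P u U r)
  have h2 : |1 - MuL g G β P u U r ^ 2| ≤ 1 := by
    rw [abs_le]
    constructor <;> nlinarith
  have h3 : ∏ j ∈ range (G.dist r v), |Real.tanh β * gm (Real.tanh β)
      (XiL g G β P u U (geo G r v (j + 1)) (geo G r v j))| ≤ 1 := by
    refine Finset.prod_le_one (fun _ _ => abs_nonneg _) fun j _ => ?_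
    have h4 := abs_XiL_le (g := g) (G := G) P u U (geo G r v (j + 1)) (geo G r v j)
    have h5 := gm_nonneg h0 h1 h4
    have h6 := gm_le_one h0 h1 h4
    rw [abs_of_nonneg (mul_nonneg h0 h5)]
    nlinarith
  calc _ ≤ 1 * 1 := mul_le_mul h2 h3 (Finset.prod_nonneg fun _ _ => abs_nonneg _) zero_le_one
    _ = 1 := one_mul 1

omit [G.LocallyFinite] in
theorem abs_cov_le_one_clA (hT : G.IsTree) (hβ : 0 ≤ β) (P : Par d β) (S : Finset V) (y : V → ℝ)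
    (u v : V) : |cov G β S y u v| ≤ 1 :=
  (abs_cov_le hT hβ S y u v).trans
    (pow_le_one₀ (tanh_nonneg_clA hβ) P.tanh_lt_one_clA.le)

end field

/-- The tail of the squared decay over the spheres. -/
theorem tail_sum_clA (hT : G.IsTree) (hd : 2 ≤ d) (hreg : G.IsRegularOfDegree d) {θ : ℝ} (h0 : 0 ≤ θ)
    (h1 : θ ≤ 1) (hq : ((d : ℝ) - 1) * θ ^ 2 < 1) (r : V) {ε : ℝ} (hε : 0 < ε) :
    ∃ N₀ : ℕ, ∀ N, N₀ ≤ N → ∀ R : Finset V, ∑ v ∈ R \ ball G r N, (θ ^ G.dist r v) ^ 2 ≤ ε := by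
  set q : ℝ := ((d : ℝ) - 1) * θ ^ 2 with hqdef
  have hd1 : (1 : ℝ) ≤ (d : ℝ) - 1 := by
    have : (2 : ℝ) ≤ d := by exact_mod_cast hd
    linarith
  have hq0 : 0 ≤ q := by positivity
  have hq1 : 0 < 1 - q := by linarith
  -- the smallness
  have hlim : Tendsto (fun N : ℕ => (d : ℝ) * (q ^ N / (1 - q))) atTop (𝓝 ((d : ℝ) * (0 / (1 - q)))) :=
    ((tendsto_pow_atTop_nhds_zero_of_lt_one hq0 hq).div_const _).const_mul _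
  rw [zero_div, mul_zero] at hlim
  obtain ⟨N₀, hN₀⟩ := Filter.eventually_atTop.1 (hlim.eventually (gt_mem_nhds hε))
  refine ⟨N₀, fun N hN R => ?_⟩
  refine le_trans ?_ (hN₀ N hN).le
  set M : ℕ := R.sup (fun v => G.dist r v) with hM
  -- group by the distance
  have hmaps : ∀ v ∈ R \ ball G r N, G.dist r v - 1 ∈ Finset.Ico N M := by
    intro v hv
    obtain ⟨hvR, hvb⟩ := Finset.mem_sdiff.1 hv
    have h2 : ¬ G.dist r v ≤ N := fun h => hvb ((mem_ball hT).2 h)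
    have h3 : G.dist r v ≤ M := Finset.le_sup (f := fun v => G.dist r v) hvR
    simp only [Finset.mem_Ico]
    omega
  rw [← Finset.sum_fiberwise_of_maps_to hmaps]
  have hinner : ∀ m ∈ Finset.Ico N M, ∑ v ∈ R \ ball G r N with G.dist r v - 1 = m,
      (θ ^ G.dist r v) ^ 2 ≤ (d : ℝ) * q ^ m := by
    intro m hm
    have hsub : ((R \ ball G r N).filter fun v => G.dist r v - 1 = m) ⊆ sph G r (m + 1) := by
      intro v hv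
      obtain ⟨hv1, hv2⟩ := Finset.mem_filter.1 hv
      obtain ⟨hvR, hvb⟩ := Finset.mem_sdiff.1 hv1
      have h2 : ¬ G.dist r v ≤ N := fun h => hvb ((mem_ball hT).2 h)
      rw [mem_sph hT]
      omega
    have hval : ∀ v ∈ ((R \ ball G r N).filter fun v => G.dist r v - 1 = m),
        (θ ^ G.dist r v) ^ 2 = (θ ^ (m + 1)) ^ 2 := by
      intro v hv
      have hv' := hsub hv
      rw [mem_sph hT] at hv'
      rw [hv']
    rw [Finset.sum_congr rfl hval, Finset.sum_const, nsmul_eq_mul]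
    have hcard : (((R \ ball G r N).filter fun v => G.dist r v - 1 = m).card : ℝ) ≤
        (d : ℝ) * ((d : ℝ) - 1) ^ m := by
      have h2 := Finset.card_le_card hsub
      rw [card_sph hT hd hreg] at h2
      have h3 : ((d - 1 : ℕ) : ℝ) = (d : ℝ) - 1 := by
        rw [Nat.cast_sub (by omega)]; simp
      calc (((R \ ball G r N).filter fun v => G.dist r v - 1 = m).card : ℝ)
          ≤ ((d * (d - 1) ^ m : ℕ) : ℝ) := by exact_mod_cast h2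
        _ = _ := by push_cast [h3]; ring
    have hθ2 : θ ^ 2 ≤ 1 := pow_le_one₀ h0 h1
    have hq2 : (d : ℝ) * ((d : ℝ) - 1) ^ m * (θ ^ (m + 1)) ^ 2 ≤ (d : ℝ) * q ^ m := by
      have e : (d : ℝ) * ((d : ℝ) - 1) ^ m * (θ ^ (m + 1)) ^ 2 = (d : ℝ) * q ^ m * θ ^ 2 := by
        rw [hqdef, mul_pow]
        ring
      rw [e]
      have : 0 ≤ (d : ℝ) * q ^ m := by positivity
      nlinarith
    exact (mul_le_mul_of_nonneg_right hcard (by positivity)).trans hq2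
  refine (Finset.sum_le_sum hinner).trans ?_
  rw [← Finset.mul_sum]
  exact mul_le_mul_of_nonneg_left (geom_sum_Ico_le_of_lt_one hq0 hq) (by positivity)

theorem ev_of_clA {Q : ℕ → ℕ → Prop} (h : ∃ j₀ : ℕ, ∀ j, j₀ ≤ j → ∃ l₀ : ℕ, ∀ l, l₀ ≤ l → Q j l) :
    ∀ᶠ j in atTop, ∀ᶠ l in atTop, Q j l := by
  obtain ⟨j₀, hj₀⟩ := h
  exact Filter.eventually_atTop.2 ⟨j₀, fun j hj => Filter.eventually_atTop.2 (hj₀ j hj)⟩

theorem dlt_rpow_clA (l : ℕ) : dlt l ^ (3 / 2 : ℝ) = dlt l * qq ^ l := by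
  have h := dlt_pos l
  have e : (3 / 2 : ℝ) = 1 + 1 / 2 := by norm_num
  rw [e, Real.rpow_add h, Real.rpow_one, ← Real.sqrt_eq_rpow, sqrt_dlt]


/-- Comparison of the mean of the scheme and the limit means. -/
theorem dhat_le_clA (hg : DN g) (P₁ : Par d β₁) (P₂ : Par d β₂) (S₁ S₂ : Finset V) (r : V) (l k : ℕ)
    (u : ℝ) {η e : ℝ} (hη : 0 < η)
    (h₁ : ∫ U, (mean G β₁ S₁ (fl g G β₁ S₁ l k U) r - MuL g G β₁ P₁ u U r) ^ 2 ∂iidUniform V ≤ e)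
    (h₂ : ∫ U, (mean G β₂ S₂ (fl g G β₂ S₂ l k U) r - MuL g G β₂ P₂ u U r) ^ 2 ∂iidUniform V ≤ e) :
    Dhat g G P₁ P₂ r u ≤ ∫ U, (mean G β₁ S₁ (fl g G β₁ S₁ l k U) r -
        mean G β₂ S₂ (fl g G β₂ S₂ l k U) r) ^ 2 ∂iidUniform V + (4 * η + 2 * (1 + 1 / η) * (e + e)) ∧
    ∫ U, (mean G β₁ S₁ (fl g G β₁ S₁ l k U) r -
        mean G β₂ S₂ (fl g G β₂ S₂ l k U) r) ^ 2 ∂iidUniform V ≤
      Dhat g G P₁ P₂ r u + (4 * η + 2 * (1 + 1 / η) * (e + e)) := by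
  have hmean₁ : Measurable (fun U => mean G β₁ S₁ (fl g G β₁ S₁ l k U) r) :=
    (measurable_mean S₁ r).comp (measurable_fl_clA hg β₁ S₁ l k)
  have hmean₂ : Measurable (fun U => mean G β₂ S₂ (fl g G β₂ S₂ l k U) r) :=
    (measurable_mean S₂ r).comp (measurable_fl_clA hg β₂ S₂ l k)
  constructor
  · have e₁ : ∫ U, (MuL g G β₁ P₁ u U r - mean G β₁ S₁ (fl g G β₁ S₁ l k U) r) ^ 2 ∂iidUniform V ≤ e := by
      refine le_trans (le_of_eq ?_) h₁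
      congr 1
      funext U
      ring
    have e₂ : ∫ U, (MuL g G β₂ P₂ u U r - mean G β₂ S₂ (fl g G β₂ S₂ l k U) r) ^ 2 ∂iidUniform V ≤ e := by
      refine le_trans (le_of_eq ?_) h₂
      congr 1
      funext U
      ring
    have := integral_sub_sq_le_clA (μ := iidUniform V) (measurable_MuL P₁ u hg r)
      (measurable_MuL P₂ u hg r) hmean₁ hmean₂ (fun U => abs_MuL_le P₁ _ U r)
      (fun U => abs_MuL_le P₂ _ U r) (fun U => abs_mean_le _ _ _ _ _) (fun U => abs_mean_le _ _ _ _ _)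
      hη e₁ e₂
    unfold Dhat Dd
    linarith
  · have := integral_sub_sq_le_clA (μ := iidUniform V) hmean₁ hmean₂
      (measurable_MuL P₁ u hg r) (measurable_MuL P₂ u hg r)
      (fun U => abs_mean_le _ _ _ _ _) (fun U => abs_mean_le _ _ _ _ _)
      (fun U => abs_MuL_le P₁ _ U r) (fun U => abs_MuL_le P₂ _ U r) hη h₁ h₂
    unfold Dhat Dd
    linarith

/-- The covariance sum of the schemes against the limit fields. -/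
theorem cov_sum_le_clA (hg : DN g) (hT : G.IsTree) (hβ₁0 : 0 ≤ β₁) (hβ₂0 : 0 ≤ β₂) (P₁ : Par d β₁)
    (P₂ : Par d β₂) {S₁ S₂ : Finset V} (r : V) (l k : ℕ) (u : ℝ) {N : ℕ} {H εt ε₃ ε : ℝ} (hε : 0 < ε)
    (hsub : ball G r N ⊆ S₁ ∪ S₂)
    (ht₁ : ∑ v ∈ (S₁ ∪ S₂) \ ball G r N, (Real.tanh β₁ ^ G.dist r v) ^ 2 ≤ εt)
    (ht₂ : ∑ v ∈ (S₁ ∪ S₂) \ ball G r N, (Real.tanh β₂ ^ G.dist r v) ^ 2 ≤ εt)
    (hl₃ : ∀ v ∈ ball G r N, ∫ U, (cov G β₁ S₁ (fl g G β₁ S₁ l k U) r v -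
      Cf G (Real.tanh β₁) (MuL g G β₁ P₁ u U) (XiL g G β₁ P₁ u U) r v) ^ 2 ∂iidUniform V ≤ ε₃)
    (hl₄ : ∀ v ∈ ball G r N, ∫ U, (cov G β₂ S₂ (fl g G β₂ S₂ l k U) r v -
      Cf G (Real.tanh β₂) (MuL g G β₂ P₂ u U) (XiL g G β₂ P₂ u U) r v) ^ 2 ∂iidUniform V ≤ ε₃)
    (hH : ∫ U, ∑ v ∈ ball G r N, (Cf G (Real.tanh β₁) (MuL g G β₁ P₁ u U) (XiL g G β₁ P₁ u U) r v -
        Cf G (Real.tanh β₂) (MuL g G β₂ P₂ u U) (XiL g G β₂ P₂ u U) r v) ^ 2 ∂iidUniform V ≤ H) :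
    ∫ U, ∑ v ∈ S₁ ∪ S₂, (cov G β₁ S₁ (fl g G β₁ S₁ l k U) r v -
        cov G β₂ S₂ (fl g G β₂ S₂ l k U) r v) ^ 2 ∂iidUniform V ≤
      (1 + ε) * H + (4 * εt + 2 * (1 + 1 / ε) * (((ball G r N).card : ℝ) * (2 * ε₃))) := by
  have hc₁ : ∀ v, Measurable (fun U => cov G β₁ S₁ (fl g G β₁ S₁ l k U) r v) := fun v =>
    (measurable_cov S₁ r v).comp (measurable_fl_clA hg β₁ S₁ l k)
  have hc₂ : ∀ v, Measurable (fun U => cov G β₂ S₂ (fl g G β₂ S₂ l k U) r v) := fun v =>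
    (measurable_cov S₂ r v).comp (measurable_fl_clA hg β₂ S₂ l k)
  have hsplit := integral_sum_sub_sq_le_clA (μ := iidUniform V) (R := ball G r N) hc₁ hc₂
    (fun v => measurable_Cf_clA hg P₁ u r v) (fun v => measurable_Cf_clA hg P₂ u r v)
    (fun v U => abs_cov_le_one_clA hT hβ₁0 P₁ _ _ _ _)
    (fun v U => abs_cov_le_one_clA hT hβ₂0 P₂ _ _ _ _)
    (fun v U => abs_Cf_le_clA hβ₁0 P₁ _ U r v) (fun v U => abs_Cf_le_clA hβ₂0 P₂ _ U r v)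
    hε hl₃ hl₄
  have htail : ∀ U, ∑ v ∈ S₁ ∪ S₂, (cov G β₁ S₁ (fl g G β₁ S₁ l k U) r v -
        cov G β₂ S₂ (fl g G β₂ S₂ l k U) r v) ^ 2 ≤
      ∑ v ∈ ball G r N, (cov G β₁ S₁ (fl g G β₁ S₁ l k U) r v -
        cov G β₂ S₂ (fl g G β₂ S₂ l k U) r v) ^ 2 + 4 * εt := by
    intro U
    rw [← Finset.sum_sdiff hsub, add_comm]
    refine add_le_add le_rfl ?_
    calc _ ≤ ∑ v ∈ (S₁ ∪ S₂) \ ball G r N, (2 * (Real.tanh β₁ ^ G.dist r v) ^ 2 +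
          2 * (Real.tanh β₂ ^ G.dist r v) ^ 2) := by
          refine Finset.sum_le_sum fun v _ => ?_
          have c1 := abs_cov_le hT hβ₁0 S₁ (fl g G β₁ S₁ l k U) r v
          have c2 := abs_cov_le hT hβ₂0 S₂ (fl g G β₂ S₂ l k U) r v
          have c1' := sq_le_sq' (by linarith [abs_le.1 c1]) (abs_le.1 c1).2
          have c2' := sq_le_sq' (by linarith [abs_le.1 c2]) (abs_le.1 c2).2
          nlinarith [sq_nonneg (cov G β₁ S₁ (fl g G β₁ S₁ l k U) r v +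
            cov G β₂ S₂ (fl g G β₂ S₂ l k U) r v)]
      _ = 2 * ∑ v ∈ (S₁ ∪ S₂) \ ball G r N, (Real.tanh β₁ ^ G.dist r v) ^ 2 +
          2 * ∑ v ∈ (S₁ ∪ S₂) \ ball G r N, (Real.tanh β₂ ^ G.dist r v) ^ 2 := by
          rw [Finset.sum_add_distrib, Finset.mul_sum, Finset.mul_sum]
      _ ≤ 4 * εt := by linarith
  have hint0 : Integrable (fun U => ∑ v ∈ ball G r N, (cov G β₁ S₁ (fl g G β₁ S₁ l k U) r v -
        cov G β₂ S₂ (fl g G β₂ S₂ l k U) r v) ^ 2) (iidUniform V) :=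
    integrable_finsetSum _ fun v _ => integrable_sub_sq_clA (hc₁ v) (hc₂ v)
      (fun U => abs_cov_le_one_clA hT hβ₁0 P₁ _ _ _ _) (fun U => abs_cov_le_one_clA hT hβ₂0 P₂ _ _ _ _)
  have hint1 : Integrable (fun U => ∑ v ∈ S₁ ∪ S₂, (cov G β₁ S₁ (fl g G β₁ S₁ l k U) r v -
        cov G β₂ S₂ (fl g G β₂ S₂ l k U) r v) ^ 2) (iidUniform V) :=
    integrable_finsetSum _ fun v _ => integrable_sub_sq_clA (hc₁ v) (hc₂ v)
      (fun U => abs_cov_le_one_clA hT hβ₁0 P₁ _ _ _ _) (fun U => abs_cov_le_one_clA hT hβ₂0 P₂ _ _ _ _)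
  have hint2 : Integrable (fun U => ∑ v ∈ ball G r N, (cov G β₁ S₁ (fl g G β₁ S₁ l k U) r v -
        cov G β₂ S₂ (fl g G β₂ S₂ l k U) r v) ^ 2 + 4 * εt) (iidUniform V) :=
    hint0.add (integrable_const (4 * εt))
  have hmono := integral_mono hint1 hint2 htail
  have e5 : ∫ U, ((∑ v ∈ ball G r N, (cov G β₁ S₁ (fl g G β₁ S₁ l k U) r v -
        cov G β₂ S₂ (fl g G β₂ S₂ l k U) r v) ^ 2) + 4 * εt) ∂iidUniform V =
      ∫ U, ∑ v ∈ ball G r N, (cov G β₁ S₁ (fl g G β₁ S₁ l k U) r v -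
        cov G β₂ S₂ (fl g G β₂ S₂ l k U) r v) ^ 2 ∂iidUniform V + 4 * εt := by
    rw [integral_add hint0 (integrable_const _)]
    simp
  have h1ε := mul_le_mul_of_nonneg_left hH (by linarith : (0 : ℝ) ≤ 1 + ε)
  refine hmono.trans ?_
  rw [e5]
  linarith

/-- The bookkeeping of the closure step. -/
theorem assemble_clA {A B D Hb : ℕ → ℝ} {δ C q T ε E₂ : ℝ} {J K : ℕ} (hJK : J ≤ K)
    (hδ0 : 0 < δ) (hC0 : 0 ≤ C) (hq0 : 0 ≤ q) (hE₂0 : 0 ≤ E₂) (hKT : (K : ℝ) * δ ≤ T)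
    (hstep : ∀ k, |A (k + 1) - A k - δ * B k| ≤ C * (δ * q))
    (hc1 : D K ≤ A K + ε / 4) (hc2 : A J ≤ D J + ε / 4)
    (hB : ∀ k ∈ Finset.Ico J K, B k ≤ (1 + ε) * Hb k + E₂)
    (hTE₂ : T * E₂ ≤ ε / 4) (hTC : T * C * q ≤ ε / 4) :
    D K ≤ D J + ε + (1 + ε) * ∑ k ∈ Finset.Ico J K, δ * Hb k := by
  have htele := tele_clA A B δ _ hstep hJK
  have hKδ : ((K : ℝ) - J) * δ ≤ T := by
    have h9 : (0 : ℝ) ≤ J := Nat.cast_nonneg _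
    nlinarith
  have herr : ((K : ℝ) - J) * (C * (δ * q)) ≤ ε / 4 := by
    have h8 : ((K : ℝ) - J) * (C * (δ * q)) = ((K : ℝ) - J) * δ * (C * q) := by ring
    rw [h8]
    have h10 := mul_le_mul_of_nonneg_right hKδ (mul_nonneg hC0 hq0)
    have h11 : T * (C * q) = T * C * q := by ring
    rw [h11] at h10
    linarith
  have hsum : ∑ k ∈ Finset.Ico J K, δ * B k ≤ (1 + ε) * ∑ k ∈ Finset.Ico J K, δ * Hb k + ε / 4 := by
    calc _ ≤ ∑ k ∈ Finset.Ico J K, (δ * ((1 + ε) * Hb k + E₂)) :=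
          Finset.sum_le_sum fun k hk => mul_le_mul_of_nonneg_left (hB k hk) hδ0.le
      _ = (1 + ε) * ∑ k ∈ Finset.Ico J K, δ * Hb k + ((K : ℝ) - J) * δ * E₂ := by
          rw [Finset.mul_sum]
          have : ∀ k ∈ Finset.Ico J K, δ * ((1 + ε) * Hb k + E₂) =
              (1 + ε) * (δ * Hb k) + δ * E₂ := fun k _ => by ring
          rw [Finset.sum_congr rfl this, Finset.sum_add_distrib, Finset.sum_const, Nat.card_Ico,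
            nsmul_eq_mul, Nat.cast_sub hJK]
          ring
      _ ≤ _ := by
          have h8 := mul_le_mul_of_nonneg_right hKδ hE₂0
          linarith
  linarith

theorem arith_E₁_clA {ε η₀ ε₄ : ℝ} (hε : 0 < ε) (hη₀ : η₀ = ε / 32)
    (hε₄ : ε₄ = (ε / 32) / (1 + 1 / η₀)) : 4 * η₀ + 2 * (1 + 1 / η₀) * (ε₄ + ε₄) = ε / 4 := by
  have h : 0 < η₀ := by rw [hη₀]; positivity
  have h1 : 0 < 1 + 1 / η₀ := by positivity
  have h2 : (1 + 1 / η₀) * ε₄ = ε / 32 := by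
    rw [hε₄]
    field_simp
  have e : 2 * (1 + 1 / η₀) * (ε₄ + ε₄) = 4 * ((1 + 1 / η₀) * ε₄) := by ring
  rw [e, h2, hη₀]
  ring

theorem arith_E₂_clA {ε T εt ε₃ b₀ : ℝ} (hε : 0 < ε) (hT0 : 0 < T) (hb₀0 : 0 ≤ b₀)
    (hεt : εt = ε / (32 * T)) (hε₃ : ε₃ = (ε / 32) / (T * (1 + 1 / ε) * (b₀ + 1))) :
    T * (4 * εt + 2 * (1 + 1 / ε) * (b₀ * (2 * ε₃))) ≤ ε / 4 := by
  have e1 : T * (4 * εt) = ε / 8 := by
    rw [hεt]; field_simp; norm_num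
  have hb1 : 0 < b₀ + 1 := by linarith
  have e2 : T * (2 * (1 + 1 / ε) * (b₀ * (2 * ε₃))) = ε / 8 * (b₀ / (b₀ + 1)) := by
    rw [hε₃]; field_simp; ring
  have e3 : b₀ / (b₀ + 1) ≤ 1 := by
    rw [div_le_one hb1]; linarith
  rw [mul_add, e1, e2]
  nlinarith

/-- The stage of the closure step: a parameter `j` at which everything is close. -/
theorem exists_stage_clA (hg : DN g) (hT : G.IsTree) (hd2 : 2 ≤ d) (hreg : G.IsRegularOfDegree d)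
    (hβ₁0 : 0 ≤ β₁) (hβ₂0 : 0 ≤ β₂) (P₁ : Par d β₁) (P₂ : Par d β₂) (r : V) {T : ℝ} (hT1 : 1 ≤ T)
    {ε₃ ε₄ : ℝ} (hε₃ : 0 < ε₃) (hε₄ : 0 < ε₄) (N : ℕ) :
    ∃ j : ℕ, N ≤ P₁.n j ∧ ∀ᶠ l in atTop, ∀ k, 1 ≤ k → dy l k ≤ T →
      (∫ U, (mean G β₁ (ball G r (P₁.n j)) (fl g G β₁ (ball G r (P₁.n j)) l k U) r -
        MuL g G β₁ P₁ (dy l k) U r) ^ 2 ∂iidUniform V ≤ ε₄) ∧
      (∫ U, (mean G β₂ (ball G r (P₂.n j)) (fl g G β₂ (ball G r (P₂.n j)) l k U) r -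
        MuL g G β₂ P₂ (dy l k) U r) ^ 2 ∂iidUniform V ≤ ε₄) ∧
      (∀ v ∈ ball G r N, ∫ U, (cov G β₁ (ball G r (P₁.n j)) (fl g G β₁ (ball G r (P₁.n j)) l k U) r v -
        Cf G (Real.tanh β₁) (MuL g G β₁ P₁ (dy l k) U) (XiL g G β₁ P₁ (dy l k) U) r v) ^ 2 ∂iidUniform V ≤ ε₃) ∧
      (∀ v ∈ ball G r N, ∫ U, (cov G β₂ (ball G r (P₂.n j)) (fl g G β₂ (ball G r (P₂.n j)) l k U) r v -
        Cf G (Real.tanh β₂) (MuL g G β₂ P₂ (dy l k) U) (XiL g G β₂ P₂ (dy l k) U) r v) ^ 2 ∂iidUniform V ≤ ε₃) := by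
  have h1 := ev_of_clA (close_mean hg hT hd2 hreg hβ₁0 P₁ r hT1 hε₄)
  have h2 := ev_of_clA (close_mean hg hT hd2 hreg hβ₂0 P₂ r hT1 hε₄)
  have h3 := fun v => ev_of_clA (close_cov hg hT hd2 hreg hβ₁0 P₁ r v hT1 hε₃)
  have h4 := fun v => ev_of_clA (close_cov hg hT hd2 hreg hβ₂0 P₂ r v hT1 hε₃)
  have h3' := (Filter.eventually_all_finset (ball G r N)).2 fun v _ => h3 v
  have h4' := (Filter.eventually_all_finset (ball G r N)).2 fun v _ => h4 v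
  have h5 := (P₁.n_tendsto hd2).eventually_ge_atTop N
  obtain ⟨j, hj1, hj2, hj3, hj4, hj5⟩ := (h1.and (h2.and (h3'.and (h4'.and h5)))).exists
  have hj3' := (Filter.eventually_all_finset (ball G r N)).2 hj3
  have hj4' := (Filter.eventually_all_finset (ball G r N)).2 hj4
  refine ⟨j, hj5, ?_⟩
  filter_upwards [hj1, hj2, hj3', hj4'] with l hl1 hl2 hl3 hl4 k hk hkT
  exact ⟨hl1 k hk hkT, hl2 k hk hkT, fun v hv => hl3 v hv k hk hkT, fun v hv => hl4 v hv k hk hkT⟩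

/-- F12. The integrated inequality, on grids. `Hb` bounds the sum over balls of the squared difference of the
covariance fields. Proof: `two_step_flow` telescoped on `S_i = ball r (P_i.n j)`, `close_mean`, `close_cov`,
and outside `ball r N` the deterministic bound `abs_cov_le` with `card_sph`, `(d-1) θ_i² < 1`. -/
theorem closure_step (hg : DN g) (hT : G.IsTree) (hd : 3 ≤ d) (hreg : G.IsRegularOfDegree d)
    (hβ₁ : Adm d β₁) (hβ₂ : Adm d β₂) (P₁ : Par d β₁) (P₂ : Par d β₂) (r : V) {T : ℝ} (hT1 : 1 ≤ T)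
    {Hb : ℝ → ℝ} (hHb0 : ∀ u, 0 ≤ Hb u)
    (hHb : ∀ L k : ℕ, 0 < dy L k → dy L k ≤ T → ∀ N : ℕ,
      ∫ U, ∑ v ∈ ball G r N, (Cf G (Real.tanh β₁) (MuL g G β₁ P₁ (dy L k) U) (XiL g G β₁ P₁ (dy L k) U) r v -
        Cf G (Real.tanh β₂) (MuL g G β₂ P₂ (dy L k) U) (XiL g G β₂ P₂ (dy L k) U) r v) ^ 2 ∂iidUniform V ≤
        Hb (dy L k)) {ε : ℝ} (hε : 0 < ε) :
    ∃ l₀ : ℕ, ∀ l, l₀ ≤ l → ∀ J K : ℕ, 1 ≤ J → J ≤ K → dy l K ≤ T →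
      Dhat g G P₁ P₂ r (dy l K) ≤ Dhat g G P₁ P₂ r (dy l J) + ε +
        (1 + ε) * ∑ k ∈ Finset.Ico J K, dlt l * Hb (dy l k) := by
  have hd2 : 2 ≤ d := by omega
  have hT0 : 0 < T := by linarith
  have hβ₁0 := hβ₁.hβ
  have hβ₂0 := hβ₂.hβ
  have hθ₁0 := tanh_nonneg_clA hβ₁0
  have hθ₂0 := tanh_nonneg_clA hβ₂0
  have hθ₁1 := P₁.tanh_lt_one_clA
  have hθ₂1 := P₂.tanh_lt_one_clA
  -- parameters
  obtain ⟨η₀, hη₀⟩ : ∃ η₀ : ℝ, η₀ = ε / 32 := ⟨_, rfl⟩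
  have hη₀0 : 0 < η₀ := by rw [hη₀]; positivity
  obtain ⟨ε₄, hε₄⟩ : ∃ ε₄ : ℝ, ε₄ = (ε / 32) / (1 + 1 / η₀) := ⟨_, rfl⟩
  have hε₄0 : 0 < ε₄ := by rw [hε₄]; positivity
  obtain ⟨εt, hεt⟩ : ∃ εt : ℝ, εt = ε / (32 * T) := ⟨_, rfl⟩
  have hεt0 : 0 < εt := by rw [hεt]; positivity
  obtain ⟨N₁, hN₁⟩ := tail_sum_clA hT hd2 hreg hθ₁0 hθ₁1.le (P₁.q_lt_one_clA hβ₁0 hd2) r hεt0
  obtain ⟨N₂, hN₂⟩ := tail_sum_clA hT hd2 hreg hθ₂0 hθ₂1.le (P₂.q_lt_one_clA hβ₂0 hd2) r hεt0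
  obtain ⟨N, hN⟩ : ∃ N : ℕ, N = max N₁ N₂ := ⟨_, rfl⟩
  have hNN₁ : N₁ ≤ N := hN ▸ le_max_left _ _
  have hNN₂ : N₂ ≤ N := hN ▸ le_max_right _ _
  obtain ⟨b₀, hb₀⟩ : ∃ b₀ : ℝ, b₀ = ((ball G r N).card : ℝ) := ⟨_, rfl⟩
  have hb₀0 : 0 ≤ b₀ := by rw [hb₀]; positivity
  obtain ⟨ε₃, hε₃⟩ : ∃ ε₃ : ℝ, ε₃ = (ε / 32) / (T * (1 + 1 / ε) * (b₀ + 1)) := ⟨_, rfl⟩
  have hε₃0 : 0 < ε₃ := by rw [hε₃]; positivity
  have hE₁ := arith_E₁_clA hε hη₀ hε₄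
  have hE₂ := arith_E₂_clA hε hT0 hb₀0 hεt hε₃
  -- the stage
  obtain ⟨j, hj, hev⟩ := exists_stage_clA (g := g) hg hT hd2 hreg hβ₁0 hβ₂0 P₁ P₂ r hT1 hε₃0 hε₄0 N
  obtain ⟨S₁, hS₁⟩ : ∃ S₁ : Finset V, S₁ = ball G r (P₁.n j) := ⟨_, rfl⟩
  obtain ⟨S₂, hS₂⟩ : ∃ S₂ : Finset V, S₂ = ball G r (P₂.n j) := ⟨_, rfl⟩
  rw [← hS₁, ← hS₂] at hev
  obtain ⟨C, hC⟩ : ∃ C : ℝ, C = Cts ((S₁.card : ℝ) + S₂.card) := ⟨_, rfl⟩
  have hC0 : 0 ≤ C := by rw [hC]; unfold Cts; positivity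
  obtain ⟨l₁, hl₁⟩ := exists_mul_pow_le (T * C) qq_pos.le (qq_le.trans_lt (by norm_num))
    (by positivity : 0 < ε / 4)
  obtain ⟨l₀, hl₀⟩ := Filter.eventually_atTop.1 hev
  refine ⟨max l₀ l₁, fun l hl J K hJ hJK hKT => ?_⟩
  have hl0 := hl₀ l ((le_max_left _ _).trans hl)
  have hl1 := hl₁ l ((le_max_right _ _).trans hl)
  have hδ0 := dlt_pos l
  have hsub : ball G r N ⊆ S₁ ∪ S₂ := by
    intro v hv
    rw [mem_ball hT] at hv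
    refine Finset.mem_union_left _ ?_
    rw [hS₁, mem_ball hT]
    exact hv.trans hj
  have hstep := two_step_U_clA (G := G) (β₁ := β₁) (β₂ := β₂) hg S₁ S₂ r l
  rw [← hC, dlt_rpow_clA] at hstep
  have hK1 : 1 ≤ K := hJ.trans hJK
  have hJT : dy l J ≤ T := by
    refine le_trans ?_ hKT
    unfold dy
    refine mul_le_mul_of_nonneg_right ?_ hδ0.le
    exact_mod_cast hJK
  have hK := hl0 K hK1 hKT
  have hJ' := hl0 J hJ hJT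
  have c1 := (dhat_le_clA hg P₁ P₂ S₁ S₂ r l K (dy l K) hη₀0 hK.1 hK.2.1).1
  have c2 := (dhat_le_clA hg P₁ P₂ S₁ S₂ r l J (dy l J) hη₀0 hJ'.1 hJ'.2.1).2
  rw [hE₁] at c1 c2
  have hB : ∀ k ∈ Finset.Ico J K, ∫ U, ∑ v ∈ S₁ ∪ S₂, (cov G β₁ S₁ (fl g G β₁ S₁ l k U) r v -
        cov G β₂ S₂ (fl g G β₂ S₂ l k U) r v) ^ 2 ∂iidUniform V ≤
      (1 + ε) * Hb (dy l k) + (4 * εt + 2 * (1 + 1 / ε) * (b₀ * (2 * ε₃))) := by
    intro k hk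
    obtain ⟨hk1, hk2⟩ := Finset.mem_Ico.1 hk
    have hk0 : 1 ≤ k := by omega
    have hkT : dy l k ≤ T := by
      refine le_trans ?_ hKT
      unfold dy
      refine mul_le_mul_of_nonneg_right ?_ hδ0.le
      exact_mod_cast hk2.le
    have hpos : 0 < dy l k := by
      have : (0 : ℝ) < k := by exact_mod_cast hk0
      unfold dy
      positivity
    have hlk := hl0 k hk0 hkT
    rw [hb₀]
    exact cov_sum_le_clA hg hT hβ₁0 hβ₂0 P₁ P₂ r l k (dy l k) hε hsub (hN₁ N hNN₁ _) (hN₂ N hNN₂ _)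
      hlk.2.2.1 hlk.2.2.2 (hHb l k hpos hkT N)
  exact assemble_clA (A := fun k => ∫ U, (mean G β₁ S₁ (fl g G β₁ S₁ l k U) r -
      mean G β₂ S₂ (fl g G β₂ S₂ l k U) r) ^ 2 ∂iidUniform V)
    (B := fun k => ∫ U, ∑ v ∈ S₁ ∪ S₂, (cov G β₁ S₁ (fl g G β₁ S₁ l k U) r v -
      cov G β₂ S₂ (fl g G β₂ S₂ l k U) r v) ^ 2 ∂iidUniform V)
    (D := fun k => Dhat g G P₁ P₂ r (dy l k)) (Hb := fun k => Hb (dy l k)) hJK hδ0 hC0
    (pow_nonneg qq_pos.le l) (by rw [hεt, hε₃]; positivity) hKT hstep c1 c2 hB hE₂ hl1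

end Vale.Agent.Lib.P161E
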