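import Vale.Agent.Lib.P161E.ClA

/-! Job F13: from means to limit fields, initial smallness. -/

open MeasureTheory Finset Filter Topology
open scoped Classical ENNReal

noncomputable section

namespace Vale.Agent.Lib.P161E

open Vale.Agent.Lib.P161

variable {V : Type*} {G : SimpleGraph V} [G.LocallyFinite] {d : ℕ} {β₁ β₂ : ℝ}
  {g : ℕ → ℕ → unitInterval → ℝ}

section moments

omit [G.LocallyFinite]

/-- The noise coordinates have second moments. -/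
theorem memLp_xiN_clB (hg : DN g) (l k : ℕ) (r : V) :
    MemLp (fun U : V → unitInterval => xiN g l U k r) 2 (iidUniform V) := by
  have hm : Measurable (fun U : V → unitInterval => xiN g l U k r) :=
    (measurable_pi_apply r).comp ((measurable_pi_apply k).comp (measurable_xiN g hg.hm l))
  have hc : Measurable (fun ξ : ℕ → V → ℝ => ξ k r) :=
    (measurable_pi_apply r).comp (measurable_pi_apply k)
  have hmap : (iidUniform V).map (fun U : V → unitInterval => xiN g l U k r) =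
      ProbabilityTheory.gaussianReal 0 1 := by
    have h1 : (fun U : V → unitInterval => xiN g l U k r) =
        (fun ξ : ℕ → V → ℝ => ξ k r) ∘ xiN g l := rfl
    rw [h1, ← Measure.map_map hc (measurable_xiN g hg.hm l), map_xiN g hg.hm hg.hlaw l, map_nu_coord]
  have h2 : MemLp (fun x : ℝ => x) 2 ((iidUniform V).map (fun U : V → unitInterval => xiN g l U k r)) := by
    rw [hmap]
    exact ProbabilityTheory.memLp_id_gaussianReal' 2 (by norm_num)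
  exact h2.comp_of_map hm.aemeasurable

/-- The schemes have second moments. -/
theorem memLp_flow_clB (hg : DN g) (β : ℝ) (S : Finset V) (l K : ℕ) (r : V) :
    MemLp (fun U : V → unitInterval => flow G β S (dlt l) (xiN g l U) 0 K 0 r) 2 (iidUniform V) := by
  induction K with
  | zero => simp [flow]
  | succ K ih =>
    have hm : Measurable (fun U : V → unitInterval => mean G β S (flow G β S (dlt l) (xiN g l U) 0 K 0) r) :=
      (measurable_mean S r).comp (measurable_fl_clA hg β S l K)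
    have hb : MemLp (fun U : V → unitInterval => mean G β S (flow G β S (dlt l) (xiN g l U) 0 K 0) r) 2
        (iidUniform V) :=
      MemLp.of_bound hm.aestronglyMeasurable 1 (Eventually.of_forall fun U => by
        rw [Real.norm_eq_abs]
        exact abs_mean_le _ _ _ _ _)
    have h3 : (fun U : V → unitInterval => flow G β S (dlt l) (xiN g l U) 0 (K + 1) 0 r) =
        (((fun U : V → unitInterval => flow G β S (dlt l) (xiN g l U) 0 K 0 r) +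
          fun U => dlt l * mean G β S (flow G β S (dlt l) (xiN g l U) 0 K 0) r) +
          fun U => Real.sqrt (dlt l) * xiN g l U K r) := by
      funext U
      rw [flow_succ]
      simp [eulerStep]
    rw [h3]
    exact (ih.add (hb.const_mul _)).add ((memLp_xiN_clB hg l K r).const_mul _)

end moments

/-- Squared difference with second moments: the comparison of `closure_step` for unbounded variables. -/
theorem integral_sub_sq_le_clB {Ω : Type*} [MeasurableSpace Ω] {μ : Measure Ω}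
    {a₁ a₂ b₁ b₂ : Ω → ℝ} (ha₁ : MemLp a₁ 2 μ) (ha₂ : MemLp a₂ 2 μ) (hb₁ : MemLp b₁ 2 μ)
    (hb₂ : MemLp b₂ 2 μ) {η : ℝ} (hη : 0 < η) :
    ∫ ω, (a₁ ω - a₂ ω) ^ 2 ∂μ ≤ (1 + η) * ∫ ω, (b₁ ω - b₂ ω) ^ 2 ∂μ +
      2 * (1 + 1 / η) * (∫ ω, (a₁ ω - b₁ ω) ^ 2 ∂μ + ∫ ω, (a₂ ω - b₂ ω) ^ 2 ∂μ) := by
  have i0 : Integrable (fun ω => (a₁ ω - a₂ ω) ^ 2) μ := (ha₁.sub ha₂).integrable_sq
  have i1 : Integrable (fun ω => (b₁ ω - b₂ ω) ^ 2) μ := (hb₁.sub hb₂).integrable_sq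
  have i2 : Integrable (fun ω => (a₁ ω - b₁ ω) ^ 2) μ := (ha₁.sub hb₁).integrable_sq
  have i3 : Integrable (fun ω => (a₂ ω - b₂ ω) ^ 2) μ := (ha₂.sub hb₂).integrable_sq
  have i23 : Integrable (fun ω => (a₁ ω - b₁ ω) ^ 2 + (a₂ ω - b₂ ω) ^ 2) μ := i2.add i3
  have key : ∫ ω, (a₁ ω - a₂ ω) ^ 2 ∂μ ≤ ∫ ω, ((1 + η) * (b₁ ω - b₂ ω) ^ 2 +
      2 * (1 + 1 / η) * ((a₁ ω - b₁ ω) ^ 2 + (a₂ ω - b₂ ω) ^ 2)) ∂μ :=
    integral_mono i0 ((i1.const_mul _).add (i23.const_mul _))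
      fun ω => sq_sub_split_clA _ _ _ _ _ hη
  refine key.trans (le_of_eq ?_)
  rw [integral_add (i1.const_mul _) (i23.const_mul _), integral_const_mul,
    integral_const_mul, integral_add i2 i3]

/-- The sum of the mean squares along the scheme. -/
theorem flow_diff_sq_clB (hg : DN g) (S₁ S₂ : Finset V) (r : V) (l K : ℕ) {M : ℝ} (hM : 0 ≤ M)
    (hA : ∀ k, 1 ≤ k → k < K → ∫ U, (mean G β₁ S₁ (fl g G β₁ S₁ l k U) r -
        mean G β₂ S₂ (fl g G β₂ S₂ l k U) r) ^ 2 ∂iidUniform V ≤ M) :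
    ∫ U, (flow G β₁ S₁ (dlt l) (xiN g l U) 0 K 0 r - flow G β₂ S₂ (dlt l) (xiN g l U) 0 K 0 r) ^ 2
        ∂iidUniform V ≤ ((K : ℝ) * dlt l) * (4 * dlt l + ((K : ℝ) * dlt l) * M) := by
  have hδ0 := dlt_pos l
  have hmean₁ : ∀ k, Measurable (fun U => mean G β₁ S₁ (fl g G β₁ S₁ l k U) r) := fun k =>
    (measurable_mean S₁ r).comp (measurable_fl_clA hg β₁ S₁ l k)
  have hmean₂ : ∀ k, Measurable (fun U => mean G β₂ S₂ (fl g G β₂ S₂ l k U) r) := fun k =>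
    (measurable_mean S₂ r).comp (measurable_fl_clA hg β₂ S₂ l k)
  have i0 : ∀ k, Integrable (fun U => (mean G β₁ S₁ (fl g G β₁ S₁ l k U) r -
      mean G β₂ S₂ (fl g G β₂ S₂ l k U) r) ^ 2) (iidUniform V) := fun k =>
    integrable_sub_sq_clA (hmean₁ k) (hmean₂ k) (fun U => abs_mean_le _ _ _ _ _)
      (fun U => abs_mean_le _ _ _ _ _)
  have i1 : Integrable (fun U => (flow G β₁ S₁ (dlt l) (xiN g l U) 0 K 0 r -
      flow G β₂ S₂ (dlt l) (xiN g l U) 0 K 0 r) ^ 2) (iidUniform V) :=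
    ((memLp_flow_clB hg β₁ S₁ l K r).sub (memLp_flow_clB hg β₂ S₂ l K r)).integrable_sq
  have hpt : ∀ U, (flow G β₁ S₁ (dlt l) (xiN g l U) 0 K 0 r -
      flow G β₂ S₂ (dlt l) (xiN g l U) 0 K 0 r) ^ 2 ≤ dlt l ^ 2 * K *
        ∑ k ∈ range K, (mean G β₁ S₁ (fl g G β₁ S₁ l k U) r - mean G β₂ S₂ (fl g G β₂ S₂ l k U) r) ^ 2 := by
    intro U
    rw [flow_sub_eq, mul_pow, mul_assoc]
    refine mul_le_mul_of_nonneg_left ?_ (by positivity)
    have := sq_sum_le_card_mul_sum_sq (s := range K) (f := fun k =>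
      mean G β₁ S₁ (flow G β₁ S₁ (dlt l) (xiN g l U) 0 k 0) r -
        mean G β₂ S₂ (flow G β₂ S₂ (dlt l) (xiN g l U) 0 k 0) r)
    rw [Finset.card_range] at this
    exact this
  have i2 : Integrable (fun U => dlt l ^ 2 * K * ∑ k ∈ range K, (mean G β₁ S₁ (fl g G β₁ S₁ l k U) r -
      mean G β₂ S₂ (fl g G β₂ S₂ l k U) r) ^ 2) (iidUniform V) :=
    (integrable_finsetSum _ fun k _ => i0 k).const_mul _
  refine (integral_mono i1 i2 hpt).trans ?_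
  rw [integral_const_mul, integral_finsetSum _ fun k _ => i0 k]
  have hsum : ∑ k ∈ range K, ∫ U, (mean G β₁ S₁ (fl g G β₁ S₁ l k U) r -
      mean G β₂ S₂ (fl g G β₂ S₂ l k U) r) ^ 2 ∂iidUniform V ≤ 4 + K * M := by
    have h4 : ∀ k ∈ range K, ∫ U, (mean G β₁ S₁ (fl g G β₁ S₁ l k U) r -
        mean G β₂ S₂ (fl g G β₂ S₂ l k U) r) ^ 2 ∂iidUniform V ≤ (if k = 0 then 4 else 0) + M := by
      intro k hk
      by_cases h0 : k = 0
      · subst h0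
        rw [if_pos rfl]
        have := integral_sub_sq_le_four_clA (μ := iidUniform V)
          (a := fun U => mean G β₁ S₁ (fl g G β₁ S₁ l 0 U) r)
          (b := fun U => mean G β₂ S₂ (fl g G β₂ S₂ l 0 U) r)
          (fun U => abs_mean_le _ _ _ _ _) (fun U => abs_mean_le _ _ _ _ _)
        linarith
      · rw [if_neg h0, zero_add]
        exact hA k (by omega) (Finset.mem_range.1 hk)
    refine (Finset.sum_le_sum h4).trans ?_
    rw [Finset.sum_add_distrib, Finset.sum_const, Finset.card_range, nsmul_eq_mul]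
    refine add_le_add ?_ le_rfl
    rw [Finset.sum_ite_eq']
    split_ifs <;> norm_num
  have hc : 0 ≤ dlt l ^ 2 * K := by positivity
  refine (mul_le_mul_of_nonneg_left hsum hc).trans (le_of_eq ?_)
  ring

/-- The choice of the parameters of `Yf_diff`. -/
theorem arith_Yf_clB {u B ε : ℝ} (hu : 1 ≤ u) (hB : 0 ≤ B) (hε : 0 < ε) :
    ∃ η E δ₀ e₀ : ℝ, 0 < η ∧ 0 < E ∧ 0 < δ₀ ∧ 0 < e₀ ∧ ∀ δ e : ℝ, 0 ≤ δ → δ ≤ δ₀ → 0 ≤ e → e ≤ e₀ →
      (1 + η) * (u * (4 * δ + u * (B + E))) + 2 * (1 + 1 / η) * (e + e) ≤ u ^ 2 * B + ε := by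
  have hu0 : 0 < u := by linarith
  obtain ⟨η, hη⟩ : ∃ η : ℝ, η = min 1 (ε / (4 * (u ^ 2 * (B + 1)))) := ⟨_, rfl⟩
  have hη0 : 0 < η := by
    rw [hη]
    exact lt_min one_pos (by positivity)
  have hη1 : η ≤ 1 := hη ▸ min_le_left _ _
  have hη2 : η * (u ^ 2 * B) ≤ ε / 4 := by
    have h1 : η ≤ ε / (4 * (u ^ 2 * (B + 1))) := hη ▸ min_le_right _ _
    have h2 : 0 < 4 * (u ^ 2 * (B + 1)) := by positivity
    rw [le_div_iff₀ h2] at h1
    have h3 : 0 ≤ η * u ^ 2 := by positivity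
    nlinarith
  refine ⟨η, ε / (16 * u ^ 2), ε / (128 * u), ε / (16 * (1 + 1 / η)), hη0, by positivity, by positivity,
    by positivity, ?_⟩
  intro δ e hδ0 hδ he0 he
  have h1 : (1 + η) * (u * (4 * δ + u * (B + ε / (16 * u ^ 2)))) =
      u ^ 2 * B + η * (u ^ 2 * B) + (1 + η) * (4 * (u * δ) + u ^ 2 * (ε / (16 * u ^ 2))) := by
    ring
  have h2 : u ^ 2 * (ε / (16 * u ^ 2)) = ε / 16 := by
    field_simp
  have h3 : u * δ ≤ ε / 128 := by
    have : u * δ ≤ u * (ε / (128 * u)) := mul_le_mul_of_nonneg_left hδ hu0.le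
    have e1 : u * (ε / (128 * u)) = ε / 128 := by field_simp
    linarith
  have h4 : 0 ≤ u * δ := by positivity
  have h5 : 2 * (1 + 1 / η) * (e + e) ≤ ε / 4 := by
    have h6 : (1 + 1 / η) * e ≤ (1 + 1 / η) * (ε / (16 * (1 + 1 / η))) :=
      mul_le_mul_of_nonneg_left he (by positivity)
    have e2 : (1 + 1 / η) * (ε / (16 * (1 + 1 / η))) = ε / 16 := by
      field_simp
    nlinarith
  rw [h1, h2]
  have h7 : (1 + η) * (4 * (u * δ) + ε / 16) ≤ 2 * (4 * (ε / 128) + ε / 16) := by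
    have h8 : 4 * (u * δ) + ε / 16 ≤ 4 * (ε / 128) + ε / 16 := by linarith
    have h9 : 0 ≤ 4 * (u * δ) + ε / 16 := by positivity
    nlinarith
  nlinarith

theorem exists_stage_clB (hg : DN g) (hT : G.IsTree) (hd2 : 2 ≤ d) (hreg : G.IsRegularOfDegree d)
    (hβ₁0 : 0 ≤ β₁) (hβ₂0 : 0 ≤ β₂) (P₁ : Par d β₁) (P₂ : Par d β₂) (r : V) {T : ℝ} (hT1 : 1 ≤ T)
    {ε₄ e₀ : ℝ} (hε₄ : 0 < ε₄) (he₀ : 0 < e₀) (p : ℕ) :
    ∃ j : ℕ, p ≤ j ∧ 100 * (1 + T) ^ 2 * (1 / 2 : ℝ) ^ j ≤ e₀ ∧ ∀ᶠ l in atTop, ∀ k, 1 ≤ k → dy l k ≤ T →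
      (∫ U, (mean G β₁ (ball G r (P₁.n j)) (fl g G β₁ (ball G r (P₁.n j)) l k U) r -
        MuL g G β₁ P₁ (dy l k) U r) ^ 2 ∂iidUniform V ≤ ε₄) ∧
      (∫ U, (mean G β₂ (ball G r (P₂.n j)) (fl g G β₂ (ball G r (P₂.n j)) l k U) r -
        MuL g G β₂ P₂ (dy l k) U r) ^ 2 ∂iidUniform V ≤ ε₄) := by
  have h1 := ev_of_clA (close_mean hg hT hd2 hreg hβ₁0 P₁ r hT1 hε₄)
  have h2 := ev_of_clA (close_mean hg hT hd2 hreg hβ₂0 P₂ r hT1 hε₄)
  obtain ⟨j₁, hj₁⟩ := exists_mul_pow_le (100 * (1 + T) ^ 2) (x := 1 / 2) (by norm_num) (by norm_num) he₀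
  have h3 : ∀ᶠ j in atTop, j₁ ≤ j := eventually_ge_atTop j₁
  have h4 : ∀ᶠ j in atTop, p ≤ j := eventually_ge_atTop p
  obtain ⟨j, hj1, hj2, hj3, hj4⟩ := (h1.and (h2.and (h3.and h4))).exists
  refine ⟨j, hj4, hj₁ j hj3, ?_⟩
  filter_upwards [hj1, hj2] with l hl1 hl2 k hk hkT
  exact ⟨hl1 k hk hkT, hl2 k hk hkT⟩

/-- F13. From the distance of the mean fields to the distance of the limit fields: `flow_sub_eq`, Cauchy-Schwarz in
time, `close_mean`, `flow_close_Y`. -/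
theorem Yf_diff (hg : DN g) (hT : G.IsTree) (hd : 3 ≤ d) (hreg : G.IsRegularOfDegree d)
    (hβ₁ : Adm d β₁) (hβ₂ : Adm d β₂) (P₁ : Par d β₁) (P₂ : Par d β₂) (r : V) (p : ℕ) {B : ℝ}
    (hB : ∀ L k : ℕ, 0 < dy L k → dy L k ≤ 2 ^ p → Dhat g G P₁ P₂ r (dy L k) ≤ B) :
    ∫ U, (Yf g G β₁ P₁ (2 ^ p) r U - Yf g G β₂ P₂ (2 ^ p) r U) ^ 2 ∂iidUniform V ≤ (2 ^ p) ^ 2 * B := by
  have hd2 : 2 ≤ d := by omega
  have hβ₁0 := hβ₁.hβ
  have hβ₂0 := hβ₂.hβ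
  obtain ⟨u, hu⟩ : ∃ u : ℝ, u = 2 ^ p := ⟨_, rfl⟩
  have hu1 : 1 ≤ u := by rw [hu]; exact one_le_pow₀ (by norm_num)
  have hu0 : 0 < u := by linarith
  have hdyu : dy 0 (2 ^ p) = u := by
    rw [hu]
    simp [dy, dlt]
  have hB0 : 0 ≤ B := by
    have h1 : 0 < dy 0 (2 ^ p) := by rw [hdyu]; exact hu0
    have h2 : dy 0 (2 ^ p) ≤ 2 ^ p := by rw [hdyu, hu]
    refine le_trans ?_ (hB 0 (2 ^ p) h1 h2)
    unfold Dhat Dd
    exact integral_nonneg fun U => sq_nonneg _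
  rw [← hu]
  refine le_of_forall_pos_le_add fun ε hε => ?_
  obtain ⟨η, E, δ₀, e₀, hη, hE, hδ₀, he₀, hkey⟩ := arith_Yf_clB hu1 hB0 hε
  -- the closeness of the means
  obtain ⟨η₀, hη₀⟩ : ∃ η₀ : ℝ, η₀ = (4 * E) / 32 := ⟨_, rfl⟩
  have hη₀0 : 0 < η₀ := by rw [hη₀]; positivity
  obtain ⟨ε₄, hε₄⟩ : ∃ ε₄ : ℝ, ε₄ = ((4 * E) / 32) / (1 + 1 / η₀) := ⟨_, rfl⟩
  have hε₄0 : 0 < ε₄ := by rw [hε₄]; positivity
  have hE₁ : 4 * η₀ + 2 * (1 + 1 / η₀) * (ε₄ + ε₄) = E := by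
    have := arith_E₁_clA (ε := 4 * E) (by positivity) hη₀ hε₄
    rw [this]
    ring
  obtain ⟨j, hpj, hje, hev⟩ := exists_stage_clB (g := g) hg hT hd2 hreg hβ₁0 hβ₂0 P₁ P₂ r hu1 hε₄0 he₀ p
  obtain ⟨l₁, hl₁⟩ := exists_mul_pow_le 1 (x := 1 / 2) (by norm_num) (by norm_num) hδ₀
  obtain ⟨l₀, hl₀⟩ := Filter.eventually_atTop.1 hev
  obtain ⟨l, hl⟩ : ∃ l : ℕ, l = max (max l₀ l₁) (max (P₁.l j) (P₂.l j)) := ⟨_, rfl⟩
  have hll₀ : l₀ ≤ l := by rw [hl]; exact (le_max_left _ _).trans (le_max_left _ _)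
  have hll₁ : l₁ ≤ l := by rw [hl]; exact (le_max_right _ _).trans (le_max_left _ _)
  have hlP₁ : P₁.l j ≤ l := by rw [hl]; exact (le_max_left _ _).trans (le_max_right _ _)
  have hlP₂ : P₂.l j ≤ l := by rw [hl]; exact (le_max_right _ _).trans (le_max_right _ _)
  have hδ : dlt l ≤ δ₀ := by
    have := hl₁ l hll₁
    simpa [dlt] using this
  have hδ0 := dlt_pos l
  obtain ⟨K, hK⟩ : ∃ K : ℕ, K = stp (dy 0 (2 ^ p)) l := ⟨_, rfl⟩
  have hKu : (K : ℝ) * dlt l = u := by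
    rw [hK, stp_mul_dlt (Nat.zero_le l), hdyu]
  have hu2j : dy 0 (2 ^ p) ≤ 2 ^ j := by
    rw [hdyu, hu]
    exact pow_le_pow_right₀ (by norm_num) hpj
  have hc₁ := flow_close_Y hg hT hd2 hreg hβ₁0 P₁ hu2j hlP₁ (Nat.zero_le l) r
  have hc₂ := flow_close_Y hg hT hd2 hreg hβ₂0 P₂ hu2j hlP₂ (Nat.zero_le l) r
  rw [← hK, hdyu] at hc₁ hc₂
  have hY₁ := integrable_Yf_sq (L := 0) (k := 2 ^ p) hg hT hd2 hreg hβ₁0 P₁ r
  have hY₂ := integrable_Yf_sq (L := 0) (k := 2 ^ p) hg hT hd2 hreg hβ₂0 P₂ r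
  rw [hdyu] at hY₁ hY₂
  have mY₁ : MemLp (fun U => Yf g G β₁ P₁ u r U) 2 (iidUniform V) :=
    (memLp_two_iff_integrable_sq (measurable_Yf hg P₁ u r).aestronglyMeasurable).2 hY₁
  have mY₂ : MemLp (fun U => Yf g G β₂ P₂ u r U) 2 (iidUniform V) :=
    (memLp_two_iff_integrable_sq (measurable_Yf hg P₂ u r).aestronglyMeasurable).2 hY₂
  have hsplit := integral_sub_sq_le_clB mY₁ mY₂ (memLp_flow_clB (G := G) hg β₁ (ball G r (P₁.n j)) l K r)
    (memLp_flow_clB (G := G) hg β₂ (ball G r (P₂.n j)) l K r) hη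
  have hsym : ∀ (β : ℝ) (P : Par d β) (S : Finset V), ∫ U, (Yf g G β P u r U -
      flow G β S (dlt l) (xiN g l U) 0 K 0 r) ^ 2 ∂iidUniform V =
      ∫ U, (flow G β S (dlt l) (xiN g l U) 0 K 0 r - Yf g G β P u r U) ^ 2 ∂iidUniform V := by
    intro β P S
    congr 1
    funext U
    ring
  rw [hsym, hsym] at hsplit
  have hF := flow_diff_sq_clB (g := g) (β₁ := β₁) (β₂ := β₂) hg (ball G r (P₁.n j)) (ball G r (P₂.n j))
    r l K (M := B + E) (by positivity) (by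
      intro k hk hkK
      have hkT : dy l k ≤ u := by
        rw [← hKu]
        unfold dy
        refine mul_le_mul_of_nonneg_right ?_ hδ0.le
        exact_mod_cast hkK.le
      have hpos : 0 < dy l k := by
        have : (0 : ℝ) < k := by exact_mod_cast hk
        unfold dy
        positivity
      have hlk := hl₀ l hll₀ k hk hkT
      have h1 := (dhat_le_clA hg P₁ P₂ _ _ r l k (dy l k) hη₀0 hlk.1 hlk.2).2
      rw [hE₁] at h1
      have h2 := hB l k hpos (by rw [← hu]; exact hkT)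
      linarith)
  rw [hKu] at hF
  have hle := hkey (dlt l) (100 * (1 + u) ^ 2 * (1 / 2 : ℝ) ^ j) hδ0.le hδ (by positivity) hje
  have h1η : 0 ≤ 1 + η := by positivity
  have hc2 : 0 ≤ 2 * (1 + 1 / η) := by positivity
  have h5 := mul_le_mul_of_nonneg_left hF h1η
  have h6 := mul_le_mul_of_nonneg_left (add_le_add hc₁ hc₂) hc2
  linarith

theorem thc_le_clB (hd : 3 ≤ d) : thc d ≤ 3 / 4 := by
  unfold thc
  have h3 : (2 : ℝ) ≤ (d : ℝ) - 1 := by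
    have : (3 : ℝ) ≤ d := by exact_mod_cast hd
    linarith
  have h4 : (4 / 3 : ℝ) ≤ Real.sqrt ((d : ℝ) - 1) := by
    apply Real.le_sqrt_of_sq_le
    linarith [show ((4 : ℝ) / 3) ^ 2 ≤ 2 by norm_num]
  rw [div_le_iff₀ (by linarith)]
  linarith

theorem bm_sq_le_clB {θ a b : ℝ} (h0 : 0 ≤ θ) (h1 : θ ≤ 3 / 4) (ha : |a| ≤ 1) (hb : |b| ≤ 1) :
    bm θ a b ^ 2 ≤ 32 * (a ^ 2 + b ^ 2) := by
  have h2 := abs_bm_le_add h0 (by linarith : θ < 1) ha hb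
  have h3 : (|a| + |b|) / (1 - θ) ≤ 4 * (|a| + |b|) := by
    rw [div_le_iff₀ (by linarith)]
    have h5 : 0 ≤ |a| + |b| := by positivity
    nlinarith
  have h4 : |bm θ a b| ≤ 4 * (|a| + |b|) := h2.trans h3
  have h5 : bm θ a b ^ 2 ≤ (4 * (|a| + |b|)) ^ 2 := by
    rw [← sq_abs (bm θ a b)]
    exact pow_le_pow_left₀ (abs_nonneg _) h4 2
  have h6 : (4 * (|a| + |b|)) ^ 2 ≤ 32 * (a ^ 2 + b ^ 2) := by
    have e1 := sq_abs a
    have e2 := sq_abs b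
    nlinarith [sq_nonneg (|a| - |b|)]
  linarith

theorem integrable_sq_clB {Ω : Type*} [MeasurableSpace Ω] {μ : Measure Ω} [IsProbabilityMeasure μ]
    {f : Ω → ℝ} (hf : Measurable f) (h1 : ∀ ω, |f ω| ≤ 1) : Integrable (fun ω => f ω ^ 2) μ := by
  refine Integrable.of_bound (hf.pow_const 2).aestronglyMeasurable 1
    (Eventually.of_forall fun ω => ?_)
  have h2 := abs_le.1 (h1 ω)
  rw [Real.norm_eq_abs, abs_of_nonneg (sq_nonneg _)]
  nlinarith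

/-- Initial smallness of `Dhat`. -/
theorem Dhat_small (hg : DN g) (hT : G.IsTree) (hd : 3 ≤ d) (hreg : G.IsRegularOfDegree d)
    (hβ₁ : Adm d β₁) (hβ₂ : Adm d β₂) (P₁ : Par d β₁) (P₂ : Par d β₂) (r : V) {T : ℝ} (hT1 : 1 ≤ T)
    {L k : ℕ} (hu0 : 0 < dy L k) (huT : dy L k ≤ T) :
    Dhat g G P₁ P₂ r (dy L k) ≤ 100 * (d : ℝ) ^ 4 * Ce d T / kap0 d T * Real.sqrt (dy L k) := by
  have s₁ := sys_limit hg hT hd hreg hβ₁ P₁ hT1 hu0 huT
  have s₂ := sys_limit hg hT hd hreg hβ₂ P₂ hT1 hu0 huT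
  obtain ⟨y, hy⟩ : ∃ y, G.Adj r y := by
    have h1 : 0 < G.degree r := by
      rw [hreg r]
      omega
    exact (G.degree_pos_iff_exists_adj r).1 h1
  have hy' := hy.symm
  have e1 := (sq_ξ_le s₁ s₂ hd hT1 hy).1
  have e2 := (sq_ξ_le s₁ s₂ hd hT1 hy').1
  have e3 := (sq_ξ_le s₂ s₁ hd hT1 hy).1
  have e4 := (sq_ξ_le s₂ s₁ hd hT1 hy').1
  have hθ₁0 := tanh_nonneg_clA hβ₁.hβ
  have hθ₂0 := tanh_nonneg_clA hβ₂.hβ
  have hθ₁1 : Real.tanh β₁ ≤ 3 / 4 := hβ₁.hi.le.trans (thc_le_clB hd)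
  have hθ₂1 : Real.tanh β₂ ≤ 3 / 4 := hβ₂.hi.le.trans (thc_le_clB hd)
  have hae : ∀ᵐ U ∂iidUniform V, (MuL g G β₁ P₁ (dy L k) U r - MuL g G β₂ P₂ (dy L k) U r) ^ 2 ≤
      64 * (XiL g G β₁ P₁ (dy L k) U r y ^ 2 + XiL g G β₁ P₁ (dy L k) U y r ^ 2 +
        (XiL g G β₂ P₂ (dy L k) U r y ^ 2 + XiL g G β₂ P₂ (dy L k) U y r ^ 2)) := by
    filter_upwards [s₁.bethe r y hy, s₂.bethe r y hy] with U h₁ h₂
    have b₁ := bm_sq_le_clB hθ₁0 hθ₁1 (s₁.abs_ξ U r y) (s₁.abs_ξ U y r)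
    have b₂ := bm_sq_le_clB hθ₂0 hθ₂1 (s₂.abs_ξ U r y) (s₂.abs_ξ U y r)
    rw [h₁, h₂]
    nlinarith [sq_nonneg (bm (Real.tanh β₁) (XiL g G β₁ P₁ (dy L k) U r y) (XiL g G β₁ P₁ (dy L k) U y r) +
      bm (Real.tanh β₂) (XiL g G β₂ P₂ (dy L k) U r y) (XiL g G β₂ P₂ (dy L k) U y r))]
  have i1 := integrable_sq_clB (μ := iidUniform V) (s₁.meas_ξ r y) (fun U => s₁.abs_ξ U r y)
  have i2 := integrable_sq_clB (μ := iidUniform V) (s₁.meas_ξ y r) (fun U => s₁.abs_ξ U y r)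
  have i3 := integrable_sq_clB (μ := iidUniform V) (s₂.meas_ξ r y) (fun U => s₂.abs_ξ U r y)
  have i4 := integrable_sq_clB (μ := iidUniform V) (s₂.meas_ξ y r) (fun U => s₂.abs_ξ U y r)
  have i12 : Integrable (fun U => XiL g G β₁ P₁ (dy L k) U r y ^ 2 +
      XiL g G β₁ P₁ (dy L k) U y r ^ 2) (iidUniform V) := i1.add i2
  have i34 : Integrable (fun U => XiL g G β₂ P₂ (dy L k) U r y ^ 2 +
      XiL g G β₂ P₂ (dy L k) U y r ^ 2) (iidUniform V) := i3.add i4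
  have i5 : Integrable (fun U => XiL g G β₁ P₁ (dy L k) U r y ^ 2 + XiL g G β₁ P₁ (dy L k) U y r ^ 2 +
      (XiL g G β₂ P₂ (dy L k) U r y ^ 2 + XiL g G β₂ P₂ (dy L k) U y r ^ 2)) (iidUniform V) := i12.add i34
  have i0 := integrable_sub_sq_clA (μ := iidUniform V) (s₁.meas_m r) (s₂.meas_m r)
    (fun U => s₁.abs_m U r) (fun U => s₂.abs_m U r)
  have hmono := integral_mono_ae i0 (i5.const_mul 64) hae
  rw [integral_const_mul, integral_add i12 i34, integral_add i1 i2, integral_add i3 i4] at hmono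
  have hE0 : 0 ≤ Ce d T / kap0 d T * Real.sqrt (dy L k) :=
    (integral_nonneg fun U => sq_nonneg _).trans e1
  have hd3 : (81 : ℝ) ≤ (d : ℝ) ^ 4 := by
    have : (3 : ℝ) ≤ d := by exact_mod_cast hd
    calc (81 : ℝ) = 3 ^ 4 := by norm_num
      _ ≤ _ := pow_le_pow_left₀ (by norm_num) this 4
  have e : 100 * (d : ℝ) ^ 4 * Ce d T / kap0 d T * Real.sqrt (dy L k) =
      100 * (d : ℝ) ^ 4 * (Ce d T / kap0 d T * Real.sqrt (dy L k)) := by ring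
  rw [e]
  unfold Dhat Dd
  nlinarith

end Vale.Agent.Lib.P161E
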