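import Vale.Agent.Lib.P161E.ClB

/-! Job F14: the key statement. -/

open MeasureTheory Finset Filter Topology
open scoped Classical ENNReal

noncomputable section

namespace Vale.Agent.Lib.P161E

open Vale.Agent.Lib.P161

variable {V : Type*} {G : SimpleGraph V} [G.LocallyFinite] {d : ℕ} {β₁ β₂ : ℝ}
  {g : ℕ → ℕ → unitInterval → ℝ}

theorem dy_pos {l k : ℕ} (hk : 1 ≤ k) : 0 < dy l k := by
  unfold dy
  have : (0 : ℝ) < k := by exact_mod_cast hk
  exact mul_pos this (dlt_pos l)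

theorem dy_mono {l k k' : ℕ} (h : k ≤ k') : dy l k ≤ dy l k' := by
  unfold dy
  have : (k : ℝ) ≤ k' := by exact_mod_cast h
  exact mul_le_mul_of_nonneg_right this (dlt_pos l).le

/-- Osgood on a grid. -/
theorem grid_bound {Dh Ef : ℝ → ℝ} {CK T ε ηt Bb ε₁ : ℝ} {l J K : ℕ} (hCK : 0 < CK) (hε0 : 0 < ε)
    (hε1 : ε ≤ 1) (hJ : 1 ≤ J) (hJK : J ≤ K) (hTK : dy l K ≤ T) (hT1 : 1 ≤ T)
    (hBb : Bb = 2 * CK * (32 * T ^ (1 / 32 : ℝ) + T))
    (hDr : ∀ k, 0 ≤ Dh (dy l k) ∧ Dh (dy l k) ≤ 8) (hEf : ∀ u, 0 ≤ Ef u)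
    (hrec : ∀ K', J ≤ K' → K' ≤ K → Dh (dy l K') ≤ Dh (dy l J) + ε + (1 + ε) * ∑ k ∈ Finset.Ico J K',
        dlt l * (CK * ((dy l k ^ (-(31 / 32) : ℝ) + 1) * psi (Dh (dy l k)) +
          (1 + dy l k ^ (-(3 / 2) : ℝ)) * Ef (dy l k))))
    (hδ : dlt l * (2 * CK * (dy l J ^ (-(31 / 32) : ℝ) + 1)) ≤ 1 / 2)
    (hE : Dh (dy l J) + ε + (1 + ε) * CK * (1 + dy l J ^ (-(3 / 2) : ℝ)) *
      ∑ k ∈ Finset.Ico J K, dlt l * Ef (dy l k) ≤ ε₁)
    (hε₁ : ∀ E, 0 < E → E ≤ ε₁ → 1 ≤ (1 + Real.log (8 / E)) * Real.exp (-(2 * Bb)) ∧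
      8 * Real.exp 1 * Real.exp (-((1 + Real.log (8 / E)) * Real.exp (-(2 * Bb)))) ≤ ηt) :
    Dh (dy l K) ≤ ηt := by
  have hδ0 : 0 < dlt l := dlt_pos l
  have hu0 : ∀ m : ℕ, 0 < dy l (J + m) := fun m => dy_pos (by omega)
  have hs0 : 0 < dy l J := dy_pos hJ
  have hus : ∀ m : ℕ, dy l J ≤ dy l (J + m) := fun m => dy_mono (by omega)
  set n := K - J with hn
  have hJn : J + n = K := by omega
  let D : ℕ → ℝ := fun m => Dh (dy l (J + m))
  let b : ℕ → ℝ := fun m => (1 + ε) * dlt l * CK * (dy l (J + m) ^ (-(31 / 32) : ℝ) + 1)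
  let e : ℕ → ℝ := fun m => (1 + ε) * dlt l * CK * (1 + dy l (J + m) ^ (-(3 / 2) : ℝ)) * Ef (dy l (J + m))
  set E₀ : ℝ := Dh (dy l J) + ε with hE₀d
  have hD0 : 0 ≤ Dh (dy l J) := (hDr J).1
  have hE₀ : 0 < E₀ := by rw [hE₀d]; linarith
  have hb0 : ∀ k, 0 ≤ b k := fun k => by
    have h1 := hu0 k
    show 0 ≤ (1 + ε) * dlt l * CK * (dy l (J + k) ^ (-(31 / 32) : ℝ) + 1)
    positivity
  have he0 : ∀ k, 0 ≤ e k := fun k => by
    have h1 := hu0 k
    have h2 := hEf (dy l (J + k))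
    show 0 ≤ (1 + ε) * dlt l * CK * (1 + dy l (J + k) ^ (-(3 / 2) : ℝ)) * Ef (dy l (J + k))
    positivity
  have hb1 : ∀ k, k < n → b k ≤ 1 / 2 := by
    intro k _
    have h1 : dy l (J + k) ^ (-(31 / 32) : ℝ) ≤ dy l J ^ (-(31 / 32) : ℝ) :=
      Real.rpow_le_rpow_of_nonpos hs0 (hus k) (by norm_num)
    have h2 : 0 ≤ dy l (J + k) ^ (-(31 / 32) : ℝ) := (Real.rpow_pos_of_pos (hu0 k) _).le
    refine le_trans ?_ hδ
    show (1 + ε) * dlt l * CK * (dy l (J + k) ^ (-(31 / 32) : ℝ) + 1) ≤ _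
    have h3 : (1 + ε) * (dy l (J + k) ^ (-(31 / 32) : ℝ) + 1) ≤ 2 * (dy l J ^ (-(31 / 32) : ℝ) + 1) :=
      mul_le_mul (by linarith) (by linarith) (by positivity) (by norm_num)
    have h4 : 0 ≤ dlt l * CK := by positivity
    calc (1 + ε) * dlt l * CK * (dy l (J + k) ^ (-(31 / 32) : ℝ) + 1)
        = dlt l * CK * ((1 + ε) * (dy l (J + k) ^ (-(31 / 32) : ℝ) + 1)) := by ring
      _ ≤ dlt l * CK * (2 * (dy l J ^ (-(31 / 32) : ℝ) + 1)) := mul_le_mul_of_nonneg_left h3 h4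
      _ = _ := by ring
  -- the sum of the `b`
  have hsumb : ∑ k ∈ range n, b k ≤ Bb := by
    obtain ⟨J', rfl⟩ : ∃ J', J = J' + 1 := ⟨J - 1, by omega⟩
    have hf : ∀ m : ℕ, dlt l * dy l (J' + 1 + m) ^ (-(31 / 32) : ℝ) =
        (fun k : ℕ => dlt l * (((k + 1 : ℕ) : ℝ) * dlt l) ^ (-(31 / 32) : ℝ)) (J' + m) := by
      intro m
      show dlt l * (((J' + 1 + m : ℕ) : ℝ) * dlt l) ^ (-(31 / 32) : ℝ) = _
      congr 4
      omega
    have hsum1 : ∑ m ∈ range n, dlt l * dy l (J' + 1 + m) ^ (-(31 / 32) : ℝ) ≤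
        32 * T ^ (1 / 32 : ℝ) := by
      have h1 := sum_rpow_grid (α := 31 / 32) (δ := dlt l) (by norm_num) (by norm_num) hδ0 (J' + n)
      rw [Finset.sum_range_add] at h1
      have h2 : 0 ≤ ∑ x ∈ range J', dlt l * (((x + 1 : ℕ) : ℝ) * dlt l) ^ (-(31 / 32) : ℝ) :=
        Finset.sum_nonneg fun x _ => by positivity
      have h3 : ∑ m ∈ range n, dlt l * dy l (J' + 1 + m) ^ (-(31 / 32) : ℝ) =
          ∑ x ∈ range n, dlt l * (((J' + x + 1 : ℕ) : ℝ) * dlt l) ^ (-(31 / 32) : ℝ) :=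
        Finset.sum_congr rfl fun m _ => hf m
      rw [h3]
      have h4 : ((J' + n : ℕ) : ℝ) * dlt l ≤ T := by
        refine le_trans ?_ hTK
        unfold dy
        refine mul_le_mul_of_nonneg_right ?_ hδ0.le
        exact_mod_cast (by omega : J' + n ≤ K)
      have h5 : (((J' + n : ℕ) : ℝ) * dlt l) ^ (1 - 31 / 32 : ℝ) ≤ T ^ (1 / 32 : ℝ) := by
        have : (1 - 31 / 32 : ℝ) = 1 / 32 := by norm_num
        rw [this]
        exact Real.rpow_le_rpow (by positivity) h4 (by norm_num)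
      have h6 : (1 - 31 / 32 : ℝ) = 1 / 32 := by norm_num
      rw [h6] at h1 h5
      have h7 : (((J' + n : ℕ) : ℝ) * dlt l) ^ (1 / 32 : ℝ) / (1 / 32) ≤ 32 * T ^ (1 / 32 : ℝ) := by
        rw [div_div_eq_mul_div, div_one]
        linarith
      linarith
    have hsum2 : ∑ m ∈ range n, dlt l = n * dlt l := by simp
    have hn2 : (n : ℝ) * dlt l ≤ T := by
      refine le_trans ?_ hTK
      unfold dy
      refine mul_le_mul_of_nonneg_right ?_ hδ0.le
      exact_mod_cast (by omega : n ≤ K)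
    have hb' : ∑ k ∈ range n, b k = (1 + ε) * CK * (∑ m ∈ range n, dlt l * dy l (J' + 1 + m) ^ (-(31 / 32) : ℝ) +
        ∑ m ∈ range n, dlt l) := by
      rw [← Finset.sum_add_distrib, Finset.mul_sum]
      refine Finset.sum_congr rfl fun m _ => ?_
      show (1 + ε) * dlt l * CK * (dy l (J' + 1 + m) ^ (-(31 / 32) : ℝ) + 1) = _
      ring
    rw [hb', hBb, hsum2]
    have hT0 : 0 ≤ T := by linarith
    have hA : 0 ≤ 32 * T ^ (1 / 32 : ℝ) + T := by positivity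
    have hsum0 : ∑ m ∈ range n, dlt l * dy l (J' + 1 + m) ^ (-(31 / 32) : ℝ) + n * dlt l ≤
        32 * T ^ (1 / 32 : ℝ) + T := by linarith
    have h1ε : 1 + ε ≤ 2 := by linarith
    calc (1 + ε) * CK * (∑ m ∈ range n, dlt l * dy l (J' + 1 + m) ^ (-(31 / 32) : ℝ) + n * dlt l)
        ≤ (1 + ε) * CK * (32 * T ^ (1 / 32 : ℝ) + T) :=
          mul_le_mul_of_nonneg_left hsum0 (by positivity)
      _ ≤ 2 * CK * (32 * T ^ (1 / 32 : ℝ) + T) := by gcongr
  -- the recursion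
  have hrecD : ∀ k, k ≤ n → D k ≤ E₀ + ∑ i ∈ range k, (b i * psi (D i) + e i) := by
    intro k hk
    have h1 := hrec (J + k) (by omega) (by omega)
    rw [Finset.sum_Ico_eq_sum_range] at h1
    have h2 : J + k - J = k := by omega
    rw [h2] at h1
    show Dh (dy l (J + k)) ≤ _
    refine h1.trans (le_of_eq ?_)
    rw [Finset.mul_sum, hE₀d]
    congr 1
    refine Finset.sum_congr rfl fun i _ => ?_
    show _ = (1 + ε) * dlt l * CK * (dy l (J + i) ^ (-(31 / 32) : ℝ) + 1) * psi (Dh (dy l (J + i))) +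
      (1 + ε) * dlt l * CK * (1 + dy l (J + i) ^ (-(3 / 2) : ℝ)) * Ef (dy l (J + i))
    ring
  -- the size of the forcing
  have hsume0 : 0 ≤ ∑ i ∈ range n, e i := Finset.sum_nonneg fun i _ => he0 i
  have hEpos : 0 < E₀ + ∑ i ∈ range n, e i := by linarith
  have hEle : E₀ + ∑ i ∈ range n, e i ≤ ε₁ := by
    refine le_trans ?_ hE
    rw [hE₀d]
    refine add_le_add_right ?_ _
    rw [Finset.sum_Ico_eq_sum_range, ← hn, Finset.mul_sum]
    refine Finset.sum_le_sum fun i _ => ?_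
    have h1 : dy l (J + i) ^ (-(3 / 2) : ℝ) ≤ dy l J ^ (-(3 / 2) : ℝ) :=
      Real.rpow_le_rpow_of_nonpos hs0 (hus i) (by norm_num)
    have h2 := hEf (dy l (J + i))
    show (1 + ε) * dlt l * CK * (1 + dy l (J + i) ^ (-(3 / 2) : ℝ)) * Ef (dy l (J + i)) ≤
      (1 + ε) * CK * (1 + dy l J ^ (-(3 / 2) : ℝ)) * (dlt l * Ef (dy l (J + i)))
    have h3 : 0 ≤ (1 + ε) * dlt l * CK * Ef (dy l (J + i)) := by positivity
    nlinarith [mul_le_mul_of_nonneg_left h1 h3]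
  obtain ⟨hs1, hs2⟩ := hε₁ _ hEpos hEle
  have hfinal := osgood_discrete (n := n) (D := D) (b := b) (e := e) (E₀ := E₀) (Bb := Bb) hE₀
    (fun k _ => (hDr _).1) (fun k _ => (hDr _).2) hb0 hb1 he0 hsumb hrecD hs1
  have hK : D n = Dh (dy l K) := by
    show Dh (dy l (J + n)) = _
    rw [hJn]
  rw [← hK]
  exact hfinal.trans hs2

theorem isProb_iid' : IsProbabilityMeasure (iidUniform V) := by
  unfold iidUniform; infer_instance

theorem thc_facts (hd : 3 ≤ d) : 0 < thc d ∧ thc d < 1 ∧ ((d : ℝ) - 1) * thc d ^ 2 = 1 := by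
  have hd3 : (3 : ℝ) ≤ d := by exact_mod_cast hd
  have hs2 : Real.sqrt ((d : ℝ) - 1) ^ 2 = (d : ℝ) - 1 := Real.sq_sqrt (by linarith)
  have hs0 : 0 < Real.sqrt ((d : ℝ) - 1) := Real.sqrt_pos.2 (by linarith)
  have hs1 : 1 < Real.sqrt ((d : ℝ) - 1) := by
    rw [Real.lt_sqrt (by norm_num)]
    linarith
  unfold thc
  refine ⟨by positivity, ?_, ?_⟩
  · rw [div_lt_one hs0]
    exact hs1
  · rw [div_pow, hs2]
    have : (d : ℝ) - 1 ≠ 0 := by linarith
    field_simp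


/-- Bounds for `Dhat`. -/
theorem Dhat_mem (P₁ : Par d β₁) (P₂ : Par d β₂) (hg : DN g) (r : V) (u : ℝ) :
    0 ≤ Dhat g G P₁ P₂ r u ∧ Dhat g G P₁ P₂ r u ≤ 4 := by
  have hprob : IsProbabilityMeasure (iidUniform V) := isProb_iid'
  unfold Dhat Dd
  refine ⟨integral_nonneg fun U => by positivity, ?_⟩
  have hb : ∀ U, (MuL g G β₁ P₁ u U r - MuL g G β₂ P₂ u U r) ^ 2 ≤ 4 := by
    intro U
    have h1 := abs_le.1 (abs_MuL_le (g := g) (G := G) (β := β₁) P₁ u U r)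
    have h2 := abs_le.1 (abs_MuL_le (g := g) (G := G) (β := β₂) P₂ u U r)
    nlinarith
  calc ∫ U, (MuL g G β₁ P₁ u U r - MuL g G β₂ P₂ u U r) ^ 2 ∂iidUniform V
      ≤ ∫ _, (4 : ℝ) ∂iidUniform V := by
        refine integral_mono_of_nonneg (Filter.Eventually.of_forall fun U => by positivity)
          (integrable_const _) (Filter.Eventually.of_forall hb)
    _ = 4 := by simp

/-- F14. The key statement: a sequence of parameters increasing to the endpoint along which the limit fields are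
uniformly close at each time `2 ^ p`. Proof: choose `θ_i ↑ thc`, `helly_dyadic` for `φ_i u = ∫ gm θ_i (XiL ... u x₀ y₀)`
(`phi_anti`), then for fixed `p`, `key_static` (`sys_limit`) gives `Hb`; apply `closure_step`, `osgood_discrete`
starting from time `s = 2^(-q)` with `Dhat_small`, `sum_rpow_grid`, and finally `Yf_diff`. -/
theorem endpoint_key (hg : DN g) (hT : G.IsTree) (hd : 3 ≤ d) (hreg : G.IsRegularOfDegree d) :
    ∃ (βs : ℕ → ℝ) (Ps : ∀ i, Par d (βs i)), (∀ i, Adm d (βs i)) ∧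
      Tendsto (fun i => Real.tanh (βs i)) atTop (𝓝 (thc d)) ∧
      ∀ p : ℕ, ∃ I : ℕ, ∀ i j, I ≤ i → I ≤ j → ∀ v : V,
        ∫ U, (Yf g G (βs i) (Ps i) (2 ^ p) v U - Yf g G (βs j) (Ps j) (2 ^ p) v U) ^ 2 ∂iidUniform V ≤ 1 := by
  have hprob : IsProbabilityMeasure (iidUniform V) := isProb_iid'
  have hd3 : (3 : ℝ) ≤ d := by exact_mod_cast hd
  have hd2 : 2 ≤ d := by omega
  obtain ⟨hc0, hc1, hcs⟩ := thc_facts hd
  -- the parameters
  let θ₀ : ℕ → ℝ := fun i => thc d * (1 - 1 / ((i : ℝ) + 2))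
  have hθ₀lo : ∀ i, thc d / 2 ≤ θ₀ i := by
    intro i
    have hi : (0 : ℝ) ≤ i := Nat.cast_nonneg i
    have h1 : 1 / ((i : ℝ) + 2) ≤ 1 / 2 := one_div_le_one_div_of_le (by norm_num) (by linarith)
    show thc d / 2 ≤ thc d * (1 - 1 / ((i : ℝ) + 2))
    nlinarith
  have hθ₀hi : ∀ i, θ₀ i < thc d := by
    intro i
    have hi : (0 : ℝ) ≤ i := Nat.cast_nonneg i
    have h1 : 0 < 1 / ((i : ℝ) + 2) := by positivity
    show thc d * (1 - 1 / ((i : ℝ) + 2)) < thc d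
    nlinarith
  have hθ₀mono : Monotone θ₀ := by
    refine monotone_nat_of_le_succ fun i => ?_
    have hi : (0 : ℝ) ≤ i := Nat.cast_nonneg i
    have h1 : 1 / (((i + 1 : ℕ) : ℝ) + 2) ≤ 1 / ((i : ℝ) + 2) :=
      one_div_le_one_div_of_le (by linarith) (by push_cast; linarith)
    show thc d * (1 - 1 / ((i : ℝ) + 2)) ≤ thc d * (1 - 1 / (((i + 1 : ℕ) : ℝ) + 2))
    nlinarith
  have hθ₀lim : Tendsto θ₀ atTop (𝓝 (thc d)) := by
    have h1 : Tendsto (fun i : ℕ => 1 / ((i : ℝ) + 2)) atTop (𝓝 0) := by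
      have := tendsto_one_div_add_atTop_nhds_zero_nat (𝕜 := ℝ)
      have h2 := (tendsto_add_atTop_iff_nat 1).2 this
      refine h2.congr fun n => ?_
      push_cast
      ring_nf
    have h3 : Tendsto (fun i : ℕ => thc d * (1 - 1 / ((i : ℝ) + 2))) atTop (𝓝 (thc d * (1 - 0))) :=
      (tendsto_const_nhds.sub h1).const_mul _
    have h4 : thc d * (1 - 0) = thc d := by ring
    rw [h4] at h3
    exact h3
  let β₀ : ℕ → ℝ := fun i => Real.artanh (θ₀ i)
  have htanh : ∀ i, Real.tanh (β₀ i) = θ₀ i := by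
    intro i
    refine Real.tanh_artanh ⟨?_, ?_⟩
    · linarith [hθ₀lo i]
    · linarith [hθ₀hi i]
  have hβ₀0 : ∀ i, 0 ≤ β₀ i := fun i => Real.artanh_nonneg (by linarith [hθ₀lo i])
  have hAdm₀ : ∀ i, Adm d (β₀ i) := fun i =>
    ⟨hβ₀0 i, by rw [htanh]; exact hθ₀lo i, by rw [htanh]; exact hθ₀hi i⟩
  have hsub : ∀ i, ((d : ℝ) - 1) * Real.tanh (β₀ i) ^ 2 < 1 := by
    intro i
    rw [htanh]
    have h1 : 0 ≤ θ₀ i := by linarith [hθ₀lo i]
    have h2 : θ₀ i ^ 2 < thc d ^ 2 := pow_lt_pow_left₀ (hθ₀hi i) h1 (by norm_num)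
    have h3 : ((d : ℝ) - 1) * θ₀ i ^ 2 < ((d : ℝ) - 1) * thc d ^ 2 :=
      mul_lt_mul_of_pos_left h2 (by linarith)
    linarith
  have hPar : ∀ i, Nonempty (Par d (β₀ i)) := fun i => exists_par hd2 (hβ₀0 i) (hsub i)
  let P₀ : ∀ i, Par d (β₀ i) := fun i => (hPar i).some
  -- a fixed edge
  obtain ⟨x₀⟩ : Nonempty V := hT.1.nonempty
  obtain ⟨y₀, hxy⟩ : ∃ y, G.Adj x₀ y := by
    have h1 : 0 < G.degree x₀ := by
      rw [hreg x₀]
      omega
    obtain ⟨y, hy⟩ := Finset.card_pos.1 h1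
    exact ⟨y, (G.mem_neighborFinset x₀ y).1 hy⟩
  -- the functions of Helly selection
  let φ : ℕ → ℝ → ℝ := fun i u =>
    ∫ U, gm (Real.tanh (β₀ i)) (XiL g G (β₀ i) (P₀ i) u U x₀ y₀) ∂iidUniform V
  have hθ0 : ∀ i, 0 ≤ Real.tanh (β₀ i) := fun i => by rw [htanh]; linarith [hθ₀lo i]
  have hθ1 : ∀ i, Real.tanh (β₀ i) < 1 := fun i => by rw [htanh]; linarith [hθ₀hi i]
  have hφm : ∀ i u, Measurable (fun U => gm (Real.tanh (β₀ i)) (XiL g G (β₀ i) (P₀ i) u U x₀ y₀)) :=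
    fun i u => (measurable_gm _).comp (measurable_XiL (P₀ i) u hg x₀ y₀)
  have hφb : ∀ i u U, 0 ≤ gm (Real.tanh (β₀ i)) (XiL g G (β₀ i) (P₀ i) u U x₀ y₀) ∧
      gm (Real.tanh (β₀ i)) (XiL g G (β₀ i) (P₀ i) u U x₀ y₀) ≤ 1 := fun i u U =>
    ⟨gm_nonneg (hθ0 i) (hθ1 i) (abs_XiL_le (P₀ i) u U x₀ y₀),
      gm_le_one (hθ0 i) (hθ1 i) (abs_XiL_le (P₀ i) u U x₀ y₀)⟩
  have hφint : ∀ i u, Integrable (fun U => gm (Real.tanh (β₀ i)) (XiL g G (β₀ i) (P₀ i) u U x₀ y₀))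
      (iidUniform V) := fun i u =>
    Integrable.of_bound (hφm i u).aestronglyMeasurable 1 (Filter.Eventually.of_forall fun U => by
      rw [Real.norm_eq_abs, abs_of_nonneg (hφb i u U).1]
      exact (hφb i u U).2)
  have h01 : ∀ i u, 0 ≤ φ i u ∧ φ i u ≤ 1 := by
    intro i u
    refine ⟨integral_nonneg fun U => (hφb i u U).1, ?_⟩
    calc φ i u ≤ ∫ _, (1 : ℝ) ∂iidUniform V :=
          integral_mono (hφint i u) (integrable_const _) fun U => (hφb i u U).2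
      _ = 1 := by simp
  have hanti : ∀ i u v, IsDy u → IsDy v → 0 < u → u ≤ v → φ i v ≤ φ i u := by
    rintro i u v ⟨L, k, rfl⟩ ⟨L', k', rfl⟩ hu huv
    exact phi_anti hg hT hd hreg (hAdm₀ i) (P₀ i) hxy hu huv
  obtain ⟨σ, hσ, hH⟩ := helly_dyadic φ h01 hanti
  refine ⟨fun i => β₀ (σ i), fun i => P₀ (σ i), fun i => hAdm₀ _, ?_, ?_⟩
  · have h1 : Tendsto (fun i => θ₀ (σ i)) atTop (𝓝 (thc d)) := hθ₀lim.comp hσ.tendsto_atTop
    refine h1.congr fun i => (htanh _).symm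
  intro p
  -- the constants
  set T : ℝ := 2 ^ p with hTd
  have hT1 : 1 ≤ T := one_le_pow₀ (by norm_num)
  have hT0 : 0 < T := by linarith
  obtain ⟨CK, hCK, hkey⟩ := key_static (G := G) hT hd hreg hT1
  set Bb : ℝ := 2 * CK * (32 * T ^ (1 / 32 : ℝ) + T) with hBb
  set ηt : ℝ := (1 / T) ^ 2 with hηt
  have hηt0 : 0 < ηt := by positivity
  obtain ⟨ε₁, hε₁0, hε₁⟩ := osgood_small Bb ηt hηt0
  set Cs : ℝ := |100 * (d : ℝ) ^ 4 * Ce d T / kap0 d T| with hCs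
  have hCs0 : 0 ≤ Cs := abs_nonneg _
  -- the starting time
  obtain ⟨q, hq⟩ : ∃ q : ℕ, Cs * Real.sqrt ((1 / 2) ^ q) ≤ min ηt (ε₁ / 4) := by
    have h1 : Tendsto (fun q : ℕ => Cs * Real.sqrt ((1 / 2 : ℝ) ^ q)) atTop (𝓝 (Cs * Real.sqrt 0)) := by
      refine Tendsto.const_mul _ ?_
      exact Real.continuous_sqrt.continuousAt.tendsto.comp
        (tendsto_pow_atTop_nhds_zero_of_lt_one (by norm_num) (by norm_num))
    rw [Real.sqrt_zero, mul_zero] at h1
    have h2 : 0 < min ηt (ε₁ / 4) := lt_min hηt0 (by positivity)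
    exact (h1.eventually (gt_mem_nhds h2)).exists.imp fun q hq => hq.le
  set s : ℝ := (1 / 2) ^ q with hs
  have hs0 : 0 < s := by positivity
  set ε : ℝ := min (ε₁ / 4) 1 with hεd
  have hε0 : 0 < ε := lt_min (by positivity) one_pos
  have hε1 : ε ≤ 1 := min_le_right _ _
  have hε4 : ε ≤ ε₁ / 4 := min_le_left _ _
  set A : ℝ := 2 * CK * (1 + s ^ (-(3 / 2) : ℝ)) with hA
  have hA0 : 0 < A := by positivity
  -- Helly selection
  obtain ⟨JH, LH, hH'⟩ := hH s T hs0 (ε₁ / (4 * A)) (by positivity)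
  -- closeness of the parameters
  obtain ⟨Jθ, hJθ⟩ : ∃ Jθ : ℕ, ∀ i j, Jθ ≤ i → Jθ ≤ j →
      A * (T * (Real.tanh (β₀ (σ i)) - Real.tanh (β₀ (σ j))) ^ 2) ≤ ε₁ / 4 := by
    set τ : ℝ := Real.sqrt (ε₁ / (16 * A * T)) with hτ
    have hτ0 : 0 < τ := Real.sqrt_pos.2 (by positivity)
    have hτ2 : τ ^ 2 = ε₁ / (16 * A * T) := Real.sq_sqrt (by positivity)
    have h1 : Tendsto (fun i => θ₀ (σ i)) atTop (𝓝 (thc d)) := hθ₀lim.comp hσ.tendsto_atTop
    obtain ⟨Jθ, hJ⟩ := (Metric.tendsto_atTop.1 h1) τ hτ0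
    refine ⟨Jθ, fun i j hi hj => ?_⟩
    have h2 := hJ i hi
    have h3 := hJ j hj
    rw [Real.dist_eq] at h2 h3
    rw [htanh, htanh]
    have h4 : |θ₀ (σ i) - θ₀ (σ j)| ≤ 2 * τ := by
      have : θ₀ (σ i) - θ₀ (σ j) = (θ₀ (σ i) - thc d) - (θ₀ (σ j) - thc d) := by ring
      rw [this]
      refine (abs_sub _ _).trans ?_
      linarith
    have h5 : (θ₀ (σ i) - θ₀ (σ j)) ^ 2 ≤ (2 * τ) ^ 2 := by
      rw [← sq_abs]
      exact pow_le_pow_left₀ (abs_nonneg _) h4 2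
    have h6 : A * T * (2 * τ) ^ 2 = ε₁ / 4 := by
      rw [mul_pow, hτ2]
      field_simp
      ring
    calc A * (T * (θ₀ (σ i) - θ₀ (σ j)) ^ 2) = A * T * (θ₀ (σ i) - θ₀ (σ j)) ^ 2 := by ring
      _ ≤ A * T * (2 * τ) ^ 2 := mul_le_mul_of_nonneg_left h5 (by positivity)
      _ = _ := h6
  -- the main claim, for ordered indices
  have hmain : ∀ i j, max JH Jθ ≤ j → j ≤ i → ∀ v : V,
      ∫ U, (Yf g G (β₀ (σ i)) (P₀ (σ i)) (2 ^ p) v U - Yf g G (β₀ (σ j)) (P₀ (σ j)) (2 ^ p) v U) ^ 2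
        ∂iidUniform V ≤ 1 := by
    intro i j hj hji v
    have hjH : JH ≤ j := (le_max_left _ _).trans hj
    have hjθ : Jθ ≤ j := (le_max_right _ _).trans hj
    have hiH : JH ≤ i := hjH.trans hji
    have hiθ : Jθ ≤ i := hjθ.trans hji
    set β₁' := β₀ (σ i) with hβ₁'
    set β₂' := β₀ (σ j) with hβ₂'
    set P₁' := P₀ (σ i) with hP₁'
    set P₂' := P₀ (σ j) with hP₂'
    have hA₁ : Adm d β₁' := hAdm₀ _
    have hA₂ : Adm d β₂' := hAdm₀ _
    have hθle : Real.tanh β₂' ≤ Real.tanh β₁' := by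
      rw [hβ₁', hβ₂', htanh, htanh]
      exact hθ₀mono (hσ.monotone hji)
    set Dh : ℝ → ℝ := Dhat g G P₁' P₂' v with hDh
    have hDr : ∀ u, 0 ≤ Dh u ∧ Dh u ≤ 4 := fun u => Dhat_mem P₁' P₂' hg v u
    set Ef : ℝ → ℝ := fun u => (φ (σ i) u - φ (σ j) u) ^ 2 +
      (Real.tanh β₁' - Real.tanh β₂') ^ 2 with hEf
    have hEf0 : ∀ u, 0 ≤ Ef u := fun u => by
      show 0 ≤ (φ (σ i) u - φ (σ j) u) ^ 2 + (Real.tanh β₁' - Real.tanh β₂') ^ 2
      positivity
    have hYd := Yf_diff hg hT hd hreg hA₁ hA₂ P₁' P₂' v p (B := ηt) ?_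
    · refine hYd.trans (le_of_eq ?_)
      rw [hηt, ← hTd, div_pow, one_pow]
      field_simp
    intro L k hu0 huT
    rw [← hTd] at huT
    by_cases hus : dy L k ≤ s
    · have h1 := Dhat_small hg hT hd hreg hA₁ hA₂ P₁' P₂' v hT1 hu0 huT
      have h2 : Real.sqrt (dy L k) ≤ Real.sqrt s := Real.sqrt_le_sqrt hus
      have h3 : 100 * (d : ℝ) ^ 4 * Ce d T / kap0 d T * Real.sqrt (dy L k) ≤
          Cs * Real.sqrt s := by
        calc 100 * (d : ℝ) ^ 4 * Ce d T / kap0 d T * Real.sqrt (dy L k)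
            ≤ Cs * Real.sqrt (dy L k) :=
              mul_le_mul_of_nonneg_right (le_abs_self _) (Real.sqrt_nonneg _)
          _ ≤ Cs * Real.sqrt s := mul_le_mul_of_nonneg_left h2 hCs0
      calc Dhat g G P₁' P₂' v (dy L k) ≤ Cs * Real.sqrt s := h1.trans h3
        _ ≤ ηt := hq.trans (min_le_left _ _)
    have hus' : s < dy L k := not_le.1 hus
    -- the bound of the covariance fields
    set Hb : ℝ → ℝ := fun u => if 0 < u then
      CK * ((u ^ (-(31 / 32) : ℝ) + 1) * psi (Dh u) + (1 + u ^ (-(3 / 2) : ℝ)) * Ef u) else 0 with hHbd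
    have hHb0 : ∀ u, 0 ≤ Hb u := by
      intro u
      show 0 ≤ if 0 < u then _ else _
      split_ifs with hu
      · have h1 := psi_nonneg (hDr u).1 (by linarith [(hDr u).2])
        have h2 := hEf0 u
        positivity
      · exact le_rfl
    have hHb : ∀ L k : ℕ, 0 < dy L k → dy L k ≤ T → ∀ N : ℕ,
        ∫ U, ∑ w ∈ ball G v N, (Cf G (Real.tanh β₁') (MuL g G β₁' P₁' (dy L k) U)
          (XiL g G β₁' P₁' (dy L k) U) v w -
          Cf G (Real.tanh β₂') (MuL g G β₂' P₂' (dy L k) U) (XiL g G β₂' P₂' (dy L k) U) v w) ^ 2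
          ∂iidUniform V ≤ Hb (dy L k) := by
      intro L k hu0 huT N
      have hs₁ := sys_limit hg hT hd hreg hA₁ P₁' hT1 hu0 huT
      have hs₂ := sys_limit hg hT hd hreg hA₂ P₂' hT1 hu0 huT
      have h1 := hkey hs₁ hs₂ hθle v (ball G v N) hxy
      refine h1.trans (le_of_eq ?_)
      show _ = if 0 < dy L k then _ else _
      rw [if_pos hu0]
      have hdh : ∫ U, dh (Real.tanh β₁') (Real.tanh β₂') (XiL g G β₁' P₁' (dy L k))
          (XiL g G β₂' P₂' (dy L k)) x₀ y₀ U ∂iidUniform V = φ (σ i) (dy L k) - φ (σ j) (dy L k) := by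
        unfold dh
        exact integral_sub (hφint _ _) (hφint _ _)
      rw [hdh]
      rfl
    obtain ⟨l₀, hl₀⟩ := closure_step hg hT hd hreg hA₁ hA₂ P₁' P₂' v hT1 hHb0 hHb hε0
    -- the level
    obtain ⟨Lb, hLb⟩ := exists_mul_pow_le (2 * CK * (s ^ (-(31 / 32) : ℝ) + 1)) (x := 1 / 2)
      (by norm_num) (by norm_num) (ε := 1 / 2) (by norm_num)
    set l : ℕ := max (max L q) (max l₀ (max LH Lb)) with hl
    have hlL : L ≤ l := (le_max_left _ _).trans (le_max_left _ _)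
    have hlq : q ≤ l := (le_max_right _ _).trans (le_max_left _ _)
    have hll₀ : l₀ ≤ l := (le_max_left _ _).trans (le_max_right _ _)
    have hlH : LH ≤ l := ((le_max_left _ _).trans (le_max_right _ _)).trans (le_max_right _ _)
    have hlb : Lb ≤ l := ((le_max_right _ _).trans (le_max_right _ _)).trans (le_max_right _ _)
    set J : ℕ := 2 ^ (l - q) with hJd
    set K : ℕ := k * 2 ^ (l - L) with hKd
    have hδ0 : 0 < dlt l := dlt_pos l
    have hsJ : dy l J = s := by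
      unfold dy dlt
      rw [hJd, hs]
      push_cast
      have : ((1 : ℝ) / 2) ^ l = (1 / 2) ^ (l - q) * (1 / 2) ^ q := by
        rw [← pow_add]
        congr 1
        omega
      rw [this, ← mul_assoc, ← mul_pow]
      norm_num
    have hKu : dy l K = dy L k := by
      unfold dy dlt
      rw [hKd]
      push_cast
      have : ((1 : ℝ) / 2) ^ l = (1 / 2) ^ (l - L) * (1 / 2) ^ L := by
        rw [← pow_add]
        congr 1
        omega
      rw [this]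
      have h2 : (2 : ℝ) ^ (l - L) * (1 / 2) ^ (l - L) = 1 := by
        rw [← mul_pow]
        norm_num
      calc (k : ℝ) * 2 ^ (l - L) * ((1 / 2) ^ (l - L) * (1 / 2) ^ L)
          = (k : ℝ) * (2 ^ (l - L) * (1 / 2) ^ (l - L)) * (1 / 2) ^ L := by ring
        _ = _ := by rw [h2, mul_one]
    have hJ1 : 1 ≤ J := Nat.one_le_two_pow
    have hJK : J ≤ K := by
      have h1 : dy l J ≤ dy l K := by rw [hsJ, hKu]; exact hus'.le
      unfold dy at h1
      have h2 := le_of_mul_le_mul_right h1 hδ0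
      exact_mod_cast h2
    have hTK : dy l K ≤ T := by rw [hKu]; exact huT
    have hKfloor : K ≤ ⌊T * 2 ^ l⌋₊ := by
      refine Nat.le_floor ?_
      have h1 : (K : ℝ) * dlt l ≤ T := hTK
      have h2 : dlt l * 2 ^ l = 1 := by
        unfold dlt
        rw [← mul_pow]
        norm_num
      have h3 : (K : ℝ) = (K : ℝ) * dlt l * 2 ^ l := by
        rw [mul_assoc, h2, mul_one]
      rw [h3]
      exact mul_le_mul_of_nonneg_right h1 (by positivity)
    have hpos : ∀ k', J ≤ k' → 0 < dy l k' := fun k' hk' => dy_pos (hJ1.trans hk')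
    have hkey2 := grid_bound (Dh := Dh) (Ef := Ef) (CK := CK) (T := T) (ε := ε) (ηt := ηt) (Bb := Bb)
      (ε₁ := ε₁) (l := l) (J := J) (K := K) hCK hε0 hε1 hJ1 hJK hTK hT1 hBb
      (fun k' => ⟨(hDr _).1, by linarith [(hDr (dy l k')).2]⟩) hEf0 ?_ ?_ ?_ hε₁
    · rw [← hKu]
      exact hkey2
    · -- the recursion
      intro K' hJK' hK'K
      have hK'T : dy l K' ≤ T := (dy_mono hK'K).trans hTK
      have h1 := hl₀ l hll₀ J K' hJ1 hJK' hK'T
      refine h1.trans (le_of_eq ?_)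
      congr 2
      refine Finset.sum_congr rfl fun k' hk' => ?_
      have hk'0 : 0 < dy l k' := hpos k' (Finset.mem_Ico.1 hk').1
      show dlt l * (if 0 < dy l k' then _ else _) = _
      rw [if_pos hk'0]
    · -- the size of the step
      rw [hsJ]
      have h1 := hLb l hlb
      have h2 : (2 * CK * (s ^ (-(31 / 32) : ℝ) + 1)) * (1 / 2) ^ l =
          dlt l * (2 * CK * (s ^ (-(31 / 32) : ℝ) + 1)) := by
        unfold dlt
        ring
      rw [h2] at h1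
      exact h1
    · -- the size of the forcing
      rw [hsJ]
      have hDs : Dh s ≤ ε₁ / 4 := by
        have h1 := Dhat_small hg hT hd hreg hA₁ hA₂ P₁' P₂' v hT1 (L := l) (k := J)
          (by rw [hsJ]; exact hs0) (by rw [hsJ]; linarith [hus'.le])
        rw [hsJ] at h1
        have h3 : 100 * (d : ℝ) ^ 4 * Ce d T / kap0 d T * Real.sqrt s ≤ Cs * Real.sqrt s :=
          mul_le_mul_of_nonneg_right (le_abs_self _) (Real.sqrt_nonneg _)
        exact h1.trans (h3.trans (hq.trans (min_le_right _ _)))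
      have hsum1 : ∑ k' ∈ Finset.Ico J K, dlt l * (φ (σ i) (dy l k') - φ (σ j) (dy l k')) ^ 2 ≤
          ε₁ / (4 * A) := by
        refine le_trans ?_ (hH' i j hiH hjH l hlH)
        refine Finset.sum_le_sum_of_subset_of_nonneg ?_ fun _ _ _ => by positivity
        intro k' hk'
        obtain ⟨h1, h2⟩ := Finset.mem_Ico.1 hk'
        refine Finset.mem_filter.2 ⟨Finset.mem_range.2 (by omega), ?_⟩
        rw [← hsJ]
        exact dy_mono h1
      have hsum2 : ∑ k' ∈ Finset.Ico J K, dlt l * (Real.tanh β₁' - Real.tanh β₂') ^ 2 ≤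
          T * (Real.tanh β₁' - Real.tanh β₂') ^ 2 := by
        rw [Finset.sum_const, Nat.card_Ico, nsmul_eq_mul, ← mul_assoc]
        refine mul_le_mul_of_nonneg_right ?_ (by positivity)
        refine le_trans ?_ hTK
        unfold dy
        refine mul_le_mul_of_nonneg_right ?_ hδ0.le
        exact_mod_cast Nat.sub_le K J
      have hsum : ∑ k' ∈ Finset.Ico J K, dlt l * Ef (dy l k') ≤
          ε₁ / (4 * A) + T * (Real.tanh β₁' - Real.tanh β₂') ^ 2 := by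
        have : ∑ k' ∈ Finset.Ico J K, dlt l * Ef (dy l k') =
            ∑ k' ∈ Finset.Ico J K, dlt l * (φ (σ i) (dy l k') - φ (σ j) (dy l k')) ^ 2 +
            ∑ k' ∈ Finset.Ico J K, dlt l * (Real.tanh β₁' - Real.tanh β₂') ^ 2 := by
          rw [← Finset.sum_add_distrib]
          refine Finset.sum_congr rfl fun k' _ => ?_
          show dlt l * ((φ (σ i) (dy l k') - φ (σ j) (dy l k')) ^ 2 +
            (Real.tanh β₁' - Real.tanh β₂') ^ 2) = _
          ring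
        rw [this]
        exact add_le_add hsum1 hsum2
      have hcoef : (1 + ε) * CK * (1 + s ^ (-(3 / 2) : ℝ)) ≤ A := by
        rw [hA]
        have : 1 + ε ≤ 2 := by linarith
        have h0 : 0 ≤ 1 + s ^ (-(3 / 2) : ℝ) := by positivity
        gcongr
      have hsum0 : 0 ≤ ∑ k' ∈ Finset.Ico J K, dlt l * Ef (dy l k') :=
        Finset.sum_nonneg fun k' _ => mul_nonneg hδ0.le (hEf0 _)
      have h3 : (1 + ε) * CK * (1 + s ^ (-(3 / 2) : ℝ)) *
          ∑ k' ∈ Finset.Ico J K, dlt l * Ef (dy l k') ≤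
          A * (ε₁ / (4 * A) + T * (Real.tanh β₁' - Real.tanh β₂') ^ 2) :=
        mul_le_mul hcoef hsum hsum0 hA0.le
      have h4 : A * (ε₁ / (4 * A) + T * (Real.tanh β₁' - Real.tanh β₂') ^ 2) ≤ ε₁ / 4 + ε₁ / 4 := by
        rw [mul_add]
        have h5 : A * (ε₁ / (4 * A)) = ε₁ / 4 := by
          field_simp
        rw [h5]
        have := hJθ i j hiθ hjθ
        linarith
      linarith
  refine ⟨max JH Jθ, fun i j hi hj v => ?_⟩
  rcases le_total j i with hji | hij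
  · exact hmain i j hj hji v
  · have h := hmain j i hi hij v
    refine le_trans (le_of_eq ?_) h
    congr 1
    funext U
    ring

end Vale.Agent.Lib.P161E
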