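import Vale.Agent.Lib.P161E.OneStep

/-! Job D10: the constants, first moment at all depths, rate, good event. -/

open MeasureTheory Finset
open scoped Classical ENNReal

noncomputable section

namespace Vale.Agent.Lib.P161E

open Vale.Agent.Lib.P161

variable {V : Type*} {G : SimpleGraph V} [G.LocallyFinite] {β : ℝ} {d : ℕ} {x y : V} {t T : ℝ}

/-- The endpoint. -/
def thc (d : ℕ) : ℝ := 1 / Real.sqrt ((d : ℝ) - 1)

/-- Admissible parameters. -/
structure Adm (d : ℕ) (β : ℝ) : Prop where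
  hβ : 0 ≤ β
  lo : thc d / 2 ≤ Real.tanh β
  hi : Real.tanh β < thc d

/-- The rate constant. -/
def c1 (d : ℕ) (T : ℝ) : ℝ :=
  min (1 / 2) (min ((thc d / 2) ^ 2 * (1 - thc d) ^ 2 / (148 * Real.sqrt T))
    (Real.log ((d : ℝ) - 1) / (16 * Real.sqrt T)))

/-- The decay rate at time `t`. -/
def rate (d : ℕ) (T t : ℝ) : ℝ := c1 d T * Real.sqrt t

/-- The constant in front of the first moment of the shell sums. -/
def C0 (d : ℕ) (T : ℝ) : ℝ := Real.exp (2 * c1 d T * (1 + 2 * Real.sqrt T))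

theorem constA_two_le (hd : 3 ≤ d) : (2 : ℝ) ≤ (d : ℝ) - 1 := by
  have : (3 : ℝ) ≤ d := by exact_mod_cast hd
  linarith

theorem constA_sqrt_gt (hd : 3 ≤ d) : 1 < Real.sqrt ((d : ℝ) - 1) := by
  have h := constA_two_le hd
  rw [Real.lt_sqrt (by norm_num)]
  linarith

theorem constA_thc_pos (hd : 3 ≤ d) : 0 < thc d := by
  have h := constA_sqrt_gt hd
  unfold thc
  apply div_pos one_pos
  linarith

theorem constA_thc_lt_one (hd : 3 ≤ d) : thc d < 1 := by
  have h := constA_sqrt_gt hd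
  unfold thc
  rw [div_lt_one (by linarith)]
  exact h

theorem constA_thc_sq (hd : 3 ≤ d) : ((d : ℝ) - 1) * thc d ^ 2 = 1 := by
  have h := constA_two_le hd
  have hs := constA_sqrt_gt hd
  unfold thc
  rw [div_pow, one_pow, Real.sq_sqrt (by linarith)]
  field_simp

theorem constA_log_pos (hd : 3 ≤ d) : 0 < Real.log ((d : ℝ) - 1) :=
  Real.log_pos (by linarith [constA_two_le hd])

theorem constA_sqrtT (hT : 1 ≤ T) : 1 ≤ Real.sqrt T := by
  rw [Real.one_le_sqrt]
  exact hT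

/-- The product in the definition of `c1`. -/
def constAK (d : ℕ) : ℝ := (thc d / 2) ^ 2 * (1 - thc d) ^ 2

theorem constAK_pos (hd : 3 ≤ d) : 0 < constAK d := by
  have h1 := constA_thc_pos hd
  have h2 := constA_thc_lt_one hd
  unfold constAK
  have h3 : 0 < 1 - thc d := by linarith
  positivity

theorem c1_pos (hd : 3 ≤ d) (hT : 1 ≤ T) : 0 < c1 d T := by
  have hS := constA_sqrtT hT
  have hK := constAK_pos hd
  have hl := constA_log_pos hd
  unfold c1
  refine lt_min (by norm_num) (lt_min ?_ ?_)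
  · change 0 < constAK d / (148 * Real.sqrt T)
    positivity
  · positivity

theorem constA_c1_le_half : c1 d T ≤ 1 / 2 := min_le_left _ _

theorem constA_c1_le_log : c1 d T ≤ Real.log ((d : ℝ) - 1) / (16 * Real.sqrt T) :=
  (min_le_right _ _).trans (min_le_right _ _)

theorem constA_c1_le_K : c1 d T ≤ constAK d / (148 * Real.sqrt T) :=
  (min_le_right _ _).trans (min_le_left _ _)

theorem constA_sqrt_le (ht : t ≤ T) : Real.sqrt t ≤ Real.sqrt T := Real.sqrt_le_sqrt ht

theorem sig_rate_le (hd : 3 ≤ d) (hT : 1 ≤ T) (ht0 : 0 < t) (ht : t ≤ T) :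
    sig d (rate d T t) ≤ 1 / 8 := by
  have hS := constA_sqrtT hT
  have hl := constA_log_pos hd
  have hst := constA_sqrt_le ht
  have hs0 : 0 ≤ Real.sqrt t := Real.sqrt_nonneg t
  have hc : c1 d T ≤ Real.log ((d : ℝ) - 1) / (16 * Real.sqrt T) := constA_c1_le_log
  have hcp := c1_pos hd hT
  unfold sig rate
  rw [div_le_iff₀ hl]
  have h1 : c1 d T * Real.sqrt t ≤ Real.log ((d : ℝ) - 1) / (16 * Real.sqrt T) * Real.sqrt T := by
    apply mul_le_mul hc hst hs0
    positivity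
  have h2 : Real.log ((d : ℝ) - 1) / (16 * Real.sqrt T) * Real.sqrt T =
      Real.log ((d : ℝ) - 1) / 16 := by
    field_simp
  rw [h2] at h1
  linarith

/-- `c1 √t ≤ K min(√t,1) / 148`. -/
theorem constA_rate_le (hd : 3 ≤ d) (hT : 1 ≤ T) (ht : t ≤ T) :
    rate d T t ≤ constAK d * (min (Real.sqrt t) 1 / 74) / 2 := by
  have hS := constA_sqrtT hT
  have hK := constAK_pos hd
  have hst := constA_sqrt_le ht
  have hs0 : 0 ≤ Real.sqrt t := Real.sqrt_nonneg t
  have hcp := c1_pos hd hT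
  have hc : c1 d T ≤ constAK d / (148 * Real.sqrt T) := constA_c1_le_K
  unfold rate
  have h1 : c1 d T * Real.sqrt t ≤ constAK d / (148 * Real.sqrt T) * Real.sqrt t :=
    mul_le_mul_of_nonneg_right hc hs0
  have h2 : Real.sqrt t / Real.sqrt T ≤ min (Real.sqrt t) 1 := by
    apply le_min
    · exact div_le_self hs0 hS
    · rw [div_le_one (by linarith)]
      exact hst
  have h3 : constAK d / (148 * Real.sqrt T) * Real.sqrt t =
      constAK d / 148 * (Real.sqrt t / Real.sqrt T) := by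
    field_simp
  have h4 : constAK d / 148 * (Real.sqrt t / Real.sqrt T) ≤
      constAK d / 148 * min (Real.sqrt t) 1 :=
    mul_le_mul_of_nonneg_left h2 (by positivity)
  calc c1 d T * Real.sqrt t ≤ constAK d / 148 * min (Real.sqrt t) 1 := by linarith
    _ = constAK d * (min (Real.sqrt t) 1 / 74) / 2 := by ring

theorem constA_rate_nonneg (hd : 3 ≤ d) (hT : 1 ≤ T) : 0 ≤ rate d T t :=
  mul_nonneg (c1_pos hd hT).le (Real.sqrt_nonneg t)

theorem constA_rate_pos (hd : 3 ≤ d) (hT : 1 ≤ T) (ht0 : 0 < t) : 0 < rate d T t :=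
  mul_pos (c1_pos hd hT) (Real.sqrt_pos.2 ht0)

theorem constA_th_pos (hd : 3 ≤ d) (hβ : Adm d β) : 0 < Real.tanh β := by
  have h1 := constA_thc_pos hd
  have h2 := hβ.lo
  linarith

theorem constA_r_le (hd : 3 ≤ d) (hβ : Adm d β) : ((d : ℝ) - 1) * Real.tanh β ^ 2 ≤ 1 := by
  have h0 := constA_th_pos hd hβ
  have h1 := hβ.hi
  have h2 := constA_thc_sq hd
  have h3 := constA_two_le hd
  have h4 : Real.tanh β ^ 2 ≤ thc d ^ 2 := pow_le_pow_left₀ h0.le h1.le 2
  calc ((d : ℝ) - 1) * Real.tanh β ^ 2 ≤ ((d : ℝ) - 1) * thc d ^ 2 :=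
        mul_le_mul_of_nonneg_left h4 (by linarith)
    _ = 1 := h2

theorem constA_r_pos (hd : 3 ≤ d) (hβ : Adm d β) : 0 < ((d : ℝ) - 1) * Real.tanh β ^ 2 := by
  have h0 := constA_th_pos hd hβ
  have h3 := constA_two_le hd
  have : 0 < (d : ℝ) - 1 := by linarith
  positivity

theorem constA_cF_ge (hd : 3 ≤ d) (hβ : Adm d β) : constAK d ≤ cF (Real.tanh β) := by
  have h0 := constA_thc_pos hd
  have h1 := hβ.lo
  have h2 := hβ.hi
  have h3 := constA_thc_lt_one hd
  unfold constAK cF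
  apply mul_le_mul
  · exact pow_le_pow_left₀ (by positivity) h1 2
  · exact pow_le_pow_left₀ (by linarith) (by linarith) 2
  · have : 0 < 1 - thc d := by linarith
    positivity
  · positivity

theorem constA_cF_le (hd : 3 ≤ d) (hβ : Adm d β) : cF (Real.tanh β) ≤ 1 - Real.tanh β ^ 2 := by
  have h0 := constA_th_pos hd hβ
  have h2 := hβ.hi
  have h3 := constA_thc_lt_one hd
  unfold cF
  have hθ1 : Real.tanh β < 1 := by linarith
  have h4 : Real.tanh β ^ 2 ≤ 1 := by nlinarith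
  have h5 : (1 - Real.tanh β) ^ 2 ≤ 1 - Real.tanh β ^ 2 := by nlinarith
  have h6 : 0 ≤ (1 - Real.tanh β) ^ 2 := by positivity
  nlinarith

theorem constA_EP_nonneg {S : Finset V} {F : (V → ℝ) → ℝ} (y₀ : V → ℝ) (hF : ∀ y, 0 ≤ F y) :
    0 ≤ EP G β S t y₀ F := by
  unfold EP
  refine Finset.sum_nonneg fun A _ => mul_nonneg (mu_pos _ _ _ _ _).le ?_
  exact integral_nonneg fun g => hF _

/-- The factor in the hypothesis of `shell_moment`, when the second moment is bounded below. -/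
theorem constA_fac1 (hd : 3 ≤ d) (hβ : Adm d β) (hT : 1 ≤ T) (ht0 : 0 < t) (ht : t ≤ T) :
    ((d : ℝ) - 1) * Real.tanh β ^ 2 * (1 - cF (Real.tanh β) * (min (Real.sqrt t) 1 / 74)) ≤
      Real.exp (-(2 * rate d T t)) := by
  have hr := constA_r_le hd hβ
  have hr0 := constA_r_pos hd hβ
  have hc1 := constA_cF_ge hd hβ
  have hc2 := constA_cF_le hd hβ
  have h0 := constA_th_pos hd hβ
  have hrate := constA_rate_le (t := t) hd hT ht
  have hq0 : 0 ≤ min (Real.sqrt t) 1 / 74 := by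
    have : 0 ≤ min (Real.sqrt t) 1 := le_min (Real.sqrt_nonneg t) zero_le_one
    positivity
  have hq1 : min (Real.sqrt t) 1 / 74 ≤ 1 := by
    have : min (Real.sqrt t) 1 ≤ 1 := min_le_right _ _
    linarith
  have hcF0 : 0 ≤ cF (Real.tanh β) := by unfold cF; positivity
  have hcF1 : cF (Real.tanh β) ≤ 1 := by nlinarith [sq_nonneg (Real.tanh β)]
  set q := min (Real.sqrt t) 1 / 74 with hq
  have hm : cF (Real.tanh β) * q ≤ 1 := by nlinarith
  have h1 : ((d : ℝ) - 1) * Real.tanh β ^ 2 * (1 - cF (Real.tanh β) * q) ≤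
      1 - cF (Real.tanh β) * q := by
    have : 0 ≤ 1 - cF (Real.tanh β) * q := by linarith
    nlinarith
  have h2 : 1 - cF (Real.tanh β) * q ≤ Real.exp (-(cF (Real.tanh β) * q)) := by
    have := Real.add_one_le_exp (-(cF (Real.tanh β) * q))
    linarith
  have h3 : 2 * rate d T t ≤ cF (Real.tanh β) * q := by
    have : constAK d * q ≤ cF (Real.tanh β) * q := mul_le_mul_of_nonneg_right hc1 hq0
    linarith
  have h4 : Real.exp (-(cF (Real.tanh β) * q)) ≤ Real.exp (-(2 * rate d T t)) :=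
    Real.exp_le_exp.2 (by linarith)
  linarith

/-- `c1 · √t · (⌈1/√t⌉ + 1) ≤ c1 (1 + 2√T)`. -/
theorem constA_front (hd : 3 ≤ d) (hT : 1 ≤ T) (ht0 : 0 < t) (ht : t ≤ T) :
    2 * rate d T t * ((⌈1 / Real.sqrt t⌉₊ : ℕ) + 1) ≤ 2 * c1 d T * (1 + 2 * Real.sqrt T) := by
  have hs0 : 0 < Real.sqrt t := Real.sqrt_pos.2 ht0
  have hst := constA_sqrt_le ht
  have hcp := c1_pos hd hT
  have h1 : ((⌈1 / Real.sqrt t⌉₊ : ℕ) : ℝ) < 1 / Real.sqrt t + 1 :=
    Nat.ceil_lt_add_one (by positivity)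
  have h2 : Real.sqrt t * ((⌈1 / Real.sqrt t⌉₊ : ℕ) + 1) ≤ 1 + 2 * Real.sqrt T := by
    have h3 : Real.sqrt t * ((⌈1 / Real.sqrt t⌉₊ : ℕ) + 1) ≤
        Real.sqrt t * (1 / Real.sqrt t + 1 + 1) :=
      mul_le_mul_of_nonneg_left (by linarith) hs0.le
    have h4 : Real.sqrt t * (1 / Real.sqrt t + 1 + 1) = 1 + 2 * Real.sqrt t := by
      field_simp
      ring
    linarith
  unfold rate
  have h5 := mul_le_mul_of_nonneg_left h2 (by positivity : 0 ≤ 2 * c1 d T)
  calc 2 * (c1 d T * Real.sqrt t) * ((⌈1 / Real.sqrt t⌉₊ : ℕ) + 1)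
      = 2 * c1 d T * (Real.sqrt t * ((⌈1 / Real.sqrt t⌉₊ : ℕ) + 1)) := by ring
    _ ≤ _ := h5

/-- First moment at all depths. Combines `q_lower_final`, `shell_moment` and the choice of `c1`. -/
theorem shell_moment_final (hT' : G.IsTree) (hd : 3 ≤ d) (hreg : G.IsRegularOfDegree d)
    (hβ : Adm d β) (hT : 1 ≤ T) (ht0 : 0 < t) (ht : t ≤ T) (hxy : G.Adj x y) (l m : ℕ) :
    EP G β (brn G x y m) t 0 (fun Y => shellF G β Y l m x y) ≤
      C0 d T * Real.exp (-(2 * rate d T t * l)) := by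
  have hr := constA_r_le hd hβ
  have hβ0 := hβ.hβ
  have ha0 : 0 ≤ rate d T t := constA_rate_nonneg hd hT
  have hE : 0 < Real.exp (-(2 * rate d T t * l)) := Real.exp_pos _
  by_cases hcase : Real.exp (-Real.sqrt t) ≤ ((d : ℝ) - 1) * Real.tanh β ^ 2 ∨ 1 < t
  · have hq : ∀ m', ⌈1 / Real.sqrt t⌉₊ ≤ m' → ∀ x' y', G.Adj x' y' →
        min (Real.sqrt t) 1 / 74 ≤ EP G β (brn G x' y' m') t 0 (fun Y => xiF G β x' y' m' Y ^ 2) :=
      fun m' hm' x' y' h => q_lower_final hT' hd hreg hβ0 hr h ht0 hm' hcase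
    have hf := constA_fac1 hd hβ hT ht0 ht
    have h1 := shell_moment hT' hd hreg hβ0 hr ht0.le ha0 hq hf hxy l m
    refine h1.trans ?_
    apply mul_le_mul_of_nonneg_right _ hE.le
    exact Real.exp_le_exp.2 (constA_front hd hT ht0 ht)
  · push Not at hcase
    obtain ⟨hc1, hc2⟩ := hcase
    have hq : ∀ m', 0 ≤ m' → ∀ x' y', G.Adj x' y' →
        (0 : ℝ) ≤ EP G β (brn G x' y' m') t 0 (fun Y => xiF G β x' y' m' Y ^ 2) :=
      fun m' _ x' y' _ => constA_EP_nonneg 0 fun Y => by positivity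
    have hf : ((d : ℝ) - 1) * Real.tanh β ^ 2 * (1 - cF (Real.tanh β) * 0) ≤
        Real.exp (-(2 * rate d T t)) := by
      have h2 : 2 * rate d T t ≤ Real.sqrt t := by
        unfold rate
        have := constA_c1_le_half (d := d) (T := T)
        have hs := Real.sqrt_nonneg t
        nlinarith
      have h3 : Real.exp (-Real.sqrt t) ≤ Real.exp (-(2 * rate d T t)) :=
        Real.exp_le_exp.2 (by linarith)
      simp only [mul_zero, sub_zero, mul_one]
      linarith
    have h1 := shell_moment hT' hd hreg hβ0 hr ht0.le ha0 hq hf hxy l m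
    refine h1.trans ?_
    apply mul_le_mul_of_nonneg_right _ hE.le
    apply Real.exp_le_exp.2
    have hcp := c1_pos hd hT
    have hst := constA_sqrt_le ht
    have hS := constA_sqrtT hT
    simp only [Nat.cast_zero, zero_add, mul_one]
    unfold rate
    have hs := Real.sqrt_nonneg t
    nlinarith [mul_le_mul_of_nonneg_left hst hcp.le]

/-- The decay exponent of the mean of `shat`: `2 a ≤ -log r + 2 (1-θ²) q` at depth `≥ ⌈1/√t⌉`. -/
theorem rate_le_q (hT' : G.IsTree) (hd : 3 ≤ d) (hreg : G.IsRegularOfDegree d)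
    (hβ : Adm d β) (hT : 1 ≤ T) (ht0 : 0 < t) (ht : t ≤ T) (hxy : G.Adj x y) {m : ℕ}
    (hm : ⌈1 / Real.sqrt t⌉₊ ≤ m) :
    2 * rate d T t ≤ -Real.log (((d : ℝ) - 1) * Real.tanh β ^ 2) +
      2 * (1 - Real.tanh β ^ 2) * EP G β (brn G x y m) t 0 (fun Y => xiF G β x y m Y ^ 2) := by
  have hr := constA_r_le hd hβ
  have hr0 := constA_r_pos hd hβ
  have hβ0 := hβ.hβ
  have hth := constA_th_pos hd hβ
  have hth1 : Real.tanh β < 1 := hβ.hi.trans (constA_thc_lt_one hd)
  have h1m : 0 ≤ 1 - Real.tanh β ^ 2 := by nlinarith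
  have hlog : Real.log (((d : ℝ) - 1) * Real.tanh β ^ 2) ≤ 0 := Real.log_nonpos hr0.le hr
  have hEnn : 0 ≤ EP G β (brn G x y m) t 0 (fun Y => xiF G β x y m Y ^ 2) :=
    constA_EP_nonneg 0 fun Y => by positivity
  by_cases hcase : Real.exp (-Real.sqrt t) ≤ ((d : ℝ) - 1) * Real.tanh β ^ 2 ∨ 1 < t
  · have hq := q_lower_final hT' hd hreg hβ0 hr hxy ht0 hm hcase
    have hrate := constA_rate_le (t := t) hd hT ht
    have hc1 := constA_cF_ge hd hβ
    have hc2 := constA_cF_le hd hβ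
    have hq0 : 0 ≤ min (Real.sqrt t) 1 / 74 := by
      have : 0 ≤ min (Real.sqrt t) 1 := le_min (Real.sqrt_nonneg t) zero_le_one
      positivity
    have h3 : constAK d * (min (Real.sqrt t) 1 / 74) ≤
        (1 - Real.tanh β ^ 2) * EP G β (brn G x y m) t 0 (fun Y => xiF G β x y m Y ^ 2) :=
      mul_le_mul (hc1.trans hc2) hq hq0 h1m
    nlinarith
  · push Not at hcase
    obtain ⟨hc1, hc2⟩ := hcase
    have h2 : 2 * rate d T t ≤ Real.sqrt t := by
      unfold rate
      have := constA_c1_le_half (d := d) (T := T)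
      have hs := Real.sqrt_nonneg t
      nlinarith
    have h3 : Real.log (((d : ℝ) - 1) * Real.tanh β ^ 2) < -Real.sqrt t := by
      rw [Real.log_lt_iff_lt_exp hr0]
      exact hc1
    have h4 : 0 ≤ 2 * (1 - Real.tanh β ^ 2) *
        EP G β (brn G x y m) t 0 (fun Y => xiF G β x y m Y ^ 2) := by positivity
    linarith

/-- The good event at finite depth, with the explicit constants. -/
theorem shell_good_final (hT' : G.IsTree) (hd : 3 ≤ d) (hreg : G.IsRegularOfDegree d)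
    (hβ : Adm d β) (hT : 1 ≤ T) (ht0 : 0 < t) (ht : t ≤ T) {z : ℝ} (hz : 0 ≤ z) (hxy : G.Adj x y)
    (m : ℕ) :
    EP G β (brn G x y m) t 0
        (Set.indicator {Y | ∃ l : ℕ, C2 d (C0 d T) * (1 + z) ^ sig d (rate d T t) *
          Real.exp (-(rate d T t * l / 4)) < shellF G β Y l m x y} 1) ≤ 2 * Real.exp (-z) := by
  have hr := constA_r_le hd hβ
  have hβ0 := hβ.hβ
  have hcp := c1_pos hd hT
  have hS := constA_sqrtT hT
  refine shell_good hT' hd hreg hβ0 hr ht0.le (constA_rate_pos hd hT ht0) ?_ ?_ hz ?_ hxy m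
  · have := sig_rate_le hd hT ht0 ht
    linarith
  · unfold C0
    apply Real.one_le_exp
    positivity
  · intro l m' x' y' h
    exact shell_moment_final hT' hd hreg hβ hT ht0 ht h l m'

end Vale.Agent.Lib.P161E
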