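import Vale.Agent.Lib.P161E.ConstA

/-! Job D11: the sub-Gaussian bound for the cavity mean. -/

open MeasureTheory Finset
open scoped Classical ENNReal

noncomputable section

namespace Vale.Agent.Lib.P161E

open Vale.Agent.Lib.P161

variable {V : Type*} {G : SimpleGraph V} [G.LocallyFinite] {β : ℝ} {d : ℕ} {x y : V} {t T : ℝ}

/-- The constant of the quadratic variation: on the good event with `z ≤ exp(1/√t)`, the total shell
sum is at most `C3 / √t`. -/
def C3 (d : ℕ) (T : ℝ) : ℝ := 100 * C2 d (C0 d T) / c1 d T * Real.exp (1 / (4 * 1))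

/-- The sub-Gaussian constant. -/
def kap0 (d : ℕ) (T : ℝ) : ℝ := 1 / (8 * C3 d T)

/-- Exponential moment constant. -/
def Ce (d : ℕ) (T : ℝ) : ℝ := 1000 * Real.exp (Real.exp 1) * (1 + T) ^ 3 * (1 + C3 d T) ^ 3

/-- The constant of the rare event contribution. -/
def constBK (d : ℕ) (T : ℝ) : ℝ := 8 * (1 + C0 d T / 2) * (1 + 1 / c1 d T)

theorem constB_C0_ge (hd : 3 ≤ d) (hT : 1 ≤ T) : 1 ≤ C0 d T := by
  have hcp := c1_pos hd hT
  have hS := constA_sqrtT hT
  unfold C0
  apply Real.one_le_exp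
  positivity

theorem constBK_le_C3 (hd : 3 ≤ d) (hT : 1 ≤ T) : constBK d T ≤ C3 d T := by
  have hcp := c1_pos hd hT
  have hc2 : c1 d T ≤ 1 / 2 := constA_c1_le_half
  have hC0 := constB_C0_ge hd hT
  have hd3 : (3 : ℝ) ≤ d := by exact_mod_cast hd
  have hd33 : (27 : ℝ) ≤ (d : ℝ) ^ 3 := by
    have := pow_le_pow_left₀ (by norm_num : (0 : ℝ) ≤ 3) hd3 3
    norm_num at this
    exact this
  have hC2 : 2700 * (1 + C0 d T / 2) ≤ C2 d (C0 d T) := by
    unfold C2
    have h1 : 1 ≤ 3 * C0 d T * d + 1 := by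
      have : 0 ≤ 3 * C0 d T * d := by positivity
      linarith
    have h2 : 1 + C0 d T / 2 ≤ 3 * C0 d T * d + 1 := by nlinarith
    have h3 : (1 + C0 d T / 2) * 27 ≤ (3 * C0 d T * d + 1) * (d : ℝ) ^ 3 :=
      mul_le_mul h2 hd33 (by norm_num) (by linarith)
    linarith
  have h1c : 1 + 1 / c1 d T ≤ 2 / c1 d T := by
    have : 1 ≤ 1 / c1 d T := by
      rw [le_div_iff₀ hcp]
      linarith
    have e : 2 / c1 d T = 1 / c1 d T + 1 / c1 d T := by ring
    rw [e]
    linarith
  have hC2p : 0 < C2 d (C0 d T) := by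
    have : 0 < 1 + C0 d T / 2 := by linarith
    linarith
  have he : 1 ≤ Real.exp (1 / (4 * 1)) := Real.one_le_exp (by norm_num)
  unfold constBK C3
  calc 8 * (1 + C0 d T / 2) * (1 + 1 / c1 d T) ≤ 8 * (1 + C0 d T / 2) * (2 / c1 d T) :=
        mul_le_mul_of_nonneg_left h1c (by linarith)
    _ = (16 * (1 + C0 d T / 2)) / c1 d T := by ring
    _ ≤ (100 * C2 d (C0 d T)) / c1 d T := by
        apply div_le_div_of_nonneg_right _ hcp.le
        linarith
    _ ≤ 100 * C2 d (C0 d T) / c1 d T * Real.exp (1 / (4 * 1)) := by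
        have : 0 ≤ 100 * C2 d (C0 d T) / c1 d T := by positivity
        nlinarith

theorem constBK_ge (hd : 3 ≤ d) (hT : 1 ≤ T) : 1 ≤ constBK d T := by
  have hcp := c1_pos hd hT
  have hC0 := constB_C0_ge hd hT
  have h : 0 ≤ 1 / c1 d T := by positivity
  unfold constBK
  nlinarith

theorem constB_C3_ge (hd : 3 ≤ d) (hT : 1 ≤ T) : 1 ≤ C3 d T :=
  (constBK_ge hd hT).trans (constBK_le_C3 hd hT)

/-- Geometric sums of exponentials. -/
theorem constB_geom {a : ℝ} (ha : 0 < a) (n : ℕ) :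
    ∑ l ∈ range n, Real.exp (-(a * l)) ≤ 1 + 1 / a := by
  have h1 : ∀ l : ℕ, Real.exp (-(a * l)) = Real.exp (-a) ^ l := by
    intro l
    rw [← Real.exp_nat_mul]
    congr 1
    ring
  simp_rw [h1]
  set q := Real.exp (-a) with hq
  have hq0 : 0 < q := Real.exp_pos _
  have hq1 : q * (1 + a) ≤ 1 := by
    have h2 : 1 + a ≤ Real.exp a := by
      have := Real.add_one_le_exp a
      linarith
    have h3 : q * Real.exp a = 1 := by
      rw [hq, ← Real.exp_add]
      simp
    nlinarith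
  have hq2 : q < 1 := by nlinarith
  have h4 := mul_neg_geom_sum q n
  have h5 : 0 ≤ q ^ n := by positivity
  have h6 : (1 - q) * ∑ i ∈ range n, q ^ i ≤ 1 := by
    rw [h4]
    linarith
  have h7 : a / (1 + a) ≤ 1 - q := by
    rw [div_le_iff₀ (by linarith)]
    nlinarith
  have h8 : 0 ≤ ∑ i ∈ range n, q ^ i := Finset.sum_nonneg fun i _ => by positivity
  have h9 : a / (1 + a) * ∑ i ∈ range n, q ^ i ≤ 1 :=
    (mul_le_mul_of_nonneg_right h7 h8).trans h6
  have h10 : ∑ i ∈ range n, q ^ i ≤ (1 + a) / a := by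
    rw [le_div_iff₀ ha]
    have h11 : a / (1 + a) * ∑ i ∈ range n, q ^ i = (∑ i ∈ range n, q ^ i) * a / (1 + a) := by ring
    rw [h11, div_le_one (by linarith)] at h9
    exact h9
  have e : (1 + a) / a = 1 + 1 / a := by
    field_simp
    ring
  rw [e] at h10
  exact h10

theorem constB_EP_sum {ι : Type*} {S : Finset V} {y₀ : V → ℝ} (s : Finset ι)
    {F : ι → (V → ℝ) → ℝ} (hF : ∀ i, Measurable (F i)) {C : ι → ℝ} (hFb : ∀ i y, |F i y| ≤ C i) :
    EP G β S t y₀ (fun y => ∑ i ∈ s, F i y) = ∑ i ∈ s, EP G β S t y₀ (F i) := by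
  unfold EP
  rw [Finset.sum_comm]
  refine Finset.sum_congr rfl fun A _ => ?_
  rw [← Finset.mul_sum, integral_finsetSum _ (fun i _ => integrable_shift (hF i) (hFb i))]

theorem constB_mem (hT' : G.IsTree) (hxy : G.Adj x y) (m : ℕ) : x ∈ brn G x y m := by
  unfold brn side
  rw [Finset.mem_filter, mem_ball hT']
  refine ⟨by simp, ?_⟩
  rw [SimpleGraph.dist_self]
  have : G.dist y x = 1 := SimpleGraph.dist_eq_one_iff_adj.2 hxy.symm
  omega

/-- The exponent of the Chernoff bound at the level `z = exp (1/√u)`. -/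
theorem constB_rpow_le (hd : 3 ≤ d) (hT : 1 ≤ T) {u : ℝ} (hu0 : 0 < u) (hu : u ≤ T) :
    (1 + Real.exp (1 / Real.sqrt u)) ^ sig d (rate d T u) ≤ Real.exp (1 / (4 * 1)) := by
  have hs : 0 < Real.sqrt u := Real.sqrt_pos.2 hu0
  have hw : 0 < 1 / Real.sqrt u := by positivity
  have hl := constA_log_pos hd
  have hS := constA_sqrtT hT
  have hcp := c1_pos hd hT
  have hsig0 : 0 ≤ sig d (rate d T u) := by
    unfold sig rate
    positivity
  have hsig := sig_rate_le hd hT hu0 hu
  have hz1 : 1 ≤ Real.exp (1 / Real.sqrt u) := Real.one_le_exp hw.le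
  have h1 : 1 + Real.exp (1 / Real.sqrt u) ≤ Real.exp (1 + 1 / Real.sqrt u) := by
    rw [Real.exp_add]
    have h2 : (2 : ℝ) ≤ Real.exp 1 := by
      have := Real.add_one_le_exp (1 : ℝ)
      linarith
    nlinarith
  have h2 : (1 + Real.exp (1 / Real.sqrt u)) ^ sig d (rate d T u) ≤
      Real.exp (1 + 1 / Real.sqrt u) ^ sig d (rate d T u) :=
    Real.rpow_le_rpow (by linarith) h1 hsig0
  refine h2.trans ?_
  rw [← Real.exp_mul]
  apply Real.exp_le_exp.2
  have h3 : 1 / Real.sqrt u * sig d (rate d T u) ≤ 1 / 8 := by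
    unfold sig rate
    have e : 1 / Real.sqrt u * (2 * (c1 d T * Real.sqrt u) / Real.log ((d : ℝ) - 1)) =
        2 * c1 d T / Real.log ((d : ℝ) - 1) := by
      field_simp
    rw [e, div_le_iff₀ hl]
    have hc : c1 d T ≤ Real.log ((d : ℝ) - 1) / (16 * Real.sqrt T) := constA_c1_le_log
    have h4 : Real.log ((d : ℝ) - 1) / (16 * Real.sqrt T) ≤ Real.log ((d : ℝ) - 1) / 16 := by
      apply div_le_div_of_nonneg_left hl.le (by norm_num)
      linarith
    linarith
  calc (1 + 1 / Real.sqrt u) * sig d (rate d T u)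
      = sig d (rate d T u) + 1 / Real.sqrt u * sig d (rate d T u) := by ring
    _ ≤ 1 / (4 * 1) := by
        have e : (1 : ℝ) / (4 * 1) = 1 / 8 + 1 / 8 := by norm_num
        rw [e]
        linarith

/-- Off the rare event the total shell sum is at most `C3 / √u`. -/
theorem constB_good_sum (hd : 3 ≤ d) (hT : 1 ≤ T) {u : ℝ} (hu0 : 0 < u) (hu : u ≤ T) (m : ℕ)
    {s : ℕ → ℝ}
    (hs : ∀ l : ℕ, s l ≤ C2 d (C0 d T) * (1 + Real.exp (1 / Real.sqrt u)) ^ sig d (rate d T u) *
      Real.exp (-(rate d T u * l / 4))) :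
    ∑ l ∈ range (m + 1), s l ≤ C3 d T / Real.sqrt u := by
  have hsq : 0 < Real.sqrt u := Real.sqrt_pos.2 hu0
  have hcp := c1_pos hd hT
  have hr := constA_rate_pos (t := u) hd hT hu0
  have hC0 := constB_C0_ge hd hT
  have hd3 : (3 : ℝ) ≤ d := by exact_mod_cast hd
  have hC2 : 0 < C2 d (C0 d T) := by
    unfold C2
    positivity
  have hrp := constB_rpow_le hd hT hu0 hu
  have hrp0 : 0 ≤ (1 + Real.exp (1 / Real.sqrt u)) ^ sig d (rate d T u) := by positivity
  have hr148 : rate d T u ≤ 1 / 148 := by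
    have h := constA_rate_le (t := u) hd hT hu
    have hK : constAK d ≤ 1 := by
      have h1 := constA_thc_pos hd
      have h2 := constA_thc_lt_one hd
      unfold constAK
      have h3 : (thc d / 2) ^ 2 ≤ 1 := by nlinarith
      have h4 : (1 - thc d) ^ 2 ≤ 1 := by nlinarith
      have h5 : 0 ≤ (1 - thc d) ^ 2 := by positivity
      nlinarith [sq_nonneg (thc d / 2)]
    have hK0 := constAK_pos hd
    have hmin : min (Real.sqrt u) 1 ≤ 1 := min_le_right _ _
    have hmin0 : 0 ≤ min (Real.sqrt u) 1 := le_min hsq.le zero_le_one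
    have h5 : constAK d * (min (Real.sqrt u) 1 / 74) ≤ 1 * (1 / 74) := by
      apply mul_le_mul hK (by linarith) (by positivity) (by norm_num)
    linarith
  have hgeom := constB_geom (a := rate d T u / 4) (by positivity) (m + 1)
  have h1 : ∑ l ∈ range (m + 1), s l ≤ ∑ l ∈ range (m + 1),
      C2 d (C0 d T) * (1 + Real.exp (1 / Real.sqrt u)) ^ sig d (rate d T u) *
        Real.exp (-(rate d T u / 4 * l)) := by
    refine Finset.sum_le_sum fun l _ => (hs l).trans (le_of_eq ?_)
    congr 2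
    ring
  rw [← Finset.mul_sum] at h1
  have h2 : 1 + 1 / (rate d T u / 4) ≤ 100 / rate d T u := by
    have e : 1 / (rate d T u / 4) = 4 / rate d T u := by
      field_simp
    rw [e, show 100 / rate d T u = 4 / rate d T u + 96 / rate d T u by ring]
    have : 1 ≤ 96 / rate d T u := by
      rw [le_div_iff₀ hr]
      linarith
    linarith
  have hsum0 : 0 ≤ ∑ l ∈ range (m + 1), Real.exp (-(rate d T u / 4 * l)) :=
    Finset.sum_nonneg fun l _ => (Real.exp_pos _).le
  calc ∑ l ∈ range (m + 1), s l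
      ≤ C2 d (C0 d T) * (1 + Real.exp (1 / Real.sqrt u)) ^ sig d (rate d T u) *
          ∑ l ∈ range (m + 1), Real.exp (-(rate d T u / 4 * l)) := h1
    _ ≤ C2 d (C0 d T) * Real.exp (1 / (4 * 1)) * (100 / rate d T u) := by
        apply mul_le_mul _ (hgeom.trans h2) hsum0 (by positivity)
        exact mul_le_mul_of_nonneg_left hrp hC2.le
    _ = C3 d T / Real.sqrt u := by
        unfold C3 rate
        field_simp

/-- The elementary inequality behind the rare event bound. -/
theorem constB_min_le {s b η : ℝ} (hs0 : 0 ≤ s) (hs1 : s ≤ 1) (hb : b = 0 ∨ b = 1) (hη : 0 < η) :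
    s * b ≤ η / 2 * b + 1 / (2 * η) * s := by
  rcases hb with rfl | rfl
  · have : 0 ≤ 1 / (2 * η) * s := by positivity
    simpa using this
  · have h1 : 1 / (2 * η) * s = s / (2 * η) := by ring
    rw [mul_one, mul_one, h1]
    have h2 : s * (2 * η) ≤ η ^ 2 + s := by nlinarith [sq_nonneg (η - s)]
    have h3 : η / 2 + s / (2 * η) = (η ^ 2 + s) / (2 * η) := by
      field_simp
    rw [h3, le_div_iff₀ (by positivity)]
    exact h2

section main

variable (G) in
/-- The rare event. -/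
def constBBad (β : ℝ) (d : ℕ) (T u : ℝ) (m : ℕ) (x y : V) : Set (V → ℝ) :=
  {Y | ∃ l : ℕ, C2 d (C0 d T) * (1 + Real.exp (1 / Real.sqrt u)) ^ sig d (rate d T u) *
    Real.exp (-(rate d T u * l / 4)) < shellF G β Y l m x y}

theorem constB_meas_bad (T u : ℝ) (m : ℕ) (x y : V) : MeasurableSet (constBBad G β d T u m x y) := by
  unfold constBBad
  have : {Y : V → ℝ | ∃ l : ℕ, C2 d (C0 d T) * (1 + Real.exp (1 / Real.sqrt u)) ^ sig d (rate d T u) *
      Real.exp (-(rate d T u * l / 4)) < shellF G β Y l m x y} =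
      ⋃ l : ℕ, {Y : V → ℝ | C2 d (C0 d T) * (1 + Real.exp (1 / Real.sqrt u)) ^ sig d (rate d T u) *
      Real.exp (-(rate d T u * l / 4)) < shellF G β Y l m x y} := by
    ext Y
    simp
  rw [this]
  exact MeasurableSet.iUnion fun l => measurableSet_lt measurable_const (measurable_shellF l m x y)

/-- The contribution of one shell on the rare event. -/
theorem constB_one_shell (hT' : G.IsTree) (hd : 3 ≤ d) (hreg : G.IsRegularOfDegree d)
    (hβ : Adm d β) (hT : 1 ≤ T) {u : ℝ} (hu0 : 0 < u) (hu : u ≤ T) (hxy : G.Adj x y) (l m : ℕ) :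
    EP G β (brn G x y m) u 0
        (fun Y => shellF G β Y l m x y * Set.indicator (constBBad G β d T u m x y) 1 Y) ≤
      (1 + C0 d T / 2) * Real.exp (-(Real.exp (1 / Real.sqrt u) / 2)) *
        Real.exp (-(rate d T u * l)) := by
  set z := Real.exp (1 / Real.sqrt u) with hz
  set a := rate d T u with ha
  set η := Real.exp (z / 2 - a * l) with hη
  have hη0 : 0 < η := Real.exp_pos _
  have hr := constA_r_le hd hβ
  have hβ0 := hβ.hβ
  set b : (V → ℝ) → ℝ := Set.indicator (constBBad G β d T u m x y) 1 with hb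
  have hbm : Measurable b := measurable_one.indicator (constB_meas_bad T u m x y)
  have hb01 : ∀ Y, b Y = 0 ∨ b Y = 1 := by
    intro Y
    by_cases h : Y ∈ constBBad G β d T u m x y
    · right
      simp [hb, Set.indicator_of_mem h]
    · left
      simp [hb, Set.indicator_of_notMem h]
  have hb0 : ∀ Y, |b Y| ≤ 1 := by
    intro Y
    rcases hb01 Y with h | h <;> rw [h] <;> norm_num
  have hs0 : ∀ Y, 0 ≤ shellF G β Y l m x y := fun Y => shellF_nonneg hβ0 l m x y Y
  have hs1 : ∀ Y, shellF G β Y l m x y ≤ 1 := fun Y => shellF_le_one hT' hreg hβ0 hr hxy l m Y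
  have hsm : Measurable (fun Y => shellF G β Y l m x y) := measurable_shellF l m x y
  have hsb : ∀ Y, |shellF G β Y l m x y| ≤ 1 := fun Y => by
    rw [abs_of_nonneg (hs0 Y)]
    exact hs1 Y
  -- the comparison function
  set c₁ := η / 2 with hc₁
  set c₂ := 1 / (2 * η) with hc₂
  have hc₁0 : 0 ≤ c₁ := by positivity
  have hc₂0 : 0 ≤ c₂ := by positivity
  have hle : ∀ Y, shellF G β Y l m x y * b Y ≤ c₁ * b Y + c₂ * shellF G β Y l m x y :=
    fun Y => constB_min_le (hs0 Y) (hs1 Y) (hb01 Y) hη0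
  have hC0 : (0 : ℝ) ≤ 1 + c₁ + c₂ := by positivity
  have h1 : EP G β (brn G x y m) u 0 (fun Y => shellF G β Y l m x y * b Y) ≤
      EP G β (brn G x y m) u 0 (fun Y => c₁ * b Y + c₂ * shellF G β Y l m x y) := by
    refine EP_mono (C := 1 + c₁ + c₂) (hsm.mul hbm)
      ((hbm.const_mul c₁).add (hsm.const_mul c₂)) ?_ ?_ hle
    · intro Y
      rw [abs_mul]
      have : |shellF G β Y l m x y| * |b Y| ≤ 1 * 1 :=
        mul_le_mul (hsb Y) (hb0 Y) (abs_nonneg _) zero_le_one
      linarith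
    · intro Y
      have h1 := abs_add_le (c₁ * b Y) (c₂ * shellF G β Y l m x y)
      rw [abs_mul, abs_mul, abs_of_nonneg hc₁0, abs_of_nonneg hc₂0] at h1
      have h2 : c₁ * |b Y| ≤ c₁ * 1 := mul_le_mul_of_nonneg_left (hb0 Y) hc₁0
      have h3 : c₂ * |shellF G β Y l m x y| ≤ c₂ * 1 := mul_le_mul_of_nonneg_left (hsb Y) hc₂0
      linarith
  have h2 : EP G β (brn G x y m) u 0 (fun Y => c₁ * b Y + c₂ * shellF G β Y l m x y) =
      c₁ * EP G β (brn G x y m) u 0 b + c₂ * EP G β (brn G x y m) u 0 (fun Y => shellF G β Y l m x y) := by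
    rw [EP_add (C := 1 + c₁ + c₂) (hbm.const_mul c₁) (hsm.const_mul c₂), EP_const_mul, EP_const_mul]
    · intro Y
      rw [abs_mul, abs_of_nonneg hc₁0]
      have h2 : c₁ * |b Y| ≤ c₁ * 1 := mul_le_mul_of_nonneg_left (hb0 Y) hc₁0
      linarith
    · intro Y
      rw [abs_mul, abs_of_nonneg hc₂0]
      have h3 : c₂ * |shellF G β Y l m x y| ≤ c₂ * 1 := mul_le_mul_of_nonneg_left (hsb Y) hc₂0
      linarith
  have hz0 : 0 ≤ z := (Real.exp_pos _).le
  have h3 : EP G β (brn G x y m) u 0 b ≤ 2 * Real.exp (-z) :=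
    shell_good_final hT' hd hreg hβ hT hu0 hu hz0 hxy m
  have h4 : EP G β (brn G x y m) u 0 (fun Y => shellF G β Y l m x y) ≤
      C0 d T * Real.exp (-(2 * a * l)) :=
    shell_moment_final hT' hd hreg hβ hT hu0 hu hxy l m
  rw [h2] at h1
  refine h1.trans ?_
  have e1 : c₁ * (2 * Real.exp (-z)) = Real.exp (-(z / 2)) * Real.exp (-(a * l)) := by
    rw [hc₁, hη, ← Real.exp_add]
    have : Real.exp (z / 2 - a * l) / 2 * (2 * Real.exp (-z)) =
        Real.exp (z / 2 - a * l) * Real.exp (-z) := by ring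
    rw [this, ← Real.exp_add]
    congr 1
    ring
  have e2 : c₂ * (C0 d T * Real.exp (-(2 * a * l))) =
      C0 d T / 2 * (Real.exp (-(z / 2)) * Real.exp (-(a * l))) := by
    rw [hc₂, hη, ← Real.exp_add]
    have h5 : Real.exp (-(2 * a * l)) = Real.exp (z / 2 - a * l) *
        Real.exp (-(z / 2) + -(a * l)) := by
      rw [← Real.exp_add]
      congr 1
      ring
    rw [h5]
    field_simp
  have h6 := mul_le_mul_of_nonneg_left h3 hc₁0
  have h7 := mul_le_mul_of_nonneg_left h4 hc₂0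
  rw [e1] at h6
  rw [e2] at h7
  calc c₁ * EP G β (brn G x y m) u 0 b + c₂ * EP G β (brn G x y m) u 0 (fun Y => shellF G β Y l m x y)
      ≤ Real.exp (-(z / 2)) * Real.exp (-(a * l)) +
        C0 d T / 2 * (Real.exp (-(z / 2)) * Real.exp (-(a * l))) := add_le_add h6 h7
    _ = (1 + C0 d T / 2) * Real.exp (-(z / 2)) * Real.exp (-(a * l)) := by ring

/-- The total shell sum on the rare event. -/
theorem constB_sum_bad (hT' : G.IsTree) (hd : 3 ≤ d) (hreg : G.IsRegularOfDegree d)
    (hβ : Adm d β) (hT : 1 ≤ T) {u : ℝ} (hu0 : 0 < u) (hu : u ≤ T) (hxy : G.Adj x y) (m : ℕ) :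
    EP G β (brn G x y m) u 0
        (fun Y => ∑ l ∈ range (m + 1),
          shellF G β Y l m x y * Set.indicator (constBBad G β d T u m x y) 1 Y) ≤
      (1 + C0 d T / 2) * Real.exp (-(Real.exp (1 / Real.sqrt u) / 2)) * (1 + 1 / rate d T u) := by
  have hr := constA_r_le hd hβ
  have hβ0 := hβ.hβ
  set b : (V → ℝ) → ℝ := Set.indicator (constBBad G β d T u m x y) 1 with hb
  have hbm : Measurable b := measurable_one.indicator (constB_meas_bad T u m x y)
  have hb01 : ∀ Y, |b Y| ≤ 1 := by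
    intro Y
    by_cases h : Y ∈ constBBad G β d T u m x y
    · simp [hb, Set.indicator_of_mem h]
    · simp [hb, Set.indicator_of_notMem h]
  have hbd : ∀ (l : ℕ) Y, |shellF G β Y l m x y * b Y| ≤ (1 : ℝ) := by
    intro l Y
    rw [abs_mul]
    have h1 : |shellF G β Y l m x y| ≤ 1 := by
      rw [abs_of_nonneg (shellF_nonneg hβ0 l m x y Y)]
      exact shellF_le_one hT' hreg hβ0 hr hxy l m Y
    have := mul_le_mul h1 (hb01 Y) (abs_nonneg _) zero_le_one
    linarith
  rw [constB_EP_sum (F := fun (l : ℕ) Y => shellF G β Y l m x y * b Y) (C := fun _ => (1 : ℝ)) _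
    (fun l => (measurable_shellF l m x y).mul hbm) hbd]
  have hrate := constA_rate_pos (t := u) hd hT hu0
  have hC0 := constB_C0_ge hd hT
  calc ∑ l ∈ range (m + 1), EP G β (brn G x y m) u 0 (fun Y => shellF G β Y l m x y * b Y)
      ≤ ∑ l ∈ range (m + 1), (1 + C0 d T / 2) * Real.exp (-(Real.exp (1 / Real.sqrt u) / 2)) *
          Real.exp (-(rate d T u * l)) :=
        Finset.sum_le_sum fun l _ => constB_one_shell hT' hd hreg hβ hT hu0 hu hxy l m
    _ = (1 + C0 d T / 2) * Real.exp (-(Real.exp (1 / Real.sqrt u) / 2)) *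
          ∑ l ∈ range (m + 1), Real.exp (-(rate d T u * l)) := by
        rw [Finset.mul_sum]
    _ ≤ _ := mul_le_mul_of_nonneg_left (constB_geom hrate _) (by positivity)

/-- The rare event bound, uniform in time up to `t`. -/
theorem constB_rho_le (hd : 3 ≤ d) (hT : 1 ≤ T) {u : ℝ} (hu0 : 0 < u) (hu : u ≤ t) :
    (1 + C0 d T / 2) * Real.exp (-(Real.exp (1 / Real.sqrt u) / 2)) * (1 + 1 / rate d T u) ≤
      constBK d T * Real.exp (-(1 / Real.sqrt t)) := by
  have hs : 0 < Real.sqrt u := Real.sqrt_pos.2 hu0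
  have ht0 : 0 < t := hu0.trans_le hu
  have hs' : 0 < Real.sqrt t := Real.sqrt_pos.2 ht0
  have hcp := c1_pos hd hT
  have hC0 := constB_C0_ge hd hT
  set w := 1 / Real.sqrt u with hw
  have hw0 : 0 < w := by positivity
  set z := Real.exp w with hz
  have hz0 : 0 < z := Real.exp_pos _
  have h1 : 1 + 1 / rate d T u ≤ (1 + 1 / c1 d T) * z := by
    have e : 1 / rate d T u = 1 / c1 d T * w := by
      unfold rate
      rw [hw]
      field_simp
    rw [e]
    have h2 : 1 + w ≤ z := by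
      have := Real.add_one_le_exp w
      rw [hz]
      linarith
    have h3 : 0 ≤ 1 / c1 d T := by positivity
    nlinarith
  have h2 : Real.exp (-(z / 2)) * z ≤ 8 * Real.exp (-w) := by
    have h3 := Real.quadratic_le_exp_of_nonneg (x := z / 2) (by positivity)
    have h4 : z ^ 2 ≤ 8 * Real.exp (z / 2) := by nlinarith
    have e1 : Real.exp (-w) = 1 / z := by
      rw [Real.exp_neg, hz, one_div]
    have e2 : Real.exp (-(z / 2)) = 1 / Real.exp (z / 2) := by
      rw [Real.exp_neg, one_div]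
    rw [e1, e2, div_mul_eq_mul_div, one_mul, mul_one_div, div_le_div_iff₀ (Real.exp_pos _) hz0]
    nlinarith
  have h3 : Real.exp (-w) ≤ Real.exp (-(1 / Real.sqrt t)) := by
    apply Real.exp_le_exp.2
    have : 1 / Real.sqrt t ≤ w := by
      rw [hw]
      apply div_le_div_of_nonneg_left zero_le_one hs
      exact Real.sqrt_le_sqrt hu
    linarith
  have hA : 0 ≤ 1 + C0 d T / 2 := by linarith
  have hB : 0 ≤ 1 + 1 / c1 d T := by positivity
  calc (1 + C0 d T / 2) * Real.exp (-(z / 2)) * (1 + 1 / rate d T u)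
      ≤ (1 + C0 d T / 2) * Real.exp (-(z / 2)) * ((1 + 1 / c1 d T) * z) :=
        mul_le_mul_of_nonneg_left h1 (by positivity)
    _ = (1 + C0 d T / 2) * (1 + 1 / c1 d T) * (Real.exp (-(z / 2)) * z) := by ring
    _ ≤ (1 + C0 d T / 2) * (1 + 1 / c1 d T) * (8 * Real.exp (-(1 / Real.sqrt t))) := by
        apply mul_le_mul_of_nonneg_left _ (by positivity)
        linarith
    _ = constBK d T * Real.exp (-(1 / Real.sqrt t)) := by
        unfold constBK
        ring

/-- The hypothesis of the Gronwall lemma at the time `u`. -/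
theorem constB_hq (hT' : G.IsTree) (hd : 3 ≤ d) (hreg : G.IsRegularOfDegree d)
    (hβ : Adm d β) (hT : 1 ≤ T) {u : ℝ} (hu0 : 0 < u) (hu : u ≤ T) (hxy : G.Adj x y) (m : ℕ)
    (lam : ℝ) :
    EP G β (brn G x y m) u 0 (fun Y => Real.exp (lam * mean G β (brn G x y m) Y x) *
        ∑ v ∈ brn G x y m, cov G β (brn G x y m) Y x v ^ 2) ≤
      C3 d T / Real.sqrt u *
          EP G β (brn G x y m) u 0 (fun Y => Real.exp (lam * mean G β (brn G x y m) Y x)) +
        Real.exp |lam| * ((1 + C0 d T / 2) * Real.exp (-(Real.exp (1 / Real.sqrt u) / 2)) *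
          (1 + 1 / rate d T u)) := by
  have hr := constA_r_le hd hβ
  have hβ0 := hβ.hβ
  have hs : 0 < Real.sqrt u := Real.sqrt_pos.2 hu0
  have hC3 := constB_C3_ge hd hT
  set S := brn G x y m with hS
  set E : (V → ℝ) → ℝ := fun Y => Real.exp (lam * mean G β S Y x) with hE
  set Q : (V → ℝ) → ℝ := fun Y => ∑ v ∈ S, cov G β S Y x v ^ 2 with hQ
  set b : (V → ℝ) → ℝ := Set.indicator (constBBad G β d T u m x y) 1 with hb
  set Z : (V → ℝ) → ℝ := fun Y => ∑ l ∈ range (m + 1), shellF G β Y l m x y with hZ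
  set Zb : (V → ℝ) → ℝ := fun Y => ∑ l ∈ range (m + 1), shellF G β Y l m x y * b Y with hZb
  set c := C3 d T / Real.sqrt u with hc
  have hc0 : 0 ≤ c := by positivity
  have hbm : Measurable b := measurable_one.indicator (constB_meas_bad T u m x y)
  have hEm : Measurable E := Real.measurable_exp.comp ((measurable_mean S x).const_mul lam)
  have hQm : Measurable Q := Finset.measurable_sum _ fun v _ => (measurable_cov S x v).pow_const 2
  have hZbm : Measurable Zb :=
    Finset.measurable_sum _ fun l _ => (measurable_shellF l m x y).mul hbm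
  have hE0 : ∀ Y, 0 < E Y := fun Y => Real.exp_pos _
  have hE1 : ∀ Y, E Y ≤ Real.exp |lam| := by
    intro Y
    apply Real.exp_le_exp.2
    have h1 := abs_mean_le G β S Y x
    calc lam * mean G β S Y x ≤ |lam * mean G β S Y x| := le_abs_self _
      _ = |lam| * |mean G β S Y x| := abs_mul _ _
      _ ≤ |lam| * 1 := mul_le_mul_of_nonneg_left h1 (abs_nonneg _)
      _ = |lam| := mul_one _
  have hQ0 : ∀ Y, 0 ≤ Q Y := fun Y => Finset.sum_nonneg fun v _ => by positivity
  have hQZ : ∀ Y, Q Y ≤ Z Y := fun Y => sum_cov_sq_le hT' hβ0 m hxy Y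
  have hs0 : ∀ (l : ℕ) Y, 0 ≤ shellF G β Y l m x y := fun l Y => shellF_nonneg hβ0 l m x y Y
  have hs1 : ∀ (l : ℕ) Y, shellF G β Y l m x y ≤ 1 :=
    fun l Y => shellF_le_one hT' hreg hβ0 hr hxy l m Y
  have hZ1 : ∀ Y, Z Y ≤ (m : ℝ) + 1 := by
    intro Y
    calc Z Y ≤ ∑ l ∈ range (m + 1), (1 : ℝ) := Finset.sum_le_sum fun l _ => hs1 l Y
      _ = (m : ℝ) + 1 := by simp
  have hb01 : ∀ Y, b Y = 0 ∨ b Y = 1 := by
    intro Y
    by_cases h : Y ∈ constBBad G β d T u m x y
    · right
      simp [hb, Set.indicator_of_mem h]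
    · left
      simp [hb, Set.indicator_of_notMem h]
  have hZb0 : ∀ Y, 0 ≤ Zb Y := by
    intro Y
    refine Finset.sum_nonneg fun l _ => mul_nonneg (hs0 l Y) ?_
    rcases hb01 Y with h | h <;> rw [h] <;> norm_num
  have hZb1 : ∀ Y, Zb Y ≤ (m : ℝ) + 1 := by
    intro Y
    have h1 : Zb Y = Z Y * b Y := by
      simp only [hZb, hZ, Finset.sum_mul]
    rw [h1]
    have hZ0 : 0 ≤ Z Y := (hQ0 Y).trans (hQZ Y)
    rcases hb01 Y with h | h <;> rw [h]
    · simp only [mul_zero]
      positivity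
    · rw [mul_one]
      exact hZ1 Y
  have hle : ∀ Y, E Y * Q Y ≤ c * E Y + Real.exp |lam| * Zb Y := by
    intro Y
    by_cases hY : Y ∈ constBBad G β d T u m x y
    · have hb1 : b Y = 1 := by simp [hb, Set.indicator_of_mem hY]
      have hZbZ : Zb Y = Z Y := by
        simp only [hZb, hZ, hb1, mul_one]
      rw [hZbZ]
      have h1 : E Y * Q Y ≤ Real.exp |lam| * Z Y :=
        mul_le_mul (hE1 Y) (hQZ Y) (hQ0 Y) (Real.exp_pos _).le
      have h2 : 0 ≤ c * E Y := mul_nonneg hc0 (hE0 Y).le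
      linarith
    · have hb1 : b Y = 0 := by simp [hb, Set.indicator_of_notMem hY]
      have hZbZ : Zb Y = 0 := by
        simp only [hZb, hb1, mul_zero, Finset.sum_const_zero]
      rw [hZbZ, mul_zero, add_zero]
      have hgood : ∀ l : ℕ, shellF G β Y l m x y ≤
          C2 d (C0 d T) * (1 + Real.exp (1 / Real.sqrt u)) ^ sig d (rate d T u) *
            Real.exp (-(rate d T u * l / 4)) := by
        intro l
        by_contra hcon
        exact hY ⟨l, not_le.1 hcon⟩
      have h1 : Z Y ≤ c := constB_good_sum hd hT hu0 hu m hgood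
      have h2 : Q Y ≤ c := (hQZ Y).trans h1
      have h3 := mul_le_mul_of_nonneg_left h2 (hE0 Y).le
      linarith
  have hEexp : 0 < Real.exp |lam| := Real.exp_pos _
  have hM0 : (0 : ℝ) ≤ (m : ℝ) + 1 := by positivity
  set M := c * Real.exp |lam| + Real.exp |lam| * ((m : ℝ) + 1) with hM
  have hcE : ∀ Y, |c * E Y| ≤ M := by
    intro Y
    rw [abs_of_nonneg (mul_nonneg hc0 (hE0 Y).le)]
    have h1 := mul_le_mul_of_nonneg_left (hE1 Y) hc0
    have h2 : 0 ≤ Real.exp |lam| * ((m : ℝ) + 1) := by positivity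
    rw [hM]
    linarith
  have hEZ : ∀ Y, |Real.exp |lam| * Zb Y| ≤ M := by
    intro Y
    rw [abs_of_nonneg (mul_nonneg hEexp.le (hZb0 Y))]
    have h1 := mul_le_mul_of_nonneg_left (hZb1 Y) hEexp.le
    have h2 : 0 ≤ c * Real.exp |lam| := by positivity
    rw [hM]
    linarith
  have h1 : EP G β S u 0 (fun Y => E Y * Q Y) ≤
      EP G β S u 0 (fun Y => c * E Y + Real.exp |lam| * Zb Y) := by
    refine EP_mono (C := M) (hEm.mul hQm) ((hEm.const_mul c).add (hZbm.const_mul _)) ?_ ?_ hle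
    · intro Y
      rw [abs_of_nonneg (mul_nonneg (hE0 Y).le (hQ0 Y))]
      have h2 : Q Y ≤ (m : ℝ) + 1 := (hQZ Y).trans (hZ1 Y)
      have h3 := mul_le_mul (hE1 Y) h2 (hQ0 Y) hEexp.le
      have h4 : 0 ≤ c * Real.exp |lam| := by positivity
      rw [hM]
      linarith
    · intro Y
      have h2 := abs_add_le (c * E Y) (Real.exp |lam| * Zb Y)
      rw [abs_of_nonneg (mul_nonneg hc0 (hE0 Y).le),
        abs_of_nonneg (mul_nonneg hEexp.le (hZb0 Y))] at h2
      have h3 := mul_le_mul_of_nonneg_left (hE1 Y) hc0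
      have h4 := mul_le_mul_of_nonneg_left (hZb1 Y) hEexp.le
      rw [hM]
      linarith
  refine h1.trans ?_
  rw [EP_add (C := M) (hEm.const_mul c) (hZbm.const_mul _) hcE hEZ, EP_const_mul, EP_const_mul]
  have h2 := constB_sum_bad hT' hd hreg hβ hT hu0 hu hxy m
  have h3 := mul_le_mul_of_nonneg_left h2 hEexp.le
  linarith

/-- The exponential moment of the mean, for `|lam| √t ≤ 1 / (2 C3)`. -/
theorem constB_mgf (hT' : G.IsTree) (hd : 3 ≤ d) (hreg : G.IsRegularOfDegree d)
    (hβ : Adm d β) (hT : 1 ≤ T) (ht0 : 0 < t) (ht : t ≤ T) (hxy : G.Adj x y) (m : ℕ) {lam : ℝ}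
    (hlam : |lam| * Real.sqrt t ≤ 1 / (2 * C3 d T)) :
    EP G β (brn G x y m) t 0 (fun Y => Real.exp (lam * mean G β (brn G x y m) Y x)) ≤
      2 * Real.exp (lam ^ 2 * C3 d T * Real.sqrt t) := by
  have hC3 := constB_C3_ge hd hT
  have hK1 := constBK_ge hd hT
  have hKC := constBK_le_C3 hd hT
  have hs : 0 < Real.sqrt t := Real.sqrt_pos.2 ht0
  have hρ : 0 ≤ constBK d T * Real.exp (-(1 / Real.sqrt t)) := by positivity
  have h := mgf_gronwall (G := G) (β := β) (C := C3 d T)
    (ρ := constBK d T * Real.exp (-(1 / Real.sqrt t))) (constB_mem hT' hxy m) lam ht0 (by linarith) hρ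
    (fun u hu0 hut => by
      refine (constB_hq hT' hd hreg hβ hT hu0 (hut.trans ht) hxy m lam).trans ?_
      have h1 := constB_rho_le (t := t) hd hT hu0 hut
      have h2 := mul_le_mul_of_nonneg_left h1 (Real.exp_pos |lam|).le
      linarith)
  refine h.trans ?_
  rw [mul_comm 2]
  apply mul_le_mul_of_nonneg_left _ (Real.exp_pos _).le
  -- the factor
  have hL0 : 0 ≤ |lam| := abs_nonneg lam
  have hsq : lam ^ 2 * t = (|lam| * Real.sqrt t) ^ 2 := by
    rw [mul_pow, sq_abs, Real.sq_sqrt ht0.le]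
  have hbound : 1 / (2 * C3 d T) ≤ 1 / 2 := by
    apply div_le_div_of_nonneg_left zero_le_one (by norm_num)
    linarith
  have hLs : |lam| ≤ 1 / Real.sqrt t := by
    rw [le_div_iff₀ hs]
    linarith
  have hexp : Real.exp |lam| * Real.exp (-(1 / Real.sqrt t)) ≤ 1 := by
    rw [← Real.exp_add]
    apply Real.exp_le_one_iff.2
    linarith
  have h1 : lam ^ 2 * t ≤ (1 / (2 * C3 d T)) ^ 2 := by
    rw [hsq]
    exact pow_le_pow_left₀ (by positivity) hlam 2
  have hK0 : 0 ≤ constBK d T := by linarith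
  have e : lam ^ 2 * Real.exp |lam| * t * (constBK d T * Real.exp (-(1 / Real.sqrt t))) =
      (lam ^ 2 * t) * constBK d T * (Real.exp |lam| * Real.exp (-(1 / Real.sqrt t))) := by ring
  rw [e]
  have h2 : (lam ^ 2 * t) * constBK d T ≤ (1 / (2 * C3 d T)) ^ 2 * C3 d T :=
    mul_le_mul h1 hKC hK0 (by positivity)
  have h3 : (1 / (2 * C3 d T)) ^ 2 * C3 d T ≤ 1 := by
    have e2 : (1 / (2 * C3 d T)) ^ 2 * C3 d T = 1 / (4 * C3 d T) := by
      field_simp
      ring
    rw [e2, div_le_one (by linarith)]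
    linarith
  have h4 : 0 ≤ (lam ^ 2 * t) * constBK d T := by positivity
  have h5 : (lam ^ 2 * t) * constBK d T * (Real.exp |lam| * Real.exp (-(1 / Real.sqrt t))) ≤
      (lam ^ 2 * t) * constBK d T * 1 := mul_le_mul_of_nonneg_left hexp h4
  linarith

/-- The tail of the mean. -/
theorem constB_tail (hT' : G.IsTree) (hd : 3 ≤ d) (hreg : G.IsRegularOfDegree d)
    (hβ : Adm d β) (hT : 1 ≤ T) (ht0 : 0 < t) (ht : t ≤ T) (hxy : G.Adj x y) (m s : ℕ) :
    EP G β (brn G x y m) t 0 (Set.indicator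
        {Y | (s : ℝ) ≤ xiF G β x y m Y ^ 2 / (4 * C3 d T * Real.sqrt t)} 1) ≤
      4 * Real.exp (-(s : ℝ)) := by
  have hC3 := constB_C3_ge hd hT
  have hs : 0 < Real.sqrt t := Real.sqrt_pos.2 ht0
  have hC0 : 0 < C3 d T := by linarith
  set D := 4 * C3 d T * Real.sqrt t with hD
  have hD0 : 0 < D := by positivity
  set B := {Y : V → ℝ | (s : ℝ) ≤ xiF G β x y m Y ^ 2 / D} with hB
  have hf1 : ∀ Y, xiF G β x y m Y ^ 2 ≤ 1 := by
    intro Y
    have h1 := abs_mean_le G β (brn G x y m) Y x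
    have h2 : |xiF G β x y m Y| ≤ 1 := h1
    exact (sq_le_one_iff_abs_le_one _).2 h2
  by_cases hcase : 1 < D * s
  · have hem : B = ∅ := by
      ext Y
      simp only [hB, Set.mem_ofPred_eq, Set.mem_empty_iff_false, iff_false, not_le]
      rw [div_lt_iff₀ hD0]
      have := hf1 Y
      nlinarith
    rw [hem, Set.indicator_empty]
    rw [EP_const]
    positivity
  · push Not at hcase
    set w := Real.sqrt (D * s) with hw
    have hw0 : 0 ≤ w := Real.sqrt_nonneg _
    have hw2 : w ^ 2 = D * s := Real.sq_sqrt (by positivity)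
    have hw1 : w ≤ 1 := by
      exact Real.sqrt_le_one.2 hcase
    set lam := w / (2 * C3 d T * Real.sqrt t) with hlam
    have hlam0 : 0 ≤ lam := by positivity
    have hlam1 : |lam| * Real.sqrt t ≤ 1 / (2 * C3 d T) := by
      rw [abs_of_nonneg hlam0, hlam]
      have e : w / (2 * C3 d T * Real.sqrt t) * Real.sqrt t = w / (2 * C3 d T) := by
        field_simp
      rw [e]
      exact div_le_div_of_nonneg_right hw1 (by positivity)
    have hlam2 : |(-lam)| * Real.sqrt t ≤ 1 / (2 * C3 d T) := by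
      rw [abs_neg]
      exact hlam1
    have h1 := constB_mgf hT' hd hreg hβ hT ht0 ht hxy m hlam1
    have h2 := constB_mgf hT' hd hreg hβ hT ht0 ht hxy m hlam2
    have e2 : lam * w = 2 * s := by
      rw [hlam]
      have : w / (2 * C3 d T * Real.sqrt t) * w = w ^ 2 / (2 * C3 d T * Real.sqrt t) := by ring
      rw [this, hw2, hD]
      field_simp
      ring
    have e3 : lam ^ 2 * C3 d T * Real.sqrt t = s := by
      rw [hlam, div_pow, hw2, hD]
      field_simp
      ring
    set f : (V → ℝ) → ℝ := fun Y => mean G β (brn G x y m) Y x with hf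
    have hfm : Measurable f := measurable_mean _ x
    have hf1' : ∀ Y, |f Y| ≤ 1 := fun Y => abs_mean_le G β _ Y x
    set c := Real.exp (-(lam * w)) with hc
    have hc0 : 0 < c := Real.exp_pos _
    set P₁ : (V → ℝ) → ℝ := fun Y => Real.exp (lam * f Y) with hP₁
    set P₂ : (V → ℝ) → ℝ := fun Y => Real.exp (-lam * f Y) with hP₂
    have hP₁m : Measurable P₁ := Real.measurable_exp.comp (hfm.const_mul lam)
    have hP₂m : Measurable P₂ := Real.measurable_exp.comp (hfm.const_mul (-lam))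
    have hbd₁ : ∀ Y, P₁ Y ≤ Real.exp lam := by
      intro Y
      apply Real.exp_le_exp.2
      have := abs_le.1 (hf1' Y)
      nlinarith
    have hbd₂ : ∀ Y, P₂ Y ≤ Real.exp lam := by
      intro Y
      apply Real.exp_le_exp.2
      have := abs_le.1 (hf1' Y)
      nlinarith
    have hP₁0 : ∀ Y, 0 < P₁ Y := fun Y => Real.exp_pos _
    have hP₂0 : ∀ Y, 0 < P₂ Y := fun Y => Real.exp_pos _
    have hle : ∀ Y, Set.indicator B (1 : (V → ℝ) → ℝ) Y ≤ c * P₁ Y + c * P₂ Y := by
      intro Y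
      by_cases hY : Y ∈ B
      · rw [Set.indicator_of_mem hY, Pi.one_apply]
        have hY' : (s : ℝ) ≤ xiF G β x y m Y ^ 2 / D := hY
        rw [le_div_iff₀ hD0] at hY'
        have hw3 : w ^ 2 ≤ f Y ^ 2 := by
          rw [hw2]
          have e4 : (s : ℝ) * D = D * s := by ring
          rw [← e4]
          exact hY'
        have hw4 : w ≤ |f Y| := by
          have h3 := sq_le_sq.1 hw3
          rwa [abs_of_nonneg hw0] at h3
        have hc1 := mul_pos hc0 (hP₁0 Y)
        have hc2 := mul_pos hc0 (hP₂0 Y)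
        rcases le_total 0 (f Y) with h0 | h0
        · rw [abs_of_nonneg h0] at hw4
          have h3 : 1 ≤ c * P₁ Y := by
            rw [hc, hP₁, ← Real.exp_add]
            apply Real.one_le_exp
            nlinarith
          linarith
        · rw [abs_of_nonpos h0] at hw4
          have h3 : 1 ≤ c * P₂ Y := by
            rw [hc, hP₂, ← Real.exp_add]
            apply Real.one_le_exp
            nlinarith
          linarith
      · rw [Set.indicator_of_notMem hY]
        have : 0 < c * P₁ Y + c * P₂ Y := by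
          have := mul_pos hc0 (hP₁0 Y)
          have := mul_pos hc0 (hP₂0 Y)
          linarith
        exact this.le
    have hBm : MeasurableSet B :=
      measurableSet_le measurable_const
        ((measurable_xiF (G := G) (β := β) x y m).pow_const 2 |>.div_const D)
    have hindm : Measurable (Set.indicator B (1 : (V → ℝ) → ℝ)) :=
      measurable_one.indicator hBm
    set M := 1 + c * Real.exp lam + c * Real.exp lam with hM
    have hexp0 : 0 < c * Real.exp lam := mul_pos hc0 (Real.exp_pos _)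
    have hcP₁ : ∀ Y, |c * P₁ Y| ≤ M := by
      intro Y
      rw [abs_of_pos (mul_pos hc0 (hP₁0 Y))]
      have := mul_le_mul_of_nonneg_left (hbd₁ Y) hc0.le
      rw [hM]
      linarith
    have hcP₂ : ∀ Y, |c * P₂ Y| ≤ M := by
      intro Y
      rw [abs_of_pos (mul_pos hc0 (hP₂0 Y))]
      have := mul_le_mul_of_nonneg_left (hbd₂ Y) hc0.le
      rw [hM]
      linarith
    have h3 : EP G β (brn G x y m) t 0 (Set.indicator B 1) ≤
        EP G β (brn G x y m) t 0 (fun Y => c * P₁ Y + c * P₂ Y) := by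
      refine EP_mono (C := M) hindm ((hP₁m.const_mul c).add (hP₂m.const_mul c)) ?_ ?_ hle
      · intro Y
        have h4 : |Set.indicator B (1 : (V → ℝ) → ℝ) Y| ≤ 1 := by
          by_cases hY : Y ∈ B
          · simp [Set.indicator_of_mem hY]
          · simp [Set.indicator_of_notMem hY]
        rw [hM]
        linarith
      · intro Y
        have hp1 := mul_pos hc0 (hP₁0 Y)
        have hp2 := mul_pos hc0 (hP₂0 Y)
        rw [abs_of_pos (add_pos hp1 hp2)]
        have h4 := mul_le_mul_of_nonneg_left (hbd₁ Y) hc0.le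
        have h5 := mul_le_mul_of_nonneg_left (hbd₂ Y) hc0.le
        rw [hM]
        linarith
    refine h3.trans ?_
    rw [EP_add (C := M) (hP₁m.const_mul c) (hP₂m.const_mul c) hcP₁ hcP₂, EP_const_mul,
      EP_const_mul]
    have h1' : EP G β (brn G x y m) t 0 P₁ ≤ 2 * Real.exp (s : ℝ) := by
      rw [← e3]
      exact h1
    have h2' : EP G β (brn G x y m) t 0 P₂ ≤ 2 * Real.exp (s : ℝ) := by
      rw [← e3]
      have e5 : lam ^ 2 = (-lam) ^ 2 := by ring
      rw [e5]
      exact h2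
    have h6 := mul_le_mul_of_nonneg_left h1' hc0.le
    have h7 := mul_le_mul_of_nonneg_left h2' hc0.le
    have e6 : c * (2 * Real.exp (s : ℝ)) = 2 * Real.exp (-(s : ℝ)) := by
      rw [hc, e2]
      have : Real.exp (-(2 * (s : ℝ))) * (2 * Real.exp (s : ℝ)) =
          2 * (Real.exp (-(2 * (s : ℝ))) * Real.exp (s : ℝ)) := by ring
      rw [this, ← Real.exp_add]
      congr 2
      ring
    rw [e6] at h6 h7
    linarith

/-- The planted law as a measure. -/
def constBP (G : SimpleGraph V) (β : ℝ) (S : Finset V) (t : ℝ) : Measure (V → ℝ) :=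
  ∑ A ∈ S.powerset, ENNReal.ofReal (mu G β S 0 A) •
    (gam V).map (fun g => (0 : V → ℝ) + t • stepVec S A + Real.sqrt t • g)

theorem constBP_lintegral {S : Finset V} {F : (V → ℝ) → ℝ≥0∞} (hF : Measurable F) :
    ∫⁻ y, F y ∂constBP G β S t = planted G β S t 0 F := by
  unfold constBP planted
  rw [lintegral_finsetSum_measure]
  refine Finset.sum_congr rfl fun A _ => ?_
  have hm : Measurable (fun g : V → ℝ => (0 : V → ℝ) + t • stepVec S A + Real.sqrt t • g) := by
    refine measurable_pi_iff.2 fun v => ?_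
    simp only [Pi.add_apply, Pi.smul_apply, smul_eq_mul, Pi.zero_apply]
    exact measurable_const.add ((measurable_pi_apply v).const_mul _)
  rw [lintegral_smul_measure, lintegral_map hF hm]
  rfl

theorem constBP_prob {S : Finset V} : IsProbabilityMeasure (constBP G β S t) := by
  refine ⟨?_⟩
  have h1 := constBP_lintegral (G := G) (β := β) (S := S) (t := t)
    (F := fun _ => ENNReal.ofReal 1) measurable_const
  rw [planted_ofReal (F := fun _ => (1 : ℝ)) (C := 1) measurable_const (fun _ => zero_le_one)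
    (fun _ => le_rfl), EP_const] at h1
  simpa using h1

/-- The sub-Gaussian bound for the cavity mean, at all depths. Combines `sum_cov_sq_le`,
`shell_good_final` (with `z = exp(1/√u)`), `mgf_gronwall`, Chernoff, and `exp_moment_of_tail`. -/
theorem exp_xi_bound (hT' : G.IsTree) (hd : 3 ≤ d) (hreg : G.IsRegularOfDegree d)
    (hβ : Adm d β) (hT : 1 ≤ T) (ht0 : 0 < t) (ht : t ≤ T) (hxy : G.Adj x y) (m : ℕ) :
    EP G β (brn G x y m) t 0
        (fun Y => Real.exp (kap0 d T / Real.sqrt t * xiF G β x y m Y ^ 2)) ≤ Ce d T := by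
  have hC3 := constB_C3_ge hd hT
  have hs : 0 < Real.sqrt t := Real.sqrt_pos.2 ht0
  have hC0 : 0 < C3 d T := by linarith
  set D := 4 * C3 d T * Real.sqrt t with hD
  have hD0 : 0 < D := by positivity
  set S := brn G x y m with hS
  have : IsProbabilityMeasure (constBP G β S t) := constBP_prob
  set X : (V → ℝ) → ℝ := fun Y => xiF G β x y m Y ^ 2 / D with hX
  have hxm : Measurable (fun Y => xiF G β x y m Y) := measurable_xiF x y m
  have hXm : Measurable X := (hxm.pow_const 2).div_const D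
  have hX0 : ∀ ω, 0 ≤ X ω := fun ω => by
    simp only [hX]
    positivity
  have hX1 : ∀ ω, X ω ≤ 1 / D := by
    intro ω
    have h1 : |xiF G β x y m ω| ≤ 1 := abs_mean_le G β _ ω x
    have h2 := (sq_le_one_iff_abs_le_one _).2 h1
    exact div_le_div_of_nonneg_right h2 hD0.le
  have htail : ∀ s : ℕ, constBP G β S t {ω | (s : ℝ) ≤ X ω} ≤
      ENNReal.ofReal (4 * Real.exp (-(s : ℝ))) := by
    intro s
    have hset : MeasurableSet {ω | (s : ℝ) ≤ X ω} := measurableSet_le measurable_const hXm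
    have hind : Measurable (Set.indicator {ω | (s : ℝ) ≤ X ω} (1 : (V → ℝ) → ℝ)) :=
      measurable_one.indicator hset
    have e1 : constBP G β S t {ω | (s : ℝ) ≤ X ω} =
        ∫⁻ y, ENNReal.ofReal (Set.indicator {ω | (s : ℝ) ≤ X ω} (1 : (V → ℝ) → ℝ) y)
          ∂constBP G β S t := by
      rw [← lintegral_indicator_one hset]
      refine lintegral_congr fun y => ?_
      by_cases hy : y ∈ {ω | (s : ℝ) ≤ X ω}
      · simp [Set.indicator_of_mem hy]
      · simp [Set.indicator_of_notMem hy]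
    rw [e1, constBP_lintegral hind.ennreal_ofReal, planted_ofReal (C := 1) hind ?_ ?_]
    · exact ENNReal.ofReal_le_ofReal (constB_tail hT' hd hreg hβ hT ht0 ht hxy m s)
    · intro y
      exact Set.indicator_nonneg (fun _ _ => zero_le_one) y
    · intro y
      exact Set.indicator_le_self' (fun _ _ => zero_le_one) y
  have h := exp_moment_of_tail (P := constBP G β S t) hXm hX0 (A := 4) (by norm_num) htail
  have hEXm : Measurable (fun Y => Real.exp (X Y / 2)) :=
    Real.measurable_exp.comp (hXm.div_const 2)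
  rw [constBP_lintegral hEXm.ennreal_ofReal, planted_ofReal (C := Real.exp (1 / D / 2)) hEXm
    (fun _ => (Real.exp_pos _).le) (fun Y => Real.exp_le_exp.2 (by linarith [hX1 Y]))] at h
  have h2 := (ENNReal.ofReal_le_ofReal_iff (by norm_num)).1 h
  have e : (fun Y => Real.exp (X Y / 2)) =
      fun Y => Real.exp (kap0 d T / Real.sqrt t * xiF G β x y m Y ^ 2) := by
    funext Y
    congr 1
    simp only [hX, hD, kap0]
    field_simp
    ring
  rw [e] at h2
  refine h2.trans ?_
  have hT0 : 0 ≤ T := by linarith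
  have h3 : (1 : ℝ) ≤ Real.exp (Real.exp 1) := Real.one_le_exp (Real.exp_pos _).le
  have h4 : (1 : ℝ) ≤ (1 + T) ^ 3 := one_le_pow₀ (by linarith)
  have h5 : (1 : ℝ) ≤ (1 + C3 d T) ^ 3 := one_le_pow₀ (by linarith)
  have h6 : (1 : ℝ) ≤ Real.exp (Real.exp 1) * (1 + T) ^ 3 * (1 + C3 d T) ^ 3 := by
    have h7 : (1 : ℝ) ≤ Real.exp (Real.exp 1) * (1 + T) ^ 3 := one_le_mul_of_one_le_of_one_le h3 h4
    exact one_le_mul_of_one_le_of_one_le h7 h5
  unfold Ce
  nlinarith

end main

end Vale.Agent.Lib.P161E
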