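import Vale.Agent.Lib.P161E.CorrLim

/-! Factor of IID fields on directed edges of a regular tree: finite range approximation by
conditional expectations and the correlation decay theorem. -/

open MeasureTheory Finset Filter Topology ProbabilityTheory
open scoped Classical ENNReal NNReal

noncomputable section

namespace Vale.Agent.Lib.P161E.Corr

open Vale.Agent.Lib.P161

section Levy

variable {Ω : Type*} {mΩ : MeasurableSpace Ω} {μ : Measure Ω} [IsProbabilityMeasure μ]

theorem integral_sq_eq_eLpNorm {f : Ω → ℝ} (hf : MemLp f 2 μ) :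
    ∫ ω, f ω ^ 2 ∂μ = (eLpNorm f 2 μ).toReal ^ 2 := by
  rw [hf.eLpNorm_eq_integral_rpow_norm (by norm_num) (by norm_num)]
  have h0 : 0 ≤ ∫ ω, f ω ^ 2 ∂μ := integral_nonneg fun ω => sq_nonneg _
  have e : ∀ ω, ‖f ω‖ ^ (2 : ℝ≥0∞).toReal = f ω ^ 2 := by
    intro ω
    simp
  simp_rw [e]
  rw [ENNReal.toReal_ofReal (by positivity)]
  simp only [ENNReal.toReal_ofNat]
  rw [← Real.rpow_natCast, ← Real.rpow_mul h0]
  norm_num

theorem integral_sq_condExp_le {m : MeasurableSpace Ω} {f : Ω → ℝ} (hf : MemLp f 2 μ) :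
    ∫ ω, (μ[f | m]) ω ^ 2 ∂μ ≤ ∫ ω, f ω ^ 2 ∂μ := by
  have h1 : MemLp (μ[f | m]) 2 μ := hf.condExp (by norm_num)
  rw [integral_sq_eq_eLpNorm h1, integral_sq_eq_eLpNorm hf]
  have h2 : eLpNorm (μ[f | m]) 2 μ ≤ eLpNorm f 2 μ := eLpNorm_condExp_le_eLpNorm f (by norm_num)
  exact pow_le_pow_left₀ ENNReal.toReal_nonneg
    (ENNReal.toReal_mono hf.eLpNorm_ne_top h2) 2

/-- The `L²` form of Lévy's upward theorem, for bounded functions. -/
theorem conv_condExp_bdd (ℱ : Filtration ℕ mΩ) (hℱ : ⨆ n, ℱ n = mΩ) {s : Ω → ℝ}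
    (hs : StronglyMeasurable s) {C : ℝ} (hC : ∀ ω, |s ω| ≤ C) :
    Conv μ (fun n => μ[s | ℱ n]) s := by
  have hint : Integrable s μ :=
    Integrable.of_bound hs.aestronglyMeasurable C (Eventually.of_forall fun ω => by
      simpa using hC ω)
  have hsm : StronglyMeasurable[⨆ n, ℱ n] s := by rw [hℱ]; exact hs
  have hL1 := hint.tendsto_eLpNorm_condExp hsm (ℱ := ℱ)
  have hL1' : Tendsto (fun n => (eLpNorm (μ[s | ℱ n] - s) 1 μ).toReal) atTop (𝓝 0) := by
    have := (ENNReal.tendsto_toReal ENNReal.zero_ne_top).comp hL1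
    rw [ENNReal.toReal_zero] at this
    exact this
  have hb : Tendsto (fun n => (2 * (C : ℝ)) * (eLpNorm (μ[s | ℱ n] - s) 1 μ).toReal) atTop
      (𝓝 ((2 * (C : ℝ)) * 0)) := hL1'.const_mul _
  rw [mul_zero] at hb
  refine squeeze_zero (fun n => integral_nonneg fun ω => sq_nonneg _) (fun n => ?_) hb
  have hcb : ∀ᵐ ω ∂μ, |(μ[s | ℱ n]) ω| ≤ C :=
    ae_bdd_abs_condExp_of_ae_bdd_abs (Eventually.of_forall hC)
  have hce : Integrable (μ[s | ℱ n]) μ := integrable_condExp
  have hdiff : Integrable (μ[s | ℱ n] - s) μ := hce.sub hint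
  have e1 : (eLpNorm (μ[s | ℱ n] - s) 1 μ).toReal = ∫ ω, |(μ[s | ℱ n] - s) ω| ∂μ := by
    rw [eLpNorm_one_eq_lintegral_enorm, ← integral_norm_eq_lintegral_enorm
      hdiff.aestronglyMeasurable]
    simp only [Real.norm_eq_abs]
  rw [e1, ← integral_const_mul]
  refine integral_mono_of_nonneg (Eventually.of_forall fun ω => sq_nonneg _)
    (hdiff.abs.const_mul _) ?_
  filter_upwards [hcb] with ω hω
  have h1 : |(μ[s | ℱ n]) ω - s ω| ≤ 2 * C := by
    have := abs_sub ((μ[s | ℱ n]) ω) (s ω)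
    have h2 := hC ω
    linarith
  have h2 : ((μ[s | ℱ n]) ω - s ω) ^ 2 = |(μ[s | ℱ n]) ω - s ω| * |(μ[s | ℱ n]) ω - s ω| := by
    rw [← sq, sq_abs]
  simp only [Pi.sub_apply]
  rw [h2]
  exact mul_le_mul_of_nonneg_right h1 (abs_nonneg _)

/-- The `L²` form of Lévy's upward theorem. -/
theorem conv_condExp (ℱ : Filtration ℕ mΩ) (hℱ : ⨆ n, ℱ n = mΩ) {g : Ω → ℝ} (hg : MemLp g 2 μ) :
    Conv μ (fun n => μ[g | ℱ n]) g := by
  unfold Conv
  rw [Metric.tendsto_atTop]
  intro ε hε
  -- choose a simple function close to `g`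
  have hη : 0 < Real.sqrt (ε / 12) := Real.sqrt_pos.2 (by positivity)
  obtain ⟨s₀, hs1, hs2⟩ := hg.exists_simpleFunc_eLpNorm_sub_lt (p := 2) (by norm_num)
    (ε := ENNReal.ofReal (Real.sqrt (ε / 12))) (by simpa using hη)
  obtain ⟨C, hC⟩ := s₀.exists_forall_norm_le
  have hsm := s₀.stronglyMeasurable
  generalize (s₀ : Ω → ℝ) = s at hs1 hs2 hC hsm
  have hgs : MemLp (g - s) 2 μ := hg.sub hs2
  have hgsI : ∫ ω, (g - s) ω ^ 2 ∂μ ≤ ε / 12 := by
    rw [integral_sq_eq_eLpNorm hgs]
    have h1 : (eLpNorm (g - s) 2 μ).toReal ≤ Real.sqrt (ε / 12) := by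
      have := ENNReal.toReal_mono ENNReal.ofReal_ne_top hs1.le
      rwa [ENNReal.toReal_ofReal hη.le] at this
    have h2 := pow_le_pow_left₀ ENNReal.toReal_nonneg h1 2
    rwa [Real.sq_sqrt (by positivity)] at h2
  have hC' : ∀ ω, |s ω| ≤ C := by
    intro ω
    have h1 := hC ω
    rwa [Real.norm_eq_abs] at h1
  have hconv := conv_condExp_bdd (μ := μ) ℱ hℱ hsm hC'
  have hconv2 := (Metric.tendsto_atTop.1 hconv) (ε / 12) (by positivity)
  obtain ⟨N, hN⟩ := hconv2
  refine ⟨N, fun n hn => ?_⟩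
  have hNn := hN n hn
  rw [Real.dist_eq, sub_zero, abs_lt] at hNn
  set A := ∫ ω, ((μ[s | ℱ n]) ω - s ω) ^ 2 ∂μ with hA
  have hce : MemLp (μ[s | ℱ n]) 2 μ := hs2.condExp (by norm_num)
  have hce2 : MemLp (μ[g - s | ℱ n]) 2 μ := hgs.condExp (by norm_num)
  have hdecomp : μ[g | ℱ n] =ᵐ[μ] μ[g - s | ℱ n] + μ[s | ℱ n] := by
    have h1 := condExp_sub (hg.integrable (by norm_num)) (hs2.integrable (by norm_num)) (ℱ n)
    filter_upwards [h1] with ω hω
    simp only [Pi.add_apply]
    rw [hω]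
    simp only [Pi.sub_apply]
    ring
  have hpoint : ∀ᵐ ω ∂μ, ((μ[g | ℱ n]) ω - g ω) ^ 2 ≤
      3 * (μ[g - s | ℱ n]) ω ^ 2 + 3 * ((μ[s | ℱ n]) ω - s ω) ^ 2 + 3 * (g - s) ω ^ 2 := by
    filter_upwards [hdecomp] with ω hω
    rw [hω]
    simp only [Pi.add_apply, Pi.sub_apply]
    nlinarith [sq_nonneg ((μ[g - s | ℱ n]) ω - ((μ[s | ℱ n]) ω - s ω)),
      sq_nonneg ((μ[g - s | ℱ n]) ω + (g ω - s ω)),
      sq_nonneg (((μ[s | ℱ n]) ω - s ω) + (g ω - s ω))]
  have i1 : Integrable (fun ω => (μ[g - s | ℱ n]) ω ^ 2) μ := hce2.integrable_sq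
  have i2 : Integrable (fun ω => ((μ[s | ℱ n]) ω - s ω) ^ 2) μ := (hce.sub hs2).integrable_sq
  have i3 : Integrable (fun ω => (g - s) ω ^ 2) μ := hgs.integrable_sq
  have hbound : ∫ ω, ((μ[g | ℱ n]) ω - g ω) ^ 2 ∂μ ≤
      3 * ∫ ω, (μ[g - s | ℱ n]) ω ^ 2 ∂μ + 3 * A + 3 * ∫ ω, (g - s) ω ^ 2 ∂μ := by
    have i123 : Integrable (fun ω => 3 * (μ[g - s | ℱ n]) ω ^ 2 +
        3 * ((μ[s | ℱ n]) ω - s ω) ^ 2 + 3 * (g - s) ω ^ 2) μ :=
      ((i1.const_mul 3).add (i2.const_mul 3)).add (i3.const_mul 3)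
    have e := integral_mono_of_nonneg (Eventually.of_forall fun ω => sq_nonneg _) i123 hpoint
    refine e.trans (le_of_eq ?_)
    have e1 := integral_add ((i1.const_mul 3).add (i2.const_mul 3)) (i3.const_mul 3)
    have e2 := integral_add (i1.const_mul 3) (i2.const_mul 3)
    simp only [Pi.add_apply] at e1 e2
    rw [e1, e2, integral_const_mul, integral_const_mul, integral_const_mul]
  have h5 : ∫ ω, (μ[g - s | ℱ n]) ω ^ 2 ∂μ ≤ ∫ ω, (g - s) ω ^ 2 ∂μ := integral_sq_condExp_le hgs
  have h0 : 0 ≤ ∫ ω, ((μ[g | ℱ n]) ω - g ω) ^ 2 ∂μ := integral_nonneg fun ω => sq_nonneg _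
  rw [Real.dist_eq, sub_zero, abs_of_nonneg h0]
  have hA' := hNn.2
  linarith

end Levy

/-- Conditional expectations and measure preserving maps. -/
theorem condExp_comp_mp {Ω : Type*} {m m' mΩ : MeasurableSpace Ω} {μ : Measure Ω}
    [IsProbabilityMeasure μ] {T : Ω → Ω} (hT : MeasurePreserving T μ μ)
    (hm : m ≤ mΩ) (hm' : m' ≤ mΩ) (hc : MeasurableSpace.comap T m' = m) {g : Ω → ℝ}
    (hg : Integrable g μ) :
    (fun ω => (μ[g | m']) (T ω)) =ᵐ[μ] μ[fun ω => g (T ω) | m] := by
  have hgT : Integrable (fun ω => g (T ω)) μ := by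
    have := (hT.integrable_comp hg.aestronglyMeasurable).2 hg
    exact this
  have hcI : Integrable (fun ω => (μ[g | m']) (T ω)) μ :=
    (hT.integrable_comp (integrable_condExp.aestronglyMeasurable)).2 integrable_condExp
  refine ae_eq_condExp_of_forall_setIntegral_eq hm hgT (fun s _ _ => hcI.integrableOn) ?_ ?_
  · intro s hs _
    rw [← hc] at hs
    obtain ⟨s', hs', rfl⟩ := hs
    have hs'm : MeasurableSet s' := hm' _ hs'
    have e1 := setIntegral_map (μ := μ) (f := μ[g | m']) hs'm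
      (by rw [hT.map_eq]; exact integrable_condExp.aestronglyMeasurable) hT.aemeasurable
    have e2 := setIntegral_map (μ := μ) (f := g) hs'm
      (by rw [hT.map_eq]; exact hg.aestronglyMeasurable) hT.aemeasurable
    rw [hT.map_eq] at e1 e2
    rw [← e1, ← e2]
    exact setIntegral_condExp hm' hg hs'
  · have hmeas : Measurable[m, m'] T := by
      rw [measurable_iff_comap_le, hc]
    have h1 : StronglyMeasurable[m'] (μ[g | m']) := stronglyMeasurable_condExp
    exact (h1.comp_measurable hmeas).aestronglyMeasurable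

section Iid

variable {V : Type*} {G : SimpleGraph V} [G.LocallyFinite]
variable {X : Type*} [mX : MeasurableSpace X] (m : Measure X) [IsProbabilityMeasure m]

/-- The iid measure. -/
abbrev muX (V : Type*) {X : Type*} [MeasurableSpace X] (m : Measure X) [IsProbabilityMeasure m] :
    Measure (V → X) := Measure.infinitePi (fun _ : V => m)

/-- The action of automorphisms on configurations. -/
def actT (φ : G ≃g G) (ω : V → X) : V → X := fun v => ω (φ.symm v)

theorem actT_measurable (φ : G ≃g G) : Measurable (actT (X := X) φ) :=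
  measurable_pi_lambda _ fun _ => measurable_pi_apply _

theorem actT_mp (φ : G ≃g G) : MeasurePreserving (actT (X := X) φ) (muX V m) (muX V m) := by
  refine ⟨actT_measurable φ, ?_⟩
  exact Measure.map_infinitePi_infinitePi_of_inj (P := fun _ : V => m) (f := φ.symm)
    φ.symm.injective

/-- The sigma algebra generated by the coordinates in a set. -/
def mF (S : Set V) : MeasurableSpace (V → X) :=
  ⨆ w ∈ S, MeasurableSpace.comap (fun ω : V → X => ω w) mX

theorem mF_le (S : Set V) : mF (X := X) S ≤ MeasurableSpace.pi := by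
  refine iSup₂_le fun w _ => ?_
  rw [← measurable_iff_comap_le]
  exact measurable_pi_apply w

theorem mF_mono {S S' : Set V} (h : S ⊆ S') : mF (X := X) S ≤ mF (X := X) S' := by
  refine iSup₂_le fun w hw => ?_
  exact le_iSup₂_of_le w (h hw) le_rfl

theorem comap_le_mF {S : Set V} {w : V} (h : w ∈ S) :
    MeasurableSpace.comap (fun ω : V → X => ω w) mX ≤ mF (X := X) S := by
  unfold mF
  exact le_iSup₂_of_le w h le_rfl

/-- Ball as a set. -/
def ballS (G : SimpleGraph V) (u : V) (R : ℕ) : Set V := {w | G.dist u w ≤ R}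

/-- The filtration of balls around a vertex. -/
def filt (G : SimpleGraph V) (u : V) : Filtration ℕ (MeasurableSpace.pi : MeasurableSpace (V → X)) where
  seq R := mF (ballS G u R)
  mono' := fun _ _ h => mF_mono fun _ hw => le_trans hw h
  le' := fun _ => mF_le _

theorem iSup_filt (hT : G.IsTree) (u : V) :
    ⨆ R, (filt (X := X) G u) R = (MeasurableSpace.pi : MeasurableSpace (V → X)) := by
  apply le_antisymm
  · exact iSup_le fun R => (filt (X := X) G u).le R
  · refine iSup_le fun w => ?_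
    have h : MeasurableSpace.comap (fun ω : V → X => ω w) mX ≤
        mF (X := X) (ballS G u (G.dist u w)) := comap_le_mF (by simp [ballS])
    exact h.trans (le_iSup (fun R => (filt (X := X) G u) R) (G.dist u w))

omit [G.LocallyFinite] in
theorem dist_aut_le (hT : G.IsTree) (φ : G ≃g G) (u v : V) : G.dist (φ u) (φ v) ≤ G.dist u v := by
  obtain ⟨p, hp⟩ := hT.1.exists_walk_length_eq_dist u v
  have := SimpleGraph.dist_le (p.map φ.toHom)
  rw [SimpleGraph.Walk.length_map, hp] at this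
  exact this

omit [G.LocallyFinite] in
theorem dist_aut (hT : G.IsTree) (φ : G ≃g G) (u v : V) : G.dist (φ u) (φ v) = G.dist u v := by
  apply le_antisymm (dist_aut_le hT φ u v)
  have := dist_aut_le hT φ.symm (φ u) (φ v)
  simpa using this

theorem comap_filt (hT : G.IsTree) (φ : G ≃g G) (u : V) (R : ℕ) :
    MeasurableSpace.comap (actT (X := X) φ) (mF (ballS G (φ u) R)) = mF (ballS G u R) := by
  unfold mF
  simp_rw [MeasurableSpace.comap_iSup, MeasurableSpace.comap_comp]
  apply le_antisymm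
  · refine iSup₂_le fun w hw => ?_
    have hw' : φ.symm w ∈ ballS G u R := by
      have : G.dist (φ u) w ≤ R := hw
      have h2 := dist_aut hT φ.symm (φ u) w
      simp only [RelIso.symm_apply_apply] at h2
      show G.dist u (φ.symm w) ≤ R
      omega
    exact le_iSup₂_of_le (f := fun w (_ : w ∈ ballS G u R) =>
        MeasurableSpace.comap (fun ω : V → X => ω w) mX) (φ.symm w) hw' le_rfl
  · refine iSup₂_le fun w hw => ?_
    have hw' : φ w ∈ ballS G (φ u) R := by
      show G.dist (φ u) (φ w) ≤ R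
      rw [dist_aut hT]
      exact hw
    refine le_iSup₂_of_le (f := fun w (_ : w ∈ ballS G (φ u) R) =>
        MeasurableSpace.comap ((fun ω : V → X => ω w) ∘ actT (X := X) φ) mX) (φ w) hw' ?_
    have : ((fun ω : V → X => ω (φ w)) ∘ actT (X := X) φ) = fun ω => ω w := by
      funext ω
      simp [actT]
    rw [this]

/-- Independence of the coordinates on disjoint sets. -/
theorem indep_mF {S S' : Set V} (h : Disjoint S S') :
    Indep (mF (X := X) S) (mF (X := X) S') (muX V m) := by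
  have h1 : iIndepFun (fun (w : V) (ω : V → X) => ω w) (muX V m) :=
    iIndepFun_infinitePi (P := fun _ : V => m) (X := fun _ x => x) (fun _ => measurable_id)
  have h2 := (iIndepFun_iff_iIndep _ _ _).1 h1
  exact indep_iSup_of_disjoint
    (fun w => by rw [← measurable_iff_comap_le]; exact measurable_pi_apply w) h2 h

theorem integral_mul_of_indep {S S' : Set V} (h : Disjoint S S') {f g : (V → X) → ℝ}
    (hf : StronglyMeasurable[mF S] f) (hg : StronglyMeasurable[mF S'] g) :
    ∫ ω, f ω * g ω ∂(muX V m) = (∫ ω, f ω ∂(muX V m)) * ∫ ω, g ω ∂(muX V m) := by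
  have hind : IndepFun f g (muX V m) := by
    rw [IndepFun_iff_Indep]
    refine indep_of_indep_of_le_left (indep_of_indep_of_le_right (indep_mF m h) ?_) ?_
    · rw [← measurable_iff_comap_le]
      exact hg.measurable
    · rw [← measurable_iff_comap_le]
      exact hf.measurable
  have hfm : StronglyMeasurable f := hf.mono (mF_le _)
  have hgm : StronglyMeasurable g := hg.mono (mF_le _)
  exact hind.integral_mul_eq_mul_integral hfm.aestronglyMeasurable hgm.aestronglyMeasurable

/-- Finite range approximation. -/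
def fR (m : Measure X) [IsProbabilityMeasure m] (a : V → V → (V → X) → ℝ) (R : ℕ) :
    V → V → (V → X) → ℝ :=
  fun u v => (muX V m)[a u v | mF (ballS G u R)]

variable {m}

theorem fR_isField (hT : G.IsTree) {a : V → V → (V → X) → ℝ}
    (ha : IsField G (muX V m) actT a) (R : ℕ) :
    IsField G (muX V m) actT (fR (G := G) m a R) := by
  refine ⟨fun u v => (ha.memLp u v).condExp (by norm_num), fun φ u v => ?_⟩
  have h1 := condExp_comp_mp (actT_mp m φ) (mF_le (ballS G u R)) (mF_le (ballS G (φ u) R))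
    (comap_filt hT φ u R) ((ha.memLp (φ u) (φ v)).integrable (by norm_num))
  refine h1.trans ?_
  exact condExp_congr_ae (ha.equi φ u v)

theorem fR_conv (hT : G.IsTree) {a : V → V → (V → X) → ℝ}
    (ha : IsField G (muX V m) actT a) (u v : V) :
    Conv (muX V m) (fun R => fR (G := G) m a R u v) (a u v) := by
  exact conv_condExp (filt G u) (iSup_filt hT u) (ha.memLp u v)

/-- Main norm bound, for centred fields. -/
theorem iterU_sq_le_centred (hT : G.IsTree) {d : ℕ} (hreg : G.IsRegularOfDegree d) (hd : 2 ≤ d)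
    {a : V → V → (V → X) → ℝ} (ha : IsField G (muX V m) actT a)
    (hc : ∀ u v, ∫ ω, a u v ω ∂(muX V m) = 0) {x₀ y₀ : V} (hxy : G.Adj x₀ y₀) (k : ℕ) :
    ip (muX V m) ((opU G)^[k] a x₀ y₀) ((opU G)^[k] a x₀ y₀) ≤
      Lam d k * ip (muX V m) (a x₀ y₀) (a x₀ y₀) := by
  have hd' : (2 : ℝ) ≤ d := by exact_mod_cast hd
  set lam := Real.sqrt ((d : ℝ) - 1) with hlamd
  have hlam2 : lam ^ 2 = (d : ℝ) - 1 := Real.sq_sqrt (by linarith)
  have hlam : 0 < lam := Real.sqrt_pos.2 (by linarith)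
  have hlam1 : 1 ≤ lam := by
    rw [hlamd]
    exact Real.one_le_sqrt.2 (by linarith)
  have hρ : 0 < lam⁻¹ := inv_pos.2 hlam
  have hρ1 : lam⁻¹ ≤ 1 := inv_le_one_of_one_le₀ hlam1
  refine iterU_closure (af := fun R => fR (G := G) m a R) (fun R => fR_isField hT ha R) ha
    (fun u v => fR_conv hT ha u v) (fun R => ?_)
  have hf := fR_isField hT ha R
  have hmean : ∀ u v, ∫ ω, fR (G := G) m a R u v ω ∂(muX V m) = 0 := by
    intro u v
    unfold fR
    rw [integral_condExp (mF_le _)]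
    exact hc u v
  set V₀ := ip (muX V m) (fR (G := G) m a R x₀ y₀) (fR (G := G) m a R x₀ y₀) with hV₀
  have hV₀0 : 0 ≤ V₀ := ip_self_nonneg _
  set C := V₀ / lam⁻¹ ^ (2 * R + 1) with hC
  have hC0 : 0 ≤ C := by positivity
  refine iterU_sq_le_of_kernel hT hreg hd (actT_mp m) hlam hlam2 hf hxy hC0 ?_ k
  intro u v huv
  rw [wt_same]
  by_cases hfar : 2 * R < G.dist x₀ u
  · have hdisj : Disjoint (ballS G x₀ R) (ballS G u R) := by
      rw [Set.disjoint_left]
      intro w hw hw'
      have h1 : G.dist x₀ w ≤ R := hw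
      have h2 : G.dist u w ≤ R := hw'
      have h3 := hT.1.dist_triangle (u := x₀) (v := w) (w := u)
      rw [SimpleGraph.dist_comm (u := w) (v := u)] at h3
      omega
    have hs1 : StronglyMeasurable[mF (ballS G x₀ R)] (fR (G := G) m a R x₀ y₀) :=
      stronglyMeasurable_condExp
    have hs2 : StronglyMeasurable[mF (ballS G u R)] (fR (G := G) m a R u v) :=
      stronglyMeasurable_condExp
    have h0 : ip (muX V m) (fR (G := G) m a R x₀ y₀) (fR (G := G) m a R u v) = 0 := by
      unfold ip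
      rw [integral_mul_of_indep m hdisj hs1 hs2, hmean, zero_mul]
    rw [h0, abs_zero]
    positivity
  · push Not at hfar
    have hdv : G.dist x₀ v ≤ 2 * R + 1 := by
      have := dist_le_succ_of_adj hT (o := x₀) huv
      omega
    have hinv : ip (muX V m) (fR (G := G) m a R u v) (fR (G := G) m a R u v) = V₀ := by
      obtain ⟨φ, hφ⟩ := exists_aut_of_paths (n := 1) hT hreg (x := fun i => if i = 0 then x₀ else y₀)
        (x' := fun i => if i = 0 then u else v)
        ⟨fun i hi => by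
            have : i = 0 := by omega
            subst this
            simpa using hxy,
          fun i hi => by omega⟩
        ⟨fun i hi => by
            have : i = 0 := by omega
            subst this
            simpa using huv,
          fun i hi => by omega⟩
      have e0 : φ x₀ = u := by simpa using hφ 0 (by norm_num)
      have e1 : φ y₀ = v := by simpa using hφ 1 (by norm_num)
      rw [← e0, ← e1, ip_aut (actT_mp m) hf hf]
    have hcs := ip_sq_le (hf.memLp x₀ y₀) (hf.memLp u v)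
    rw [hinv] at hcs
    have habs : |ip (muX V m) (fR (G := G) m a R x₀ y₀) (fR (G := G) m a R u v)| ≤ V₀ := by
      rw [← abs_of_nonneg hV₀0]
      exact sq_le_sq.1 (by simpa [sq] using hcs)
    refine habs.trans ?_
    have hpow : lam⁻¹ ^ (2 * R + 1) ≤ lam⁻¹ ^ G.dist x₀ v :=
      pow_le_pow_of_le_one hρ.le hρ1 hdv
    have hpos : 0 < lam⁻¹ ^ (2 * R + 1) := by positivity
    have e : V₀ = lam⁻¹ ^ (2 * R + 1) * C := by
      rw [hC]
      field_simp
    rw [e]
    exact mul_le_mul_of_nonneg_right hpow hC0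

/-- The centred field. -/
def center (m : Measure X) [IsProbabilityMeasure m] (a : V → V → (V → X) → ℝ) :
    V → V → (V → X) → ℝ :=
  fun u v ω => a u v ω - ∫ ω', a u v ω' ∂(muX V m)

theorem integral_equi {a : V → V → (V → X) → ℝ} (ha : IsField G (muX V m) actT a) (φ : G ≃g G)
    (u v : V) : ∫ ω, a (φ u) (φ v) ω ∂(muX V m) = ∫ ω, a u v ω ∂(muX V m) := by
  rw [← integral_comp_T (actT_mp m) φ (ha.memLp (φ u) (φ v)).aestronglyMeasurable]
  exact integral_congr_ae (ha.equi φ u v)

theorem center_isField {a : V → V → (V → X) → ℝ} (ha : IsField G (muX V m) actT a) :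
    IsField G (muX V m) actT (center m a) := by
  refine ⟨fun u v => (ha.memLp u v).sub (memLp_const _), fun φ u v => ?_⟩
  filter_upwards [ha.equi φ u v] with ω hω
  unfold center
  rw [hω, integral_equi ha]

theorem center_mean {a : V → V → (V → X) → ℝ} (ha : IsField G (muX V m) actT a) (u v : V) :
    ∫ ω, center m a u v ω ∂(muX V m) = 0 := by
  unfold center
  rw [integral_sub ((ha.memLp u v).integrable (by norm_num)) (integrable_const _)]
  simp

theorem ip_center {a b : V → V → (V → X) → ℝ} (ha : IsField G (muX V m) actT a)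
    (hb : IsField G (muX V m) actT b) (u v u' v' : V) :
    ip (muX V m) (center m b u' v') (center m a u v) =
      ip (muX V m) (b u' v') (a u v) -
        (∫ ω, b u' v' ω ∂(muX V m)) * ∫ ω, a u v ω ∂(muX V m) := by
  unfold ip center
  set A := ∫ ω, a u v ω ∂(muX V m) with hA
  set B := ∫ ω, b u' v' ω ∂(muX V m) with hB
  have iA : Integrable (a u v) (muX V m) := (ha.memLp u v).integrable (by norm_num)
  have iB : Integrable (b u' v') (muX V m) := (hb.memLp u' v').integrable (by norm_num)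
  have iAB : Integrable (fun ω => b u' v' ω * a u v ω) (muX V m) :=
    (hb.memLp u' v').integrable_mul (ha.memLp u v)
  have e : ∀ ω, (b u' v' ω - B) * (a u v ω - A) =
      b u' v' ω * a u v ω - (A * b u' v' ω + B * a u v ω) + A * B := fun ω => by ring
  simp_rw [e]
  have i1 : Integrable (fun ω => A * b u' v' ω + B * a u v ω) (muX V m) :=
    (iB.const_mul A).add (iA.const_mul B)
  have e1 := integral_add (iAB.sub i1) (integrable_const (A * B))
  have e2 := integral_sub iAB i1
  have e3 := integral_add (iB.const_mul A) (iA.const_mul B)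
  simp only [Pi.add_apply, Pi.sub_apply] at e1 e2 e3
  rw [e1, e2, e3, integral_const_mul, integral_const_mul, integral_const]
  simp only [probReal_univ, one_smul, smul_eq_mul, one_mul]
  rw [← hA, ← hB]
  ring

theorem ip_center_self_le {a : V → V → (V → X) → ℝ} (ha : IsField G (muX V m) actT a) (u v : V) :
    ip (muX V m) (center m a u v) (center m a u v) ≤ ip (muX V m) (a u v) (a u v) := by
  rw [ip_center ha ha]
  nlinarith [mul_self_nonneg (∫ ω, a u v ω ∂(muX V m))]

/-- Exponential decay of correlations for factor of IID fields on directed edges of a regular tree,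
squared form with the two variances. -/
theorem fiid_corr_sq (hT : G.IsTree) {d : ℕ} (hreg : G.IsRegularOfDegree d) (hd : 2 ≤ d)
    {a b : V → V → (V → X) → ℝ} (ha : IsField G (muX V m) actT a)
    (hb : IsField G (muX V m) actT b) {x : ℕ → V} {k : ℕ} (hx : IsNB G x (k + 1)) :
    ((d : ℝ) - 1) ^ k * (ip (muX V m) (b (x 0) (x 1)) (a (x k) (x (k + 1))) -
        (∫ ω, b (x 0) (x 1) ω ∂(muX V m)) * ∫ ω, a (x k) (x (k + 1)) ω ∂(muX V m)) ^ 2 ≤
      (1 + k) * (1 + k * ((d : ℝ) - 1)) *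
        ip (muX V m) (center m a (x 0) (x 1)) (center m a (x 0) (x 1)) *
        ip (muX V m) (center m b (x 0) (x 1)) (center m b (x 0) (x 1)) := by
  have hd' : (2 : ℝ) ≤ d := by exact_mod_cast hd
  have hpos : 0 < ((d : ℝ) - 1) ^ k := pow_pos (by linarith) k
  have ha' := center_isField ha
  have hb' := center_isField hb
  have hxy : G.Adj (x 0) (x 1) := hx.1 0 (by omega)
  have h1 := iterU_sq_le_centred hT hreg hd ha' (center_mean ha) hxy k
  have h2 := corr_sq_of_iterU hT hreg (actT_mp m) ha' hb' hx h1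
  rw [ip_center ha hb] at h2
  set c := ip (muX V m) (b (x 0) (x 1)) (a (x k) (x (k + 1))) -
        (∫ ω, b (x 0) (x 1) ω ∂(muX V m)) * ∫ ω, a (x k) (x (k + 1)) ω ∂(muX V m) with hc
  set A := ip (muX V m) (center m a (x 0) (x 1)) (center m a (x 0) (x 1)) with hA
  set B := ip (muX V m) (center m b (x 0) (x 1)) (center m b (x 0) (x 1)) with hB
  unfold Lam at h2
  have h3 : ((d : ℝ) - 1) ^ k * (((d : ℝ) - 1) ^ k * c ^ 2) ≤
      ((d : ℝ) - 1) ^ k * ((1 + k) * (1 + k * ((d : ℝ) - 1)) * A * B) := by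
    calc _ = (((d : ℝ) - 1) ^ k * c) ^ 2 := by ring
      _ ≤ _ := h2
      _ = _ := by ring
  exact le_of_mul_le_mul_left h3 hpos

/-- Exponential decay of correlations for factor of IID fields on directed edges of a regular tree:
for a non-backtracking path `x 0, …, x (k + 1)` the covariance of `b (x 0) (x 1)` and
`a (x k) (x (k + 1))` is at most `(k + 1) √(d - 1) (d - 1) ^ (-k / 2) ‖a‖₂ ‖b‖₂`. -/
theorem fiid_corr (hT : G.IsTree) {d : ℕ} (hreg : G.IsRegularOfDegree d) (hd : 2 ≤ d)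
    {a b : V → V → (V → X) → ℝ} (ha : IsField G (muX V m) actT a)
    (hb : IsField G (muX V m) actT b) {x : ℕ → V} {k : ℕ} (hx : IsNB G x (k + 1)) :
    |ip (muX V m) (b (x 0) (x 1)) (a (x k) (x (k + 1))) -
        (∫ ω, b (x 0) (x 1) ω ∂(muX V m)) * ∫ ω, a (x k) (x (k + 1)) ω ∂(muX V m)| ≤
      (k + 1) * Real.sqrt ((d : ℝ) - 1) * (Real.sqrt ((d : ℝ) - 1))⁻¹ ^ k *
        Real.sqrt (ip (muX V m) (a (x 0) (x 1)) (a (x 0) (x 1))) *
        Real.sqrt (ip (muX V m) (b (x 0) (x 1)) (b (x 0) (x 1))) := by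
  have hd' : (2 : ℝ) ≤ d := by exact_mod_cast hd
  have h1 := fiid_corr_sq hT hreg hd ha hb hx
  set c := ip (muX V m) (b (x 0) (x 1)) (a (x k) (x (k + 1))) -
        (∫ ω, b (x 0) (x 1) ω ∂(muX V m)) * ∫ ω, a (x k) (x (k + 1)) ω ∂(muX V m) with hc
  have hVa := ip_center_self_le ha (x 0) (x 1)
  have hVb := ip_center_self_le hb (x 0) (x 1)
  have hVa0 := ip_self_nonneg (μ := muX V m) (center m a (x 0) (x 1))
  have hVb0 := ip_self_nonneg (μ := muX V m) (center m b (x 0) (x 1))
  set A := ip (muX V m) (a (x 0) (x 1)) (a (x 0) (x 1)) with hA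
  set B := ip (muX V m) (b (x 0) (x 1)) (b (x 0) (x 1)) with hB
  have hA0 : 0 ≤ A := ip_self_nonneg _
  have hB0 : 0 ≤ B := ip_self_nonneg _
  set D := (d : ℝ) - 1 with hD
  have hD1 : 1 ≤ D := by rw [hD]; linarith
  set lam := Real.sqrt D with hlam
  have hlam2 : lam ^ 2 = D := Real.sq_sqrt (by linarith)
  have hlam0 : 0 < lam := Real.sqrt_pos.2 (by linarith)
  have hk0 : (0 : ℝ) ≤ k := by positivity
  -- bound with the second moments
  have h2 : D ^ k * c ^ 2 ≤ ((k + 1) * lam) ^ 2 * (A * B) := by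
    refine h1.trans ?_
    have h3 : (1 + (k : ℝ)) * (1 + k * D) ≤ ((k + 1) * lam) ^ 2 := by
      rw [mul_pow, hlam2]
      nlinarith [mul_nonneg hk0 (sub_nonneg.2 hD1), mul_nonneg hk0 hk0]
    have h4 : 0 ≤ (1 + (k : ℝ)) * (1 + k * D) := by positivity
    calc (1 + (k : ℝ)) * (1 + k * D) * ip (muX V m) (center m a (x 0) (x 1))
            (center m a (x 0) (x 1)) * ip (muX V m) (center m b (x 0) (x 1))
            (center m b (x 0) (x 1))
        = (1 + (k : ℝ)) * (1 + k * D) * (ip (muX V m) (center m a (x 0) (x 1))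
            (center m a (x 0) (x 1)) * ip (muX V m) (center m b (x 0) (x 1))
            (center m b (x 0) (x 1))) := by ring
      _ ≤ (1 + (k : ℝ)) * (1 + k * D) * (A * B) := by
          apply mul_le_mul_of_nonneg_left _ h4
          exact mul_le_mul hVa hVb hVb0 hA0
      _ ≤ _ := mul_le_mul_of_nonneg_right h3 (mul_nonneg hA0 hB0)
  have hpk : lam⁻¹ ^ k * lam ^ k = 1 := by
    rw [← mul_pow, inv_mul_cancel₀ hlam0.ne', one_pow]
  have hDk : D ^ k = lam ^ k * lam ^ k := by
    rw [← hlam2, ← pow_mul, mul_comm 2 k, pow_mul, sq]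
  set R := (k + 1) * lam * lam⁻¹ ^ k * Real.sqrt A * Real.sqrt B with hR
  have hR0 : 0 ≤ R := by positivity
  apply abs_le_of_sq_le_sq _ hR0
  have hsqA : Real.sqrt A ^ 2 = A := Real.sq_sqrt hA0
  have hsqB : Real.sqrt B ^ 2 = B := Real.sq_sqrt hB0
  have hRsq : R ^ 2 = (lam⁻¹ ^ k) ^ 2 * (((k + 1) * lam) ^ 2 * (A * B)) := by
    rw [hR, ← hsqA, ← hsqB]
    simp only [Real.sqrt_sq (Real.sqrt_nonneg _)]
    ring
  rw [hRsq]
  have h5 := mul_le_mul_of_nonneg_left h2 (sq_nonneg (lam⁻¹ ^ k))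
  refine le_trans (le_of_eq ?_) h5
  rw [hDk]
  calc c ^ 2 = (lam⁻¹ ^ k * lam ^ k) ^ 2 * c ^ 2 := by rw [hpk]; ring
    _ = _ := by ring

/-- The same statement as `fiid_corr`, with hypotheses on directed edges only. -/
theorem fiid_corr_dart (hT : G.IsTree) {d : ℕ} (hreg : G.IsRegularOfDegree d) (hd : 2 ≤ d)
    {a b : V → V → (V → X) → ℝ}
    (ha : ∀ u v, G.Adj u v → MemLp (a u v) 2 (muX V m))
    (ha' : ∀ (φ : G ≃g G) (u v : V), G.Adj u v →
      (fun ω => a (φ u) (φ v) (actT φ ω)) =ᵐ[muX V m] a u v)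
    (hb : ∀ u v, G.Adj u v → MemLp (b u v) 2 (muX V m))
    (hb' : ∀ (φ : G ≃g G) (u v : V), G.Adj u v →
      (fun ω => b (φ u) (φ v) (actT φ ω)) =ᵐ[muX V m] b u v)
    {x : ℕ → V} {k : ℕ} (hx : IsNB G x (k + 1)) :
    |ip (muX V m) (b (x 0) (x 1)) (a (x k) (x (k + 1))) -
        (∫ ω, b (x 0) (x 1) ω ∂(muX V m)) * ∫ ω, a (x k) (x (k + 1)) ω ∂(muX V m)| ≤
      (k + 1) * Real.sqrt ((d : ℝ) - 1) * (Real.sqrt ((d : ℝ) - 1))⁻¹ ^ k *
        Real.sqrt (ip (muX V m) (a (x 0) (x 1)) (a (x 0) (x 1))) *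
        Real.sqrt (ip (muX V m) (b (x 0) (x 1)) (b (x 0) (x 1))) := by
  have guard : ∀ {c : V → V → (V → X) → ℝ}, (∀ u v, G.Adj u v → MemLp (c u v) 2 (muX V m)) →
      (∀ (φ : G ≃g G) (u v : V), G.Adj u v →
        (fun ω => c (φ u) (φ v) (actT φ ω)) =ᵐ[muX V m] c u v) →
      IsField G (muX V m) actT (fun u v => if G.Adj u v then c u v else 0) := by
    intro c h1 h2
    refine ⟨fun u v => ?_, fun φ u v => ?_⟩
    · by_cases h : G.Adj u v
      · simpa [h] using h1 u v h
      · simpa [h] using (memLp_const (0 : ℝ) : MemLp (fun _ : V → X => (0 : ℝ)) 2 (muX V m))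
    · by_cases h : G.Adj u v
      · have h' : G.Adj (φ u) (φ v) := φ.map_adj_iff.2 h
        simpa [h, h'] using h2 φ u v h
      · have h' : ¬ G.Adj (φ u) (φ v) := fun h3 => h (φ.map_adj_iff.1 h3)
        simp [h, h']
        rfl
  have key := fiid_corr hT hreg hd (guard ha ha') (guard hb hb') hx
  have e0 : G.Adj (x 0) (x 1) := hx.1 0 (by omega)
  have ek : G.Adj (x k) (x (k + 1)) := hx.1 k (by omega)
  simpa only [e0, ek, if_true] using key

end Iid

end Vale.Agent.Lib.P161E.Corr
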