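import Vale.Agent.Lib.P161E.PlantedB
import Vale.Agent.Lib.P161E.CorrIid

/-! The free Ising measure is not a factor of IID above the threshold: the correlation of a factor of IID
at distance `k` decays like `k (d-1)^(-k/2)`, while the correlation of the Ising measure is `θ ^ k`. -/

open MeasureTheory Finset Filter Topology
open scoped Classical ENNReal

noncomputable section

namespace Vale.Agent.Lib.P161E

open Vale.Agent.Lib.P161
open Vale.Agent.Lib.P161E.Corr

variable {V : Type*} {G : SimpleGraph V} [G.LocallyFinite] {d : ℕ} {β : ℝ}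

omit [G.LocallyFinite] in
/-- A star set is connected. -/
theorem connected_of_star (hT : G.IsTree) {S : Finset V} {r : V} (hr : r ∈ S) (hS : Star G r S) :
    (G.induce (S : Set V)).Connected := by
  have hrS : r ∈ (S : Set V) := hr
  have key : ∀ n : ℕ, ∀ x (hx : x ∈ (S : Set V)), G.dist r x = n →
      (G.induce (S : Set V)).Reachable ⟨r, hrS⟩ ⟨x, hx⟩ := by
    intro n
    induction n with
    | zero =>
      intro x hx h0
      have : r = x := (hT.1.dist_eq_zero_iff).1 h0
      subst this
      exact SimpleGraph.Reachable.refl _
    | succ n ih =>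
      intro x hx hn
      obtain ⟨w, hw⟩ := hT.1.exists_walk_length_eq_dist r x
      have hne : r ≠ x := by
        rintro rfl
        simp at hn
      -- the neighbour of `x` toward `r`
      obtain ⟨p, hp, hpd⟩ : ∃ p, G.Adj x p ∧ G.dist r p + 1 = G.dist r x := by
        have hrev := w.reverse
        cases hw' : w.reverse with
        | nil => exact absurd rfl hne
        | cons hadj q =>
          rename_i p'
          refine ⟨p', hadj, ?_⟩
          have hlen : (w.reverse).length = G.dist r x := by simpa using hw
          rw [hw'] at hlen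
          simp only [SimpleGraph.Walk.length_cons] at hlen
          have h1 : G.dist r p' ≤ q.length := by
            rw [SimpleGraph.dist_comm]
            exact SimpleGraph.dist_le q
          have h2 : G.dist r x ≤ G.dist r p' + 1 := by
            have := hT.1.dist_triangle (u := r) (v := p') (w := x)
            have h3 : G.dist p' x = 1 := SimpleGraph.dist_eq_one_iff_adj.2 hadj.symm
            omega
          omega
      have hpS : p ∈ S := hS x hx p hp hpd
      have hpS' : p ∈ (S : Set V) := hpS
      have h1 := ih p hpS' (by omega)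
      refine h1.trans (SimpleGraph.Adj.reachable ?_)
      simpa using hp.symm
  have : Nonempty (S : Set V) := ⟨⟨r, hrS⟩⟩
  refine SimpleGraph.Connected.mk ?_
  have hall : ∀ x : (S : Set V), (G.induce (S : Set V)).Reachable ⟨r, hrS⟩ x := fun x =>
    key _ x.1 x.2 rfl
  intro x y
  exact (hall x).symm.trans (hall y)

/-- A non-backtracking path of every length. -/
theorem exists_isNB (hT : G.IsTree) (hd : 2 ≤ d) (hreg : G.IsRegularOfDegree d) (n : ℕ) :
    ∃ x : ℕ → V, IsNB G x n := by
  induction n with
  | zero =>
    obtain ⟨r⟩ := hT.1.nonempty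
    exact ⟨fun _ => r, by simp [IsNB]⟩
  | succ n ih =>
    obtain ⟨x, hx⟩ := ih
    have hcard : 2 ≤ (G.neighborFinset (x n)).card := by
      rw [SimpleGraph.card_neighborFinset_eq_degree, hreg (x n)]
      exact hd
    obtain ⟨w, hw, hne⟩ : ∃ w ∈ G.neighborFinset (x n), w ≠ x (n - 1) := by
      by_contra hcon
      push Not at hcon
      have : G.neighborFinset (x n) ⊆ {x (n - 1)} := fun w hw => by
        simpa using hcon w hw
      have h1 := Finset.card_le_card this
      rw [Finset.card_singleton] at h1
      omega
    refine ⟨Function.update x (n + 1) w, ?_, ?_⟩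
    · intro i hi
      rcases Nat.lt_succ_iff_lt_or_eq.1 hi with h | h
      · have e1 : Function.update x (n + 1) w i = x i := Function.update_of_ne (by omega) _ _
        have e2 : Function.update x (n + 1) w (i + 1) = x (i + 1) :=
          Function.update_of_ne (by omega) _ _
        rw [e1, e2]
        exact hx.1 i h
      · subst h
        have e1 : Function.update x (i + 1) w i = x i := Function.update_of_ne (by omega) _ _
        rw [e1, Function.update_self]
        simpa using hw
    · intro i hi
      by_cases h : i + 2 = n + 1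
      · have hi' : i = n - 1 := by omega
        have e1 : Function.update x (n + 1) w (i + 2) = w := by rw [h, Function.update_self]
        have e2 : Function.update x (n + 1) w i = x i := Function.update_of_ne (by omega) _ _
        rw [e1, e2, hi']
        exact hne
      · have e1 : Function.update x (n + 1) w (i + 2) = x (i + 2) :=
          Function.update_of_ne (by omega) _ _
        have e2 : Function.update x (n + 1) w i = x i := Function.update_of_ne (by omega) _ _
        rw [e1, e2]
        exact hx.2 i (by omega)

section law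

variable {Φ : (V → unitInterval) → V → Bool}

omit [G.LocallyFinite] in
/-- Measurability of the spin at a vertex. -/
theorem measurable_spinΦ (hΦ : Measurable Φ) (x : V) : Measurable (fun U => spin (Φ U x)) := by
  have h1 : Measurable (fun U => Φ U x) := (measurable_pi_apply x).comp hΦ
  exact (measurable_from_top (f := spin)).comp h1

omit [G.LocallyFinite] in
theorem abs_spin (b : Bool) : |spin b| = 1 := by
  cases b <;> simp [spin]

omit [G.LocallyFinite] in
theorem spin_mul_self (b : Bool) : spin b * spin b = 1 := by
  cases b <;> simp [spin]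

omit [G.LocallyFinite] in
/-- Integral of a product of spins, from the cylinder law on a star set. -/
theorem integral_spin_mul (hT : G.IsTree) (hΦ : Measurable Φ)
    (hlaw : ∀ D : Finset V, (G.induce (D : Set V)).Connected → ∀ η : V → Bool,
      (iidUniform V).map Φ {σ | ∀ v ∈ D, σ v = η v} = ENNReal.ofReal (isingCyl G (Real.tanh β) D η))
    {S : Finset V} {r : V} (hr : r ∈ S) (hS : Star G r S) {u v : V} (hu : u ∈ S) (hv : v ∈ S) :
    ∫ U, spin (Φ U u) * spin (Φ U v) ∂iidUniform V = Ee G β S 0 (fun A => sp A u * sp A v) := by
  set η : Finset V → V → Bool := fun A x => decide (x ∈ A) with hη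
  set E : Finset V → Set (V → unitInterval) := fun A => {U | ∀ x ∈ S, Φ U x = η A x} with hE
  have hset : ∀ A, MeasurableSet {σ : V → Bool | ∀ x ∈ S, σ x = η A x} := by
    intro A
    refine measurableSet_forall_mem S fun x _ => ?_
    exact measurableSet_eq_fun (measurable_pi_apply x) measurable_const
  have hEm : ∀ A, MeasurableSet (E A) := fun A => hΦ (hset A)
  have hconn := connected_of_star hT hr hS
  have hsp : ∀ A x, spin (η A x) = sp A x := by
    intro A x
    by_cases h : x ∈ A <;> simp [hη, spin, sp, h]
  have hmass : ∀ A ∈ S.powerset, iidUniform V (E A) = ENNReal.ofReal (mu G β S 0 A) := by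
    intro A hA
    have hAS : A ⊆ S := Finset.mem_powerset.1 hA
    have h1 := hlaw S hconn (η A)
    rw [Measure.map_apply hΦ (hset A)] at h1
    have h2 := marginal_eq (β := β) hT hr hS (Finset.Subset.refl S) hS (η A)
    have h3 : ∑ C ∈ S.powerset, (if ∀ x ∈ S, sp C x = spin (η A x) then mu G β S 0 C else 0) =
        mu G β S 0 A := by
      rw [Finset.sum_eq_single_of_mem A hA]
      · rw [if_pos fun x _ => (hsp A x).symm]
      · intro C hC hCA
        rw [if_neg]
        intro hcon
        apply hCA
        have hCS : C ⊆ S := Finset.mem_powerset.1 hC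
        ext x
        constructor
        · intro hx
          have h4 := hcon x (hCS hx)
          rw [hsp] at h4
          by_contra hxA
          simp [sp, hx, hxA] at h4
          norm_num at h4
        · intro hx
          have h4 := hcon x (hAS hx)
          rw [hsp] at h4
          by_contra hxC
          simp [sp, hx, hxC] at h4
          norm_num at h4
    rw [← h2, h3] at h1
    exact h1
  have hpt : ∀ U, spin (Φ U u) * spin (Φ U v) =
      ∑ A ∈ S.powerset, (E A).indicator (fun _ => sp A u * sp A v) U := by
    intro U
    set A₀ := S.filter (fun x => Φ U x = true) with hA₀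
    have hA₀m : A₀ ∈ S.powerset := Finset.mem_powerset.2 (Finset.filter_subset _ _)
    have hspA : ∀ x ∈ S, sp A₀ x = spin (Φ U x) := by
      intro x hx
      cases h : Φ U x <;> simp [sp, spin, hA₀, hx, h]
    have hUE : U ∈ E A₀ := by
      intro x hx
      simp only [hη, hA₀, Finset.mem_filter]
      cases h : Φ U x <;> simp [hx]
    rw [Finset.sum_eq_single_of_mem A₀ hA₀m]
    · rw [Set.indicator_of_mem hUE, hspA u hu, hspA v hv]
    · intro A hA hne
      refine Set.indicator_of_notMem ?_ _
      intro hUA
      apply hne
      have hAS : A ⊆ S := Finset.mem_powerset.1 hA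
      ext x
      constructor
      · intro hx
        have h1 := hUA x (hAS hx)
        simp only [hη, decide_eq_true hx] at h1
        exact Finset.mem_filter.2 ⟨hAS hx, h1⟩
      · intro hx
        have hx' := Finset.mem_filter.1 hx
        have h1 := hUA x hx'.1
        simp only [hη] at h1
        rw [hx'.2] at h1
        simpa using h1.symm
  simp_rw [hpt]
  rw [integral_finsetSum _ fun A _ => (integrable_const _).indicator (hEm A)]
  unfold Ee
  refine Finset.sum_congr rfl fun A hA => ?_
  rw [integral_indicator_const _ (hEm A), measureReal_def, hmass A hA,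
    ENNReal.toReal_ofReal (mu_pos _ _ _ _ _).le, smul_eq_mul]

omit [G.LocallyFinite] in
/-- The cylinder probability on one vertex is one half. -/
theorem isingCyl_singleton (r : V) (θ : ℝ) (η : V → Bool) : isingCyl G θ {r} η = 1 / 2 := by
  unfold isingCyl
  have : edgesIn G {r} = ∅ := by
    unfold edgesIn
    refine Finset.filter_eq_empty_iff.2 fun e he => ?_
    induction e using Sym2.ind with
    | _ a b =>
      rw [Finset.mem_sym2_iff] at he
      have ha : a = r := Finset.mem_singleton.1 (he a (by simp))
      have hb : b = r := Finset.mem_singleton.1 (he b (by simp))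
      subst ha
      subst hb
      simp
  rw [this]
  simp

omit [G.LocallyFinite] in
/-- The mean of a spin is zero. -/
theorem integral_spin_zero (hT : G.IsTree) (hΦ : Measurable Φ)
    (hlaw : ∀ D : Finset V, (G.induce (D : Set V)).Connected → ∀ η : V → Bool,
      (iidUniform V).map Φ {σ | ∀ v ∈ D, σ v = η v} = ENNReal.ofReal (isingCyl G (Real.tanh β) D η))
    (r : V) : ∫ U, spin (Φ U r) ∂iidUniform V = 0 := by
  have hS : Star G r {r} := by
    intro x hx p hp hd
    have hxr : x = r := Finset.mem_singleton.1 hx
    subst hxr
    simp at hd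
  have hconn := connected_of_star (S := {r}) hT (Finset.mem_singleton_self r) hS
  have hset : ∀ b : Bool, MeasurableSet {σ : V → Bool | ∀ x ∈ ({r} : Finset V), σ x = (fun _ => b) x} := by
    intro b
    refine measurableSet_forall_mem _ fun x _ => ?_
    exact measurableSet_eq_fun (measurable_pi_apply x) measurable_const
  have hmass : ∀ b : Bool, iidUniform V {U | Φ U r = b} = ENNReal.ofReal (1 / 2) := by
    intro b
    have h1 := hlaw {r} hconn (fun _ => b)
    rw [Measure.map_apply hΦ (hset b), isingCyl_singleton] at h1
    refine Eq.trans ?_ h1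
    congr 1
    ext U
    simp
  have hm : ∀ b : Bool, MeasurableSet {U : V → unitInterval | Φ U r = b} := fun b =>
    measurableSet_eq_fun ((measurable_pi_apply r).comp hΦ) measurable_const
  have hpt : ∀ U, spin (Φ U r) = {U | Φ U r = true}.indicator (fun _ => (1 : ℝ)) U +
      {U | Φ U r = false}.indicator (fun _ => (-1 : ℝ)) U := by
    intro U
    cases h : Φ U r <;> simp [spin, Set.indicator, h]
  simp_rw [hpt]
  rw [integral_add ((integrable_const _).indicator (hm true)) ((integrable_const _).indicator (hm false)),
    integral_indicator_const _ (hm true), integral_indicator_const _ (hm false), measureReal_def,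
    measureReal_def, hmass, hmass]
  simp

end law

/-- The free Ising measure is not a factor of IID above the threshold. -/
theorem fiid_le_threshold (hT : G.IsTree) (hd : 2 ≤ d) (hreg : G.IsRegularOfDegree d) (hβ : 0 ≤ β)
    {Φ : (V → unitInterval) → V → Bool} (hΦ : Measurable Φ)
    (hequi : ∀ φ : G ≃g G, ∀ᵐ U ∂iidUniform V, Φ (U ∘ φ.symm) = Φ U ∘ φ.symm)
    (hlaw : ∀ D : Finset V, (G.induce (D : Set V)).Connected → ∀ η : V → Bool,
      (iidUniform V).map Φ {σ | ∀ v ∈ D, σ v = η v} = ENNReal.ofReal (isingCyl G (Real.tanh β) D η)) :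
    ((d : ℝ) - 1) * Real.tanh β ^ 2 ≤ 1 := by
  have hd1 : (1 : ℝ) ≤ (d : ℝ) - 1 := by
    have : (2 : ℝ) ≤ d := by exact_mod_cast hd
    linarith
  have hθ0 : 0 ≤ Real.tanh β := by
    rw [Real.tanh_eq_sinh_div_cosh]
    exact div_nonneg (Real.sinh_nonneg_iff.mpr hβ) (Real.cosh_pos β).le
  set θ := Real.tanh β with hθ
  set s := Real.sqrt ((d : ℝ) - 1) with hs
  have hs1 : 1 ≤ s := by
    rw [hs]
    exact Real.one_le_sqrt.2 hd1
  have hs0 : 0 < s := by linarith
  have hss : s * s = (d : ℝ) - 1 := Real.mul_self_sqrt (by linarith)
  set f : V → (V → unitInterval) → ℝ := fun x U => spin (Φ U x) with hf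
  have hfm : ∀ x, Measurable (f x) := measurable_spinΦ hΦ
  have hmem : ∀ x, MemLp (f x) 2 (iidUniform V) := fun x =>
    MemLp.of_bound (hfm x).aestronglyMeasurable 1 (Eventually.of_forall fun U => by
      rw [Real.norm_eq_abs]
      exact (abs_spin _).le)
  have hact : ∀ (φ : G ≃g G) (x : V), (fun ω => f (φ x) (actT φ ω)) =ᵐ[iidUniform V] f x := by
    intro φ x
    filter_upwards [hequi φ] with U hU
    have e : actT φ U = U ∘ φ.symm := rfl
    simp only [hf, e, hU]
    simp
  have hsq : ∀ x, ip (iidUniform V) (f x) (f x) = 1 := by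
    intro x
    unfold ip
    simp only [hf, spin_mul_self]
    simp
  have hbound : ∀ k : ℕ, θ ^ (k + 1) ≤ (k + 1) * s * s⁻¹ ^ k := by
    intro k
    obtain ⟨x, hx⟩ := exists_isNB hT hd hreg (k + 1)
    have hdist : G.dist (x 0) (x (k + 1)) = k + 1 := hx.dist_eq hT (k + 1) le_rfl
    have h := fiid_corr_dart (m := (volume : Measure unitInterval)) hT hreg hd
      (a := fun _ v => f v) (b := fun u _ => f u)
      (fun u v _ => hmem v) (fun φ u v _ => hact φ v)
      (fun u v _ => hmem u) (fun φ u v _ => hact φ u) hx
    have hS : x (k + 1) ∈ ball G (x 0) (k + 1) := by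
      rw [mem_ball hT, hdist]
    have h0 : x 0 ∈ ball G (x 0) (k + 1) := by
      rw [mem_ball hT]
      simp
    have hcorr : ip (muX V (volume : Measure unitInterval)) (f (x 0)) (f (x (k + 1))) = θ ^ (k + 1) := by
      unfold ip
      have h1 := integral_spin_mul (β := β) hT hΦ hlaw h0 (star_ball hT h0) h0 hS
      have h2 := corr_zero (G := G) (β := β) hT hβ h0 (star_ball hT h0) hS
      rw [hdist] at h2
      rw [← h2, ← h1]
      rfl
    have hm0 : ∀ y, ∫ ω, f y ω ∂(muX V (volume : Measure unitInterval)) = 0 := fun y =>
      integral_spin_zero (β := β) hT hΦ hlaw y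
    have hsq' : ∀ y, ip (muX V (volume : Measure unitInterval)) (f y) (f y) = 1 := hsq
    simp only [hm0, hsq', hcorr, mul_zero, sub_zero, Real.sqrt_one, mul_one] at h
    rw [abs_of_nonneg (by positivity)] at h
    exact h
  by_contra hcon
  push Not at hcon
  have hx1 : 1 < θ * s := by
    have h1 : 1 < (θ * s) ^ 2 := by
      have : (θ * s) ^ 2 = ((d : ℝ) - 1) * θ ^ 2 := by
        rw [mul_pow, sq s, hss]
        ring
      rw [this]
      exact hcon
    by_contra h2
    push Not at h2
    have h3 : 0 ≤ θ * s := by positivity
    nlinarith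
  have htend := tendsto_pow_const_div_const_pow_of_one_lt 1 hx1
  have hpos : (0 : ℝ) < 1 / (s * s) := by positivity
  obtain ⟨n, hn⟩ := ((htend.eventually (gt_mem_nhds hpos)).and (eventually_ge_atTop 1)).exists
  obtain ⟨k, rfl⟩ : ∃ k, n = k + 1 := ⟨n - 1, by omega⟩
  have h1 := hbound k
  have hxn : (θ * s) ^ (k + 1) ≤ (k + 1) * (s * s) := by
    have e : (k + 1 : ℝ) * (s * s) = ((k + 1) * s * s⁻¹ ^ k) * s ^ (k + 1) := by
      have : s⁻¹ ^ k * s ^ k = 1 := by
        rw [← mul_pow, inv_mul_cancel₀ hs0.ne', one_pow]
      rw [pow_succ s k]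
      calc (k + 1 : ℝ) * (s * s) = (k + 1) * s * s * (s⁻¹ ^ k * s ^ k) := by rw [this]; ring
        _ = _ := by ring
    rw [e, mul_pow]
    exact mul_le_mul_of_nonneg_right h1 (by positivity)
  have hxpos : 0 < (θ * s) ^ (k + 1) := pow_pos (by linarith) _
  have h2 := hn.1
  rw [div_lt_div_iff₀ hxpos (by positivity)] at h2
  push_cast at h2
  nlinarith

end Vale.Agent.Lib.P161E
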