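import Vale.Agent.Lib.P161E.Schur

/-! Invariant fields on directed edges of a regular tree: adjointness (mass transport), the power
trick, and the correlation bound for fields that decorrelate at finite range. -/

open MeasureTheory Finset Filter Topology
open scoped Classical ENNReal

noncomputable section

namespace Vale.Agent.Lib.P161E.Corr

open Vale.Agent.Lib.P161

variable {Ω : Type*} [MeasurableSpace Ω] {μ : Measure Ω}

/-- The `L²` pairing. -/
def ip (μ : Measure Ω) (f g : Ω → ℝ) : ℝ := ∫ ω, f ω * g ω ∂μ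

theorem ip_comm (f g : Ω → ℝ) : ip μ f g = ip μ g f := by
  unfold ip
  congr 1
  funext ω
  ring

theorem ip_self_nonneg (f : Ω → ℝ) : 0 ≤ ip μ f f := by
  unfold ip
  exact integral_nonneg fun ω => mul_self_nonneg _

theorem ip_sum_right {ι : Type*} (S : Finset ι) {f : Ω → ℝ} {g : ι → Ω → ℝ}
    (hf : MemLp f 2 μ) (hg : ∀ i ∈ S, MemLp (g i) 2 μ) :
    ip μ f (∑ i ∈ S, g i) = ∑ i ∈ S, ip μ f (g i) := by
  unfold ip
  simp only [Finset.sum_apply, Finset.mul_sum]
  rw [integral_finset_sum]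
  intro i hi
  exact hf.integrable_mul (hg i hi)

theorem ip_sum_left {ι : Type*} (S : Finset ι) {f : Ω → ℝ} {g : ι → Ω → ℝ}
    (hf : MemLp f 2 μ) (hg : ∀ i ∈ S, MemLp (g i) 2 μ) :
    ip μ (∑ i ∈ S, g i) f = ∑ i ∈ S, ip μ (g i) f := by
  rw [ip_comm, ip_sum_right S hf hg]
  exact Finset.sum_congr rfl fun i _ => ip_comm _ _

/-- Cauchy-Schwarz in `L²`. -/
theorem ip_sq_le {f g : Ω → ℝ} (hf : MemLp f 2 μ) (hg : MemLp g 2 μ) :
    ip μ f g ^ 2 ≤ ip μ f f * ip μ g g := by
  have key : ∀ t : ℝ, 0 ≤ ip μ f f * (t * t) + (2 * ip μ f g) * t + ip μ g g := by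
    intro t
    have h : ip μ f f * (t * t) + (2 * ip μ f g) * t + ip μ g g =
        ∫ ω, (t * f ω + g ω) * (t * f ω + g ω) ∂μ := by
      have e : ∀ ω, (t * f ω + g ω) * (t * f ω + g ω) =
          (t * t) * (f ω * f ω) + (2 * t) * (f ω * g ω) + g ω * g ω := fun ω => by ring
      simp_rw [e]
      have i1 : Integrable (fun ω => f ω * f ω) μ := hf.integrable_mul hf
      have i2 : Integrable (fun ω => f ω * g ω) μ := hf.integrable_mul hg
      have i3 : Integrable (fun ω => g ω * g ω) μ := hg.integrable_mul hg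
      have i1' : Integrable (fun ω => t * t * (f ω * f ω)) μ := i1.const_mul _
      have i2' : Integrable (fun ω => 2 * t * (f ω * g ω)) μ := i2.const_mul _
      have i12 : Integrable (fun ω => t * t * (f ω * f ω) + 2 * t * (f ω * g ω)) μ := i1'.add i2'
      have e1 := integral_add i12 i3
      have e2 := integral_add i1' i2'
      rw [e1, e2, integral_const_mul, integral_const_mul]
      unfold ip
      ring
    rw [h]
    exact integral_nonneg fun ω => mul_self_nonneg _
  have := discrim_le_zero key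
  unfold discrim at this
  nlinarith

/-- The abstract power trick. -/
theorem spectral_bound (x : ℕ → ℝ) {L K : ℝ} (hL : 0 ≤ L) (hx0 : 0 ≤ x 0) (hx1 : 0 ≤ x 1)
    (hconv : ∀ n, x n ^ 2 ≤ x 0 * x (2 * n)) (hbd : ∀ n, x n ≤ K * L ^ n) : x 1 ≤ L * x 0 := by
  rcases hx0.eq_or_lt with h0 | h0
  · have := hconv 1
    rw [← h0, zero_mul] at this
    have h1 : x 1 = 0 := by nlinarith [sq_nonneg (x 1)]
    rw [← h0, h1, mul_zero]
  by_contra hcon
  push Not at hcon
  have hpos : 0 < x 1 := lt_of_le_of_lt (mul_nonneg hL hx0) hcon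
  have hmain : ∀ m : ℕ, x 1 ^ (2 ^ m) ≤ x 0 ^ (2 ^ m - 1) * x (2 ^ m) := by
    intro m
    induction m with
    | zero => simp
    | succ m ih =>
      have h2m : 1 ≤ 2 ^ m := Nat.one_le_two_pow
      have e1 : x 1 ^ (2 ^ (m + 1)) = (x 1 ^ (2 ^ m)) ^ 2 := by rw [← pow_mul, pow_succ]
      have e2 : (x 0 ^ (2 ^ m - 1) * x (2 ^ m)) ^ 2 =
          (x 0 ^ (2 ^ m - 1)) ^ 2 * x (2 ^ m) ^ 2 := by ring
      have e3 : x 0 ^ (2 ^ (m + 1) - 1) = (x 0 ^ (2 ^ m - 1)) ^ 2 * x 0 := by
        rw [← pow_mul, ← pow_succ]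
        congr 1
        rw [pow_succ]
        omega
      have h3 : (x 1 ^ (2 ^ m)) ^ 2 ≤ (x 0 ^ (2 ^ m - 1) * x (2 ^ m)) ^ 2 :=
        pow_le_pow_left₀ (by positivity) ih 2
      rw [e1, e3]
      refine h3.trans ?_
      rw [e2, mul_assoc]
      apply mul_le_mul_of_nonneg_left _ (by positivity)
      have := hconv (2 ^ m)
      rw [← pow_succ'] at this
      exact this
  have hbig : ∀ m : ℕ, x 1 ^ (2 ^ m) * x 0 ≤ x 0 ^ (2 ^ m) * (K * L ^ (2 ^ m)) := by
    intro m
    have h1 := hmain m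
    have h2 := hbd (2 ^ m)
    have h2m : 2 ^ m = (2 ^ m - 1) + 1 := by
      have : 1 ≤ 2 ^ m := Nat.one_le_two_pow
      omega
    have e : x 0 ^ (2 ^ m) = x 0 ^ (2 ^ m - 1) * x 0 := by
      conv_lhs => rw [h2m]
      rw [pow_succ]
    rw [e]
    calc x 1 ^ (2 ^ m) * x 0 ≤ (x 0 ^ (2 ^ m - 1) * x (2 ^ m)) * x 0 :=
          mul_le_mul_of_nonneg_right h1 h0.le
      _ ≤ (x 0 ^ (2 ^ m - 1) * (K * L ^ (2 ^ m))) * x 0 := by
          apply mul_le_mul_of_nonneg_right _ h0.le
          exact mul_le_mul_of_nonneg_left h2 (by positivity)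
      _ = _ := by ring
  -- the ratio exceeds one
  set y := L * x 0 with hy
  have hy0 : 0 ≤ y := mul_nonneg hL h0.le
  have hK : 0 ≤ K := by
    by_contra hK
    push Not at hK
    have h1 := hbig 0
    simp only [pow_zero, pow_one] at h1
    have : x 1 * x 0 > 0 := mul_pos hpos h0
    have h2 : x 0 * (K * L) ≤ 0 :=
      mul_nonpos_of_nonneg_of_nonpos h0.le (mul_nonpos_of_nonpos_of_nonneg hK.le hL)
    linarith
  have hbig2 : ∀ m : ℕ, x 1 ^ (2 ^ m) * x 0 ≤ y ^ (2 ^ m) * K := by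
    intro m
    have := hbig m
    rw [hy, mul_pow]
    calc _ ≤ _ := this
      _ = _ := by ring
  set r := x 1 / (y + (x 1 - y) / 2) with hr
  -- use `y' = y + (x1 - y)/2 > 0` so that division is safe
  set y' := y + (x 1 - y) / 2 with hy'
  have hy'pos : 0 < y' := by rw [hy']; linarith
  have hrgt : 1 < r := by
    rw [hr, lt_div_iff₀ hy'pos, hy']
    linarith
  obtain ⟨m, hm⟩ := pow_unbounded_of_one_lt (K / x 0 + 1) hrgt
  have hm2 : r ^ m ≤ r ^ (2 ^ m) := pow_le_pow_right₀ hrgt.le (Nat.lt_two_pow_self).le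
  have hbig3 := hbig2 m
  have hyy' : y ≤ y' := by rw [hy']; linarith
  have hle : x 1 ^ (2 ^ m) * x 0 ≤ y' ^ (2 ^ m) * K :=
    hbig3.trans (mul_le_mul_of_nonneg_right (pow_le_pow_left₀ hy0 hyy' _) hK)
  have hrp : r ^ (2 ^ m) * y' ^ (2 ^ m) = x 1 ^ (2 ^ m) := by
    rw [← mul_pow, hr, div_mul_cancel₀ _ hy'pos.ne']
  rw [← hrp] at hle
  have hy'p : 0 < y' ^ (2 ^ m) := by positivity
  have h5 : r ^ (2 ^ m) * x 0 ≤ K := by
    have : y' ^ (2 ^ m) * (r ^ (2 ^ m) * x 0) ≤ y' ^ (2 ^ m) * K := by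
      calc _ = r ^ (2 ^ m) * y' ^ (2 ^ m) * x 0 := by ring
        _ ≤ _ := hle
    exact le_of_mul_le_mul_left this hy'p
  have h6 : r ^ (2 ^ m) ≤ K / x 0 := by
    rw [le_div_iff₀ h0]
    exact h5
  linarith

variable {V : Type*} {G : SimpleGraph V} [G.LocallyFinite] {T : (G ≃g G) → Ω → Ω}

/-- An invariant square integrable field on pairs of vertices. -/
structure IsField (G : SimpleGraph V) (μ : Measure Ω) (T : (G ≃g G) → Ω → Ω)
    (a : V → V → Ω → ℝ) : Prop where
  memLp : ∀ u v, MemLp (a u v) 2 μ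
  equi : ∀ (φ : G ≃g G) (u v : V), (fun ω => a (φ u) (φ v) (T φ ω)) =ᵐ[μ] a u v

theorem erase_nbr_map (φ : G ≃g G) (x y : V) :
    (G.neighborFinset (φ y)).erase (φ x) =
      ((G.neighborFinset y).erase x).map φ.toEquiv.toEmbedding := by
  ext z
  simp only [Finset.mem_erase, SimpleGraph.mem_neighborFinset, Finset.mem_map,
    Equiv.coe_toEmbedding]
  constructor
  · rintro ⟨h1, h2⟩
    refine ⟨φ.symm z, ⟨?_, ?_⟩, by simp⟩
    · intro h
      apply h1
      rw [← h]
      simp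
    · have := φ.symm.map_adj_iff.2 h2
      simpa using this
  · rintro ⟨w, ⟨h1, h2⟩, rfl⟩
    refine ⟨?_, ?_⟩
    · intro h
      exact h1 (φ.injective h)
    · exact φ.map_adj_iff.2 h2

theorem IsField.opU {a : V → V → Ω → ℝ} (ha : IsField G μ T a) : IsField G μ T (opU G a) := by
  refine ⟨fun u v => ?_, fun φ u v => ?_⟩
  · exact memLp_finset_sum' _ fun z _ => ha.memLp _ _
  · have h : ∀ᵐ ω ∂μ, ∀ z ∈ (G.neighborFinset v).erase u,
        a (φ v) (φ z) (T φ ω) = a v z ω := by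
      rw [Finset.eventually_all]
      intro z _
      exact ha.equi φ v z
    filter_upwards [h] with ω hω
    unfold Vale.Agent.Lib.P161E.Corr.opU
    rw [erase_nbr_map, Finset.sum_map, Finset.sum_apply, Finset.sum_apply]
    exact Finset.sum_congr rfl hω

theorem IsField.opW {a : V → V → Ω → ℝ} (ha : IsField G μ T a) : IsField G μ T (opW G a) := by
  refine ⟨fun u v => ?_, fun φ u v => ?_⟩
  · exact memLp_finset_sum' _ fun z _ => ha.memLp _ _
  · have h : ∀ᵐ ω ∂μ, ∀ z ∈ (G.neighborFinset u).erase v,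
        a (φ z) (φ u) (T φ ω) = a z u ω := by
      rw [Finset.eventually_all]
      intro z _
      exact ha.equi φ z u
    filter_upwards [h] with ω hω
    unfold Vale.Agent.Lib.P161E.Corr.opW
    rw [erase_nbr_map, Finset.sum_map, Finset.sum_apply, Finset.sum_apply]
    exact Finset.sum_congr rfl hω

theorem IsField.iterU {a : V → V → Ω → ℝ} (ha : IsField G μ T a) (k : ℕ) :
    IsField G μ T ((Vale.Agent.Lib.P161E.Corr.opU G)^[k] a) := by
  induction k with
  | zero => simpa using ha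
  | succ k ih =>
    rw [Function.iterate_succ_apply']
    exact ih.opU

theorem IsField.iterW {a : V → V → Ω → ℝ} (ha : IsField G μ T a) (k : ℕ) :
    IsField G μ T ((Vale.Agent.Lib.P161E.Corr.opW G)^[k] a) := by
  induction k with
  | zero => simpa using ha
  | succ k ih =>
    rw [Function.iterate_succ_apply']
    exact ih.opW

theorem IsField.opS {a : V → V → Ω → ℝ} (ha : IsField G μ T a) (k : ℕ) :
    IsField G μ T (opS G k a) := (ha.iterU k).iterW k

theorem IsField.iterS {a : V → V → Ω → ℝ} (ha : IsField G μ T a) (k n : ℕ) :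
    IsField G μ T ((Vale.Agent.Lib.P161E.Corr.opS G k)^[n] a) := by
  induction n with
  | zero => simpa using ha
  | succ n ih =>
    rw [Function.iterate_succ_apply']
    exact ih.opS k

section Invariance

variable (hTm : ∀ φ : G ≃g G, MeasurePreserving (T φ) μ μ)
include hTm

theorem integral_comp_T (φ : G ≃g G) {f : Ω → ℝ} (hf : AEStronglyMeasurable f μ) :
    ∫ ω, f (T φ ω) ∂μ = ∫ ω, f ω ∂μ := by
  have h := (hTm φ).map_eq
  conv_rhs => rw [← h]
  rw [integral_map (hTm φ).aemeasurable (by rwa [h])]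

theorem ip_aut {a b : V → V → Ω → ℝ} (ha : IsField G μ T a) (hb : IsField G μ T b) (φ : G ≃g G)
    (u v u' v' : V) : ip μ (a (φ u) (φ v)) (b (φ u') (φ v')) = ip μ (a u v) (b u' v') := by
  unfold ip
  have h := integral_comp_T hTm φ (f := fun ω => a (φ u) (φ v) ω * b (φ u') (φ v') ω)
    (((ha.memLp _ _).aestronglyMeasurable).mul ((hb.memLp _ _).aestronglyMeasurable))
  rw [← h]
  apply integral_congr_ae
  filter_upwards [ha.equi φ u v, hb.equi φ u' v'] with ω h1 h2
  rw [h1, h2]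

end Invariance

/-- The path with three vertices. -/
def path3 (x y z : V) : ℕ → V := fun i => if i = 0 then x else if i = 1 then y else z

omit [G.LocallyFinite] in
theorem path3_nb {x y z : V} (h1 : G.Adj x y) (h2 : G.Adj y z) (h3 : z ≠ x) :
    IsNB G (path3 x y z) 2 := by
  constructor
  · intro i hi
    match i, hi with
    | 0, _ => simpa [path3] using h1
    | 1, _ => simpa [path3] using h2
  · intro i hi
    match i, hi with
    | 0, _ => simpa [path3] using h3

section Transport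

variable {d : ℕ} (hTree : G.IsTree) (hreg : G.IsRegularOfDegree d) (hd : 2 ≤ d)
  (hTm : ∀ φ : G ≃g G, MeasurePreserving (T φ) μ μ)

include hTree hreg hTm in
theorem ip_path3 {a b : V → V → Ω → ℝ} (ha : IsField G μ T a) (hb : IsField G μ T b)
    {x y z x' y' z' : V} (h1 : G.Adj x y) (h2 : G.Adj y z) (h3 : z ≠ x)
    (h1' : G.Adj x' y') (h2' : G.Adj y' z') (h3' : z' ≠ x') :
    ip μ (a y z) (b x y) = ip μ (a y' z') (b x' y') := by
  obtain ⟨φ, hφ⟩ := exists_aut_of_paths hTree hreg (path3_nb h1 h2 h3) (path3_nb h1' h2' h3')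
  have e0 : φ x = x' := by simpa [path3] using hφ 0 (by norm_num)
  have e1 : φ y = y' := by simpa [path3] using hφ 1 (by norm_num)
  have e2 : φ z = z' := by simpa [path3] using hφ 2 (by norm_num)
  rw [← e0, ← e1, ← e2, ip_aut hTm ha hb]

include hTree hreg hd hTm in
/-- Mass transport: `U` and `W` are adjoint on invariant fields. -/
theorem mass_transport {a b : V → V → Ω → ℝ} (ha : IsField G μ T a) (hb : IsField G μ T b)
    {x y : V} (hxy : G.Adj x y) :
    ip μ (opU G a x y) (b x y) = ip μ (a x y) (opW G b x y) := by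
  unfold opU opW
  rw [ip_sum_left _ (hb.memLp _ _) (fun z _ => ha.memLp _ _),
    ip_sum_right _ (ha.memLp _ _) (fun z _ => hb.memLp _ _)]
  have hc1 : (((G.neighborFinset y).erase x).card : ℝ) = (d : ℝ) - 1 := card_erase_nbr hreg hxy
  have hc2 : (((G.neighborFinset x).erase y).card : ℝ) = (d : ℝ) - 1 :=
    card_erase_nbr hreg hxy.symm
  have hd' : (2 : ℝ) ≤ d := by exact_mod_cast hd
  have hne : ((G.neighborFinset y).erase x).Nonempty := by
    rw [← Finset.card_pos]
    have : (0 : ℝ) < ((G.neighborFinset y).erase x).card := by rw [hc1]; linarith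
    exact_mod_cast this
  obtain ⟨z₀, hz₀⟩ := hne
  have hz₀1 : G.Adj y z₀ :=
    (SimpleGraph.mem_neighborFinset _ _ _).1 (Finset.mem_of_mem_erase hz₀)
  have hz₀2 : z₀ ≠ x := Finset.ne_of_mem_erase hz₀
  have e1 : ∀ z ∈ (G.neighborFinset y).erase x,
      ip μ (a y z) (b x y) = ip μ (a y z₀) (b x y) := by
    intro z hz
    exact ip_path3 hTree hreg hTm ha hb hxy
      ((SimpleGraph.mem_neighborFinset _ _ _).1 (Finset.mem_of_mem_erase hz))
      (Finset.ne_of_mem_erase hz) hxy hz₀1 hz₀2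
  have e2 : ∀ w ∈ (G.neighborFinset x).erase y,
      ip μ (a x y) (b w x) = ip μ (a y z₀) (b x y) := by
    intro w hw
    have hw1 : G.Adj x w :=
      (SimpleGraph.mem_neighborFinset _ _ _).1 (Finset.mem_of_mem_erase hw)
    exact ip_path3 hTree hreg hTm ha hb hw1.symm hxy (Finset.ne_of_mem_erase hw).symm
      hxy hz₀1 hz₀2
  rw [Finset.sum_congr rfl e1, Finset.sum_congr rfl e2, Finset.sum_const, Finset.sum_const,
    nsmul_eq_mul, nsmul_eq_mul, hc1, hc2]

include hTree hreg hd hTm in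
theorem mass_transport' {a b : V → V → Ω → ℝ} (ha : IsField G μ T a) (hb : IsField G μ T b)
    {x y : V} (hxy : G.Adj x y) :
    ip μ (opW G a x y) (b x y) = ip μ (a x y) (opU G b x y) := by
  rw [ip_comm, ← mass_transport hTree hreg hd hTm hb ha hxy, ip_comm]

include hTree hreg hd hTm in
theorem ip_iterU {a b : V → V → Ω → ℝ} (ha : IsField G μ T a) (hb : IsField G μ T b)
    {x y : V} (hxy : G.Adj x y) (k : ℕ) :
    ip μ ((opU G)^[k] a x y) (b x y) = ip μ (a x y) ((opW G)^[k] b x y) := by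
  induction k generalizing a b with
  | zero => simp
  | succ k ih =>
    rw [Function.iterate_succ_apply, Function.iterate_succ_apply', ih ha.opU hb,
      mass_transport hTree hreg hd hTm ha (hb.iterW k) hxy]

include hTree hreg hd hTm in
theorem ip_iterW {a b : V → V → Ω → ℝ} (ha : IsField G μ T a) (hb : IsField G μ T b)
    {x y : V} (hxy : G.Adj x y) (k : ℕ) :
    ip μ ((opW G)^[k] a x y) (b x y) = ip μ (a x y) ((opU G)^[k] b x y) := by
  rw [ip_comm, ← ip_iterU hTree hreg hd hTm hb ha hxy k, ip_comm]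

include hTree hreg hd hTm in
theorem ip_opS {a b : V → V → Ω → ℝ} (ha : IsField G μ T a) (hb : IsField G μ T b)
    {x y : V} (hxy : G.Adj x y) (k : ℕ) :
    ip μ (opS G k a x y) (b x y) = ip μ (a x y) (opS G k b x y) := by
  unfold opS
  rw [ip_iterW hTree hreg hd hTm (ha.iterU k) hb hxy, ip_iterU hTree hreg hd hTm ha (hb.iterU k) hxy]

include hTree hreg hd hTm in
theorem ip_iterS {a b : V → V → Ω → ℝ} (ha : IsField G μ T a) (hb : IsField G μ T b)
    {x y : V} (hxy : G.Adj x y) (k n : ℕ) :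
    ip μ ((opS G k)^[n] a x y) (b x y) = ip μ (a x y) ((opS G k)^[n] b x y) := by
  induction n generalizing a b with
  | zero => simp
  | succ n ih =>
    rw [Function.iterate_succ_apply, Function.iterate_succ_apply', ih (ha.opS k) hb,
      ip_opS hTree hreg hd hTm ha (hb.iterS k n) hxy]

end Transport

section Covariance

/-- The covariance kernel at a base function. -/
def qK (μ : Measure Ω) (f : Ω → ℝ) (c : V → V → Ω → ℝ) : V → V → ℝ :=
  fun u v => ip μ f (c u v)

theorem qK_opU {f : Ω → ℝ} (hf : MemLp f 2 μ) {c : V → V → Ω → ℝ} (hc : ∀ u v, MemLp (c u v) 2 μ) :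
    qK μ f (opU G c) = opU G (qK μ f c) := by
  funext u v
  unfold qK opU
  exact ip_sum_right _ hf (fun z _ => hc _ _)

theorem qK_opW {f : Ω → ℝ} (hf : MemLp f 2 μ) {c : V → V → Ω → ℝ} (hc : ∀ u v, MemLp (c u v) 2 μ) :
    qK μ f (opW G c) = opW G (qK μ f c) := by
  funext u v
  unfold qK opW
  exact ip_sum_right _ hf (fun z _ => hc _ _)

theorem qK_iterU {f : Ω → ℝ} (hf : MemLp f 2 μ) {c : V → V → Ω → ℝ} (hc : IsField G μ T c)
    (k : ℕ) : qK μ f ((opU G)^[k] c) = (opU G)^[k] (qK μ f c) := by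
  induction k with
  | zero => simp
  | succ k ih =>
    rw [Function.iterate_succ_apply', Function.iterate_succ_apply', qK_opU hf (hc.iterU k).memLp, ih]

theorem qK_iterW {f : Ω → ℝ} (hf : MemLp f 2 μ) {c : V → V → Ω → ℝ} (hc : IsField G μ T c)
    (k : ℕ) : qK μ f ((opW G)^[k] c) = (opW G)^[k] (qK μ f c) := by
  induction k with
  | zero => simp
  | succ k ih =>
    rw [Function.iterate_succ_apply', Function.iterate_succ_apply', qK_opW hf (hc.iterW k).memLp, ih]

theorem qK_opS {f : Ω → ℝ} (hf : MemLp f 2 μ) {c : V → V → Ω → ℝ} (hc : IsField G μ T c)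
    (k : ℕ) : qK μ f (opS G k c) = opS G k (qK μ f c) := by
  unfold opS
  rw [qK_iterW hf (hc.iterU k), qK_iterU hf hc]

theorem qK_iterS {f : Ω → ℝ} (hf : MemLp f 2 μ) {c : V → V → Ω → ℝ} (hc : IsField G μ T c)
    (k n : ℕ) : qK μ f ((opS G k)^[n] c) = (opS G k)^[n] (qK μ f c) := by
  induction n with
  | zero => simp
  | succ n ih =>
    rw [Function.iterate_succ_apply', Function.iterate_succ_apply', qK_opS hf (hc.iterS k n), ih]

end Covariance

section Main

variable {d : ℕ} (hTree : G.IsTree) (hreg : G.IsRegularOfDegree d) (hd : 2 ≤ d)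
  (hTm : ∀ φ : G ≃g G, MeasurePreserving (T φ) μ μ)

include hTree hreg hd hTm in
/-- The norm bound for `U ^ k` on fields whose covariance kernel is bounded by a multiple of the
weight. -/
theorem iterU_sq_le_of_kernel {lam : ℝ} (hlam : 0 < lam) (hlam2 : lam ^ 2 = (d : ℝ) - 1)
    {a : V → V → Ω → ℝ} (ha : IsField G μ T a) {x₀ y₀ : V} (hxy : G.Adj x₀ y₀) {C : ℝ} (hC : 0 ≤ C)
    (hq : ∀ u v, G.Adj u v → |ip μ (a x₀ y₀) (a u v)| ≤ wt G lam⁻¹ x₀ C C u v) (k : ℕ) :
    ip μ ((opU G)^[k] a x₀ y₀) ((opU G)^[k] a x₀ y₀) ≤ Lam d k * ip μ (a x₀ y₀) (a x₀ y₀) := by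
  set x : ℕ → ℝ := fun n => ip μ (a x₀ y₀) ((opS G k)^[n] a x₀ y₀) with hx
  have hf := ha.memLp x₀ y₀
  have hx0 : x 0 = ip μ (a x₀ y₀) (a x₀ y₀) := by simp [hx]
  have hx1 : x 1 = ip μ ((opU G)^[k] a x₀ y₀) ((opU G)^[k] a x₀ y₀) := by
    simp only [hx, Function.iterate_one]
    unfold opS
    rw [← ip_iterU hTree hreg hd hTm ha (ha.iterU k) hxy]
  have hL : 0 ≤ Lam d k := Lam_nonneg (by omega) k
  have hconv : ∀ n, x n ^ 2 ≤ x 0 * x (2 * n) := by
    intro n
    have h1 := ip_sq_le hf ((ha.iterS k n).memLp x₀ y₀)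
    have h2 : ip μ ((opS G k)^[n] a x₀ y₀) ((opS G k)^[n] a x₀ y₀) = x (2 * n) := by
      rw [ip_iterS hTree hreg hd hTm ha (ha.iterS k n) hxy]
      simp only [hx]
      rw [← Function.iterate_add_apply, two_mul]
    rw [h2] at h1
    rw [hx0]
    exact h1
  have hbd : ∀ n, x n ≤ (lam⁻¹ ^ G.dist x₀ y₀ * C) * Lam d k ^ n := by
    intro n
    have h1 := opS_iter (o := x₀) hTree hreg hlam hlam2 hC (a := qK μ (a x₀ y₀) a) hq k n x₀ y₀ hxy
    rw [← qK_iterS hf ha, wt_same] at h1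
    have h2 : x n ≤ |x n| := le_abs_self _
    refine h2.trans (h1.trans (le_of_eq ?_))
    ring
  have := spectral_bound x hL (by rw [hx0]; exact ip_self_nonneg _)
    (by rw [hx1]; exact ip_self_nonneg _) hconv hbd
  rwa [hx0, hx1] at this

end Main

end Vale.Agent.Lib.P161E.Corr
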