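import Vale.Agent.Lib.P161E.CorrField

/-! `L²` limits of invariant fields and the passage from the norm of `U ^ k` to correlations along
non-backtracking paths. -/

open MeasureTheory Finset Filter Topology
open scoped Classical ENNReal

noncomputable section

namespace Vale.Agent.Lib.P161E.Corr

open Vale.Agent.Lib.P161

variable {Ω : Type*} [MeasurableSpace Ω] {μ : Measure Ω}

/-- Convergence in `L²`, expressed through integrals of squares. -/
def Conv (μ : Measure Ω) (f : ℕ → Ω → ℝ) (g : Ω → ℝ) : Prop :=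
  Tendsto (fun n => ∫ ω, (f n ω - g ω) ^ 2 ∂μ) atTop (𝓝 0)

theorem Conv.sum {ι : Type*} (S : Finset ι) {f : ι → ℕ → Ω → ℝ} {g : ι → Ω → ℝ}
    (h : ∀ i ∈ S, Conv μ (f i) (g i)) (hf : ∀ i ∈ S, ∀ n, MemLp (f i n) 2 μ)
    (hg : ∀ i ∈ S, MemLp (g i) 2 μ) :
    Conv μ (fun n => ∑ i ∈ S, f i n) (∑ i ∈ S, g i) := by
  unfold Conv
  have hb : Tendsto (fun n => (S.card : ℝ) * ∑ i ∈ S, ∫ ω, (f i n ω - g i ω) ^ 2 ∂μ) atTop
      (𝓝 ((S.card : ℝ) * ∑ _i ∈ S, (0 : ℝ))) :=
    (tendsto_finset_sum S fun i hi => h i hi).const_mul _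
  simp only [Finset.sum_const_zero, mul_zero] at hb
  refine squeeze_zero (fun n => integral_nonneg fun ω => sq_nonneg _) (fun n => ?_) hb
  have hint : ∀ i ∈ S, Integrable (fun ω => (f i n ω - g i ω) ^ 2) μ := fun i hi =>
    ((hf i hi n).sub (hg i hi)).integrable_sq
  rw [← integral_finset_sum S hint, ← integral_const_mul]
  refine integral_mono_of_nonneg (Eventually.of_forall fun ω => sq_nonneg _) ?_ ?_
  · exact (integrable_finset_sum S hint).const_mul _
  · refine Eventually.of_forall fun ω => ?_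
    have e : (∑ i ∈ S, f i n ω - (∑ i ∈ S, g i) ω) = ∑ i ∈ S, (f i n ω - g i ω) := by
      rw [Finset.sum_apply, Finset.sum_sub_distrib]
    simp only [Finset.sum_apply] at e ⊢
    rw [e]
    exact sq_sum_le_card_mul_sum_sq

/-- Squares of norms converge along `L²` convergent sequences. -/
theorem Conv.tendsto_sq {f : ℕ → Ω → ℝ} {g : Ω → ℝ} (h : Conv μ f g) (hf : ∀ n, MemLp (f n) 2 μ)
    (hg : MemLp g 2 μ) : Tendsto (fun n => ip μ (f n) (f n)) atTop (𝓝 (ip μ g g)) := by
  set ε : ℕ → ℝ := fun n => ∫ ω, (f n ω - g ω) ^ 2 ∂μ with hε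
  have hε0 : ∀ n, 0 ≤ ε n := fun n => integral_nonneg fun ω => sq_nonneg _
  have hd : ∀ n, MemLp (fun ω => f n ω - g ω) 2 μ := fun n => (hf n).sub hg
  have hip : ∀ n, ip μ (fun ω => f n ω - g ω) (fun ω => f n ω - g ω) = ε n := by
    intro n
    simp only [ip, hε, sq]
  have e : ∀ n, ip μ (f n) (f n) = ip μ g g + ε n + 2 * ip μ g (fun ω => f n ω - g ω) := by
    intro n
    have i1 : Integrable (fun ω => g ω * g ω) μ := hg.integrable_mul hg
    have i2 : Integrable (fun ω => (f n ω - g ω) ^ 2) μ := (hd n).integrable_sq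
    have i3 : Integrable (fun ω => g ω * (f n ω - g ω)) μ := hg.integrable_mul (hd n)
    have e1 : ∀ ω, f n ω * f n ω =
        g ω * g ω + (f n ω - g ω) ^ 2 + 2 * (g ω * (f n ω - g ω)) := fun ω => by ring
    unfold ip
    simp_rw [e1]
    have e2 := integral_add (i1.add i2) (i3.const_mul 2)
    have e3 := integral_add i1 i2
    simp only [Pi.add_apply] at e2 e3
    rw [e2, e3, integral_const_mul]
  have hcross : Tendsto (fun n => ip μ g (fun ω => f n ω - g ω)) atTop (𝓝 0) := by
    have hs : Tendsto (fun n => Real.sqrt (ip μ g g * ε n)) atTop (𝓝 0) := by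
      have : Tendsto (fun n => ip μ g g * ε n) atTop (𝓝 (ip μ g g * 0)) := h.const_mul _
      rw [mul_zero] at this
      have h2 := (Real.continuous_sqrt.tendsto 0).comp this
      rw [Real.sqrt_zero] at h2
      exact h2
    refine squeeze_zero_norm (fun n => ?_) hs
    rw [Real.norm_eq_abs]
    apply Real.abs_le_sqrt
    have := ip_sq_le hg (hd n)
    rwa [hip n] at this
  have hlim : Tendsto (fun n => ip μ g g + ε n + 2 * ip μ g (fun ω => f n ω - g ω)) atTop
      (𝓝 (ip μ g g + 0 + 2 * 0)) := ((tendsto_const_nhds.add h).add (hcross.const_mul 2))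
  simp only [add_zero, mul_zero] at hlim
  refine hlim.congr fun n => (e n).symm

variable {V : Type*} {G : SimpleGraph V} [G.LocallyFinite] {T : (G ≃g G) → Ω → Ω}

section Closure

theorem conv_iterU {af : ℕ → V → V → Ω → ℝ} {a : V → V → Ω → ℝ}
    (haf : ∀ n, IsField G μ T (af n)) (ha : IsField G μ T a)
    (hc : ∀ u v, Conv μ (fun n => af n u v) (a u v)) (k : ℕ) :
    ∀ u v, Conv μ (fun n => (opU G)^[k] (af n) u v) ((opU G)^[k] a u v) := by
  induction k with
  | zero => simpa using hc
  | succ k ih =>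
    intro u v
    simp only [Function.iterate_succ_apply']
    exact Conv.sum _ (fun z _ => ih v z) (fun z _ n => ((haf n).iterU k).memLp v z)
      (fun z _ => (ha.iterU k).memLp v z)

/-- Norm bounds for `U ^ k` pass to `L²` limits of fields. -/
theorem iterU_closure {af : ℕ → V → V → Ω → ℝ} {a : V → V → Ω → ℝ}
    (haf : ∀ n, IsField G μ T (af n)) (ha : IsField G μ T a)
    (hc : ∀ u v, Conv μ (fun n => af n u v) (a u v)) {k : ℕ} {L : ℝ} {x y : V}
    (hL : ∀ n, ip μ ((opU G)^[k] (af n) x y) ((opU G)^[k] (af n) x y) ≤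
      L * ip μ (af n x y) (af n x y)) :
    ip μ ((opU G)^[k] a x y) ((opU G)^[k] a x y) ≤ L * ip μ (a x y) (a x y) := by
  have h1 := (conv_iterU haf ha hc k x y).tendsto_sq (fun n => ((haf n).iterU k).memLp x y)
    ((ha.iterU k).memLp x y)
  have h2 := (hc x y).tendsto_sq (fun n => (haf n).memLp x y) (ha.memLp x y)
  exact le_of_tendsto_of_tendsto' h1 (h2.const_mul L) hL

end Closure

section Paths

variable {d : ℕ} (hTree : G.IsTree) (hreg : G.IsRegularOfDegree d)
  (hTm : ∀ φ : G ≃g G, MeasurePreserving (T φ) μ μ)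

include hTree hreg hTm in
/-- Correlations along non-backtracking paths of the same length agree. -/
theorem ip_path {a b : V → V → Ω → ℝ} (ha : IsField G μ T a) (hb : IsField G μ T b)
    {x y : ℕ → V} {k : ℕ} (hx : IsNB G x (k + 1)) (hy : IsNB G y (k + 1)) :
    ip μ (b (y 0) (y 1)) (a (y k) (y (k + 1))) = ip μ (b (x 0) (x 1)) (a (x k) (x (k + 1))) := by
  obtain ⟨φ, hφ⟩ := exists_aut_of_paths hTree hreg hy hx
  rw [← hφ 0 (by omega), ← hφ 1 (by omega), ← hφ k (by omega), ← hφ (k + 1) (by omega),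
    ip_aut hTm hb ha]

theorem isNB_extend {y : ℕ → V} {j : ℕ} (hy : IsNB G y (j + 1)) {z : V}
    (hz : z ∈ (G.neighborFinset (y (j + 1))).erase (y j)) :
    IsNB G (Function.update y (j + 2) z) (j + 2) := by
  have hz1 : G.Adj (y (j + 1)) z :=
    (SimpleGraph.mem_neighborFinset _ _ _).1 (Finset.mem_of_mem_erase hz)
  have hz2 : z ≠ y j := Finset.ne_of_mem_erase hz
  constructor
  · intro i hi
    by_cases h : i = j + 1
    · subst h
      rw [Function.update_of_ne (by omega), Function.update_self]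
      exact hz1
    · rw [Function.update_of_ne (by omega), Function.update_of_ne (by omega)]
      exact hy.1 i (by omega)
  · intro i hi
    by_cases h : i = j
    · subst h
      rw [Function.update_self, Function.update_of_ne (by omega)]
      exact hz2
    · rw [Function.update_of_ne (by omega), Function.update_of_ne (by omega)]
      exact hy.2 i (by omega)

include hTree hreg hTm in
/-- Correlation with `U ^ m a` is `(d - 1) ^ m` times the correlation along one path. -/
theorem ip_iterU_path {a b : V → V → Ω → ℝ} (ha : IsField G μ T a) (hb : IsField G μ T b)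
    {x : ℕ → V} {k : ℕ} (hx : IsNB G x (k + 1)) :
    ∀ m j, j + m = k → ∀ y : ℕ → V, IsNB G y (j + 1) →
      ip μ (b (y 0) (y 1)) ((opU G)^[m] a (y j) (y (j + 1))) =
        ((d : ℝ) - 1) ^ m * ip μ (b (x 0) (x 1)) (a (x k) (x (k + 1))) := by
  intro m
  induction m with
  | zero =>
    intro j hj y hy
    have : j = k := by omega
    subst this
    simp only [Function.iterate_zero, id_eq, pow_zero, one_mul]
    exact ip_path hTree hreg hTm ha hb hx hy
  | succ m ih =>
    intro j hj y hy
    rw [Function.iterate_succ_apply']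
    change ip μ (b (y 0) (y 1)) (∑ z ∈ (G.neighborFinset (y (j + 1))).erase (y j),
      (opU G)^[m] a (y (j + 1)) z) = _
    rw [ip_sum_right _ (hb.memLp _ _) (fun z _ => (ha.iterU m).memLp _ _)]
    have hterm : ∀ z ∈ (G.neighborFinset (y (j + 1))).erase (y j),
        ip μ (b (y 0) (y 1)) ((opU G)^[m] a (y (j + 1)) z) =
          ((d : ℝ) - 1) ^ m * ip μ (b (x 0) (x 1)) (a (x k) (x (k + 1))) := by
      intro z hz
      have h1 := ih (j + 1) (by omega) _ (isNB_extend hy hz)
      rw [Function.update_of_ne (by omega), Function.update_of_ne (by omega),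
        Function.update_of_ne (by omega), Function.update_self] at h1
      exact h1
    rw [Finset.sum_congr rfl hterm, Finset.sum_const, nsmul_eq_mul,
      card_erase_nbr hreg (hy.1 j (by omega)), pow_succ]
    ring

include hTree hreg hTm in
/-- From the norm of `U ^ k` to correlations along a path. -/
theorem corr_sq_of_iterU {a b : V → V → Ω → ℝ} (ha : IsField G μ T a) (hb : IsField G μ T b)
    {x : ℕ → V} {k : ℕ} (hx : IsNB G x (k + 1)) {L : ℝ}
    (hL : ip μ ((opU G)^[k] a (x 0) (x 1)) ((opU G)^[k] a (x 0) (x 1)) ≤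
      L * ip μ (a (x 0) (x 1)) (a (x 0) (x 1))) :
    (((d : ℝ) - 1) ^ k * ip μ (b (x 0) (x 1)) (a (x k) (x (k + 1)))) ^ 2 ≤
      L * ip μ (a (x 0) (x 1)) (a (x 0) (x 1)) * ip μ (b (x 0) (x 1)) (b (x 0) (x 1)) := by
  have hy : IsNB G x (0 + 1) := by
    refine ⟨fun i hi => hx.1 i (by omega), fun i hi => by omega⟩
  have h1 := ip_iterU_path hTree hreg hTm ha hb hx k 0 (by omega) x hy
  simp only [zero_add] at h1
  rw [← h1]
  have h2 := ip_sq_le (hb.memLp (x 0) (x 1)) ((ha.iterU k).memLp (x 0) (x 1))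
  refine h2.trans ?_
  have h3 : 0 ≤ ip μ (b (x 0) (x 1)) (b (x 0) (x 1)) := ip_self_nonneg _
  nlinarith [mul_le_mul_of_nonneg_left hL h3]

end Paths

end Vale.Agent.Lib.P161E.Corr
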