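import Vale.Agent.Lib.P161.Fiid

/-! Endpoint of the factor of IID problem: shared definitions of the blueprint. -/

open MeasureTheory Finset Filter Topology
open scoped Classical ENNReal

noncomputable section

namespace Vale.Agent.Lib.P161E

open Vale.Agent.Lib.P161

variable {V : Type*}

/-- The factor `γ_θ(x) = (1 - x²) / (1 - θ² x²)` of the path formula for the covariance. -/
def gm (θ x : ℝ) : ℝ := (1 - x ^ 2) / (1 - θ ^ 2 * x ^ 2)

/-- The mean at one end of an edge in terms of the two cavity means. -/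
def bm (θ a b : ℝ) : ℝ := (a + θ * b) / (1 + θ * a * b)

/-- The modulus `ψ(D) = D (1 + log (8 / D))`. -/
def psi (D : ℝ) : ℝ := D * (1 + Real.log (8 / D))

/-- The capped logarithm of `gm`. -/
def shat (θ x : ℝ) : ℝ := -Real.log (max (gm θ x) (Real.exp (-1)))

/-- `S` restricted to the side of `x` of the edge `xy`. -/
def side (G : SimpleGraph V) (S : Finset V) (x y : V) : Finset V :=
  S.filter (fun v => G.dist x v < G.dist y v)

/-- Cavity mean at `x` away from `y`, inside the finite set `S`. -/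
def xiS (G : SimpleGraph V) (β : ℝ) (S : Finset V) (x y : V) (Y : V → ℝ) : ℝ :=
  mean G β (side G S x y) Y x

section graph

variable (G : SimpleGraph V) [G.LocallyFinite]

/-- Neighbours of `x` other than `y`. -/
def kids (x y : V) : Finset V := (G.neighborFinset x).erase y

/-- Branch of `x` away from `y`, up to distance `m` from `x`. -/
def brn (x y : V) (m : ℕ) : Finset V := side G (ball G x m) x y

/-- Cavity mean at `x` away from `y`, on the branch of depth `m`. -/
def xiF (β : ℝ) (x y : V) (m : ℕ) (Y : V → ℝ) : ℝ := mean G β (brn G x y m) Y x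

/-- Shell sum at finite depth. -/
def shellF (β : ℝ) (Y : V → ℝ) : ℕ → ℕ → V → V → ℝ
  | 0, _, _, _ => 1
  | _ + 1, 0, _, _ => 0
  | l + 1, m + 1, x, y => ∑ c ∈ kids G x y,
      (Real.tanh β * gm (Real.tanh β) (xiF G β c x m Y)) ^ 2 * shellF β Y l m c x

/-- Shell sum of a cavity configuration. -/
def shell (θ : ℝ) (ξ : V → V → ℝ) : ℕ → V → V → ℝ
  | 0, _, _ => 1
  | l + 1, x, y => ∑ c ∈ kids G x y, (θ * gm θ (ξ c x)) ^ 2 * shell θ ξ l c x

end graph

/-- The next vertex from `a` toward `v`. -/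
def nxt (G : SimpleGraph V) (a v : V) : V :=
  if h : ∃ p, G.Adj a p ∧ G.dist v p + 1 = G.dist v a then h.choose else a

/-- The geodesic from `r` to `v`: `geo r v j` is at distance `j` from `r` for `j ≤ dist r v`. -/
def geo (G : SimpleGraph V) (r v : V) : ℕ → V
  | 0 => r
  | j + 1 => nxt G (geo G r v j) v

/-- Product over the geodesic from `r` to `v` of the factors `θ γ(ξ(p_{j+1}, p_j))`. -/
def pathG (G : SimpleGraph V) (θ : ℝ) (ξ : V → V → ℝ) (r v : V) : ℝ :=
  ∏ j ∈ range (G.dist r v), (θ * gm θ (ξ (geo G r v (j + 1)) (geo G r v j)))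

/-- The covariance field in terms of the mean and cavity configurations. -/
def Cf (G : SimpleGraph V) (θ : ℝ) (m : V → ℝ) (ξ : V → V → ℝ) (r v : V) : ℝ :=
  (1 - m r ^ 2) * pathG G θ ξ r v

/-- A geodesic segment of length `n`, as a function on `ℕ`. -/
def IsGeo (G : SimpleGraph V) (q : ℕ → V) (n : ℕ) : Prop :=
  (∀ i, i < n → G.Adj (q i) (q (i + 1))) ∧ G.dist (q 0) (q n) = n

/-- Expectation under the planted law, real valued. -/
def EP (G : SimpleGraph V) (β : ℝ) (S : Finset V) (t : ℝ) (y₀ : V → ℝ) (F : (V → ℝ) → ℝ) : ℝ :=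
  ∑ A ∈ S.powerset, mu G β S y₀ A *
    ∫ g, F (y₀ + t • stepVec S A + Real.sqrt t • g) ∂gam V

/-- The only edge between `S₁` and `S₂` is `ab`. -/
structure Cut (G : SimpleGraph V) (S₁ S₂ : Finset V) (a b : V) : Prop where
  disj : Disjoint S₁ S₂
  ha : a ∈ S₁
  hb : b ∈ S₂
  adj : G.Adj a b
  cut : ∀ u ∈ S₁, ∀ v ∈ S₂, G.Adj u v → u = a ∧ v = b

/-- `F` depends only on the coordinates in `S`. -/
def DepOn (S : Finset V) (F : (V → ℝ) → ℝ) : Prop :=
  ∀ y y' : V → ℝ, (∀ v ∈ S, y v = y' v) → F y = F y'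

/-- The decay kernel of factor of IID correlations. -/
def kap (d : ℕ) (k : ℕ) : ℝ := 2 * (d + 1) * (k + 1) * (1 / Real.sqrt ((d : ℝ) - 1)) ^ k

/-- The sum of all `kap` is at most this. -/
def kapSum (d : ℕ) : ℝ := 48 * (d + 1)

end Vale.Agent.Lib.P161E
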