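import Vale.Agent.Lib.P161E.Ylimit
import Vale.Agent.Lib.P161E.TwoSys

/-! Job E3a: definitions of the limit fields, boundedness, equivariance, measurability. -/

open MeasureTheory Finset Filter Topology
open scoped Classical ENNReal

noncomputable section

namespace Vale.Agent.Lib.P161E

open Vale.Agent.Lib.P161

variable {V : Type*} {G : SimpleGraph V} [G.LocallyFinite] {β : ℝ} {d : ℕ}
  {g : ℕ → ℕ → unitInterval → ℝ}

/-- The configuration at time `u`. -/
def Yc (g : ℕ → ℕ → unitInterval → ℝ) (G : SimpleGraph V) [G.LocallyFinite] (β : ℝ) (P : Par d β)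
    (u : ℝ) (U : V → unitInterval) : V → ℝ := fun v => Yf g G β P u v U

/-- Limit cavity field. -/
def XiL (g : ℕ → ℕ → unitInterval → ℝ) (G : SimpleGraph V) [G.LocallyFinite] (β : ℝ) (P : Par d β)
    (u : ℝ) (U : V → unitInterval) (x y : V) : ℝ :=
  limsup (fun N => xiF G β x y N (Yc g G β P u U)) atTop

/-- Limit mean field. -/
def MuL (g : ℕ → ℕ → unitInterval → ℝ) (G : SimpleGraph V) [G.LocallyFinite] (β : ℝ) (P : Par d β)
    (u : ℝ) (U : V → unitInterval) (x : V) : ℝ :=
  limsup (fun N => mean G β (ball G x N) (Yc g G β P u U) x) atTop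

/-- The constant of the static bound. -/
def Kst (d : ℕ) (β : ℝ) (P : Par d β) : ℝ :=
  1000 / ((1 - Real.tanh β) ^ 4 * P.ρ ^ 2) * convC d P.κ P.ρ ^ 3

/-- The ratio of the static bound. -/
def rst (d : ℕ) (β : ℝ) (P : Par d β) : ℝ := ((d : ℝ) - 1) * P.ρ ^ 2

theorem fa_abs_limsup_le {f : ℕ → ℝ} (hf : ∀ n, |f n| ≤ 1) : |limsup f atTop| ≤ 1 := by
  have hb : IsBoundedUnder (· ≤ ·) atTop f := isBoundedUnder_of ⟨1, fun n => (abs_le.mp (hf n)).2⟩
  have hb' : IsBoundedUnder (· ≥ ·) atTop f :=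
    isBoundedUnder_of ⟨-1, fun n => (abs_le.mp (hf n)).1⟩
  rw [abs_le]
  constructor
  · exact le_limsup_of_frequently_le (Frequently.of_forall fun n => (abs_le.mp (hf n)).1) hb
  · exact limsup_le_of_le hb'.isCoboundedUnder_le
      (Eventually.of_forall fun n => (abs_le.mp (hf n)).2)

theorem fa_abs_mean_le (S : Finset V) (Y : V → ℝ) (x : V) : |mean G β S Y x| ≤ 1 :=
  abs_Ee_le G β S Y _ (fun A => (abs_sp A x).le)

theorem abs_xiF_le (x y : V) (N : ℕ) (Y : V → ℝ) : |xiF G β x y N Y| ≤ 1 :=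
  fa_abs_mean_le _ _ _

theorem fa_dist_map (hT : G.IsTree) (φ : G ≃g G) (a b : V) : G.dist (φ a) (φ b) = G.dist a b := by
  have key : ∀ (ψ : G ≃g G) (a b : V), G.dist (ψ a) (ψ b) ≤ G.dist a b := by
    intro ψ a b
    obtain ⟨p, hp⟩ := hT.1.exists_walk_length_eq_dist a b
    calc G.dist (ψ a) (ψ b) ≤ (p.map ψ.toHom).length := SimpleGraph.dist_le _
      _ = G.dist a b := by simp [hp]
  apply le_antisymm (key φ a b)
  have := key φ.symm (φ a) (φ b)
  simpa using this

theorem fa_brn_map (hT : G.IsTree) (φ : G ≃g G) (x y : V) (N : ℕ) :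
    brn G (φ x) (φ y) N = (brn G x y N).map φ.toEquiv.toEmbedding := by
  unfold brn side
  rw [ball_map φ hT, Finset.filter_map]
  congr 1
  refine Finset.filter_congr fun v _ => ?_
  simp only [Function.comp, Equiv.coe_toEmbedding]
  have e : ∀ a b : V, G.dist a (φ.toEquiv b) = G.dist a (φ b) := fun _ _ => rfl
  rw [e, e, fa_dist_map hT, fa_dist_map hT]

section basic

variable (P : Par d β) (u : ℝ)

theorem fa_Yc_map (hT : G.IsTree) (φ : G ≃g G) (U : V → unitInterval) :
    Yc g G β P u (U ∘ φ.symm) = Yc g G β P u U ∘ φ.symm := by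
  funext v
  have h := Yf_map (g := g) hT P u φ (φ.symm v) U
  simp only [RelIso.apply_symm_apply] at h
  simpa only [Yc, Function.comp] using h

theorem abs_XiL_le (U : V → unitInterval) (x y : V) : |XiL g G β P u U x y| ≤ 1 :=
  fa_abs_limsup_le fun _ => abs_xiF_le _ _ _ _

theorem abs_MuL_le (U : V → unitInterval) (x : V) : |MuL g G β P u U x| ≤ 1 :=
  fa_abs_limsup_le fun _ => fa_abs_mean_le _ _ _

theorem XiL_map (hT : G.IsTree) (φ : G ≃g G) (U : V → unitInterval) (x y : V) :
    XiL g G β P u (U ∘ φ.symm) (φ x) (φ y) = XiL g G β P u U x y := by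
  unfold XiL
  congr 1
  funext N
  unfold xiF
  rw [fa_Yc_map P u hT φ U, fa_brn_map hT φ x y N]
  exact mean_map φ _ _ _

theorem MuL_map (hT : G.IsTree) (φ : G ≃g G) (U : V → unitInterval) (x : V) :
    MuL g G β P u (U ∘ φ.symm) (φ x) = MuL g G β P u U x := by
  unfold MuL
  congr 1
  funext N
  rw [fa_Yc_map P u hT φ U, ball_map φ hT]
  exact mean_map φ _ _ _

theorem fa_measurable_Yc (hg : DN g) : Measurable (fun U => Yc g G β P u U) :=
  measurable_pi_lambda _ fun v => measurable_Yf hg P u v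

theorem measurable_XiL (hg : DN g) (x y : V) : Measurable (fun U => XiL g G β P u U x y) := by
  unfold XiL
  refine Measurable.limsup fun N => ?_
  exact (measurable_mean _ x).comp (fa_measurable_Yc P u hg)

theorem measurable_MuL (hg : DN g) (x : V) : Measurable (fun U => MuL g G β P u U x) := by
  unfold MuL
  refine Measurable.limsup fun N => ?_
  exact (measurable_mean _ x).comp (fa_measurable_Yc P u hg)

end basic

end Vale.Agent.Lib.P161E
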