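import Vale.Agent.Lib.P161E.FA

/-! Job E3b: static bounds under the planted law. -/

open MeasureTheory Finset Filter Topology
open scoped Classical ENNReal

noncomputable section

namespace Vale.Agent.Lib.P161E

open Vale.Agent.Lib.P161

variable {V : Type*} {G : SimpleGraph V} [G.LocallyFinite] {β : ℝ} {d : ℕ}
  {g : ℕ → ℕ → unitInterval → ℝ}

theorem fb_planted_le {S : Finset V} {F F1 F2 : (V → ℝ) → ℝ} (hF1 : Measurable F1)
    (hF2 : Measurable F2) (h1 : ∀ y, 0 ≤ F1 y) (h2 : ∀ y, 0 ≤ F2 y) {K : ℝ} (hK : 0 ≤ K)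
    (hle : ∀ y, F y ≤ K * (F1 y + F2 y)) (t : ℝ) (y₀ : V → ℝ) :
    planted G β S t y₀ (fun y => ENNReal.ofReal (F y)) ≤
      ENNReal.ofReal K * (planted G β S t y₀ (fun y => ENNReal.ofReal (F1 y)) +
        planted G β S t y₀ (fun y => ENNReal.ofReal (F2 y))) := by
  unfold planted
  rw [← Finset.sum_add_distrib, Finset.mul_sum]
  refine Finset.sum_le_sum fun A _ => ?_
  rw [← mul_add, mul_left_comm]
  refine mul_le_mul_right ?_ _
  have hm : ∀ {f : (V → ℝ) → ℝ}, Measurable f → Measurable fun g : V → ℝ =>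
      ENNReal.ofReal (f (y₀ + t • stepVec S A + Real.sqrt t • g)) := fun hf =>
    (hf.comp (measurable_shift _ _ _)).ennreal_ofReal
  rw [← lintegral_add_left (hm hF1)]
  have hm2 : Measurable fun g : V → ℝ =>
      ENNReal.ofReal (F1 (y₀ + t • stepVec S A + Real.sqrt t • g)) +
        ENNReal.ofReal (F2 (y₀ + t • stepVec S A + Real.sqrt t • g)) := (hm hF1).add (hm hF2)
  rw [← lintegral_const_mul _ hm2]
  refine lintegral_mono fun g => ?_
  rw [← ENNReal.ofReal_add (h1 _) (h2 _), ← ENNReal.ofReal_mul hK]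
  exact ENNReal.ofReal_le_ofReal (hle _)

theorem fb_abs_sq_sub_le {a b : ℝ} (ha : |a| ≤ 1) (hb : |b| ≤ 1) : |(a - b) ^ 2| ≤ 4 := by
  have h1 := abs_le.mp ha
  have h2 := abs_le.mp hb
  rw [abs_of_nonneg (sq_nonneg _)]
  nlinarith [h1.1, h1.2, h2.1, h2.2]

theorem fb_convC_nonneg {κ ρ : ℝ} (hκ : 0 < κ) (hκρ : κ < ρ) (hρ : ρ < 1)
    (hdκρ : ((d : ℝ) - 1) * κ * ρ < 1) : 0 ≤ convC d κ ρ := by
  have hρ0 : 0 < ρ := hκ.trans hκρ
  have hκ1 : κ < 1 := hκρ.trans hρ
  have h1 : 0 < 1 - κ / ρ := by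
    rw [sub_pos, div_lt_one hρ0]; exact hκρ
  have h2 : 0 < 1 - ((d : ℝ) - 1) * κ * ρ := by linarith
  have h3 : 0 < 1 - κ ^ 2 := by nlinarith
  simp only [convC]
  positivity

section static

variable (hT : G.IsTree) (hd : 2 ≤ d) (hreg : G.IsRegularOfDegree d) (hβ : 0 ≤ β) (P : Par d β)

include hT hd hreg hβ

/-- The common constant of the bound at a vertex of the star of `x`. -/
theorem fb_static_one {x w : V} (hw : G.dist w x ≤ 1) {N : ℕ} (hwN : w ∈ ball G x N) {S : Finset V}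
    (hNS : ball G x N ⊆ S) (hS : Star G x S) {t : ℝ} (ht : 0 ≤ t) :
    planted G β S t 0 (fun Y => ENNReal.ofReal
      ((mean G β S Y w - mean G β (ball G x N) Y w) ^ 2)) ≤
      ENNReal.ofReal (2 * (1 / P.ρ) ^ 2 * convC d P.κ P.ρ ^ 3 * rst d β P ^ N) := by
  have hρ0 : 0 < P.ρ := P.hκ.trans P.hκρ
  have h := static_ball (G := G) (β := β) hT hd hreg hβ P.hθκ P.hκ P.hκρ P.hρ P.hdκρ x N hNS hS ht
    (fun _ v => if v = w then 1 else 0) (fun v => measurable_const) (fun _ _ _ => rfl)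
    (A₀ := 1 / P.ρ) (by positivity) (by
      intro _ v
      by_cases hv : v = w
      · subst hv
        simp only [if_true, abs_one]
        have hk : G.dist v x = 0 ∨ G.dist v x = 1 := by omega
        rcases hk with hk | hk
        · rw [hk, pow_zero, mul_one, le_div_iff₀ hρ0, one_mul]
          exact P.hρ.le
        · rw [hk, pow_one, div_mul_cancel₀ _ hρ0.ne']
      · simp only [if_neg hv, abs_zero]
        positivity)
  have e : ∀ Y : V → ℝ, ∑ v ∈ ball G x N, (if v = w then (1 : ℝ) else 0) *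
      (mean G β S Y v - mean G β (ball G x N) Y v) = mean G β S Y w - mean G β (ball G x N) Y w := by
    intro Y
    rw [Finset.sum_eq_single w]
    · simp
    · intro v _ hv
      simp [hv]
    · intro hw'
      exact absurd hwN hw'
  simp only [e] at h
  exact h

/-- E3a. Static bound for cavity means, under the planted law on a star set `S` containing `ball x N`. Proof:
`static_ball` with `a v = 1` at `v = x` or `v = y`, so `A₀ = 1/ρ`; `mean_split_left`, `mean_split_right` for the cuts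
of `S` and of `ball x N` at the edge `xy` (`side_cut`), and `bm_inv_lip`. -/
theorem xiS_static {x y : V} (hxy : G.Adj x y) {N : ℕ} (hN : 1 ≤ N) {S : Finset V}
    (hNS : ball G x N ⊆ S) (hS : Star G x S) {t : ℝ} (ht : 0 ≤ t) :
    EP G β S t 0 (fun Y => (xiS G β S x y Y - xiF G β x y N Y) ^ 2) ≤ Kst d β P * rst d β P ^ N := by
  set θ := Real.tanh β with hθ
  have hθ0 : 0 ≤ θ := by
    rw [hθ, Real.tanh_eq_sinh_div_cosh]
    exact div_nonneg (Real.sinh_nonneg_iff.mpr hβ) (Real.cosh_pos β).le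
  have hθ1 : θ < 1 := P.hθκ.trans_lt (P.hκρ.trans P.hρ)
  have hρ0 : 0 < P.ρ := P.hκ.trans P.hκρ
  have hd1 : (0 : ℝ) ≤ (d : ℝ) - 1 := by
    have : (2 : ℝ) ≤ d := by exact_mod_cast hd
    linarith
  have hxB : x ∈ ball G x N := (mem_ball hT).mpr (by simp)
  have hyB : y ∈ ball G x N := (mem_ball hT).mpr (by
    rw [SimpleGraph.dist_eq_one_iff_adj.mpr hxy]; exact hN)
  have hxd : G.dist x x ≤ 1 := by simp
  have hyd : G.dist y x ≤ 1 := by rw [SimpleGraph.dist_eq_one_iff_adj.mpr hxy.symm]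
  set B := ball G x N with hB
  have hcutS := side_cut (G := G) hT hxy (hNS hxB) (hNS hyB)
  have hcutB := side_cut (G := G) hT hxy hxB hyB
  have hUS := side_union (G := G) hT hxy S
  have hUB := side_union (G := G) hT hxy B
  have hC0 := fb_convC_nonneg (d := d) P.hκ P.hκρ P.hρ P.hdκρ
  have hr0 : 0 ≤ rst d β P := by unfold rst; positivity
  have h1mθ : 0 < 1 - θ := by linarith
  have hc0 : 0 ≤ 2 / (1 - θ) ^ 2 := by positivity
  -- pointwise bound
  have hpt : ∀ Y : V → ℝ, (xiS G β S x y Y - xiF G β x y N Y) ^ 2 ≤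
      (2 * (2 / (1 - θ) ^ 2) ^ 2) * ((mean G β S Y x - mean G β B Y x) ^ 2 +
        (mean G β S Y y - mean G β B Y y) ^ 2) := by
    intro Y
    have h1 := mean_split_left (β := β) hcutS Y
    have h2 := mean_split_right (β := β) hcutS Y
    have h3 := mean_split_left (β := β) hcutB Y
    have h4 := mean_split_right (β := β) hcutB Y
    rw [hUS] at h1 h2
    rw [hUB] at h3 h4
    have hinv := bm_inv_lip hθ0 hθ1 (fa_abs_mean_le (β := β) (G := G) (side G S x y) Y x)
      (fa_abs_mean_le (β := β) (G := G) (side G S y x) Y y)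
      (fa_abs_mean_le (β := β) (G := G) (side G B x y) Y x)
      (fa_abs_mean_le (β := β) (G := G) (side G B y x) Y y)
    rw [← h1, ← h2, ← h3, ← h4] at hinv
    show (mean G β (side G S x y) Y x - mean G β (side G B x y) Y x) ^ 2 ≤ _
    set u := mean G β (side G S x y) Y x - mean G β (side G B x y) Y x
    set p := mean G β S Y x - mean G β B Y x
    set q := mean G β S Y y - mean G β B Y y
    set c := 2 / (1 - θ) ^ 2
    have h5 : u ^ 2 ≤ (c * (|p| + |q|)) ^ 2 := by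
      rw [← sq_abs u]
      exact pow_le_pow_left₀ (abs_nonneg _) hinv 2
    have h6 : (|p| + |q|) ^ 2 ≤ 2 * (p ^ 2 + q ^ 2) := by
      have := sq_nonneg (|p| - |q|)
      have e1 := sq_abs p
      have e2 := sq_abs q
      nlinarith
    calc u ^ 2 ≤ (c * (|p| + |q|)) ^ 2 := h5
      _ = c ^ 2 * (|p| + |q|) ^ 2 := by ring
      _ ≤ c ^ 2 * (2 * (p ^ 2 + q ^ 2)) := mul_le_mul_of_nonneg_left h6 (sq_nonneg _)
      _ = 2 * c ^ 2 * (p ^ 2 + q ^ 2) := by ring
  have hmF : Measurable (fun Y : V → ℝ => (xiS G β S x y Y - xiF G β x y N Y) ^ 2) :=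
    ((measurable_mean _ x).sub (measurable_mean _ x)).pow_const 2
  have hbF : ∀ Y : V → ℝ, |(xiS G β S x y Y - xiF G β x y N Y) ^ 2| ≤ 4 := fun Y =>
    fb_abs_sq_sub_le (fa_abs_mean_le _ _ _) (fa_abs_mean_le _ _ _)
  rw [oneA_EP_eq_toReal hmF hbF (fun Y => sq_nonneg _)]
  set E := 2 * (1 / P.ρ) ^ 2 * convC d P.κ P.ρ ^ 3 * rst d β P ^ N with hE
  have hE0 : 0 ≤ E := by positivity
  have hK0 : 0 ≤ 2 * (2 / (1 - θ) ^ 2) ^ 2 := by positivity
  have hpl := fb_planted_le (G := G) (β := β) (S := S)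
    (F := fun Y => (xiS G β S x y Y - xiF G β x y N Y) ^ 2)
    (F1 := fun Y => (mean G β S Y x - mean G β B Y x) ^ 2)
    (F2 := fun Y => (mean G β S Y y - mean G β B Y y) ^ 2)
    (((measurable_mean _ x).sub (measurable_mean _ x)).pow_const 2)
    (((measurable_mean _ y).sub (measurable_mean _ y)).pow_const 2)
    (fun _ => sq_nonneg _) (fun _ => sq_nonneg _) hK0 hpt t 0
  have hx1 := fb_static_one (β := β) hT hd hreg hβ P hxd hxB hNS hS ht
  have hy1 := fb_static_one (β := β) hT hd hreg hβ P hyd hyB hNS hS ht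
  have hbd : planted G β S t 0 (fun Y => ENNReal.ofReal
      ((xiS G β S x y Y - xiF G β x y N Y) ^ 2)) ≤
      ENNReal.ofReal ((2 * (2 / (1 - θ) ^ 2) ^ 2) * (E + E)) := by
    refine hpl.trans ?_
    rw [ENNReal.ofReal_mul hK0, ENNReal.ofReal_add hE0 hE0]
    gcongr
  refine (ENNReal.toReal_le_of_le_ofReal (by positivity) hbd).trans ?_
  -- the constants
  have hfin : (2 * (2 / (1 - θ) ^ 2) ^ 2) * (E + E) =
      32 / ((1 - θ) ^ 4 * P.ρ ^ 2) * (convC d P.κ P.ρ ^ 3 * rst d β P ^ N) := by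
    rw [hE]
    field_simp
    ring
  have hK : Kst d β P * rst d β P ^ N =
      1000 / ((1 - θ) ^ 4 * P.ρ ^ 2) * (convC d P.κ P.ρ ^ 3 * rst d β P ^ N) := by
    unfold Kst
    rw [mul_assoc]
  rw [hfin, hK]
  refine mul_le_mul_of_nonneg_right ?_ (by positivity)
  exact div_le_div_of_nonneg_right (by norm_num) (by positivity)

/-- Same statement for the mean at `x` and `y`. -/
theorem mean_static {x y : V} (hxy : G.Adj x y) {N : ℕ} (hN : 1 ≤ N) {S : Finset V}
    (hNS : ball G x N ⊆ S) (hS : Star G x S) {t : ℝ} (ht : 0 ≤ t) :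
    EP G β S t 0 (fun Y => (mean G β S Y x - mean G β (ball G x N) Y x) ^ 2) ≤ Kst d β P * rst d β P ^ N ∧
    EP G β S t 0 (fun Y => (mean G β S Y y - mean G β (ball G x N) Y y) ^ 2) ≤ Kst d β P * rst d β P ^ N := by
  have hθ0 : 0 ≤ Real.tanh β := by
    rw [Real.tanh_eq_sinh_div_cosh]
    exact div_nonneg (Real.sinh_nonneg_iff.mpr hβ) (Real.cosh_pos β).le
  have hθ1 : Real.tanh β < 1 := P.hθκ.trans_lt (P.hκρ.trans P.hρ)
  have hρ0 : 0 < P.ρ := P.hκ.trans P.hκρ
  have hd1 : (0 : ℝ) ≤ (d : ℝ) - 1 := by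
    have : (2 : ℝ) ≤ d := by exact_mod_cast hd
    linarith
  have hxB : x ∈ ball G x N := (mem_ball hT).mpr (by simp)
  have hyB : y ∈ ball G x N := (mem_ball hT).mpr (by
    rw [SimpleGraph.dist_eq_one_iff_adj.mpr hxy]; exact hN)
  have hxd : G.dist x x ≤ 1 := by simp
  have hyd : G.dist y x ≤ 1 := by rw [SimpleGraph.dist_eq_one_iff_adj.mpr hxy.symm]
  have hC0 := fb_convC_nonneg (d := d) P.hκ P.hκρ P.hρ P.hdκρ
  have hr0 : 0 ≤ rst d β P := by unfold rst; positivity
  have h1mθ : 0 < 1 - Real.tanh β := by linarith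
  have hle : 2 * (1 / P.ρ) ^ 2 * convC d P.κ P.ρ ^ 3 * rst d β P ^ N ≤ Kst d β P * rst d β P ^ N := by
    unfold Kst
    have e : 2 * (1 / P.ρ) ^ 2 * convC d P.κ P.ρ ^ 3 * rst d β P ^ N =
        2 / P.ρ ^ 2 * (convC d P.κ P.ρ ^ 3 * rst d β P ^ N) := by
      field_simp
    rw [e, mul_assoc]
    refine mul_le_mul_of_nonneg_right ?_ (by positivity)
    rw [div_le_div_iff₀ (by positivity) (by positivity)]
    have h4 : (1 - Real.tanh β) ^ 4 ≤ 1 := pow_le_one₀ h1mθ.le (by linarith)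
    have hp : 0 < P.ρ ^ 2 := by positivity
    nlinarith
  have key : ∀ w : V, G.dist w x ≤ 1 → w ∈ ball G x N →
      EP G β S t 0 (fun Y => (mean G β S Y w - mean G β (ball G x N) Y w) ^ 2) ≤
        Kst d β P * rst d β P ^ N := by
    intro w hw hwB
    have hm : Measurable (fun Y : V → ℝ => (mean G β S Y w - mean G β (ball G x N) Y w) ^ 2) :=
      ((measurable_mean _ w).sub (measurable_mean _ w)).pow_const 2
    have hb : ∀ Y : V → ℝ, |(mean G β S Y w - mean G β (ball G x N) Y w) ^ 2| ≤ 4 := fun Y =>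
      fb_abs_sq_sub_le (fa_abs_mean_le _ _ _) (fa_abs_mean_le _ _ _)
    rw [oneA_EP_eq_toReal hm hb (fun Y => sq_nonneg _)]
    exact (ENNReal.toReal_le_of_le_ofReal (by positivity)
      (fb_static_one (β := β) hT hd hreg hβ P hw hwB hNS hS ht)).trans hle
  exact ⟨key x hxd hxB, key y hyd hyB⟩

variable (hg : DN g) {L k : ℕ}

include hg


end static

end Vale.Agent.Lib.P161E
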