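import Vale.Agent.Lib.P161E.FB

/-! Job E3c: convergence to the limit fields. -/

open MeasureTheory Finset Filter Topology
open scoped Classical ENNReal

noncomputable section

namespace Vale.Agent.Lib.P161E

open Vale.Agent.Lib.P161

section generalFC

variable {Ω : Type*} [MeasurableSpace Ω] {μ : Measure Ω} [IsProbabilityMeasure μ]

/-- Geometric `L²` bounds give a.e. absolute summability. -/
theorem fc_ae_summable {g : ℕ → Ω → ℝ} (hm : ∀ N, Measurable (g N)) {C K r : ℝ}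
    (hb : ∀ N ω, |g N ω| ≤ C) (hK : 0 ≤ K) (hr0 : 0 < r) (hr1 : r < 1)
    (hg : ∀ N, ∫ ω, g N ω ^ 2 ∂μ ≤ K * r ^ N) :
    ∀ᵐ ω ∂μ, Summable (fun N => |g N ω|) := by
  set s := Real.sqrt r with hs
  have hs0 : 0 < s := Real.sqrt_pos.mpr hr0
  have hs1 : s < 1 := by
    rw [hs, Real.sqrt_lt' one_pos]; simpa using hr1
  have hss : s * s = r := Real.mul_self_sqrt hr0.le
  have hpow : ∀ N : ℕ, r ^ N = s ^ N * s ^ N := by
    intro N; rw [← mul_pow, hss]
  have hint2 : ∀ N, Integrable (fun ω => g N ω ^ 2) μ := by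
    intro N
    refine Integrable.of_bound ((hm N).pow_const 2).aestronglyMeasurable (C ^ 2)
      (Filter.Eventually.of_forall fun ω => ?_)
    rw [Real.norm_eq_abs, abs_pow]
    exact pow_le_pow_left₀ (abs_nonneg _) (hb N ω) 2
  have hint1 : ∀ N, Integrable (fun ω => |g N ω|) μ := by
    intro N
    refine Integrable.of_bound (hm N).abs.aestronglyMeasurable C
      (Filter.Eventually.of_forall fun ω => ?_)
    rw [Real.norm_eq_abs, abs_abs]
    exact hb N ω
  have hbound : ∀ N, ∫ ω, |g N ω| ∂μ ≤ ((K + 1) / 2) * s ^ N := by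
    intro N
    have hsN : 0 < s ^ N := pow_pos hs0 N
    have hpt : ∀ ω, |g N ω| ≤ g N ω ^ 2 / (2 * s ^ N) + s ^ N / 2 := by
      intro ω
      rw [div_add_div _ _ (by positivity) (by norm_num), le_div_iff₀ (by positivity)]
      have h1 : g N ω ^ 2 = |g N ω| ^ 2 := (sq_abs _).symm
      rw [h1]
      nlinarith [sq_nonneg (|g N ω| - s ^ N), abs_nonneg (g N ω)]
    have h2 : ∫ ω, |g N ω| ∂μ ≤ ∫ ω, (g N ω ^ 2 / (2 * s ^ N) + s ^ N / 2) ∂μ := by
      refine integral_mono (hint1 N) ?_ hpt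
      exact ((hint2 N).div_const _).add (integrable_const _)
    have h3 : ∫ ω, (g N ω ^ 2 / (2 * s ^ N) + s ^ N / 2) ∂μ =
        (∫ ω, g N ω ^ 2 ∂μ) / (2 * s ^ N) + s ^ N / 2 := by
      rw [integral_add ((hint2 N).div_const _) (integrable_const _), integral_div]
      simp
    rw [h3] at h2
    have h4 : (∫ ω, g N ω ^ 2 ∂μ) / (2 * s ^ N) ≤ K * r ^ N / (2 * s ^ N) :=
      div_le_div_of_nonneg_right (hg N) (by positivity)
    have h5 : K * r ^ N / (2 * s ^ N) = K / 2 * s ^ N := by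
      rw [hpow N]; field_simp
    rw [h5] at h4
    calc ∫ ω, |g N ω| ∂μ ≤ K / 2 * s ^ N + s ^ N / 2 := by linarith
      _ = ((K + 1) / 2) * s ^ N := by ring
  have hsum : Summable (fun N : ℕ => ((K + 1) / 2) * s ^ N) :=
    (summable_geometric_of_lt_one hs0.le hs1).mul_left _
  have hlint : ∫⁻ ω, ∑' N, ENNReal.ofReal |g N ω| ∂μ ≠ ⊤ := by
    rw [lintegral_tsum fun N => (hm N).abs.ennreal_ofReal.aemeasurable]
    have h1 : ∀ N, ∫⁻ ω, ENNReal.ofReal |g N ω| ∂μ ≤ ENNReal.ofReal (((K + 1) / 2) * s ^ N) := by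
      intro N
      rw [← ofReal_integral_eq_lintegral_ofReal (hint1 N)
        (Filter.Eventually.of_forall fun ω => abs_nonneg _)]
      exact ENNReal.ofReal_le_ofReal (hbound N)
    refine ne_top_of_le_ne_top ?_ (ENNReal.tsum_le_tsum h1)
    exact hsum.tsum_ofReal_ne_top
  have hmeas : Measurable fun ω => ∑' N, ENNReal.ofReal |g N ω| :=
    Measurable.tsum fun N => (hm N).abs.ennreal_ofReal
  filter_upwards [ae_lt_top hmeas hlint] with ω hω
  have := ENNReal.summable_toReal hω.ne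
  refine this.congr fun N => ?_
  rw [ENNReal.toReal_ofReal (abs_nonneg _)]

/-- Geometric `L²` bounds give a.e. convergence to zero. -/
theorem fc_ae_tendsto_zero {g : ℕ → Ω → ℝ} (hm : ∀ N, Measurable (g N)) {C K r : ℝ}
    (hb : ∀ N ω, |g N ω| ≤ C) (hK : 0 ≤ K) (hr0 : 0 < r) (hr1 : r < 1)
    (hg : ∀ N, ∫ ω, g N ω ^ 2 ∂μ ≤ K * r ^ N) :
    ∀ᵐ ω ∂μ, Tendsto (fun N => g N ω) atTop (𝓝 0) := by
  filter_upwards [fc_ae_summable hm hb hK hr0 hr1 hg] with ω hω
  exact tendsto_zero_iff_abs_tendsto_zero _ |>.mpr hω.tendsto_atTop_zero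

/-- Geometric `L²` bounds of the increments give a.e. convergence to the limsup. -/
theorem fc_ae_tendsto_limsup {f : ℕ → Ω → ℝ} (hm : ∀ N, Measurable (f N)) {C K r : ℝ}
    (hb : ∀ N ω, |f N ω| ≤ C) (hK : 0 ≤ K) (hr0 : 0 < r) (hr1 : r < 1)
    (hg : ∀ N, ∫ ω, (f (N + 1) ω - f N ω) ^ 2 ∂μ ≤ K * r ^ N) :
    ∀ᵐ ω ∂μ, Tendsto (fun N => f N ω) atTop (𝓝 (limsup (fun N => f N ω) atTop)) := by
  have hb' : ∀ N ω, |f (N + 1) ω - f N ω| ≤ C + C := by
    intro N ω
    exact (abs_sub _ _).trans (add_le_add (hb _ _) (hb _ _))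
  filter_upwards [fc_ae_summable (g := fun N ω => f (N + 1) ω - f N ω)
    (fun N => (hm _).sub (hm _)) hb' hK hr0 hr1 hg] with ω hω
  have hc : CauchySeq (fun N => f N ω) := by
    refine cauchySeq_of_summable_dist ?_
    refine hω.congr fun N => ?_
    rw [Real.dist_eq, abs_sub_comm]
  obtain ⟨l, hl⟩ := cauchySeq_tendsto_of_complete hc
  rwa [hl.limsup_eq]

/-- Passage to the limit of a uniform `L²` bound. -/
theorem fc_close_limit {a : Ω → ℝ} {f : ℕ → Ω → ℝ} {l : Ω → ℝ} (ha : Measurable a)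
    (hm : ∀ N, Measurable (f N)) {C B : ℝ}
    (hab : ∀ ω, |a ω| ≤ C) (hb : ∀ N ω, |f N ω| ≤ C) {N₀ : ℕ}
    (hl : ∀ᵐ ω ∂μ, Tendsto (fun N => f N ω) atTop (𝓝 (l ω)))
    (hB : ∀ N, N₀ ≤ N → ∫ ω, (a ω - f N ω) ^ 2 ∂μ ≤ B) :
    ∫ ω, (a ω - l ω) ^ 2 ∂μ ≤ B := by
  have hlim : Tendsto (fun N => ∫ ω, (a ω - f N ω) ^ 2 ∂μ) atTop (𝓝 (∫ ω, (a ω - l ω) ^ 2 ∂μ)) := by
    refine tendsto_integral_of_dominated_convergence (fun _ => (C + C) ^ 2) ?_ (integrable_const _) ?_ ?_
    · intro N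
      exact ((ha.sub (hm N)).pow_const 2).aestronglyMeasurable
    · intro N
      refine Filter.Eventually.of_forall fun ω => ?_
      rw [Real.norm_eq_abs, abs_pow]
      exact pow_le_pow_left₀ (abs_nonneg _) ((abs_sub _ _).trans (add_le_add (hab ω) (hb N ω))) 2
    · filter_upwards [hl] with ω hω
      exact (tendsto_const_nhds.sub hω).pow 2
  exact le_of_tendsto hlim ((eventually_ge_atTop N₀).mono hB)

end generalFC

variable {V : Type*} {G : SimpleGraph V} [G.LocallyFinite] {β : ℝ} {d : ℕ}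
  {g : ℕ → ℕ → unitInterval → ℝ}

theorem fc_dy_nonneg (L k : ℕ) : 0 ≤ dy L k := by
  unfold dy dlt
  positivity

theorem fc_tanh_nonneg (hβ : 0 ≤ β) : 0 ≤ Real.tanh β := by
  rw [Real.tanh_eq_sinh_div_cosh]
  exact div_nonneg (Real.sinh_nonneg_iff.mpr hβ) (Real.cosh_pos β).le

theorem fc_rho_pos (P : Par d β) : 0 < P.ρ := P.hκ.trans P.hκρ

theorem fc_rst_pos (hd : 2 ≤ d) (P : Par d β) : 0 < rst d β P := by
  unfold rst
  have h1 : (2 : ℝ) ≤ d := by exact_mod_cast hd
  have h2 := fc_rho_pos P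
  have : 0 < (d : ℝ) - 1 := by linarith
  positivity

theorem fc_rst_lt_one (P : Par d β) : rst d β P < 1 := P.hρ2

theorem fc_convC_ge (hd : 2 ≤ d) (P : Par d β) : 1 ≤ convC d P.κ P.ρ := by
  unfold convC
  have hρ := fc_rho_pos P
  have hκ := P.hκ
  have hκρ := P.hκρ
  have hρ1 := P.hρ
  have hd2 := P.hdκρ
  have h1 : (2 : ℝ) ≤ d := by exact_mod_cast hd
  have h2 : P.κ / P.ρ < 1 := (div_lt_one hρ).mpr hκρ
  have h3 : P.κ ≤ P.κ / P.ρ := by
    rw [le_div_iff₀ hρ]; nlinarith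
  have h4 : 0 ≤ ((d : ℝ) - 1) * P.κ * P.ρ := by
    have : 0 ≤ (d : ℝ) - 1 := by linarith
    positivity
  have hden : 0 < (1 - P.κ / P.ρ) * (1 - ((d : ℝ) - 1) * P.κ * P.ρ) :=
    mul_pos (by linarith) (by linarith)
  rw [one_le_div hden]
  have h5 : (1 - P.κ / P.ρ) * (1 - ((d : ℝ) - 1) * P.κ * P.ρ) ≤ 1 - P.κ / P.ρ := by
    have : 0 ≤ 1 - P.κ / P.ρ := by linarith
    nlinarith
  have h6 : P.κ ^ 2 ≤ P.κ := by nlinarith
  linarith

theorem fc_Kst_ge (hd : 2 ≤ d) (hβ : 0 ≤ β) (P : Par d β) : 4 ≤ Kst d β P := by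
  unfold Kst
  have hρ := fc_rho_pos P
  have hρ1 := P.hρ
  have ht0 := fc_tanh_nonneg hβ
  have ht1 := Real.tanh_lt_one β
  have hC := fc_convC_ge hd P
  have hC3 : 1 ≤ convC d P.κ P.ρ ^ 3 := one_le_pow₀ hC
  have hA : 0 < (1 - Real.tanh β) ^ 4 * P.ρ ^ 2 := by
    have : 0 < 1 - Real.tanh β := by linarith
    positivity
  have hA1 : (1 - Real.tanh β) ^ 4 * P.ρ ^ 2 ≤ 1 := by
    have h1 : (1 - Real.tanh β) ^ 4 ≤ 1 := pow_le_one₀ (by linarith) (by linarith)
    have h2 : P.ρ ^ 2 ≤ 1 := pow_le_one₀ hρ.le hρ1.le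
    have h3 : 0 ≤ (1 - Real.tanh β) ^ 4 := by
      have : 0 ≤ 1 - Real.tanh β := by linarith
      positivity
    nlinarith [sq_nonneg P.ρ]
  have h1000 : (1000 : ℝ) ≤ 1000 / ((1 - Real.tanh β) ^ 4 * P.ρ ^ 2) := by
    rw [le_div_iff₀ hA]
    nlinarith
  nlinarith

section static

variable (hT : G.IsTree) (hd : 2 ≤ d) (hreg : G.IsRegularOfDegree d) (hβ : 0 ≤ β) (P : Par d β)

include hT hd hreg hβ

variable (hg : DN g) {L k : ℕ}

include hg

omit hT hd hreg hβ in
theorem fc_measurable_Yc (u : ℝ) : Measurable (Yc g G β P u) :=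
  measurable_pi_lambda _ fun v => measurable_Yf hg P u v

/-- Transfer of the difference of two means to the planted law. -/
theorem fc_law {S : Finset V} {s : V} (hs : s ∈ S) (hS : Star G s S) {T₁ T₂ : Finset V}
    (h₁ : T₁ ⊆ S) (h₂ : T₂ ⊆ S) (a b : V) :
    ∫ U, (mean G β T₁ (Yc g G β P (dy L k) U) a - mean G β T₂ (Yc g G β P (dy L k) U) b) ^ 2
        ∂iidUniform V =
      EP G β S (dy L k) 0 (fun Y => (mean G β T₁ Y a - mean G β T₂ Y b) ^ 2) := by
  have hmeas : Measurable (fun Y : V → ℝ => (mean G β T₁ Y a - mean G β T₂ Y b) ^ 2) :=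
    ((measurable_mean T₁ a).sub (measurable_mean T₂ b)).pow_const 2
  have hbd : ∀ Y : V → ℝ, |(mean G β T₁ Y a - mean G β T₂ Y b) ^ 2| ≤ (1 + 1) ^ 2 := by
    intro Y
    rw [abs_pow]
    exact pow_le_pow_left₀ (abs_nonneg _)
      ((abs_sub _ _).trans (add_le_add (abs_mean_le _ _ _ _ _) (abs_mean_le _ _ _ _ _))) 2
  have hdep : DepOn S (fun Y : V → ℝ => (mean G β T₁ Y a - mean G β T₂ Y b) ^ 2) := by
    intro y y' hyy
    have e1 : mean G β T₁ y a = mean G β T₁ y' a :=
      mean_congr T₁ (fun v hv => hyy v (h₁ hv)) a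
    have e2 : mean G β T₂ y b = mean G β T₂ y' b :=
      mean_congr T₂ (fun v hv => hyy v (h₂ hv)) b
    simp only [e1, e2]
  exact Yf_EP hg hT hd hreg hβ P hs hS hmeas hbd hdep

end static

section staticMain

variable (hT : G.IsTree) (hd : 2 ≤ d) (hreg : G.IsRegularOfDegree d) (hβ : 0 ≤ β) (P : Par d β)

include hT hd hreg hβ

variable (hg : DN g) {L k : ℕ}

include hg

/-- The `L²` bound along the branches, `N ≤ M`. -/
theorem fc_xiF_sub {x y : V} (hxy : G.Adj x y) {N M : ℕ} (hN : 1 ≤ N) (hNM : N ≤ M) :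
    ∫ U, (xiF G β x y M (Yc g G β P (dy L k) U) - xiF G β x y N (Yc g G β P (dy L k) U)) ^ 2
        ∂iidUniform V ≤ Kst d β P * rst d β P ^ N := by
  have hsub : ball G x N ⊆ ball G x M := by
    intro v hv
    rw [mem_ball hT] at hv ⊢
    exact hv.trans hNM
  have hx : x ∈ ball G x M := by
    rw [mem_ball hT]; simp
  have h₁ : brn G x y M ⊆ ball G x M := Finset.filter_subset _ _
  have h₂ : brn G x y N ⊆ ball G x M := (Finset.filter_subset _ _).trans hsub
  have h := fc_law hT hd hreg hβ P hg (L := L) (k := k) hx (star_ball hT hx) h₁ h₂ x x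
  have hst := xiS_static hT hd hreg hβ P hxy hN hsub (star_ball hT hx) (fc_dy_nonneg L k)
  exact h.le.trans hst

/-- E3b. Limit fields: a.e. convergence and `L²` rate, by `Yf_EP`, `xiS_static` and summability. -/
theorem xiF_tendsto (x y : V) (hxy : G.Adj x y) : ∀ᵐ U ∂iidUniform V,
    Tendsto (fun N => xiF G β x y N (Yc g G β P (dy L k) U)) atTop (𝓝 (XiL g G β P (dy L k) U x y)) := by
  have hY := fc_measurable_Yc (G := G) P hg (dy L k)
  have hm : ∀ N, Measurable (fun U => xiF G β x y (N + 1) (Yc g G β P (dy L k) U)) := fun N =>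
    (measurable_mean (brn G x y (N + 1)) x).comp hY
  have hK0 : 0 ≤ Kst d β P * rst d β P :=
    mul_nonneg ((by norm_num : (0 : ℝ) ≤ 4).trans (fc_Kst_ge hd hβ P)) (fc_rst_pos hd P).le
  have := fc_ae_tendsto_limsup (μ := iidUniform V) hm (C := 1) (K := Kst d β P * rst d β P)
    (r := rst d β P) (fun N U => abs_mean_le _ _ _ _ _) hK0 (fc_rst_pos hd P) (fc_rst_lt_one P)
    (fun N => by
      have := fc_xiF_sub hT hd hreg hβ P hg (L := L) (k := k) hxy (N := N + 1) (M := N + 1 + 1)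
        (by omega) (by omega)
      calc _ ≤ Kst d β P * rst d β P ^ (N + 1) := this
        _ = Kst d β P * rst d β P * rst d β P ^ N := by ring)
  filter_upwards [this] with U hU
  have h2 : limsup (fun N => xiF G β x y (N + 1) (Yc g G β P (dy L k) U)) atTop =
      XiL g G β P (dy L k) U x y := by
    unfold XiL
    exact limsup_nat_add (fun N => xiF G β x y N (Yc g G β P (dy L k) U)) 1
  rw [h2] at hU
  exact (tendsto_add_atTop_iff_nat 1).mp hU

/-- The `L²` bound along the balls, `N ≤ M`. -/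
theorem fc_mean_sub {x : V} {N M : ℕ} (hN : 1 ≤ N) (hNM : N ≤ M) :
    ∫ U, (mean G β (ball G x M) (Yc g G β P (dy L k) U) x -
        mean G β (ball G x N) (Yc g G β P (dy L k) U) x) ^ 2
        ∂iidUniform V ≤ Kst d β P * rst d β P ^ N := by
  have hsub : ball G x N ⊆ ball G x M := by
    intro v hv
    rw [mem_ball hT] at hv ⊢
    exact hv.trans hNM
  have hx : x ∈ ball G x M := by
    rw [mem_ball hT]; simp
  obtain ⟨y, hxy⟩ : ∃ y, G.Adj x y := by
    have : 0 < (G.neighborFinset x).card := by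
      rw [G.card_neighborFinset_eq_degree, hreg x]
      omega
    obtain ⟨y, hy⟩ := Finset.card_pos.mp this
    exact ⟨y, (G.mem_neighborFinset x y).mp hy⟩
  have h := fc_law hT hd hreg hβ P hg (L := L) (k := k) hx (star_ball hT hx)
    (T₁ := ball G x M) (T₂ := ball G x N) (Finset.Subset.refl _) hsub x x
  have hst := (mean_static hT hd hreg hβ P hxy hN hsub (star_ball hT hx) (fc_dy_nonneg L k)).1
  exact h.le.trans hst

theorem mean_tendsto (x : V) : ∀ᵐ U ∂iidUniform V,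
    Tendsto (fun N => mean G β (ball G x N) (Yc g G β P (dy L k) U) x) atTop
      (𝓝 (MuL g G β P (dy L k) U x)) := by
  have hY := fc_measurable_Yc (G := G) P hg (dy L k)
  have hm : ∀ N, Measurable (fun U => mean G β (ball G x (N + 1)) (Yc g G β P (dy L k) U) x) := fun N =>
    (measurable_mean (ball G x (N + 1)) x).comp hY
  have hK0 : 0 ≤ Kst d β P * rst d β P :=
    mul_nonneg ((by norm_num : (0 : ℝ) ≤ 4).trans (fc_Kst_ge hd hβ P)) (fc_rst_pos hd P).le
  have := fc_ae_tendsto_limsup (μ := iidUniform V) hm (C := 1) (K := Kst d β P * rst d β P)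
    (r := rst d β P) (fun N U => abs_mean_le _ _ _ _ _) hK0 (fc_rst_pos hd P) (fc_rst_lt_one P)
    (fun N => by
      have := fc_mean_sub hT hd hreg hβ P hg (L := L) (k := k) (x := x) (N := N + 1) (M := N + 1 + 1)
        (by omega) (by omega)
      calc _ ≤ Kst d β P * rst d β P ^ (N + 1) := this
        _ = Kst d β P * rst d β P * rst d β P ^ N := by ring)
  filter_upwards [this] with U hU
  have h2 : limsup (fun N => mean G β (ball G x (N + 1)) (Yc g G β P (dy L k) U) x) atTop =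
      MuL g G β P (dy L k) U x := by
    unfold MuL
    exact limsup_nat_add (fun N => mean G β (ball G x N) (Yc g G β P (dy L k) U) x) 1
  rw [h2] at hU
  exact (tendsto_add_atTop_iff_nat 1).mp hU

theorem XiL_close {x y : V} (hxy : G.Adj x y) {N : ℕ} (hN : 1 ≤ N) :
    ∫ U, (xiF G β x y N (Yc g G β P (dy L k) U) - XiL g G β P (dy L k) U x y) ^ 2 ∂iidUniform V ≤
      Kst d β P * rst d β P ^ N := by
  have hY := fc_measurable_Yc (G := G) P hg (dy L k)
  refine fc_close_limit (μ := iidUniform V) (C := 1) (N₀ := N)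
    (a := fun U => xiF G β x y N (Yc g G β P (dy L k) U))
    (f := fun M U => xiF G β x y M (Yc g G β P (dy L k) U))
    ((measurable_mean (brn G x y N) x).comp hY)
    (fun M => (measurable_mean (brn G x y M) x).comp hY)
    (fun U => abs_mean_le _ _ _ _ _) (fun M U => abs_mean_le _ _ _ _ _)
    (xiF_tendsto hT hd hreg hβ P hg x y hxy) ?_
  intro M hM
  have := fc_xiF_sub hT hd hreg hβ P hg (L := L) (k := k) hxy hN hM
  refine le_trans (le_of_eq ?_) this
  exact integral_congr_ae (Filter.Eventually.of_forall fun U => sub_sq_comm _ _)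

theorem MuL_close (x : V) (N : ℕ) :
    ∫ U, (mean G β (ball G x N) (Yc g G β P (dy L k) U) x - MuL g G β P (dy L k) U x) ^ 2 ∂iidUniform V ≤
      Kst d β P * rst d β P ^ N := by
  have hY := fc_measurable_Yc (G := G) P hg (dy L k)
  rcases Nat.eq_zero_or_pos N with rfl | hN
  · rw [pow_zero, mul_one]
    refine le_trans ?_ (fc_Kst_ge hd hβ P)
    have hb : ∀ U, (mean G β (ball G x 0) (Yc g G β P (dy L k) U) x - MuL g G β P (dy L k) U x) ^ 2 ≤ 4 := by
      intro U
      have h1 := abs_mean_le G β (ball G x 0) (Yc g G β P (dy L k) U) x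
      have h2 := abs_MuL_le (g := g) (G := G) P (dy L k) U x
      have h3 := (abs_sub _ _).trans (add_le_add h1 h2)
      have h4 : |(mean G β (ball G x 0) (Yc g G β P (dy L k) U) x - MuL g G β P (dy L k) U x)| ^ 2 ≤ 2 ^ 2 :=
        pow_le_pow_left₀ (abs_nonneg _) (by linarith) 2
      rw [sq_abs] at h4
      linarith
    have hint : Integrable (fun _ : V → unitInterval => (4 : ℝ)) (iidUniform V) := integrable_const _
    calc _ ≤ ∫ _U, (4 : ℝ) ∂iidUniform V := by
          refine integral_mono_of_nonneg (Filter.Eventually.of_forall fun U => sq_nonneg _) hint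
            (Filter.Eventually.of_forall hb)
      _ = 4 := by simp
  · refine fc_close_limit (μ := iidUniform V) (C := 1) (N₀ := N)
      (a := fun U => mean G β (ball G x N) (Yc g G β P (dy L k) U) x)
      (f := fun M U => mean G β (ball G x M) (Yc g G β P (dy L k) U) x)
      ((measurable_mean (ball G x N) x).comp hY)
      (fun M => (measurable_mean (ball G x M) x).comp hY)
      (fun U => abs_mean_le _ _ _ _ _) (fun M U => abs_mean_le _ _ _ _ _)
      (mean_tendsto hT hd hreg hβ P hg x) ?_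
    intro M hM
    have := fc_mean_sub hT hd hreg hβ P hg (L := L) (k := k) (x := x) hN hM
    refine le_trans (le_of_eq ?_) this
    exact integral_congr_ae (Filter.Eventually.of_forall fun U => sub_sq_comm _ _)

end staticMain

end Vale.Agent.Lib.P161E
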