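import Vale.Agent.Lib.P161E.FC

/-! Job E3d: Bethe relation and symmetry of the covariance field in the limit. -/

open MeasureTheory Finset Filter Topology
open scoped Classical ENNReal

noncomputable section

namespace Vale.Agent.Lib.P161E

open Vale.Agent.Lib.P161

variable {V : Type*} {G : SimpleGraph V} [G.LocallyFinite] {β : ℝ} {d : ℕ}
  {g : ℕ → ℕ → unitInterval → ℝ}

/-- `bm` is continuous on the square. -/
theorem fd_bm_tendsto {θ a b : ℝ} {α : Type*} {l : Filter α} {A B : α → ℝ} (h0 : 0 ≤ θ) (h1 : θ < 1)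
    (ha : |a| ≤ 1) (hb : |b| ≤ 1) (hA : Tendsto A l (𝓝 a)) (hB : Tendsto B l (𝓝 b)) :
    Tendsto (fun n => bm θ (A n) (B n)) l (𝓝 (bm θ a b)) := by
  unfold bm
  have hab : |a * b| ≤ 1 := by
    rw [abs_mul]
    exact mul_le_one₀ ha (abs_nonneg _) hb
  have hne : 1 + θ * a * b ≠ 0 := by
    have h2 := (abs_le.mp hab).1
    have : 0 < 1 + θ * (a * b) := by nlinarith
    rw [mul_assoc]
    exact this.ne'
  exact (hA.add (hB.const_mul θ)).div
    (tendsto_const_nhds.add ((hA.const_mul θ).mul hB)) hne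

/-- `gm` is continuous on the interval. -/
theorem fd_gm_tendsto {θ x : ℝ} {α : Type*} {l : Filter α} {A : α → ℝ} (h0 : 0 ≤ θ) (h1 : θ < 1)
    (hx : |x| ≤ 1) (hA : Tendsto A l (𝓝 x)) :
    Tendsto (fun n => gm θ (A n)) l (𝓝 (gm θ x)) := by
  unfold gm
  have hx2 : x ^ 2 ≤ 1 := by
    have := pow_le_pow_left₀ (abs_nonneg x) hx 2
    rwa [sq_abs, one_pow] at this
  have hne : 1 - θ ^ 2 * x ^ 2 ≠ 0 := by
    have h3 : θ ^ 2 < 1 := by nlinarith
    have : 0 < 1 - θ ^ 2 * x ^ 2 := by nlinarith [sq_nonneg θ, sq_nonneg x]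
    exact this.ne'
  exact (tendsto_const_nhds.sub (hA.pow 2)).div
    (tendsto_const_nhds.sub ((hA.pow 2).const_mul _)) hne

/-- The covariance field is continuous in the fields at the relevant places. -/
theorem fd_Cf_tendsto {θ : ℝ} {α : Type*} {l : Filter α} {m : α → V → ℝ} {ξ : α → V → V → ℝ}
    {m' : V → ℝ} {ξ' : V → V → ℝ} (h0 : 0 ≤ θ) (h1 : θ < 1) {r v : V}
    (hm : Tendsto (fun n => m n r) l (𝓝 (m' r)))
    (hξ' : ∀ x y, |ξ' x y| ≤ 1)
    (hξ : ∀ j ∈ range (G.dist r v), Tendsto (fun n => ξ n (geo G r v (j + 1)) (geo G r v j)) l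
      (𝓝 (ξ' (geo G r v (j + 1)) (geo G r v j)))) :
    Tendsto (fun n => Cf G θ (m n) (ξ n) r v) l (𝓝 (Cf G θ m' ξ' r v)) := by
  unfold Cf pathG
  refine (tendsto_const_nhds.sub (hm.pow 2)).mul ?_
  refine tendsto_finsetProd _ fun j hj => ?_
  exact (fd_gm_tendsto h0 h1 (hξ' _ _) (hξ j hj)).const_mul θ

section static

variable (hT : G.IsTree) (hd : 2 ≤ d) (hreg : G.IsRegularOfDegree d) (hβ : 0 ≤ β) (P : Par d β)

include hT hd hreg hβ

variable (hg : DN g) {L k : ℕ}

include hg

/-- E3c. Bethe relation in the limit. -/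
theorem bethe_limit {x y : V} (hxy : G.Adj x y) : ∀ᵐ U ∂iidUniform V,
    MuL g G β P (dy L k) U x =
      bm (Real.tanh β) (XiL g G β P (dy L k) U x y) (XiL g G β P (dy L k) U y x) := by
  filter_upwards [mean_tendsto hT hd hreg hβ P hg (L := L) (k := k) x,
    xiF_tendsto hT hd hreg hβ P hg (L := L) (k := k) x y hxy,
    xiF_tendsto hT hd hreg hβ P hg (L := L) (k := k) y x hxy.symm] with U h1 h2 h3
  have h0 := fc_tanh_nonneg hβ
  have h1' := Real.tanh_lt_one β
  have h4 := fd_bm_tendsto h0 h1' (abs_XiL_le P (dy L k) U x y) (abs_XiL_le P (dy L k) U y x)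
    ((tendsto_add_atTop_iff_nat 1).mpr h2) h3
  have hsplit : ∀ N, mean G β (ball G x (N + 1)) (Yc g G β P (dy L k) U) x =
      bm (Real.tanh β) (xiF G β x y (N + 1) (Yc g G β P (dy L k) U))
        (xiF G β y x N (Yc g G β P (dy L k) U)) := by
    intro N
    have hx : x ∈ ball G x (N + 1) := by
      rw [mem_ball hT]; simp
    have hy : y ∈ ball G x (N + 1) := by
      rw [mem_ball hT]
      have : G.dist x y = 1 := SimpleGraph.dist_eq_one_iff_adj.mpr hxy
      omega
    have hcut := side_cut hT hxy hx hy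
    have hunion := side_union hT hxy (ball G x (N + 1))
    have hm := mean_split_left (β := β) hcut (Yc g G β P (dy L k) U)
    rw [hunion] at hm
    rw [hm]
    have e1 : side G (ball G x (N + 1)) x y = brn G x y (N + 1) := rfl
    have e2 := side_ball hT hxy N
    rw [e1, e2]
    rfl
  have h5 : Tendsto (fun N => mean G β (ball G x (N + 1)) (Yc g G β P (dy L k) U) x) atTop
      (𝓝 (MuL g G β P (dy L k) U x)) := (tendsto_add_atTop_iff_nat 1).mpr h1
  refine tendsto_nhds_unique h5 ?_
  refine h4.congr fun N => (hsplit N).symm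

/-- The cavity means inside large balls around a far away root converge to the limit field. -/
theorem fd_xiS_tendsto (r : V) {a b : V} (hab : G.Adj a b) : ∀ᵐ U ∂iidUniform V,
    Tendsto (fun n => xiS G β (ball G r n) a b (Yc g G β P (dy L k) U)) atTop
      (𝓝 (XiL g G β P (dy L k) U a b)) := by
  have hY := fc_measurable_Yc (G := G) P hg (dy L k)
  set D := G.dist r a with hD
  have hconn := hT.connected
  have hsub : ∀ N, ball G a N ⊆ ball G r (N + D) := by
    intro N v hv
    rw [mem_ball hT] at hv ⊢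
    have := hconn.dist_triangle (u := r) (v := a) (w := v)
    omega
  have hra : ∀ N, a ∈ ball G r (N + D) := by
    intro N
    rw [mem_ball hT]; omega
  have hrr : ∀ N, r ∈ ball G r (N + D) := by
    intro N
    rw [mem_ball hT]; simp
  -- the bound
  have hbd : ∀ N, ∫ U, (xiS G β (ball G r (N + 1 + D)) a b (Yc g G β P (dy L k) U) -
      xiF G β a b (N + 1) (Yc g G β P (dy L k) U)) ^ 2 ∂iidUniform V ≤
      (Kst d β P * rst d β P) * rst d β P ^ N := by
    intro N
    have h1 : side G (ball G r (N + 1 + D)) a b ⊆ ball G r (N + 1 + D) := Finset.filter_subset _ _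
    have h2 : brn G a b (N + 1) ⊆ ball G r (N + 1 + D) :=
      (Finset.filter_subset _ _).trans (hsub (N + 1))
    have h := fc_law hT hd hreg hβ P hg (L := L) (k := k) (hrr (N + 1))
      (star_ball hT (hrr (N + 1))) h1 h2 a a
    have hst := xiS_static hT hd hreg hβ P hab (N := N + 1) (by omega) (hsub (N + 1))
      (star_ball hT (hra (N + 1))) (fc_dy_nonneg L k)
    calc _ ≤ Kst d β P * rst d β P ^ (N + 1) := h.le.trans hst
      _ = _ := by ring
  have hK0 : 0 ≤ Kst d β P * rst d β P :=
    mul_nonneg ((by norm_num : (0 : ℝ) ≤ 4).trans (fc_Kst_ge hd hβ P)) (fc_rst_pos hd P).le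
  have hzero := fc_ae_tendsto_zero (μ := iidUniform V)
    (g := fun N U => xiS G β (ball G r (N + 1 + D)) a b (Yc g G β P (dy L k) U) -
      xiF G β a b (N + 1) (Yc g G β P (dy L k) U))
    (fun N => ((measurable_mean _ a).comp hY).sub ((measurable_mean _ a).comp hY))
    (C := 1 + 1) (fun N U => (abs_sub _ _).trans (add_le_add (abs_mean_le _ _ _ _ _) (abs_mean_le _ _ _ _ _)))
    hK0 (fc_rst_pos hd P) (fc_rst_lt_one P) hbd
  filter_upwards [hzero, xiF_tendsto hT hd hreg hβ P hg (L := L) (k := k) a b hab] with U h1 h2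
  have h3 := h1.add ((tendsto_add_atTop_iff_nat 1).mpr h2)
  simp only [sub_add_cancel, zero_add] at h3
  have h4 : Tendsto (fun N => xiS G β (ball G r (N + (1 + D))) a b (Yc g G β P (dy L k) U)) atTop
      (𝓝 (XiL g G β P (dy L k) U a b)) := by
    refine h3.congr fun N => ?_
    rw [add_assoc]
  exact (tendsto_add_atTop_iff_nat (1 + D)).mp h4

/-- The means inside large balls around a far away root converge to the limit field. -/
theorem fd_mean_ball_tendsto (r v : V) : ∀ᵐ U ∂iidUniform V,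
    Tendsto (fun n => mean G β (ball G r n) (Yc g G β P (dy L k) U) v) atTop
      (𝓝 (MuL g G β P (dy L k) U v)) := by
  have hY := fc_measurable_Yc (G := G) P hg (dy L k)
  set D := G.dist r v with hD
  have hconn := hT.connected
  obtain ⟨y, hxy⟩ : ∃ y, G.Adj v y := by
    have : 0 < (G.neighborFinset v).card := by
      rw [G.card_neighborFinset_eq_degree, hreg v]
      omega
    obtain ⟨y, hy⟩ := Finset.card_pos.mp this
    exact ⟨y, (G.mem_neighborFinset v y).mp hy⟩
  have hsub : ∀ N, ball G v N ⊆ ball G r (N + D) := by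
    intro N w hw
    rw [mem_ball hT] at hw ⊢
    have := hconn.dist_triangle (u := r) (v := v) (w := w)
    omega
  have hra : ∀ N, v ∈ ball G r (N + D) := by
    intro N
    rw [mem_ball hT]; omega
  have hrr : ∀ N, r ∈ ball G r (N + D) := by
    intro N
    rw [mem_ball hT]; simp
  have hbd : ∀ N, ∫ U, (mean G β (ball G r (N + 1 + D)) (Yc g G β P (dy L k) U) v -
      mean G β (ball G v (N + 1)) (Yc g G β P (dy L k) U) v) ^ 2 ∂iidUniform V ≤
      (Kst d β P * rst d β P) * rst d β P ^ N := by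
    intro N
    have h := fc_law hT hd hreg hβ P hg (L := L) (k := k) (hrr (N + 1))
      (star_ball hT (hrr (N + 1))) (Finset.Subset.refl _) (hsub (N + 1)) v v
    have hst := (mean_static hT hd hreg hβ P hxy (N := N + 1) (by omega) (hsub (N + 1))
      (star_ball hT (hra (N + 1))) (fc_dy_nonneg L k)).1
    calc _ ≤ Kst d β P * rst d β P ^ (N + 1) := h.le.trans hst
      _ = _ := by ring
  have hK0 : 0 ≤ Kst d β P * rst d β P :=
    mul_nonneg ((by norm_num : (0 : ℝ) ≤ 4).trans (fc_Kst_ge hd hβ P)) (fc_rst_pos hd P).le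
  have hzero := fc_ae_tendsto_zero (μ := iidUniform V)
    (g := fun N U => mean G β (ball G r (N + 1 + D)) (Yc g G β P (dy L k) U) v -
      mean G β (ball G v (N + 1)) (Yc g G β P (dy L k) U) v)
    (fun N => ((measurable_mean _ v).comp hY).sub ((measurable_mean _ v).comp hY))
    (C := 1 + 1) (fun N U => (abs_sub _ _).trans (add_le_add (abs_mean_le _ _ _ _ _) (abs_mean_le _ _ _ _ _)))
    hK0 (fc_rst_pos hd P) (fc_rst_lt_one P) hbd
  filter_upwards [hzero, mean_tendsto hT hd hreg hβ P hg (L := L) (k := k) v] with U h1 h2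
  have h3 := h1.add ((tendsto_add_atTop_iff_nat 1).mpr h2)
  simp only [sub_add_cancel, zero_add] at h3
  have h4 : Tendsto (fun N => mean G β (ball G r (N + (1 + D))) (Yc g G β P (dy L k) U) v) atTop
      (𝓝 (MuL g G β P (dy L k) U v)) := by
    refine h3.congr fun N => ?_
    rw [add_assoc]
  exact (tendsto_add_atTop_iff_nat (1 + D)).mp h4

/-- E3c'. Symmetry of the covariance field in the limit: `cov_comm`, `cov_path` on `S = ball r n` on both
sides, `xiS_static` for all edges of the geodesic, and `n → ∞`. -/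
theorem rev_limit (r v : V) : ∀ᵐ U ∂iidUniform V,
    Cf G (Real.tanh β) (MuL g G β P (dy L k) U) (XiL g G β P (dy L k) U) r v =
      Cf G (Real.tanh β) (MuL g G β P (dy L k) U) (XiL g G β P (dy L k) U) v r := by
  have h0 := fc_tanh_nonneg hβ
  have h1 := Real.tanh_lt_one β
  have hall1 : ∀ᵐ U ∂iidUniform V, ∀ j ∈ range (G.dist r v),
      Tendsto (fun n => xiS G β (ball G r n) (geo G r v (j + 1)) (geo G r v j)
        (Yc g G β P (dy L k) U)) atTop
      (𝓝 (XiL g G β P (dy L k) U (geo G r v (j + 1)) (geo G r v j))) := by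
    refine (Filter.eventually_all_finset _).mpr fun j hj => ?_
    exact fd_xiS_tendsto hT hd hreg hβ P hg r (geo_adj hT (Finset.mem_range.mp hj)).symm
  have hall2 : ∀ᵐ U ∂iidUniform V, ∀ j ∈ range (G.dist v r),
      Tendsto (fun n => xiS G β (ball G r n) (geo G v r (j + 1)) (geo G v r j)
        (Yc g G β P (dy L k) U)) atTop
      (𝓝 (XiL g G β P (dy L k) U (geo G v r (j + 1)) (geo G v r j))) := by
    refine (Filter.eventually_all_finset _).mpr fun j hj => ?_
    exact fd_xiS_tendsto hT hd hreg hβ P hg r (geo_adj hT (Finset.mem_range.mp hj)).symm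
  filter_upwards [hall1, hall2, fd_mean_ball_tendsto hT hd hreg hβ P hg (L := L) (k := k) r r,
    fd_mean_ball_tendsto hT hd hreg hβ P hg (L := L) (k := k) r v] with U h2 h3 h4 h5
  have hA := fd_Cf_tendsto (G := G) (r := r) (v := v) (l := atTop)
    (m := fun n x => mean G β (ball G r n) (Yc g G β P (dy L k) U) x)
    (ξ := fun n x x' => xiS G β (ball G r n) x x' (Yc g G β P (dy L k) U))
    (m' := MuL g G β P (dy L k) U) (ξ' := XiL g G β P (dy L k) U) h0 h1 h4
    (fun x y => abs_XiL_le P (dy L k) U x y) h2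
  have hB := fd_Cf_tendsto (G := G) (r := v) (v := r) (l := atTop)
    (m := fun n x => mean G β (ball G r n) (Yc g G β P (dy L k) U) x)
    (ξ := fun n x x' => xiS G β (ball G r n) x x' (Yc g G β P (dy L k) U))
    (m' := MuL g G β P (dy L k) U) (ξ' := XiL g G β P (dy L k) U) h0 h1 h5
    (fun x y => abs_XiL_le P (dy L k) U x y) h3
  refine tendsto_nhds_unique hA (hB.congr' ?_)
  filter_upwards [eventually_ge_atTop (G.dist r v)] with n hn
  have hr : r ∈ ball G r n := by
    rw [mem_ball hT]; simp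
  have hv : v ∈ ball G r n := by
    rw [mem_ball hT]; exact hn
  have e1 := cov_path hT hβ hr (star_ball hT hr) hv (Yc g G β P (dy L k) U)
  have e2 := cov_path hT hβ hv (star_ball hT hv) hr (Yc g G β P (dy L k) U)
  rw [← e1, ← e2, cov_comm]

end static

end Vale.Agent.Lib.P161E
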