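import Vale.Agent.Lib.P161E.TreeGeo
import Vale.Agent.Lib.P161E.CorrIid

/-! Correlation decay of factors of IID on directed edges: the statements used in the endpoint proof,
from the module `Corr` (`fiid_corr_dart`). -/

open MeasureTheory Finset
open scoped Classical ENNReal

noncomputable section

namespace Vale.Agent.Lib.P161E

open Vale.Agent.Lib.P161

variable {V : Type*} {G : SimpleGraph V} [G.LocallyFinite] {d : ℕ}

/-- The action of an automorphism on the uniform variables preserves the measure. -/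
theorem measurePreserving_act (φ : G ≃g G) :
    MeasurePreserving (fun U : V → unitInterval => U ∘ φ.symm) (iidUniform V) (iidUniform V) :=
  Corr.actT_mp (volume : Measure unitInterval) φ

/-- Along a chain of edges the distance is at most the difference of the indices. -/
theorem chain_dist_le (hT : G.IsTree) {q : ℕ → V} {n : ℕ} (hq : ∀ i, i < n → G.Adj (q i) (q (i + 1)))
    {a b : ℕ} (hab : a ≤ b) (hb : b ≤ n) : G.dist (q a) (q b) ≤ b - a := by
  induction b, hab using Nat.le_induction with
  | base => simp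
  | succ b hab ih =>
    have h1 : G.dist (q a) (q b) ≤ b - a := ih (by omega)
    have hadj := hq b (by omega)
    have h2 : G.dist (q a) (q (b + 1)) ≤ G.dist (q a) (q b) + G.dist (q b) (q (b + 1)) :=
      hT.1.dist_triangle
    have h3 : G.dist (q b) (q (b + 1)) = 1 := SimpleGraph.dist_eq_one_iff_adj.2 hadj
    omega

/-- A geodesic segment is a non-backtracking path. -/
theorem IsGeo.isNB (hT : G.IsTree) {q : ℕ → V} {n : ℕ} (hq : IsGeo G q n) : Corr.IsNB G q n := by
  refine ⟨hq.1, fun i hi h => ?_⟩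
  have h1 := chain_dist_le hT hq.1 (a := 0) (b := i) (by omega) (by omega)
  have h2 := chain_dist_le hT hq.1 (a := i + 2) (b := n) (by omega) (by omega)
  have h3 : G.dist (q 0) (q n) ≤ G.dist (q 0) (q (i + 2)) + G.dist (q (i + 2)) (q n) :=
    hT.1.dist_triangle
  rw [h] at h3 h2
  have := hq.2
  omega

/-- Extension of an isomorphism between geodesic segments of a regular tree. -/
theorem exists_aut (hT : G.IsTree) (hreg : G.IsRegularOfDegree d) {p q : ℕ → V} {n : ℕ}
    (hp : IsGeo G p n) (hq : IsGeo G q n) : ∃ φ : G ≃g G, ∀ i, i ≤ n → φ (p i) = q i :=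
  Corr.exists_aut_of_paths hT hreg (hp.isNB hT) (hq.isNB hT)

/-- A field on directed edges: bounded, measurable and exactly equivariant under automorphisms. -/
structure FE (G : SimpleGraph V) (a : V → V → (V → unitInterval) → ℝ) : Prop where
  meas : ∀ x y, Measurable (a x y)
  bdd : ∃ A, ∀ x y U, |a x y U| ≤ A
  equi : ∀ (φ : G ≃g G) x y U, a (φ x) (φ y) (U ∘ φ.symm) = a x y U

/-- The two point path of an edge. -/
theorem isGeo_edge {x y : V} (h : G.Adj x y) :
    IsGeo G (fun i => if i = 0 then x else y) 1 := by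
  refine ⟨fun i hi => ?_, ?_⟩
  · obtain rfl : i = 0 := by omega
    simpa using h
  · simpa using SimpleGraph.dist_eq_one_iff_adj.2 h

/-- Automorphisms act transitively on directed edges. -/
theorem exists_aut_edge (hT : G.IsTree) (hreg : G.IsRegularOfDegree d) {x y x' y' : V}
    (h : G.Adj x y) (h' : G.Adj x' y') : ∃ φ : G ≃g G, φ x = x' ∧ φ y = y' := by
  obtain ⟨φ, hφ⟩ := exists_aut hT hreg (isGeo_edge h) (isGeo_edge h')
  refine ⟨φ, ?_, ?_⟩
  · simpa using hφ 0 (by omega)
  · simpa using hφ 1 (by omega)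

/-- Expectations of an equivariant field are the same on all directed edges. -/
theorem integral_edge_eq (hT : G.IsTree) (hreg : G.IsRegularOfDegree d)
    {a : V → V → (V → unitInterval) → ℝ}
    (hm : ∀ x y, Measurable (a x y))
    (hequi : ∀ (φ : G ≃g G) x y U, a (φ x) (φ y) (U ∘ φ.symm) = a x y U)
    {x y x' y' : V} (h : G.Adj x y) (h' : G.Adj x' y') :
    ∫ U, a x y U ∂iidUniform V = ∫ U, a x' y' U ∂iidUniform V := by
  obtain ⟨φ, rfl, rfl⟩ := exists_aut_edge hT hreg h h'
  have hmp := measurePreserving_act (V := V) (G := G) φ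
  have h1 : ∫ U, a (φ x) (φ y) U ∂iidUniform V =
      ∫ U, a (φ x) (φ y) (U ∘ φ.symm) ∂iidUniform V := by
    conv_lhs => rw [← hmp.map_eq]
    exact integral_map hmp.measurable.aemeasurable (hm _ _).aestronglyMeasurable
  rw [h1]
  simp [hequi]

/-- Square integrability of a bounded measurable function. -/
theorem memLp_of_bdd {f : (V → unitInterval) → ℝ} (hf : Measurable f) {A : ℝ} (hA : ∀ U, |f U| ≤ A) :
    MemLp f 2 (iidUniform V) := by
  haveI : IsProbabilityMeasure (iidUniform V) := by unfold iidUniform; infer_instance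
  exact MemLp.of_bound hf.aestronglyMeasurable A (Filter.Eventually.of_forall fun U => by
    simpa using hA U)

/-- Correlation decay for bounded measurable equivariant fields. -/
theorem fe_corr (hT : G.IsTree) (hd : 3 ≤ d) (hreg : G.IsRegularOfDegree d)
    {a : V → V → (V → unitInterval) → ℝ} (ha : FE G a) {k : ℕ} {q : ℕ → V}
    (hq : IsGeo G q (k + 1)) :
    |∫ U, a (q 0) (q 1) U * a (q k) (q (k + 1)) U ∂iidUniform V -
        (∫ U, a (q 0) (q 1) U ∂iidUniform V) ^ 2| ≤
      kap d k * (∫ U, a (q 0) (q 1) U ^ 2 ∂iidUniform V -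
        (∫ U, a (q 0) (q 1) U ∂iidUniform V) ^ 2) := by
  haveI : IsProbabilityMeasure (iidUniform V) := by unfold iidUniform; infer_instance
  obtain ⟨A, hA⟩ := ha.bdd
  set c := ∫ U, a (q 0) (q 1) U ∂iidUniform V with hc
  let a' : V → V → (V → unitInterval) → ℝ := fun x y U => a x y U - c
  have hm' : ∀ x y, Measurable (a' x y) := fun x y => (ha.meas x y).sub_const c
  have hA' : ∀ x y U, |a' x y U| ≤ A + |c| := fun x y U => by
    calc |a x y U - c| ≤ |a x y U| + |c| := abs_sub _ _
      _ ≤ A + |c| := by linarith [hA x y U]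
  have hL : ∀ u v, G.Adj u v → MemLp (a' u v) 2 (Corr.muX V (volume : Measure unitInterval)) :=
    fun u v _ => memLp_of_bdd (hm' u v) (hA' u v)
  have hE : ∀ (φ : G ≃g G) (u v : V), G.Adj u v →
      (fun ω => a' (φ u) (φ v) (Corr.actT φ ω)) =ᵐ[Corr.muX V (volume : Measure unitInterval)] a' u v := by
    intro φ u v _
    refine Filter.Eventually.of_forall fun U => ?_
    show a (φ u) (φ v) (U ∘ φ.symm) - c = a u v U - c
    rw [ha.equi]
  have hnb := hq.isNB hT
  have hcorr := Corr.fiid_corr_dart (m := (volume : Measure unitInterval)) hT hreg (by omega)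
    hL hE hL hE hnb
  have hadj0 : G.Adj (q 0) (q 1) := hq.1 0 (by omega)
  have hadjk : G.Adj (q k) (q (k + 1)) := hq.1 k (by omega)
  have hck : ∫ U, a (q k) (q (k + 1)) U ∂iidUniform V = c :=
    integral_edge_eq hT hreg ha.meas ha.equi hadjk hadj0
  have hint : ∀ x y, Integrable (a x y) (iidUniform V) := fun x y =>
    Integrable.of_bound (ha.meas x y).aestronglyMeasurable A
      (Filter.Eventually.of_forall fun U => by simpa using hA x y U)
  have hint2 : ∀ x y x' y', Integrable (fun U => a x y U * a x' y' U) (iidUniform V) := fun x y x' y' =>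
    Integrable.of_bound ((ha.meas x y).mul (ha.meas x' y')).aestronglyMeasurable (A * A)
      (Filter.Eventually.of_forall fun U => by
        have h0 : 0 ≤ A := (abs_nonneg _).trans (hA x y U)
        rw [Real.norm_eq_abs, abs_mul]
        exact mul_le_mul (hA x y U) (hA x' y' U) (abs_nonneg _) h0)
  have hmean0 : ∀ x y, G.Adj x y → ∫ U, a' x y U ∂iidUniform V = 0 := by
    intro x y hxy
    have : ∫ U, a x y U ∂iidUniform V = c := integral_edge_eq hT hreg ha.meas ha.equi hxy hadj0
    simp only [a']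
    rw [integral_sub (hint x y) (integrable_const c)]
    simp [this]
  have hip : ∀ x y x' y', G.Adj x y → G.Adj x' y' →
      Corr.ip (Corr.muX V (volume : Measure unitInterval)) (a' x y) (a' x' y') =
        ∫ U, a x y U * a x' y' U ∂iidUniform V - c ^ 2 := by
    intro x y x' y' h h'
    have h1 : ∫ U, a x y U ∂iidUniform V = c := integral_edge_eq hT hreg ha.meas ha.equi h hadj0
    have h2 : ∫ U, a x' y' U ∂iidUniform V = c := integral_edge_eq hT hreg ha.meas ha.equi h' hadj0
    show ∫ U, (a x y U - c) * (a x' y' U - c) ∂iidUniform V = _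
    have : (fun U => (a x y U - c) * (a x' y' U - c)) =
        fun U => a x y U * a x' y' U - c * a x y U - c * a x' y' U + c ^ 2 := by
      funext U; ring
    have i0 : Integrable (fun U => a x y U * a x' y' U) (iidUniform V) := hint2 _ _ _ _
    have i1 : Integrable (fun U => c * a x y U) (iidUniform V) := (hint _ _).const_mul c
    have i2 : Integrable (fun U => c * a x' y' U) (iidUniform V) := (hint _ _).const_mul c
    have i3 : Integrable (fun U => a x y U * a x' y' U - c * a x y U) (iidUniform V) := i0.sub i1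
    have i4 : Integrable (fun U => a x y U * a x' y' U - c * a x y U - c * a x' y' U) (iidUniform V) :=
      i3.sub i2
    rw [this, integral_add i4 (integrable_const _), integral_sub i3 i2, integral_sub i0 i1,
      integral_const_mul, integral_const_mul, h1, h2]
    simp
    ring
  have hvar : 0 ≤ ∫ U, a (q 0) (q 1) U ^ 2 ∂iidUniform V - c ^ 2 := by
    have h1 := hip _ _ _ _ hadj0 hadj0
    have h2 := Corr.ip_self_nonneg (μ := Corr.muX V (volume : Measure unitInterval)) (a' (q 0) (q 1))
    rw [h1] at h2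
    simpa [sq] using h2
  have hmean1 : ∫ U, a' (q 0) (q 1) U ∂Corr.muX V (volume : Measure unitInterval) = 0 := hmean0 _ _ hadj0
  have hmean2 : ∫ U, a' (q k) (q (k + 1)) U ∂Corr.muX V (volume : Measure unitInterval) = 0 :=
    hmean0 _ _ hadjk
  rw [hip _ _ _ _ hadj0 hadjk, hip _ _ _ _ hadj0 hadj0, hmean1, hmean2] at hcorr
  have hsq : ∫ U, a (q 0) (q 1) U * a (q 0) (q 1) U ∂iidUniform V =
      ∫ U, a (q 0) (q 1) U ^ 2 ∂iidUniform V := by
    congr 1; funext U; ring
  rw [hsq] at hcorr
  have hs : Real.sqrt (∫ U, a (q 0) (q 1) U ^ 2 ∂iidUniform V - c ^ 2) *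
      Real.sqrt (∫ U, a (q 0) (q 1) U ^ 2 ∂iidUniform V - c ^ 2) =
        ∫ U, a (q 0) (q 1) U ^ 2 ∂iidUniform V - c ^ 2 := Real.mul_self_sqrt hvar
  have hd3 : (3 : ℝ) ≤ d := by exact_mod_cast hd
  have hq0 : 0 < Real.sqrt ((d : ℝ) - 1) := Real.sqrt_pos.2 (by linarith)
  have hq1 : Real.sqrt ((d : ℝ) - 1) ≤ 2 * ((d : ℝ) + 1) := by
    rw [Real.sqrt_le_left (by linarith)]
    nlinarith
  have hρ0 : 0 ≤ (Real.sqrt ((d : ℝ) - 1))⁻¹ ^ k := by positivity
  calc |∫ U, a (q 0) (q 1) U * a (q k) (q (k + 1)) U ∂iidUniform V - c ^ 2|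
      = |∫ U, a (q 0) (q 1) U * a (q k) (q (k + 1)) U ∂iidUniform V - c ^ 2 - 0 * 0| := by simp
    _ ≤ (k + 1) * Real.sqrt ((d : ℝ) - 1) * (Real.sqrt ((d : ℝ) - 1))⁻¹ ^ k *
        (∫ U, a (q 0) (q 1) U ^ 2 ∂iidUniform V - c ^ 2) := by
          have := hcorr
          rwa [mul_assoc ((k + 1 : ℝ) * Real.sqrt ((d : ℝ) - 1) * (Real.sqrt ((d : ℝ) - 1))⁻¹ ^ k), hs] at this
    _ ≤ kap d k * (∫ U, a (q 0) (q 1) U ^ 2 ∂iidUniform V - c ^ 2) := by
        refine mul_le_mul_of_nonneg_right ?_ hvar
        unfold kap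
        rw [one_div]
        have hk : (0 : ℝ) ≤ k + 1 := by positivity
        calc (k + 1 : ℝ) * Real.sqrt ((d : ℝ) - 1) * (Real.sqrt ((d : ℝ) - 1))⁻¹ ^ k
            ≤ (k + 1 : ℝ) * (2 * ((d : ℝ) + 1)) * (Real.sqrt ((d : ℝ) - 1))⁻¹ ^ k := by
              gcongr
          _ = _ := by ring

end Vale.Agent.Lib.P161E
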