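import Vale.Agent.Lib.P161E.Closure

/-! Job G1: stability of the sign. -/

open MeasureTheory Finset Filter Topology
open scoped Classical ENNReal

noncomputable section

namespace Vale.Agent.Lib.P161E

open Vale.Agent.Lib.P161

variable {V : Type*} {G : SimpleGraph V} [G.LocallyFinite] {d : ℕ} {β : ℝ}
  {g : ℕ → ℕ → unitInterval → ℝ}

private lemma finA_time (p : ℕ) : dy 0 (2 ^ p) = (2 : ℝ) ^ p := by
  simp [dy, dlt]

private lemma finA_stp (p l : ℕ) : stp ((2 : ℝ) ^ p) l = 2 ^ (p + l) := by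
  rw [← finA_time, stp_dy (Nat.zero_le l), Nat.sub_zero, pow_add]

private lemma finA_stat_mono {d : ℕ} {κ ρ T T' : ℝ} {n : ℕ} (hd : 2 ≤ d) (hC : 0 ≤ convC d κ ρ)
    (hTT : T ≤ T') : stat d κ ρ T n ≤ stat d κ ρ T' n := by
  unfold stat
  have hd1 : (0 : ℝ) ≤ (d : ℝ) - 1 := by
    have : (2 : ℝ) ≤ d := by exact_mod_cast hd
    linarith
  have hx : 0 ≤ ((d : ℝ) - 1) * ρ ^ 2 := by positivity
  have hxn : 0 ≤ (((d : ℝ) - 1) * ρ ^ 2) ^ n := pow_nonneg hx n
  have hC3 : 0 ≤ convC d κ ρ ^ 3 := pow_nonneg hC 3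
  have he : Real.exp (convC d κ ρ * T) ≤ Real.exp (convC d κ ρ * T') :=
    Real.exp_le_exp.mpr (mul_le_mul_of_nonneg_left hTT hC)
  have he2 : Real.exp (convC d κ ρ * T) ^ 2 ≤ Real.exp (convC d κ ρ * T') ^ 2 :=
    pow_le_pow_left₀ (Real.exp_pos _).le he 2
  have h1 : 2 * Real.exp (convC d κ ρ * T) ^ 2 ≤ 2 * Real.exp (convC d κ ρ * T') ^ 2 := by linarith
  exact mul_le_mul_of_nonneg_right (mul_le_mul_of_nonneg_right h1 hC3) hxn

private lemma finA_cS_mono {N T T' C : ℝ} (hN : 0 ≤ N) (hT : 0 ≤ T) (hC : 0 ≤ C) (hTT : T ≤ T') :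
    cS N T C ≤ cS N T' C := by
  have hT' : 0 ≤ T' := hT.trans hTT
  have he : Real.exp (C * T) ≤ Real.exp (C * T') :=
    Real.exp_le_exp.mpr (mul_le_mul_of_nonneg_left hTT hC)
  have he' : Real.exp (4 * N * T) ≤ Real.exp (4 * N * T') :=
    Real.exp_le_exp.mpr (mul_le_mul_of_nonneg_left hTT (by positivity))
  have hfc : fc N T C ≤ fc N T' C := by
    unfold fc
    have h1 : 6 * T * N ≤ 6 * T' * N := by
      have := mul_le_mul_of_nonneg_right hTT hN
      linarith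
    have h2 : 6 * T * N * Real.exp (C * T) ≤ 6 * T' * N * Real.exp (C * T') :=
      mul_le_mul h1 he (Real.exp_pos _).le (by positivity)
    exact mul_le_mul h2 he' (Real.exp_pos _).le (by positivity)
  have hcR : cR N T C ≤ cR N T' C := by
    unfold cR
    have := mul_le_mul_of_nonneg_right hfc (sq_nonneg N)
    linarith
  have hcM : cM N T C ≤ cM N T' C := by
    unfold cM
    exact mul_le_mul_of_nonneg_left he (by positivity)
  unfold cS
  have h2 := cR_nonneg (C := C) hN hT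
  have h4 := cM_nonneg (T := T) (C := C) hN
  have h5 : cR N T C ^ 2 ≤ cR N T' C ^ 2 := pow_le_pow_left₀ h2 hcR 2
  have h6 : 2 * T * cR N T C ^ 2 ≤ 2 * T' * cR N T' C ^ 2 :=
    mul_le_mul (by linarith) h5 (sq_nonneg _) (by positivity)
  have h7 : (2 * cM N T C + cR N T C) ^ 2 ≤ (2 * cM N T' C + cR N T' C) ^ 2 :=
    pow_le_pow_left₀ (by positivity) (by linarith) 2
  linarith

private lemma finA_err_le {d : ℕ} {κ ρ T δ η : ℝ} {N n : ℕ} (hT : 1 ≤ T) (hη : 0 ≤ η)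
    (hstat : stat d κ ρ T n ≤ η) (hcS : cS N T (convC d κ ρ) * δ ≤ η) :
    ENNReal.ofReal (1 / (T / 4) ^ 2) * ENNReal.ofReal (errC d κ ρ N T δ n) ≤
      ENNReal.ofReal (144 * η) := by
  have hT0 : 0 < T := by linarith
  rw [← ENNReal.ofReal_mul (by positivity)]
  refine ENNReal.ofReal_le_ofReal ?_
  unfold errC
  have e2 : 1 / (T / 4) ^ 2 * (6 * T ^ 2 * stat d κ ρ T n + 3 * T * cS N T (convC d κ ρ) * δ) =
      96 * stat d κ ρ T n + 48 * ((cS N T (convC d κ ρ) * δ) * (1 / T)) := by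
    field_simp
    ring
  rw [e2]
  have h3 : (cS N T (convC d κ ρ) * δ) * (1 / T) ≤ η * 1 := by
    have h4 : 1 / T ≤ 1 := by
      rw [div_le_one hT0]; exact hT
    have h5 : 0 ≤ 1 / T := by positivity
    calc (cS N T (convC d κ ρ) * δ) * (1 / T) ≤ η * (1 / T) :=
          mul_le_mul_of_nonneg_right hcS h5
      _ ≤ η * 1 := mul_le_mul_of_nonneg_left h4 hη
  linarith

private lemma finA_conv_nonneg (P : Par d β) : 0 ≤ convC d P.κ P.ρ := by
  have hκ := P.hκ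
  have hκρ := P.hκρ
  have hρ := P.hρ
  have hρ0 : 0 < P.ρ := hκ.trans hκρ
  unfold convC
  have h1 : 0 ≤ 1 - P.κ ^ 2 := by nlinarith
  have h2 : 0 ≤ 1 - P.κ / P.ρ := by
    have : P.κ / P.ρ ≤ 1 := by
      rw [div_le_one hρ0]
      exact hκρ.le
    linarith
  have h3 : 0 ≤ 1 - ((d : ℝ) - 1) * P.κ * P.ρ := by linarith [P.hdκρ]
  exact div_nonneg h1 (mul_nonneg h2 h3)

/-- The schemes at the two times at stage `j` are rarely unreliable. -/
private lemma finA_bound (hg : DN g) (hT : G.IsTree) (hd : 2 ≤ d) (hreg : G.IsRegularOfDegree d)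
    (hβ : 0 ≤ β) (P : Par d β) (p j : ℕ) (hj : p + 9 ≤ j) (v : V) :
    iidUniform V {U | unreliable ((2 : ℝ) ^ p) (Zu g G β P ((2 : ℝ) ^ p) j v U)
      (Zu g G β P ((2 : ℝ) ^ (p + 1)) j v U)} ≤ ENNReal.ofReal (9 * (1 / 2) ^ p) := by
  set l := P.l j with hl
  set δ := dlt l with hδ
  have hδ0 : 0 < δ := dlt_pos _
  set k : ℕ := 2 ^ (p + l) with hk
  have hk0 : 0 < k := by positivity
  have hkδ : (k : ℝ) * δ = 2 ^ p := Kdelta p l
  have hkk : 2 ^ (p + 1 + l) = k + k := by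
    rw [hk, add_right_comm, pow_succ]
    ring
  have hkδ2 : ((k + k : ℕ) : ℝ) * δ = 2 ^ (p + 1) := by
    rw [← hkk]
    exact Kdelta (p + 1) l
  set s : Set (ℕ → V → ℝ) := {ξ | unreliable (k * δ) (flow G β (ball G v (P.n j)) δ ξ 0 k 0 v)
    (flow G β (ball G v (P.n j)) δ ξ 0 (k + k) 0 v)} with hs
  have hsm : MeasurableSet s :=
    measurableSet_unreliable _ (measurable_flow_noise _ _ _ _) (measurable_flow_noise _ _ _ _)
  have e : {U | unreliable ((2 : ℝ) ^ p) (Zu g G β P ((2 : ℝ) ^ p) j v U)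
      (Zu g G β P ((2 : ℝ) ^ (p + 1)) j v U)} = {U | xiN g l U ∈ s} := by
    ext U
    have e1 : Zu g G β P ((2 : ℝ) ^ p) j v U = flow G β (ball G v (P.n j)) δ (xiN g l U) 0 k 0 v := by
      unfold Zu
      rw [finA_stp]
    have e2 : Zu g G β P ((2 : ℝ) ^ (p + 1)) j v U =
        flow G β (ball G v (P.n j)) δ (xiN g l U) 0 (k + k) 0 v := by
      unfold Zu
      rw [finA_stp, hkk]
    simp only [Set.mem_ofPred_eq, hs]
    rw [e1, e2, hkδ]
  rw [e, measure_xiN g hg.hm hg.hlaw l hsm]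
  refine (wBound hT hd hreg hβ P.hθκ P.hκ P.hκρ P.hρ P.hdκρ v le_rfl hδ0 (dlt_le_one _) hk0).trans ?_
  rw [hkδ, hkδ2]
  set ε : ℝ := (1 / 2) ^ p with hε
  have hε0 : 0 < ε := by positivity
  set η : ℝ := (1 / 2) ^ j with hη
  have hη0 : 0 ≤ η := by positivity
  have hηε : η ≤ ε / 512 := by
    have h1 : η ≤ (1 / 2 : ℝ) ^ (p + 9) :=
      pow_le_pow_of_le_one (by norm_num) (by norm_num) hj
    have h2 : (1 / 2 : ℝ) ^ (p + 9) = ε / 512 := by
      rw [pow_add, hε]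
      norm_num
      ring
    linarith
  have hC := finA_conv_nonneg P
  have h2j1 : (2 : ℝ) ^ p ≤ 2 ^ j :=
    pow_le_pow_right₀ (by norm_num) (by omega)
  have h2j2 : (2 : ℝ) ^ (p + 1) ≤ 2 ^ j :=
    pow_le_pow_right₀ (by norm_num) (by omega)
  have hcard0 : (0 : ℝ) ≤ ((ball G v (P.n j)).card : ℝ) := Nat.cast_nonneg _
  have hcS : ∀ {T : ℝ}, 0 ≤ T → T ≤ 2 ^ j →
      cS ((ball G v (P.n j)).card : ℝ) T (convC d P.κ P.ρ) * δ ≤ η := by
    intro T hT0 hTj
    refine le_trans (mul_le_mul_of_nonneg_right ?_ hδ0.le) (P.hs.cS_le j)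
    calc cS ((ball G v (P.n j)).card : ℝ) T (convC d P.κ P.ρ)
        ≤ cS (((d + 1) ^ P.n j : ℕ) : ℝ) T (convC d P.κ P.ρ) :=
          cS_mono hcard0 (card_ball_cast hreg v (P.n j)) hT0
      _ ≤ cS (((d + 1) ^ P.n j : ℕ) : ℝ) (2 ^ j) (convC d P.κ P.ρ) :=
          finA_cS_mono (Nat.cast_nonneg _) hT0 hC hTj
  have hA1 := finA_err_le (d := d) (κ := P.κ) (ρ := P.ρ) (T := (2 : ℝ) ^ p) (δ := δ) (η := η)
    (N := (ball G v (P.n j)).card) (n := P.n j) (one_le_pow₀ (by norm_num)) hη0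
    ((finA_stat_mono hd hC h2j1).trans (P.hs.stat_le j)) (hcS (by positivity) h2j1)
  have hA2 := finA_err_le (d := d) (κ := P.κ) (ρ := P.ρ) (T := (2 : ℝ) ^ (p + 1)) (δ := δ) (η := η)
    (N := (ball G v (P.n j)).card) (n := P.n j) (one_le_pow₀ (by norm_num)) hη0
    ((finA_stat_mono hd hC h2j2).trans (P.hs.stat_le j)) (hcS (by positivity) h2j2)
  have h1T : 1 / (2 : ℝ) ^ p = ε := by
    rw [hε]
    simp
  have h4T : 4 / (2 : ℝ) ^ p = 4 * ε := by
    rw [← h1T]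
    ring
  have h4T2 : 4 / (2 : ℝ) ^ (p + 1) = 2 * ε := by
    rw [← h1T, pow_succ]
    have : (2 : ℝ) ^ p ≠ 0 := by positivity
    field_simp
    norm_num
  refine le_trans (add_le_add (add_le_add (add_le_add le_rfl hA1) le_rfl)
    (add_le_add le_rfl hA2)) ?_
  rw [h4T, h4T2, h1T, ← ENNReal.ofReal_add (by positivity) (by positivity),
    ← ENNReal.ofReal_add hε0.le hε0.le, ← ENNReal.ofReal_add (by positivity) (by positivity),
    ← ENNReal.ofReal_add (by positivity) (by positivity),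
    ← ENNReal.ofReal_add (by positivity) (by positivity)]
  refine ENNReal.ofReal_le_ofReal ?_
  linarith

/-- The value at time `T` is small with small probability. -/
private lemma finA_small (hg : DN g) (hT : G.IsTree) (hd : 2 ≤ d) (hreg : G.IsRegularOfDegree d)
    (hβ : 0 ≤ β) (P : Par d β) (p : ℕ) (v : V) :
    iidUniform V {U | |Yf g G β P ((2 : ℝ) ^ p) v U| < (2 : ℝ) ^ p / 2} ≤
      ENNReal.ofReal (4 / (2 : ℝ) ^ p) := by
  have hT0 : (0 : ℝ) < 2 ^ p := by positivity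
  have hm : Measurable (fun y : V → ℝ => ind (|y v| < (2 : ℝ) ^ p / 2)) :=
    measurable_ind (measurableSet_lt (measurable_pi_apply v).abs measurable_const)
  have hlaw := Yf_law hg hT hd hreg hβ P (L := 0) (k := 2 ^ p) (S := {v}) (r := v)
    (Finset.mem_singleton_self v) (star_singleton v) hm (fun y y' h => by
      simp only [h v (Finset.mem_singleton_self v)])
  rw [finA_time] at hlaw
  have hYm : Measurable (fun U => Yf g G β P ((2 : ℝ) ^ p) v U) := measurable_Yf hg P _ _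
  have hset : MeasurableSet {U | |Yf g G β P ((2 : ℝ) ^ p) v U| < (2 : ℝ) ^ p / 2} :=
    measurableSet_lt hYm.abs measurable_const
  rw [← lintegral_ind (iidUniform V) hset, hlaw]
  exact planted_small (Finset.mem_singleton_self v) hT0

/-- G1. Stability of the sign between the times `T = 2^p` and `2 T`, from `wBound`, `Zu_tendsto`. -/
theorem Yf_sign_stable (hg : DN g) (hT : G.IsTree) (hd : 2 ≤ d) (hreg : G.IsRegularOfDegree d) (hβ : 0 ≤ β)
    (P : Par d β) (p : ℕ) (v : V) :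
    iidUniform V {U | sgnB (Yf g G β P (2 ^ p) v U) ≠ sgnB (Yf g G β P (2 ^ (p + 1)) v U)} ≤
      ENNReal.ofReal (40 * (1 / 2) ^ p) := by
  have hT0 : (0 : ℝ) < 2 ^ p := by positivity
  have h1 := Zu_tendsto hg hT hd hreg hβ P (L := 0) (k := 2 ^ p) v
  have h2 := Zu_tendsto hg hT hd hreg hβ P (L := 0) (k := 2 ^ (p + 1)) v
  simp only [finA_time] at h1 h2
  set A : ℕ → Set (V → unitInterval) := fun j =>
    {U | unreliable ((2 : ℝ) ^ p) (Zu g G β P ((2 : ℝ) ^ p) j v U)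
      (Zu g G β P ((2 : ℝ) ^ (p + 1)) j v U)} with hA
  set B : ℕ → Set (V → unitInterval) := fun J => ⋂ j : ℕ, ⋂ _ : J ≤ j, A j with hB
  have hBb : ∀ J, iidUniform V (B J) ≤ ENNReal.ofReal (9 * (1 / 2) ^ p) := by
    intro J
    refine (measure_mono ?_).trans
      (finA_bound hg hT hd hreg hβ P p (p + 9 + J) (by omega) v)
    exact Set.iInter₂_subset (p + 9 + J) (by omega)
  have hBmono : Monotone B := by
    intro J J' hJ U hU
    simp only [hB, Set.mem_iInter] at hU ⊢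
    exact fun j hj => hU j (hJ.trans hj)
  have hU : iidUniform V (⋃ J, B J) ≤ ENNReal.ofReal (9 * (1 / 2) ^ p) := by
    rw [hBmono.measure_iUnion]
    exact iSup_le hBb
  have hs1 := finA_small hg hT hd hreg hβ P p v
  have hs2 := finA_small hg hT hd hreg hβ P (p + 1) v
  have hsub : ∀ᵐ U ∂iidUniform V,
      U ∈ {U | sgnB (Yf g G β P (2 ^ p) v U) ≠ sgnB (Yf g G β P (2 ^ (p + 1)) v U)} →
      U ∈ ({U | |Yf g G β P ((2 : ℝ) ^ p) v U| < (2 : ℝ) ^ p / 2} ∪
        {U | |Yf g G β P ((2 : ℝ) ^ (p + 1)) v U| < (2 : ℝ) ^ (p + 1) / 2}) ∪ ⋃ J, B J := by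
    filter_upwards [h1, h2] with U hU1 hU2 hne
    by_contra hcon
    simp only [Set.mem_union, Set.mem_ofPred_eq, not_or, not_lt] at hcon
    obtain ⟨⟨hY1, hY2⟩, hnot⟩ := hcon
    apply hnot
    have hc : (0 : ℝ) < 2 ^ p / 2 := by positivity
    have hc2 : (0 : ℝ) < 2 ^ (p + 1) / 2 := by positivity
    obtain ⟨N₁, hN₁⟩ := Metric.tendsto_atTop.mp hU1 _ hc
    obtain ⟨N₂, hN₂⟩ := Metric.tendsto_atTop.mp hU2 _ hc2
    rw [Set.mem_iUnion]
    refine ⟨max N₁ N₂, ?_⟩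
    simp only [hB, Set.mem_iInter]
    intro j hj
    have hj1 : N₁ ≤ j := (le_max_left _ _).trans hj
    have hj2 : N₂ ≤ j := (le_max_right _ _).trans hj
    have e1 := sgnB_eq_of_close hc hY1 (by
      have := hN₁ j hj1
      rwa [Real.dist_eq] at this)
    have e2 := sgnB_eq_of_close hc2 hY2 (by
      have := hN₂ j hj2
      rwa [Real.dist_eq] at this)
    right
    rw [e1, e2]
    exact hne
  have hε0 : (0 : ℝ) < (1 / 2) ^ p := by positivity
  have h1T : 1 / (2 : ℝ) ^ p = (1 / 2) ^ p := by simp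
  have h4T : 4 / (2 : ℝ) ^ p = 4 * (1 / 2) ^ p := by
    rw [← h1T]
    ring
  have h4T2 : 4 / (2 : ℝ) ^ (p + 1) = 2 * (1 / 2) ^ p := by
    rw [← h1T, pow_succ]
    have : (2 : ℝ) ^ p ≠ 0 := by positivity
    field_simp
    norm_num
  rw [h4T] at hs1
  rw [h4T2] at hs2
  calc iidUniform V {U | sgnB (Yf g G β P (2 ^ p) v U) ≠ sgnB (Yf g G β P (2 ^ (p + 1)) v U)}
      ≤ iidUniform V (({U | |Yf g G β P ((2 : ℝ) ^ p) v U| < (2 : ℝ) ^ p / 2} ∪
        {U | |Yf g G β P ((2 : ℝ) ^ (p + 1)) v U| < (2 : ℝ) ^ (p + 1) / 2}) ∪ ⋃ J, B J) :=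
        measure_mono_ae hsub
    _ ≤ iidUniform V ({U | |Yf g G β P ((2 : ℝ) ^ p) v U| < (2 : ℝ) ^ p / 2} ∪
        {U | |Yf g G β P ((2 : ℝ) ^ (p + 1)) v U| < (2 : ℝ) ^ (p + 1) / 2}) +
          iidUniform V (⋃ J, B J) := measure_union_le _ _
    _ ≤ ENNReal.ofReal (4 * (1 / 2) ^ p + 2 * (1 / 2) ^ p + 9 * (1 / 2) ^ p) := by
        refine add_ofReal_le ?_ hU (by positivity) (by positivity)
        exact (measure_union_le _ _).trans (add_ofReal_le hs1 hs2 (by positivity) (by positivity))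
    _ ≤ ENNReal.ofReal (40 * (1 / 2) ^ p) := by
        refine ENNReal.ofReal_le_ofReal ?_
        linarith

/-- The value at time `T` is not small, from `Yf_law`. -/
theorem Yf_not_small (hg : DN g) (hT : G.IsTree) (hd : 2 ≤ d) (hreg : G.IsRegularOfDegree d) (hβ : 0 ≤ β)
    (P : Par d β) (p : ℕ) (v : V) :
    iidUniform V {U | |Yf g G β P (2 ^ p) v U| < 2 ^ p / 4} ≤ ENNReal.ofReal (4 * (1 / 2) ^ p) := by
  have hs1 := finA_small hg hT hd hreg hβ P p v
  have h1T : 1 / (2 : ℝ) ^ p = (1 / 2) ^ p := by simp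
  have h4T : 4 / (2 : ℝ) ^ p = 4 * (1 / 2) ^ p := by
    rw [← h1T]
    ring
  rw [h4T] at hs1
  refine (measure_mono ?_).trans hs1
  intro U hU
  simp only [Set.mem_ofPred_eq] at hU ⊢
  have : (0 : ℝ) < 2 ^ p := by positivity
  linarith

end Vale.Agent.Lib.P161E
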