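import Vale.Agent.Lib.P161E.FinA

/-! Job G2: the endpoint theorem. -/

open MeasureTheory Finset Filter Topology
open scoped Classical ENNReal

noncomputable section

namespace Vale.Agent.Lib.P161E

open Vale.Agent.Lib.P161

variable {V : Type*} {G : SimpleGraph V} [G.LocallyFinite] {d : ℕ} {β : ℝ}
  {g : ℕ → ℕ → unitInterval → ℝ}

omit [G.LocallyFinite] in
theorem isProb_iid : IsProbabilityMeasure (iidUniform V) := by
  unfold iidUniform; infer_instance

/-- The limit of a sequence of signs. -/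
def XL (X : ℕ → V → (V → unitInterval) → Bool) (v : V) (U : V → unitInterval) : Bool :=
  decide (∃ J : ℕ, ∀ j, J ≤ j → X j v U = true)

theorem measurable_XL {X : ℕ → V → (V → unitInterval) → Bool} (hX : ∀ j v, Measurable (X j v))
    (v : V) : Measurable (XL X v) := by
  refine measurable_to_bool ?_
  have : (XL X v) ⁻¹' {true} = ⋃ J : ℕ, ⋂ j : ℕ, ⋂ _ : J ≤ j, {U | X j v U = true} := by
    ext U
    simp [XL]
  rw [this]
  refine MeasurableSet.iUnion fun J => MeasurableSet.iInter fun j => MeasurableSet.iInter fun _ => ?_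
  exact measurableSet_eq_fun (hX j v) measurable_const

theorem XL_eq_of_stable {X : ℕ → V → (V → unitInterval) → Bool} {j : ℕ} {v : V}
    {U : V → unitInterval} (h : ∀ i, X (j + i) v U = X (j + i + 1) v U) : XL X v U = X j v U := by
  have hall : ∀ i, X (j + i) v U = X j v U := by
    intro i
    induction i with
    | zero => rfl
    | succ i ih => rw [← ih, ← add_assoc]; exact (h i).symm
  unfold XL
  cases hX : X j v U with
  | true =>
    rw [decide_eq_true_iff]
    refine ⟨j, fun i hi => ?_⟩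
    obtain ⟨m, rfl⟩ := Nat.exists_eq_add_of_le hi
    rw [hall m, hX]
  | false =>
    rw [decide_eq_false_iff_not]
    rintro ⟨J, hJ⟩
    have h1 := hJ (j + J) (by omega)
    rw [hall J, hX] at h1
    exact absurd h1 (by simp)

/-- Deviation of the limit sign from the sign at stage `j`. -/
theorem XL_deviation {X : ℕ → V → (V → unitInterval) → Bool} {c : ℝ} (hc : 0 ≤ c)
    (hstep : ∀ j v, iidUniform V {U | X j v U ≠ X (j + 1) v U} ≤ ENNReal.ofReal (c * (1 / 2) ^ j))
    (j : ℕ) (v : V) :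
    iidUniform V {U | XL X v U ≠ X j v U} ≤ ENNReal.ofReal (2 * c * (1 / 2) ^ j) := by
  have hsub : {U | XL X v U ≠ X j v U} ⊆ ⋃ i : ℕ, {U | X (j + i) v U ≠ X (j + i + 1) v U} := by
    intro U hU
    by_contra hcon
    simp only [Set.mem_iUnion, Set.mem_ofPred_eq, not_exists, not_not] at hcon
    exact hU (XL_eq_of_stable hcon)
  have hf : ∀ i : ℕ, (c * (1 / 2 : ℝ) ^ (j + i)) = (c * (1 / 2 : ℝ) ^ j) * (1 / 2) ^ i := by
    intro i
    rw [pow_add]
    ring
  have hsumm : Summable (fun i : ℕ => c * (1 / 2 : ℝ) ^ (j + i)) := by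
    simp_rw [hf]
    exact summable_geometric_two.mul_left _
  calc iidUniform V {U | XL X v U ≠ X j v U}
      ≤ iidUniform V (⋃ i : ℕ, {U | X (j + i) v U ≠ X (j + i + 1) v U}) := measure_mono hsub
    _ ≤ ∑' i : ℕ, iidUniform V {U | X (j + i) v U ≠ X (j + i + 1) v U} := measure_iUnion_le _
    _ ≤ ∑' i : ℕ, ENNReal.ofReal (c * (1 / 2) ^ (j + i)) :=
        ENNReal.tsum_le_tsum fun i => hstep (j + i) v
    _ = ENNReal.ofReal (∑' i : ℕ, c * (1 / 2) ^ (j + i)) :=
        (ENNReal.ofReal_tsum_of_nonneg (fun i => by positivity) hsumm).symm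
    _ = _ := by
        congr 1
        simp_rw [hf]
        rw [tsum_mul_left, tsum_geometric_two]
        ring

/-- Error terms in a limit. -/
theorem tendsto_err (A : ℝ≥0∞) (hA : A ≠ ∞) :
    Tendsto (fun j : ℕ => A * ENNReal.ofReal ((1 / 2 : ℝ) ^ j)) atTop (𝓝 0) := by
  have h1 : Tendsto (fun j : ℕ => ENNReal.ofReal ((1 / 2 : ℝ) ^ j)) atTop (𝓝 0) := by
    have h2 : Tendsto (fun j : ℕ => (1 / 2 : ℝ) ^ j) atTop (𝓝 0) :=
      tendsto_pow_atTop_nhds_zero_of_lt_one (by norm_num) (by norm_num)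
    simpa using ENNReal.tendsto_ofReal h2
  simpa using ENNReal.Tendsto.const_mul h1 (Or.inr hA)

/-- The law of the limit from the laws at the stages. -/
theorem XL_law {X : ℕ → V → (V → unitInterval) → Bool} {c : ℝ} (hc : 0 ≤ c)
    (hstep : ∀ j v, iidUniform V {U | X j v U ≠ X (j + 1) v U} ≤ ENNReal.ofReal (c * (1 / 2) ^ j))
    (D : Finset V) (η : V → Bool) {pj : ℕ → ℝ} {p₀ : ℝ} (hp : Tendsto pj atTop (𝓝 p₀))
    {A : ℝ≥0∞} (hA : A ≠ ∞)
    (hstage : ∀ j, iidUniform V {U | ∀ v ∈ D, X j v U = η v} ≤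
        ENNReal.ofReal (pj j) + A * ENNReal.ofReal ((1 / 2) ^ j) ∧
      ENNReal.ofReal (pj j) ≤ iidUniform V {U | ∀ v ∈ D, X j v U = η v} +
        A * ENNReal.ofReal ((1 / 2) ^ j)) :
    iidUniform V {U | ∀ v ∈ D, XL X v U = η v} = ENNReal.ofReal p₀ := by
  set a : ℝ≥0∞ := (D.card : ℝ≥0∞) with ha
  have hatop : a ≠ ∞ := ENNReal.natCast_ne_top _
  have hc' : ENNReal.ofReal (2 * c) ≠ ∞ := ENNReal.ofReal_ne_top
  have edev : ∀ j : ℕ, ENNReal.ofReal (2 * c * (1 / 2) ^ j) =
      ENNReal.ofReal (2 * c) * ENNReal.ofReal ((1 / 2) ^ j) := fun j =>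
    ENNReal.ofReal_mul (by positivity)
  have hdev := XL_deviation hc hstep
  have hlim0 : Tendsto (fun j => ENNReal.ofReal (pj j)) atTop (𝓝 (ENNReal.ofReal p₀)) :=
    ENNReal.tendsto_ofReal hp
  have he1 : Tendsto (fun j : ℕ => (a * ENNReal.ofReal (2 * c) + A) *
      ENNReal.ofReal ((1 / 2 : ℝ) ^ j)) atTop (𝓝 0) :=
    tendsto_err _ (ENNReal.add_ne_top.2 ⟨ENNReal.mul_ne_top hatop hc', hA⟩)
  apply le_antisymm
  · have hlim : Tendsto (fun j => ENNReal.ofReal (pj j) + (a * ENNReal.ofReal (2 * c) + A) *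
        ENNReal.ofReal ((1 / 2 : ℝ) ^ j)) atTop (𝓝 (ENNReal.ofReal p₀ + 0)) := hlim0.add he1
    rw [add_zero] at hlim
    refine ge_of_tendsto' hlim fun j => ?_
    have h1 := cyl_compare (a := fun v U => XL X v U) (b := fun v U => X j v U) D η _
      (fun v _ => hdev j v)
    refine h1.trans ((add_le_add (hstage j).1 le_rfl).trans (le_of_eq ?_))
    rw [edev]
    ring
  · have hlim : Tendsto (fun j => iidUniform V {U | ∀ v ∈ D, XL X v U = η v} +
        (a * ENNReal.ofReal (2 * c) + A) * ENNReal.ofReal ((1 / 2 : ℝ) ^ j)) atTop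
        (𝓝 (iidUniform V {U | ∀ v ∈ D, XL X v U = η v} + 0)) := tendsto_const_nhds.add he1
    rw [add_zero] at hlim
    refine le_of_tendsto_of_tendsto' hlim0 hlim fun j => ?_
    have h1 := cyl_compare (a := fun v U => X j v U) (b := fun v U => XL X v U) D η _
      (fun v _ => by
        have := hdev j v
        simp only [ne_comm] at this ⊢
        exact this)
    refine (hstage j).2.trans ((add_le_add h1 le_rfl).trans (le_of_eq ?_))
    rw [edev]
    ring

/-- The cylinder probabilities are continuous in the parameter. -/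
theorem continuous_isingCyl (G : SimpleGraph V) (D : Finset V) (η : V → Bool) :
    Continuous (fun θ => isingCyl G θ D η) := by
  unfold isingCyl
  refine continuous_const.mul (continuous_finset_prod _ fun e _ => ?_)
  induction e using Sym2.ind with
  | _ u v =>
    simp only [edgeFactor, Sym2.lift_mk]
    fun_prop

theorem dy_pow (p : ℕ) : dy 0 (2 ^ p) = (2 : ℝ) ^ p := by
  unfold dy dlt
  simp

/-- The law of the signs of the limit field on a connected set. -/
theorem stage_cyl (hg : DN g) (hT : G.IsTree) (hd : 2 ≤ d) (hreg : G.IsRegularOfDegree d)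
    (hβ : 0 ≤ β) (P : Par d β) (p : ℕ) {D : Finset V} (hD : (G.induce (D : Set V)).Connected)
    (η : V → Bool) :
    iidUniform V {U | ∀ v ∈ D, sgnB (Yf g G β P (2 ^ p) v U) = η v} ≤
        ENNReal.ofReal (isingCyl G (Real.tanh β) D η) +
          (1 + (D.card : ℝ≥0∞)) * ENNReal.ofReal ((1 / 2) ^ p) ∧
    ENNReal.ofReal (isingCyl G (Real.tanh β) D η) ≤
      iidUniform V {U | ∀ v ∈ D, sgnB (Yf g G β P (2 ^ p) v U) = η v} +
        (1 + (D.card : ℝ≥0∞)) * ENNReal.ofReal ((1 / 2) ^ p) := by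
  obtain ⟨⟨r, hr'⟩⟩ := hD.nonempty
  have hr : r ∈ D := hr'
  have hstar : Star G r D := star_of_connected hT hD hr
  have hT0 : (0 : ℝ) < 2 ^ p := by positivity
  have hcyl := planted_cyl (β := β) hT hr hstar (Finset.Subset.refl D) hstar η hT0
  have h1T : (1 : ℝ) / 2 ^ p = (1 / 2) ^ p := by simp
  rw [h1T] at hcyl
  have hF : Measurable (fun y : V → ℝ => ind (signsAgree D η y)) :=
    measurable_ind (measurableSet_signsAgree D η)
  have hdep : ∀ y y' : V → ℝ, (∀ v ∈ D, y v = y' v) →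
      ind (signsAgree D η y) = ind (signsAgree D η y') := by
    intro y y' h
    have : signsAgree D η y ↔ signsAgree D η y' := by
      unfold signsAgree
      refine forall₂_congr fun v hv => ?_
      rw [h v hv]
    simp only [ind, this]
  have hlaw := Yf_law hg hT hd hreg hβ P (L := 0) (k := 2 ^ p) hr hstar hF hdep
  rw [dy_pow] at hlaw
  have hset : MeasurableSet {U : V → unitInterval |
      ∀ v ∈ D, sgnB (Yf g G β P (2 ^ p) v U) = η v} := by
    refine measurableSet_forall_mem D fun v _ => ?_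
    exact measurableSet_eq_fun (measurable_sgnB.comp (measurable_Yf hg P _ v)) measurable_const
  have hval : iidUniform V {U | ∀ v ∈ D, sgnB (Yf g G β P (2 ^ p) v U) = η v} =
      planted G β D (2 ^ p) 0 (fun y => ind (signsAgree D η y)) := by
    rw [← hlaw, ← lintegral_ind (iidUniform V) hset]
    rfl
  rw [hval]
  constructor
  · refine hcyl.1.trans (add_le_add le_rfl ?_)
    rw [add_mul, one_mul]
    exact le_self_add
  · refine hcyl.2.trans (add_le_add le_rfl ?_)
    rw [add_mul, one_mul]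
    exact le_add_self

/-- Stability of the sign between two parameters close in `L²`, and between the times `T`, `2 T`. -/
theorem sign_step (hg : DN g) (hT : G.IsTree) (hd : 2 ≤ d) (hreg : G.IsRegularOfDegree d)
    {β₁ β₂ : ℝ} (hβ₁ : 0 ≤ β₁) (hβ₂ : 0 ≤ β₂) (P₁ : Par d β₁) (P₂ : Par d β₂) (p : ℕ) (v : V)
    (hclose : ∫ U, (Yf g G β₁ P₁ (2 ^ p) v U - Yf g G β₂ P₂ (2 ^ p) v U) ^ 2 ∂iidUniform V ≤ 1) :
    iidUniform V {U | sgnB (Yf g G β₁ P₁ (2 ^ p) v U) ≠ sgnB (Yf g G β₂ P₂ (2 ^ (p + 1)) v U)} ≤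
      ENNReal.ofReal (60 * (1 / 2) ^ p) := by
  have hprob : IsProbabilityMeasure (iidUniform V) := isProb_iid
  set T : ℝ := 2 ^ p with hTd
  have hT1 : 1 ≤ T := one_le_pow₀ (by norm_num)
  have hT0 : 0 < T := by linarith
  set Y₁ : (V → unitInterval) → ℝ := fun U => Yf g G β₁ P₁ T v U with hY₁
  set Y₂ : (V → unitInterval) → ℝ := fun U => Yf g G β₂ P₂ T v U with hY₂
  have hY₁m : Measurable Y₁ := measurable_Yf hg P₁ T v
  have hY₂m : Measurable Y₂ := measurable_Yf hg P₂ T v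
  set A : Set (V → unitInterval) := {U | |Y₁ U| < T / 4} with hA
  set B : Set (V → unitInterval) := {U | T / 4 ≤ |Y₂ U - Y₁ U|} with hB
  set C : Set (V → unitInterval) := {U | sgnB (Y₂ U) ≠ sgnB (Yf g G β₂ P₂ (2 ^ (p + 1)) v U)} with hC
  have hsub : {U | sgnB (Y₁ U) ≠ sgnB (Yf g G β₂ P₂ (2 ^ (p + 1)) v U)} ⊆ (A ∪ B) ∪ C := by
    intro U hU
    by_contra hcon
    simp only [Set.mem_union, not_or] at hcon
    obtain ⟨⟨h1, h2⟩, h3⟩ := hcon
    have h1' : T / 4 ≤ |Y₁ U| := not_lt.1 h1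
    have h2' : |Y₂ U - Y₁ U| < T / 4 := not_le.1 h2
    have h3' : sgnB (Y₂ U) = sgnB (Yf g G β₂ P₂ (2 ^ (p + 1)) v U) := not_not.1 h3
    apply hU
    show sgnB (Y₁ U) = _
    rw [← h3', sgnB_eq_of_close (by positivity) h1' h2']
  have hAb : iidUniform V A ≤ ENNReal.ofReal (4 * (1 / 2) ^ p) :=
    Yf_not_small hg hT hd hreg hβ₁ P₁ p v
  have hCb : iidUniform V C ≤ ENNReal.ofReal (40 * (1 / 2) ^ p) :=
    Yf_sign_stable hg hT hd hreg hβ₂ P₂ p v
  have hBm : MeasurableSet B := measurableSet_le measurable_const (hY₂m.sub hY₁m).abs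
  have hi₁ : Integrable (fun U => Y₁ U ^ 2) (iidUniform V) := by
    have := integrable_Yf_sq hg hT hd hreg hβ₁ P₁ (L := 0) (k := 2 ^ p) v
    rwa [dy_pow] at this
  have hi₂ : Integrable (fun U => Y₂ U ^ 2) (iidUniform V) := by
    have := integrable_Yf_sq hg hT hd hreg hβ₂ P₂ (L := 0) (k := 2 ^ p) v
    rwa [dy_pow] at this
  have hisq : Integrable (fun U => (Y₁ U - Y₂ U) ^ 2) (iidUniform V) := by
    refine Integrable.mono' ((hi₁.const_mul 2).add (hi₂.const_mul 2))
      ((hY₁m.sub hY₂m).pow_const 2).aestronglyMeasurable (Filter.Eventually.of_forall fun U => ?_)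
    rw [Real.norm_eq_abs, abs_of_nonneg (by positivity)]
    show (Y₁ U - Y₂ U) ^ 2 ≤ 2 * Y₁ U ^ 2 + 2 * Y₂ U ^ 2
    nlinarith [sq_nonneg (Y₁ U + Y₂ U)]
  have hBb : iidUniform V B ≤ ENNReal.ofReal (16 * (1 / 2) ^ p) := by
    have hc : 0 < T / 4 := by positivity
    have hind : ∀ U, ind (T / 4 ≤ |Y₂ U - Y₁ U|) ≤
        ENNReal.ofReal (1 / (T / 4) ^ 2) * ENNReal.ofReal ((Y₁ U - Y₂ U) ^ 2) := by
      intro U
      rw [show (Y₁ U - Y₂ U) ^ 2 = (Y₂ U - Y₁ U) ^ 2 by ring]
      exact ind_ge_le_sq hc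
    have hmeas : Measurable (fun U => ENNReal.ofReal ((Y₁ U - Y₂ U) ^ 2)) :=
      ENNReal.measurable_ofReal.comp ((hY₁m.sub hY₂m).pow_const 2)
    rw [← lintegral_ind (iidUniform V) hBm]
    calc ∫⁻ U, ind (T / 4 ≤ |Y₂ U - Y₁ U|) ∂iidUniform V
        ≤ ∫⁻ U, ENNReal.ofReal (1 / (T / 4) ^ 2) * ENNReal.ofReal ((Y₁ U - Y₂ U) ^ 2) ∂iidUniform V :=
          lintegral_mono hind
      _ = ENNReal.ofReal (1 / (T / 4) ^ 2) * ∫⁻ U, ENNReal.ofReal ((Y₁ U - Y₂ U) ^ 2) ∂iidUniform V :=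
          lintegral_const_mul _ hmeas
      _ = ENNReal.ofReal (1 / (T / 4) ^ 2) * ENNReal.ofReal (∫ U, (Y₁ U - Y₂ U) ^ 2 ∂iidUniform V) := by
          rw [ofReal_integral_eq_lintegral_ofReal hisq (Filter.Eventually.of_forall fun U => by
            show 0 ≤ (Y₁ U - Y₂ U) ^ 2
            positivity)]
      _ ≤ ENNReal.ofReal (1 / (T / 4) ^ 2) * ENNReal.ofReal 1 :=
          mul_le_mul_right (ENNReal.ofReal_le_ofReal hclose) _
      _ ≤ ENNReal.ofReal (16 * (1 / 2) ^ p) := by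
          rw [ENNReal.ofReal_one, mul_one]
          refine ENNReal.ofReal_le_ofReal ?_
          have e1 : 1 / (T / 4) ^ 2 = 16 * (1 / T) * (1 / T) := by
            field_simp
            norm_num
          have e2 : 1 / T = (1 / 2) ^ p := by
            rw [hTd]; simp
          rw [e1, e2, mul_assoc]
          have h3 : ((1 : ℝ) / 2) ^ p ≤ 1 := pow_le_one₀ (by norm_num) (by norm_num)
          have h4 : (0 : ℝ) ≤ (1 / 2) ^ p := by positivity
          nlinarith
  calc iidUniform V {U | sgnB (Yf g G β₁ P₁ (2 ^ p) v U) ≠ sgnB (Yf g G β₂ P₂ (2 ^ (p + 1)) v U)}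
      ≤ iidUniform V ((A ∪ B) ∪ C) := measure_mono hsub
    _ ≤ iidUniform V (A ∪ B) + iidUniform V C := measure_union_le _ _
    _ ≤ ENNReal.ofReal (4 * (1 / 2) ^ p + 16 * (1 / 2) ^ p) + iidUniform V C :=
        add_le_add ((measure_union_le _ _).trans (add_ofReal_le hAb hBb (by positivity) (by positivity))) le_rfl
    _ ≤ ENNReal.ofReal (4 * (1 / 2) ^ p + 16 * (1 / 2) ^ p + 40 * (1 / 2) ^ p) :=
        add_ofReal_le le_rfl hCb (by positivity) (by positivity)
    _ = _ := by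
        congr 1
        ring

/-- G2. The endpoint theorem. -/
theorem fiid_endpoint {V : Type*} (G : SimpleGraph V) [G.LocallyFinite] {d : ℕ} (hd : 3 ≤ d)
    (hT : G.IsTree) (hreg : G.IsRegularOfDegree d) {β : ℝ} (hβ : 0 ≤ β)
    (hθ : ((d : ℝ) - 1) * Real.tanh β ^ 2 = 1) :
    ∃ Φ : (V → unitInterval) → (V → Bool), Measurable Φ ∧
      (∀ (φ : G ≃g G) (U : V → unitInterval), Φ (U ∘ φ.symm) = Φ U ∘ φ.symm) ∧
      ∀ D : Finset V, (G.induce (D : Set V)).Connected → ∀ η : V → Bool,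
        (iidUniform V).map Φ {σ | ∀ v ∈ D, σ v = η v} =
          ENNReal.ofReal (isingCyl G (Real.tanh β) D η) := by
  -- the parameter
  have hθ0 : 0 ≤ Real.tanh β := by
    rw [Real.tanh_eq_sinh_div_cosh]
    exact div_nonneg (Real.sinh_nonneg_iff.mpr hβ) (Real.cosh_pos β).le
  have hd3 : (3 : ℝ) ≤ d := by exact_mod_cast hd
  have hthc : Real.tanh β = thc d := by
    have hs0 : 0 < Real.sqrt ((d : ℝ) - 1) := Real.sqrt_pos.2 (by linarith)
    have hs2 : Real.sqrt ((d : ℝ) - 1) ^ 2 = (d : ℝ) - 1 := Real.sq_sqrt (by linarith)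
    have hp : (Real.sqrt ((d : ℝ) - 1) * Real.tanh β) ^ 2 = 1 := by
      rw [mul_pow, hs2, hθ]
    have hp1 : Real.sqrt ((d : ℝ) - 1) * Real.tanh β = 1 := by
      have h0 : 0 ≤ Real.sqrt ((d : ℝ) - 1) * Real.tanh β := by positivity
      nlinarith [sq_nonneg (Real.sqrt ((d : ℝ) - 1) * Real.tanh β - 1)]
    unfold thc
    field_simp
    linarith
  obtain ⟨g, hm, hsum, hlaw⟩ := exists_dyadic_noise
  have hg : DN g := ⟨hm, hsum, hlaw⟩
  obtain ⟨βs, Ps, hAdm, hlim, hkey⟩ := endpoint_key (G := G) hg hT hd hreg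
  choose I hI using hkey
  have hd2 : 2 ≤ d := by omega
  -- the subsequence
  let i : ℕ → ℕ := fun p => p + (Finset.range (p + 1)).sup I
  have hiI : ∀ p q, q ≤ p → I q ≤ i p := by
    intro p q hq
    have : I q ≤ (Finset.range (p + 1)).sup I :=
      Finset.le_sup (f := I) (Finset.mem_range.2 (by omega))
    show I q ≤ p + _
    omega
  have hip : ∀ p, p ≤ i p := fun p => Nat.le_add_right _ _
  have hβs : ∀ k, 0 ≤ βs k := fun k => (hAdm k).hβ
  -- the signs
  let X : ℕ → V → (V → unitInterval) → Bool := fun p v U =>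
    sgnB (Yf g G (βs (i p)) (Ps (i p)) (2 ^ p) v U)
  have hXm : ∀ p v, Measurable (X p v) := fun p v =>
    measurable_sgnB.comp (measurable_Yf hg (Ps (i p)) _ v)
  have hstep : ∀ p v, iidUniform V {U | X p v U ≠ X (p + 1) v U} ≤
      ENNReal.ofReal (60 * (1 / 2) ^ p) := by
    intro p v
    exact sign_step hg hT hd2 hreg (hβs _) (hβs _) (Ps (i p)) (Ps (i (p + 1))) p v
      (hI p (i p) (i (p + 1)) (hiI p p le_rfl) (hiI (p + 1) p (by omega)) v)
  have hΦm : Measurable (fun (U : V → unitInterval) (v : V) => XL X v U) :=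
    measurable_pi_iff.2 fun v => measurable_XL hXm v
  refine ⟨fun U v => XL X v U, hΦm, ?_, ?_⟩
  · intro φ U
    funext w
    show XL X w (U ∘ φ.symm) = XL X (φ.symm w) U
    have hX : ∀ p, X p w (U ∘ φ.symm) = X p (φ.symm w) U := by
      intro p
      show sgnB _ = sgnB _
      have h := Yf_map (g := g) hT (Ps (i p)) ((2 : ℝ) ^ p) φ (φ.symm w) U
      rw [φ.apply_symm_apply] at h
      rw [h]
    unfold XL
    simp only [hX]
  · intro D hD η
    have hcylm : MeasurableSet {σ : V → Bool | ∀ v ∈ D, σ v = η v} := by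
      refine measurableSet_forall_mem D fun v _ => ?_
      exact measurableSet_eq_fun (measurable_pi_apply v) measurable_const
    rw [Measure.map_apply hΦm hcylm]
    show iidUniform V {U | ∀ v ∈ D, XL X v U = η v} = _
    have hcont : Tendsto (fun p => isingCyl G (Real.tanh (βs (i p))) D η) atTop
        (𝓝 (isingCyl G (Real.tanh β) D η)) := by
      rw [hthc]
      have h1 : Tendsto i atTop atTop := tendsto_atTop_mono hip tendsto_id
      exact (continuous_isingCyl G D η).continuousAt.tendsto.comp (hlim.comp h1)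
    refine XL_law (c := 60) (by norm_num) hstep D η hcont
      (A := 1 + (D.card : ℝ≥0∞)) (ENNReal.add_ne_top.2 ⟨ENNReal.one_ne_top, ENNReal.natCast_ne_top _⟩)
      fun p => ?_
    exact stage_cyl hg hT hd2 hreg (hβs _) (Ps (i p)) p hD η

end Vale.Agent.Lib.P161E
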