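import Vale.Agent.Lib.P161E.Const

/-! Job E1a: dyadic noise, steps, exact differences of flows. -/

open MeasureTheory Finset Filter Topology
open scoped Classical ENNReal

noncomputable section

namespace Vale.Agent.Lib.P161E

open Vale.Agent.Lib.P161

variable {V : Type*} {G : SimpleGraph V} {β : ℝ} {d : ℕ}

/-- Dyadic noise. -/
structure DN (g : ℕ → ℕ → unitInterval → ℝ) : Prop where
  hm : ∀ l k, Measurable (g l k)
  hsum : ∀ l k u, g l k u = (g (l + 1) (2 * k) u + g (l + 1) (2 * k + 1) u) / Real.sqrt 2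
  hlaw : ∀ l, (volume : Measure unitInterval).map (fun u k => g l k u) =
    Measure.infinitePi (fun _ : ℕ => stdN)

/-- Number of steps of level `l` for time `u`. -/
def stp (u : ℝ) (l : ℕ) : ℕ := ⌊u * 2 ^ l⌋₊

theorem stp_dy {L k l : ℕ} (h : L ≤ l) : stp (dy L k) l = k * 2 ^ (l - L) := by
  unfold stp dy dlt
  obtain ⟨m, rfl⟩ := Nat.exists_eq_add_of_le h
  have e : (k : ℝ) * (1 / 2) ^ L * 2 ^ (L + m) = ((k * 2 ^ (L + m - L) : ℕ) : ℝ) := by
    have h2 : ((1 : ℝ) / 2) ^ L * 2 ^ L = 1 := by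
      rw [← mul_pow]
      norm_num
    rw [Nat.add_sub_cancel_left]
    push_cast
    rw [pow_add]
    calc (k : ℝ) * (1 / 2) ^ L * (2 ^ L * 2 ^ m) = k * 2 ^ m * ((1 / 2) ^ L * 2 ^ L) := by ring
      _ = _ := by rw [h2]; ring
  rw [e, Nat.floor_natCast]

theorem stp_mul_dlt {L k l : ℕ} (h : L ≤ l) : (stp (dy L k) l : ℝ) * dlt l = dy L k := by
  rw [stp_dy h]
  unfold dy dlt
  obtain ⟨m, rfl⟩ := Nat.exists_eq_add_of_le h
  rw [Nat.add_sub_cancel_left]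
  push_cast
  rw [pow_add]
  have h2 : ((1 : ℝ) / 2) ^ m * 2 ^ m = 1 := by
    rw [← mul_pow]
    norm_num
  calc (k : ℝ) * 2 ^ m * ((1 / 2) ^ L * (1 / 2) ^ m) = k * (1 / 2) ^ L * ((1 / 2) ^ m * 2 ^ m) := by ring
    _ = _ := by rw [h2]; ring

/-- The flow at a coordinate, as drift plus noise. -/
theorem flow_eq_sum (S : Finset V) (δ : ℝ) (ξ : ℕ → V → ℝ) (K : ℕ) (x : V) :
    flow G β S δ ξ 0 K 0 x = δ * ∑ k ∈ range K, mean G β S (flow G β S δ ξ 0 k 0) x +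
      Real.sqrt δ * ∑ k ∈ range K, ξ k x := by
  induction K with
  | zero => simp [flow]
  | succ K ih =>
    rw [flow_succ, Finset.sum_range_succ, Finset.sum_range_succ]
    simp only [eulerStep, zero_add]
    rw [ih]
    ring

/-- The exact difference of two flows at a coordinate: the noise cancels. -/
theorem flow_sub_eq {β₁ β₂ : ℝ} {S₁ S₂ : Finset V} (δ : ℝ) (ξ : ℕ → V → ℝ) (K : ℕ) (x : V) :
    flow G β₁ S₁ δ ξ 0 K 0 x - flow G β₂ S₂ δ ξ 0 K 0 x =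
      δ * ∑ k ∈ range K, (mean G β₁ S₁ (flow G β₁ S₁ δ ξ 0 k 0) x -
        mean G β₂ S₂ (flow G β₂ S₂ δ ξ 0 k 0) x) := by
  rw [flow_eq_sum, flow_eq_sum, Finset.sum_sub_distrib]
  ring

/-- The drift part is at most the time. -/
theorem abs_drift_le (S : Finset V) {δ : ℝ} (hδ : 0 ≤ δ) (ξ : ℕ → V → ℝ) (K : ℕ) (x : V) :
    |δ * ∑ k ∈ range K, mean G β S (flow G β S δ ξ 0 k 0) x| ≤ K * δ := by
  rw [abs_mul, abs_of_nonneg hδ]
  have h : |∑ k ∈ range K, mean G β S (flow G β S δ ξ 0 k 0) x| ≤ K := by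
    refine (Finset.abs_sum_le_sum_abs _ _).trans ?_
    calc _ ≤ ∑ _k ∈ range K, (1 : ℝ) := Finset.sum_le_sum fun k _ => abs_mean_le _ _ _ _ _
      _ = K := by simp
  nlinarith

/-- Two flows with the same noise differ by at most twice the time. -/
theorem abs_flow_sub_le {β₁ β₂ : ℝ} {S₁ S₂ : Finset V} {δ : ℝ} (hδ : 0 ≤ δ) (ξ : ℕ → V → ℝ) (K : ℕ)
    (x : V) :
    |flow G β₁ S₁ δ ξ 0 K 0 x - flow G β₂ S₂ δ ξ 0 K 0 x| ≤ 2 * (K * δ) := by
  rw [flow_eq_sum, flow_eq_sum]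
  have e : ∀ a b c : ℝ, a + c - (b + c) = a - b := fun a b c => by ring
  rw [e]
  refine (abs_sub _ _).trans ?_
  have h1 := abs_drift_le (G := G) (β := β₁) S₁ hδ ξ K x
  have h2 := abs_drift_le (G := G) (β := β₂) S₂ hδ ξ K x
  linarith

end Vale.Agent.Lib.P161E
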