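import Vale.Agent.Lib.P161E.FlowA
import Vale.Agent.Lib.P161D.Lim1

/-! Job E1b: refinement of the level for general number of steps. -/

open MeasureTheory Finset Filter Topology
open scoped Classical ENNReal

noncomputable section

namespace Vale.Agent.Lib.P161E

open Vale.Agent.Lib.P161

variable {V : Type*} {G : SimpleGraph V} {β : ℝ} {d : ℕ}

section noise

variable {g : ℕ → ℕ → unitInterval → ℝ} (hg : DN g)

/-- Sum over two consecutive indices. -/
theorem sum_range_two_mul (f : ℕ → ℝ) (n : ℕ) :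
    ∑ k ∈ range (2 * n), f k = ∑ k ∈ range n, (f (2 * k) + f (2 * k + 1)) := by
  induction n with
  | zero => simp
  | succ n ih =>
    rw [show 2 * (n + 1) = 2 * n + 1 + 1 by ring, Finset.sum_range_succ, Finset.sum_range_succ, ih,
      Finset.sum_range_succ]
    ring

include hg in
/-- The noise of the levels is consistent. -/
theorem noise_level (U : unitInterval) (K : ℕ) (l m : ℕ) :
    Real.sqrt (dlt (l + m)) * ∑ k ∈ range (K * 2 ^ m), g (l + m) k U =
      Real.sqrt (dlt l) * ∑ k ∈ range K, g l k U := by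
  induction m with
  | zero => simp
  | succ m ih =>
    rw [← ih]
    have e : K * 2 ^ (m + 1) = 2 * (K * 2 ^ m) := by ring
    rw [e, sum_range_two_mul, ← add_assoc]
    have h : ∀ k, g (l + m) k U =
        (g (l + m + 1) (2 * k) U + g (l + m + 1) (2 * k + 1) U) / Real.sqrt 2 := fun k => hg.hsum _ _ _
    simp_rw [h]
    rw [← Finset.sum_div]
    have hd : Real.sqrt (dlt (l + m)) = Real.sqrt (dlt (l + m + 1)) * Real.sqrt 2 := by
      rw [← Real.sqrt_mul (dlt_pos _).le, dlt_succ]
      congr 1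
      ring
    rw [hd]
    have h2 : Real.sqrt 2 ≠ 0 := by positivity
    field_simp

include hg in
/-- Flows at two levels differ by at most twice the time, at dyadic times. -/
theorem abs_flow_level_le {β₁ β₂ : ℝ} (S₁ S₂ : Finset V) (K : ℕ) {l l' : ℕ} (hl : l ≤ l')
    (U : V → unitInterval) (x : V) :
    |flow G β₁ S₁ (dlt l') (xiN g l' U) 0 (K * 2 ^ (l' - l)) 0 x -
        flow G β₂ S₂ (dlt l) (xiN g l U) 0 K 0 x| ≤ 2 * (K * dlt l) := by
  obtain ⟨m, rfl⟩ := Nat.exists_eq_add_of_le hl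
  rw [Nat.add_sub_cancel_left, flow_eq_sum, flow_eq_sum]
  have hn := noise_level hg (U x) K l m
  have e1 : ∑ k ∈ range (K * 2 ^ m), xiN g (l + m) U k x = ∑ k ∈ range (K * 2 ^ m), g (l + m) k (U x) := rfl
  have e2 : ∑ k ∈ range K, xiN g l U k x = ∑ k ∈ range K, g l k (U x) := rfl
  rw [e1, e2, hn]
  have e : ∀ a b c : ℝ, a + c - (b + c) = a - b := fun a b c => by ring
  rw [e]
  refine (abs_sub _ _).trans ?_
  have h1 := abs_drift_le (G := G) (β := β₁) S₁ (dlt_pos (l + m)).le (xiN g (l + m) U) (K * 2 ^ m) x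
  have h2 := abs_drift_le (G := G) (β := β₂) S₂ (dlt_pos l).le (xiN g l U) K x
  have e3 : ((K * 2 ^ m : ℕ) : ℝ) * dlt (l + m) = K * dlt l := by
    rw [mul_comm K]
    exact Vale.Agent.Lib.P161D.K_dlt_add K l m
  rw [e3] at h1
  linarith

include hg in
/-- E1a. Refinement of the level, for any number of steps. Same proof as `refine_iter`, `refine_point`, with
`K` for `2 ^ (j + l)` and the constant `2 exp(2 N T) T N²`, `T = K δ_l`. -/
theorem refine_general (S : Finset V) {r : V} (hr : r ∈ S) (K : ℕ) {l l' : ℕ} (hl : l ≤ l') :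
    ∫⁻ U, ENNReal.ofReal |flow G β S (dlt l') (xiN g l' U) 0 (K * 2 ^ (l' - l)) 0 r -
        flow G β S (dlt l) (xiN g l U) 0 K 0 r| ∂iidUniform V ≤
      ENNReal.ofReal (8 * Real.exp (2 * S.card * (K * dlt l)) * (K * dlt l) * (S.card : ℝ) ^ 2 * qq ^ l) := by
  obtain ⟨m, rfl⟩ := Nat.exists_eq_add_of_le hl
  have h := Vale.Agent.Lib.P161D.refine_point' (G := G) (β := β) g hg.hm hg.hsum hg.hlaw S hr K l m
  rw [Nat.add_sub_cancel_left, mul_comm K]
  refine h.trans (ENNReal.ofReal_le_ofReal (le_of_eq ?_))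
  unfold Vale.Agent.Lib.P161D.RT
  ring

end noise

end Vale.Agent.Lib.P161E
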