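import Vale.Agent.Lib.P161E.FlowB

/-! Job E1c: the chain and the Euler scheme on the same set. -/

open MeasureTheory Finset Filter Topology
open scoped Classical ENNReal

noncomputable section

namespace Vale.Agent.Lib.P161E

open Vale.Agent.Lib.P161

variable {V : Type*} {G : SimpleGraph V} {β : ℝ} {d : ℕ}


variable [G.LocallyFinite] {κ ρ : ℝ} {S' : Finset V} {δ : ℝ}

/-- E1b. Comparison of the exact chain on `S` with the Euler scheme on the same `S`, at any coordinate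
`x ∈ S`. Same proof as `compare_flow` with `S' = S` and no static term (`one_step_real` with `mean S' = mean S`).
Here no ball is needed. -/
theorem self_compare (hT : G.IsTree) (hd : 2 ≤ d) (hreg : G.IsRegularOfDegree d) (hβ : 0 ≤ β)
    (hθκ : Real.tanh β ≤ κ) (hκ : 0 < κ) (hκρ : κ < ρ) (hρ : ρ < 1)
    (hdκρ : ((d : ℝ) - 1) * κ * ρ < 1) {S : Finset V} {x : V} (hx : x ∈ S)
    (hδ0 : 0 < δ) (hδ1 : δ ≤ 1) (K : ℕ) (hK : 0 < K) (z : ℕ → V → ℝ) :
    lmarginal (fun _ : ℕ => gam V) (Finset.range K)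
      (fun ξ => chainFrom G β S δ 0 ξ K
        (fun y => ENNReal.ofReal ((y x - flow G β S δ ξ 0 K 0 x) ^ 2)) 0) z ≤
    ENNReal.ofReal (3 * (K * δ) * cS S.card (K * δ) (convC d κ ρ) * δ) := by
  set T := (K : ℝ) * δ with hTdef
  set C := convC d κ ρ with hC
  have hδ : 0 ≤ δ := hδ0.le
  have hK0 : (0 : ℝ) < K := by exact_mod_cast hK
  have hT0 : 0 ≤ T := by positivity
  have hρ0 : 0 < ρ := hκ.trans hκρ
  have hC0 : 0 ≤ C := Vale.Agent.Lib.P161D.convC_nonneg hκ hκρ hρ hdκρ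
  have hθ0 : 0 ≤ Real.tanh β := by
    rw [Real.tanh_eq_sinh_div_cosh]
    exact div_nonneg (Real.sinh_nonneg_iff.mpr hβ) (Real.cosh_pos β).le
  have hcov : ∀ y u v, |cov G β S y u v| ≤ κ ^ G.dist u v := fun y u v =>
    (abs_cov_le hT hβ S y u v).trans (pow_le_pow_left₀ hθ0 hθκ _)
  have hconv : ∀ v, ∑ u ∈ S, κ ^ G.dist v u * ρ ^ G.dist u x ≤ C * ρ ^ G.dist v x := fun v =>
    conv_bound hT hd hreg hκ hκρ hρ hdκρ x v S
  set N : ℝ := (S.card : ℝ) with hN
  have hN0 : 0 ≤ N := Nat.cast_nonneg _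
  set h₀ : (ℕ → V → ℝ) → ℝ := fun ξ => flow G β S δ ξ 0 K 0 x with hh₀
  set f : ℕ → (ℕ → V → ℝ) → (V → ℝ) → ℝ≥0∞ := fun k ξ y =>
    ENNReal.ofReal ((flow G β S δ ξ k (K - k) y x - h₀ ξ) ^ 2) with hf
  have hflowm : ∀ i m, Measurable (fun p : (ℕ → V → ℝ) × (V → ℝ) => flow G β S δ p.1 i m p.2 x) :=
    fun i m => (measurable_pi_apply x).comp (measurable_flow S δ i m)
  have hh₀m : Measurable h₀ := by
    have : Measurable (fun ξ : ℕ → V → ℝ => ((ξ, (0 : V → ℝ)) : (ℕ → V → ℝ) × (V → ℝ))) :=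
      measurable_id.prodMk measurable_const
    exact (hflowm 0 K).comp this
  have hfm : ∀ k, Measurable (Function.uncurry (f k)) := by
    intro k
    refine ENNReal.measurable_ofReal.comp (Measurable.pow_const ?_ 2)
    exact (hflowm k (K - k)).sub (hh₀m.comp measurable_fst)
  have hzero : Measurable (fun ξ : ℕ → V → ℝ => ((ξ, (0 : V → ℝ)) : (ℕ → V → ℝ) × (V → ℝ))) :=
    measurable_id.prodMk measurable_const
  have hPm : ∀ k, Measurable (fun ξ => chainFrom G β S δ 0 ξ k (f k ξ) 0) := fun k =>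
    (measurable_chainFrom_uc 0 k (f k) (hfm k)).comp hzero
  set A₁ := 1 + 1 / (K : ℝ) with hA₁
  set c₀ := cS N T C * δ ^ 2 with hc₀
  have hA₁0 : 0 ≤ A₁ := by positivity
  have hcS0 : 0 ≤ cS N T C := by
    simp only [cS, cR, cM, fc]; positivity
  have hc₀0 : 0 ≤ c₀ := by positivity
  have hpt : ∀ k, k < K → ∀ ξ y, Tstep G β S δ (ξ k) (f (k + 1) ξ) y ≤
      ENNReal.ofReal A₁ * f k ξ y + ENNReal.ofReal c₀ := by
    intro k hk ξ y
    set m := K - (k + 1) with hm
    have hKk : K - k = m + 1 := by omega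
    have hmδ : (m : ℝ) * δ ≤ T := by
      have h1 : (m : ℝ) ≤ K := by exact_mod_cast Nat.sub_le _ _
      exact mul_le_mul_of_nonneg_right h1 hδ
    have hreal := one_step_real (G := G) (β := β) (S := S) (S' := S) (κ := κ) (ρ := ρ) (C := C)
      (δ := δ) hx (Finset.Subset.refl _) hδ hρ0.le hρ.le hC0 hcov hconv ξ k m y (h₀ ξ) hK0
    have hcon := step_const_le (N := N) (δ := δ) (C := C) (T := T) (K₀ := K) (m := m) hN0 hδ hδ1 hC0
      hmδ rfl hK0.le
    have hL : Tstep G β S δ (ξ k) (f (k + 1) ξ) y = ENNReal.ofReal (∑ A ∈ S.powerset,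
        mu G β S y A *
          (flow G β S δ ξ (k + 1) m (y + δ • stepVec S A + Real.sqrt δ • ξ k) x - h₀ ξ) ^ 2) := by
      rw [ENNReal.ofReal_sum_of_nonneg (fun A _ =>
        mul_nonneg (mu_pos _ _ _ _ _).le (sq_nonneg _))]
      refine Finset.sum_congr rfl fun A _ => ?_
      rw [ENNReal.ofReal_mul (mu_pos _ _ _ _ _).le]
    rw [hL]
    have hfk : f k ξ y = ENNReal.ofReal ((flow G β S δ ξ k (m + 1) y x - h₀ ξ) ^ 2) := by
      simp only [hf, hKk]
    rw [hfk, ← ENNReal.ofReal_mul hA₁0, ← ENNReal.ofReal_add (by positivity) hc₀0]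
    apply ENNReal.ofReal_le_ofReal
    refine hreal.trans ?_
    have hz : ∑ v ∈ S, rowB G β S δ ξ x (k + 1) m (eulerStep G β S δ (ξ k) y) v *
        (mean G β S y v - mean G β S y v) = 0 := by
      simp
    rw [hz]
    simp only [mul_zero, zero_pow (two_ne_zero), add_zero]
    exact add_le_add le_rfl hcon
  set V₀ : ℕ → ℝ≥0∞ := fun k => lmarginal (fun _ : ℕ => gam V) (Finset.range K)
      (fun ξ => chainFrom G β S δ 0 ξ k (f k ξ) 0) z with hV₀
  have hrec : ∀ k, k < K → V₀ (k + 1) ≤ ENNReal.ofReal A₁ * V₀ k + ENNReal.ofReal c₀ := by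
    intro k hk
    have h1 : ∀ ξ, chainFrom G β S δ 0 ξ (k + 1) (f (k + 1) ξ) 0 ≤
        ENNReal.ofReal A₁ * chainFrom G β S δ 0 ξ k (f k ξ) 0 + 0 * 0 + ENNReal.ofReal c₀ := by
      intro ξ
      have e : chainFrom G β S δ 0 ξ (k + 1) (f (k + 1) ξ) 0 =
          chainFrom G β S δ 0 ξ k (Tstep G β S δ (ξ (0 + k)) (f (k + 1) ξ)) 0 := rfl
      rw [e, zero_add]
      refine (chainFrom_mono k (hpt k hk ξ) 0).trans (le_of_eq ?_)
      rw [chainFrom_add', chainFrom_const_mul, chainFrom_const]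
      simp
    have h2 := lmarginal_mono (μ := fun _ : ℕ => gam V) (s := Finset.range K) h1 z
    refine h2.trans ?_
    rw [lmarginal_combo (gam V) _ _ (fun _ => 0) (hPm k) measurable_const]
    simp [hV₀]
  have hV0 : V₀ 0 = 0 := by
    have : (fun ξ => chainFrom G β S δ 0 ξ 0 (f 0 ξ) 0) = fun _ => 0 := by
      funext ξ
      simp [chainFrom, hf, hh₀]
    simp only [hV₀]
    rw [this, lmarginal_const_le]
  have hA1 : 1 ≤ A₁ := by
    simp only [hA₁]
    have : 0 ≤ 1 / (K : ℝ) := by positivity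
    linarith
  have hsolve : ∀ k, k ≤ K → V₀ k ≤ ENNReal.ofReal (A₁ ^ k * (k * c₀)) := by
    intro k
    induction k with
    | zero =>
      intro _
      rw [hV0]
      exact zero_le
    | succ k ih =>
      intro hk
      refine (hrec k (by omega)).trans ?_
      have h3 := ih (by omega)
      have h4 : ENNReal.ofReal A₁ * V₀ k ≤ ENNReal.ofReal (A₁ * (A₁ ^ k * (k * c₀))) := by
        rw [ENNReal.ofReal_mul hA₁0]
        gcongr
      refine (add_le_add h4 le_rfl).trans ?_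
      rw [← ENNReal.ofReal_add (by positivity) hc₀0]
      apply ENNReal.ofReal_le_ofReal
      have h5 : 1 ≤ A₁ ^ (k + 1) := one_le_pow₀ hA1
      push_cast
      have e : A₁ ^ (k + 1) * ((k + 1) * c₀) = A₁ * (A₁ ^ k * (k * c₀)) + A₁ ^ (k + 1) * c₀ := by
        rw [pow_succ]; ring
      rw [e]
      have := mul_le_mul_of_nonneg_right h5 hc₀0
      linarith
  have hfinal := hsolve K le_rfl
  have hfK : (fun ξ => chainFrom G β S δ 0 ξ K
        (fun y => ENNReal.ofReal ((y x - flow G β S δ ξ 0 K 0 x) ^ 2)) 0) =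
      fun ξ => chainFrom G β S δ 0 ξ K (f K ξ) 0 := by
    funext ξ
    congr 1
    funext y
    have e : flow G β S δ ξ K (K - K) y = y := by
      rw [Nat.sub_self]; rfl
    simp only [hf, e, hh₀]
  rw [hfK]
  refine hfinal.trans ?_
  apply ENNReal.ofReal_le_ofReal
  have hpow : A₁ ^ K ≤ 3 := by
    have h1 := one_add_pow_le_exp (a := 1 / (K : ℝ)) (by positivity) K
    have e : (K : ℝ) * (1 / (K : ℝ)) = 1 := by field_simp
    rw [e] at h1
    have h2 := Real.exp_one_lt_d9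
    simp only [hA₁]
    linarith
  have hKb : 0 ≤ (K : ℝ) * c₀ := by positivity
  calc A₁ ^ K * ((K : ℝ) * c₀) ≤ 3 * ((K : ℝ) * c₀) := mul_le_mul_of_nonneg_right hpow hKb
    _ = _ := by
      simp only [hc₀, hTdef]
      ring

end Vale.Agent.Lib.P161E
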