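import Vale.Agent.Lib.P161E.PlantedSplit

/-! Job D2: the fresh child inequality. -/

open MeasureTheory Finset
open scoped Classical ENNReal

noncomputable section

namespace Vale.Agent.Lib.P161E

open Vale.Agent.Lib.P161

variable {V : Type*} {G : SimpleGraph V} {β : ℝ} {d : ℕ} {S S₁ S₂ : Finset V} {a b x y : V}
  {t : ℝ}

/-- The constant of the fresh child inequality. -/
def cF (θ : ℝ) : ℝ := θ ^ 2 * (1 - θ) ^ 2

theorem tanh_nonneg' (hβ : 0 ≤ β) : 0 ≤ Real.tanh β := by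
  rw [Real.tanh_eq_sinh_div_cosh]
  exact div_nonneg (Real.sinh_nonneg_iff.mpr hβ) (Real.cosh_pos β).le

theorem measurable_gm (θ : ℝ) : Measurable (gm θ) := by
  unfold gm
  fun_prop

/-- Linearity of `EP` for three bounded functions and a constant. -/
theorem EP_lin3 {f₁ f₂ f₃ : (V → ℝ) → ℝ} (h₁ : Measurable f₁) (h₂ : Measurable f₂) (h₃ : Measurable f₃)
    {C : ℝ} (hb₁ : ∀ y, |f₁ y| ≤ C) (hb₂ : ∀ y, |f₂ y| ≤ C) (hb₃ : ∀ y, |f₃ y| ≤ C)
    (y₀ : V → ℝ) (c₀ c₁ c₂ c₃ : ℝ) :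
    EP G β S t y₀ (fun y => c₀ + c₁ * f₁ y + c₂ * f₂ y + c₃ * f₃ y) =
      c₀ + c₁ * EP G β S t y₀ f₁ + c₂ * EP G β S t y₀ f₂ + c₃ * EP G β S t y₀ f₃ := by
  have hC : 0 ≤ C := (abs_nonneg _).trans (hb₁ 0)
  have hi₁ : Integrable f₁ (plm G β S t y₀) := integrable_bdd h₁ hb₁
  have hi₂ : Integrable f₂ (plm G β S t y₀) := integrable_bdd h₂ hb₂
  have hi₃ : Integrable f₃ (plm G β S t y₀) := integrable_bdd h₃ hb₃
  rw [← integral_plm_bdd S t y₀ h₁ hb₁, ← integral_plm_bdd S t y₀ h₂ hb₂,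
    ← integral_plm_bdd S t y₀ h₃ hb₃]
  have hm : Measurable (fun y => c₀ + c₁ * f₁ y + c₂ * f₂ y + c₃ * f₃ y) :=
    ((measurable_const.add (h₁.const_mul _)).add (h₂.const_mul _)).add (h₃.const_mul _)
  have hb : ∀ y, |c₀ + c₁ * f₁ y + c₂ * f₂ y + c₃ * f₃ y| ≤ |c₀| + |c₁| * C + |c₂| * C + |c₃| * C := by
    intro y
    calc |c₀ + c₁ * f₁ y + c₂ * f₂ y + c₃ * f₃ y| ≤ |c₀ + c₁ * f₁ y + c₂ * f₂ y| + |c₃ * f₃ y| := abs_add_le _ _
      _ ≤ |c₀ + c₁ * f₁ y| + |c₂ * f₂ y| + |c₃ * f₃ y| := by gcongr; exact abs_add_le _ _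
      _ ≤ |c₀| + |c₁ * f₁ y| + |c₂ * f₂ y| + |c₃ * f₃ y| := by gcongr; exact abs_add_le _ _
      _ ≤ _ := by
        rw [abs_mul, abs_mul, abs_mul]
        have := hb₁ y
        have := hb₂ y
        have := hb₃ y
        gcongr
  rw [← integral_plm_bdd S t y₀ hm hb]
  have i1 : Integrable (fun y => c₀ + c₁ * f₁ y) (plm G β S t y₀) :=
    (integrable_const _).add (hi₁.const_mul _)
  have i2 : Integrable (fun y => c₀ + c₁ * f₁ y + c₂ * f₂ y) (plm G β S t y₀) :=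
    i1.add (hi₂.const_mul _)
  rw [integral_add i2 (hi₃.const_mul _), integral_add i1 (hi₂.const_mul _),
    integral_add (integrable_const _) (hi₁.const_mul _), integral_const_mul, integral_const_mul,
    integral_const_mul]
  simp

/-- `EQ` as an expectation under the planted law. -/
theorem EQ_eq_EP (hb : b ∈ S) (ht : 0 ≤ t) (s : ℝ) {F : (V → ℝ) → ℝ} (hF : Measurable F) {C : ℝ}
    (hFb : ∀ y, |F y| ≤ C) :
    EQ G β S t b s F = EP G β S t 0 (fun y => (1 + Real.tanh β * s * mean G β S y b) * F y) := by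
  have hC : 0 ≤ C := (abs_nonneg _).trans (hFb 0)
  rw [EQ_eq, nishimori hb ht hF hFb]
  have e : (fun y => (1 + Real.tanh β * s * mean G β S y b) * F y) =
      fun y => 0 + 1 * F y + (Real.tanh β * s) * (mean G β S y b * F y) + 0 * F y := by
    funext y; ring
  have hb2 : ∀ y, |mean G β S y b * F y| ≤ C := fun y => by
    rw [abs_mul]
    calc |mean G β S y b| * |F y| ≤ 1 * C :=
          mul_le_mul (abs_mean_le _ _ _ _ _) (hFb y) (abs_nonneg _) zero_le_one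
      _ = C := one_mul C
  have h3 := EP_lin3 (G := G) (β := β) (S := S) (t := t) (f₁ := F)
    (f₂ := fun y => mean G β S y b * F y) (f₃ := F) hF ((measurable_mean S b).mul hF) hF hFb hb2 hFb
    0 0 1 (Real.tanh β * s) 0
  rw [e, h3]
  ring

/-- The key estimate under `EQ`. -/
theorem EQ_gm_le (hβ : 0 ≤ β) (hb : b ∈ S) (ht : 0 ≤ t) {s ξ₁ : ℝ} (hs : s = 1 ∨ s = -1)
    (hξ₁ : |ξ₁| ≤ 1) :
    EQ G β S t b s (fun y => gm (Real.tanh β) (bm (Real.tanh β) ξ₁ (mean G β S y b)) ^ 2) ≤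
      1 - cF (Real.tanh β) * EP G β S t 0 (fun y => mean G β S y b ^ 2) := by
  set θ := Real.tanh β with hθ
  have hθ0 : 0 ≤ θ := tanh_nonneg' hβ
  have hθ1 : θ < 1 := Real.tanh_lt_one β
  set f : (V → ℝ) → ℝ := fun y => mean G β S y b with hf
  have hfm : Measurable f := measurable_mean S b
  have hfb : ∀ y, |f y| ≤ 1 := fun y => abs_mean_le _ _ _ _ _
  have hs2 : s ^ 2 = 1 := by rcases hs with h | h <;> rw [h] <;> norm_num
  have habs : |s| = 1 := by rcases hs with h | h <;> rw [h] <;> norm_num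
  have hΨm : Measurable (fun y => gm θ (bm θ ξ₁ (f y)) ^ 2) := by
    refine ((measurable_gm θ).comp ?_).pow_const 2
    unfold bm
    exact ((measurable_const.add (hfm.const_mul _))).div
      (measurable_const.add (hfm.const_mul _))
  have hΨb : ∀ y, |gm θ (bm θ ξ₁ (f y)) ^ 2| ≤ 1 := fun y => by
    have h1 := gm_nonneg hθ0 hθ1 (abs_bm_le hθ0 hθ1 hξ₁ (hfb y))
    have h2 := gm_le_one hθ0 hθ1 (abs_bm_le hθ0 hθ1 hξ₁ (hfb y))
    rw [abs_of_nonneg (by positivity)]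
    exact pow_le_one₀ h1 h2
  rw [EQ_eq_EP hb ht s hΨm hΨb]
  set κ : ℝ := (1 - θ ^ 2) / (1 + θ) ^ 2 with hκ
  have hκ0 : 0 ≤ κ := div_nonneg (by nlinarith) (by positivity)
  -- pointwise bound
  have hw : ∀ y, 0 ≤ 1 + θ * s * f y := by
    intro y
    have : |θ * s * f y| ≤ 1 := by
      rw [abs_mul, abs_mul, habs, abs_of_nonneg hθ0, mul_one]
      calc θ * |f y| ≤ 1 * 1 := mul_le_mul hθ1.le (hfb y) (abs_nonneg _) zero_le_one
        _ = 1 := by norm_num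
    have h2 := (abs_le.mp this).1
    linarith
  have hpt : ∀ y, (1 + θ * s * f y) * gm θ (bm θ ξ₁ (f y)) ^ 2 ≤
      (1 - κ * ξ₁ ^ 2) + (θ * s * (1 - κ * ξ₁ ^ 2) - 2 * κ * ξ₁ * θ) * f y +
        (-(κ * θ ^ 2) - 2 * κ * ξ₁ * θ ^ 2 * s) * f y ^ 2 + (-(κ * θ ^ 3 * s)) * f y ^ 3 := by
    intro y
    have hbm := abs_bm_le hθ0 hθ1 hξ₁ (hfb y)
    have h1 := gm_nonneg hθ0 hθ1 hbm
    have h2 := gm_le_one hθ0 hθ1 hbm
    have h3 := one_sub_gm_ge hθ0 hθ1 hbm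
    have h4 := bm_sq_ge hθ0 hθ1 hξ₁ (hfb y)
    have h5 : gm θ (bm θ ξ₁ (f y)) ^ 2 ≤ 1 - κ * (ξ₁ + θ * f y) ^ 2 := by
      have h6 : gm θ (bm θ ξ₁ (f y)) ^ 2 ≤ gm θ (bm θ ξ₁ (f y)) := by nlinarith
      have h7 : κ * (ξ₁ + θ * f y) ^ 2 = (1 - θ ^ 2) * ((ξ₁ + θ * f y) ^ 2 / (1 + θ) ^ 2) := by
        rw [hκ]; ring
      have h8 : (1 - θ ^ 2) * ((ξ₁ + θ * f y) ^ 2 / (1 + θ) ^ 2) ≤
          (1 - θ ^ 2) * bm θ ξ₁ (f y) ^ 2 :=
        mul_le_mul_of_nonneg_left h4 (by nlinarith)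
      linarith
    calc (1 + θ * s * f y) * gm θ (bm θ ξ₁ (f y)) ^ 2
        ≤ (1 + θ * s * f y) * (1 - κ * (ξ₁ + θ * f y) ^ 2) :=
          mul_le_mul_of_nonneg_left h5 (hw y)
      _ = _ := by ring
  -- expectations of the odd powers vanish
  have hodd1 : EP G β S t 0 f = 0 :=
    EP_odd hfm hfb (fun y => by simp only [hf]; exact mean_neg _ _ hb)
  have hf3m : Measurable (fun y => f y ^ 3) := hfm.pow_const 3
  have hf2m : Measurable (fun y => f y ^ 2) := hfm.pow_const 2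
  have hf3b : ∀ y, |f y ^ 3| ≤ 1 := fun y => by
    rw [abs_pow]; exact pow_le_one₀ (abs_nonneg _) (hfb y)
  have hf2b : ∀ y, |f y ^ 2| ≤ 1 := fun y => by
    rw [abs_pow]; exact pow_le_one₀ (abs_nonneg _) (hfb y)
  have hodd3 : EP G β S t 0 (fun y => f y ^ 3) = 0 :=
    EP_odd hf3m hf3b (fun y => by
      have : f (-y) = -f y := mean_neg _ _ hb
      simp only [this]; ring)
  set q := EP G β S t 0 (fun y => f y ^ 2) with hq
  have hq0 : 0 ≤ q := by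
    have := EP_mono (G := G) (β := β) (S := S) (t := t) (y₀ := 0) (F := fun _ => 0)
      (H := fun y => f y ^ 2) measurable_const hf2m (C := 1) (fun _ => by simp) hf2b
      (fun y => by positivity)
    rwa [EP_const] at this
  have hq1 : q ≤ 1 := by
    have := EP_mono (G := G) (β := β) (S := S) (t := t) (y₀ := 0) (F := fun y => f y ^ 2)
      (H := fun _ => 1) hf2m measurable_const (C := 1) hf2b (fun _ => by simp)
      (fun y => by
        have := abs_le.mp (hfb y)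
        nlinarith)
    rwa [EP_const] at this
  -- the polynomial
  set P : (V → ℝ) → ℝ := fun y => (1 - κ * ξ₁ ^ 2) + (θ * s * (1 - κ * ξ₁ ^ 2) - 2 * κ * ξ₁ * θ) * f y +
        (-(κ * θ ^ 2) - 2 * κ * ξ₁ * θ ^ 2 * s) * f y ^ 2 + (-(κ * θ ^ 3 * s)) * f y ^ 3 with hP
  have hPv : EP G β S t 0 P = 1 - κ * ξ₁ ^ 2 + (-(κ * θ ^ 2) - 2 * κ * ξ₁ * θ ^ 2 * s) * q := by
    rw [hP, EP_lin3 hfm hf2m hf3m hfb hf2b hf3b, hodd1, hodd3]
    ring
  have hPm : Measurable P :=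
    ((measurable_const.add (hfm.const_mul _)).add (hf2m.const_mul _)).add (hf3m.const_mul _)
  obtain ⟨C, hC⟩ : ∃ C, ∀ y, |P y| ≤ C := by
    refine ⟨|1 - κ * ξ₁ ^ 2| + |θ * s * (1 - κ * ξ₁ ^ 2) - 2 * κ * ξ₁ * θ| * 1 +
      |-(κ * θ ^ 2) - 2 * κ * ξ₁ * θ ^ 2 * s| * 1 + |-(κ * θ ^ 3 * s)| * 1, fun y => ?_⟩
    simp only [hP]
    refine (abs_add_le _ _).trans (add_le_add ((abs_add_le _ _).trans (add_le_add ((abs_add_le _ _).trans
      (add_le_add le_rfl ?_)) ?_)) ?_)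
    · rw [abs_mul]; exact mul_le_mul_of_nonneg_left (hfb y) (abs_nonneg _)
    · rw [abs_mul]; exact mul_le_mul_of_nonneg_left (hf2b y) (abs_nonneg _)
    · rw [abs_mul]; exact mul_le_mul_of_nonneg_left (hf3b y) (abs_nonneg _)
  have hLm : Measurable (fun y => (1 + θ * s * f y) * gm θ (bm θ ξ₁ (f y)) ^ 2) :=
    (measurable_const.add (hfm.const_mul _)).mul hΨm
  have hLb : ∀ y, |(1 + θ * s * f y) * gm θ (bm θ ξ₁ (f y)) ^ 2| ≤ 2 := by
    intro y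
    rw [abs_mul]
    have h1 : |1 + θ * s * f y| ≤ 2 := by
      have h2 : |θ * s * f y| ≤ 1 := by
        rw [abs_mul, abs_mul, habs, abs_of_nonneg hθ0, mul_one]
        calc θ * |f y| ≤ 1 * 1 := mul_le_mul hθ1.le (hfb y) (abs_nonneg _) zero_le_one
          _ = 1 := by norm_num
      calc |1 + θ * s * f y| ≤ |1| + |θ * s * f y| := abs_add_le _ _
        _ ≤ 2 := by rw [abs_one]; linarith
    calc |1 + θ * s * f y| * |gm θ (bm θ ξ₁ (f y)) ^ 2| ≤ 2 * 1 :=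
          mul_le_mul h1 (hΨb y) (abs_nonneg _) (by norm_num)
      _ = 2 := by norm_num
  have hmono : EP G β S t 0 (fun y => (1 + θ * s * f y) * gm θ (bm θ ξ₁ (f y)) ^ 2) ≤ EP G β S t 0 P := by
    refine EP_mono hLm hPm (C := max 2 C) (fun y => (hLb y).trans (le_max_left _ _))
      (fun y => (hC y).trans (le_max_right _ _)) hpt
  refine hmono.trans ?_
  rw [hPv]
  -- real inequality
  have hκe : κ * (1 - θ ^ 2) = (1 - θ) ^ 2 := by
    rw [hκ]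
    field_simp
    ring
  have key : θ ^ 2 * q * (1 - θ ^ 2) ≤ ξ₁ ^ 2 + 2 * ξ₁ * θ ^ 2 * s * q + θ ^ 2 * q := by
    have h1 : 0 ≤ (ξ₁ + θ ^ 2 * s * q) ^ 2 := sq_nonneg _
    have h2 : (ξ₁ + θ ^ 2 * s * q) ^ 2 = ξ₁ ^ 2 + 2 * ξ₁ * θ ^ 2 * s * q + θ ^ 4 * q ^ 2 * s ^ 2 := by ring
    rw [h2, hs2] at h1
    have h3 : θ ^ 4 * q ^ 2 ≤ θ ^ 4 * q := by
      apply mul_le_mul_of_nonneg_left _ (by positivity)
      nlinarith
    nlinarith
  have key2 := mul_le_mul_of_nonneg_left key hκ0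
  have e1 : κ * (θ ^ 2 * q * (1 - θ ^ 2)) = cF θ * q := by
    unfold cF
    calc κ * (θ ^ 2 * q * (1 - θ ^ 2)) = (κ * (1 - θ ^ 2)) * (θ ^ 2 * q) := by ring
      _ = _ := by rw [hκe]; ring
  rw [e1] at key2
  nlinarith

/-- The integrand of `EP_split` is integrable. -/
theorem integrable_EQ_glue {F : (V → ℝ) → ℝ} (hF : Measurable F) {C : ℝ} (hFb : ∀ y, |F y| ≤ C)
    (S₁ S₂ : Finset V) (A₁ : Finset V) (s : ℝ) :
    Integrable (fun g₁ => EQ G β S₂ t b s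
      (fun y₂ => F (glue S₁ (0 + t • stepVec S₁ A₁ + Real.sqrt t • g₁) y₂))) (gam V) := by
  unfold EQ
  refine integrable_finset_sum _ fun A₂ _ => ?_
  refine Integrable.const_mul ?_ _
  have hjoint : Measurable (fun p : (V → ℝ) × (V → ℝ) =>
      F (glue S₁ (0 + t • stepVec S₁ A₁ + Real.sqrt t • p.1)
        (0 + t • stepVec S₂ A₂ + Real.sqrt t • p.2))) :=
    hF.comp ((measurable_glue S₁).comp
      (f := fun p : (V → ℝ) × (V → ℝ) => (0 + t • stepVec S₁ A₁ + Real.sqrt t • p.1,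
        0 + t • stepVec S₂ A₂ + Real.sqrt t • p.2))
      (((measurable_yA S₁ t 0 A₁).comp measurable_fst).prodMk
        ((measurable_yA S₂ t 0 A₂).comp measurable_snd)))
  have : Integrable (fun p : (V → ℝ) × (V → ℝ) =>
      F (glue S₁ (0 + t • stepVec S₁ A₁ + Real.sqrt t • p.1)
        (0 + t • stepVec S₂ A₂ + Real.sqrt t • p.2))) ((gam V).prod (gam V)) :=
    integrable_bdd hjoint (fun p => hFb _)
  exact this.integral_prod_left

/-- `EQ` of a constant multiple. -/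
theorem EQ_const_mul (s c : ℝ) (F : (V → ℝ) → ℝ) :
    EQ G β S t b s (fun y => c * F y) = c * EQ G β S t b s F := by
  unfold EQ
  rw [Finset.mul_sum]
  refine Finset.sum_congr rfl fun A _ => ?_
  rw [integral_const_mul]
  ring

/-- Fresh child inequality. Proof: `EP_split`; for fixed `y₁`, with `ξ₁ = mean S₁ y₁ a` and
`ξ₂ = mean S₂ y₂ b`, one has `mean (S₁ ∪ S₂) = bm θ ξ₁ ξ₂` (`mean_split_left`), `gm² ≤ gm ≤ 1 - (1-θ²) x²`
and `bm² ≥ (ξ₁ + θ ξ₂)² / (1+θ)²` (`bm_sq_ge`). Under `EQ s`: mass one, `E ξ₂ = θ s q`, `E ξ₂² = q`,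
`q = EP S₂ ξ₂²` (`nishimori`, flip symmetry), so `E (ξ₁ + θ ξ₂)² ≥ Var (θ ξ₂) = θ² q - θ⁴ q² ≥ θ² (1-θ²) q`. -/
theorem fresh_child (h : Cut G S₁ S₂ a b) (hβ : 0 ≤ β) (ht : 0 ≤ t) {F : (V → ℝ) → ℝ}
    (hF : Measurable F) (hF0 : ∀ y, 0 ≤ F y) {C : ℝ} (hFb : ∀ y, F y ≤ C) (hdep : DepOn S₁ F) :
    EP G β (S₁ ∪ S₂) t 0 (fun y => F y * gm (Real.tanh β) (mean G β (S₁ ∪ S₂) y a) ^ 2) ≤
      (1 - cF (Real.tanh β) * EP G β S₂ t 0 (fun y => mean G β S₂ y b ^ 2)) * EP G β S₁ t 0 F := by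
  set θ := Real.tanh β with hθ
  have hθ0 : 0 ≤ θ := tanh_nonneg' hβ
  have hθ1 : θ < 1 := Real.tanh_lt_one β
  set Φ : (V → ℝ) → ℝ := fun y => F y * gm θ (mean G β (S₁ ∪ S₂) y a) ^ 2 with hΦ
  have hFa : ∀ y, |F y| ≤ C := fun y => by rw [abs_of_nonneg (hF0 y)]; exact hFb y
  have hC : 0 ≤ C := (hF0 0).trans (hFb 0)
  have hgm : ∀ y, 0 ≤ gm θ (mean G β (S₁ ∪ S₂) y a) ∧ gm θ (mean G β (S₁ ∪ S₂) y a) ≤ 1 := fun y =>
    ⟨gm_nonneg hθ0 hθ1 (abs_mean_le _ _ _ _ _), gm_le_one hθ0 hθ1 (abs_mean_le _ _ _ _ _)⟩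
  have hΦm : Measurable Φ :=
    hF.mul (((measurable_gm θ).comp (measurable_mean _ a)).pow_const 2)
  have hΦb : ∀ y, |Φ y| ≤ C := fun y => by
    simp only [hΦ]
    rw [abs_mul, abs_of_nonneg (hF0 y), abs_of_nonneg (pow_nonneg (hgm y).1 2)]
    calc F y * gm θ (mean G β (S₁ ∪ S₂) y a) ^ 2 ≤ C * 1 :=
          mul_le_mul (hFb y) (pow_le_one₀ (hgm y).1 (hgm y).2) (pow_nonneg (hgm y).1 2) hC
      _ = C := mul_one C
  have hΦdep : DepOn (S₁ ∪ S₂) Φ := by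
    intro y y' hyy
    simp only [hΦ]
    rw [hdep y y' fun v hv => hyy v (Finset.mem_union_left _ hv)]
    congr 3
    exact Ee_congr _ hyy _
  rw [EP_split h ht hΦm hΦb hΦdep]
  unfold EP
  rw [Finset.mul_sum]
  refine Finset.sum_le_sum fun A₁ _ => ?_
  rw [mul_left_comm]
  refine mul_le_mul_of_nonneg_left ?_ (mu_pos _ _ _ _ _).le
  rw [← integral_const_mul]
  refine integral_mono (integrable_EQ_glue hΦm hΦb S₁ S₂ A₁ _) ?_ ?_
  · refine Integrable.const_mul ?_ _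
    exact integrable_bdd (hF.comp (measurable_yA S₁ t 0 A₁)) (fun g => hFa _)
  intro g₁
  simp only
  set y₁ : V → ℝ := 0 + t • stepVec S₁ A₁ + Real.sqrt t • g₁ with hy₁
  set ξ₁ : ℝ := mean G β S₁ y₁ a with hξ₁
  have e : (fun y₂ => Φ (glue S₁ y₁ y₂)) =
      fun y₂ => F y₁ * (gm θ (bm θ ξ₁ (mean G β S₂ y₂ b)) ^ 2) := by
    funext y₂
    simp only [hΦ]
    rw [glue_right hdep]
    congr 3
    rw [mean_split_left h]
    congr 1
    · exact Ee_congr _ (fun v hv => by simp [glue, hv]) _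
    · exact Ee_congr _ (fun v hv => by
        have : v ∉ S₁ := fun h1 => Finset.disjoint_left.mp h.disj h1 hv
        simp [glue, this]) _
  rw [e, EQ_const_mul]
  rw [mul_comm]
  refine mul_le_mul_of_nonneg_right ?_ (hF0 y₁)
  exact EQ_gm_le hβ h.hb ht (sp_eq_or _ _) (abs_mean_le _ _ _ _ _)

end Vale.Agent.Lib.P161E
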