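import Vale.Agent.Lib.P161E.FreshA

/-! Job D3: lower bound on the cavity second moment. -/

open MeasureTheory Finset
open scoped Classical ENNReal

noncomputable section

namespace Vale.Agent.Lib.P161E

open Vale.Agent.Lib.P161

variable {V : Type*} {G : SimpleGraph V} [G.LocallyFinite] {β : ℝ} {d : ℕ} {S₁ S₂ : Finset V} {a b x y : V}
  {t : ℝ}

/-- Partial sums of the geometric series of ratio `r`. -/
def Sr (r : ℝ) (R : ℕ) : ℝ := ∑ n ∈ range (R + 1), r ^ n

theorem Sr_zero (r : ℝ) : Sr r 0 = 1 := by simp [Sr]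

theorem Sr_succ (r : ℝ) (R : ℕ) : Sr r (R + 1) = 1 + r * Sr r R := by
  unfold Sr
  rw [Finset.sum_range_succ', Finset.mul_sum, add_comm, pow_zero]
  congr 1
  exact Finset.sum_congr rfl fun n _ => pow_succ' r n

theorem Sr_nonneg {r : ℝ} (hr : 0 ≤ r) (R : ℕ) : 0 ≤ Sr r R :=
  Finset.sum_nonneg fun _ _ => pow_nonneg hr _

theorem Sr_le_succ {r : ℝ} (hr : 0 ≤ r) (R : ℕ) : Sr r R ≤ Sr r (R + 1) := by
  unfold Sr
  rw [Finset.sum_range_succ _ (R + 1)]
  have := pow_nonneg hr (R + 1)
  linarith

theorem one_le_Sr {r : ℝ} (hr : 0 ≤ r) (R : ℕ) : 1 ≤ Sr r R := by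
  induction R with
  | zero => rw [Sr_zero]
  | succ R ih =>
    rw [Sr_succ]
    have := mul_nonneg hr (Sr_nonneg hr R)
    linarith

omit [G.LocallyFinite] in
/-- A star shaped set is star shaped around each of its points. -/
theorem star_of_mem (hT : G.IsTree) {r z : V} {S : Finset V} (hS : Star G r S) (hz : z ∈ S) :
    Star G z S := by
  -- vertices on the geodesic from `r` to a point of `S` are in `S`
  have hgeo : ∀ (n : ℕ) (w p : V), G.dist p w = n → w ∈ S →
      G.dist r w = G.dist r p + G.dist p w → p ∈ S := by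
    intro n
    induction n with
    | zero =>
      intro w p hn hw _
      have : p = w := (hT.1.dist_eq_zero_iff).mp hn
      rwa [this]
    | succ n ih =>
      intro w p hn hw hrw
      have hwp : w ≠ p := by
        rintro rfl
        simp at hn
      obtain ⟨q, hq, hqd⟩ := exists_parent hT hwp
      have hrq : G.dist r q + 1 = G.dist r w := by
        have h1 : G.dist r q ≤ G.dist r p + G.dist p q := hT.1.dist_triangle
        rcases dist_adj hT (o := r) hq with h | h
        · omega
        · omega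
      have hqS : q ∈ S := hS w hw q hq hrq
      exact ih q p (by omega) hqS (by omega)
  intro u hu p hp hd
  rcases dist_adj hT (o := r) hp with h | h
  · -- `p` is farther from `r` than `u`
    have h1 : G.dist z u = G.dist z p + 1 := by omega
    have h2 : G.dist r z = G.dist r p + G.dist p z := by
      have h3 := dist_add_across hT (o := r) (v := z) (x := u) (y := p) hp (by omega)
        (by
          rw [SimpleGraph.dist_comm (u := z) (v := p), SimpleGraph.dist_comm (u := z) (v := u)] at *
          omega)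
      exact h3
    exact hgeo _ z p rfl hz h2
  · exact hS u hu p hp (by omega)

/-- Decomposition of a branch. -/
theorem brn_succ (hT : G.IsTree) (hxy : G.Adj x y) (R : ℕ) :
    brn G x y (R + 1) = insert x ((kids G x y).biUnion fun c => brn G c x R) := by
  ext v
  simp only [Finset.mem_insert, Finset.mem_biUnion, mem_brn hT, mem_kids]
  constructor
  · rintro ⟨h1, h2⟩
    by_cases hv : v = x
    · exact Or.inl hv
    · right
      have hne : x ≠ v := fun h => hv h.symm
      obtain ⟨c, hc, hcd⟩ := exists_parent hT (o := v) hne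
      have hcd' : G.dist c v + 1 = G.dist x v := by
        rw [SimpleGraph.dist_comm (u := c) (v := v), SimpleGraph.dist_comm (u := x) (v := v)]
        exact hcd
      refine ⟨c, ⟨hc, ?_⟩, by omega, by omega⟩
      rintro rfl
      omega
  · rintro (rfl | ⟨c, ⟨hc, hne⟩, h1, h2⟩)
    · have : G.dist y v = 1 := by
        rw [SimpleGraph.dist_comm]
        exact SimpleGraph.dist_eq_one_iff_adj.2 hxy
      have h0 : G.dist v v = 0 := SimpleGraph.dist_self
      omega
    · have h3 : G.dist x v = G.dist c v + 1 := by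
        rcases dist_adj hT (o := v) hc with h | h
        · rw [SimpleGraph.dist_comm (u := x) (v := v), SimpleGraph.dist_comm (u := c) (v := v)] at *
          omega
        · rw [SimpleGraph.dist_comm (u := x) (v := v), SimpleGraph.dist_comm (u := c) (v := v)] at *
          omega
      refine ⟨by omega, ?_⟩
      rcases dist_adj hT (o := v) hxy with h | h
      · rw [SimpleGraph.dist_comm (u := y) (v := v), SimpleGraph.dist_comm (u := x) (v := v)]
        omega
      · exfalso
        have h4 : G.dist v y + 1 = G.dist v x := h.symm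
        have h5 : G.dist v c + 1 = G.dist v x := by
          rw [SimpleGraph.dist_comm (u := v) (v := c), SimpleGraph.dist_comm (u := v) (v := x)]
          omega
        exact hne (parent_unique hT hc hxy h5 h4)

theorem self_not_mem_union (hT : G.IsTree) (x y : V) (R : ℕ) :
    x ∉ (kids G x y).biUnion fun c => brn G c x R := by
  simp only [Finset.mem_biUnion, mem_brn hT, not_exists, not_and]
  intro c _ _
  have h0 : G.dist x x = 0 := SimpleGraph.dist_self
  omega

theorem dist_of_mem_brn (hT : G.IsTree) {c p v : V} (hc : G.Adj c p) {R : ℕ} (hv : v ∈ brn G c p R) :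
    G.dist p v = G.dist c v + 1 := by
  have h := ((mem_brn hT).mp hv).2
  rcases dist_adj hT (o := v) hc with h1 | h1
  · rw [SimpleGraph.dist_comm (u := p) (v := v), SimpleGraph.dist_comm (u := c) (v := v)] at *
    omega
  · rw [SimpleGraph.dist_comm (u := p) (v := v), SimpleGraph.dist_comm (u := c) (v := v)] at *
    omega

/-- Distance between vertices in the branches of two distinct kids. -/
theorem dist_two_kids (hT : G.IsTree) {c c' v v' : V} (hc : G.Adj x c) (hc' : G.Adj x c') (hne : c ≠ c')
    {R : ℕ} (hv : v ∈ brn G c x R) (hv' : v' ∈ brn G c' x R) :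
    G.dist v v' = G.dist x v + G.dist x v' := by
  have h1 := dist_of_mem_brn hT hc.symm hv
  have h2 := dist_of_mem_brn hT hc'.symm hv'
  have h3 : G.dist v' x + 1 = G.dist v' c := by
    rcases dist_adj hT (o := v') hc with h | h
    · exact h.symm
    · exfalso
      have h4 : G.dist v' c' + 1 = G.dist v' x := by
        rw [SimpleGraph.dist_comm (u := v') (v := c'), SimpleGraph.dist_comm (u := v') (v := x)]
        omega
      exact hne (parent_unique hT hc hc' h.symm h4)
  have h5 := dist_add_across hT (o := v) (v := v') (x := c) (y := x) hc.symm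
    (by
      rw [SimpleGraph.dist_comm (u := v) (v := c), SimpleGraph.dist_comm (u := v) (v := x)]
      omega) h3
  rw [h5, SimpleGraph.dist_comm (u := v) (v := x)]

theorem cast_card_kids (hreg : G.IsRegularOfDegree d) (hd : 1 ≤ d) (hxy : G.Adj x y) :
    (((kids G x y).card : ℕ) : ℝ) = (d : ℝ) - 1 := by
  rw [card_kids hreg hxy, Nat.cast_sub hd]
  simp

/-- The sum of the squares of the weights of the linear estimator. -/
theorem sum_brn_sq (hT : G.IsTree) (hd : 1 ≤ d) (hreg : G.IsRegularOfDegree d) (θ : ℝ) (R : ℕ)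
    {x y : V} (hxy : G.Adj x y) :
    ∑ v ∈ brn G x y R, θ ^ (2 * G.dist x v) = Sr (((d : ℝ) - 1) * θ ^ 2) R := by
  induction R generalizing x y with
  | zero =>
    have h0 : brn G x y 0 = {x} := by
      ext v
      simp only [mem_brn hT, Finset.mem_singleton]
      constructor
      · rintro ⟨h1, _⟩
        have : G.dist x v = 0 := by omega
        exact ((hT.1.dist_eq_zero_iff).mp this).symm
      · rintro rfl
        refine ⟨by simp, ?_⟩
        have : G.dist y v = 1 := by
          rw [SimpleGraph.dist_comm]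
          exact SimpleGraph.dist_eq_one_iff_adj.2 hxy
        simp [this]
    rw [h0, Finset.sum_singleton, Sr_zero]
    simp
  | succ R ih =>
    rw [brn_succ hT hxy, Finset.sum_insert (self_not_mem_union hT x y R), Sr_succ]
    have h1 : θ ^ (2 * G.dist x x) = 1 := by simp
    rw [h1, Finset.sum_biUnion]
    · congr 1
      have h2 : ∀ c ∈ kids G x y, ∑ v ∈ brn G c x R, θ ^ (2 * G.dist x v) =
          θ ^ 2 * Sr (((d : ℝ) - 1) * θ ^ 2) R := by
        intro c hc
        have hcx : G.Adj c x := (mem_kids.mp hc).1.symm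
        rw [← ih hcx, Finset.mul_sum]
        refine Finset.sum_congr rfl fun v hv => ?_
        rw [dist_of_mem_brn hT hcx hv]
        ring
      rw [Finset.sum_congr rfl h2, Finset.sum_const, nsmul_eq_mul, cast_card_kids hreg hd hxy]
      ring
    · intro c hc c' hc' hne
      exact brn_kids_disjoint hT hxy hc hc' hne R R

/-- The double sum of the correlations of the linear estimator. -/
theorem sum_brn_pair (hT : G.IsTree) (hd : 1 ≤ d) (hreg : G.IsRegularOfDegree d) {θ : ℝ} (hθ : 0 ≤ θ) (R : ℕ)
    {x y : V} (hxy : G.Adj x y) :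
    ∑ v ∈ brn G x y R, ∑ v' ∈ brn G x y R, θ ^ (G.dist x v + G.dist x v' + G.dist v v') ≤
      Sr (((d : ℝ) - 1) * θ ^ 2) R ^ 3 := by
  have hd1 : (0 : ℝ) ≤ (d : ℝ) - 1 := by
    have : (1 : ℝ) ≤ d := by exact_mod_cast hd
    linarith
  set r := ((d : ℝ) - 1) * θ ^ 2 with hr
  have hr0 : 0 ≤ r := mul_nonneg hd1 (sq_nonneg _)
  induction R generalizing x y with
  | zero =>
    have h0 : brn G x y 0 = {x} := by
      ext v
      simp only [mem_brn hT, Finset.mem_singleton]
      constructor
      · rintro ⟨h1, _⟩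
        have : G.dist x v = 0 := by omega
        exact ((hT.1.dist_eq_zero_iff).mp this).symm
      · rintro rfl
        refine ⟨by simp, ?_⟩
        have : G.dist y v = 1 := by
          rw [SimpleGraph.dist_comm]
          exact SimpleGraph.dist_eq_one_iff_adj.2 hxy
        simp [this]
    rw [h0, Finset.sum_singleton, Finset.sum_singleton, Sr_zero]
    simp
  | succ R ih =>
    set K := kids G x y with hK
    set U := K.biUnion fun c => brn G c x R with hU
    have hxU : x ∉ U := self_not_mem_union hT x y R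
    have hdisj : ∀ c ∈ K, ∀ c' ∈ K, c ≠ c' → Disjoint (brn G c x R) (brn G c' x R) :=
      fun c hc c' hc' hne => brn_kids_disjoint hT hxy hc hc' hne R R
    set W := ∑ v ∈ U, θ ^ (2 * G.dist x v) with hW
    have hW0 : 0 ≤ W := Finset.sum_nonneg fun v _ => pow_nonneg hθ _
    have hTW : Sr r (R + 1) = 1 + W := by
      have h1 := sum_brn_sq hT hd hreg θ (R + 1) hxy
      rw [brn_succ hT hxy, Finset.sum_insert hxU] at h1
      have h0 : G.dist x x = 0 := SimpleGraph.dist_self
      rw [h0] at h1
      simp only [mul_zero, pow_zero] at h1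
      exact h1.symm
    -- the sum over two vertices of `U`
    have hUU : ∑ v ∈ U, ∑ v' ∈ U, θ ^ (G.dist x v + G.dist x v' + G.dist v v') ≤
        W ^ 2 + r * Sr r R ^ 3 := by
      have hinner : ∀ c ∈ K, ∀ v ∈ brn G c x R,
          ∑ v' ∈ U, θ ^ (G.dist x v + G.dist x v' + G.dist v v') ≤
            θ ^ (2 * G.dist x v) * W +
              θ ^ 2 * ∑ v' ∈ brn G c x R, θ ^ (G.dist c v + G.dist c v' + G.dist v v') := by
        intro c hc v hv
        have hcx : G.Adj c x := (mem_kids.mp hc).1.symm
        rw [hU, Finset.sum_biUnion hdisj, ← Finset.add_sum_erase K _ hc]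
        have h1 : ∑ v' ∈ brn G c x R, θ ^ (G.dist x v + G.dist x v' + G.dist v v') =
            θ ^ 2 * ∑ v' ∈ brn G c x R, θ ^ (G.dist c v + G.dist c v' + G.dist v v') := by
          rw [Finset.mul_sum]
          refine Finset.sum_congr rfl fun v' hv' => ?_
          rw [dist_of_mem_brn hT hcx hv, dist_of_mem_brn hT hcx hv', ← pow_add]
          congr 1
          ring
        have h2 : ∑ c' ∈ K.erase c, ∑ v' ∈ brn G c' x R,
            θ ^ (G.dist x v + G.dist x v' + G.dist v v') ≤ θ ^ (2 * G.dist x v) * W := by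
          have h3 : ∀ c' ∈ K.erase c, ∑ v' ∈ brn G c' x R,
              θ ^ (G.dist x v + G.dist x v' + G.dist v v') =
              θ ^ (2 * G.dist x v) * ∑ v' ∈ brn G c' x R, θ ^ (2 * G.dist x v') := by
            intro c' hc'
            rw [Finset.mul_sum]
            refine Finset.sum_congr rfl fun v' hv' => ?_
            have hc'K := Finset.mem_of_mem_erase hc'
            have hne := Finset.ne_of_mem_erase hc'
            rw [dist_two_kids hT (mem_kids.mp hc).1 (mem_kids.mp hc'K).1 hne.symm hv hv', ← pow_add]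
            congr 1
            ring
          rw [Finset.sum_congr rfl h3, ← Finset.mul_sum]
          refine mul_le_mul_of_nonneg_left ?_ (pow_nonneg hθ _)
          rw [hW, hU, Finset.sum_biUnion hdisj]
          exact Finset.sum_le_sum_of_subset_of_nonneg (Finset.erase_subset _ _)
            (fun c' _ _ => Finset.sum_nonneg fun v' _ => pow_nonneg hθ _)
        rw [h1]
        linarith
      calc ∑ v ∈ U, ∑ v' ∈ U, θ ^ (G.dist x v + G.dist x v' + G.dist v v')
          = ∑ c ∈ K, ∑ v ∈ brn G c x R, ∑ v' ∈ U, θ ^ (G.dist x v + G.dist x v' + G.dist v v') := by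
            rw [hU, Finset.sum_biUnion hdisj]
        _ ≤ ∑ c ∈ K, ∑ v ∈ brn G c x R, (θ ^ (2 * G.dist x v) * W +
              θ ^ 2 * ∑ v' ∈ brn G c x R, θ ^ (G.dist c v + G.dist c v' + G.dist v v')) :=
            Finset.sum_le_sum fun c hc => Finset.sum_le_sum fun v hv => hinner c hc v hv
        _ = (∑ c ∈ K, ∑ v ∈ brn G c x R, θ ^ (2 * G.dist x v)) * W +
              θ ^ 2 * ∑ c ∈ K, ∑ v ∈ brn G c x R, ∑ v' ∈ brn G c x R,
                θ ^ (G.dist c v + G.dist c v' + G.dist v v') := by
            simp only [Finset.sum_add_distrib, Finset.mul_sum, Finset.sum_mul]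
        _ ≤ W * W + θ ^ 2 * ∑ _c ∈ K, Sr r R ^ 3 := by
            have e : ∑ c ∈ K, ∑ v ∈ brn G c x R, θ ^ (2 * G.dist x v) = W := by
              rw [hW, hU, Finset.sum_biUnion hdisj]
            rw [e]
            refine add_le_add le_rfl (mul_le_mul_of_nonneg_left ?_ (sq_nonneg _))
            exact Finset.sum_le_sum fun c hc => ih (mem_kids.mp hc).1.symm
        _ = W ^ 2 + r * Sr r R ^ 3 := by
            rw [Finset.sum_const, nsmul_eq_mul, hK, cast_card_kids hreg hd hxy, hr]
            ring
    rw [brn_succ hT hxy, Finset.sum_insert hxU]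
    have e1 : ∑ v' ∈ insert x U, θ ^ (G.dist x x + G.dist x v' + G.dist x v') = 1 + W := by
      rw [Finset.sum_insert hxU]
      have h0 : G.dist x x = 0 := SimpleGraph.dist_self
      simp only [h0, zero_add, add_zero, pow_zero]
      congr 1
      refine Finset.sum_congr rfl fun v _ => ?_
      congr 1
      ring
    have e2 : ∑ v ∈ U, ∑ v' ∈ insert x U, θ ^ (G.dist x v + G.dist x v' + G.dist v v') =
        W + ∑ v ∈ U, ∑ v' ∈ U, θ ^ (G.dist x v + G.dist x v' + G.dist v v') := by
      have h1 : ∀ v ∈ U, ∑ v' ∈ insert x U, θ ^ (G.dist x v + G.dist x v' + G.dist v v') =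
          θ ^ (2 * G.dist x v) + ∑ v' ∈ U, θ ^ (G.dist x v + G.dist x v' + G.dist v v') := by
        intro v _
        rw [Finset.sum_insert hxU]
        congr 1
        have h0 : G.dist x x = 0 := SimpleGraph.dist_self
        rw [h0, SimpleGraph.dist_comm (u := v) (v := x)]
        congr 1
        ring
      rw [Finset.sum_congr rfl h1, Finset.sum_add_distrib]
    rw [e1, e2]
    have hle : Sr r R ≤ Sr r (R + 1) := Sr_le_succ hr0 R
    have hS0 := Sr_nonneg hr0 R
    have hT1 := Sr_succ r R
    have hTpos : 0 ≤ Sr r (R + 1) := Sr_nonneg hr0 _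
    have h3 : r * Sr r R ^ 3 ≤ r * Sr r R * Sr r (R + 1) ^ 2 := by
      have h4 : Sr r R ^ 2 ≤ Sr r (R + 1) ^ 2 := pow_le_pow_left₀ hS0 hle 2
      have h5 : 0 ≤ r * Sr r R := mul_nonneg hr0 hS0
      calc r * Sr r R ^ 3 = r * Sr r R * Sr r R ^ 2 := by ring
        _ ≤ _ := mul_le_mul_of_nonneg_left h4 h5
    have h6 : Sr r (R + 1) ^ 3 = Sr r (R + 1) ^ 2 + r * Sr r R * Sr r (R + 1) ^ 2 := by
      have : Sr r (R + 1) ^ 3 = Sr r (R + 1) * Sr r (R + 1) ^ 2 := by ring
      rw [this]
      nth_rewrite 1 [hT1]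
      ring
    rw [h6]
    have h7 : Sr r (R + 1) ^ 2 = 1 + W + (W + W ^ 2) := by
      rw [hTW]; ring
    linarith

/-- Lower bound of the cavity second moment by the linear estimator
`∑_{v ∈ brn x y R} θ^{dist x v} y_v`. With `θ = tanh β`, `r = (d-1) θ²`, `S = Sr r R`:
`E[σ_x Ŝ] = t S`, and `E Ŝ² = t S + t² ∑_{v,v'} θ^{|v|+|v'|+dist v v'} ≤ t S + t² S³`. -/
theorem q_lower (hT : G.IsTree) (hd : 3 ≤ d) (hreg : G.IsRegularOfDegree d) (hβ : 0 ≤ β)
    (hr : ((d : ℝ) - 1) * Real.tanh β ^ 2 ≤ 1) (hxy : G.Adj x y) (ht : 0 ≤ t) {R m : ℕ} (hRm : R ≤ m) :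
    (t * Sr (((d : ℝ) - 1) * Real.tanh β ^ 2) R) ^ 2 ≤
      EP G β (brn G x y m) t 0 (fun Y => xiF G β x y m Y ^ 2) *
        (t * Sr (((d : ℝ) - 1) * Real.tanh β ^ 2) R +
          t ^ 2 * Sr (((d : ℝ) - 1) * Real.tanh β ^ 2) R ^ 3) := by
  set θ := Real.tanh β with hθdef
  have hθ0 : 0 ≤ θ := tanh_nonneg' hβ
  have hd1 : 1 ≤ d := by omega
  set r := ((d : ℝ) - 1) * θ ^ 2 with hrdef
  set S := brn G x y m with hS
  set B := brn G x y R with hB
  have hBS : B ⊆ S := brn_mono hT hRm
  set c : V → ℝ := fun v => if v ∈ B then θ ^ G.dist x v else 0 with hc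
  have hxS : x ∈ S := self_mem_brn hT hxy m
  have hstarx : Star G x S := star_brn hT hxy m
  have hsum : ∀ w : V → ℝ, ∑ v ∈ S, c v * w v = ∑ v ∈ B, θ ^ G.dist x v * w v := by
    intro w
    rw [← Finset.sum_subset hBS (f := fun v => c v * w v) (fun v _ hv => by simp [hc, hv])]
    exact Finset.sum_congr rfl fun v hv => by simp [hc, hv]
  have key := nishimori_sq_le (G := G) (β := β) (S := S) (b := x) (t := t) hxS ht c
  obtain ⟨a, ha⟩ : ∃ a : Finset V → ℝ, a = fun A => t * ∑ v ∈ B, θ ^ G.dist x v * sp A v := ⟨_, rfl⟩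
  set Lg : (V → ℝ) → ℝ := fun g => ∑ v ∈ S, c v * g v with hLg
  have hpt : ∀ (A : Finset V) (g : V → ℝ),
      ∑ v ∈ S, c v * (0 + t • stepVec S A + Real.sqrt t • g) v = a A + Real.sqrt t * Lg g := by
    intro A g
    have e : ∀ v ∈ S, c v * (0 + t • stepVec S A + Real.sqrt t • g) v =
        t * (c v * sp A v) + Real.sqrt t * (c v * g v) := by
      intro v hv
      simp only [Pi.add_apply, Pi.zero_apply, Pi.smul_apply, smul_eq_mul, stepVec, if_pos hv]
      ring
    rw [Finset.sum_congr rfl e, Finset.sum_add_distrib, ← Finset.mul_sum, ← Finset.mul_sum, hsum, ha]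
  have hLgp : MemLp Lg 2 (gam V) := memLp_finsetSum S fun v _ => (memLp_coord v).const_mul _
  have hLgi : Integrable Lg (gam V) := hLgp.integrable one_le_two
  have hLgi2 : Integrable (fun g => Lg g ^ 2) (gam V) := hLgp.integrable_sq
  have hL0 : ∫ g, Lg g ∂gam V = 0 := integral_linear S c
  have hL2 : ∫ g, Lg g ^ 2 ∂gam V = ∑ v ∈ S, c v ^ 2 := integral_linear_sq S c
  have hI1 : ∀ A : Finset V, ∫ g, ∑ v ∈ S, c v * (0 + t • stepVec S A + Real.sqrt t • g) v ∂gam V = a A := by
    intro A
    simp_rw [hpt]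
    rw [integral_add (f := fun _ => a A) (g := fun g => Real.sqrt t * Lg g) (integrable_const _)
      (hLgi.const_mul _), integral_const, integral_const_mul, hL0]
    simp
  have hI2 : ∀ A : Finset V, ∫ g, (∑ v ∈ S, c v * (0 + t • stepVec S A + Real.sqrt t • g) v) ^ 2 ∂gam V =
      a A ^ 2 + t * ∑ v ∈ S, c v ^ 2 := by
    intro A
    simp_rw [hpt]
    have e : ∀ g, (a A + Real.sqrt t * Lg g) ^ 2 =
        a A ^ 2 + (2 * a A * Real.sqrt t) * Lg g + t * Lg g ^ 2 := by
      intro g
      have : Real.sqrt t ^ 2 = t := Real.sq_sqrt ht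
      calc (a A + Real.sqrt t * Lg g) ^ 2
          = a A ^ 2 + (2 * a A * Real.sqrt t) * Lg g + Real.sqrt t ^ 2 * Lg g ^ 2 := by ring
        _ = _ := by rw [this]
    simp_rw [e]
    have i1 : Integrable (fun g => a A ^ 2 + (2 * a A * Real.sqrt t) * Lg g) (gam V) :=
      (integrable_const _).add (hLgi.const_mul _)
    rw [integral_add (f := fun g => a A ^ 2 + (2 * a A * Real.sqrt t) * Lg g)
      (g := fun g => t * Lg g ^ 2) i1 (hLgi2.const_mul _),
      integral_add (f := fun _ => a A ^ 2) (g := fun g => (2 * a A * Real.sqrt t) * Lg g)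
      (integrable_const _) (hLgi.const_mul _), integral_const, integral_const_mul, integral_const_mul,
      hL0, hL2]
    simp
  simp_rw [hI1, hI2] at key
  -- the three sums
  have hc2 : ∑ v ∈ S, c v ^ 2 = Sr r R := by
    have h1 := hsum c
    have h2 : ∑ v ∈ S, c v ^ 2 = ∑ v ∈ S, c v * c v := Finset.sum_congr rfl fun v _ => by ring
    rw [h2, h1, ← sum_brn_sq hT hd1 hreg θ R hxy]
    refine Finset.sum_congr rfl fun v hv => ?_
    have hv' : v ∈ B := hv
    simp only [hc, if_pos hv']
    ring
  have hs1 : ∑ A ∈ S.powerset, mu G β S 0 A * sp A x * a A = t * Sr r R := by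
    have e : ∀ A ∈ S.powerset, mu G β S 0 A * sp A x * a A =
        t * ∑ v ∈ B, θ ^ G.dist x v * (mu G β S 0 A * (sp A x * sp A v)) := by
      intro A _
      simp only [ha, Finset.mul_sum]
      exact Finset.sum_congr rfl fun v _ => by ring
    rw [Finset.sum_congr rfl e, ← Finset.mul_sum, Finset.sum_comm]
    congr 1
    rw [← sum_brn_sq hT hd1 hreg θ R hxy]
    refine Finset.sum_congr rfl fun v hv => ?_
    rw [← Finset.mul_sum]
    have h1 := corr_zero (G := G) (β := β) hT hβ hxS hstarx (hBS hv)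
    unfold Ee at h1
    rw [h1, ← pow_add]
    congr 1
    ring
  have hs2 : ∑ A ∈ S.powerset, mu G β S 0 A * a A ^ 2 ≤ t ^ 2 * Sr r R ^ 3 := by
    have e : ∀ A ∈ S.powerset, mu G β S 0 A * a A ^ 2 =
        t ^ 2 * ∑ v ∈ B, ∑ v' ∈ B, θ ^ G.dist x v * θ ^ G.dist x v' *
          (mu G β S 0 A * (sp A v * sp A v')) := by
      intro A _
      have h : a A ^ 2 = t ^ 2 * ∑ v ∈ B, ∑ v' ∈ B, (θ ^ G.dist x v * sp A v) * (θ ^ G.dist x v' * sp A v') := by
        rw [ha]
        simp only
        rw [mul_pow, pow_two (∑ v ∈ B, θ ^ G.dist x v * sp A v), Finset.sum_mul_sum]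
      rw [h, mul_left_comm]
      congr 1
      rw [Finset.mul_sum]
      refine Finset.sum_congr rfl fun v _ => ?_
      rw [Finset.mul_sum]
      refine Finset.sum_congr rfl fun v' _ => ?_
      ring
    rw [Finset.sum_congr rfl e, ← Finset.mul_sum, Finset.sum_comm]
    refine mul_le_mul_of_nonneg_left ?_ (sq_nonneg _)
    have h3 := sum_brn_pair hT hd1 hreg hθ0 R hxy
    refine le_trans (le_of_eq ?_) h3
    refine Finset.sum_congr rfl fun v hv => ?_
    rw [Finset.sum_comm]
    refine Finset.sum_congr rfl fun v' hv' => ?_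
    rw [← Finset.mul_sum]
    have h1 := corr_zero (G := G) (β := β) hT hβ (hBS hv) (star_of_mem hT hstarx (hBS hv)) (hBS hv')
    unfold Ee at h1
    rw [h1, ← pow_add, ← pow_add]
  rw [hc2, hs1] at key
  have hq0 : 0 ≤ EP G β S t 0 (fun y => mean G β S y x ^ 2) := by
    have := EP_mono (G := G) (β := β) (S := S) (t := t) (y₀ := 0) (F := fun _ => 0)
      (H := fun y => mean G β S y x ^ 2) measurable_const ((measurable_mean S x).pow_const 2) (C := 1)
      (fun _ => by simp)
      (fun y => by
        rw [abs_pow]; exact pow_le_one₀ (abs_nonneg _) (abs_mean_le _ _ _ _ _))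
      (fun y => by positivity)
    rwa [EP_const] at this
  have hs3 : ∑ A ∈ S.powerset, mu G β S 0 A * (a A ^ 2 + t * Sr r R) ≤
      t * Sr r R + t ^ 2 * Sr r R ^ 3 := by
    have e : ∑ A ∈ S.powerset, mu G β S 0 A * (a A ^ 2 + t * Sr r R) =
        ∑ A ∈ S.powerset, mu G β S 0 A * a A ^ 2 + t * Sr r R := by
      simp only [mul_add, Finset.sum_add_distrib]
      rw [← Finset.sum_mul, sum_mu, one_mul]
    rw [e]
    linarith
  calc (t * Sr r R) ^ 2 ≤ _ := key
    _ ≤ _ := mul_le_mul_of_nonneg_left hs3 hq0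

/-- Real form: at depth at least `⌈1/√t⌉`, either `r` is at most `exp(-√t)` or the second moment is
at least `min(√t, 1) / 74`. The monotonicity in the depth `m` comes from `q_lower` itself. -/
theorem q_lower_final (hT : G.IsTree) (hd : 3 ≤ d) (hreg : G.IsRegularOfDegree d) (hβ : 0 ≤ β)
    (hr : ((d : ℝ) - 1) * Real.tanh β ^ 2 ≤ 1) (hxy : G.Adj x y) (ht : 0 < t) {m : ℕ}
    (hm : ⌈1 / Real.sqrt t⌉₊ ≤ m)
    (hrt : Real.exp (-Real.sqrt t) ≤ ((d : ℝ) - 1) * Real.tanh β ^ 2 ∨ 1 < t) :
    min (Real.sqrt t) 1 / 74 ≤ EP G β (brn G x y m) t 0 (fun Y => xiF G β x y m Y ^ 2) := by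
  set θ := Real.tanh β with hθdef
  set r := ((d : ℝ) - 1) * θ ^ 2 with hrdef
  set q := EP G β (brn G x y m) t 0 (fun Y => xiF G β x y m Y ^ 2) with hq
  have hd1 : (1 : ℝ) ≤ d := by exact_mod_cast (by omega : 1 ≤ d)
  have hr0 : 0 ≤ r := mul_nonneg (by linarith) (sq_nonneg _)
  by_cases h1t : 1 < t
  · -- large time
    have h := q_lower (G := G) hT hd hreg hβ hr hxy ht.le (Nat.zero_le m)
    rw [Sr_zero] at h
    have h2 : min (Real.sqrt t) 1 ≤ 1 := min_le_right _ _
    have h3 : (1 : ℝ) / 2 ≤ q := by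
      have h4 : t ^ 2 * 1 ≤ q * (t * 1 + t ^ 2 * 1 ^ 3) := by simpa using h
      have h5 : t ^ 2 ≤ q * (2 * t ^ 2) := by
        have : q * (t + t ^ 2) ≤ q * (2 * t ^ 2) := by
          have hq0 : 0 ≤ q := by
            by_contra hneg
            push_neg at hneg
            have : q * (t * 1 + t ^ 2 * 1 ^ 3) < 0 := mul_neg_of_neg_of_pos hneg (by positivity)
            have h6 : 0 < t ^ 2 * 1 := by positivity
            linarith
          refine mul_le_mul_of_nonneg_left ?_ hq0
          nlinarith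
        simp only [mul_one, one_pow] at h4
        linarith
      have h7 : 0 < t ^ 2 := by positivity
      nlinarith
    linarith
  · -- small time
    have ht1 : t ≤ 1 := not_lt.mp h1t
    have hre : Real.exp (-Real.sqrt t) ≤ r := by
      rcases hrt with h | h
      · exact h
      · exact absurd h h1t
    set s := Real.sqrt t with hs
    have hs0 : 0 < s := Real.sqrt_pos.mpr ht
    have hs1 : s ≤ 1 := by
      rw [hs]; exact Real.sqrt_le_one.mpr ht1
    have hss : s ^ 2 = t := Real.sq_sqrt ht.le
    set R := ⌈1 / s⌉₊ with hR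
    have hR1 : 1 / s ≤ R := Nat.le_ceil _
    have hR2 : (R : ℝ) < 1 / s + 1 := Nat.ceil_lt_add_one (by positivity)
    have hmin : min s 1 = s := min_eq_left hs1
    rw [hmin]
    have hup : Sr r R ≤ 3 / s := by
      have h1 : Sr r R ≤ R + 1 := by
        unfold Sr
        calc ∑ n ∈ range (R + 1), r ^ n ≤ ∑ _n ∈ range (R + 1), (1 : ℝ) :=
              Finset.sum_le_sum fun n _ => pow_le_one₀ hr0 hr
          _ = R + 1 := by simp
      have h2 : (1 : ℝ) ≤ 1 / s := by
        rw [le_div_iff₀ hs0]; linarith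
      have h3 : 3 / s = 3 * (1 / s) := by ring
      rw [h3]
      linarith
    have hlo : Real.exp (-2) / s ≤ Sr r R := by
      have h1 : ((R : ℝ) + 1) * Real.exp (-2) ≤ Sr r R := by
        have hterm : ∀ n ∈ range (R + 1), Real.exp (-2) ≤ r ^ n := by
          intro n hn
          have hn' : (n : ℝ) ≤ R := by
            have := Finset.mem_range.mp hn
            exact_mod_cast (by omega : n ≤ R)
          calc Real.exp (-2) ≤ Real.exp (-s) ^ n := by
                rw [← Real.exp_nat_mul]
                apply Real.exp_le_exp.mpr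
                have h3 : (n : ℝ) * s ≤ 2 := by
                  calc (n : ℝ) * s ≤ R * s := mul_le_mul_of_nonneg_right hn' hs0.le
                    _ ≤ (1 / s + 1) * s := mul_le_mul_of_nonneg_right hR2.le hs0.le
                    _ = 1 + s := by field_simp
                    _ ≤ 2 := by linarith
                nlinarith
            _ ≤ r ^ n := pow_le_pow_left₀ (Real.exp_pos _).le hre n
        unfold Sr
        calc ((R : ℝ) + 1) * Real.exp (-2) = ∑ _n ∈ range (R + 1), Real.exp (-2) := by simp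
          _ ≤ _ := Finset.sum_le_sum hterm
      have h2 : Real.exp (-2) / s = (1 / s) * Real.exp (-2) := by ring
      rw [h2]
      have h3 := Real.exp_pos (-2 : ℝ)
      nlinarith
    have hSpos : 0 < Sr r R := lt_of_lt_of_le (by norm_num) (one_le_Sr hr0 R)
    have hkey := q_lower (G := G) hT hd hreg hβ hr hxy ht.le hm
    have htS : 0 < t * Sr r R := mul_pos ht hSpos
    have hq0 : 0 ≤ q := by
      by_contra hneg
      push_neg at hneg
      have h1 : q * (t * Sr r R + t ^ 2 * Sr r R ^ 3) < 0 :=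
        mul_neg_of_neg_of_pos hneg (by positivity)
      have h2 : 0 < (t * Sr r R) ^ 2 := by positivity
      linarith
    have hSs : t * Sr r R ^ 2 ≤ 9 := by
      have h1 : s * Sr r R ≤ 3 := by
        calc s * Sr r R ≤ s * (3 / s) := mul_le_mul_of_nonneg_left hup hs0.le
          _ = 3 := by field_simp
      have h2 : t * Sr r R ^ 2 = (s * Sr r R) ^ 2 := by rw [← hss]; ring
      rw [h2]
      have h3 : 0 ≤ s * Sr r R := by positivity
      nlinarith
    have hkey2 : t * Sr r R ≤ q * 10 := by
      have e : (t * Sr r R) ^ 2 = (t * Sr r R) * (t * Sr r R) := by ring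
      have e2 : q * (t * Sr r R + t ^ 2 * Sr r R ^ 3) =
          (t * Sr r R) * (q * (1 + t * Sr r R ^ 2)) := by ring
      rw [e, e2] at hkey
      have h3 := le_of_mul_le_mul_left hkey htS
      have h4 : q * (1 + t * Sr r R ^ 2) ≤ q * 10 :=
        mul_le_mul_of_nonneg_left (by linarith) hq0
      linarith
    have hlow : s * Real.exp (-2) ≤ t * Sr r R := by
      have h1 : t * (Real.exp (-2) / s) ≤ t * Sr r R :=
        mul_le_mul_of_nonneg_left hlo ht.le
      have h2 : t * (Real.exp (-2) / s) = s * Real.exp (-2) := by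
        rw [← hss]; field_simp
      linarith
    have he : 1 / 7.4 ≤ Real.exp (-2) := by
      rw [Real.exp_neg, one_div]
      apply inv_anti₀ (Real.exp_pos _)
      have h1 := Real.exp_one_lt_d9
      have h2 : Real.exp 2 = Real.exp 1 * Real.exp 1 := by
        rw [← Real.exp_add]; norm_num
      rw [h2]
      nlinarith [Real.exp_pos (1 : ℝ)]
    have h5 : s / 74 ≤ s * Real.exp (-2) / 10 := by
      have : s * (1 / 7.4) ≤ s * Real.exp (-2) := mul_le_mul_of_nonneg_left he hs0.le
      nlinarith
    linarith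

end Vale.Agent.Lib.P161E
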