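import Vale.Agent.Lib.P161E.Defs

/-! Gaussian moments for `gam V`, and the real valued expectation `EP`. Job D0. -/

open MeasureTheory Finset ProbabilityTheory
open scoped Classical ENNReal

noncomputable section

namespace Vale.Agent.Lib.P161E

open Vale.Agent.Lib.P161

variable {V : Type*} {G : SimpleGraph V} {β : ℝ}

private theorem map_coord (v : V) :
    (gam V).map (fun g : V → ℝ => g v) = gaussianReal 0 1 :=
  Measure.infinitePi_map_eval (fun _ : V => gaussianReal (0 : ℝ) 1) v

private theorem integrable_comp_coord (v : V) {f : ℝ → ℝ} (hf : Integrable f (gaussianReal 0 1)) :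
    Integrable (fun g : V → ℝ => f (g v)) (gam V) := by
  rw [← map_coord v] at hf
  exact hf.comp_measurable (measurable_pi_apply v)

private theorem integral_comp_coord (v : V) {f : ℝ → ℝ} (hf : Measurable f) :
    ∫ g : V → ℝ, f (g v) ∂gam V = ∫ x, f x ∂gaussianReal 0 1 := by
  rw [← map_coord v, integral_map (measurable_pi_apply v).aemeasurable hf.aestronglyMeasurable]

private theorem integrable_abs_pow_gauss (p : ℕ) :
    Integrable (fun x : ℝ => |x| ^ p) (gaussianReal 0 1) := by
  rcases Nat.eq_zero_or_pos p with rfl | hp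
  · simp
  · have h : MemLp (id : ℝ → ℝ) (p : ℝ≥0∞) (gaussianReal 0 1) :=
      memLp_id_gaussianReal' _ (by simp)
    have := h.integrable_norm_pow (by omega)
    simpa using this

private theorem integrable_pow_gauss (p : ℕ) :
    Integrable (fun x : ℝ => x ^ p) (gaussianReal 0 1) := by
  refine (integrable_abs_pow_gauss p).mono' (by fun_prop) (Filter.Eventually.of_forall fun x => ?_)
  simp

theorem integrable_abs_pow_coord (v : V) (p : ℕ) :
    Integrable (fun g : V → ℝ => |g v| ^ p) (gam V) :=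
  integrable_comp_coord v (integrable_abs_pow_gauss p)

private theorem integrable_pow_coord (v : V) (p : ℕ) :
    Integrable (fun g : V → ℝ => g v ^ p) (gam V) :=
  integrable_comp_coord v (integrable_pow_gauss p)

private theorem integrable_coord (v : V) :
    Integrable (fun g : V → ℝ => g v) (gam V) := by
  simpa using integrable_pow_coord (V := V) v 1

theorem integral_coord (v : V) : ∫ g, g v ∂gam V = 0 := by
  rw [integral_comp_coord v (f := fun x => x) measurable_id]
  simp

private theorem gauss_sq : ∫ x, x ^ 2 ∂(gaussianReal 0 1) = 1 := by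
  have hv : variance (fun x : ℝ => x) (gaussianReal 0 1) = 1 := by simp
  have hm : MemLp (fun x : ℝ => x) 2 (gaussianReal 0 1) := memLp_id_gaussianReal' 2 (by norm_num)
  have := variance_eq_sub hm
  have h0 : ∫ x, x ∂(gaussianReal 0 1) = 0 := by simp
  rw [hv, h0] at this
  simpa using this.symm

theorem integral_coord_sq (v : V) : ∫ g, g v ^ 2 ∂gam V = 1 := by
  rw [integral_comp_coord v (f := fun x => x ^ 2) (by fun_prop), gauss_sq]

theorem integral_coord_mul {v w : V} (h : v ≠ w) : ∫ g, g v * g w ∂gam V = 0 := by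
  have hind : iIndepFun (fun (v : V) (g : V → ℝ) => g v) (gam V) :=
    iIndepFun_infinitePi (P := fun _ : V => gaussianReal 0 1) (X := fun _ x => x)
      (fun _ => measurable_id)
  have h2 := (hind.indepFun h).integral_fun_mul_eq_mul_integral
    (measurable_pi_apply v).aestronglyMeasurable (measurable_pi_apply w).aestronglyMeasurable
  rw [h2, integral_coord]
  simp

private theorem integrable_coord_mul (v w : V) :
    Integrable (fun g : V → ℝ => g v * g w) (gam V) := by
  refine Integrable.mono' (g := fun g : V → ℝ => (g v ^ 2 + g w ^ 2) / 2)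
    (((integrable_pow_coord v 2).add (integrable_pow_coord w 2)).div_const 2) ?_
    (Filter.Eventually.of_forall fun g => ?_)
  · exact ((measurable_pi_apply v).mul (measurable_pi_apply w)).aestronglyMeasurable
  · rw [Real.norm_eq_abs, abs_le]
    constructor <;> nlinarith [sq_nonneg (g v - g w), sq_nonneg (g v + g w)]

/-- Linear forms in the noise. -/
theorem integral_linear (S : Finset V) (c : V → ℝ) : ∫ g, ∑ v ∈ S, c v * g v ∂gam V = 0 := by
  rw [integral_finsetSum _ (fun v _ => (integrable_coord v).const_mul (c v))]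
  refine Finset.sum_eq_zero fun v _ => ?_
  rw [integral_const_mul, integral_coord, mul_zero]

theorem integral_linear_sq (S : Finset V) (c : V → ℝ) :
    ∫ g, (∑ v ∈ S, c v * g v) ^ 2 ∂gam V = ∑ v ∈ S, c v ^ 2 := by
  have h1 : ∀ g : V → ℝ, (∑ v ∈ S, c v * g v) ^ 2 =
      ∑ v ∈ S, ∑ w ∈ S, c v * c w * (g v * g w) := by
    intro g
    rw [sq, Finset.sum_mul_sum]
    refine Finset.sum_congr rfl fun v _ => Finset.sum_congr rfl fun w _ => by ring
  simp only [h1]
  rw [integral_finsetSum _ (fun v _ => integrable_finsetSum _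
    (fun w _ => (integrable_coord_mul v w).const_mul _))]
  refine Finset.sum_congr rfl fun v hv => ?_
  rw [integral_finsetSum _ (fun w _ => (integrable_coord_mul v w).const_mul _)]
  rw [Finset.sum_eq_single v]
  · rw [integral_const_mul]
    have : ∀ g : V → ℝ, g v * g v = g v ^ 2 := fun g => (sq _).symm
    simp only [this]
    rw [integral_coord_sq]
    ring
  · intro w _ hwv
    rw [integral_const_mul, integral_coord_mul hwv.symm, mul_zero]
  · intro h
    exact absurd hv h

/-- The moment generating function of a standard Gaussian and its derivatives. -/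
private theorem gauss_four : ∫ x, x ^ 4 ∂(gaussianReal 0 1) = 3 := by
  have hI : (0 : ℝ) ∈ interior (integrableExpSet (fun x : ℝ => x) (gaussianReal 0 1)) := by
    rw [integrableExpSet_fun_id_gaussianReal]
    simp
  have h := iteratedDeriv_mgf_zero hI 4
  have hm : mgf (fun x : ℝ => x) (gaussianReal 0 1) = fun t => Real.exp (t ^ 2 / 2) := by
    rw [mgf_fun_id_gaussianReal]
    funext t
    simp
  have hdx : ∀ t : ℝ, HasDerivAt (fun t : ℝ => Real.exp (t ^ 2 / 2)) (t * Real.exp (t ^ 2 / 2)) t := by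
    intro t
    have h1 : HasDerivAt (fun t : ℝ => t ^ 2 / 2) t t := by
      have := ((hasDerivAt_id t).pow 2).div_const 2
      simpa using this
    have := h1.exp
    simpa [mul_comm] using this
  have d1 : deriv (fun t : ℝ => Real.exp (t ^ 2 / 2)) =
      fun t => t * Real.exp (t ^ 2 / 2) := funext fun t => (hdx t).deriv
  have d2 : deriv (fun t : ℝ => t * Real.exp (t ^ 2 / 2)) =
      fun t => (1 + t ^ 2) * Real.exp (t ^ 2 / 2) := by
    funext t
    have := ((hasDerivAt_id t).mul (hdx t)).deriv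
    simp only [id] at this
    have e : (fun y : ℝ => y * Real.exp (y ^ 2 / 2)) = (id * fun t : ℝ => Real.exp (t ^ 2 / 2)) := by
      funext y; simp
    rw [e]
    rw [show deriv (id * fun t : ℝ => Real.exp (t ^ 2 / 2)) t = _ from this]
    ring
  have d3 : deriv (fun t : ℝ => (1 + t ^ 2) * Real.exp (t ^ 2 / 2)) =
      fun t => (3 * t + t ^ 3) * Real.exp (t ^ 2 / 2) := by
    funext t
    have h0 : HasDerivAt (fun t : ℝ => 1 + t ^ 2) (2 * t) t := by
      have := ((hasDerivAt_id t).pow 2).const_add 1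
      simpa using this
    have := (h0.mul (hdx t)).deriv
    have e : (fun y : ℝ => (1 + y ^ 2) * Real.exp (y ^ 2 / 2)) =
        ((fun t : ℝ => 1 + t ^ 2) * fun t : ℝ => Real.exp (t ^ 2 / 2)) := by
      funext y; simp
    rw [e, this]
    ring
  have d4 : deriv (fun t : ℝ => (3 * t + t ^ 3) * Real.exp (t ^ 2 / 2)) 0 = 3 := by
    have h0 : HasDerivAt (fun t : ℝ => 3 * t + t ^ 3) (3 * 1 + 3 * (0 : ℝ) ^ 2 * 1) 0 := by
      have h3 : HasDerivAt (fun t : ℝ => t ^ 3) (3 * (0 : ℝ) ^ 2 * 1) 0 := by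
        simpa using hasDerivAt_pow 3 (0 : ℝ)
      have h1 : HasDerivAt (fun t : ℝ => 3 * t) (3 * 1) 0 := by
        simpa using (hasDerivAt_id (0 : ℝ)).const_mul 3
      exact h1.fun_add h3
    have := (h0.mul (hdx 0)).deriv
    have e : (fun y : ℝ => (3 * y + y ^ 3) * Real.exp (y ^ 2 / 2)) =
        ((fun t : ℝ => 3 * t + t ^ 3) * fun t : ℝ => Real.exp (t ^ 2 / 2)) := by
      funext y; simp
    rw [e, this]
    simp
  have h4 : iteratedDeriv 4 (fun t : ℝ => Real.exp (t ^ 2 / 2)) 0 = 3 := by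
    rw [iteratedDeriv_succ, iteratedDeriv_succ, iteratedDeriv_succ, iteratedDeriv_succ,
      iteratedDeriv_zero, d1, d2, d3, d4]
  rw [hm, h4] at h
  have e : ((fun x : ℝ => x) ^ 4) = fun x : ℝ => x ^ 4 := by
    funext x; simp
  rw [e] at h
  exact h.symm

/-- Absolute moments up to order four. -/
private theorem abs_pow_le (p : ℕ) (hp : p ≤ 4) :
    ∫ x, |x| ^ p ∂(gaussianReal 0 1) ≤ 3 := by
  have hi2 := integrable_pow_gauss 2
  have hi4 := integrable_pow_gauss 4
  have hP : ∀ P : ℕ, P ≤ 4 → ∫ x, |x| ^ P ∂(gaussianReal 0 1) ≤ 3 := by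
    intro P hP
    have hI : ∀ f : ℝ → ℝ, Integrable f (gaussianReal 0 1) → (∀ x, |x| ^ P ≤ f x) →
        ∫ x, f x ∂(gaussianReal 0 1) ≤ 3 → ∫ x, |x| ^ P ∂(gaussianReal 0 1) ≤ 3 :=
      fun f hf hle h3 => (integral_mono (integrable_abs_pow_gauss P) hf hle).trans h3
    have hs : ∀ x : ℝ, |x| ^ 2 = x ^ 2 := fun x => sq_abs x
    have hq : ∀ x : ℝ, |x| ^ 4 = x ^ 4 := fun x => by
      have : |x| ^ 4 = (|x| ^ 2) ^ 2 := by ring
      rw [this, hs]; ring
    interval_cases P
    · simp
    · refine hI (fun x => (1 + x ^ 2) / 2) (((integrable_const 1).add hi2).div_const 2) (fun x => ?_) ?_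
      · simp only [pow_one]
        nlinarith [sq_nonneg (|x| - 1), hs x]
      · rw [integral_div, integral_add (integrable_const 1) hi2, gauss_sq]
        simp
    · refine hI (fun x => x ^ 2) hi2 (fun x => (hs x).le) ?_
      rw [gauss_sq]; norm_num
    · refine hI (fun x => (x ^ 2 + x ^ 4) / 2) ((hi2.add hi4).div_const 2) (fun x => ?_) ?_
      · have ha := abs_nonneg x
        have h2 : |x| ^ 3 ≤ (|x| ^ 2 + |x| ^ 4) / 2 := by
          nlinarith [mul_nonneg (mul_nonneg ha ha) (sq_nonneg (|x| - 1))]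
        rw [hs, hq] at h2
        exact h2
      · rw [integral_div, integral_add hi2 hi4, gauss_sq, gauss_four]
        norm_num
    · refine hI (fun x => x ^ 4) hi4 (fun x => (hq x).le) ?_
      rw [gauss_four]
  exact hP p hp

private theorem l1_pow_le (S : Finset V) (n : ℕ) (g : V → ℝ) :
    (∑ v ∈ S, |g v|) ^ (n + 1) ≤ (S.card : ℝ) ^ n * ∑ v ∈ S, |g v| ^ (n + 1) :=
  pow_sum_le_card_mul_sum_pow (fun _ _ => abs_nonneg _) n

private theorem measurable_l1 (S : Finset V) :
    Measurable (fun g : V → ℝ => ∑ v ∈ S, |g v|) :=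
  Finset.measurable_sum _ fun v _ => (measurable_pi_apply v).abs

private theorem integrable_dom (S : Finset V) (n : ℕ) :
    Integrable (fun g : V → ℝ => (S.card : ℝ) ^ n * ∑ v ∈ S, |g v| ^ (n + 1)) (gam V) :=
  (integrable_finsetSum _ fun v _ => integrable_abs_pow_coord v (n + 1)).const_mul _

theorem integrable_l1_pow (S : Finset V) (p : ℕ) :
    Integrable (fun g : V → ℝ => (∑ v ∈ S, |g v|) ^ p) (gam V) := by
  cases p with
  | zero => simp
  | succ n =>
    refine (integrable_dom S n).mono' ((measurable_l1 S).pow_const _).aestronglyMeasurable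
      (Filter.Eventually.of_forall fun g => ?_)
    rw [Real.norm_eq_abs, abs_of_nonneg (pow_nonneg (Finset.sum_nonneg fun _ _ => abs_nonneg _) _)]
    exact l1_pow_le S n g

/-- Moments of the `ℓ¹` norm: `E (∑_{v∈S} |g v|)^p ≤ (|S|+1)^p p!` for instance. -/
theorem integral_l1_pow_le (S : Finset V) (p : ℕ) (hp : p ≤ 4) :
    ∫ g, (∑ v ∈ S, |g v|) ^ p ∂gam V ≤ 3 * ((S.card : ℝ) + 1) ^ p := by
  cases p with
  | zero => simp
  | succ n =>
    have h1 : ∫ g, (∑ v ∈ S, |g v|) ^ (n + 1) ∂gam V ≤
        ∫ g, (S.card : ℝ) ^ n * ∑ v ∈ S, |g v| ^ (n + 1) ∂gam V :=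
      integral_mono (integrable_l1_pow S (n + 1)) (integrable_dom S n) (l1_pow_le S n)
    refine h1.trans ?_
    rw [integral_const_mul, integral_finsetSum _ fun v _ => integrable_abs_pow_coord v (n + 1)]
    have h2 : ∑ v ∈ S, ∫ g : V → ℝ, |g v| ^ (n + 1) ∂gam V ≤ S.card * 3 := by
      have : ∀ v ∈ S, ∫ g : V → ℝ, |g v| ^ (n + 1) ∂gam V ≤ 3 := by
        intro v _
        rw [integral_comp_coord v (f := fun x => |x| ^ (n + 1)) (by fun_prop)]
        exact abs_pow_le _ hp
      simpa [nsmul_eq_mul] using Finset.sum_le_card_nsmul _ _ _ this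
    have hc : (0 : ℝ) ≤ S.card := Nat.cast_nonneg _
    calc (S.card : ℝ) ^ n * ∑ v ∈ S, ∫ g : V → ℝ, |g v| ^ (n + 1) ∂gam V
        ≤ (S.card : ℝ) ^ n * (S.card * 3) := mul_le_mul_of_nonneg_left h2 (pow_nonneg hc _)
      _ = 3 * (S.card : ℝ) ^ (n + 1) := by ring
      _ ≤ 3 * ((S.card : ℝ) + 1) ^ (n + 1) := by
        have : (S.card : ℝ) ^ (n + 1) ≤ ((S.card : ℝ) + 1) ^ (n + 1) :=
          pow_le_pow_left₀ hc (by linarith) _
        linarith

/-- The map `g ↦ -g` preserves `gam V`. -/
theorem measurePreserving_neg_gam : MeasurePreserving (fun g : V → ℝ => -g) (gam V) (gam V) := by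
  refine ⟨measurable_neg, ?_⟩
  have h := Measure.infinitePi_map_pi (fun _ : V => gaussianReal (0 : ℝ) 1)
    (f := fun _ (x : ℝ) => -x) (fun _ => measurable_neg)
  have e : (fun x : V → ℝ => fun i => -x i) = fun g : V → ℝ => -g := rfl
  rw [e] at h
  unfold gam
  rw [h]
  congr 1
  funext _
  rw [gaussianReal_map_neg]
  simp

private theorem measurable_shiftS (S A : Finset V) (t : ℝ) (y₀ : V → ℝ) :
    Measurable (fun g : V → ℝ => y₀ + t • stepVec S A + Real.sqrt t • g) := by
  refine measurable_pi_lambda _ fun v => ?_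
  simp only [Pi.add_apply, Pi.smul_apply, smul_eq_mul]
  exact (measurable_const.mul (measurable_pi_apply v)).const_add _

theorem integrable_shift {S A : Finset V} {t : ℝ} {y₀ : V → ℝ} {F : (V → ℝ) → ℝ} (hF : Measurable F)
    {C : ℝ} (hFb : ∀ y, |F y| ≤ C) :
    Integrable (fun g => F (y₀ + t • stepVec S A + Real.sqrt t • g)) (gam V) := by
  refine Integrable.of_bound (hF.comp (measurable_shiftS S A t y₀)).aestronglyMeasurable C
    (Filter.Eventually.of_forall fun g => ?_)
  simpa using hFb _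

/-- Bridge between `planted` and `EP`. -/
theorem planted_ofReal {S : Finset V} {t : ℝ} {y₀ : V → ℝ} {F : (V → ℝ) → ℝ} (hF : Measurable F)
    (hF0 : ∀ y, 0 ≤ F y) {C : ℝ} (hFb : ∀ y, F y ≤ C) :
    planted G β S t y₀ (fun y => ENNReal.ofReal (F y)) = ENNReal.ofReal (EP G β S t y₀ F) := by
  unfold planted EP
  rw [ENNReal.ofReal_sum_of_nonneg]
  · refine Finset.sum_congr rfl fun A _ => ?_
    rw [ENNReal.ofReal_mul (mu_pos _ _ _ _ _).le]
    congr 1
    rw [ofReal_integral_eq_lintegral_ofReal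
      (integrable_shift hF (fun y => by rw [abs_of_nonneg (hF0 y)]; exact hFb y))
      (Filter.Eventually.of_forall fun g => hF0 _)]
  · intro A _
    exact mul_nonneg (mu_pos _ _ _ _ _).le (integral_nonneg fun g => hF0 _)

theorem EP_const (S : Finset V) (t : ℝ) (y₀ : V → ℝ) (c : ℝ) : EP G β S t y₀ (fun _ => c) = c := by
  unfold EP
  simp only [integral_const, probReal_univ, smul_eq_mul, one_mul]
  rw [← Finset.sum_mul, sum_mu, one_mul]

theorem EP_mono {S : Finset V} {t : ℝ} {y₀ : V → ℝ} {F H : (V → ℝ) → ℝ} (hF : Measurable F)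
    (hH : Measurable H) {C : ℝ} (hFb : ∀ y, |F y| ≤ C) (hHb : ∀ y, |H y| ≤ C) (hle : ∀ y, F y ≤ H y) :
    EP G β S t y₀ F ≤ EP G β S t y₀ H := by
  unfold EP
  refine Finset.sum_le_sum fun A _ => mul_le_mul_of_nonneg_left ?_ (mu_pos _ _ _ _ _).le
  exact integral_mono (integrable_shift hF hFb) (integrable_shift hH hHb) fun g => hle _

theorem EP_add {S : Finset V} {t : ℝ} {y₀ : V → ℝ} {F H : (V → ℝ) → ℝ} (hF : Measurable F)
    (hH : Measurable H) {C : ℝ} (hFb : ∀ y, |F y| ≤ C) (hHb : ∀ y, |H y| ≤ C) :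
    EP G β S t y₀ (fun y => F y + H y) = EP G β S t y₀ F + EP G β S t y₀ H := by
  unfold EP
  rw [← Finset.sum_add_distrib]
  refine Finset.sum_congr rfl fun A _ => ?_
  rw [← mul_add, integral_add (integrable_shift hF hFb) (integrable_shift hH hHb)]

theorem EP_const_mul {S : Finset V} {t : ℝ} {y₀ : V → ℝ} (c : ℝ) (F : (V → ℝ) → ℝ) :
    EP G β S t y₀ (fun y => c * F y) = c * EP G β S t y₀ F := by
  unfold EP
  rw [Finset.mul_sum]
  refine Finset.sum_congr rfl fun A _ => ?_
  rw [integral_const_mul]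
  ring

end Vale.Agent.Lib.P161E
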