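import Vale.Agent.Lib.P161E.Converse
import Vale.Agent.Lib.P161E.Final

/-! The exact range of the factor of IID property of the free Ising measure on regular trees. -/

open MeasureTheory Finset Filter Topology
open scoped Classical ENNReal

noncomputable section

namespace Vale.Agent.Lib.P161E

open Vale.Agent.Lib.P161

/-- For `d ≥ 3` the free Ising measure on the `d`-regular tree is a factor of IID exactly when
`(d - 1) tanh² β ≤ 1`. -/
theorem fiid_iff {V : Type*} (G : SimpleGraph V) [G.LocallyFinite] {d : ℕ} (hd : 3 ≤ d)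
    (hT : G.IsTree) (hreg : G.IsRegularOfDegree d) {β : ℝ} (hβ : 0 ≤ β) :
    (∃ Φ : (V → unitInterval) → (V → Bool), Measurable Φ ∧
      (∀ φ : G ≃g G, ∀ᵐ U ∂iidUniform V, Φ (U ∘ φ.symm) = Φ U ∘ φ.symm) ∧
      ∀ D : Finset V, (G.induce (D : Set V)).Connected → ∀ η : V → Bool,
        (iidUniform V).map Φ {σ | ∀ v ∈ D, σ v = η v} =
          ENNReal.ofReal (isingCyl G (Real.tanh β) D η)) ↔
      ((d : ℝ) - 1) * Real.tanh β ^ 2 ≤ 1 := by
  constructor
  · rintro ⟨Φ, hΦ, hequi, hlaw⟩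
    exact fiid_le_threshold hT (by omega) hreg hβ hΦ hequi hlaw
  · intro h
    rcases h.lt_or_eq with h1 | h1
    · obtain ⟨Φ, hΦ, hequi, hlaw⟩ := fiid_main G (by omega) hT hreg hβ h1
      exact ⟨Φ, hΦ, fun φ => Eventually.of_forall (hequi φ), hlaw⟩
    · obtain ⟨Φ, hΦ, hequi, hlaw⟩ := fiid_endpoint G hd hT hreg hβ h1
      exact ⟨Φ, hΦ, fun φ => Eventually.of_forall (hequi φ), hlaw⟩

end Vale.Agent.Lib.P161E
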