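import Vale.Agent.Lib.P161E.SysLimit

/-! Job E5a: abstract closeness of functionals of the scheme and of the limit. -/

open MeasureTheory Finset Filter Topology
open scoped Classical ENNReal

noncomputable section

namespace Vale.Agent.Lib.P161E

open Vale.Agent.Lib.P161

variable {V : Type*} {G : SimpleGraph V} [G.LocallyFinite] {β : ℝ} {d : ℕ}
  {g : ℕ → ℕ → unitInterval → ℝ}

/-- The Euler scheme on `S` at level `l`, after `k` steps, read off `U`. -/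
def fl (g : ℕ → ℕ → unitInterval → ℝ) (G : SimpleGraph V) (β : ℝ) (S : Finset V) (l k : ℕ)
    (U : V → unitInterval) : V → ℝ :=
  flow G β S (dlt l) (xiN g l U) 0 k 0

/-- The constant `convC` is positive for admissible parameters. -/
theorem laConvC_pos (P : Par d β) (hd : 2 ≤ d) : 0 < convC d P.κ P.ρ := by
  have hρ0 : 0 < P.ρ := P.hκ.trans P.hκρ
  have hκ1 : P.κ < 1 := P.hκρ.trans P.hρ
  have h1 : 0 < 1 - P.κ / P.ρ := by
    rw [sub_pos, div_lt_one hρ0]; exact P.hκρ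
  have h2 : 0 < 1 - ((d : ℝ) - 1) * P.κ * P.ρ := by linarith [P.hdκρ]
  have h3 : 0 < 1 - P.κ ^ 2 := by nlinarith [P.hκ]
  unfold convC
  positivity

/-- `n j` tends to infinity. -/
theorem Par.n_tendsto (P : Par d β) (hd : 2 ≤ d) : Tendsto P.n atTop atTop := by
  refine tendsto_atTop_atTop_of_monotone P.hs.mono_n (fun b => ?_)
  by_contra hcon
  push Not at hcon
  have hρ0 : 0 < P.ρ := P.hκ.trans P.hκρ
  have hC := laConvC_pos P hd
  have hd1 : (0 : ℝ) < (d : ℝ) - 1 := by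
    have : (2 : ℝ) ≤ d := by exact_mod_cast hd
    linarith
  set C := convC d P.κ P.ρ with hCdef
  set r := ((d : ℝ) - 1) * P.ρ ^ 2 with hr
  have hr0 : 0 < r := by positivity
  have hr1 : r < 1 := P.hρ2
  have hpos : 0 < 2 * C ^ 3 * r ^ b := by positivity
  have hlow : ∀ j, 2 * C ^ 3 * r ^ b ≤ (1 / 2 : ℝ) ^ j := fun j => by
    refine le_trans ?_ (P.hs.stat_le j)
    unfold stat
    rw [← hCdef, ← hr]
    have h1 : r ^ b ≤ r ^ (P.n j) :=
      pow_le_pow_of_le_one hr0.le hr1.le (hcon j).le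
    have h2 : 1 ≤ Real.exp (C * 2 ^ j) ^ 2 := by
      have : 1 ≤ Real.exp (C * 2 ^ j) := Real.one_le_exp (by positivity)
      nlinarith
    have h3 : 0 ≤ 2 * C ^ 3 := by positivity
    calc 2 * C ^ 3 * r ^ b ≤ 2 * C ^ 3 * r ^ P.n j := mul_le_mul_of_nonneg_left h1 h3
      _ = 1 * (2 * C ^ 3 * r ^ P.n j) := by ring
      _ ≤ Real.exp (C * 2 ^ j) ^ 2 * (2 * C ^ 3 * r ^ P.n j) :=
          mul_le_mul_of_nonneg_right h2 (by positivity)
      _ = _ := by ring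
  obtain ⟨j, hj⟩ := exists_pow_lt_of_lt_one hpos (by norm_num : (1 / 2 : ℝ) < 1)
  linarith [hlow j]

/-- Monotonicity of `cS` in the time. -/
theorem laCS_mono_T {N T T' C : ℝ} (hN : 0 ≤ N) (hT : 0 ≤ T) (h : T ≤ T') (hC : 0 ≤ C) :
    cS N T C ≤ cS N T' C := by
  have hT' : 0 ≤ T' := hT.trans h
  have e1 : Real.exp (C * T) ≤ Real.exp (C * T') := by gcongr
  have e2 : Real.exp (4 * N * T) ≤ Real.exp (4 * N * T') := by gcongr
  have hf : fc N T C ≤ fc N T' C := by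
    unfold fc
    gcongr
  have hf0 : 0 ≤ fc N T C := fc_nonneg hN hT
  have hR : cR N T C ≤ cR N T' C := by
    unfold cR
    gcongr
  have hR0 : 0 ≤ cR N T C := cR_nonneg hN hT
  have hM : cM N T C ≤ cM N T' C := by
    unfold cM
    gcongr
  have hM0 : 0 ≤ cM N T C := cM_nonneg hN
  unfold cS
  gcongr

/-- Monotonicity of `stat` in the time. -/
theorem laStat_mono_T {κ ρ T T' : ℝ} {n : ℕ} (hC : 0 ≤ convC d κ ρ) (hr : 0 ≤ ((d : ℝ) - 1) * ρ ^ 2)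
    (h : T ≤ T') : stat d κ ρ T n ≤ stat d κ ρ T' n := by
  unfold stat
  have e1 : Real.exp (convC d κ ρ * T) ≤ Real.exp (convC d κ ρ * T') := by gcongr
  have h3 := pow_nonneg hC 3
  have hrn := pow_nonneg hr n
  gcongr

/-- A crude bound for the flow. -/
theorem laAbs_flow_le (S : Finset V) {δ : ℝ} (hδ : 0 ≤ δ) (ξ : ℕ → V → ℝ) (v : V) (n : ℕ) :
    ∀ (i : ℕ) (x : V → ℝ), |flow G β S δ ξ i n x v| ≤
      |x v| + n * δ + Real.sqrt δ * ∑ j ∈ Finset.range n, |ξ (i + j) v| := by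
  induction n with
  | zero => intro i x; simp [flow]
  | succ n ih =>
    intro i x
    simp only [flow]
    refine (ih (i + 1) _).trans ?_
    have h1 : |eulerStep G β S δ (ξ i) x v| ≤ |x v| + δ + Real.sqrt δ * |ξ i v| := by
      simp only [eulerStep]
      have h2 := abs_mean_le G β S x v
      have h3 : |δ * mean G β S x v| ≤ δ := by
        rw [abs_mul, abs_of_nonneg hδ]
        nlinarith
      have h4 : |Real.sqrt δ * ξ i v| = Real.sqrt δ * |ξ i v| := by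
        rw [abs_mul, abs_of_nonneg (Real.sqrt_nonneg _)]
      calc |x v + δ * mean G β S x v + Real.sqrt δ * ξ i v|
          ≤ |x v + δ * mean G β S x v| + |Real.sqrt δ * ξ i v| := abs_add_le _ _
        _ ≤ |x v| + |δ * mean G β S x v| + |Real.sqrt δ * ξ i v| := by
            gcongr
            exact abs_add_le _ _
        _ ≤ _ := by rw [h4]; linarith
    rw [Finset.sum_range_succ']
    have e : ∀ j, i + 1 + j = i + (j + 1) := fun j => by omega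
    simp only [e]
    push_cast
    simp only [add_zero]
    have hs := Real.sqrt_nonneg δ
    nlinarith

/-- Coordinates of the noise are in `L²`. -/
theorem laMemLp_coord (j : ℕ) (v : V) : MemLp (fun ξ : ℕ → V → ℝ => ξ j v) 2 (nu V) := by
  have hc : Measurable (fun ξ : ℕ → V → ℝ => ξ j v) :=
    (measurable_pi_apply v).comp (measurable_pi_apply j)
  have h := ProbabilityTheory.memLp_id_gaussianReal' (μ := 0) (v := 1) 2 (by norm_num)
  rw [← map_nu_coord j v] at h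
  exact (memLp_map_measure_iff h.aestronglyMeasurable hc.aemeasurable).1 h

/-- The flow started at `0` has finite second moment under `nu`. -/
theorem laIntegrable_flow_sq (S : Finset V) {δ : ℝ} (hδ : 0 ≤ δ) (K : ℕ) (v : V) :
    Integrable (fun ξ : ℕ → V → ℝ => flow G β S δ ξ 0 K 0 v ^ 2) (nu V) := by
  have h0 : ∀ j, MemLp (fun ξ : ℕ → V → ℝ => ‖ξ (0 + j) v‖) 2 (nu V) := fun j =>
    (laMemLp_coord (0 + j) v).norm
  have h1 : MemLp (fun ξ : ℕ → V → ℝ => ∑ j ∈ Finset.range K, ‖ξ (0 + j) v‖) 2 (nu V) :=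
    memLp_finsetSum _ (fun j _ => h0 j)
  have h2 : MemLp (fun ξ : ℕ → V → ℝ => Real.sqrt δ * ∑ j ∈ Finset.range K, ‖ξ (0 + j) v‖) 2 (nu V) :=
    h1.const_mul _
  have h3 : MemLp (fun _ : ℕ → V → ℝ => (K : ℝ) * δ) 2 (nu V) := memLp_const _
  have hG : MemLp (fun ξ : ℕ → V → ℝ => (K : ℝ) * δ + Real.sqrt δ * ∑ j ∈ Finset.range K, ‖ξ (0 + j) v‖)
      2 (nu V) := h3.add h2
  have hF : MemLp (fun ξ : ℕ → V → ℝ => flow G β S δ ξ 0 K 0 v) 2 (nu V) := by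
    refine hG.of_le (measurable_flow_noise S δ K v).aestronglyMeasurable
      (Filter.Eventually.of_forall fun ξ => ?_)
    have h4 := laAbs_flow_le (G := G) (β := β) S hδ ξ v K 0 0
    simp only [Pi.zero_apply, abs_zero, zero_add] at h4
    have h5 : (0 : ℝ) ≤ (K : ℝ) * δ + Real.sqrt δ * ∑ j ∈ Finset.range K, ‖ξ j v‖ := by
      positivity
    simp only [zero_add, Real.norm_eq_abs] at h5 ⊢
    rw [abs_of_nonneg h5]
    exact h4
  exact hF.integrable_sq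

/-- A Lipschitz function in `ℓ¹` is Lipschitz in `ℓ²`, squared. -/
theorem laLip_sq {F : (V → ℝ) → ℝ} {L : ℝ} {R : Finset V}
    (h : ∀ y y', |F y - F y'| ≤ L * ∑ v ∈ R, |y v - y' v|) (y y' : V → ℝ) :
    (F y - F y') ^ 2 ≤ L ^ 2 * (R.card : ℝ) * ∑ v ∈ R, (y v - y' v) ^ 2 := by
  have h1 := h y y'
  have h2 : (F y - F y') ^ 2 ≤ (L * ∑ v ∈ R, |y v - y' v|) ^ 2 := by
    rw [← sq_abs (F y - F y')]
    exact pow_le_pow_left₀ (abs_nonneg _) h1 2
  have h3 : (∑ v ∈ R, |y v - y' v|) ^ 2 ≤ (R.card : ℝ) * ∑ v ∈ R, |y v - y' v| ^ 2 :=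
    sq_sum_le_card_mul_sum_sq
  simp only [sq_abs] at h3
  calc (F y - F y') ^ 2 ≤ L ^ 2 * (∑ v ∈ R, |y v - y' v|) ^ 2 := by rw [← mul_pow]; exact h2
    _ ≤ L ^ 2 * ((R.card : ℝ) * ∑ v ∈ R, (y v - y' v) ^ 2) :=
        mul_le_mul_of_nonneg_left h3 (sq_nonneg _)
    _ = _ := by ring

/-- Nonnegativity of `EP` for nonnegative test functions. -/
theorem laEP_nonneg {S : Finset V} {t : ℝ} {y₀ : V → ℝ} {F : (V → ℝ) → ℝ} (hF : ∀ y, 0 ≤ F y) :
    0 ≤ EP G β S t y₀ F := by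
  unfold EP
  refine Finset.sum_nonneg fun A _ => mul_nonneg (mu_pos G β S y₀ A).le (integral_nonneg fun g => hF _)

theorem laFour (a b c e h : ℝ) :
    (a - h) ^ 2 ≤ 4 * ((a - b) ^ 2 + (b - c) ^ 2 + (c - e) ^ 2 + (e - h) ^ 2) := by
  nlinarith [sq_nonneg ((a - b) - (b - c)), sq_nonneg ((a - b) - (c - e)), sq_nonneg ((a - b) - (e - h)),
    sq_nonneg ((b - c) - (c - e)), sq_nonneg ((b - c) - (e - h)), sq_nonneg ((c - e) - (e - h))]

/-- The pointwise inequality. -/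
theorem laPoint {Φ Ψ : (V → ℝ) → ℝ} {LΦ LΨ : ℝ} {S R₀ : Finset V}
    (hΦL : ∀ y y', |Φ y - Φ y'| ≤ LΦ * ∑ v ∈ S, |y v - y' v|)
    (hΨL : ∀ y y', |Ψ y - Ψ y'| ≤ LΨ * ∑ v ∈ R₀, |y v - y' v|) (a b h y : V → ℝ) :
    (Φ a - Ψ h) ^ 2 ≤ 4 * (LΦ ^ 2 * (S.card : ℝ)) * ∑ v ∈ S, (y v - a v) ^ 2 + 4 * (Φ y - Ψ y) ^ 2 +
      4 * (LΨ ^ 2 * (R₀.card : ℝ)) * ∑ v ∈ R₀, (y v - b v) ^ 2 +
      4 * (LΨ ^ 2 * (R₀.card : ℝ)) * ∑ v ∈ R₀, (b v - h v) ^ 2 := by
  have h1 := laLip_sq hΦL a y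
  have h3 := laLip_sq hΨL y b
  have h4 := laLip_sq hΨL b h
  have h1' : ∑ v ∈ S, (a v - y v) ^ 2 = ∑ v ∈ S, (y v - a v) ^ 2 :=
    Finset.sum_congr rfl fun v _ => by ring
  rw [h1'] at h1
  have hmain := laFour (Φ a) (Φ y) (Ψ y) (Ψ b) (Ψ h)
  linarith

/-- The expectation along the chain on `S` of the squared distance to a scheme on `S₂`. -/
def laQ (G : SimpleGraph V) (β : ℝ) (S S₂ : Finset V) (δ : ℝ) (k : ℕ) (v : V) (ξ : ℕ → V → ℝ) : ℝ≥0∞ :=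
  chainFrom G β S δ 0 ξ k (fun y => ENNReal.ofReal ((y v - flow G β S₂ δ ξ 0 k 0 v) ^ 2)) 0

theorem laQ_meas (S S₂ : Finset V) (δ : ℝ) (k : ℕ) (v : V) : Measurable (laQ G β S S₂ δ k v) := by
  refine measurable_chain_at S δ 0 k _ ?_ 0
  exact ENNReal.measurable_ofReal.comp (Measurable.pow_const (Measurable.sub
    ((measurable_pi_apply v).comp measurable_snd)
    ((measurable_flow_noise S₂ δ k v).comp measurable_fst)) 2)

theorem laQ_marg (S S₂ : Finset V) (δ : ℝ) (k : ℕ) (v : V) :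
    ∫⁻ ξ, laQ G β S S₂ δ k v ξ ∂nu V =
      lmarginal (fun _ : ℕ => gam V) (Finset.range k) (laQ G β S S₂ δ k v) 0 := by
  refine lintegral_nu_eq_lmarginal (Finset.range k) _ (laQ_meas S S₂ δ k v) ?_ 0
  intro ξ ξ' h
  have h' : ∀ j ∈ Finset.Ico 0 (0 + k), ξ j = ξ' j := fun j hj => h j (by
    rw [Finset.mem_Ico] at hj
    rw [Finset.mem_range]
    omega)
  have h1 : flow G β S₂ δ ξ 0 k 0 v = flow G β S₂ δ ξ' 0 k 0 v := by
    rw [flow_congr_noise _ _ k 0 0 h']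
  simp only [laQ]
  rw [h1]
  exact chainFrom_congr S δ 0 k h' _ _

/-- Insertion of the chain. -/
theorem laChain (S : Finset V) (δ : ℝ) (k : ℕ) (ξ : ℕ → V → ℝ) (S₂ : V → Finset V) (R₀ : Finset V)
    (a₁ a₂ a₃ e c : ℝ≥0∞) (f : (V → ℝ) → ℝ≥0∞)
    (h : ∀ y, c ≤ a₁ * ∑ v ∈ S, ENNReal.ofReal ((y v - flow G β S δ ξ 0 k 0 v) ^ 2) + a₂ * f y +
      a₃ * ∑ v ∈ R₀, ENNReal.ofReal ((y v - flow G β (S₂ v) δ ξ 0 k 0 v) ^ 2) + e) :
    c ≤ a₁ * ∑ v ∈ S, laQ G β S S δ k v ξ + a₂ * chainFrom G β S δ 0 ξ k f 0 +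
      a₃ * ∑ v ∈ R₀, laQ G β S (S₂ v) δ k v ξ + e := by
  calc c = chainFrom G β S δ 0 ξ k (fun _ => c) 0 := (chainFrom_const k _ _).symm
    _ ≤ chainFrom G β S δ 0 ξ k (fun y => a₁ * ∑ v ∈ S, ENNReal.ofReal ((y v - flow G β S δ ξ 0 k 0 v) ^ 2) +
          a₂ * f y + a₃ * ∑ v ∈ R₀, ENNReal.ofReal ((y v - flow G β (S₂ v) δ ξ 0 k 0 v) ^ 2) + e) 0 :=
        chainFrom_mono k h 0
    _ = _ := by
        rw [chainFrom_add', chainFrom_add', chainFrom_add', chainFrom_const_mul, chainFrom_const_mul,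
          chainFrom_const_mul, chainFrom_sum, chainFrom_sum, chainFrom_const]
        rfl

/-- The numbers in the comparison of the chain and a scheme on a smaller ball. -/
theorem laNumbers (P : Par d β) (hd : 2 ≤ d) (hreg : G.IsRegularOfDegree d) {j' l : ℕ} {T : ℝ} (hT0 : 0 ≤ T)
    (v : V) (hl : P.l j' ≤ l) (hu : T ≤ 2 ^ j') :
    6 * T ^ 2 * stat d P.κ P.ρ T (P.n j') +
        3 * T * cS ((ball G v (P.n j')).card : ℝ) T (convC d P.κ P.ρ) * dlt l ≤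
      100 * (1 + T) ^ 2 * (1 / 2) ^ j' := by
  have hCC : 0 ≤ convC d P.κ P.ρ := (laConvC_pos P hd).le
  have hρ0 : 0 < P.ρ := P.hκ.trans P.hκρ
  have hd1 : (0 : ℝ) ≤ (d : ℝ) - 1 := by
    have : (2 : ℝ) ≤ d := by exact_mod_cast hd
    linarith
  have hN0 : (0 : ℝ) ≤ ((ball G v (P.n j')).card : ℝ) := Nat.cast_nonneg _
  have hNle := card_ball_cast hreg v (P.n j')
  have h2T : (0 : ℝ) ≤ 2 ^ j' := by positivity
  have hr0 : 0 ≤ ((d : ℝ) - 1) * P.ρ ^ 2 := by positivity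
  have hstat : stat d P.κ P.ρ T (P.n j') ≤ (1 / 2) ^ j' :=
    (laStat_mono_T hCC hr0 hu).trans (P.hs.stat_le j')
  have hc1 : cS ((ball G v (P.n j')).card : ℝ) T (convC d P.κ P.ρ) ≤
      cS (((d + 1) ^ P.n j' : ℕ) : ℝ) (2 ^ j') (convC d P.κ P.ρ) :=
    (cS_mono hN0 hNle hT0).trans (laCS_mono_T (Nat.cast_nonneg _) hT0 hu hCC)
  have hc0 : 0 ≤ cS (((d + 1) ^ P.n j' : ℕ) : ℝ) (2 ^ j') (convC d P.κ P.ρ) :=
    cS_nonneg (Nat.cast_nonneg _) h2T
  have hδle : dlt l ≤ dlt (P.l j') := dlt_anti hl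
  have hcS : cS ((ball G v (P.n j')).card : ℝ) T (convC d P.κ P.ρ) * dlt l ≤ (1 / 2) ^ j' :=
    le_trans (mul_le_mul hc1 hδle (dlt_pos l).le hc0) (P.hs.cS_le j')
  have hhalf : (0 : ℝ) ≤ (1 / 2) ^ j' := by positivity
  have h6 : 6 * T ^ 2 * stat d P.κ P.ρ T (P.n j') ≤ 6 * T ^ 2 * (1 / 2) ^ j' :=
    mul_le_mul_of_nonneg_left hstat (by positivity)
  have h7 : 3 * T * cS ((ball G v (P.n j')).card : ℝ) T (convC d P.κ P.ρ) * dlt l ≤ 3 * T * (1 / 2) ^ j' := by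
    have := mul_le_mul_of_nonneg_left hcS (by positivity : 0 ≤ 3 * T)
    calc _ = 3 * T * (cS ((ball G v (P.n j')).card : ℝ) T (convC d P.κ P.ρ) * dlt l) := by ring
      _ ≤ _ := this
  have h8 : 6 * T ^ 2 + 3 * T ≤ 100 * (1 + T) ^ 2 := by nlinarith
  have h9 := mul_le_mul_of_nonneg_right h8 hhalf
  calc _ ≤ 6 * T ^ 2 * (1 / 2) ^ j' + 3 * T * (1 / 2) ^ j' := add_le_add h6 h7
    _ = (6 * T ^ 2 + 3 * T) * (1 / 2) ^ j' := by ring
    _ ≤ _ := h9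

/-- The abstract final estimate, in `ℝ≥0∞`. -/
theorem laAssemble {Ω : Type*} [MeasurableSpace Ω] (μ : Measure Ω) {X I₁ I₂ I₃ I₄ : Ω → ℝ≥0∞}
    (hI₁ : Measurable I₁) (hI₂ : Measurable I₂) (hI₃ : Measurable I₃) (hI₄ : Measurable I₄)
    {a₁ a₃ : ℝ} (ha₁ : 0 ≤ a₁) (ha₃ : 0 ≤ a₃)
    (hX : ∀ ω, X ω ≤ ENNReal.ofReal a₁ * I₁ ω + ENNReal.ofReal 4 * I₂ ω + ENNReal.ofReal a₃ * I₃ ω +
      ENNReal.ofReal a₃ * I₄ ω) {b₁ b₂ b₃ b₄ : ℝ} (hb₁ : 0 ≤ b₁) (hb₂ : 0 ≤ b₂) (hb₃ : 0 ≤ b₃) (hb₄ : 0 ≤ b₄)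
    (h₁ : ∫⁻ ω, I₁ ω ∂μ ≤ ENNReal.ofReal b₁) (h₂ : ∫⁻ ω, I₂ ω ∂μ ≤ ENNReal.ofReal b₂)
    (h₃ : ∫⁻ ω, I₃ ω ∂μ ≤ ENNReal.ofReal b₃) (h₄ : ∫⁻ ω, I₄ ω ∂μ ≤ ENNReal.ofReal b₄) :
    ∫⁻ ω, X ω ∂μ ≤ ENNReal.ofReal (a₁ * b₁ + 4 * b₂ + a₃ * b₃ + a₃ * b₄) := by
  calc ∫⁻ ω, X ω ∂μ
      ≤ ∫⁻ ω, (ENNReal.ofReal a₁ * I₁ ω + ENNReal.ofReal 4 * I₂ ω + ENNReal.ofReal a₃ * I₃ ω +
          ENNReal.ofReal a₃ * I₄ ω) ∂μ := lintegral_mono hX
    _ = ENNReal.ofReal a₁ * ∫⁻ ω, I₁ ω ∂μ + ENNReal.ofReal 4 * ∫⁻ ω, I₂ ω ∂μ +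
          ENNReal.ofReal a₃ * ∫⁻ ω, I₃ ω ∂μ + ENNReal.ofReal a₃ * ∫⁻ ω, I₄ ω ∂μ := by
        rw [lintegral_add_right _ (hI₄.const_mul _), lintegral_add_right _ (hI₃.const_mul _),
          lintegral_add_right _ (hI₂.const_mul _), lintegral_const_mul _ hI₁,
          lintegral_const_mul _ hI₂, lintegral_const_mul _ hI₃, lintegral_const_mul _ hI₄]
    _ ≤ ENNReal.ofReal a₁ * ENNReal.ofReal b₁ + ENNReal.ofReal 4 * ENNReal.ofReal b₂ +
          ENNReal.ofReal a₃ * ENNReal.ofReal b₃ + ENNReal.ofReal a₃ * ENNReal.ofReal b₄ := by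
        gcongr
    _ = _ := by
        rw [← ENNReal.ofReal_mul ha₁, ← ENNReal.ofReal_mul (by norm_num), ← ENNReal.ofReal_mul ha₃,
          ← ENNReal.ofReal_mul ha₃, ← ENNReal.ofReal_add (by positivity) (by positivity),
          ← ENNReal.ofReal_add (by positivity) (by positivity),
          ← ENNReal.ofReal_add (by positivity) (by positivity)]

theorem laOfReal {c₁ c₃ s₁ s₂ s₃ s₄ : ℝ} (h₁ : 0 ≤ c₁) (h₂ : 0 ≤ s₁) (h₃ : 0 ≤ s₂) (h₄ : 0 ≤ c₃)
    (h₅ : 0 ≤ s₃) (h₆ : 0 ≤ s₄) :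
    ENNReal.ofReal (c₁ * s₁ + 4 * s₂ + c₃ * s₃ + c₃ * s₄) =
      ENNReal.ofReal c₁ * ENNReal.ofReal s₁ + ENNReal.ofReal 4 * ENNReal.ofReal s₂ +
        ENNReal.ofReal c₃ * ENNReal.ofReal s₃ + ENNReal.ofReal c₃ * ENNReal.ofReal s₄ := by
  rw [← ENNReal.ofReal_mul h₁, ← ENNReal.ofReal_mul (by norm_num), ← ENNReal.ofReal_mul h₄,
    ← ENNReal.ofReal_mul h₄, ← ENNReal.ofReal_add (by positivity) (by positivity),
    ← ENNReal.ofReal_add (by positivity) (by positivity),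
    ← ENNReal.ofReal_add (by positivity) (by positivity)]

/-- A sum of integrals, each bounded by the same constant. -/
theorem laSumBound {Ω : Type*} [MeasurableSpace Ω] (μ : Measure Ω) (R : Finset V) {I : V → Ω → ℝ≥0∞}
    (hI : ∀ v, Measurable (I v)) {b : ℝ} (h : ∀ v ∈ R, ∫⁻ ω, I v ω ∂μ ≤ ENNReal.ofReal b) :
    ∫⁻ ω, ∑ v ∈ R, I v ω ∂μ ≤ ENNReal.ofReal ((R.card : ℝ) * b) := by
  rw [lintegral_finsetSum _ fun v _ => hI v]
  calc ∑ v ∈ R, ∫⁻ ω, I v ω ∂μ ≤ ∑ _v ∈ R, ENNReal.ofReal b := Finset.sum_le_sum h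
    _ = _ := by
        rw [Finset.sum_const, nsmul_eq_mul, ENNReal.ofReal_mul (Nat.cast_nonneg _)]
        simp

section

variable (hg : DN g) (hT : G.IsTree) (hd : 2 ≤ d) (hreg : G.IsRegularOfDegree d) (hβ : 0 ≤ β)
  (P : Par d β)

include hg hT hd hreg hβ

/-- The chain on `S` against the scheme on `S`, at a coordinate of `S`. -/
theorem laQ1_bound {S : Finset V} {v : V} (hv : v ∈ S) {l k : ℕ} (hk : 1 ≤ k) :
    ∫⁻ U, laQ G β S S (dlt l) k v (xiN g l U) ∂iidUniform V ≤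
      ENNReal.ofReal (3 * dy l k * cS S.card (dy l k) (convC d P.κ P.ρ) * dlt l) := by
  rw [lintegral_xiN g hg.hm hg.hlaw l _ (laQ_meas _ _ _ _ _), laQ_marg]
  exact self_compare hT hd hreg hβ P.hθκ P.hκ P.hκρ P.hρ P.hdκρ hv (dlt_pos l) (dlt_le_one l) k hk 0

/-- The chain on `S` against the scheme on a small ball. -/
theorem laQ3_bound {r : V} {n j' l k : ℕ} {v : V} (hv : ball G v (P.n j') ⊆ ball G r n) (hk : 1 ≤ k)
    (hl : P.l j' ≤ l) (hu : dy l k ≤ 2 ^ j') :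
    ∫⁻ U, laQ G β (ball G r n) (ball G v (P.n j')) (dlt l) k v (xiN g l U) ∂iidUniform V ≤
      ENNReal.ofReal (100 * (1 + dy l k) ^ 2 * (1 / 2) ^ j') := by
  have hvb : v ∈ ball G v (P.n j') := by rw [mem_ball hT]; simp
  have hT0 : 0 ≤ dy l k := mul_nonneg (Nat.cast_nonneg _) (dlt_pos l).le
  rw [lintegral_xiN g hg.hm hg.hlaw l _ (laQ_meas _ _ _ _ _), laQ_marg]
  refine (compare_flow hT hd hreg hβ P.hθκ P.hκ P.hκρ P.hρ P.hdκρ v (P.n j') hv
    (star_ball hT (hv hvb)) (dlt_pos l) (dlt_le_one l) k hk 0).trans ?_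
  exact ENNReal.ofReal_le_ofReal (laNumbers P hd hreg hT0 v hl hu)

/-- The scheme on a small ball against the limit. -/
theorem laF4_bound {j' l k : ℕ} (v : V) (hl : P.l j' ≤ l) (hu : dy l k ≤ 2 ^ j') :
    ∫⁻ U, ENNReal.ofReal ((flow G β (ball G v (P.n j')) (dlt l) (xiN g l U) 0 k 0 v -
        Yf g G β P (dy l k) v U) ^ 2) ∂iidUniform V ≤
      ENNReal.ofReal (100 * (1 + dy l k) ^ 2 * (1 / 2) ^ j') := by
  have hstp : stp (dy l k) l = k := by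
    rw [stp_dy le_rfl]
    simp
  have hclose := flow_close_Y hg hT hd hreg hβ P (L := l) (k := k) (j := j') hu hl le_rfl v
  rw [hstp] at hclose
  have hΞm : Measurable (xiN (V := V) g l) := measurable_xiN g hg.hm l
  have hi1 : Integrable (fun U => flow G β (ball G v (P.n j')) (dlt l) (xiN g l U) 0 k 0 v ^ 2)
      (iidUniform V) := by
    have h1 : Integrable (fun ξ : ℕ → V → ℝ => flow G β (ball G v (P.n j')) (dlt l) ξ 0 k 0 v ^ 2)
        ((iidUniform V).map (xiN g l)) := by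
      rw [map_xiN g hg.hm hg.hlaw l]
      exact laIntegrable_flow_sq _ (dlt_pos l).le k v
    exact h1.comp_measurable hΞm
  have hi2 : Integrable (fun U => Yf g G β P (dy l k) v U ^ 2) (iidUniform V) :=
    integrable_Yf_sq hg hT hd hreg hβ P v
  have hm1 : Measurable (fun U => flow G β (ball G v (P.n j')) (dlt l) (xiN g l U) 0 k 0 v) :=
    (measurable_flow_noise _ _ k v).comp hΞm
  have hi : Integrable (fun U => (flow G β (ball G v (P.n j')) (dlt l) (xiN g l U) 0 k 0 v -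
      Yf g G β P (dy l k) v U) ^ 2) (iidUniform V) := by
    refine Integrable.mono' ((hi1.const_mul 2).add (hi2.const_mul 2))
      (Measurable.pow_const (hm1.sub (measurable_Yf hg P _ v)) 2).aestronglyMeasurable
      (Filter.Eventually.of_forall fun U => ?_)
    rw [Real.norm_eq_abs, abs_of_nonneg (sq_nonneg _)]
    simp only [Pi.add_apply]
    nlinarith [sq_nonneg (flow G β (ball G v (P.n j')) (dlt l) (xiN g l U) 0 k 0 v +
      Yf g G β P (dy l k) v U)]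
  rw [← ofReal_integral_eq_lintegral_ofReal hi (Filter.Eventually.of_forall fun _ => sq_nonneg _)]
  exact ENNReal.ofReal_le_ofReal hclose

/-- E5a. Abstract closeness. `S = ball r n`, `Φ` is a bounded Lipschitz function of the coordinates in `S`, `Ψ` of
those in a finite set `R₀` such that each `ball v (P.n j')` with `v ∈ R₀` lies in `S`, and `Φ, Ψ` are close under the
planted law on `S`. Proof: insert the state `y` of the exact chain on `S` (`self_compare`, `compare_flow`, `chain_law`,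
`chainFrom_const`, `lintegral_xiN`), and `flow_close_Y`. -/
theorem functional_close {r : V} {n j' l k : ℕ} {R₀ : Finset V} {Φ Ψ : (V → ℝ) → ℝ} (hΦm : Measurable Φ)
    (hΨm : Measurable Ψ) {C LΦ LΨ ε₁ : ℝ} (hΦb : ∀ y, |Φ y| ≤ C) (hΨb : ∀ y, |Ψ y| ≤ C)
    (hΦL : ∀ y y', |Φ y - Φ y'| ≤ LΦ * ∑ v ∈ ball G r n, |y v - y' v|)
    (hΨL : ∀ y y', |Ψ y - Ψ y'| ≤ LΨ * ∑ v ∈ R₀, |y v - y' v|)
    (hR₀ : ∀ v ∈ R₀, ball G v (P.n j') ⊆ ball G r n)
    (hk : 1 ≤ k) (hl : P.l j' ≤ l) (hu : dy l k ≤ 2 ^ j')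
    (hε₁ : EP G β (ball G r n) (dy l k) 0 (fun y => (Φ y - Ψ y) ^ 2) ≤ ε₁) :
    ∫ U, (Φ (fl g G β (ball G r n) l k U) - Ψ (Yc g G β P (dy l k) U)) ^ 2 ∂iidUniform V ≤
      4 * (LΦ ^ 2 * ((ball G r n).card : ℝ) ^ 2 *
            (3 * dy l k * cS (ball G r n).card (dy l k) (convC d P.κ P.ρ) * dlt l) + ε₁ +
          LΨ ^ 2 * (R₀.card : ℝ) ^ 2 * (200 * (1 + dy l k) ^ 2 * (1 / 2) ^ j')) := by
  have hT0 : 0 ≤ dy l k := mul_nonneg (Nat.cast_nonneg _) (dlt_pos l).le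
  have hC0 : 0 ≤ C := (abs_nonneg _).trans (hΦb 0)
  have hΞm : Measurable (xiN (V := V) g l) := measurable_xiN g hg.hm l
  have hFm : Measurable (fun y => (Φ y - Ψ y) ^ 2) := (hΦm.sub hΨm).pow_const 2
  have hfm : Measurable (fun y => ENNReal.ofReal ((Φ y - Ψ y) ^ 2)) :=
    ENNReal.measurable_ofReal.comp hFm
  -- the four integrands
  have hI₁ := Finset.measurable_sum (s := ball G r n) (f := fun v U =>
    laQ G β (ball G r n) (ball G r n) (dlt l) k v (xiN g l U))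
    (fun v _ => (laQ_meas _ _ _ _ v).comp hΞm)
  have hI₃ := Finset.measurable_sum (s := R₀) (f := fun v U =>
    laQ G β (ball G r n) (ball G v (P.n j')) (dlt l) k v (xiN g l U))
    (fun v _ => (laQ_meas _ _ _ _ v).comp hΞm)
  have hQ₂m : Measurable (fun ξ : ℕ → V → ℝ =>
      chainFrom G β (ball G r n) (dlt l) 0 ξ k (fun y => ENNReal.ofReal ((Φ y - Ψ y) ^ 2)) 0) :=
    measurable_chain_at _ _ 0 k (fun _ => fun y => ENNReal.ofReal ((Φ y - Ψ y) ^ 2))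
      (hfm.comp measurable_snd) 0
  have hI₂ := hQ₂m.comp hΞm
  have hf₄m : ∀ v, Measurable (fun U => ENNReal.ofReal
      ((flow G β (ball G v (P.n j')) (dlt l) (xiN g l U) 0 k 0 v - Yf g G β P (dy l k) v U) ^ 2)) :=
    fun v => ENNReal.measurable_ofReal.comp (Measurable.pow_const (Measurable.sub
      ((measurable_flow_noise _ _ k v).comp hΞm) (measurable_Yf hg P _ v)) 2)
  have hI₄ := Finset.measurable_sum (s := R₀) (f := fun v U => ENNReal.ofReal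
      ((flow G β (ball G v (P.n j')) (dlt l) (xiN g l U) 0 k 0 v - Yf g G β P (dy l k) v U) ^ 2))
    (fun v _ => hf₄m v)
  -- the constants
  have hE₁0 : 0 ≤ 3 * dy l k * cS (ball G r n).card (dy l k) (convC d P.κ P.ρ) * dlt l := by
    have h1 := cS_nonneg (C := convC d P.κ P.ρ) (Nat.cast_nonneg (ball G r n).card : (0 : ℝ) ≤ (ball G r n).card) hT0
    have h2 := (dlt_pos l).le
    positivity
  have hE₃0 : 0 ≤ 100 * (1 + dy l k) ^ 2 * (1 / 2 : ℝ) ^ j' := by positivity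
  have hε₁0 : 0 ≤ ε₁ := (laEP_nonneg fun _ => sq_nonneg _).trans hε₁
  -- the pointwise bound
  have hX : ∀ U, ENNReal.ofReal ((Φ (fl g G β (ball G r n) l k U) - Ψ (Yc g G β P (dy l k) U)) ^ 2) ≤
      ENNReal.ofReal (4 * (LΦ ^ 2 * ((ball G r n).card : ℝ))) *
        (∑ v ∈ ball G r n, laQ G β (ball G r n) (ball G r n) (dlt l) k v (xiN g l U)) +
      ENNReal.ofReal 4 * chainFrom G β (ball G r n) (dlt l) 0 (xiN g l U) k
        (fun y => ENNReal.ofReal ((Φ y - Ψ y) ^ 2)) 0 +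
      ENNReal.ofReal (4 * (LΨ ^ 2 * (R₀.card : ℝ))) *
        (∑ v ∈ R₀, laQ G β (ball G r n) (ball G v (P.n j')) (dlt l) k v (xiN g l U)) +
      ENNReal.ofReal (4 * (LΨ ^ 2 * (R₀.card : ℝ))) *
        (∑ v ∈ R₀, ENNReal.ofReal
          ((flow G β (ball G v (P.n j')) (dlt l) (xiN g l U) 0 k 0 v - Yf g G β P (dy l k) v U) ^ 2)) := by
    intro U
    refine laChain (ball G r n) (dlt l) k (xiN g l U) (fun v => ball G v (P.n j')) R₀ _ _ _ _ _ _ fun y => ?_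
    have hp := laPoint (a := fl g G β (ball G r n) l k U)
      (b := fun v => flow G β (ball G v (P.n j')) (dlt l) (xiN g l U) 0 k 0 v)
      (h := Yc g G β P (dy l k) U) (y := y) hΦL hΨL
    refine (ENNReal.ofReal_le_ofReal hp).trans_eq ?_
    rw [laOfReal (by positivity) (Finset.sum_nonneg fun _ _ => sq_nonneg _) (sq_nonneg _) (by positivity)
      (Finset.sum_nonneg fun _ _ => sq_nonneg _) (Finset.sum_nonneg fun _ _ => sq_nonneg _),
      ENNReal.ofReal_sum_of_nonneg (fun _ _ => sq_nonneg _),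
      ENNReal.ofReal_sum_of_nonneg (fun _ _ => sq_nonneg _),
      ENNReal.ofReal_sum_of_nonneg (fun _ _ => sq_nonneg _)]
    rfl
  -- the integrals
  have hJ₁ := laSumBound (iidUniform V) (ball G r n) (I := fun v U =>
    laQ G β (ball G r n) (ball G r n) (dlt l) k v (xiN g l U))
    (fun v => (laQ_meas _ _ _ _ v).comp hΞm)
    (fun v hv => laQ1_bound hg hT hd hreg hβ P hv hk)
  have hJ₃ := laSumBound (iidUniform V) R₀ (I := fun v U =>
    laQ G β (ball G r n) (ball G v (P.n j')) (dlt l) k v (xiN g l U))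
    (fun v => (laQ_meas _ _ _ _ v).comp hΞm)
    (fun v hv => laQ3_bound hg hT hd hreg hβ P (hR₀ v hv) hk hl hu)
  have hJ₄ := laSumBound (iidUniform V) R₀ (I := fun v U => ENNReal.ofReal
      ((flow G β (ball G v (P.n j')) (dlt l) (xiN g l U) 0 k 0 v - Yf g G β P (dy l k) v U) ^ 2))
    hf₄m (fun v _ => laF4_bound hg hT hd hreg hβ P v hl hu)
  have hJ₂ : ∫⁻ U, chainFrom G β (ball G r n) (dlt l) 0 (xiN g l U) k
      (fun y => ENNReal.ofReal ((Φ y - Ψ y) ^ 2)) 0 ∂iidUniform V ≤ ENNReal.ofReal ε₁ := by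
    rw [lintegral_xiN g hg.hm hg.hlaw l _ hQ₂m, lintegral_chain_planted _ (dlt_pos l).le k _ hfm]
    refine le_of_eq_of_le (planted_ofReal hFm (fun _ => sq_nonneg _) (C := (2 * C) ^ 2) fun y => ?_)
      (ENNReal.ofReal_le_ofReal hε₁)
    have h1 : |Φ y - Ψ y| ≤ 2 * C := by
      have := abs_sub (Φ y) (Ψ y)
      linarith [hΦb y, hΨb y]
    rw [← sq_abs]
    exact pow_le_pow_left₀ (abs_nonneg _) h1 2
  have hfin := laAssemble (iidUniform V) hI₁ hI₂ hI₃ hI₄ (by positivity) (by positivity) hX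
    (by positivity) hε₁0 (by positivity) (by positivity) hJ₁ hJ₂ hJ₃ hJ₄
  have hYc : Measurable (Yc g G β P (dy l k)) := measurable_pi_iff.2 fun v => measurable_Yf hg P _ v
  have hfl : Measurable (fl g G β (ball G r n) l k) :=
    measurable_pi_iff.2 fun v => (measurable_flow_noise _ _ k v).comp hΞm
  have hmeas : AEStronglyMeasurable
      (fun U => (Φ (fl g G β (ball G r n) l k U) - Ψ (Yc g G β P (dy l k) U)) ^ 2) (iidUniform V) :=
    (Measurable.pow_const ((hΦm.comp hfl).sub (hΨm.comp hYc)) 2).aestronglyMeasurable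
  rw [integral_eq_lintegral_of_nonneg_ae (Filter.Eventually.of_forall fun _ => sq_nonneg _) hmeas]
  have hRHS0 : 0 ≤ 4 * (LΦ ^ 2 * ((ball G r n).card : ℝ) ^ 2 *
            (3 * dy l k * cS (ball G r n).card (dy l k) (convC d P.κ P.ρ) * dlt l) + ε₁ +
          LΨ ^ 2 * (R₀.card : ℝ) ^ 2 * (200 * (1 + dy l k) ^ 2 * (1 / 2) ^ j')) := by
    positivity
  refine ENNReal.toReal_le_of_le_ofReal hRHS0 (hfin.trans_eq ?_)
  congr 1
  ring

end

end Vale.Agent.Lib.P161E
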