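import Vale.Agent.Lib.P161E.LA

/-! Jobs E5b, E5c: closeness of mean and covariance fields. -/

open MeasureTheory Finset Filter Topology
open scoped Classical ENNReal

noncomputable section

namespace Vale.Agent.Lib.P161E

open Vale.Agent.Lib.P161

variable {V : Type*} {G : SimpleGraph V} [G.LocallyFinite] {β : ℝ} {d : ℕ}
  {g : ℕ → ℕ → unitInterval → ℝ}

/-- The function of the path formula. -/
def lbF (θ : ℝ) (D : ℕ) (a : ℝ) (x : ℕ → ℝ) : ℝ := (1 - a ^ 2) * ∏ i ∈ range D, (θ * gm θ (x i))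

theorem lbCf_eq (θ : ℝ) (m : V → ℝ) (ξ : V → V → ℝ) (r v : V) :
    Cf G θ m ξ r v = lbF θ (G.dist r v) (m r) (fun i => ξ (geo G r v (i + 1)) (geo G r v i)) := rfl

theorem lbMeasurable_gm (θ : ℝ) : Measurable (gm θ) := by
  unfold gm
  exact (measurable_const.sub (measurable_id.pow_const 2)).div
    (measurable_const.sub (measurable_const.mul (measurable_id.pow_const 2)))

theorem lbProd_abs_sub (D : ℕ) (f h : ℕ → ℝ) (hf0 : ∀ i, 0 ≤ f i) (hf1 : ∀ i, f i ≤ 1)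
    (hh0 : ∀ i, 0 ≤ h i) (hh1 : ∀ i, h i ≤ 1) :
    |∏ i ∈ range D, f i - ∏ i ∈ range D, h i| ≤ ∑ i ∈ range D, |f i - h i| := by
  induction D with
  | zero => simp
  | succ D ih =>
    rw [prod_range_succ, prod_range_succ, sum_range_succ]
    have hp0 : 0 ≤ ∏ i ∈ range D, h i := prod_nonneg fun i _ => hh0 i
    have hp1 : ∏ i ∈ range D, h i ≤ 1 := prod_le_one (fun i _ => hh0 i) fun i _ => hh1 i
    have e : (∏ i ∈ range D, f i) * f D - (∏ i ∈ range D, h i) * h D =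
        (∏ i ∈ range D, f i - ∏ i ∈ range D, h i) * f D + (∏ i ∈ range D, h i) * (f D - h D) := by
      ring
    rw [e]
    have h1 : |(∏ i ∈ range D, f i - ∏ i ∈ range D, h i) * f D| ≤ ∑ i ∈ range D, |f i - h i| := by
      rw [abs_mul, abs_of_nonneg (hf0 D)]
      have := mul_le_mul_of_nonneg_left (hf1 D) (abs_nonneg (∏ i ∈ range D, f i - ∏ i ∈ range D, h i))
      linarith
    have h2 : |(∏ i ∈ range D, h i) * (f D - h D)| ≤ |f D - h D| := by
      rw [abs_mul, abs_of_nonneg hp0]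
      have := mul_le_mul_of_nonneg_right hp1 (abs_nonneg (f D - h D))
      linarith
    exact (abs_add_le _ _).trans (add_le_add h1 h2)

section F

variable {θ : ℝ} {D : ℕ} {a a' : ℝ} {x x' : ℕ → ℝ}

theorem lbF_abs_le_one (h0 : 0 ≤ θ) (h1 : θ < 1) (ha : |a| ≤ 1) (hx : ∀ i, |x i| ≤ 1) :
    |lbF θ D a x| ≤ 1 := by
  unfold lbF
  have ha2 : a ^ 2 ≤ 1 := by
    rw [← sq_abs]; exact pow_le_one₀ (abs_nonneg _) ha
  have hp0 : 0 ≤ ∏ i ∈ range D, (θ * gm θ (x i)) :=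
    prod_nonneg fun i _ => mul_nonneg h0 (gm_nonneg h0 h1 (hx i))
  have hp1 : ∏ i ∈ range D, (θ * gm θ (x i)) ≤ 1 :=
    prod_le_one (fun i _ => mul_nonneg h0 (gm_nonneg h0 h1 (hx i))) fun i _ =>
      mul_le_one₀ h1.le (gm_nonneg h0 h1 (hx i)) (gm_le_one h0 h1 (hx i))
  rw [abs_of_nonneg (mul_nonneg (by linarith) hp0)]
  nlinarith [sq_nonneg a]

theorem lbF_abs_sub (h0 : 0 ≤ θ) (h1 : θ < 1) (ha : |a| ≤ 1) (ha' : |a'| ≤ 1)
    (hx : ∀ i, |x i| ≤ 1) (hx' : ∀ i, |x' i| ≤ 1) :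
    |lbF θ D a x - lbF θ D a' x'| ≤
      2 / (1 - θ ^ 2) * (|a - a'| + ∑ i ∈ range D, |x i - x' i|) := by
  unfold lbF
  have hθ2 : 0 < 1 - θ ^ 2 := by nlinarith
  have hθ21 : 1 - θ ^ 2 ≤ 1 := by nlinarith [sq_nonneg θ]
  set A := 2 / (1 - θ ^ 2) with hA
  have hA2 : 2 ≤ A := by
    rw [hA, le_div_iff₀ hθ2]
    linarith
  set p := ∏ i ∈ range D, (θ * gm θ (x i)) with hp
  set p' := ∏ i ∈ range D, (θ * gm θ (x' i)) with hp'
  have hf0 : ∀ (w : ℕ → ℝ), (∀ i, |w i| ≤ 1) → ∀ i, 0 ≤ θ * gm θ (w i) := fun w hw i =>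
    mul_nonneg h0 (gm_nonneg h0 h1 (hw i))
  have hf1 : ∀ (w : ℕ → ℝ), (∀ i, |w i| ≤ 1) → ∀ i, θ * gm θ (w i) ≤ 1 := fun w hw i =>
    mul_le_one₀ h1.le (gm_nonneg h0 h1 (hw i)) (gm_le_one h0 h1 (hw i))
  have hpp : |p - p'| ≤ ∑ i ∈ range D, |θ * gm θ (x i) - θ * gm θ (x' i)| :=
    lbProd_abs_sub D _ _ (hf0 x hx) (hf1 x hx) (hf0 x' hx') (hf1 x' hx')
  have hterm : ∀ i, |θ * gm θ (x i) - θ * gm θ (x' i)| ≤ A * |x i - x' i| := by
    intro i
    rw [← mul_sub, abs_mul, abs_of_nonneg h0]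
    have hl := gm_lip h0 h1 (hx i) (hx' i)
    have hs : |x i| + |x' i| ≤ 2 := by linarith [hx i, hx' i]
    have h2 : (|x i| + |x' i|) * |x i - x' i| / (1 - θ ^ 2) ≤ A * |x i - x' i| := by
      rw [hA, div_mul_eq_mul_div]
      gcongr
    calc θ * |gm θ (x i) - gm θ (x' i)| ≤ 1 * |gm θ (x i) - gm θ (x' i)| :=
          mul_le_mul_of_nonneg_right h1.le (abs_nonneg _)
      _ ≤ _ := by rw [one_mul]; exact hl.trans h2
  have hpp2 : |p - p'| ≤ A * ∑ i ∈ range D, |x i - x' i| := by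
    refine hpp.trans ?_
    rw [mul_sum]
    exact sum_le_sum fun i _ => hterm i
  have hp'0 : 0 ≤ p' := prod_nonneg fun i _ => hf0 x' hx' i
  have hp'1 : p' ≤ 1 := prod_le_one (fun i _ => hf0 x' hx' i) fun i _ => hf1 x' hx' i
  have ha2 : a ^ 2 ≤ 1 := by
    rw [← sq_abs]; exact pow_le_one₀ (abs_nonneg _) ha
  have e : (1 - a ^ 2) * p - (1 - a' ^ 2) * p' = (1 - a ^ 2) * (p - p') + p' * ((a' - a) * (a' + a)) := by
    ring
  rw [e]
  have h3 : |(1 - a ^ 2) * (p - p')| ≤ |p - p'| := by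
    rw [abs_mul, abs_of_nonneg (by linarith)]
    have := mul_le_mul_of_nonneg_right (by nlinarith [sq_nonneg a] : 1 - a ^ 2 ≤ 1) (abs_nonneg (p - p'))
    linarith
  have h4 : |p' * ((a' - a) * (a' + a))| ≤ 2 * |a - a'| := by
    rw [abs_mul, abs_mul, abs_of_nonneg hp'0, abs_sub_comm a' a]
    have h5 : |a' + a| ≤ 2 := (abs_add_le _ _).trans (by linarith)
    have h6 : |a - a'| * |a' + a| ≤ |a - a'| * 2 := mul_le_mul_of_nonneg_left h5 (abs_nonneg _)
    have h7 : p' * (|a - a'| * |a' + a|) ≤ 1 * (|a - a'| * |a' + a|) :=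
      mul_le_mul_of_nonneg_right hp'1 (by positivity)
    linarith
  have h8 : 2 * |a - a'| ≤ A * |a - a'| := mul_le_mul_of_nonneg_right hA2 (abs_nonneg _)
  calc _ ≤ |(1 - a ^ 2) * (p - p')| + |p' * ((a' - a) * (a' + a))| := abs_add_le _ _
    _ ≤ A * ∑ i ∈ range D, |x i - x' i| + A * |a - a'| := by linarith
    _ = _ := by ring

theorem lbF_sq_sub (h0 : 0 ≤ θ) (h1 : θ < 1) (ha : |a| ≤ 1) (ha' : |a'| ≤ 1)
    (hx : ∀ i, |x i| ≤ 1) (hx' : ∀ i, |x' i| ≤ 1) :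
    (lbF θ D a x - lbF θ D a' x') ^ 2 ≤
      (2 / (1 - θ ^ 2)) ^ 2 * (2 * (D + 1)) * ((a - a') ^ 2 + ∑ i ∈ range D, (x i - x' i) ^ 2) := by
  have hθ2 : 0 < 1 - θ ^ 2 := by nlinarith
  set A := 2 / (1 - θ ^ 2) with hA
  have hA0 : 0 ≤ A := by positivity
  have h2 := lbF_abs_sub (D := D) h0 h1 ha ha' hx hx'
  have h3 : (lbF θ D a x - lbF θ D a' x') ^ 2 ≤
      (A * (|a - a'| + ∑ i ∈ range D, |x i - x' i|)) ^ 2 := by
    rw [← sq_abs (lbF θ D a x - lbF θ D a' x')]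
    exact pow_le_pow_left₀ (abs_nonneg _) h2 2
  have h4 : (∑ i ∈ range D, |x i - x' i|) ^ 2 ≤ (D : ℝ) * ∑ i ∈ range D, |x i - x' i| ^ 2 := by
    have := sq_sum_le_card_mul_sum_sq (s := range D) (f := fun i => |x i - x' i|)
    simpa using this
  simp only [sq_abs] at h4
  set s := ∑ i ∈ range D, |x i - x' i| with hs
  set q := ∑ i ∈ range D, (x i - x' i) ^ 2 with hq
  have hq0 : 0 ≤ q := sum_nonneg fun _ _ => sq_nonneg _
  have h5 : (|a - a'| + s) ^ 2 ≤ 2 * (D + 1) * ((a - a') ^ 2 + q) := by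
    have h6 : (|a - a'| + s) ^ 2 ≤ 2 * |a - a'| ^ 2 + 2 * s ^ 2 := by
      nlinarith [sq_nonneg (|a - a'| - s)]
    rw [sq_abs] at h6
    have hD0 : (0 : ℝ) ≤ D := Nat.cast_nonneg _
    nlinarith [sq_nonneg (a - a'), mul_nonneg hD0 (sq_nonneg (a - a')), mul_nonneg hD0 hq0]
  calc _ ≤ (A * (|a - a'| + s)) ^ 2 := h3
    _ = A ^ 2 * (|a - a'| + s) ^ 2 := by ring
    _ ≤ A ^ 2 * (2 * (D + 1) * ((a - a') ^ 2 + q)) := mul_le_mul_of_nonneg_left h5 (sq_nonneg _)
    _ = _ := by ring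

end F

theorem lbEP_sum {S : Finset V} {t : ℝ} {y₀ : V → ℝ} (s : Finset ℕ) (H : ℕ → (V → ℝ) → ℝ)
    (hm : ∀ i, Measurable (H i)) {C : ℝ} (hb : ∀ i y, |H i y| ≤ C) :
    EP G β S t y₀ (fun y => ∑ i ∈ s, H i y) = ∑ i ∈ s, EP G β S t y₀ (H i) := by
  induction s using Finset.induction_on with
  | empty =>
    simp only [sum_empty]
    exact EP_const S t y₀ 0
  | insert a s ha ih =>
    simp only [sum_insert ha]
    rw [← ih]
    have hC0 : 0 ≤ C := (abs_nonneg _).trans (hb 0 0)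
    have hbs : ∀ y, |∑ i ∈ s, H i y| ≤ (s.card : ℝ) * C := fun y => by
      refine (abs_sum_le_sum_abs _ _).trans ?_
      calc ∑ i ∈ s, |H i y| ≤ ∑ _i ∈ s, C := sum_le_sum fun i _ => hb i y
        _ = _ := by simp
    have hs0 : 0 ≤ (s.card : ℝ) * C := by positivity
    refine EP_add (hm a) (Finset.measurable_sum _ fun i _ => hm i) (C := C + (s.card : ℝ) * C)
      (fun y => ?_) (fun y => ?_)
    · linarith [hb a y]
    · linarith [hbs y]

theorem lbIntegrable_sq_sub {X Y : (V → unitInterval) → ℝ} (hX : Measurable X) (hY : Measurable Y)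
    {C : ℝ} (hXb : ∀ U, |X U| ≤ C) (hYb : ∀ U, |Y U| ≤ C) :
    Integrable (fun U => (X U - Y U) ^ 2) (iidUniform V) := by
  refine Integrable.of_bound (Measurable.pow_const (hX.sub hY) 2).aestronglyMeasurable ((2 * C) ^ 2)
    (Filter.Eventually.of_forall fun U => ?_)
  rw [Real.norm_eq_abs, abs_of_nonneg (sq_nonneg _)]
  have h1 : |X U - Y U| ≤ 2 * C := by
    have := abs_sub (X U) (Y U)
    linarith [hXb U, hYb U]
  rw [← sq_abs]
  exact pow_le_pow_left₀ (abs_nonneg _) h1 2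

theorem lbCombine {X Y Z : (V → unitInterval) → ℝ} (hX : Measurable X) (hY : Measurable Y)
    (hZ : Measurable Z) {C : ℝ} (hXb : ∀ U, |X U| ≤ C) (hYb : ∀ U, |Y U| ≤ C)
    (hZb : ∀ U, |Z U| ≤ C) :
    ∫ U, (X U - Z U) ^ 2 ∂iidUniform V ≤
      2 * ∫ U, (X U - Y U) ^ 2 ∂iidUniform V + 2 * ∫ U, (Y U - Z U) ^ 2 ∂iidUniform V := by
  have h1 := lbIntegrable_sq_sub hX hY hXb hYb
  have h2 := lbIntegrable_sq_sub hY hZ hYb hZb
  have h3 := lbIntegrable_sq_sub hX hZ hXb hZb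
  rw [← integral_const_mul, ← integral_const_mul, ← integral_add (h1.const_mul 2) (h2.const_mul 2)]
  refine integral_mono h3 ((h1.const_mul 2).add (h2.const_mul 2)) fun U => ?_
  simp only
  nlinarith [sq_nonneg ((X U - Y U) - (Y U - Z U))]

section

variable (hg : DN g) (hT : G.IsTree) (hd : 2 ≤ d) (hreg : G.IsRegularOfDegree d) (hβ : 0 ≤ β)
  (P : Par d β)

include hg hT hd hreg hβ

/-- The abstract form of the closeness of the fields. -/
theorem lb_close_abstract (r : V) {T : ℝ} (hT1 : 1 ≤ T) {ε : ℝ} (hε : 0 < ε) {R₀ : Finset V}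
    {N₀ n₁ : ℕ} (hR₀ : ∀ v ∈ R₀, G.dist r v ≤ N₀) {Ψ : (V → ℝ) → ℝ}
    {M : ℕ → ℕ → (V → unitInterval) → ℝ} {Φ : ℕ → (V → ℝ) → ℝ} {C LΦ LΨ ε₁ : ℝ}
    (hΨm : Measurable Ψ) (hΨb : ∀ y, |Ψ y| ≤ C)
    (hΨL : ∀ y y', |Ψ y - Ψ y'| ≤ LΨ * ∑ v ∈ R₀, |y v - y' v|)
    (hMm : ∀ l k, Measurable (M l k)) (hMb : ∀ l k U, |M l k U| ≤ C)
    (hΦm : ∀ j, Measurable (Φ j)) (hΦb : ∀ j y, |Φ j y| ≤ C)
    (hΦL : ∀ j y y', |Φ j y - Φ j y'| ≤ LΦ * ∑ v ∈ ball G r (P.n j), |y v - y' v|)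
    (hε₁ : ε₁ ≤ ε / 32)
    (hE : ∀ j, n₁ ≤ P.n j → ∀ t : ℝ, 0 ≤ t →
      EP G β (ball G r (P.n j)) t 0 (fun y => (Φ j y - Ψ y) ^ 2) ≤ ε₁)
    (hL : ∀ l k, ∫ U, (Ψ (Yc g G β P (dy l k) U) - M l k U) ^ 2 ∂iidUniform V ≤ ε₁) :
    ∃ j₀ : ℕ, ∀ j, j₀ ≤ j → ∃ l₀ : ℕ, ∀ l, l₀ ≤ l → ∀ k, 1 ≤ k → dy l k ≤ T →
      ∫ U, (Φ j (fl g G β (ball G r (P.n j)) l k U) - M l k U) ^ 2 ∂iidUniform V ≤ ε := by
  have hT0 : 0 < T := by linarith
  have hCC : 0 ≤ convC d P.κ P.ρ := (laConvC_pos P hd).le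
  -- the time scale
  obtain ⟨j₁, hj₁⟩ := pow_unbounded_of_one_lt T (by norm_num : (1 : ℝ) < 2)
  obtain ⟨j₂, hj₂⟩ := exists_mul_pow_le
    (4 * (LΨ ^ 2 * (R₀.card : ℝ) ^ 2 * (200 * (1 + T) ^ 2))) (x := 1 / 2) (by norm_num) (by norm_num)
    (by positivity : (0 : ℝ) < ε / 8)
  set j' := max j₁ j₂ with hj'
  have hTj' : T ≤ 2 ^ j' :=
    hj₁.le.trans (pow_le_pow_right₀ (by norm_num) (le_max_left _ _))
  have hj'b := hj₂ j' (le_max_right _ _)
  -- the radius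
  have htend := P.n_tendsto hd
  obtain ⟨j₀, hj₀⟩ := Filter.eventually_atTop.1 (htend.eventually (eventually_ge_atTop (N₀ + P.n j' + n₁)))
  refine ⟨j₀, fun j hj => ?_⟩
  have hnj := hj₀ j hj
  set S := ball G r (P.n j) with hS
  set cc := cS (S.card : ℝ) T (convC d P.κ P.ρ) with hcc
  have hcc0 : 0 ≤ cc := cS_nonneg (Nat.cast_nonneg _) hT0.le
  obtain ⟨l₁, hl₁⟩ := exists_mul_pow_le
    (4 * (LΦ ^ 2 * (S.card : ℝ) ^ 2 * (3 * T * cc))) (x := 1 / 2) (by norm_num) (by norm_num)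
    (by positivity : (0 : ℝ) < ε / 8)
  refine ⟨max l₁ (P.l j'), fun l hl k hk hu => ?_⟩
  have hl1 : l₁ ≤ l := (le_max_left _ _).trans hl
  have hl2 : P.l j' ≤ l := (le_max_right _ _).trans hl
  set t := dy l k with ht
  have ht0 : 0 ≤ t := by
    rw [ht]
    exact mul_nonneg (Nat.cast_nonneg _) (dlt_pos l).le
  have hR₀' : ∀ v ∈ R₀, ball G v (P.n j') ⊆ S := by
    intro v hv u hu'
    rw [hS, mem_ball hT]
    rw [mem_ball hT] at hu'
    have h1 := hT.1.dist_triangle (u := r) (v := v) (w := u)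
    have h2 := hR₀ v hv
    omega
  have hε₁E := hE j (by omega) t ht0
  have hfc := functional_close hg hT hd hreg hβ P (r := r) (n := P.n j) (j' := j') (l := l) (k := k)
    (R₀ := R₀) (Φ := Φ j) (Ψ := Ψ) (hΦm j) hΨm (C := C) (LΦ := LΦ) (LΨ := LΨ) (ε₁ := ε₁)
    (hΦb j) hΨb (hΦL j) hΨL hR₀' hk hl2 (hu.trans hTj') hε₁E
  have hY : Measurable (Yc g G β P t) := measurable_pi_iff.2 fun v => measurable_Yf hg P t v
  have hflm : Measurable (fl g G β S l k) :=
    measurable_pi_iff.2 fun v =>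
      (measurable_flow_noise S (dlt l) k v).comp (measurable_xiN g hg.hm l)
  have hcomb := lbCombine (X := fun U => Φ j (fl g G β S l k U))
    (Y := fun U => Ψ (Yc g G β P t U)) (Z := M l k) ((hΦm j).comp hflm) (hΨm.comp hY) (hMm l k)
    (C := C) (fun U => hΦb j _) (fun U => hΨb _) (fun U => hMb l k U)
  have hLL := hL l k
  -- the constants
  have hct : cS (S.card : ℝ) t (convC d P.κ P.ρ) ≤ cc :=
    laCS_mono_T (Nat.cast_nonneg _) ht0 hu hCC
  have hct0 : 0 ≤ cS (S.card : ℝ) t (convC d P.κ P.ρ) := cS_nonneg (Nat.cast_nonneg _) ht0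
  have hdl : dlt l = (1 / 2) ^ l := rfl
  have hb1 : 4 * (LΦ ^ 2 * (S.card : ℝ) ^ 2 *
      (3 * t * cS (S.card : ℝ) t (convC d P.κ P.ρ) * dlt l)) ≤ ε / 8 := by
    refine le_trans ?_ (hl₁ l hl1)
    rw [hdl]
    have h3 : 3 * t * cS (S.card : ℝ) t (convC d P.κ P.ρ) ≤ 3 * T * cc :=
      mul_le_mul (by linarith) hct hct0 (by positivity)
    have h4 : (0 : ℝ) ≤ (1 / 2) ^ l := by positivity
    have h5 := mul_le_mul_of_nonneg_right h3 h4
    have h6 : (0 : ℝ) ≤ 4 * (LΦ ^ 2 * (S.card : ℝ) ^ 2) := by positivity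
    calc _ = 4 * (LΦ ^ 2 * (S.card : ℝ) ^ 2) * (3 * t * cS (S.card : ℝ) t (convC d P.κ P.ρ) * (1 / 2) ^ l) := by
          ring
      _ ≤ 4 * (LΦ ^ 2 * (S.card : ℝ) ^ 2) * (3 * T * cc * (1 / 2) ^ l) :=
          mul_le_mul_of_nonneg_left h5 h6
      _ = _ := by ring
  have hb2 : 4 * (LΨ ^ 2 * (R₀.card : ℝ) ^ 2 * (200 * (1 + t) ^ 2 * (1 / 2) ^ j')) ≤ ε / 8 := by
    refine le_trans ?_ hj'b
    have h3 : (1 + t) ^ 2 ≤ (1 + T) ^ 2 := pow_le_pow_left₀ (by linarith) (by linarith) 2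
    have h4 : (0 : ℝ) ≤ (1 / 2) ^ j' := by positivity
    have h6 : (0 : ℝ) ≤ 4 * (LΨ ^ 2 * (R₀.card : ℝ) ^ 2) * 200 * (1 / 2) ^ j' := by positivity
    have h7 := mul_le_mul_of_nonneg_left h3 h6
    calc _ = 4 * (LΨ ^ 2 * (R₀.card : ℝ) ^ 2) * 200 * (1 / 2) ^ j' * (1 + t) ^ 2 := by ring
      _ ≤ 4 * (LΨ ^ 2 * (R₀.card : ℝ) ^ 2) * 200 * (1 / 2) ^ j' * (1 + T) ^ 2 := h7
      _ = _ := by ring
  have hmain : ∫ U, (Φ j (fl g G β S l k U) - Ψ (Yc g G β P t U)) ^ 2 ∂iidUniform V ≤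
      ε / 8 + 4 * ε₁ + ε / 8 := by
    refine hfc.trans ?_
    linarith
  refine hcomb.trans ?_
  linarith

/-- E5b. The mean field. -/
theorem close_mean (r : V) {T : ℝ} (hT1 : 1 ≤ T) {ε : ℝ} (hε : 0 < ε) :
    ∃ j₀ : ℕ, ∀ j, j₀ ≤ j → ∃ l₀ : ℕ, ∀ l, l₀ ≤ l → ∀ k, 1 ≤ k → dy l k ≤ T →
      ∫ U, (mean G β (ball G r (P.n j)) (fl g G β (ball G r (P.n j)) l k U) r -
        MuL g G β P (dy l k) U r) ^ 2 ∂iidUniform V ≤ ε := by
  have hρ0 : 0 < P.ρ := P.hκ.trans P.hκρ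
  have hCC : 0 ≤ convC d P.κ P.ρ := (laConvC_pos P hd).le
  have hd1 : (0 : ℝ) ≤ (d : ℝ) - 1 := by
    have : (2 : ℝ) ≤ d := by exact_mod_cast hd
    linarith
  have hK0 : 0 ≤ Kst d β P := by
    unfold Kst
    positivity
  have hR0 : 0 ≤ rst d β P := by
    unfold rst
    positivity
  have hR1 : rst d β P < 1 := P.hρ2
  obtain ⟨N₁, hN₁⟩ := exists_mul_pow_le (Kst d β P) hR0 hR1 (by positivity : (0 : ℝ) < ε / 32)
  set N := N₁ + 1 with hN
  have hNb := hN₁ N (by omega)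
  obtain ⟨y₀, hy₀⟩ : ∃ y₀, G.Adj r y₀ := by
    have h1 : 0 < G.degree r := by
      rw [hreg r]
      omega
    exact (G.degree_pos_iff_exists_adj r).1 h1
  have hlip : ∀ (S : Finset V) (y y' : V → ℝ),
      |mean G β S y r - mean G β S y' r| ≤ 2 * ∑ v ∈ S, |y v - y' v| := fun S y y' => by
    have := mean_lip' (G := G) (β := β) S y' y r
    simpa [l1] using this
  refine lb_close_abstract hg hT hd hreg hβ P r hT1 hε (R₀ := ball G r N) (N₀ := N) (n₁ := N)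
    (Ψ := fun y => mean G β (ball G r N) y r)
    (M := fun l k U => MuL g G β P (dy l k) U r)
    (Φ := fun j y => mean G β (ball G r (P.n j)) y r) (C := 1) (LΦ := 2) (LΨ := 2)
    (ε₁ := Kst d β P * rst d β P ^ N) ?_ (measurable_mean _ _) (fun y => abs_mean_le _ _ _ _ _)
    (fun y y' => hlip _ y y') (fun l k => measurable_MuL P _ hg r) (fun l k U => abs_MuL_le P _ U r)
    (fun j => measurable_mean _ _) (fun j y => abs_mean_le _ _ _ _ _) (fun j y y' => hlip _ y y')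
    hNb ?_ ?_
  · intro v hv
    rwa [mem_ball hT] at hv
  · intro j hj t ht
    have hr : r ∈ ball G r (P.n j) := by rw [mem_ball hT]; simp
    have hsub : ball G r N ⊆ ball G r (P.n j) := by
      intro u hu
      rw [mem_ball hT] at hu ⊢
      omega
    exact (mean_static hT hd hreg hβ P hy₀ (by omega) hsub (star_ball hT hr) ht).1
  · intro l k
    exact MuL_close hT hd hreg hβ P hg r N

/-- E5c. The covariance field. Use `cov_path` on the ball, and on the big side `xiS_static`. -/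
theorem close_cov (r v : V) {T : ℝ} (hT1 : 1 ≤ T) {ε : ℝ} (hε : 0 < ε) :
    ∃ j₀ : ℕ, ∀ j, j₀ ≤ j → ∃ l₀ : ℕ, ∀ l, l₀ ≤ l → ∀ k, 1 ≤ k → dy l k ≤ T →
      ∫ U, (cov G β (ball G r (P.n j)) (fl g G β (ball G r (P.n j)) l k U) r v -
        Cf G (Real.tanh β) (MuL g G β P (dy l k) U) (XiL g G β P (dy l k) U) r v) ^ 2 ∂iidUniform V ≤ ε := by
  have hρ0 : 0 < P.ρ := P.hκ.trans P.hκρ
  have hCC : 0 ≤ convC d P.κ P.ρ := (laConvC_pos P hd).le
  have hd1 : (0 : ℝ) ≤ (d : ℝ) - 1 := by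
    have : (2 : ℝ) ≤ d := by exact_mod_cast hd
    linarith
  have hK0 : 0 ≤ Kst d β P := by
    unfold Kst
    positivity
  have hR0 : 0 ≤ rst d β P := by
    unfold rst
    positivity
  have hR1 : rst d β P < 1 := P.hρ2
  set θ := Real.tanh β with hθ
  have hθ0 : 0 ≤ θ := by
    rw [hθ, Real.tanh_eq_sinh_div_cosh]
    exact div_nonneg (Real.sinh_nonneg_iff.mpr hβ) (Real.cosh_pos β).le
  have hθ1 : θ < 1 := Real.tanh_lt_one β
  have hθ2 : 0 < 1 - θ ^ 2 := by nlinarith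
  set D := G.dist r v with hD
  set p := geo G r v with hp
  set AA : ℝ := (2 / (1 - θ ^ 2)) ^ 2 * (2 * (D + 1)) with hAA
  have hAA0 : 0 ≤ AA := by positivity
  have hDD : (0 : ℝ) ≤ (D : ℝ) + 1 := by positivity
  have hpos : 0 < ε / 32 / (AA * ((D : ℝ) + 1) + 1) := by positivity
  obtain ⟨N₁, hN₁⟩ := exists_mul_pow_le (Kst d β P) hR0 hR1 hpos
  set N := N₁ + 1 with hN
  set KR := Kst d β P * rst d β P ^ N with hKR
  have hKR0 : 0 ≤ KR := by positivity
  have hNb : KR ≤ ε / 32 / (AA * ((D : ℝ) + 1) + 1) := hN₁ N (by omega)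
  set ε₁ := AA * ((D : ℝ) + 1) * KR with hε₁
  have hε₁b : ε₁ ≤ ε / 32 := by
    have h1 : 0 < AA * ((D : ℝ) + 1) + 1 := by positivity
    rw [le_div_iff₀ h1] at hNb
    have h2 : 0 ≤ AA * ((D : ℝ) + 1) := by positivity
    simp only [hε₁]
    nlinarith
  obtain ⟨y₀, hy₀⟩ : ∃ y₀, G.Adj r y₀ := by
    have h1 : 0 < G.degree r := by
      rw [hreg r]
      omega
    exact (G.degree_pos_iff_exists_adj r).1 h1
  -- the functions on configurations
  have hgeoA : ∀ i, i < D → G.Adj (p (i + 1)) (p i) := fun i hi => (geo_adj hT hi).symm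
  have hgeoD : ∀ i, i ≤ D → G.dist r (p i) = i := fun i hi => (dist_geo hT hi).1
  set xx : (V → ℝ) → ℕ → ℝ := fun y i => xiF G β (p (i + 1)) (p i) N y with hxx
  set mm : (V → ℝ) → ℝ := fun y => mean G β (ball G r N) y r with hmm
  have hxxb : ∀ y i, |xx y i| ≤ 1 := fun y i => abs_mean_le _ _ _ _ _
  have hmmb : ∀ y, |mm y| ≤ 1 := fun y => abs_mean_le _ _ _ _ _
  have hxxm : ∀ i, Measurable (fun y => xx y i) := fun i => measurable_mean _ _
  have hmmm : Measurable mm := measurable_mean _ _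
  set Ψ : (V → ℝ) → ℝ := fun y => lbF θ D (mm y) (xx y) with hΨ
  have hlbm : ∀ (a : (V → ℝ) → ℝ) (x : (V → ℝ) → ℕ → ℝ), Measurable a → (∀ i, Measurable fun y => x y i) →
      Measurable (fun y => lbF θ D (a y) (x y)) := by
    intro a x ha hx
    unfold lbF
    refine (measurable_const.sub (ha.pow_const 2)).mul ?_
    exact Finset.measurable_prod _ fun i _ => measurable_const.mul ((lbMeasurable_gm θ).comp (hx i))
  have hΨm : Measurable Ψ := hlbm _ _ hmmm hxxm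
  have hΨb : ∀ y, |Ψ y| ≤ 1 := fun y => lbF_abs_le_one hθ0 hθ1 (hmmb y) (hxxb y)
  set R₀ := ball G r (N + D) with hR₀
  have hsum_sub : ∀ (A : Finset V) (f : V → ℝ), A ⊆ R₀ → ∑ v ∈ A, |f v| ≤ ∑ v ∈ R₀, |f v| :=
    fun A f h => sum_le_sum_of_subset_of_nonneg h fun _ _ _ => abs_nonneg _
  have hballsub : ball G r N ⊆ R₀ := by
    intro u hu
    rw [hR₀, mem_ball hT]
    rw [mem_ball hT] at hu
    omega
  have hballx : ∀ i, i < D → ball G (p (i + 1)) N ⊆ R₀ := by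
    intro i hi u hu
    rw [hR₀, mem_ball hT]
    rw [mem_ball hT] at hu
    have h1 := hT.1.dist_triangle (u := r) (v := p (i + 1)) (w := u)
    have h2 := hgeoD (i + 1) hi
    omega
  have hlipM : ∀ (S : Finset V) (u : V) (y y' : V → ℝ),
      |mean G β S y u - mean G β S y' u| ≤ 2 * ∑ v ∈ S, |y v - y' v| := fun S u y y' => by
    have := mean_lip' (G := G) (β := β) S y' y u
    simpa [l1] using this
  have hΨL : ∀ y y', |Ψ y - Ψ y'| ≤ (2 / (1 - θ ^ 2) * (2 * (D + 1))) * ∑ v ∈ R₀, |y v - y' v| := by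
    intro y y'
    have h1 := lbF_abs_sub (D := D) hθ0 hθ1 (hmmb y) (hmmb y') (hxxb y) (hxxb y')
    refine h1.trans ?_
    set s := ∑ v ∈ R₀, |y v - y' v| with hs
    have hs0 : 0 ≤ s := sum_nonneg fun _ _ => abs_nonneg _
    have h2 : |mm y - mm y'| ≤ 2 * s :=
      (hlipM _ r y y').trans (by
        have := hsum_sub (ball G r N) (fun v => y v - y' v) hballsub
        linarith)
    have h3 : ∑ i ∈ range D, |xx y i - xx y' i| ≤ ∑ _i ∈ range D, 2 * s := by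
      refine sum_le_sum fun i hi => ?_
      have hi' := mem_range.1 hi
      refine (hlipM _ _ y y').trans ?_
      have h4 : brn G (p (i + 1)) (p i) N ⊆ R₀ := (filter_subset _ _).trans (hballx i hi')
      have := hsum_sub _ (fun v => y v - y' v) h4
      linarith
    rw [sum_const, card_range, nsmul_eq_mul] at h3
    have hA : 0 ≤ 2 / (1 - θ ^ 2) := by positivity
    calc 2 / (1 - θ ^ 2) * (|mm y - mm y'| + ∑ i ∈ range D, |xx y i - xx y' i|)
        ≤ 2 / (1 - θ ^ 2) * (2 * s + D * (2 * s)) := by gcongr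
      _ = _ := by ring
  have hCfM : ∀ l k U, Cf G θ (MuL g G β P (dy l k) U) (XiL g G β P (dy l k) U) r v =
      lbF θ D (MuL g G β P (dy l k) U r) (fun i => XiL g G β P (dy l k) U (p (i + 1)) (p i)) :=
    fun l k U => rfl
  refine lb_close_abstract hg hT hd hreg hβ P r hT1 hε (R₀ := R₀) (N₀ := N + D) (n₁ := N + D)
    (Ψ := Ψ) (M := fun l k U => Cf G θ (MuL g G β P (dy l k) U) (XiL g G β P (dy l k) U) r v)
    (Φ := fun j y => cov G β (ball G r (P.n j)) y r v) (C := 1) (LΦ := 6)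
    (LΨ := 2 / (1 - θ ^ 2) * (2 * (D + 1))) (ε₁ := ε₁) ?_ hΨm hΨb hΨL ?_ ?_ ?_ ?_ ?_ hε₁b ?_ ?_
  · intro w hw
    rwa [hR₀, mem_ball hT] at hw
  · intro l k
    simp only [hCfM]
    refine (measurable_const.sub ((measurable_MuL P _ hg r).pow_const 2)).mul ?_
    exact Finset.measurable_prod _ fun i _ =>
      measurable_const.mul ((lbMeasurable_gm θ).comp (measurable_XiL P _ hg _ _))
  · intro l k U
    rw [hCfM]
    exact lbF_abs_le_one hθ0 hθ1 (abs_MuL_le P _ U r) (fun i => abs_XiL_le P _ U _ _)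
  · intro j
    exact measurable_cov _ _ _
  · intro j y
    refine (abs_cov_le hT hβ _ y r v).trans ?_
    exact pow_le_one₀ hθ0 hθ1.le
  · intro j y y'
    have := cov_lipschitz G β (ball G r (P.n j)) y' (y - y') r v
    simpa using this
  · -- the static bound
    intro j hj t ht
    set S := ball G r (P.n j) with hS
    have hrS : r ∈ S := by rw [hS, mem_ball hT]; simp
    have hvS : v ∈ S := by
      rw [hS, mem_ball hT]
      omega
    have hpS : ∀ i, i ≤ D → p i ∈ S := by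
      intro i hi
      rw [hS, mem_ball hT, hgeoD i hi]
      omega
    have hstar := star_ball (G := G) hT hrS
    have hsub0 : ball G r N ⊆ S := by
      intro u hu
      rw [hS, mem_ball hT]
      rw [mem_ball hT] at hu
      omega
    have hsubx : ∀ i, i < D → ball G (p (i + 1)) N ⊆ S := by
      intro i hi u hu
      rw [hS, mem_ball hT]
      rw [mem_ball hT] at hu
      have h1 := hT.1.dist_triangle (u := r) (v := p (i + 1)) (w := u)
      have h2 := hgeoD (i + 1) hi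
      omega
    have hE0 := (mean_static hT hd hreg hβ P hy₀ (by omega : 1 ≤ N) hsub0 hstar ht).1
    have hEi : ∀ i, i < D → EP G β S t 0
        (fun Y => (xiS G β S (p (i + 1)) (p i) Y - xiF G β (p (i + 1)) (p i) N Y) ^ 2) ≤ KR :=
      fun i hi => xiS_static hT hd hreg hβ P (hgeoA i hi) (by omega : 1 ≤ N) (hsubx i hi)
        (star_ball hT (hpS (i + 1) hi)) ht
    set G₀ : (V → ℝ) → ℝ := fun Y => (mean G β S Y r - mean G β (ball G r N) Y r) ^ 2 with hG₀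
    set Gi : ℕ → (V → ℝ) → ℝ :=
      fun i Y => (xiS G β S (p (i + 1)) (p i) Y - xiF G β (p (i + 1)) (p i) N Y) ^ 2 with hGi
    have hG₀m : Measurable G₀ := (Measurable.pow_const ((measurable_mean _ _).sub (measurable_mean _ _)) 2)
    have hGim : ∀ i, Measurable (Gi i) := fun i =>
      (Measurable.pow_const ((measurable_mean _ _).sub (measurable_mean _ _)) 2)
    have hsq : ∀ a b : ℝ, |a| ≤ 1 → |b| ≤ 1 → |(a - b) ^ 2| ≤ 4 := by
      intro a b ha hb
      rw [abs_of_nonneg (sq_nonneg _)]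
      have h1 : |a - b| ≤ 2 := by
        have := abs_sub a b
        linarith
      calc (a - b) ^ 2 = |a - b| ^ 2 := (sq_abs _).symm
        _ ≤ 2 ^ 2 := pow_le_pow_left₀ (abs_nonneg _) h1 2
        _ = 4 := by norm_num
    have hG₀b : ∀ Y, |G₀ Y| ≤ 4 := fun Y => hsq _ _ (abs_mean_le _ _ _ _ _) (abs_mean_le _ _ _ _ _)
    have hGib : ∀ i Y, |Gi i Y| ≤ 4 := fun i Y => hsq _ _ (abs_mean_le _ _ _ _ _) (abs_mean_le _ _ _ _ _)
    have hGsumb : ∀ Y, |∑ i ∈ range D, Gi i Y| ≤ D * 4 := by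
      intro Y
      refine (abs_sum_le_sum_abs _ _).trans ?_
      calc ∑ i ∈ range D, |Gi i Y| ≤ ∑ _i ∈ range D, (4 : ℝ) := sum_le_sum fun i _ => hGib i Y
        _ = _ := by simp
    have hGsumm : Measurable (fun Y => ∑ i ∈ range D, Gi i Y) :=
      Finset.measurable_sum _ fun i _ => hGim i
    set H : (V → ℝ) → ℝ := fun Y => AA * (G₀ Y + ∑ i ∈ range D, Gi i Y) with hH
    have hDnn : (0 : ℝ) ≤ D := Nat.cast_nonneg _
    have hHb : ∀ Y, |H Y| ≤ 4 + AA * (4 + D * 4) := by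
      intro Y
      simp only [hH]
      rw [abs_mul, abs_of_nonneg hAA0]
      have h1 : |G₀ Y + ∑ i ∈ range D, Gi i Y| ≤ 4 + D * 4 :=
        (abs_add_le _ _).trans (add_le_add (hG₀b Y) (hGsumb Y))
      have := mul_le_mul_of_nonneg_left h1 hAA0
      linarith
    have hFm : Measurable (fun y => (cov G β S y r v - Ψ y) ^ 2) :=
      Measurable.pow_const ((measurable_cov _ _ _).sub hΨm) 2
    have hFb : ∀ y, |(cov G β S y r v - Ψ y) ^ 2| ≤ 4 + AA * (4 + D * 4) := by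
      intro y
      have h1 := hsq (cov G β S y r v) (Ψ y)
        ((abs_cov_le hT hβ _ y r v).trans (pow_le_one₀ hθ0 hθ1.le)) (hΨb y)
      have h2 : 0 ≤ AA * (4 + D * 4) := by positivity
      linarith
    have hle : ∀ y, (cov G β S y r v - Ψ y) ^ 2 ≤ H y := by
      intro y
      have e : cov G β S y r v =
          lbF θ D (mean G β S y r) (fun i => xiS G β S (p (i + 1)) (p i) y) :=
        cov_path hT hβ hrS hstar hvS y
      rw [e]
      have := lbF_sq_sub (D := D) (a := mean G β S y r) (a' := mm y)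
        (x := fun i => xiS G β S (p (i + 1)) (p i) y) (x' := xx y) hθ0 hθ1 (abs_mean_le _ _ _ _ _)
        (hmmb y) (fun i => abs_mean_le _ _ _ _ _) (hxxb y)
      exact this
    have hHm : Measurable H := (hG₀m.add hGsumm).const_mul AA
    have hmono := EP_mono (G := G) (β := β) (S := S) (t := t) (y₀ := 0) hFm hHm hFb hHb hle
    refine hmono.trans ?_
    have e1 : EP G β S t 0 H = AA * (EP G β S t 0 G₀ + ∑ i ∈ range D, EP G β S t 0 (Gi i)) := by
      simp only [hH]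
      rw [EP_const_mul, EP_add hG₀m hGsumm (C := 4 + D * 4) (fun Y => by linarith [hG₀b Y])
        (fun Y => by linarith [hGsumb Y]), lbEP_sum _ Gi hGim hGib]
    rw [e1]
    have h2 : ∑ i ∈ range D, EP G β S t 0 (Gi i) ≤ ∑ _i ∈ range D, KR :=
      sum_le_sum fun i hi => hEi i (mem_range.1 hi)
    rw [sum_const, card_range, nsmul_eq_mul] at h2
    have h3 : EP G β S t 0 G₀ + ∑ i ∈ range D, EP G β S t 0 (Gi i) ≤ ((D : ℝ) + 1) * KR := by
      have : EP G β S t 0 G₀ ≤ KR := hE0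
      linarith
    have := mul_le_mul_of_nonneg_left h3 hAA0
    simp only [hε₁]
    linarith
  · -- the limit
    intro l k
    set t := dy l k with ht
    have hYc : ∀ U, Yc g G β P t U = Yc g G β P t U := fun _ => rfl
    have hM0 := MuL_close hT hd hreg hβ P hg (L := l) (k := k) r N
    have hMi : ∀ i, i < D →
        ∫ U, (xiF G β (p (i + 1)) (p i) N (Yc g G β P t U) - XiL g G β P t U (p (i + 1)) (p i)) ^ 2
          ∂iidUniform V ≤ KR := fun i hi =>
      XiL_close hT hd hreg hβ P hg (L := l) (k := k) (hgeoA i hi) (by omega : 1 ≤ N)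
    have hY : Measurable (Yc g G β P t) := measurable_pi_iff.2 fun w => measurable_Yf hg P t w
    have hI0 : Integrable (fun U => (mean G β (ball G r N) (Yc g G β P t U) r - MuL g G β P t U r) ^ 2)
        (iidUniform V) :=
      lbIntegrable_sq_sub ((measurable_mean _ _).comp hY) (measurable_MuL P _ hg r) (C := 1)
        (fun U => abs_mean_le _ _ _ _ _) (fun U => abs_MuL_le P _ U r)
    have hIi : ∀ i, Integrable (fun U => (xiF G β (p (i + 1)) (p i) N (Yc g G β P t U) -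
        XiL g G β P t U (p (i + 1)) (p i)) ^ 2) (iidUniform V) := fun i =>
      lbIntegrable_sq_sub ((measurable_mean _ _).comp hY) (measurable_XiL P _ hg _ _) (C := 1)
        (fun U => abs_mean_le _ _ _ _ _) (fun U => abs_XiL_le P _ U _ _)
    have hIsum : Integrable (fun U => ∑ i ∈ range D, (xiF G β (p (i + 1)) (p i) N (Yc g G β P t U) -
        XiL g G β P t U (p (i + 1)) (p i)) ^ 2) (iidUniform V) :=
      integrable_finset_sum _ fun i _ => hIi i
    have hLHSI : Integrable (fun U => (Ψ (Yc g G β P t U) -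
        Cf G θ (MuL g G β P t U) (XiL g G β P t U) r v) ^ 2) (iidUniform V) := by
      refine lbIntegrable_sq_sub (hΨm.comp hY) ?_ (C := 1) (fun U => hΨb _) ?_
      · show Measurable (fun U => lbF θ D (MuL g G β P t U r) (fun i => XiL g G β P t U (p (i + 1)) (p i)))
        unfold lbF
        refine (measurable_const.sub ((measurable_MuL P _ hg r).pow_const 2)).mul ?_
        exact Finset.measurable_prod _ fun i _ =>
          measurable_const.mul ((lbMeasurable_gm θ).comp (measurable_XiL P _ hg _ _))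
      · intro U
        exact lbF_abs_le_one hθ0 hθ1 (abs_MuL_le P _ U r) (fun i => abs_XiL_le P _ U _ _)
    calc ∫ U, (Ψ (Yc g G β P t U) - Cf G θ (MuL g G β P t U) (XiL g G β P t U) r v) ^ 2 ∂iidUniform V
        ≤ ∫ U, AA * ((mean G β (ball G r N) (Yc g G β P t U) r - MuL g G β P t U r) ^ 2 +
            ∑ i ∈ range D, (xiF G β (p (i + 1)) (p i) N (Yc g G β P t U) -
              XiL g G β P t U (p (i + 1)) (p i)) ^ 2) ∂iidUniform V := by
          refine integral_mono hLHSI ((hI0.add hIsum).const_mul AA) fun U => ?_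
          exact lbF_sq_sub (D := D) hθ0 hθ1 (abs_mean_le _ _ _ _ _) (abs_MuL_le P _ U r)
            (fun i => abs_mean_le _ _ _ _ _) (fun i => abs_XiL_le P _ U _ _)
      _ = AA * (∫ U, (mean G β (ball G r N) (Yc g G β P t U) r - MuL g G β P t U r) ^ 2 ∂iidUniform V +
            ∑ i ∈ range D, ∫ U, (xiF G β (p (i + 1)) (p i) N (Yc g G β P t U) -
              XiL g G β P t U (p (i + 1)) (p i)) ^ 2 ∂iidUniform V) := by
          rw [integral_const_mul, integral_add hI0 hIsum, integral_finset_sum _ fun i _ => hIi i]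
      _ ≤ ε₁ := by
          have h2 : ∑ i ∈ range D, ∫ U, (xiF G β (p (i + 1)) (p i) N (Yc g G β P t U) -
              XiL g G β P t U (p (i + 1)) (p i)) ^ 2 ∂iidUniform V ≤ ∑ _i ∈ range D, KR :=
            sum_le_sum fun i hi => hMi i (mem_range.1 hi)
          rw [sum_const, card_range, nsmul_eq_mul] at h2
          have h3 := mul_le_mul_of_nonneg_left (add_le_add hM0 h2) hAA0
          simp only [hε₁]
          have e : AA * (KR + D * KR) = AA * ((D : ℝ) + 1) * KR := by ring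
          rw [← e]
          exact h3

end

end Vale.Agent.Lib.P161E
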