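import Vale.Agent.Lib.P161E.Analysis

/-! The one dimensional near field lemma: a pure probability statement on a finite sequence. Job A3.
Setting: `g1 j, g2 j ∈ [0,1]`, `δ j = g1 j - g2 j`, `F j = |δ j|`,
`A j = ∏_{i<j} g2 i * ∏_{j<i<n} g1 i`. -/

open MeasureTheory Finset
open scoped ENNReal

noncomputable section

namespace Vale.Agent.Lib.P161E

variable {Ω : Type*} [MeasurableSpace Ω] {P : Measure Ω} [IsProbabilityMeasure P]

/-- Hypotheses of the near lemma. `s1, s2` are the logarithms of `g1, g2` off the bad events `B`. -/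
structure NearData (P : Measure Ω) (n : ℕ) (g1 g2 s1 s2 : ℕ → Ω → ℝ) (B : Set Ω)
    (φ v w sb1 sb2 c₅ τ : ℝ) (κ : ℕ → ℝ) : Prop where
  mg1 : ∀ j, Measurable (g1 j)
  mg2 : ∀ j, Measurable (g2 j)
  ms1 : ∀ j, Measurable (s1 j)
  ms2 : ∀ j, Measurable (s2 j)
  mB : MeasurableSet B
  g1_mem : ∀ j ω, 0 ≤ g1 j ω ∧ g1 j ω ≤ 1
  g2_mem : ∀ j ω, 0 ≤ g2 j ω ∧ g2 j ω ≤ 1
  s1_mem : ∀ j ω, 0 ≤ s1 j ω ∧ s1 j ω ≤ 1
  s2_mem : ∀ j ω, 0 ≤ s2 j ω ∧ s2 j ω ≤ 1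
  /-- off the bad event the `g` are exponentials of the `s` -/
  good1 : ∀ j, j < n → ∀ ω, ω ∉ B → g1 j ω = Real.exp (-s1 j ω)
  good2 : ∀ j, j < n → ∀ ω, ω ∉ B → g2 j ω = Real.exp (-s2 j ω)
  bad : P B ≤ ENNReal.ofReal τ
  /-- stationarity -/
  mean_δ : ∀ j, j < n → ∫ ω, g1 j ω - g2 j ω ∂P = φ
  sq_δ : ∀ j, j < n → ∫ ω, (g1 j ω - g2 j ω) ^ 2 ∂P = v
  mean_s1 : ∀ j, j < n → ∫ ω, s1 j ω ∂P = sb1
  mean_s2 : ∀ j, j < n → ∫ ω, s2 j ω ∂P = sb2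
  /-- correlations -/
  κ0 : ∀ k, 0 ≤ κ k
  κsum : ∀ N, ∑ k ∈ Finset.range N, κ k ≤ c₅
  corr_δ : ∀ i j, i < n → j < n → ∫ ω, (g1 i ω - g2 i ω) * (g1 j ω - g2 j ω) ∂P ≤
    φ ^ 2 + κ (max i j - min i j) * v
  corr_F : ∀ (a₀ : ℝ), 0 ≤ a₀ → ∀ i j, i < n → j < n →
    ∫ ω, max (|g1 i ω - g2 i ω| - a₀) 0 * max (|g1 j ω - g2 j ω| - a₀) 0 ∂P ≤
      (∫ ω, max (|g1 0 ω - g2 0 ω| - a₀) 0 ∂P) ^ 2 +
        κ (max i j - min i j) * ∫ ω, max (|g1 0 ω - g2 0 ω| - a₀) 0 ^ 2 ∂P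
  mean_F : ∀ (a₀ : ℝ), 0 ≤ a₀ → ∀ j, j < n →
    ∫ ω, max (|g1 j ω - g2 j ω| - a₀) 0 ∂P = ∫ ω, max (|g1 0 ω - g2 0 ω| - a₀) 0 ∂P
  corr_s1 : ∀ i j, i < n → j < n → ∫ ω, (s1 i ω - sb1) * (s1 j ω - sb1) ∂P ≤ κ (max i j - min i j) * w
  corr_s2 : ∀ i j, i < n → j < n → ∫ ω, (s2 i ω - sb2) * (s2 j ω - sb2) ∂P ≤ κ (max i j - min i j) * w

/-- The product `A j`. -/
def Aj (g1 g2 : ℕ → Ω → ℝ) (n j : ℕ) (ω : Ω) : ℝ :=
  (∏ i ∈ Finset.range j, g2 i ω) * ∏ i ∈ Finset.Ioo j n, g1 i ω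

namespace NearAux

/-- Bounded measurable real functions. -/
def BM (f : Ω → ℝ) : Prop := Measurable f ∧ ∃ C, ∀ ω, |f ω| ≤ C

omit [IsProbabilityMeasure P] in
lemma BM.const (c : ℝ) : BM (fun _ : Ω => c) := ⟨measurable_const, |c|, fun _ => le_rfl⟩

lemma BM.integrable {f : Ω → ℝ} (h : BM f) : Integrable f P := by
  obtain ⟨hm, C, hC⟩ := h
  exact Integrable.of_bound hm.aestronglyMeasurable C
    (Filter.Eventually.of_forall (fun ω => by simpa [Real.norm_eq_abs] using hC ω))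

lemma BM.add {f g : Ω → ℝ} (hf : BM f) (hg : BM g) : BM (fun ω => f ω + g ω) := by
  obtain ⟨mf, Cf, hCf⟩ := hf
  obtain ⟨mg, Cg, hCg⟩ := hg
  exact ⟨mf.add mg, Cf + Cg, fun ω => (abs_add_le _ _).trans (add_le_add (hCf ω) (hCg ω))⟩

lemma BM.neg {f : Ω → ℝ} (hf : BM f) : BM (fun ω => - f ω) := by
  obtain ⟨mf, Cf, hCf⟩ := hf
  exact ⟨mf.neg, Cf, fun ω => by simpa using hCf ω⟩

lemma BM.sub {f g : Ω → ℝ} (hf : BM f) (hg : BM g) : BM (fun ω => f ω - g ω) := by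
  simpa [sub_eq_add_neg] using hf.add hg.neg

lemma BM.mul {f g : Ω → ℝ} (hf : BM f) (hg : BM g) : BM (fun ω => f ω * g ω) := by
  obtain ⟨mf, Cf, hCf⟩ := hf
  obtain ⟨mg, Cg, hCg⟩ := hg
  refine ⟨mf.mul mg, Cf * Cg, fun ω => ?_⟩
  rw [abs_mul]
  exact mul_le_mul (hCf ω) (hCg ω) (abs_nonneg _) ((abs_nonneg _).trans (hCf ω))

lemma BM.pow2 {f : Ω → ℝ} (hf : BM f) : BM (fun ω => f ω ^ 2) := by
  simpa [sq] using hf.mul hf

lemma BM.abs {f : Ω → ℝ} (hf : BM f) : BM (fun ω => |f ω|) := by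
  obtain ⟨mf, Cf, hCf⟩ := hf
  exact ⟨mf.abs, Cf, fun ω => by simpa using hCf ω⟩

lemma BM.maxz {f : Ω → ℝ} (hf : BM f) : BM (fun ω => max (f ω) 0) := by
  obtain ⟨mf, Cf, hCf⟩ := hf
  refine ⟨mf.max measurable_const, max Cf 0, fun ω => ?_⟩
  rw [abs_of_nonneg (le_max_right _ _)]
  exact max_le_max_right _ ((le_abs_self _).trans (hCf ω))

lemma BM.sum {ι : Type*} (I : Finset ι) {f : ι → Ω → ℝ} (hf : ∀ i ∈ I, BM (f i)) :
    BM (fun ω => ∑ i ∈ I, f i ω) := by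
  classical
  induction I using Finset.induction_on with
  | empty => simpa using BM.const (0 : ℝ)
  | insert a s ha ih =>
    have h1 := hf a (Finset.mem_insert_self _ _)
    have h2 := ih (fun i hi => hf i (Finset.mem_insert_of_mem hi))
    have := h1.add h2
    simpa [Finset.sum_insert ha] using this

omit [IsProbabilityMeasure P] in
lemma BM.indicator1 {E : Set Ω} (hE : MeasurableSet E) : BM (E.indicator (fun _ => (1 : ℝ))) := by
  refine ⟨measurable_const.indicator hE, 1, fun ω => ?_⟩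
  by_cases h : ω ∈ E <;> simp [h]

/-- Cauchy-Schwarz for bounded measurable functions. -/
lemma cs {X Y : Ω → ℝ} (hX : BM X) (hY : BM Y) :
    (∫ ω, X ω * Y ω ∂P) ^ 2 ≤ (∫ ω, X ω ^ 2 ∂P) * ∫ ω, Y ω ^ 2 ∂P := by
  have key : ∀ t : ℝ, 0 ≤ (∫ ω, X ω ^ 2 ∂P) * (t * t) + (-(2 * ∫ ω, X ω * Y ω ∂P)) * t +
      ∫ ω, Y ω ^ 2 ∂P := by
    intro t
    have h0 : 0 ≤ ∫ ω, (t * X ω - Y ω) ^ 2 ∂P := integral_nonneg (fun _ => sq_nonneg _)
    have h1 : ∫ ω, (t * X ω - Y ω) ^ 2 ∂P =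
        (∫ ω, X ω ^ 2 ∂P) * (t * t) + (-(2 * ∫ ω, X ω * Y ω ∂P)) * t + ∫ ω, Y ω ^ 2 ∂P := by
      have e : ∀ ω, (t * X ω - Y ω) ^ 2 =
          (t * t) * X ω ^ 2 + ((-(2 * t)) * (X ω * Y ω) + Y ω ^ 2) := fun ω => by ring
      simp_rw [e]
      have i1 : Integrable (fun ω => (t * t) * X ω ^ 2) P := ((BM.const _).mul hX.pow2).integrable
      have i2 : Integrable (fun ω => (-(2 * t)) * (X ω * Y ω) + Y ω ^ 2) P :=
        (((BM.const _).mul (hX.mul hY)).add hY.pow2).integrable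
      have i3 : Integrable (fun ω => (-(2 * t)) * (X ω * Y ω)) P :=
        ((BM.const _).mul (hX.mul hY)).integrable
      rw [integral_add i1 i2, integral_add i3 hY.pow2.integrable,
        integral_const_mul, integral_const_mul]
      ring
    rw [h1] at h0
    exact h0
  have := discrim_le_zero key
  unfold discrim at this
  nlinarith

/-- Sum of the kernel around a point. -/
lemma kernel_sum {κ : ℕ → ℝ} {c₅ : ℝ} (κ0 : ∀ k, 0 ≤ κ k)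
    (κsum : ∀ N, ∑ k ∈ Finset.range N, κ k ≤ c₅) {n i : ℕ} (hi : i < n) :
    ∑ j ∈ Finset.range n, κ (max i j - min i j) ≤ 2 * c₅ := by
  rw [← Finset.sum_range_add_sum_Ico _ (Nat.succ_le_of_lt hi)]
  have h1 : ∑ j ∈ Finset.range (i + 1), κ (max i j - min i j) ≤ c₅ := by
    have e : ∀ j ∈ Finset.range (i + 1), κ (max i j - min i j) = κ (i + 1 - 1 - j) := by
      intro j hj
      have hj' : j ≤ i := Nat.lt_succ_iff.mp (Finset.mem_range.mp hj)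
      rw [max_eq_left hj', min_eq_right hj']
      simp
    rw [Finset.sum_congr rfl e, Finset.sum_range_reflect (fun k => κ k) (i + 1)]
    exact κsum _
  have h2 : ∑ j ∈ Finset.Ico (i + 1) n, κ (max i j - min i j) ≤ c₅ := by
    have e : ∀ j ∈ Finset.Ico (i + 1) n, κ (max i j - min i j) = κ (j - i) := by
      intro j hj
      have hj' : i + 1 ≤ j := (Finset.mem_Ico.mp hj).1
      rw [max_eq_right (by omega), min_eq_left (by omega)]
    rw [Finset.sum_congr rfl e, Finset.sum_Ico_eq_sum_range]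
    have e2 : ∀ k ∈ Finset.range (n - (i + 1)), κ (i + 1 + k - i) = κ (k + 1) := by
      intro k _
      congr 1
      omega
    rw [Finset.sum_congr rfl e2]
    have := κsum (n - (i + 1) + 1)
    rw [Finset.sum_range_succ'] at this
    linarith [κ0 0]
  linarith

/-- Second moment of a partial sum of a stationary sequence with summable correlations. -/
lemma second_moment {s : ℕ → Ω → ℝ} {sb w c₅ : ℝ} {κ : ℕ → ℝ} {n : ℕ}
    (hs : ∀ i, BM (s i)) (κ0 : ∀ k, 0 ≤ κ k)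
    (κsum : ∀ N, ∑ k ∈ Finset.range N, κ k ≤ c₅) (hw : 0 ≤ w)
    (hc : ∀ i j, i < n → j < n → ∫ ω, (s i ω - sb) * (s j ω - sb) ∂P ≤ κ (max i j - min i j) * w)
    {I : Finset ℕ} (hI : I ⊆ Finset.range n) :
    ∫ ω, (∑ i ∈ I, (s i ω - sb)) ^ 2 ∂P ≤ 2 * n * c₅ * w := by
  have hc5 : 0 ≤ c₅ := by simpa using κsum 0
  have hm : ∀ i, BM (fun ω => s i ω - sb) := fun i => (hs i).sub (BM.const sb)
  have e : ∀ ω, (∑ i ∈ I, (s i ω - sb)) ^ 2 =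
      ∑ i ∈ I, ∑ j ∈ I, (s i ω - sb) * (s j ω - sb) := by
    intro ω
    rw [sq, Finset.sum_mul_sum]
  simp_rw [e]
  rw [integral_finsetSum _ (fun i _ => integrable_finsetSum _
    (fun j _ => ((hm i).mul (hm j)).integrable))]
  have h1 : ∀ i ∈ I, ∫ ω, ∑ j ∈ I, (s i ω - sb) * (s j ω - sb) ∂P ≤ 2 * c₅ * w := by
    intro i hi
    have hin : i < n := Finset.mem_range.mp (hI hi)
    rw [integral_finsetSum _ (fun j _ => ((hm i).mul (hm j)).integrable)]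
    calc ∑ j ∈ I, ∫ ω, (s i ω - sb) * (s j ω - sb) ∂P
        ≤ ∑ j ∈ I, κ (max i j - min i j) * w :=
          Finset.sum_le_sum (fun j hj => hc i j hin (Finset.mem_range.mp (hI hj)))
      _ = (∑ j ∈ I, κ (max i j - min i j)) * w := (Finset.sum_mul _ _ _).symm
      _ ≤ (∑ j ∈ Finset.range n, κ (max i j - min i j)) * w := by
          refine mul_le_mul_of_nonneg_right ?_ hw
          exact Finset.sum_le_sum_of_subset_of_nonneg hI (fun _ _ _ => κ0 _)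
      _ ≤ 2 * c₅ * w := mul_le_mul_of_nonneg_right (kernel_sum κ0 κsum hin) hw
  calc ∑ i ∈ I, ∫ ω, ∑ j ∈ I, (s i ω - sb) * (s j ω - sb) ∂P
      ≤ ∑ _i ∈ I, 2 * c₅ * w := Finset.sum_le_sum h1
    _ = (I.card : ℝ) * (2 * c₅ * w) := by simp
    _ ≤ (n : ℝ) * (2 * c₅ * w) := by
        refine mul_le_mul_of_nonneg_right ?_ (by positivity)
        have := Finset.card_le_card hI
        rw [Finset.card_range] at this
        exact_mod_cast this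
    _ = 2 * n * c₅ * w := by ring

end NearAux

namespace NearAux

section data

variable {n : ℕ} {g1 g2 s1 s2 : ℕ → Ω → ℝ} {B : Set Ω} {φ v w sb1 sb2 c₅ τ : ℝ} {κ : ℕ → ℝ}

omit [IsProbabilityMeasure P] in
lemma bm_unit {f : Ω → ℝ} (hm : Measurable f) (hf : ∀ ω, 0 ≤ f ω ∧ f ω ≤ 1) : BM f :=
  ⟨hm, 1, fun ω => by rw [abs_of_nonneg (hf ω).1]; exact (hf ω).2⟩

lemma bm_del (h : NearData P n g1 g2 s1 s2 B φ v w sb1 sb2 c₅ τ κ) (j : ℕ) :
    BM (fun ω => g1 j ω - g2 j ω) :=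
  (bm_unit (h.mg1 j) (h.g1_mem j)).sub (bm_unit (h.mg2 j) (h.g2_mem j))

lemma Aj_mem (h : NearData P n g1 g2 s1 s2 B φ v w sb1 sb2 c₅ τ κ) (j : ℕ) (ω : Ω) :
    0 ≤ Aj g1 g2 n j ω ∧ Aj g1 g2 n j ω ≤ 1 := by
  unfold Aj
  have a0 : 0 ≤ ∏ i ∈ Finset.range j, g2 i ω :=
    Finset.prod_nonneg (fun i _ => (h.g2_mem i ω).1)
  have a1 : ∏ i ∈ Finset.range j, g2 i ω ≤ 1 :=
    Finset.prod_le_one (fun i _ => (h.g2_mem i ω).1) (fun i _ => (h.g2_mem i ω).2)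
  have b0 : 0 ≤ ∏ i ∈ Finset.Ioo j n, g1 i ω :=
    Finset.prod_nonneg (fun i _ => (h.g1_mem i ω).1)
  have b1 : ∏ i ∈ Finset.Ioo j n, g1 i ω ≤ 1 :=
    Finset.prod_le_one (fun i _ => (h.g1_mem i ω).1) (fun i _ => (h.g1_mem i ω).2)
  exact ⟨mul_nonneg a0 b0, mul_le_one₀ a1 b0 b1⟩

lemma bm_Aj (h : NearData P n g1 g2 s1 s2 B φ v w sb1 sb2 c₅ τ κ) (j : ℕ) :
    BM (Aj g1 g2 n j) := by
  refine bm_unit ?_ (Aj_mem h j)
  unfold Aj
  have m1 : Measurable (fun ω => ∏ i ∈ Finset.range j, g2 i ω) :=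
    Finset.measurable_fun_prod _ (fun i _ => h.mg2 i)
  have m2 : Measurable (fun ω => ∏ i ∈ Finset.Ioo j n, g1 i ω) :=
    Finset.measurable_fun_prod _ (fun i _ => h.mg1 i)
  exact m1.mul m2

/-- The centred sum. -/
def Zf (n : ℕ) (s1 s2 : ℕ → Ω → ℝ) (sb1 sb2 : ℝ) (j j' : ℕ) (ω : Ω) : ℝ :=
  ∑ i ∈ Finset.range j, (s2 i ω - sb2) + ∑ i ∈ Finset.Ioo j n, (s1 i ω - sb1) +
    (∑ i ∈ Finset.range j', (s2 i ω - sb2) + ∑ i ∈ Finset.Ioo j' n, (s1 i ω - sb1))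

/-- The mean of the log. -/
def mf (n : ℕ) (sb1 sb2 : ℝ) (j j' : ℕ) : ℝ :=
  (j : ℝ) * sb2 + ((Finset.Ioo j n).card : ℝ) * sb1 +
    ((j' : ℝ) * sb2 + ((Finset.Ioo j' n).card : ℝ) * sb1)

lemma Aj_off (h : NearData P n g1 g2 s1 s2 B φ v w sb1 sb2 c₅ τ κ) {j : ℕ} (hj : j < n) {ω : Ω}
    (hω : ω ∉ B) :
    Aj g1 g2 n j ω = Real.exp (-(∑ i ∈ Finset.range j, s2 i ω + ∑ i ∈ Finset.Ioo j n, s1 i ω)) := by
  unfold Aj
  have e1 : ∏ i ∈ Finset.range j, g2 i ω = Real.exp (-∑ i ∈ Finset.range j, s2 i ω) := by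
    rw [← Finset.sum_neg_distrib, Real.exp_sum]
    refine Finset.prod_congr rfl (fun i hi => ?_)
    exact h.good2 i ((Finset.mem_range.mp hi).trans hj) ω hω
  have e2 : ∏ i ∈ Finset.Ioo j n, g1 i ω = Real.exp (-∑ i ∈ Finset.Ioo j n, s1 i ω) := by
    rw [← Finset.sum_neg_distrib, Real.exp_sum]
    refine Finset.prod_congr rfl (fun i hi => ?_)
    exact h.good1 i (Finset.mem_Ioo.mp hi).2 ω hω
  rw [e1, e2, ← Real.exp_add]
  congr 1
  ring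

lemma AA_off (h : NearData P n g1 g2 s1 s2 B φ v w sb1 sb2 c₅ τ κ) {j j' : ℕ} (hj : j < n)
    (hj' : j' < n) {ω : Ω} (hω : ω ∉ B) :
    Aj g1 g2 n j ω * Aj g1 g2 n j' ω =
      Real.exp (-mf n sb1 sb2 j j') * Real.exp (-Zf n s1 s2 sb1 sb2 j j' ω) := by
  rw [Aj_off h hj hω, Aj_off h hj' hω, ← Real.exp_add, ← Real.exp_add]
  congr 1
  unfold mf Zf
  simp only [Finset.sum_sub_distrib, Finset.sum_const, Finset.card_range, nsmul_eq_mul]
  ring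

lemma bm_s1 (h : NearData P n g1 g2 s1 s2 B φ v w sb1 sb2 c₅ τ κ) (i : ℕ) : BM (s1 i) :=
  bm_unit (h.ms1 i) (h.s1_mem i)

lemma bm_s2 (h : NearData P n g1 g2 s1 s2 B φ v w sb1 sb2 c₅ τ κ) (i : ℕ) : BM (s2 i) :=
  bm_unit (h.ms2 i) (h.s2_mem i)

lemma bm_sumc {s : ℕ → Ω → ℝ}
    (hs : ∀ i, BM (s i)) (c : ℝ) (I : Finset ℕ) : BM (fun ω => ∑ i ∈ I, (s i ω - c)) :=
  BM.sum I (fun i _ => (hs i).sub (BM.const c))

lemma bm_Zf (h : NearData P n g1 g2 s1 s2 B φ v w sb1 sb2 c₅ τ κ) (j j' : ℕ) :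
    BM (Zf n s1 s2 sb1 sb2 j j') := by
  unfold Zf
  exact ((bm_sumc (bm_s2 h) _ _).add (bm_sumc (bm_s1 h) _ _)).add
    ((bm_sumc (bm_s2 h) _ _).add (bm_sumc (bm_s1 h) _ _))

lemma Zf_sq (h : NearData P n g1 g2 s1 s2 B φ v w sb1 sb2 c₅ τ κ) (hw : 0 ≤ w) {j j' : ℕ}
    (hj : j < n) (hj' : j' < n) :
    ∫ ω, Zf n s1 s2 sb1 sb2 j j' ω ^ 2 ∂P ≤ 32 * n * c₅ * w := by
  set a : Ω → ℝ := fun ω => ∑ i ∈ Finset.range j, (s2 i ω - sb2) with ha
  set b : Ω → ℝ := fun ω => ∑ i ∈ Finset.Ioo j n, (s1 i ω - sb1) with hb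
  set c : Ω → ℝ := fun ω => ∑ i ∈ Finset.range j', (s2 i ω - sb2) with hc
  set d : Ω → ℝ := fun ω => ∑ i ∈ Finset.Ioo j' n, (s1 i ω - sb1) with hd
  have ba : BM a := bm_sumc (bm_s2 h) _ _
  have bb : BM b := bm_sumc (bm_s1 h) _ _
  have bc : BM c := bm_sumc (bm_s2 h) _ _
  have bd : BM d := bm_sumc (bm_s1 h) _ _
  have sub1 : ∀ j : ℕ, j < n → Finset.range j ⊆ Finset.range n := fun j hj =>
    Finset.range_subset_range.mpr hj.le
  have sub2 : ∀ j : ℕ, Finset.Ioo j n ⊆ Finset.range n := fun j i hi =>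
    Finset.mem_range.mpr (Finset.mem_Ioo.mp hi).2
  have ma : ∫ ω, a ω ^ 2 ∂P ≤ 2 * n * c₅ * w :=
    second_moment (bm_s2 h) h.κ0 h.κsum hw h.corr_s2 (sub1 j hj)
  have mb : ∫ ω, b ω ^ 2 ∂P ≤ 2 * n * c₅ * w :=
    second_moment (bm_s1 h) h.κ0 h.κsum hw h.corr_s1 (sub2 j)
  have mc : ∫ ω, c ω ^ 2 ∂P ≤ 2 * n * c₅ * w :=
    second_moment (bm_s2 h) h.κ0 h.κsum hw h.corr_s2 (sub1 j' hj')
  have md : ∫ ω, d ω ^ 2 ∂P ≤ 2 * n * c₅ * w :=
    second_moment (bm_s1 h) h.κ0 h.κsum hw h.corr_s1 (sub2 j')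
  have ptw : ∀ ω, Zf n s1 s2 sb1 sb2 j j' ω ^ 2 ≤
      4 * (a ω ^ 2 + (b ω ^ 2 + (c ω ^ 2 + d ω ^ 2))) := by
    intro ω
    have : Zf n s1 s2 sb1 sb2 j j' ω = a ω + b ω + (c ω + d ω) := rfl
    rw [this]
    nlinarith [sq_nonneg (a ω - b ω), sq_nonneg (a ω - c ω), sq_nonneg (a ω - d ω),
      sq_nonneg (b ω - c ω), sq_nonneg (b ω - d ω), sq_nonneg (c ω - d ω)]
  have i4 : BM (fun ω => 4 * (a ω ^ 2 + (b ω ^ 2 + (c ω ^ 2 + d ω ^ 2)))) :=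
    (BM.const 4).mul (ba.pow2.add (bb.pow2.add (bc.pow2.add bd.pow2)))
  have iz : Integrable (fun ω => Zf n s1 s2 sb1 sb2 j j' ω ^ 2) P := (bm_Zf h j j').pow2.integrable
  have i4' : Integrable (fun ω => 4 * (a ω ^ 2 + (b ω ^ 2 + (c ω ^ 2 + d ω ^ 2)))) P := i4.integrable
  have step := integral_mono iz i4' ptw
  refine step.trans ?_
  have ib : Integrable (fun ω => b ω ^ 2 + (c ω ^ 2 + d ω ^ 2)) P :=
    (bb.pow2.add (bc.pow2.add bd.pow2)).integrable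
  have ic : Integrable (fun ω => c ω ^ 2 + d ω ^ 2) P := (bc.pow2.add bd.pow2).integrable
  rw [integral_const_mul,
    integral_add ba.pow2.integrable ib,
    integral_add bb.pow2.integrable ic,
    integral_add bc.pow2.integrable bd.pow2.integrable]
  linarith

/-- Markov for the square. -/
lemma markov_sq {Z : Ω → ℝ} (hZ : BM Z) {ε : ℝ} (hε : 0 < ε) :
    P.real {ω | ε < |Z ω|} ≤ (∫ ω, Z ω ^ 2 ∂P) / ε ^ 2 := by
  have hm : MeasurableSet {ω | ε < |Z ω|} := measurableSet_lt measurable_const hZ.1.abs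
  have e : ∫ ω, ({ω | ε < |Z ω|} : Set Ω).indicator (fun _ => (1 : ℝ)) ω ∂P =
      P.real {ω | ε < |Z ω|} := by
    rw [integral_indicator_const _ hm]
    simp
  rw [← e, le_div_iff₀ (by positivity), ← integral_mul_const]
  refine integral_mono (((BM.indicator1 hm).mul (BM.const _)).integrable) hZ.pow2.integrable
    (fun ω => ?_)
  by_cases hω : ε < |Z ω|
  · have : ({ω | ε < |Z ω|} : Set Ω).indicator (fun _ => (1 : ℝ)) ω = 1 :=
      Set.indicator_of_mem (show ω ∈ {ω | ε < |Z ω|} from hω) _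
    simp only [this, one_mul]
    have := sq_le_sq' (by linarith [abs_nonneg (Z ω)]) hω.le
    simpa [sq_abs] using this
  · have : ({ω | ε < |Z ω|} : Set Ω).indicator (fun _ => (1 : ℝ)) ω = 0 :=
      Set.indicator_of_notMem (show ω ∉ {ω | ε < |Z ω|} from hω) _
    simp only [this, zero_mul]
    positivity

end data

end NearAux


namespace NearAux

section pair

variable {n : ℕ} {g1 g2 s1 s2 : ℕ → Ω → ℝ} {B : Set Ω} {φ v w sb1 sb2 c₅ τ : ℝ} {κ : ℕ → ℝ}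

/-- The exceptional event. -/
def Ev (n : ℕ) (s1 s2 : ℕ → Ω → ℝ) (sb1 sb2 : ℝ) (B : Set Ω) (ε : ℝ) (j j' : ℕ) : Set Ω :=
  B ∪ {ω | ε < |Zf n s1 s2 sb1 sb2 j j' ω|}

lemma Ev_meas (h : NearData P n g1 g2 s1 s2 B φ v w sb1 sb2 c₅ τ κ) (ε : ℝ) (j j' : ℕ) :
    MeasurableSet (Ev n s1 s2 sb1 sb2 B ε j j') :=
  h.mB.union (measurableSet_lt measurable_const (bm_Zf h j j').1.abs)

lemma Ev_prob (h : NearData P n g1 g2 s1 s2 B φ v w sb1 sb2 c₅ τ κ) (hw : 0 ≤ w) {ε : ℝ}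
    (hε : 0 < ε) (hτ : 0 ≤ τ) {j j' : ℕ} (hj : j < n) (hj' : j' < n) :
    P.real (Ev n s1 s2 sb1 sb2 B ε j j') ≤ τ + 32 * n * c₅ * w / ε ^ 2 := by
  refine (measureReal_union_le _ _).trans (add_le_add ?_ ?_)
  · exact ENNReal.toReal_le_of_le_ofReal hτ h.bad
  · refine (markov_sq (bm_Zf h j j') hε).trans ?_
    exact div_le_div_of_nonneg_right (Zf_sq h hw hj hj') (by positivity)

lemma sb1_nonneg (h : NearData P n g1 g2 s1 s2 B φ v w sb1 sb2 c₅ τ κ) (hn : 0 < n) : 0 ≤ sb1 := by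
  rw [← h.mean_s1 0 hn]
  exact integral_nonneg (fun ω => (h.s1_mem 0 ω).1)

lemma sb2_nonneg (h : NearData P n g1 g2 s1 s2 B φ v w sb1 sb2 c₅ τ κ) (hn : 0 < n) : 0 ≤ sb2 := by
  rw [← h.mean_s2 0 hn]
  exact integral_nonneg (fun ω => (h.s2_mem 0 ω).1)

lemma half_lower {sb1 sb2 : ℝ} (h1 : 0 ≤ sb1) (h2 : 0 ≤ sb2) {j : ℕ} (hj : j < n) :
    min sb1 sb2 * ((n : ℝ) - 1) ≤ (j : ℝ) * sb2 + ((Finset.Ioo j n).card : ℝ) * sb1 := by
  have hc : (Finset.Ioo j n).card + j + 1 = n := by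
    rw [Nat.card_Ioo]
    omega
  have hc' : ((Finset.Ioo j n).card : ℝ) + j + 1 = n := by exact_mod_cast hc
  have e : (n : ℝ) - 1 = (j : ℝ) + ((Finset.Ioo j n).card : ℝ) := by linarith
  rw [e, mul_add, mul_comm (min sb1 sb2) (j : ℝ), mul_comm (min sb1 sb2) ((Finset.Ioo j n).card : ℝ)]
  exact add_le_add
    (mul_le_mul_of_nonneg_left (min_le_right _ _) (Nat.cast_nonneg _))
    (mul_le_mul_of_nonneg_left (min_le_left _ _) (Nat.cast_nonneg _))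

lemma mf_lower {sb1 sb2 : ℝ} (h1 : 0 ≤ sb1) (h2 : 0 ≤ sb2) {j j' : ℕ} (hj : j < n) (hj' : j' < n) :
    2 * min sb1 sb2 * ((n : ℝ) - 2) ≤ mf n sb1 sb2 j j' := by
  unfold mf
  have a := half_lower h1 h2 hj
  have b := half_lower h1 h2 hj'
  have hm : 0 ≤ min sb1 sb2 := le_min h1 h2
  nlinarith

lemma mf_nonneg {sb1 sb2 : ℝ} (h1 : 0 ≤ sb1) (h2 : 0 ≤ sb2) (j j' : ℕ) :
    0 ≤ mf n sb1 sb2 j j' := by
  unfold mf
  positivity

/-- The pointwise control of the product of the two weights. -/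
lemma AA_dev (h : NearData P n g1 g2 s1 s2 B φ v w sb1 sb2 c₅ τ κ) (hn : 0 < n) {ε : ℝ}
    (hε : 0 < ε) (hε1 : ε ≤ 1) {j j' : ℕ} (hj : j < n) (hj' : j' < n) (ω : Ω) :
    |Aj g1 g2 n j ω * Aj g1 g2 n j' ω - Real.exp (-mf n sb1 sb2 j j')| ≤
      2 * ε * Real.exp (-mf n sb1 sb2 j j') +
        (Ev n s1 s2 sb1 sb2 B ε j j').indicator (fun _ => (1 : ℝ)) ω := by
  set ν := Real.exp (-mf n sb1 sb2 j j') with hν
  have hν0 : 0 ≤ ν := (Real.exp_pos _).le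
  have hν1 : ν ≤ 1 := by
    rw [hν, Real.exp_le_one_iff]
    linarith [mf_nonneg (n := n) (sb1_nonneg h hn) (sb2_nonneg h hn) j j']
  by_cases hE : ω ∈ Ev n s1 s2 sb1 sb2 B ε j j'
  · rw [Set.indicator_of_mem hE]
    have a := Aj_mem h j ω
    have b := Aj_mem h j' ω
    have ab0 : 0 ≤ Aj g1 g2 n j ω * Aj g1 g2 n j' ω := mul_nonneg a.1 b.1
    have ab1 : Aj g1 g2 n j ω * Aj g1 g2 n j' ω ≤ 1 := mul_le_one₀ a.2 b.1 b.2
    have : |Aj g1 g2 n j ω * Aj g1 g2 n j' ω - ν| ≤ 1 := by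
      rw [abs_le]
      constructor <;> linarith
    have h2 : 0 ≤ 2 * ε * ν := by positivity
    linarith
  · rw [Set.indicator_of_notMem hE]
    have hB : ω ∉ B := fun hb => hE (Or.inl hb)
    have hZ : |Zf n s1 s2 sb1 sb2 j j' ω| ≤ ε := by
      by_contra hc
      exact hE (Or.inr (not_le.mp hc))
    rw [AA_off h hj hj' hB, ← hν]
    have e : ν * Real.exp (-Zf n s1 s2 sb1 sb2 j j' ω) - ν =
        ν * (Real.exp (-Zf n s1 s2 sb1 sb2 j j' ω) - 1) := by ring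
    rw [e, abs_mul, abs_of_nonneg hν0, add_zero]
    have hZ' : |(-Zf n s1 s2 sb1 sb2 j j' ω)| ≤ 1 := by
      rw [abs_neg]
      exact hZ.trans hε1
    have := Real.abs_exp_sub_one_le hZ'
    rw [abs_neg] at this
    have h3 : |Real.exp (-Zf n s1 s2 sb1 sb2 j j' ω) - 1| ≤ 2 * ε := this.trans (by linarith)
    calc ν * |Real.exp (-Zf n s1 s2 sb1 sb2 j j' ω) - 1| ≤ ν * (2 * ε) :=
          mul_le_mul_of_nonneg_left h3 hν0
      _ = 2 * ε * ν := by ring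

/-- Integral of the indicator against a function in `L²`. -/
lemma ind_bound {Y : Ω → ℝ} (hY : BM Y) {E : Set Ω} (hE : MeasurableSet E) {PA v M : ℝ}
    (hp : P.real E ≤ PA) (hv : 0 ≤ v) (hM : 0 ≤ M) (hYv : ∫ ω, Y ω ^ 2 ∂P ≤ v) :
    Real.sqrt (M * v) * ∫ ω, E.indicator (fun _ => (1 : ℝ)) ω * Y ω ∂P ≤
      v * Real.sqrt (M * PA) := by
  have hχ : ∫ ω, (E.indicator (fun _ => (1 : ℝ)) ω) ^ 2 ∂P = P.real E := by
    have e : ∀ ω, (E.indicator (fun _ => (1 : ℝ)) ω) ^ 2 = E.indicator (fun _ => (1 : ℝ)) ω := by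
      intro ω
      by_cases h : ω ∈ E <;> simp [h]
    simp_rw [e]
    rw [integral_indicator_const _ hE]
    simp
  have c := cs (P := P) (BM.indicator1 hE) hY
  rw [hχ] at c
  have p0 : 0 ≤ P.real E := measureReal_nonneg
  have c2 : (∫ ω, E.indicator (fun _ => (1 : ℝ)) ω * Y ω ∂P) ^ 2 ≤ PA * v :=
    c.trans (mul_le_mul hp hYv (integral_nonneg (fun _ => sq_nonneg _)) (p0.trans hp))
  have c3 : ∫ ω, E.indicator (fun _ => (1 : ℝ)) ω * Y ω ∂P ≤ Real.sqrt (PA * v) :=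
    (le_abs_self _).trans (Real.abs_le_sqrt c2)
  calc Real.sqrt (M * v) * ∫ ω, E.indicator (fun _ => (1 : ℝ)) ω * Y ω ∂P
      ≤ Real.sqrt (M * v) * Real.sqrt (PA * v) := mul_le_mul_of_nonneg_left c3 (Real.sqrt_nonneg _)
    _ = Real.sqrt (M * v * (PA * v)) := (Real.sqrt_mul (by positivity) _).symm
    _ = Real.sqrt (v ^ 2 * (M * PA)) := by congr 1; ring
    _ = v * Real.sqrt (M * PA) := by rw [Real.sqrt_mul (sq_nonneg v), Real.sqrt_sq hv]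

/-- The excess of the single site. -/
lemma excess_bound (h : NearData P n g1 g2 s1 s2 B φ v w sb1 sb2 c₅ τ κ) (hn : 0 < n) {M : ℝ}
    (hM : 1 ≤ M) :
    (∫ ω, max (|g1 0 ω - g2 0 ω| - Real.sqrt (M * v)) 0 ∂P) ^ 2 ≤ v / M ∧
      ∫ ω, max (|g1 0 ω - g2 0 ω| - Real.sqrt (M * v)) 0 ^ 2 ∂P ≤ v := by
  have hv : 0 ≤ v := by
    rw [← h.sq_δ 0 hn]
    exact integral_nonneg (fun _ => sq_nonneg _)
  have hM0 : 0 < M := by linarith
  set a₀ := Real.sqrt (M * v) with ha₀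
  have ha₀0 : 0 ≤ a₀ := Real.sqrt_nonneg _
  have bd := bm_del h 0
  have bf : BM (fun ω => max (|g1 0 ω - g2 0 ω| - a₀) 0) :=
    (bd.abs.sub (BM.const a₀)).maxz
  have hsq : ∫ ω, max (|g1 0 ω - g2 0 ω| - a₀) 0 ^ 2 ∂P ≤ v := by
    rw [← h.sq_δ 0 hn]
    refine integral_mono bf.pow2.integrable bd.pow2.integrable (fun ω => ?_)
    have f0 : 0 ≤ max (|g1 0 ω - g2 0 ω| - a₀) 0 := le_max_right _ _
    have f1 : max (|g1 0 ω - g2 0 ω| - a₀) 0 ≤ |g1 0 ω - g2 0 ω| :=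
      max_le (by linarith) (abs_nonneg _)
    have := pow_le_pow_left₀ f0 f1 2
    simpa [sq_abs] using this
  refine ⟨?_, hsq⟩
  rcases hv.eq_or_lt with hv0 | hvp
  · -- `v = 0`
    have c := cs (P := P) (BM.const (1 : ℝ)) bf
    simp only [one_mul, one_pow, integral_const, probReal_univ, smul_eq_mul, mul_one] at c
    rw [← hv0, zero_div]
    have h0 : ∫ ω, max (|g1 0 ω - g2 0 ω| - a₀) 0 ^ 2 ∂P ≤ 0 := by rw [← hv0] at hsq; exact hsq
    linarith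
  · have ha₀p : 0 < a₀ := Real.sqrt_pos.mpr (by positivity)
    have hmean : ∫ ω, max (|g1 0 ω - g2 0 ω| - a₀) 0 ∂P ≤ v / a₀ := by
      have e : v / a₀ = ∫ ω, (g1 0 ω - g2 0 ω) ^ 2 / a₀ ∂P := by
        rw [integral_div, h.sq_δ 0 hn]
      rw [e]
      have i2 : BM (fun ω => (g1 0 ω - g2 0 ω) ^ 2 * a₀⁻¹) := bd.pow2.mul (BM.const _)
      have i2' : Integrable (fun ω => (g1 0 ω - g2 0 ω) ^ 2 / a₀) P := by
        simpa [div_eq_mul_inv] using i2.integrable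
      refine integral_mono bf.integrable i2' (fun ω => ?_)
      refine max_le ?_ (by positivity)
      rw [le_div_iff₀ ha₀p]
      have := sq_abs (g1 0 ω - g2 0 ω)
      nlinarith [sq_nonneg (|g1 0 ω - g2 0 ω| - a₀), sq_nonneg a₀]
    have h0 : 0 ≤ ∫ ω, max (|g1 0 ω - g2 0 ω| - a₀) 0 ∂P :=
      integral_nonneg (fun _ => le_max_right _ _)
    have ha₀sq : a₀ ^ 2 = M * v := Real.sq_sqrt (by positivity)
    calc (∫ ω, max (|g1 0 ω - g2 0 ω| - a₀) 0 ∂P) ^ 2 ≤ (v / a₀) ^ 2 := pow_le_pow_left₀ h0 hmean 2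
      _ = v ^ 2 / a₀ ^ 2 := by rw [div_pow]
      _ = v / M := by
          rw [ha₀sq]
          field_simp

/-- The tail bound on the exceptional event. -/
lemma tail_bound (h : NearData P n g1 g2 s1 s2 B φ v w sb1 sb2 c₅ τ κ) (hn : 0 < n) {E : Set Ω}
    (hE : MeasurableSet E) {PA M : ℝ} (hp : P.real E ≤ PA) (hM : 1 ≤ M) {j j' : ℕ} (hj : j < n)
    (hj' : j' < n) :
    ∫ ω, E.indicator (fun _ => (1 : ℝ)) ω * (|g1 j ω - g2 j ω| * |g1 j' ω - g2 j' ω|) ∂P ≤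
      v * (2 * Real.sqrt (M * PA) + 1 / M) + κ (max j j' - min j j') * v := by
  have hv : 0 ≤ v := by
    rw [← h.sq_δ j hj]
    exact integral_nonneg (fun _ => sq_nonneg _)
  have hM0 : 0 < M := by linarith
  set a₀ := Real.sqrt (M * v) with ha₀
  have ha₀0 : 0 ≤ a₀ := Real.sqrt_nonneg _
  have bχ := BM.indicator1 (Ω := Ω) hE
  have bF : BM (fun ω => |g1 j ω - g2 j ω|) := (bm_del h j).abs
  have bF' : BM (fun ω => |g1 j' ω - g2 j' ω|) := (bm_del h j').abs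
  have bP : BM (fun ω => max (|g1 j ω - g2 j ω| - a₀) 0) := (bF.sub (BM.const a₀)).maxz
  have bP' : BM (fun ω => max (|g1 j' ω - g2 j' ω| - a₀) 0) := (bF'.sub (BM.const a₀)).maxz
  have i0 : Integrable (fun ω => E.indicator (fun _ => (1 : ℝ)) ω *
      (|g1 j ω - g2 j ω| * |g1 j' ω - g2 j' ω|)) P := (bχ.mul (bF.mul bF')).integrable
  have i1 : Integrable (fun ω => a₀ * (E.indicator (fun _ => (1 : ℝ)) ω * |g1 j' ω - g2 j' ω|)) P :=
    ((BM.const a₀).mul (bχ.mul bF')).integrable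
  have i2 : Integrable (fun ω => a₀ * (E.indicator (fun _ => (1 : ℝ)) ω * |g1 j ω - g2 j ω|)) P :=
    ((BM.const a₀).mul (bχ.mul bF)).integrable
  have i3 : Integrable (fun ω => max (|g1 j ω - g2 j ω| - a₀) 0 *
      max (|g1 j' ω - g2 j' ω| - a₀) 0) P := (bP.mul bP').integrable
  have ptw : ∀ ω, E.indicator (fun _ => (1 : ℝ)) ω * (|g1 j ω - g2 j ω| * |g1 j' ω - g2 j' ω|) ≤
      a₀ * (E.indicator (fun _ => (1 : ℝ)) ω * |g1 j' ω - g2 j' ω|) +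
        a₀ * (E.indicator (fun _ => (1 : ℝ)) ω * |g1 j ω - g2 j ω|) +
        max (|g1 j ω - g2 j ω| - a₀) 0 * max (|g1 j' ω - g2 j' ω| - a₀) 0 := by
    intro ω
    set F := |g1 j ω - g2 j ω| with hF
    set F' := |g1 j' ω - g2 j' ω| with hF'
    have F0 : 0 ≤ F := abs_nonneg _
    have F0' : 0 ≤ F' := abs_nonneg _
    set f := max (F - a₀) 0 with hf
    set f' := max (F' - a₀) 0 with hf'
    have f0 : 0 ≤ f := le_max_right _ _
    have f0' : 0 ≤ f' := le_max_right _ _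
    have f1 : F ≤ a₀ + f := by linarith [le_max_left (F - a₀) 0]
    have f1' : F' ≤ a₀ + f' := by linarith [le_max_left (F' - a₀) 0]
    have f2 : f ≤ F := max_le (by linarith) F0
    by_cases hω : ω ∈ E
    · rw [Set.indicator_of_mem hω]
      simp only [one_mul]
      calc F * F' ≤ (a₀ + f) * F' := mul_le_mul_of_nonneg_right f1 F0'
        _ = a₀ * F' + f * F' := by ring
        _ ≤ a₀ * F' + f * (a₀ + f') := by
            gcongr
        _ = a₀ * F' + a₀ * f + f * f' := by ring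
        _ ≤ a₀ * F' + a₀ * F + f * f' := by
            gcongr
    · rw [Set.indicator_of_notMem hω]
      simp only [zero_mul, mul_zero, zero_add]
      exact mul_nonneg f0 f0'
  have i12 : Integrable (fun ω => a₀ * (E.indicator (fun _ => (1 : ℝ)) ω * |g1 j' ω - g2 j' ω|) +
      a₀ * (E.indicator (fun _ => (1 : ℝ)) ω * |g1 j ω - g2 j ω|)) P := i1.add i2
  have i123 : Integrable (fun ω => a₀ * (E.indicator (fun _ => (1 : ℝ)) ω * |g1 j' ω - g2 j' ω|) +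
      a₀ * (E.indicator (fun _ => (1 : ℝ)) ω * |g1 j ω - g2 j ω|) +
      max (|g1 j ω - g2 j ω| - a₀) 0 * max (|g1 j' ω - g2 j' ω| - a₀) 0) P := i12.add i3
  have e1 : ∫ ω, (a₀ * (E.indicator (fun _ => (1 : ℝ)) ω * |g1 j' ω - g2 j' ω|) +
        a₀ * (E.indicator (fun _ => (1 : ℝ)) ω * |g1 j ω - g2 j ω|) +
        max (|g1 j ω - g2 j ω| - a₀) 0 * max (|g1 j' ω - g2 j' ω| - a₀) 0) ∂P =
      a₀ * ∫ ω, E.indicator (fun _ => (1 : ℝ)) ω * |g1 j' ω - g2 j' ω| ∂P +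
        a₀ * ∫ ω, E.indicator (fun _ => (1 : ℝ)) ω * |g1 j ω - g2 j ω| ∂P +
        ∫ ω, max (|g1 j ω - g2 j ω| - a₀) 0 * max (|g1 j' ω - g2 j' ω| - a₀) 0 ∂P := by
    rw [integral_add i12 i3, integral_add i1 i2, integral_const_mul, integral_const_mul]
  refine (integral_mono i0 i123 ptw).trans ((le_of_eq e1).trans ?_)
  have h1 : a₀ * ∫ ω, E.indicator (fun _ => (1 : ℝ)) ω * |g1 j' ω - g2 j' ω| ∂P ≤
      v * Real.sqrt (M * PA) := by
    refine ind_bound bF' hE hp hv hM0.le (le_of_eq ?_)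
    simpa [sq_abs] using h.sq_δ j' hj'
  have h2 : a₀ * ∫ ω, E.indicator (fun _ => (1 : ℝ)) ω * |g1 j ω - g2 j ω| ∂P ≤
      v * Real.sqrt (M * PA) := by
    refine ind_bound bF hE hp hv hM0.le (le_of_eq ?_)
    simpa [sq_abs] using h.sq_δ j hj
  have h3 := h.corr_F a₀ ha₀0 j j' hj hj'
  obtain ⟨x1, x2⟩ := excess_bound h hn hM
  rw [← ha₀] at x1 x2
  have h4 : κ (max j j' - min j j') * ∫ ω, max (|g1 0 ω - g2 0 ω| - a₀) 0 ^ 2 ∂P ≤
      κ (max j j' - min j j') * v := mul_le_mul_of_nonneg_left x2 (h.κ0 _)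
  have e2 : v * (2 * Real.sqrt (M * PA) + 1 / M) = 2 * (v * Real.sqrt (M * PA)) + v / M := by ring
  rw [e2]
  linarith

/-- The bound for a pair of sites. -/
lemma pair_bound (h : NearData P n g1 g2 s1 s2 B φ v w sb1 sb2 c₅ τ κ) (hn : 0 < n) {ε M : ℝ}
    (hε : 0 < ε) (hε1 : ε ≤ 1) (hM : 1 ≤ M) (hw : 0 ≤ w) (hτ : 0 ≤ τ) {j j' : ℕ} (hj : j < n)
    (hj' : j' < n) :
    ∫ ω, (Aj g1 g2 n j ω * (g1 j ω - g2 j ω)) * (Aj g1 g2 n j' ω * (g1 j' ω - g2 j' ω)) ∂P ≤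
      Real.exp (-(2 * min sb1 sb2 * ((n : ℝ) - 2))) *
          (φ ^ 2 + κ (max j j' - min j j') * v + 2 * ε * v) +
        (v * (2 * Real.sqrt (M * (τ + 32 * n * c₅ * w / ε ^ 2)) + 1 / M) +
          κ (max j j' - min j j') * v) := by
  have hv : 0 ≤ v := by
    rw [← h.sq_δ j hj]
    exact integral_nonneg (fun _ => sq_nonneg _)
  set E := Ev n s1 s2 sb1 sb2 B ε j j' with hEdef
  have hE : MeasurableSet E := Ev_meas h ε j j'
  have hp := Ev_prob h hw hε hτ hj hj'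
  rw [← hEdef] at hp
  set ν := Real.exp (-mf n sb1 sb2 j j') with hν
  have hν0 : 0 ≤ ν := (Real.exp_pos _).le
  have bδ := bm_del h j
  have bδ' := bm_del h j'
  have bA := bm_Aj h j
  have bA' := bm_Aj h j'
  have bχ := BM.indicator1 (Ω := Ω) hE
  have i0 : Integrable (fun ω => (Aj g1 g2 n j ω * (g1 j ω - g2 j ω)) *
      (Aj g1 g2 n j' ω * (g1 j' ω - g2 j' ω))) P := ((bA.mul bδ).mul (bA'.mul bδ')).integrable
  have i1 : Integrable (fun ω => ν * ((g1 j ω - g2 j ω) * (g1 j' ω - g2 j' ω))) P :=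
    ((BM.const ν).mul (bδ.mul bδ')).integrable
  have i2 : Integrable (fun ω => (2 * ε * ν) * (|g1 j ω - g2 j ω| * |g1 j' ω - g2 j' ω|)) P :=
    ((BM.const _).mul (bδ.abs.mul bδ'.abs)).integrable
  have i3 : Integrable (fun ω => E.indicator (fun _ => (1 : ℝ)) ω *
      (|g1 j ω - g2 j ω| * |g1 j' ω - g2 j' ω|)) P := (bχ.mul (bδ.abs.mul bδ'.abs)).integrable
  have ptw : ∀ ω, (Aj g1 g2 n j ω * (g1 j ω - g2 j ω)) * (Aj g1 g2 n j' ω * (g1 j' ω - g2 j' ω)) ≤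
      ν * ((g1 j ω - g2 j ω) * (g1 j' ω - g2 j' ω)) +
        (2 * ε * ν) * (|g1 j ω - g2 j ω| * |g1 j' ω - g2 j' ω|) +
        E.indicator (fun _ => (1 : ℝ)) ω * (|g1 j ω - g2 j ω| * |g1 j' ω - g2 j' ω|) := by
    intro ω
    have dev := AA_dev h hn hε hε1 hj hj' ω
    rw [← hEdef, ← hν] at dev
    set x := g1 j ω - g2 j ω with hx
    set x' := g1 j' ω - g2 j' ω with hx'
    have e : (Aj g1 g2 n j ω * x) * (Aj g1 g2 n j' ω * x') =
        ν * (x * x') + (Aj g1 g2 n j ω * Aj g1 g2 n j' ω - ν) * (x * x') := by ring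
    rw [e]
    have a1 : (Aj g1 g2 n j ω * Aj g1 g2 n j' ω - ν) * (x * x') ≤
        |Aj g1 g2 n j ω * Aj g1 g2 n j' ω - ν| * (|x| * |x'|) := by
      rw [← abs_mul, ← abs_mul]
      exact le_abs_self _
    have a2 : |Aj g1 g2 n j ω * Aj g1 g2 n j' ω - ν| * (|x| * |x'|) ≤
        (2 * ε * ν + E.indicator (fun _ => (1 : ℝ)) ω) * (|x| * |x'|) :=
      mul_le_mul_of_nonneg_right dev (by positivity)
    linarith [add_mul (2 * ε * ν) (E.indicator (fun _ => (1 : ℝ)) ω) (|x| * |x'|)]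
  have i12 : Integrable (fun ω => ν * ((g1 j ω - g2 j ω) * (g1 j' ω - g2 j' ω)) +
      (2 * ε * ν) * (|g1 j ω - g2 j ω| * |g1 j' ω - g2 j' ω|)) P := i1.add i2
  have i123 : Integrable (fun ω => ν * ((g1 j ω - g2 j ω) * (g1 j' ω - g2 j' ω)) +
      (2 * ε * ν) * (|g1 j ω - g2 j ω| * |g1 j' ω - g2 j' ω|) +
      E.indicator (fun _ => (1 : ℝ)) ω * (|g1 j ω - g2 j ω| * |g1 j' ω - g2 j' ω|)) P := i12.add i3
  have e1 : ∫ ω, (ν * ((g1 j ω - g2 j ω) * (g1 j' ω - g2 j' ω)) +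
        (2 * ε * ν) * (|g1 j ω - g2 j ω| * |g1 j' ω - g2 j' ω|) +
        E.indicator (fun _ => (1 : ℝ)) ω * (|g1 j ω - g2 j ω| * |g1 j' ω - g2 j' ω|)) ∂P =
      ν * ∫ ω, (g1 j ω - g2 j ω) * (g1 j' ω - g2 j' ω) ∂P +
        (2 * ε * ν) * ∫ ω, |g1 j ω - g2 j ω| * |g1 j' ω - g2 j' ω| ∂P +
        ∫ ω, E.indicator (fun _ => (1 : ℝ)) ω * (|g1 j ω - g2 j ω| * |g1 j' ω - g2 j' ω|) ∂P := by
    rw [integral_add i12 i3, integral_add i1 i2, integral_const_mul, integral_const_mul]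
  refine (integral_mono i0 i123 ptw).trans ((le_of_eq e1).trans ?_)
  have hFF : ∫ ω, |g1 j ω - g2 j ω| * |g1 j' ω - g2 j' ω| ∂P ≤ v := by
    have ib : Integrable (fun ω => ((g1 j ω - g2 j ω) ^ 2 + (g1 j' ω - g2 j' ω) ^ 2) / 2) P := by
      have : BM (fun ω => ((g1 j ω - g2 j ω) ^ 2 + (g1 j' ω - g2 j' ω) ^ 2) * (1 / 2)) :=
        (bδ.pow2.add bδ'.pow2).mul (BM.const _)
      simpa [div_eq_mul_inv] using this.integrable
    have := integral_mono (bδ.abs.mul bδ'.abs).integrable ib (fun ω => by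
      have s1 := sq_abs (g1 j ω - g2 j ω)
      have s2 := sq_abs (g1 j' ω - g2 j' ω)
      simp only
      nlinarith [sq_nonneg (|g1 j ω - g2 j ω| - |g1 j' ω - g2 j' ω|)])
    refine this.trans (le_of_eq ?_)
    rw [integral_div, integral_add bδ.pow2.integrable bδ'.pow2.integrable, h.sq_δ j hj,
      h.sq_δ j' hj']
    ring
  have hcorr := h.corr_δ j j' hj hj'
  have htail := tail_bound h hn hE hp hM hj hj'
  have hνν₀ : ν ≤ Real.exp (-(2 * min sb1 sb2 * ((n : ℝ) - 2))) := by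
    rw [hν, Real.exp_le_exp]
    linarith [mf_lower (n := n) (sb1_nonneg h hn) (sb2_nonneg h hn) hj hj']
  have hsum0 : 0 ≤ φ ^ 2 + κ (max j j' - min j j') * v + 2 * ε * v := by
    have := h.κ0 (max j j' - min j j')
    positivity
  have a1 : ν * ∫ ω, (g1 j ω - g2 j ω) * (g1 j' ω - g2 j' ω) ∂P ≤
      ν * (φ ^ 2 + κ (max j j' - min j j') * v) := mul_le_mul_of_nonneg_left hcorr hν0
  have a2 : (2 * ε * ν) * ∫ ω, |g1 j ω - g2 j ω| * |g1 j' ω - g2 j' ω| ∂P ≤ (2 * ε * ν) * v :=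
    mul_le_mul_of_nonneg_left hFF (by positivity)
  have a3 := mul_le_mul_of_nonneg_right hνν₀ hsum0
  nlinarith

end pair

end NearAux

/-- Near lemma. Let `PA = τ + 32 n c₅ w / ε²`. Proof for a pair `(j,j')`: with `ν` the exponential of
the mean, `E[A_j A_j' δ δ'] ≤ ν (φ² + κ v) + E[|A A' - ν| F F']`. Off the event
`E = B ∪ {|Z| > ε}` one has `|A A' - ν| ≤ 2 ε ν`; on `E`, `|A A' - ν| ≤ 1` and, with
`a₀ = √(M v)`, `E[1_E F F'] ≤ (2 √(M P E) + 1/M + κ) v`: split `F = min F a₀ + (F - a₀)₊`, use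
`E (F-a₀)₊ ≤ v / a₀` and `corr_F`. -/
theorem near_lemma {n : ℕ} {g1 g2 s1 s2 : ℕ → Ω → ℝ} {B : Set Ω} {φ v w sb1 sb2 c₅ τ : ℝ} {κ : ℕ → ℝ}
    (h : NearData P n g1 g2 s1 s2 B φ v w sb1 sb2 c₅ τ κ) {ε M : ℝ} (hε : 0 < ε) (hε1 : ε ≤ 1)
    (hM : 1 ≤ M) (hw : 0 ≤ w) (hτ : 0 ≤ τ) :
    ∫ ω, (∑ j ∈ Finset.range n, Aj g1 g2 n j ω * (g1 j ω - g2 j ω)) ^ 2 ∂P ≤
      Real.exp (-(2 * min sb1 sb2 * ((n : ℝ) - 2))) *
          (n ^ 2 * φ ^ 2 + 2 * n * c₅ * v + 2 * ε * n ^ 2 * v) +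
        v * (n ^ 2 * (2 * Real.sqrt (M * (τ + 32 * n * c₅ * w / ε ^ 2)) + 1 / M) + 2 * n * c₅) := by
  rcases Nat.eq_zero_or_pos n with rfl | hn
  · simp
  have hv : 0 ≤ v := by
    rw [← h.sq_δ 0 hn]
    exact integral_nonneg (fun _ => sq_nonneg _)
  set ν₀ := Real.exp (-(2 * min sb1 sb2 * ((n : ℝ) - 2))) with hν₀
  have hν₀0 : 0 ≤ ν₀ := (Real.exp_pos _).le
  set R := 2 * Real.sqrt (M * (τ + 32 * n * c₅ * w / ε ^ 2)) + 1 / M with hR
  have e : ∀ ω, (∑ j ∈ Finset.range n, Aj g1 g2 n j ω * (g1 j ω - g2 j ω)) ^ 2 =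
      ∑ j ∈ Finset.range n, ∑ j' ∈ Finset.range n,
        (Aj g1 g2 n j ω * (g1 j ω - g2 j ω)) * (Aj g1 g2 n j' ω * (g1 j' ω - g2 j' ω)) := by
    intro ω
    rw [sq, Finset.sum_mul_sum]
  simp_rw [e]
  have bt : ∀ j, NearAux.BM (fun ω => Aj g1 g2 n j ω * (g1 j ω - g2 j ω)) :=
    fun j => (NearAux.bm_Aj h j).mul (NearAux.bm_del h j)
  rw [integral_finsetSum _ (fun j _ => integrable_finsetSum _
    (fun j' _ => ((bt j).mul (bt j')).integrable))]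
  set a := ν₀ * (φ ^ 2 + 2 * ε * v) + v * R with ha
  set b := (ν₀ + 1) * v with hb
  have hb0 : 0 ≤ b := by positivity
  have h1 : ∀ j ∈ Finset.range n,
      ∫ ω, ∑ j' ∈ Finset.range n,
        (Aj g1 g2 n j ω * (g1 j ω - g2 j ω)) * (Aj g1 g2 n j' ω * (g1 j' ω - g2 j' ω)) ∂P ≤
      n * a + 2 * c₅ * b := by
    intro j hj
    have hjn := Finset.mem_range.mp hj
    rw [integral_finsetSum _ (fun j' _ => ((bt j).mul (bt j')).integrable)]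
    calc ∑ j' ∈ Finset.range n, ∫ ω,
          (Aj g1 g2 n j ω * (g1 j ω - g2 j ω)) * (Aj g1 g2 n j' ω * (g1 j' ω - g2 j' ω)) ∂P
        ≤ ∑ j' ∈ Finset.range n, (a + κ (max j j' - min j j') * b) := by
          refine Finset.sum_le_sum (fun j' hj' => ?_)
          refine (NearAux.pair_bound h hn hε hε1 hM hw hτ hjn (Finset.mem_range.mp hj')).trans
            (le_of_eq ?_)
          rw [ha, hb]
          ring
      _ = n * a + (∑ j' ∈ Finset.range n, κ (max j j' - min j j')) * b := by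
          rw [Finset.sum_add_distrib, Finset.sum_const, Finset.card_range, nsmul_eq_mul,
            Finset.sum_mul]
      _ ≤ n * a + 2 * c₅ * b := by
          have := mul_le_mul_of_nonneg_right (NearAux.kernel_sum h.κ0 h.κsum hjn) hb0
          linarith
  refine (Finset.sum_le_sum h1).trans (le_of_eq ?_)
  rw [Finset.sum_const, Finset.card_range, nsmul_eq_mul, ha, hb]
  ring
end Vale.Agent.Lib.P161E
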