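import Vale.Agent.Lib.P161E.Shell

/-! Job D7: tower property and martingale property of the planted law. -/

open MeasureTheory Finset
open scoped Classical ENNReal

noncomputable section

namespace Vale.Agent.Lib.P161E

open Vale.Agent.Lib.P161

variable {V : Type*} {G : SimpleGraph V} {β : ℝ} {S : Finset V} {r : V}

theorem oneA_lint_ne_top {F : (V → ℝ) → ℝ} {C : ℝ} (hFb : ∀ y, |F y| ≤ C)
    (φ : (V → ℝ) → (V → ℝ)) : ∫⁻ g, ENNReal.ofReal (F (φ g)) ∂gam V ≠ ⊤ := by
  refine ne_top_of_le_ne_top (ENNReal.ofReal_ne_top (r := C)) ?_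
  calc ∫⁻ g, ENNReal.ofReal (F (φ g)) ∂gam V ≤ ∫⁻ _, ENNReal.ofReal C ∂gam V :=
        lintegral_mono fun g => ENNReal.ofReal_le_ofReal ((le_abs_self _).trans (hFb _))
    _ = ENNReal.ofReal C := by simp

theorem oneA_planted_ne_top {F : (V → ℝ) → ℝ} {C : ℝ} (hFb : ∀ y, |F y| ≤ C) (t : ℝ) (y₀ : V → ℝ) :
    planted G β S t y₀ (fun y => ENNReal.ofReal (F y)) ≠ ⊤ := by
  unfold planted
  exact ENNReal.sum_ne_top.mpr fun A _ =>
    ENNReal.mul_ne_top ENNReal.ofReal_ne_top (oneA_lint_ne_top hFb _)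

/-- For nonnegative bounded measurable test functions the real planted expectation is the real
part of the extended planted law. -/
theorem oneA_EP_eq_toReal {t : ℝ} {F : (V → ℝ) → ℝ} (hF : Measurable F) {C : ℝ}
    (hFb : ∀ y, |F y| ≤ C) (hnn : ∀ y, 0 ≤ F y) (y₀ : V → ℝ) :
    EP G β S t y₀ F = (planted G β S t y₀ (fun y => ENNReal.ofReal (F y))).toReal := by
  unfold EP planted
  rw [ENNReal.toReal_sum (fun A _ =>
    ENNReal.mul_ne_top ENNReal.ofReal_ne_top (oneA_lint_ne_top hFb _))]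
  refine Finset.sum_congr rfl fun A _ => ?_
  rw [ENNReal.toReal_mul, ENNReal.toReal_ofReal (mu_pos _ _ _ _ _).le]
  congr 1
  refine integral_eq_lintegral_of_nonneg_ae (ae_of_all _ fun g => hnn _) ?_
  refine (hF.comp ?_).aestronglyMeasurable
  exact measurable_shift _ _ _

theorem measurable_EP {h : ℝ} {F : (V → ℝ) → ℝ} (hF : Measurable F) {C : ℝ}
    (hFb : ∀ y, |F y| ≤ C) : Measurable (fun y => EP G β S h y F) := by
  unfold EP
  refine Finset.measurable_sum _ fun A _ => (measurable_mu S A).mul ?_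
  have hj : Measurable (fun p : (V → ℝ) × (V → ℝ) => F (p.1 + h • stepVec S A + Real.sqrt h • p.2)) :=
    hF.comp (measurable_stepmap S A h)
  exact hj.stronglyMeasurable.integral_prod_right'.measurable

theorem oneA_abs_EP_le {h : ℝ} {F : (V → ℝ) → ℝ} {C : ℝ} (hFb : ∀ y, |F y| ≤ C) (y : V → ℝ) :
    |EP G β S h y F| ≤ C := by
  unfold EP
  calc |∑ A ∈ S.powerset, mu G β S y A * ∫ g, F (y + h • stepVec S A + Real.sqrt h • g) ∂gam V|
      ≤ ∑ A ∈ S.powerset, |mu G β S y A * ∫ g, F (y + h • stepVec S A + Real.sqrt h • g) ∂gam V| :=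
        Finset.abs_sum_le_sum_abs _ _
    _ ≤ ∑ A ∈ S.powerset, mu G β S y A * C := by
        refine Finset.sum_le_sum fun A _ => ?_
        rw [abs_mul, abs_of_pos (mu_pos _ _ _ _ _)]
        refine mul_le_mul_of_nonneg_left ?_ (mu_pos _ _ _ _ _).le
        have := norm_integral_le_of_norm_le_const (μ := gam V) (C := C)
          (f := fun g => F (y + h • stepVec S A + Real.sqrt h • g))
          (ae_of_all _ fun g => by simpa [Real.norm_eq_abs] using hFb _)
        simpa [Real.norm_eq_abs] using this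
    _ = C := by rw [← Finset.sum_mul, sum_mu, one_mul]

theorem oneA_EP_nonneg {h : ℝ} {F : (V → ℝ) → ℝ} (hnn : ∀ y, 0 ≤ F y) (y : V → ℝ) :
    0 ≤ EP G β S h y F := by
  unfold EP
  exact Finset.sum_nonneg fun A _ => mul_nonneg (mu_pos _ _ _ _ _).le
    (integral_nonneg fun g => hnn _)

theorem oneA_EP_add_const {t : ℝ} {F : (V → ℝ) → ℝ} (hF : Measurable F) {C : ℝ}
    (hFb : ∀ y, |F y| ≤ C) (c : ℝ) (y₀ : V → ℝ) :
    EP G β S t y₀ (fun y => F y + c) = EP G β S t y₀ F + c := by
  unfold EP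
  have h : ∀ A ∈ S.powerset, mu G β S y₀ A *
      ∫ g, (F (y₀ + t • stepVec S A + Real.sqrt t • g) + c) ∂gam V =
      mu G β S y₀ A * ∫ g, F (y₀ + t • stepVec S A + Real.sqrt t • g) ∂gam V +
        mu G β S y₀ A * c := by
    intro A _
    have hi : Integrable (fun g => F (y₀ + t • stepVec S A + Real.sqrt t • g)) (gam V) := by
      refine Integrable.of_bound ((hF.comp (measurable_shift _ _ _)).aestronglyMeasurable) C
        (ae_of_all _ fun g => ?_)
      simpa [Real.norm_eq_abs] using hFb _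
    rw [integral_add hi (integrable_const c), integral_const]
    simp
    ring
  rw [Finset.sum_congr rfl h, Finset.sum_add_distrib, ← Finset.sum_mul, sum_mu, one_mul]

theorem oneA_tower_nn {s h : ℝ} (hs : 0 ≤ s) (hh : 0 ≤ h) {F : (V → ℝ) → ℝ} (hF : Measurable F)
    {C : ℝ} (hFb : ∀ y, |F y| ≤ C) (hnn : ∀ y, 0 ≤ F y) (y₀ : V → ℝ) :
    EP G β S (s + h) y₀ F = EP G β S s y₀ (fun y => EP G β S h y F) := by
  have hf : Measurable (fun y => ENNReal.ofReal (F y)) := hF.ennreal_ofReal
  have hjoint : ∀ A : Finset V, Measurable (fun p : (V → ℝ) × (V → ℝ) =>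
      ENNReal.ofReal (F (p.1 + h • stepVec S A + Real.sqrt h • p.2))) := fun A =>
    hf.comp (measurable_stepmap S A h)
  have key : ∀ y, ∫⁻ ξ, Tstep G β S h ξ (fun y => ENNReal.ofReal (F y)) y ∂gam V =
      ENNReal.ofReal (EP G β S h y F) := by
    intro y
    rw [oneA_EP_eq_toReal hF hFb hnn, ENNReal.ofReal_toReal (oneA_planted_ne_top hFb _ _)]
    unfold Tstep planted
    rw [lintegral_finsetSum]
    · refine Finset.sum_congr rfl fun A _ => ?_
      rw [lintegral_const_mul]
      exact (hjoint A).comp (measurable_const.prodMk measurable_id)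
    · intro A _
      exact ((hjoint A).comp (measurable_const.prodMk measurable_id)).const_mul _
  rw [oneA_EP_eq_toReal (t := s + h) hF hFb hnn, ← planted_step S hs hh y₀ hf]
  simp_rw [key]
  rw [oneA_EP_eq_toReal (t := s) (measurable_EP hF hFb) (oneA_abs_EP_le hFb)
    (oneA_EP_nonneg hnn)]

/-- Tower property of the planted law, real form. Uses `planted_step`. -/
theorem EP_tower {s h : ℝ} (hs : 0 ≤ s) (hh : 0 ≤ h) {F : (V → ℝ) → ℝ} (hF : Measurable F) {C : ℝ}
    (hFb : ∀ y, |F y| ≤ C) (y₀ : V → ℝ) :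
    EP G β S (s + h) y₀ F = EP G β S s y₀ (fun y => EP G β S h y F) := by
  have hC : 0 ≤ C := (abs_nonneg _).trans (hFb 0)
  have hF' : Measurable (fun y => F y + C) := hF.add_const C
  have hb' : ∀ y, |F y + C| ≤ 2 * C := by
    intro y
    have := abs_le.mp (hFb y)
    rw [abs_le]
    constructor <;> linarith [this.1, this.2]
  have hn' : ∀ y, 0 ≤ F y + C := by
    intro y
    have := abs_le.mp (hFb y)
    linarith [this.1]
  have h1 := oneA_tower_nn (G := G) (β := β) (S := S) hs hh hF' hb' hn' y₀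
  have h2 : ∀ t y, EP G β S t y (fun y => F y + C) = EP G β S t y F + C := fun t y =>
    oneA_EP_add_const hF hFb C y
  have h3 : (fun y => EP G β S h y (fun y => F y + C)) = fun y => EP G β S h y F + C := by
    funext y
    exact h2 h y
  rw [h3, h2, oneA_EP_add_const (measurable_EP hF hFb) (oneA_abs_EP_le hFb)] at h1
  linarith

/-- The mean spin is a martingale under the planted law: uses `planted_bayes` with
`H B y = 1 + sp B x`. -/
theorem EP_mean {h' : ℝ} (hs : 0 ≤ h') (y₀ : V → ℝ) (x : V) :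
    EP G β S h' y₀ (fun y => mean G β S y x) = mean G β S y₀ x := by
  have hm : Measurable (fun y : V → ℝ => mean G β S y x) := measurable_mean S x
  have hb : ∀ y : V → ℝ, |mean G β S y x| ≤ 1 := fun y =>
    abs_Ee_le G β S y _ (fun A => (abs_sp A x).le)
  have hsum : ∀ y : V → ℝ, ENNReal.ofReal (mean G β S y x + 1) =
      ∑ B ∈ S.powerset, ENNReal.ofReal (mu G β S y B) * ENNReal.ofReal (1 + sp B x) := by
    intro y
    have h1 : mean G β S y x + 1 = ∑ B ∈ S.powerset, mu G β S y B * (1 + sp B x) := by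
      have : ∑ B ∈ S.powerset, mu G β S y B * (1 + sp B x) =
          ∑ B ∈ S.powerset, mu G β S y B + ∑ B ∈ S.powerset, mu G β S y B * sp B x := by
        rw [← Finset.sum_add_distrib]
        exact Finset.sum_congr rfl fun B _ => by ring
      rw [this, sum_mu]
      show Ee G β S y _ + 1 = _
      unfold Ee
      ring
    have hnn : ∀ B ∈ S.powerset, 0 ≤ mu G β S y B * (1 + sp B x) := fun B _ =>
      mul_nonneg (mu_pos _ _ _ _ _).le (by rcases sp_eq_or B x with h | h <;> rw [h] <;> norm_num)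
    rw [h1, ENNReal.ofReal_sum_of_nonneg hnn]
    refine Finset.sum_congr rfl fun B _ => ?_
    rw [ENNReal.ofReal_mul (mu_pos _ _ _ _ _).le]
  have hb' : ∀ y : V → ℝ, |mean G β S y x + 1| ≤ 2 := by
    intro y
    have := abs_le.mp (hb y)
    rw [abs_le]
    constructor <;> linarith [this.1, this.2]
  have hn' : ∀ y : V → ℝ, 0 ≤ mean G β S y x + 1 := by
    intro y
    have := abs_le.mp (hb y)
    linarith [this.1]
  have h1 := oneA_EP_eq_toReal (G := G) (β := β) (S := S) (t := h') (hm.add_const 1) hb' hn' y₀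
  rw [oneA_EP_add_const hm hb 1 y₀] at h1
  simp_rw [hsum] at h1
  rw [planted_bayes S hs y₀ (fun B _ => ENNReal.ofReal (1 + sp B x))
    (fun B => measurable_const)] at h1
  simp only [lintegral_const, measure_univ, mul_one] at h1
  rw [← hsum, ENNReal.toReal_ofReal (hn' y₀)] at h1
  linarith

end Vale.Agent.Lib.P161E
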