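import Vale.Agent.Lib.P161E.OneA

/-! Job D8: one step of the exponential moment. -/

open MeasureTheory Finset
open scoped Classical ENNReal

noncomputable section

namespace Vale.Agent.Lib.P161E

open Vale.Agent.Lib.P161

variable {V : Type*} {G : SimpleGraph V} {β : ℝ} {S : Finset V} {r : V}

/-- Constant of the one step bound. -/
def Cmgf (N lam : ℝ) : ℝ := 1000 * (1 + N) ^ 5 * (1 + |lam|) ^ 3 * Real.exp (2 * |lam|)

/-- Nonnegative part of the cubic exponential bound. -/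
private lemma exp_cubic_nonneg {x : ℝ} (hx : 0 ≤ x) :
    Real.exp x ≤ 1 + x + x ^ 2 / 2 + x ^ 3 * Real.exp x / 6 := by
  have hmono : MonotoneOn (fun u : ℝ => Real.exp (-u) * (1 + u + u ^ 2 / 2) + u ^ 3 / 6 - 1)
      (Set.Ici 0) := by
    apply monotoneOn_of_deriv_nonneg (convex_Ici 0)
    · fun_prop
    · fun_prop
    · intro u hu
      rw [interior_Ici, Set.mem_Ioi] at hu
      have hd : HasDerivAt (fun u : ℝ => Real.exp (-u) * (1 + u + u ^ 2 / 2) + u ^ 3 / 6 - 1)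
          (Real.exp (-u) * (-1) * (1 + u + u ^ 2 / 2) + Real.exp (-u) * (1 + u) + u ^ 2 / 2) u := by
        have h1 : HasDerivAt (fun u : ℝ => Real.exp (-u)) (Real.exp (-u) * (-1)) u :=
          (hasDerivAt_neg u).exp
        have h2 : HasDerivAt (fun u : ℝ => 1 + u + u ^ 2 / 2) (1 + u) u := by
          have h := (((hasDerivAt_id' u).const_add 1).add ((hasDerivAt_pow 2 u).div_const 2))
          exact h.congr_deriv (by norm_num)
        have h3 : HasDerivAt (fun u : ℝ => u ^ 3 / 6) (u ^ 2 / 2) u := by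
          have h := (hasDerivAt_pow 3 u).div_const 6
          exact h.congr_deriv (by norm_num; ring)
        have := ((h1.mul h2).add h3).sub_const 1
        exact this
      rw [hd.deriv]
      have he : Real.exp (-u) ≤ 1 := Real.exp_le_one_iff.mpr (by linarith)
      have : Real.exp (-u) * (-1) * (1 + u + u ^ 2 / 2) + Real.exp (-u) * (1 + u) + u ^ 2 / 2 =
          u ^ 2 / 2 * (1 - Real.exp (-u)) := by ring
      rw [this]
      exact mul_nonneg (by positivity) (by linarith)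
  have h := hmono (Set.mem_Ici.mpr le_rfl) (Set.mem_Ici.mpr hx) hx
  simp only [neg_zero, Real.exp_zero] at h
  have h0 : (0 : ℝ) ≤ Real.exp (-x) * (1 + x + x ^ 2 / 2) + x ^ 3 / 6 - 1 := by
    norm_num at h ⊢
    linarith
  have hexp : Real.exp x * Real.exp (-x) = 1 := by
    rw [← Real.exp_add]; simp
  have hpos := Real.exp_pos x
  have := mul_le_mul_of_nonneg_left h0 hpos.le
  have e : Real.exp x * (Real.exp (-x) * (1 + x + x ^ 2 / 2) + x ^ 3 / 6 - 1) =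
      (Real.exp x * Real.exp (-x)) * (1 + x + x ^ 2 / 2) + x ^ 3 * Real.exp x / 6 - Real.exp x := by
    ring
  rw [e, hexp] at this
  linarith

/-- Negative part of the cubic exponential bound. -/
private lemma exp_neg_quad {y : ℝ} (hy : 0 ≤ y) : Real.exp (-y) ≤ 1 - y + y ^ 2 / 2 := by
  have hmono : MonotoneOn (fun u : ℝ => 1 - u + u ^ 2 / 2 - Real.exp (-u)) (Set.Ici 0) := by
    apply monotoneOn_of_deriv_nonneg (convex_Ici 0)
    · fun_prop
    · fun_prop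
    · intro u hu
      have hd : HasDerivAt (fun u : ℝ => 1 - u + u ^ 2 / 2 - Real.exp (-u))
          (-1 + u - Real.exp (-u) * (-1)) u := by
        have h1 : HasDerivAt (fun u : ℝ => Real.exp (-u)) (Real.exp (-u) * (-1)) u :=
          (hasDerivAt_neg u).exp
        have h2 : HasDerivAt (fun u : ℝ => 1 - u + u ^ 2 / 2) (-1 + u) u := by
          have h := (((hasDerivAt_id' u).const_sub 1).add ((hasDerivAt_pow 2 u).div_const 2))
          exact h.congr_deriv (by norm_num)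
        exact h2.sub h1
      rw [hd.deriv]
      have := Real.add_one_le_exp (-u)
      linarith
  have h := hmono (Set.mem_Ici.mpr le_rfl) (Set.mem_Ici.mpr hy) hy
  simp only [neg_zero, Real.exp_zero] at h
  norm_num at h
  linarith

/-- The third order bound for the exponential. -/
private lemma exp_le_cubic (x : ℝ) :
    Real.exp x ≤ 1 + x + x ^ 2 / 2 + |x| ^ 3 * Real.exp |x| / 6 := by
  rcases le_total 0 x with hx | hx
  · rw [abs_of_nonneg hx]; exact exp_cubic_nonneg hx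
  · have h := exp_neg_quad (y := -x) (by linarith)
    rw [neg_neg] at h
    have hnn : 0 ≤ |x| ^ 3 * Real.exp |x| / 6 := by positivity
    have e : 1 - -x + (-x) ^ 2 / 2 = 1 + x + x ^ 2 / 2 := by ring
    rw [e] at h
    linarith

/-- The pointwise bound with an explicit first order term. -/
private lemma step_real (lam m Δ Lin L : ℝ) (hL : 0 ≤ L) (hΔ : |Δ| ≤ 2) (hLin : |Lin| ≤ 2 * L)
    (hR : |Δ - Lin| ≤ 6 * L ^ 2) :
    Real.exp (lam * (m + Δ)) ≤ Real.exp (lam * m) *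
      (1 + lam * Δ + lam ^ 2 / 2 * (Lin ^ 2 + 24 * L ^ 3 + 36 * L ^ 4) +
        |lam| ^ 3 * Real.exp (2 * |lam|) / 6 * (512 * L ^ 3)) := by
  have e : lam * (m + Δ) = lam * m + lam * Δ := by ring
  rw [e, Real.exp_add]
  refine mul_le_mul_of_nonneg_left ?_ (Real.exp_pos _).le
  refine (exp_le_cubic (lam * Δ)).trans ?_
  -- square bound
  have hsq : Δ ^ 2 ≤ Lin ^ 2 + 24 * L ^ 3 + 36 * L ^ 4 := by
    set R := Δ - Lin with hRd
    have hΔe : Δ = Lin + R := by rw [hRd]; ring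
    have h1 : |Lin * R| ≤ 2 * L * (6 * L ^ 2) := by
      rw [abs_mul]
      exact mul_le_mul hLin hR (abs_nonneg _) (by positivity)
    have h2 : R ^ 2 ≤ (6 * L ^ 2) ^ 2 := by
      rw [← sq_abs R]
      exact pow_le_pow_left₀ (abs_nonneg _) hR 2
    have h3 : Lin * R ≤ 2 * L * (6 * L ^ 2) := (le_abs_self _).trans h1
    rw [hΔe]
    nlinarith
  -- cube bound
  have hcube : |Δ| ^ 3 ≤ 512 * L ^ 3 := by
    have hL3 : 0 ≤ L ^ 3 := by positivity
    rcases le_total L 1 with h | h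
    · have h1 : |Δ| ≤ |Lin| + |Δ - Lin| := by
        have := abs_add_le Lin (Δ - Lin)
        simpa using this
      have h2 : |Δ| ≤ 8 * L := by nlinarith
      calc |Δ| ^ 3 ≤ (8 * L) ^ 3 := pow_le_pow_left₀ (abs_nonneg _) h2 3
        _ = 512 * L ^ 3 := by ring
    · have h1 : |Δ| ^ 3 ≤ 2 ^ 3 := pow_le_pow_left₀ (abs_nonneg _) hΔ 3
      have h2 : (1 : ℝ) ≤ L ^ 3 := one_le_pow₀ h
      nlinarith
  have habs : |lam * Δ| = |lam| * |Δ| := abs_mul _ _
  have hle2 : |lam * Δ| ≤ 2 * |lam| := by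
    rw [habs]
    nlinarith [abs_nonneg lam, abs_nonneg Δ]
  have hexp : Real.exp |lam * Δ| ≤ Real.exp (2 * |lam|) := Real.exp_le_exp.mpr hle2
  have h3 : |lam * Δ| ^ 3 * Real.exp |lam * Δ| / 6 ≤
      |lam| ^ 3 * Real.exp (2 * |lam|) / 6 * (512 * L ^ 3) := by
    have e1 : |lam * Δ| ^ 3 = |lam| ^ 3 * |Δ| ^ 3 := by rw [habs]; ring
    rw [e1]
    have h5 : |lam| ^ 3 * |Δ| ^ 3 ≤ |lam| ^ 3 * (512 * L ^ 3) :=
      mul_le_mul_of_nonneg_left hcube (by positivity)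
    have h6 : |lam| ^ 3 * |Δ| ^ 3 * Real.exp |lam * Δ| ≤
        |lam| ^ 3 * (512 * L ^ 3) * Real.exp (2 * |lam|) :=
      mul_le_mul h5 hexp (Real.exp_pos _).le (by positivity)
    calc |lam| ^ 3 * |Δ| ^ 3 * Real.exp |lam * Δ| / 6
        ≤ |lam| ^ 3 * (512 * L ^ 3) * Real.exp (2 * |lam|) / 6 := by linarith
      _ = _ := by ring
  have h4 : (lam * Δ) ^ 2 / 2 ≤ lam ^ 2 / 2 * (Lin ^ 2 + 24 * L ^ 3 + 36 * L ^ 4) := by
    have : (lam * Δ) ^ 2 / 2 = lam ^ 2 / 2 * Δ ^ 2 := by ring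
    rw [this]
    exact mul_le_mul_of_nonneg_left hsq (by positivity)
  linarith

/-- Integral of a constant plus a combination of four integrable functions. -/
private lemma integral_comb {X : Type*} [MeasurableSpace X] {μ : Measure X} [IsProbabilityMeasure μ]
    {f1 f2 f3 f4 : X → ℝ} (h1 : Integrable f1 μ) (h2 : Integrable f2 μ) (h3 : Integrable f3 μ)
    (h4 : Integrable f4 μ) (a b1 b2 b3 b4 : ℝ) :
    ∫ x, (a + b1 * f1 x + b2 * f2 x + b3 * f3 x + b4 * f4 x) ∂μ =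
      a + b1 * ∫ x, f1 x ∂μ + b2 * ∫ x, f2 x ∂μ + b3 * ∫ x, f3 x ∂μ + b4 * ∫ x, f4 x ∂μ := by
  have i0 : Integrable (fun _ : X => a) μ := integrable_const _
  have i1 := h1.const_mul b1
  have i2 := h2.const_mul b2
  have i3 := h3.const_mul b3
  have i4 := h4.const_mul b4
  have i01 : Integrable (fun x => a + b1 * f1 x) μ := i0.add i1
  have i012 : Integrable (fun x => a + b1 * f1 x + b2 * f2 x) μ := i01.add i2
  have i0123 : Integrable (fun x => a + b1 * f1 x + b2 * f2 x + b3 * f3 x) μ := i012.add i3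
  rw [integral_add i0123 i4, integral_add i012 i3, integral_add i01 i2, integral_add i0 i1]
  simp only [integral_const, probReal_univ, one_smul, integral_const_mul]

private lemma abs_cov_le_two (y : V → ℝ) (u v : V) : |cov G β S y u v| ≤ 2 := by
  unfold cov
  have h1 : |Ee G β S y (fun A => sp A u * sp A v)| ≤ 1 := by
    refine abs_Ee_le _ _ _ _ _ fun A => ?_
    rw [abs_mul, abs_sp, abs_sp]; norm_num
  have h2 : |mean G β S y u * mean G β S y v| ≤ 1 := by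
    rw [abs_mul]
    have a := abs_mean_le G β S y u
    have b := abs_mean_le G β S y v
    nlinarith [abs_nonneg (mean G β S y u), abs_nonneg (mean G β S y v)]
  calc _ ≤ |Ee G β S y (fun A => sp A u * sp A v)| + |mean G β S y u * mean G β S y v| :=
        abs_sub _ _
    _ ≤ 2 := by linarith

private lemma abs_stepVec_le (A : Finset V) (v : V) : |stepVec S A v| ≤ 1 := by
  unfold stepVec
  split_ifs
  · exact (abs_sp A v).le
  · simp

/-- Integrability companion of `integral_comb`. -/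
private lemma integrable_comb {X : Type*} [MeasurableSpace X] {μ : Measure X} [IsProbabilityMeasure μ]
    {f1 f2 f3 f4 : X → ℝ} (h1 : Integrable f1 μ) (h2 : Integrable f2 μ) (h3 : Integrable f3 μ)
    (h4 : Integrable f4 μ) (a b1 b2 b3 b4 : ℝ) :
    Integrable (fun x => a + b1 * f1 x + b2 * f2 x + b3 * f3 x + b4 * f4 x) μ := by
  have i0 : Integrable (fun _ : X => a) μ := integrable_const _
  have i01 : Integrable (fun x => a + b1 * f1 x) μ := i0.add (h1.const_mul b1)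
  have i012 : Integrable (fun x => a + b1 * f1 x + b2 * f2 x) μ := i01.add (h2.const_mul b2)
  have i0123 : Integrable (fun x => a + b1 * f1 x + b2 * f2 x + b3 * f3 x) μ :=
    i012.add (h3.const_mul b3)
  exact i0123.add (h4.const_mul b4)

private lemma add_cube_le {a b : ℝ} (ha : 0 ≤ a) (hb : 0 ≤ b) : (a + b) ^ 3 ≤ 4 * (a ^ 3 + b ^ 3) := by
  nlinarith [mul_nonneg (add_nonneg ha hb) (sq_nonneg (a - b))]

private lemma add_four_le {a b : ℝ} (ha : 0 ≤ a) (hb : 0 ≤ b) : (a + b) ^ 4 ≤ 8 * (a ^ 4 + b ^ 4) := by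
  have h : 0 ≤ (a - b) ^ 2 * (7 * a ^ 2 + 10 * (a * b) + 7 * b ^ 2) :=
    mul_nonneg (sq_nonneg _) (by positivity)
  nlinarith [h]

/-- The quadratic moment of an affine form in the noise. -/
private lemma lin_sq_moment (c : V → ℝ) (hcb : ∀ v, |c v| ≤ 2) (a e : ℝ) :
    Integrable (fun g : V → ℝ => (a + e * ∑ v ∈ S, c v * g v) ^ 2) (gam V) ∧
      ∫ g, (a + e * ∑ v ∈ S, c v * g v) ^ 2 ∂gam V = a ^ 2 + e ^ 2 * ∑ v ∈ S, c v ^ 2 := by
  let l : (V → ℝ) → ℝ := fun g => ∑ v ∈ S, c v * g v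
  have hl_meas : Measurable l :=
    Finset.measurable_sum _ fun v _ => (measurable_pi_apply v).const_mul _
  have hG1_int : ∀ p, Integrable (fun g : V → ℝ => (∑ v ∈ S, |g v|) ^ p) (gam V) :=
    fun p => integrable_l1_pow S p
  have hl_abs : ∀ g, |l g| ≤ 2 * ∑ v ∈ S, |g v| := by
    intro g
    calc |l g| ≤ ∑ v ∈ S, |c v * g v| := Finset.abs_sum_le_sum_abs _ _
      _ ≤ ∑ v ∈ S, 2 * |g v| := by
          refine Finset.sum_le_sum fun v _ => ?_
          rw [abs_mul]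
          exact mul_le_mul_of_nonneg_right (hcb v) (abs_nonneg _)
      _ = 2 * ∑ v ∈ S, |g v| := by rw [Finset.mul_sum]
  have hl_int : Integrable l (gam V) := by
    refine Integrable.mono' ((hG1_int 1).const_mul 2) hl_meas.aestronglyMeasurable
      (Filter.Eventually.of_forall fun g => ?_)
    rw [Real.norm_eq_abs]
    simpa using hl_abs g
  have hl2_int : Integrable (fun g => l g ^ 2) (gam V) := by
    refine Integrable.mono' ((hG1_int 2).const_mul 4) (hl_meas.pow_const 2).aestronglyMeasurable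
      (Filter.Eventually.of_forall fun g => ?_)
    rw [Real.norm_eq_abs, abs_pow]
    have := pow_le_pow_left₀ (abs_nonneg _) (hl_abs g) 2
    calc |l g| ^ 2 ≤ (2 * ∑ v ∈ S, |g v|) ^ 2 := this
      _ = 4 * (∑ v ∈ S, |g v|) ^ 2 := by ring
  have hl_0 : ∫ g, l g ∂gam V = 0 := integral_linear S c
  have hl2_Q : ∫ g, l g ^ 2 ∂gam V = ∑ v ∈ S, c v ^ 2 := integral_linear_sq S c
  have hE : ∀ g, (a + e * l g) ^ 2 = a ^ 2 + (2 * a * e) * l g + (e ^ 2) * l g ^ 2 + 0 * l g + 0 * l g := by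
    intro g
    ring
  constructor
  · have := integrable_comb hl_int hl2_int hl_int hl_int (a ^ 2) (2 * a * e) (e ^ 2) 0 0
    exact this.congr (Filter.Eventually.of_forall fun g => (hE g).symm)
  · have h1 : ∫ g, (a + e * l g) ^ 2 ∂gam V = ∫ g, (a ^ 2 + (2 * a * e) * l g + (e ^ 2) * l g ^ 2 +
        0 * l g + 0 * l g) ∂gam V :=
      integral_congr_ae (Filter.Eventually.of_forall fun g => hE g)
    show ∫ g, (a + e * l g) ^ 2 ∂gam V = _
    rw [h1, integral_comb hl_int hl2_int hl_int hl_int, hl_0, hl2_Q]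
    ring

/-- The size of the increment. -/
private lemma incr_l1_le {δ' : ℝ} (hδ0 : 0 ≤ δ') (hδ1 : δ' ≤ 1) (A : Finset V) (g : V → ℝ) :
    ∑ v ∈ S, |(δ' • stepVec S A + Real.sqrt δ' • g) v| ≤
      Real.sqrt δ' * ((S.card : ℝ) + ∑ v ∈ S, |g v|) := by
  have hs0 : 0 ≤ Real.sqrt δ' := Real.sqrt_nonneg _
  have hs1 : Real.sqrt δ' ≤ 1 := Real.sqrt_le_one.mpr hδ1
  have hss : Real.sqrt δ' ^ 2 = δ' := Real.sq_sqrt hδ0
  have hδs : δ' ≤ Real.sqrt δ' := by nlinarith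
  calc ∑ v ∈ S, |(δ' • stepVec S A + Real.sqrt δ' • g) v|
      ≤ ∑ v ∈ S, Real.sqrt δ' * (1 + |g v|) := by
        refine Finset.sum_le_sum fun v _ => ?_
        have h1 : |(δ' • stepVec S A + Real.sqrt δ' • g) v| ≤
            |δ' * stepVec S A v| + |Real.sqrt δ' * g v| := by
          have : (δ' • stepVec S A + Real.sqrt δ' • g) v =
              δ' * stepVec S A v + Real.sqrt δ' * g v := by simp
          rw [this]
          exact abs_add_le _ _
        have h2 : |δ' * stepVec S A v| ≤ Real.sqrt δ' := by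
          rw [abs_mul, abs_of_nonneg hδ0]
          have h3 := abs_stepVec_le (S := S) A v
          nlinarith [abs_nonneg (stepVec S A v)]
        have h4 : |Real.sqrt δ' * g v| = Real.sqrt δ' * |g v| := by
          rw [abs_mul, abs_of_nonneg hs0]
        rw [h4] at h1
        nlinarith
    _ = Real.sqrt δ' * ((S.card : ℝ) + ∑ v ∈ S, |g v|) := by
        rw [← Finset.mul_sum, Finset.sum_add_distrib, Finset.sum_const, nsmul_eq_mul, mul_one]

/-- The bracket of `step_real` after the bound of the `ℓ¹` norm. -/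
private lemma bracket_le (lam Δ Li L e N G1 : ℝ) (hL0 : 0 ≤ L) (he0 : 0 ≤ e) (he1 : e ≤ 1)
    (hN : 0 ≤ N) (hG : 0 ≤ G1) (hL : L ≤ e * (N + G1)) :
    1 + lam * Δ + lam ^ 2 / 2 * (Li ^ 2 + 24 * L ^ 3 + 36 * L ^ 4) +
        |lam| ^ 3 * Real.exp (2 * |lam|) / 6 * (512 * L ^ 3) ≤
      (1 + lam * Δ + e ^ 3 * ((12 * lam ^ 2 + 256 / 3 * |lam| ^ 3 * Real.exp (2 * |lam|)) * (4 * N ^ 3) +
          18 * lam ^ 2 * (8 * N ^ 4))) +
        (lam ^ 2 / 2) * Li ^ 2 +
        (e ^ 3 * (12 * lam ^ 2 + 256 / 3 * |lam| ^ 3 * Real.exp (2 * |lam|)) * 4) * G1 ^ 3 +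
        (e ^ 3 * (18 * lam ^ 2) * 8) * G1 ^ 4 := by
  set c1 := 12 * lam ^ 2 + 256 / 3 * |lam| ^ 3 * Real.exp (2 * |lam|) with hc1
  have hc10 : 0 ≤ c1 := by positivity
  have hc20 : 0 ≤ 18 * lam ^ 2 := by positivity
  have h3 : L ^ 3 ≤ e ^ 3 * (4 * (N ^ 3 + G1 ^ 3)) := by
    calc L ^ 3 ≤ (e * (N + G1)) ^ 3 := pow_le_pow_left₀ hL0 hL 3
      _ = e ^ 3 * (N + G1) ^ 3 := by ring
      _ ≤ e ^ 3 * (4 * (N ^ 3 + G1 ^ 3)) :=
        mul_le_mul_of_nonneg_left (add_cube_le hN hG) (by positivity)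
  have h4 : L ^ 4 ≤ e ^ 3 * (8 * (N ^ 4 + G1 ^ 4)) := by
    calc L ^ 4 ≤ (e * (N + G1)) ^ 4 := pow_le_pow_left₀ hL0 hL 4
      _ = e ^ 3 * (e * (N + G1) ^ 4) := by ring
      _ ≤ e ^ 3 * (1 * (8 * (N ^ 4 + G1 ^ 4))) := by
        refine mul_le_mul_of_nonneg_left ?_ (by positivity)
        exact mul_le_mul he1 (add_four_le hN hG) (by positivity) (by norm_num)
      _ = _ := by ring
  have e1 : lam ^ 2 / 2 * (Li ^ 2 + 24 * L ^ 3 + 36 * L ^ 4) +
        |lam| ^ 3 * Real.exp (2 * |lam|) / 6 * (512 * L ^ 3) =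
      lam ^ 2 / 2 * Li ^ 2 + c1 * L ^ 3 + (18 * lam ^ 2) * L ^ 4 := by
    rw [hc1]; ring
  have h5 := mul_le_mul_of_nonneg_left h3 hc10
  have h6 := mul_le_mul_of_nonneg_left h4 hc20
  nlinarith

/-- The final numerical inequality between the constants. -/
private lemma const_le {N x E : ℝ} (hN : 1 ≤ N) (hx : 0 ≤ x) (hE : 1 ≤ E) :
    2 * x ^ 2 * N ^ 2 + ((12 * x ^ 2 + 256 / 3 * x ^ 3 * E) * (4 * (N ^ 3 + 3 * (N + 1) ^ 3)) +
        18 * x ^ 2 * (8 * (N ^ 4 + 3 * (N + 1) ^ 4))) ≤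
      1000 * (1 + N) ^ 5 * (1 + x) ^ 3 * E := by
  set P := N + 1 with hP
  have hP2 : 2 ≤ P := by rw [hP]; linarith
  have hNP : N ≤ P := by rw [hP]; linarith
  have hN0 : 0 ≤ N := by linarith
  have e1 : 1 + N = P := by rw [hP]; ring
  rw [e1]
  have hP0 : 0 ≤ P := by linarith
  have hY0 : 0 ≤ P ^ 5 := by positivity
  have h3 : N ^ 3 ≤ P ^ 3 := pow_le_pow_left₀ hN0 hNP 3
  have h4 : N ^ 4 ≤ P ^ 4 := pow_le_pow_left₀ hN0 hNP 4
  have h2 : N ^ 2 ≤ P ^ 2 := pow_le_pow_left₀ hN0 hNP 2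
  have p3 : 4 * P ^ 3 ≤ P ^ 5 := by
    have : P ^ 5 = P ^ 2 * P ^ 3 := by ring
    rw [this]
    exact mul_le_mul_of_nonneg_right (by nlinarith) (by positivity)
  have p4 : 2 * P ^ 4 ≤ P ^ 5 := by
    have : P ^ 5 = P * P ^ 4 := by ring
    rw [this]
    exact mul_le_mul_of_nonneg_right hP2 (by positivity)
  have p2 : 8 * P ^ 2 ≤ P ^ 5 := by
    have : P ^ 5 = P ^ 3 * P ^ 2 := by ring
    rw [this]
    refine mul_le_mul_of_nonneg_right ?_ (by positivity)
    have : (2 : ℝ) ^ 3 ≤ P ^ 3 := pow_le_pow_left₀ (by norm_num) hP2 3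
    linarith
  set Y := P ^ 5 with hY
  have a1 : 4 * (N ^ 3 + 3 * P ^ 3) ≤ 4 * Y := by linarith
  have a2 : 8 * (N ^ 4 + 3 * P ^ 4) ≤ 16 * Y := by linarith
  have a3 : 2 * N ^ 2 ≤ Y / 4 := by linarith
  have hx2 : 0 ≤ x ^ 2 := by positivity
  have hx3 : 0 ≤ x ^ 3 := by positivity
  have hE0 : 0 ≤ E := by linarith
  have b1 : 2 * x ^ 2 * N ^ 2 ≤ x ^ 2 * (Y / 4) := by
    have := mul_le_mul_of_nonneg_left a3 hx2
    linarith
  have hc1 : 0 ≤ 12 * x ^ 2 + 256 / 3 * x ^ 3 * E := by positivity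
  have b2 := mul_le_mul_of_nonneg_left a1 hc1
  have b3 := mul_le_mul_of_nonneg_left a2 (by positivity : 0 ≤ 18 * x ^ 2)
  have hYE : 0 ≤ Y * E := by positivity
  have hxE : x ^ 2 * Y ≤ x ^ 2 * (Y * E) := by
    have : Y * 1 ≤ Y * E := mul_le_mul_of_nonneg_left hE hY0
    have h := mul_le_mul_of_nonneg_left this hx2
    linarith
  have hkey : (337 * x ^ 2 + 342 * x ^ 3) ≤ 1000 * (1 + x) ^ 3 := by
    nlinarith [mul_nonneg hx hx2, hx3, hx2, hx]
  have hfin := mul_le_mul_of_nonneg_left hkey hYE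
  nlinarith

/-- The pointwise bound for one configuration and one noise. -/
private lemma step_pointwise {δ' : ℝ} (hδ0 : 0 ≤ δ') (hδ1 : δ' ≤ 1) (lam : ℝ) (y : V → ℝ)
    (A : Finset V) (g : V → ℝ) :
    Real.exp (lam * mean G β S (y + δ' • stepVec S A + Real.sqrt δ' • g) r) ≤
      Real.exp (lam * mean G β S y r) *
        ((1 - lam * mean G β S y r + Real.sqrt δ' ^ 3 *
            ((12 * lam ^ 2 + 256 / 3 * |lam| ^ 3 * Real.exp (2 * |lam|)) * (4 * (S.card : ℝ) ^ 3) +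
              18 * lam ^ 2 * (8 * (S.card : ℝ) ^ 4))) +
          lam * mean G β S (y + δ' • stepVec S A + Real.sqrt δ' • g) r +
          (lam ^ 2 / 2) * (δ' * (∑ v ∈ S, cov G β S y r v * stepVec S A v) +
            Real.sqrt δ' * ∑ v ∈ S, cov G β S y r v * g v) ^ 2 +
          (Real.sqrt δ' ^ 3 * (12 * lam ^ 2 + 256 / 3 * |lam| ^ 3 * Real.exp (2 * |lam|)) * 4) *
            (∑ v ∈ S, |g v|) ^ 3 +
          (Real.sqrt δ' ^ 3 * (18 * lam ^ 2) * 8) * (∑ v ∈ S, |g v|) ^ 4) := by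
  have he0 : 0 ≤ Real.sqrt δ' := Real.sqrt_nonneg _
  have he1 : Real.sqrt δ' ≤ 1 := Real.sqrt_le_one.mpr hδ1
  set w : V → ℝ := δ' • stepVec S A + Real.sqrt δ' • g with hw
  have hyw : y + δ' • stepVec S A + Real.sqrt δ' • g = y + w := by rw [hw, add_assoc]
  rw [hyw]
  set L := ∑ v ∈ S, |w v| with hL
  have hL0 : 0 ≤ L := Finset.sum_nonneg fun _ _ => abs_nonneg _
  set m := mean G β S y r with hm
  set Δ := mean G β S (y + w) r - m with hΔ
  have hΔb : |Δ| ≤ 2 := by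
    have h1 := abs_mean_le G β S (y + w) r
    have h2 := abs_mean_le G β S y r
    calc |Δ| ≤ |mean G β S (y + w) r| + |m| := abs_sub _ _
      _ ≤ 2 := by rw [hm]; linarith
  set Li := δ' * (∑ v ∈ S, cov G β S y r v * stepVec S A v) +
    Real.sqrt δ' * ∑ v ∈ S, cov G β S y r v * g v with hLi
  have hLinE : ∑ v ∈ S, cov G β S y r v * w v = Li := by
    simp only [hLi, hw, Pi.add_apply, Pi.smul_apply, smul_eq_mul, Finset.mul_sum, mul_add]
    rw [Finset.sum_add_distrib]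
    congr 1
    · exact Finset.sum_congr rfl fun v _ => by ring
    · exact Finset.sum_congr rfl fun v _ => by ring
  have hLinb : |Li| ≤ 2 * L := by
    rw [← hLinE]
    calc |∑ v ∈ S, cov G β S y r v * w v| ≤ ∑ v ∈ S, |cov G β S y r v * w v| :=
          Finset.abs_sum_le_sum_abs _ _
      _ ≤ ∑ v ∈ S, 2 * |w v| := by
          refine Finset.sum_le_sum fun v _ => ?_
          rw [abs_mul]
          exact mul_le_mul_of_nonneg_right (abs_cov_le_two y r v) (abs_nonneg _)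
      _ = 2 * L := by rw [Finset.mul_sum]
  have hR : |Δ - Li| ≤ 6 * L ^ 2 := by
    have := mean_taylor G β S y w r
    rw [hLinE] at this
    exact this
  have hstep := step_real lam m Δ Li L hL0 hΔb hLinb hR
  have hmΔ : m + Δ = mean G β S (y + w) r := by rw [hΔ]; ring
  rw [hmΔ] at hstep
  refine hstep.trans (mul_le_mul_of_nonneg_left ?_ (Real.exp_pos _).le)
  have hb := bracket_le lam Δ Li L (Real.sqrt δ') (S.card : ℝ) (∑ v ∈ S, |g v|) hL0 he0 he1
    (Nat.cast_nonneg _) (Finset.sum_nonneg fun _ _ => abs_nonneg _) (incr_l1_le hδ0 hδ1 A g)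
  refine hb.trans (le_of_eq ?_)
  rw [hΔ]
  ring

/-- The per configuration bound. -/
private lemma step_per_A {δ' : ℝ} (hδ0 : 0 ≤ δ') (hδ1 : δ' ≤ 1) (lam : ℝ) (y : V → ℝ) (A : Finset V) :
    ∫ g, Real.exp (lam * mean G β S (y + δ' • stepVec S A + Real.sqrt δ' • g) r) ∂gam V ≤
      Real.exp (lam * mean G β S y r) *
        (1 + lam * (∫ g, mean G β S (y + δ' • stepVec S A + Real.sqrt δ' • g) r ∂gam V -
            mean G β S y r) +
          lam ^ 2 / 2 * (δ' ^ 2 * (4 * (S.card : ℝ) ^ 2) + δ' * ∑ v ∈ S, cov G β S y r v ^ 2) +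
          Real.sqrt δ' ^ 3 * ((12 * lam ^ 2 + 256 / 3 * |lam| ^ 3 * Real.exp (2 * |lam|)) *
              (4 * ((S.card : ℝ) ^ 3 + 3 * ((S.card : ℝ) + 1) ^ 3)) +
            18 * lam ^ 2 * (8 * ((S.card : ℝ) ^ 4 + 3 * ((S.card : ℝ) + 1) ^ 4)))) := by
  have he0 : 0 ≤ Real.sqrt δ' := Real.sqrt_nonneg _
  have hss : Real.sqrt δ' ^ 2 = δ' := Real.sq_sqrt hδ0
  obtain ⟨hLi_int, hLi_val⟩ := lin_sq_moment (S := S) (fun v => cov G β S y r v)
    (fun v => abs_cov_le_two y r v)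
    (δ' * ∑ v ∈ S, cov G β S y r v * stepVec S A v) (Real.sqrt δ')
  have hM_int : Integrable (fun g => mean G β S (y + δ' • stepVec S A + Real.sqrt δ' • g) r) (gam V) :=
    integrable_shift (F := fun y' => mean G β S y' r) (C := 1) (measurable_mean S r)
      (fun y' => abs_mean_le G β S y' r)
  have hF_meas : Measurable (fun y' : V → ℝ => Real.exp (lam * mean G β S y' r)) :=
    (measurable_const.mul (measurable_mean S r)).exp
  have hF_bd : ∀ y' : V → ℝ, |Real.exp (lam * mean G β S y' r)| ≤ Real.exp |lam| := by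
    intro y'
    rw [abs_of_pos (Real.exp_pos _)]
    refine Real.exp_le_exp.mpr ?_
    have h1 := abs_mean_le G β S y' r
    calc lam * mean G β S y' r ≤ |lam * mean G β S y' r| := le_abs_self _
      _ = |lam| * |mean G β S y' r| := abs_mul _ _
      _ ≤ |lam| * 1 := mul_le_mul_of_nonneg_left h1 (abs_nonneg _)
      _ = |lam| := mul_one _
  have hexp_int : Integrable
      (fun g => Real.exp (lam * mean G β S (y + δ' • stepVec S A + Real.sqrt δ' • g) r)) (gam V) :=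
    integrable_shift hF_meas hF_bd
  have hG3 : Integrable (fun g : V → ℝ => (∑ v ∈ S, |g v|) ^ 3) (gam V) := integrable_l1_pow S 3
  have hG4 : Integrable (fun g : V → ℝ => (∑ v ∈ S, |g v|) ^ 4) (gam V) := integrable_l1_pow S 4
  have hG3v : ∫ g : V → ℝ, (∑ v ∈ S, |g v|) ^ 3 ∂gam V ≤ 3 * ((S.card : ℝ) + 1) ^ 3 :=
    integral_l1_pow_le S 3 (by norm_num)
  have hG4v : ∫ g : V → ℝ, (∑ v ∈ S, |g v|) ^ 4 ∂gam V ≤ 3 * ((S.card : ℝ) + 1) ^ 4 :=
    integral_l1_pow_le S 4 (by norm_num)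
  set c1 := 12 * lam ^ 2 + 256 / 3 * |lam| ^ 3 * Real.exp (2 * |lam|) with hc1
  have hc10 : 0 ≤ c1 := by positivity
  set m := mean G β S y r with hm
  set N : ℝ := (S.card : ℝ) with hN
  set aA := ∑ v ∈ S, cov G β S y r v * stepVec S A v with haA
  have hcomb := integrable_comb hM_int hLi_int hG3 hG4
    (1 - lam * m + Real.sqrt δ' ^ 3 * (c1 * (4 * N ^ 3) + 18 * lam ^ 2 * (8 * N ^ 4)))
    lam (lam ^ 2 / 2) (Real.sqrt δ' ^ 3 * c1 * 4) (Real.sqrt δ' ^ 3 * (18 * lam ^ 2) * 8)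
  have hmono := integral_mono hexp_int (hcomb.const_mul (Real.exp (lam * m)))
    (fun g => step_pointwise hδ0 hδ1 lam y A g)
  refine hmono.trans ?_
  rw [integral_const_mul, integral_comb hM_int hLi_int hG3 hG4, hLi_val]
  refine mul_le_mul_of_nonneg_left ?_ (Real.exp_pos _).le
  have haA2 : aA ^ 2 ≤ 4 * N ^ 2 := by
    have h1 : |aA| ≤ 2 * N := by
      calc |aA| ≤ ∑ v ∈ S, |cov G β S y r v * stepVec S A v| := Finset.abs_sum_le_sum_abs _ _
        _ ≤ ∑ _v ∈ S, (2 : ℝ) := by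
            refine Finset.sum_le_sum fun v _ => ?_
            rw [abs_mul]
            have h2 := abs_cov_le_two (G := G) (β := β) (S := S) y r v
            have h3 := abs_stepVec_le (S := S) A v
            nlinarith [abs_nonneg (cov G β S y r v), abs_nonneg (stepVec S A v)]
        _ = 2 * N := by rw [Finset.sum_const, nsmul_eq_mul]; ring
    have := pow_le_pow_left₀ (abs_nonneg _) h1 2
    rw [sq_abs] at this
    calc aA ^ 2 ≤ (2 * N) ^ 2 := this
      _ = 4 * N ^ 2 := by ring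
  have h2 : (δ' * aA) ^ 2 + Real.sqrt δ' ^ 2 * ∑ v ∈ S, cov G β S y r v ^ 2 ≤
      δ' ^ 2 * (4 * N ^ 2) + δ' * ∑ v ∈ S, cov G β S y r v ^ 2 := by
    rw [hss]
    have : δ' ^ 2 * aA ^ 2 ≤ δ' ^ 2 * (4 * N ^ 2) := mul_le_mul_of_nonneg_left haA2 (by positivity)
    nlinarith
  have h3 := mul_le_mul_of_nonneg_left h2 (by positivity : 0 ≤ lam ^ 2 / 2)
  have hb3 : 0 ≤ Real.sqrt δ' ^ 3 * c1 * 4 := by positivity
  have hb4 : 0 ≤ Real.sqrt δ' ^ 3 * (18 * lam ^ 2) * 8 := by positivity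
  have h4 := mul_le_mul_of_nonneg_left hG3v hb3
  have h5 := mul_le_mul_of_nonneg_left hG4v hb4
  have e1 : Real.sqrt δ' ^ 3 * (c1 * (4 * (N ^ 3 + 3 * (N + 1) ^ 3)) +
      18 * lam ^ 2 * (8 * (N ^ 4 + 3 * (N + 1) ^ 4))) =
      Real.sqrt δ' ^ 3 * (c1 * (4 * N ^ 3) + 18 * lam ^ 2 * (8 * N ^ 4)) +
        Real.sqrt δ' ^ 3 * c1 * 4 * (3 * (N + 1) ^ 3) +
        Real.sqrt δ' ^ 3 * (18 * lam ^ 2) * 8 * (3 * (N + 1) ^ 4) := by ring
  rw [e1]
  linarith

/-- One step of the exponential moment. Write `f = mean S · r`, `w = δ σ_A + √δ g`,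
`x = λ (f (y+w) - f y)`: `exp x ≤ 1 + x + x²/2 + |x|³ exp|x| / 6`, `E x = 0` by `EP_mean`,
`f (y+w) - f y = ∑ cov y r v * w v + O(|w|₁²)` by `mean_taylor`. -/
theorem mgf_step (hr : r ∈ S) {δ : ℝ} (hδ0 : 0 ≤ δ) (hδ1 : δ ≤ 1) (lam : ℝ) (y : V → ℝ) :
    EP G β S δ y (fun y' => Real.exp (lam * mean G β S y' r)) ≤
      Real.exp (lam * mean G β S y r) *
        (1 + lam ^ 2 / 2 * δ * ∑ v ∈ S, cov G β S y r v ^ 2 + Cmgf S.card lam * δ ^ (3 / 2 : ℝ)) := by
  have he0 : 0 ≤ Real.sqrt δ := Real.sqrt_nonneg _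
  have he1 : Real.sqrt δ ≤ 1 := Real.sqrt_le_one.mpr hδ1
  have hss : Real.sqrt δ ^ 2 = δ := Real.sq_sqrt hδ0
  have hrp : δ ^ (3 / 2 : ℝ) = Real.sqrt δ ^ 3 := by
    rw [Real.sqrt_eq_rpow, ← Real.rpow_natCast, ← Real.rpow_mul hδ0]
    norm_num
  set N : ℝ := (S.card : ℝ) with hN
  have hN1 : 1 ≤ N := by
    rw [hN]
    exact_mod_cast Finset.card_pos.mpr ⟨r, hr⟩
  set m := mean G β S y r with hm
  set Q := ∑ v ∈ S, cov G β S y r v ^ 2 with hQ
  set D := (12 * lam ^ 2 + 256 / 3 * |lam| ^ 3 * Real.exp (2 * |lam|)) *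
      (4 * (N ^ 3 + 3 * (N + 1) ^ 3)) + 18 * lam ^ 2 * (8 * (N ^ 4 + 3 * (N + 1) ^ 4)) with hD
  have hEP := EP_mean (G := G) (β := β) (S := S) hδ0 y r
  unfold EP at hEP ⊢
  have hstep : ∀ A ∈ S.powerset, mu G β S y A *
      ∫ g, Real.exp (lam * mean G β S (y + δ • stepVec S A + Real.sqrt δ • g) r) ∂gam V ≤
      mu G β S y A * (Real.exp (lam * m) *
        (1 + lam * (∫ g, mean G β S (y + δ • stepVec S A + Real.sqrt δ • g) r ∂gam V - m) +
          lam ^ 2 / 2 * (δ ^ 2 * (4 * N ^ 2) + δ * Q) + Real.sqrt δ ^ 3 * D)) :=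
    fun A _ => mul_le_mul_of_nonneg_left (step_per_A hδ0 hδ1 lam y A) (mu_pos _ _ _ _ _).le
  refine (Finset.sum_le_sum hstep).trans ?_
  set T := lam ^ 2 / 2 * (δ ^ 2 * (4 * N ^ 2) + δ * Q) + Real.sqrt δ ^ 3 * D with hT
  have hsum : ∑ A ∈ S.powerset, mu G β S y A * (Real.exp (lam * m) *
        (1 + lam * (∫ g, mean G β S (y + δ • stepVec S A + Real.sqrt δ • g) r ∂gam V - m) +
          lam ^ 2 / 2 * (δ ^ 2 * (4 * N ^ 2) + δ * Q) + Real.sqrt δ ^ 3 * D)) =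
      Real.exp (lam * m) * (1 + T) := by
    have h1 : ∀ A ∈ S.powerset, mu G β S y A * (Real.exp (lam * m) *
        (1 + lam * (∫ g, mean G β S (y + δ • stepVec S A + Real.sqrt δ • g) r ∂gam V - m) +
          lam ^ 2 / 2 * (δ ^ 2 * (4 * N ^ 2) + δ * Q) + Real.sqrt δ ^ 3 * D)) =
        Real.exp (lam * m) * (mu G β S y A * (1 - lam * m + T) +
          lam * (mu G β S y A *
            ∫ g, mean G β S (y + δ • stepVec S A + Real.sqrt δ • g) r ∂gam V)) := by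
      intro A _
      rw [hT]
      ring
    rw [Finset.sum_congr rfl h1, ← Finset.mul_sum, Finset.sum_add_distrib, ← Finset.sum_mul,
      sum_mu, one_mul, ← Finset.mul_sum, hEP]
    congr 1
    ring
  rw [hsum]
  refine mul_le_mul_of_nonneg_left ?_ (Real.exp_pos _).le
  -- numerics
  have hc := const_le (N := N) (x := |lam|) (E := Real.exp (2 * |lam|)) hN1 (abs_nonneg _)
    (Real.one_le_exp (by positivity))
  rw [sq_abs] at hc
  have hCm : Cmgf N lam = 1000 * (1 + N) ^ 5 * (1 + |lam|) ^ 3 * Real.exp (2 * |lam|) := rfl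
  rw [hrp, hCm]
  have hδ2 : δ ^ 2 ≤ Real.sqrt δ ^ 3 := by
    calc δ ^ 2 = (Real.sqrt δ ^ 2) ^ 2 := by rw [hss]
      _ = Real.sqrt δ ^ 3 * Real.sqrt δ := by ring
      _ ≤ Real.sqrt δ ^ 3 * 1 := mul_le_mul_of_nonneg_left he1 (by positivity)
      _ = _ := mul_one _
  have h1 : lam ^ 2 / 2 * (δ ^ 2 * (4 * N ^ 2)) ≤ Real.sqrt δ ^ 3 * (2 * lam ^ 2 * N ^ 2) := by
    have h2 := mul_le_mul_of_nonneg_right hδ2 (by positivity : 0 ≤ 2 * lam ^ 2 * N ^ 2)
    nlinarith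
  have h3 := mul_le_mul_of_nonneg_left hc (by positivity : 0 ≤ Real.sqrt δ ^ 3)
  rw [hT]
  have e2 : lam ^ 2 / 2 * (δ ^ 2 * (4 * N ^ 2) + δ * Q) =
      lam ^ 2 / 2 * (δ ^ 2 * (4 * N ^ 2)) + lam ^ 2 / 2 * δ * Q := by ring
  rw [e2]
  have e3 : Real.sqrt δ ^ 3 * (2 * lam ^ 2 * N ^ 2 + D) =
      Real.sqrt δ ^ 3 * (2 * lam ^ 2 * N ^ 2) + Real.sqrt δ ^ 3 * D := by ring
  have e4 : Real.sqrt δ ^ 3 * (1000 * (1 + N) ^ 5 * (1 + |lam|) ^ 3 * Real.exp (2 * |lam|)) =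
      1000 * (1 + N) ^ 5 * (1 + |lam|) ^ 3 * Real.exp (2 * |lam|) * Real.sqrt δ ^ 3 := by ring
  rw [hD] at e3
  have hrw : 2 * lam ^ 2 * N ^ 2 + ((12 * lam ^ 2 + 256 / 3 * |lam| ^ 3 * Real.exp (2 * |lam|)) *
      (4 * (N ^ 3 + 3 * (N + 1) ^ 3)) + 18 * lam ^ 2 * (8 * (N ^ 4 + 3 * (N + 1) ^ 4))) ≤ _ := hc
  have h3' := mul_le_mul_of_nonneg_left hrw (by positivity : 0 ≤ Real.sqrt δ ^ 3)
  rw [hD] at *
  linarith

end Vale.Agent.Lib.P161E
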