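import Vale.Agent.Lib.P161E.OneB

/-! Job D9: Gronwall for the exponential moment, monotonicity in time of concave functionals. -/

open MeasureTheory Finset
open scoped Classical ENNReal

noncomputable section

namespace Vale.Agent.Lib.P161E

open Vale.Agent.Lib.P161

variable {V : Type*} {G : SimpleGraph V} {β : ℝ} {S : Finset V} {r : V}

private lemma abs_EP_le {t : ℝ} {y₀ : V → ℝ} {F : (V → ℝ) → ℝ} (hF : Measurable F) {C : ℝ}
    (hFb : ∀ y, |F y| ≤ C) : |EP G β S t y₀ F| ≤ C := by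
  have hC : 0 ≤ C := (abs_nonneg _).trans (hFb 0)
  have hk : ∀ c : ℝ, |c| ≤ C → ∀ y : V → ℝ, |(fun _ : V → ℝ => c) y| ≤ C := fun c hc _ => hc
  have h1 : EP G β S t y₀ F ≤ EP G β S t y₀ (fun _ => C) :=
    EP_mono hF measurable_const hFb (hk C (by rw [abs_of_nonneg hC]))
      (fun y => (le_abs_self _).trans (hFb y))
  have h2 : EP G β S t y₀ (fun _ => -C) ≤ EP G β S t y₀ F :=
    EP_mono measurable_const hF (hk (-C) (by rw [abs_neg, abs_of_nonneg hC])) hFb
      (fun y => (abs_le.mp (hFb y)).1)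
  rw [EP_const] at h1 h2
  exact abs_le.mpr ⟨h2, h1⟩

private lemma cov_abs_two (y : V → ℝ) (u v : V) : |cov G β S y u v| ≤ 2 := by
  unfold cov
  have h1 : |Ee G β S y (fun A => sp A u * sp A v)| ≤ 1 := by
    refine abs_Ee_le _ _ _ _ _ fun A => ?_
    rw [abs_mul, abs_sp, abs_sp]; norm_num
  have h2 : |mean G β S y u * mean G β S y v| ≤ 1 := by
    rw [abs_mul]
    have a := abs_mean_le G β S y u
    have b := abs_mean_le G β S y v
    nlinarith [abs_nonneg (mean G β S y u), abs_nonneg (mean G β S y v)]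
  calc _ ≤ |Ee G β S y (fun A => sp A u * sp A v)| + |mean G β S y u * mean G β S y v| :=
        abs_sub _ _
    _ ≤ 2 := by linarith

private lemma Qf_nonneg (y : V → ℝ) : 0 ≤ ∑ v ∈ S, cov G β S y r v ^ 2 :=
  Finset.sum_nonneg fun _ _ => by positivity

private lemma Qf_le (y : V → ℝ) : ∑ v ∈ S, cov G β S y r v ^ 2 ≤ 4 * (S.card : ℝ) := by
  calc ∑ v ∈ S, cov G β S y r v ^ 2 ≤ ∑ _v ∈ S, (4 : ℝ) := by
        refine Finset.sum_le_sum fun v _ => ?_
        have := pow_le_pow_left₀ (abs_nonneg _) (cov_abs_two (G := G) (β := β) (S := S) y r v) 2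
        rw [sq_abs] at this
        linarith
    _ = 4 * (S.card : ℝ) := by rw [Finset.sum_const, nsmul_eq_mul]; ring

private lemma Qf_meas : Measurable (fun y : V → ℝ => ∑ v ∈ S, cov G β S y r v ^ 2) :=
  Finset.measurable_sum _ fun v _ => (measurable_cov S r v).pow_const 2

private lemma Fexp_meas (lam : ℝ) : Measurable (fun y : V → ℝ => Real.exp (lam * mean G β S y r)) :=
  (measurable_const.mul (measurable_mean S r)).exp

private lemma Fexp_le (lam : ℝ) (y : V → ℝ) : Real.exp (lam * mean G β S y r) ≤ Real.exp |lam| := by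
  refine Real.exp_le_exp.mpr ?_
  have h1 := abs_mean_le G β S y r
  calc lam * mean G β S y r ≤ |lam * mean G β S y r| := le_abs_self _
    _ = |lam| * |mean G β S y r| := abs_mul _ _
    _ ≤ |lam| * 1 := mul_le_mul_of_nonneg_left h1 (abs_nonneg _)
    _ = |lam| := mul_one _

private lemma Fexp_abs_le (lam : ℝ) (y : V → ℝ) :
    |Real.exp (lam * mean G β S y r)| ≤ Real.exp |lam| := by
  rw [abs_of_pos (Real.exp_pos _)]
  exact Fexp_le lam y

/-- One step of the recursion for the exponential moment. -/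
private lemma recur_step (hr : r ∈ S) {δ u : ℝ} (hδ0 : 0 ≤ δ) (hδ1 : δ ≤ 1) (hu : 0 ≤ u) (lam : ℝ) :
    EP G β S (u + δ) 0 (fun y => Real.exp (lam * mean G β S y r)) ≤
      (1 + Cmgf S.card lam * δ ^ (3 / 2 : ℝ)) * EP G β S u 0 (fun y => Real.exp (lam * mean G β S y r)) +
        (lam ^ 2 / 2 * δ) *
          EP G β S u 0 (fun y => Real.exp (lam * mean G β S y r) * ∑ v ∈ S, cov G β S y r v ^ 2) := by
  set a := 1 + Cmgf S.card lam * δ ^ (3 / 2 : ℝ) with ha
  set b := lam ^ 2 / 2 * δ with hb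
  have hCm0 : 0 ≤ Cmgf (S.card : ℝ) lam := by
    unfold Cmgf
    positivity
  have ha1 : 0 ≤ a := by
    rw [ha]
    have : 0 ≤ δ ^ (3 / 2 : ℝ) := Real.rpow_nonneg hδ0 _
    positivity
  have hb0 : 0 ≤ b := by rw [hb]; positivity
  have hE0 : 0 ≤ Real.exp |lam| := (Real.exp_pos _).le
  have hF1 : ∀ y : V → ℝ, |a * Real.exp (lam * mean G β S y r)| ≤ a * Real.exp |lam| := by
    intro y
    rw [abs_mul, abs_of_nonneg ha1]
    exact mul_le_mul_of_nonneg_left (Fexp_abs_le lam y) ha1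
  have hF2 : ∀ y : V → ℝ, |b * (Real.exp (lam * mean G β S y r) * ∑ v ∈ S, cov G β S y r v ^ 2)| ≤
      b * (Real.exp |lam| * (4 * (S.card : ℝ))) := by
    intro y
    rw [abs_mul, abs_of_nonneg hb0, abs_mul, abs_of_nonneg (Qf_nonneg y)]
    refine mul_le_mul_of_nonneg_left ?_ hb0
    exact mul_le_mul (Fexp_abs_le lam y) (Qf_le y) (Qf_nonneg y) hE0
  set C₀ := a * Real.exp |lam| + b * (Real.exp |lam| * (4 * (S.card : ℝ))) + Real.exp |lam| with hC₀
  have hN : 0 ≤ (S.card : ℝ) := Nat.cast_nonneg _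
  have h10 : 0 ≤ a * Real.exp |lam| := mul_nonneg ha1 hE0
  have h20 : 0 ≤ b * (Real.exp |lam| * (4 * (S.card : ℝ))) := by positivity
  have hM1 : Measurable (fun y : V → ℝ => a * Real.exp (lam * mean G β S y r)) :=
    (Fexp_meas lam).const_mul a
  have hM2 : Measurable (fun y : V → ℝ =>
      b * (Real.exp (lam * mean G β S y r) * ∑ v ∈ S, cov G β S y r v ^ 2)) :=
    ((Fexp_meas lam).mul Qf_meas).const_mul b
  have hF1' : ∀ y : V → ℝ, |a * Real.exp (lam * mean G β S y r)| ≤ C₀ := fun y =>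
    (hF1 y).trans (by rw [hC₀]; linarith)
  have hF2' : ∀ y : V → ℝ,
      |b * (Real.exp (lam * mean G β S y r) * ∑ v ∈ S, cov G β S y r v ^ 2)| ≤ C₀ := fun y =>
    (hF2 y).trans (by rw [hC₀]; linarith)
  have hadd := EP_add (G := G) (β := β) (S := S) (t := u) (y₀ := 0) hM1 hM2 hF1' hF2'
  rw [EP_const_mul, EP_const_mul] at hadd
  rw [← hadd]
  rw [EP_tower hu hδ0 (Fexp_meas lam) (Fexp_abs_le lam) 0]
  have hHm : Measurable (fun y : V → ℝ => a * Real.exp (lam * mean G β S y r) +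
      b * (Real.exp (lam * mean G β S y r) * ∑ v ∈ S, cov G β S y r v ^ 2)) := hM1.add hM2
  refine EP_mono (F := fun y => EP G β S δ y (fun y' => Real.exp (lam * mean G β S y' r)))
    (measurable_EP (Fexp_meas lam) (Fexp_abs_le lam)) hHm (C := C₀ + C₀) ?_ ?_ ?_
  · intro y
    have := abs_EP_le (G := G) (β := β) (S := S) (t := δ) (y₀ := y)
      (F := fun y' => Real.exp (lam * mean G β S y' r)) (Fexp_meas lam) (Fexp_abs_le lam)
    refine this.trans ?_
    rw [hC₀]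
    linarith
  · intro y
    refine (abs_add_le _ _).trans ?_
    linarith [hF1' y, hF2' y]
  · intro y
    refine (mgf_step hr hδ0 hδ1 lam y).trans (le_of_eq ?_)
    rw [ha, hb]
    ring

/-- The exponential moment at a positive time is nonnegative. -/
private lemma EP_exp_nonneg (t : ℝ) (lam : ℝ) :
    0 ≤ EP G β S t 0 (fun y => Real.exp (lam * mean G β S y r)) := by
  have h := EP_mono (G := G) (β := β) (S := S) (t := t) (y₀ := 0) (F := fun _ => (0 : ℝ))
    (H := fun y => Real.exp (lam * mean G β S y r)) measurable_const (Fexp_meas lam)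
    (C := Real.exp |lam|) (fun _ => by simpa using (Real.exp_pos _).le)
    (Fexp_abs_le lam) (fun y => (Real.exp_pos _).le)
  rwa [EP_const] at h

/-- The increment of the Riemann sum. -/
private def sInc (Cm lam C δ : ℝ) (j : ℕ) : ℝ :=
  Cm * δ ^ (3 / 2 : ℝ) + lam ^ 2 / 2 * C * (δ * (((j + 1 : ℕ) : ℝ) * δ) ^ (-(1 / 2) : ℝ))

private lemma sInc_nonneg {Cm lam C δ : ℝ} (hCm : 0 ≤ Cm) (hC : 0 ≤ C) (hδ : 0 ≤ δ) (j : ℕ) :
    0 ≤ sInc Cm lam C δ j := by
  unfold sInc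
  have h1 : 0 ≤ δ ^ (3 / 2 : ℝ) := Real.rpow_nonneg hδ _
  have h2 : 0 ≤ (((j + 1 : ℕ) : ℝ) * δ) ^ (-(1 / 2) : ℝ) :=
    Real.rpow_nonneg (mul_nonneg (Nat.cast_nonneg _) hδ) _
  positivity

/-- The recursion with the hypothesis on the quadratic variation. -/
private lemma recur_q (hr : r ∈ S) (lam : ℝ) {t C ρ δ : ℝ} (hδ0 : 0 < δ) (hδ1 : δ ≤ 1)
    (hq : ∀ u, 0 < u → u ≤ t →
      EP G β S u 0 (fun y => Real.exp (lam * mean G β S y r) * ∑ v ∈ S, cov G β S y r v ^ 2) ≤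
        C / Real.sqrt u * EP G β S u 0 (fun y => Real.exp (lam * mean G β S y r)) +
          Real.exp |lam| * ρ)
    (j : ℕ) (hj : ((j + 1 : ℕ) : ℝ) * δ ≤ t) :
    EP G β S (((j + 1 + 1 : ℕ) : ℝ) * δ) 0 (fun y => Real.exp (lam * mean G β S y r)) ≤
      Real.exp (sInc (Cmgf S.card lam) lam C δ j) *
          EP G β S (((j + 1 : ℕ) : ℝ) * δ) 0 (fun y => Real.exp (lam * mean G β S y r)) +
        lam ^ 2 / 2 * δ * (Real.exp |lam| * ρ) := by
  set u : ℝ := ((j + 1 : ℕ) : ℝ) * δ with hu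
  have hu0 : 0 < u := mul_pos (by positivity) hδ0
  have e : ((j + 1 + 1 : ℕ) : ℝ) * δ = u + δ := by
    rw [hu]; push_cast; ring
  rw [e]
  set A := EP G β S u 0 (fun y => Real.exp (lam * mean G β S y r)) with hA
  have hA0 : 0 ≤ A := EP_exp_nonneg u lam
  have h1 := recur_step (G := G) (β := β) (S := S) hr hδ0.le hδ1 hu0.le lam
  have h2 := hq u hu0 hj
  rw [← hA] at h1 h2
  have hb0 : 0 ≤ lam ^ 2 / 2 * δ := by positivity
  have h3 := mul_le_mul_of_nonneg_left h2 hb0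
  have hrp : C / Real.sqrt u = C * u ^ (-(1 / 2) : ℝ) := by
    rw [Real.sqrt_eq_rpow, Real.rpow_neg hu0.le, div_eq_mul_inv]
  have hs : 1 + sInc (Cmgf S.card lam) lam C δ j ≤ Real.exp (sInc (Cmgf S.card lam) lam C δ j) := by
    have := Real.add_one_le_exp (sInc (Cmgf S.card lam) lam C δ j)
    linarith
  have h4 := mul_le_mul_of_nonneg_right hs hA0
  have e2 : (1 + sInc (Cmgf S.card lam) lam C δ j) * A =
      (1 + Cmgf S.card lam * δ ^ (3 / 2 : ℝ)) * A +
        lam ^ 2 / 2 * δ * (C / Real.sqrt u * A) := by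
    rw [hrp]
    unfold sInc
    rw [← hu]
    ring
  rw [e2] at h4
  have e3 : lam ^ 2 / 2 * δ * (C / Real.sqrt u * A + Real.exp |lam| * ρ) =
      lam ^ 2 / 2 * δ * (C / Real.sqrt u * A) + lam ^ 2 / 2 * δ * (Real.exp |lam| * ρ) := by ring
  rw [e3] at h3
  linarith

private lemma unroll_real {x x' A b s T n : ℝ} (h1 : x' ≤ Real.exp s * x + b)
    (h2 : x ≤ Real.exp T * (A + n * b)) (hT : 0 ≤ T) (hs : 0 ≤ s) (hb : 0 ≤ b) :
    x' ≤ Real.exp (T + s) * (A + (n + 1) * b) := by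
  rw [Real.exp_add]
  have h3 := mul_le_mul_of_nonneg_left h2 (Real.exp_pos s).le
  have h1le : 1 ≤ Real.exp T * Real.exp s := by
    rw [← Real.exp_add]
    exact Real.one_le_exp (by positivity)
  have h4 : b ≤ Real.exp T * Real.exp s * b := by nlinarith
  have e : Real.exp s * (Real.exp T * (A + n * b)) = Real.exp T * Real.exp s * (A + n * b) := by ring
  have e2 : Real.exp T * Real.exp s * (A + (n + 1) * b) =
      Real.exp T * Real.exp s * (A + n * b) + Real.exp T * Real.exp s * b := by ring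
  rw [e2]
  rw [e] at h3
  linarith

/-- Unrolled recursion. -/
private lemma unrolled (hr : r ∈ S) (lam : ℝ) {t C ρ δ : ℝ} (hδ0 : 0 < δ) (hδ1 : δ ≤ 1) (hC : 0 ≤ C)
    (hρ : 0 ≤ ρ)
    (hq : ∀ u, 0 < u → u ≤ t →
      EP G β S u 0 (fun y => Real.exp (lam * mean G β S y r) * ∑ v ∈ S, cov G β S y r v ^ 2) ≤
        C / Real.sqrt u * EP G β S u 0 (fun y => Real.exp (lam * mean G β S y r)) +
          Real.exp |lam| * ρ)
    (j : ℕ) (hj : ((j + 1 : ℕ) : ℝ) * δ ≤ t) :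
    EP G β S (((j + 1 : ℕ) : ℝ) * δ) 0 (fun y => Real.exp (lam * mean G β S y r)) ≤
      Real.exp (∑ i ∈ range j, sInc (Cmgf S.card lam) lam C δ i) *
        (EP G β S (((0 + 1 : ℕ) : ℝ) * δ) 0 (fun y => Real.exp (lam * mean G β S y r)) +
          (j : ℝ) * (lam ^ 2 / 2 * δ * (Real.exp |lam| * ρ))) := by
  have hCm0 : 0 ≤ Cmgf (S.card : ℝ) lam := by
    unfold Cmgf
    positivity
  have hb0 : 0 ≤ lam ^ 2 / 2 * δ * (Real.exp |lam| * ρ) := by positivity
  induction j with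
  | zero => simp
  | succ j ih =>
    have hδn : ((j + 1 : ℕ) : ℝ) * δ ≤ t := by
      refine le_trans ?_ hj
      refine mul_le_mul_of_nonneg_right ?_ hδ0.le
      push_cast
      linarith
    have h1 := recur_q (G := G) (β := β) (S := S) hr lam hδ0 hδ1 hq j hδn
    have h2 := ih hδn
    have hT0 : 0 ≤ ∑ i ∈ range j, sInc (Cmgf S.card lam) lam C δ i :=
      Finset.sum_nonneg fun i _ => sInc_nonneg hCm0 hC hδ0.le i
    have hs0 : 0 ≤ sInc (Cmgf S.card lam) lam C δ j := sInc_nonneg hCm0 hC hδ0.le j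
    have h3 := unroll_real h1 h2 hT0 hs0 hb0
    rw [Finset.sum_range_succ]
    have hcast : (((j + 1 : ℕ) : ℝ)) = (j : ℝ) + 1 := by push_cast; ring
    rw [hcast]
    exact h3

/-- Sum of the increments. -/
private lemma sum_sInc_le {Cm lam C t δ : ℝ} (hCm : 0 ≤ Cm) (hC : 0 ≤ C) (hδ0 : 0 < δ) {j : ℕ}
    (hj : (j : ℝ) * δ ≤ t) :
    ∑ i ∈ range j, sInc Cm lam C δ i ≤ lam ^ 2 * C * Real.sqrt t + t * Cm * Real.sqrt δ := by
  have ht0 : 0 ≤ t := le_trans (by positivity) hj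
  have hrp : δ ^ (3 / 2 : ℝ) = δ * Real.sqrt δ := by
    rw [Real.sqrt_eq_rpow]
    nth_rewrite 2 [← Real.rpow_one δ]
    rw [← Real.rpow_add hδ0]
    norm_num
  have hs := sum_rpow_grid (α := 1 / 2) (δ := δ) (by norm_num) (by norm_num) hδ0 j
  have hsum : ∑ i ∈ range j, sInc Cm lam C δ i =
      (j : ℝ) * (Cm * δ ^ (3 / 2 : ℝ)) +
        lam ^ 2 / 2 * C * ∑ i ∈ range j, δ * (((i + 1 : ℕ) : ℝ) * δ) ^ (-(1 / 2) : ℝ) := by
    unfold sInc
    rw [Finset.sum_add_distrib, Finset.sum_const, Finset.card_range, nsmul_eq_mul, Finset.mul_sum]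
  rw [hsum]
  have e12 : (1 : ℝ) - 1 / 2 = 1 / 2 := by norm_num
  rw [e12] at hs
  have h1 : ((j : ℝ) * δ) ^ (1 / 2 : ℝ) ≤ t ^ (1 / 2 : ℝ) :=
    Real.rpow_le_rpow (by positivity) hj (by norm_num)
  have h2 : ∑ i ∈ range j, δ * (((i + 1 : ℕ) : ℝ) * δ) ^ (-(1 / 2) : ℝ) ≤ 2 * Real.sqrt t := by
    refine hs.trans ?_
    rw [Real.sqrt_eq_rpow]
    linarith
  have h3 := mul_le_mul_of_nonneg_left h2 (by positivity : 0 ≤ lam ^ 2 / 2 * C)
  have h4 : (j : ℝ) * (Cm * δ ^ (3 / 2 : ℝ)) ≤ t * Cm * Real.sqrt δ := by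
    rw [hrp]
    have : (j : ℝ) * (Cm * (δ * Real.sqrt δ)) = ((j : ℝ) * δ) * (Cm * Real.sqrt δ) := by ring
    rw [this]
    have h5 := mul_le_mul_of_nonneg_right hj (by positivity : 0 ≤ Cm * Real.sqrt δ)
    calc _ ≤ t * (Cm * Real.sqrt δ) := h5
      _ = _ := by ring
  nlinarith

/-- First step from time zero. -/
private lemma first_step (hr : r ∈ S) {δ : ℝ} (hδ0 : 0 ≤ δ) (hδ1 : δ ≤ 1) (lam : ℝ) :
    EP G β S δ 0 (fun y => Real.exp (lam * mean G β S y r)) ≤
      1 + 2 * lam ^ 2 * δ * (S.card : ℝ) + Cmgf S.card lam * δ ^ (3 / 2 : ℝ) := by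
  have h := mgf_step (G := G) (β := β) hr hδ0 hδ1 lam 0
  rw [mean_zero _ hr, mul_zero, Real.exp_zero, one_mul] at h
  refine h.trans ?_
  have h2 := Qf_le (G := G) (β := β) (S := S) (r := r) 0
  have h3 := mul_le_mul_of_nonneg_left h2 (by positivity : 0 ≤ lam ^ 2 / 2 * δ)
  nlinarith

/-- The bound at a grid size. -/
private lemma grid_bound (hr : r ∈ S) (lam : ℝ) {t C ρ : ℝ} (ht : 0 < t) (hC : 0 ≤ C) (hρ : 0 ≤ ρ)
    (hq : ∀ u, 0 < u → u ≤ t →
      EP G β S u 0 (fun y => Real.exp (lam * mean G β S y r) * ∑ v ∈ S, cov G β S y r v ^ 2) ≤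
        C / Real.sqrt u * EP G β S u 0 (fun y => Real.exp (lam * mean G β S y r)) +
          Real.exp |lam| * ρ)
    {K : ℕ} (hK1 : 1 ≤ K) (hK : t ≤ K) :
    EP G β S t 0 (fun y => Real.exp (lam * mean G β S y r)) ≤
      Real.exp (lam ^ 2 * C * Real.sqrt t + t * Cmgf S.card lam * Real.sqrt (t / K)) *
        (1 + lam ^ 2 / 2 * t * (Real.exp |lam| * ρ) + 2 * lam ^ 2 * Real.sqrt (t / K) ^ 2 * (S.card : ℝ) +
          Cmgf S.card lam * Real.sqrt (t / K) ^ 3) := by
  have hK0 : (0 : ℝ) < K := by exact_mod_cast hK1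
  set δ := t / K with hδ
  have hδ0 : 0 < δ := div_pos ht hK0
  have hδ1 : δ ≤ 1 := (div_le_one hK0).mpr hK
  have hKδ : (K : ℝ) * δ = t := by rw [hδ]; field_simp
  have hss : Real.sqrt δ ^ 2 = δ := Real.sq_sqrt hδ0.le
  have hrp : δ ^ (3 / 2 : ℝ) = Real.sqrt δ ^ 3 := by
    rw [Real.sqrt_eq_rpow, ← Real.rpow_natCast, ← Real.rpow_mul hδ0.le]
    norm_num
  have hCm0 : 0 ≤ Cmgf (S.card : ℝ) lam := by
    unfold Cmgf
    positivity
  obtain ⟨j, rfl⟩ : ∃ j, K = j + 1 := ⟨K - 1, by omega⟩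
  have hj1 : ((j + 1 : ℕ) : ℝ) * δ ≤ t := le_of_eq hKδ
  have hj2 : (j : ℝ) * δ ≤ t := by
    refine le_trans ?_ hj1
    refine mul_le_mul_of_nonneg_right ?_ hδ0.le
    push_cast
    linarith
  have hU := unrolled (G := G) (β := β) (S := S) hr lam hδ0 hδ1 hC hρ hq j hj1
  rw [hKδ] at hU
  have e1 : ((0 + 1 : ℕ) : ℝ) * δ = δ := by norm_num
  rw [e1] at hU
  have hF := first_step (G := G) (β := β) hr hδ0.le hδ1 lam
  have hS := sum_sInc_le (Cm := Cmgf S.card lam) (lam := lam) hCm0 hC hδ0 hj2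
  refine hU.trans ?_
  have hE : Real.exp (∑ i ∈ range j, sInc (Cmgf S.card lam) lam C δ i) ≤
      Real.exp (lam ^ 2 * C * Real.sqrt t + t * Cmgf S.card lam * Real.sqrt δ) :=
    Real.exp_le_exp.mpr hS
  have hb : (j : ℝ) * (lam ^ 2 / 2 * δ * (Real.exp |lam| * ρ)) ≤ lam ^ 2 / 2 * t * (Real.exp |lam| * ρ) := by
    have h0 : 0 ≤ lam ^ 2 / 2 * (Real.exp |lam| * ρ) := by positivity
    have := mul_le_mul_of_nonneg_right hj2 h0
    nlinarith
  have hA0 : 0 ≤ EP G β S δ 0 (fun y => Real.exp (lam * mean G β S y r)) := EP_exp_nonneg _ lam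
  have hinner : EP G β S δ 0 (fun y => Real.exp (lam * mean G β S y r)) +
      (j : ℝ) * (lam ^ 2 / 2 * δ * (Real.exp |lam| * ρ)) ≤
      1 + lam ^ 2 / 2 * t * (Real.exp |lam| * ρ) + 2 * lam ^ 2 * Real.sqrt δ ^ 2 * (S.card : ℝ) +
          Cmgf S.card lam * Real.sqrt δ ^ 3 := by
    rw [hss, ← hrp]
    linarith
  have hnn : 0 ≤ EP G β S δ 0 (fun y => Real.exp (lam * mean G β S y r)) +
      (j : ℝ) * (lam ^ 2 / 2 * δ * (Real.exp |lam| * ρ)) := by positivity
  exact mul_le_mul hE hinner hnn (Real.exp_pos _).le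

/-- Gronwall for the exponential moment, with a bound `C/√u` for the quadratic variation up to a rare
event. Take `δ = t/K`, `K → ∞`, use `EP_tower`, `mgf_step`, and `sum_rpow_grid` with `α = 1/2`. -/
theorem mgf_gronwall (hr : r ∈ S) (lam : ℝ) {t C ρ : ℝ} (ht : 0 < t) (hC : 0 ≤ C) (hρ : 0 ≤ ρ)
    (hq : ∀ u, 0 < u → u ≤ t →
      EP G β S u 0 (fun y => Real.exp (lam * mean G β S y r) * ∑ v ∈ S, cov G β S y r v ^ 2) ≤
        C / Real.sqrt u * EP G β S u 0 (fun y => Real.exp (lam * mean G β S y r)) +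
          Real.exp |lam| * ρ) :
    EP G β S t 0 (fun y => Real.exp (lam * mean G β S y r)) ≤
      Real.exp (lam ^ 2 * C * Real.sqrt t) * (1 + lam ^ 2 * Real.exp |lam| * t * ρ) := by
  set Cm := Cmgf (S.card : ℝ) lam with hCm
  set f : ℝ → ℝ := fun u => Real.exp (lam ^ 2 * C * Real.sqrt t + t * Cm * u) *
    (1 + lam ^ 2 / 2 * t * (Real.exp |lam| * ρ) + 2 * lam ^ 2 * u ^ 2 * (S.card : ℝ) + Cm * u ^ 3) with hf
  have hfc : Continuous f := by
    rw [hf]
    fun_prop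
  have hu : Filter.Tendsto (fun K : ℕ => Real.sqrt (t / K)) Filter.atTop (nhds 0) := by
    have h1 := tendsto_const_div_atTop_nhds_zero_nat t
    have h2 : Filter.Tendsto (fun K : ℕ => Real.sqrt (t / K)) Filter.atTop (nhds (Real.sqrt 0)) :=
      (Real.continuous_sqrt.tendsto 0).comp h1
    rwa [Real.sqrt_zero] at h2
  have hlim : Filter.Tendsto (fun K : ℕ => f (Real.sqrt (t / K))) Filter.atTop (nhds (f 0)) :=
    (hfc.tendsto 0).comp hu
  have hev : ∀ᶠ K : ℕ in Filter.atTop,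
      EP G β S t 0 (fun y => Real.exp (lam * mean G β S y r)) ≤ f (Real.sqrt (t / K)) := by
    filter_upwards [Filter.eventually_ge_atTop (max 1 ⌈t⌉₊)] with K hK
    have hK1 : 1 ≤ K := le_trans (le_max_left _ _) hK
    have hK2 : t ≤ K := le_trans (Nat.le_ceil t) (by exact_mod_cast le_trans (le_max_right _ _) hK)
    exact grid_bound hr lam ht hC hρ hq hK1 hK2
  refine (ge_of_tendsto hlim hev).trans ?_
  have e0 : f 0 = Real.exp (lam ^ 2 * C * Real.sqrt t) *
      (1 + lam ^ 2 / 2 * t * (Real.exp |lam| * ρ)) := by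
    simp [hf]
  rw [e0]
  refine mul_le_mul_of_nonneg_left ?_ (Real.exp_pos _).le
  have h0 : 0 ≤ lam ^ 2 * Real.exp |lam| * t * ρ := by positivity
  nlinarith

/-- Supporting line of a concave function at an interior point of `[-1,1]`. -/
private lemma concave_support {ψ : ℝ → ℝ} (hψ : ConcaveOn ℝ (Set.Icc (-1) 1) ψ) {c : ℝ} (hc1 : -1 < c)
    (hc2 : c < 1) : ∃ σ : ℝ, ∀ x, |x| ≤ 1 → ψ x ≤ ψ c + σ * (x - c) := by
  have hcm : c ∈ Set.Icc (-1 : ℝ) 1 := ⟨hc1.le, hc2.le⟩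
  have hmem : ∀ x : ℝ, |x| ≤ 1 → x ∈ Set.Icc (-1 : ℝ) 1 := fun x hx => abs_le.mp hx
  set T : Set ℝ := (fun b => (ψ b - ψ c) / (b - c)) '' Set.Ioc c 1 with hT
  have hne : T.Nonempty := ⟨_, ⟨1, ⟨hc2, le_rfl⟩, rfl⟩⟩
  have hslope : ∀ a b : ℝ, a ∈ Set.Icc (-1 : ℝ) 1 → a < c → b ∈ Set.Ioc c 1 →
      (ψ b - ψ c) / (b - c) ≤ (ψ c - ψ a) / (c - a) := by
    intro a b ha hac hb
    exact hψ.slope_anti_adjacent ha ⟨hc1.le.trans hb.1.le, hb.2⟩ hac hb.1
  have hbdd : BddAbove T := by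
    refine ⟨(ψ c - ψ (-1)) / (c - (-1)), ?_⟩
    rintro _ ⟨b, hb, rfl⟩
    exact hslope (-1) b ⟨le_rfl, by norm_num⟩ hc1 hb
  refine ⟨sSup T, fun x hx => ?_⟩
  have hxm := hmem x hx
  rcases lt_trichotomy x c with hlt | heq | hgt
  · have h1 : sSup T ≤ (ψ c - ψ x) / (c - x) := by
      refine csSup_le hne ?_
      rintro _ ⟨b, hb, rfl⟩
      exact hslope x b hxm hlt hb
    have hpos : 0 < c - x := by linarith
    rw [le_div_iff₀ hpos] at h1
    nlinarith
  · rw [heq]; simp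
  · have h1 : (ψ x - ψ c) / (x - c) ≤ sSup T :=
      le_csSup hbdd ⟨x, ⟨hgt, hxm.2⟩, rfl⟩
    have hpos : 0 < x - c := by linarith
    rw [div_le_iff₀ hpos] at h1
    linarith

/-- The mean is strictly inside `(-1,1)` at a point of `S`. -/
private lemma mean_strict (y : V → ℝ) {x : V} (hx : x ∈ S) :
    -1 < mean G β S y x ∧ mean G β S y x < 1 := by
  unfold mean Ee
  have hsum := sum_mu G β S y
  have hnn : ∀ A ∈ S.powerset, 0 ≤ mu G β S y A * (1 - sp A x) := fun A _ => by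
    have := (abs_le.mp (abs_sp A x).le).2
    exact mul_nonneg (mu_pos _ _ _ _ _).le (by linarith)
  have hnn' : ∀ A ∈ S.powerset, 0 ≤ mu G β S y A * (1 + sp A x) := fun A _ => by
    have := (abs_le.mp (abs_sp A x).le).1
    exact mul_nonneg (mu_pos _ _ _ _ _).le (by linarith)
  have h1 : 0 < ∑ A ∈ S.powerset, mu G β S y A * (1 - sp A x) := by
    refine Finset.sum_pos' hnn ⟨∅, by simp, ?_⟩
    have : sp (∅ : Finset V) x = -1 := by simp [sp]
    rw [this]
    exact mul_pos (mu_pos _ _ _ _ _) (by norm_num)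
  have h2 : 0 < ∑ A ∈ S.powerset, mu G β S y A * (1 + sp A x) := by
    refine Finset.sum_pos' hnn' ⟨{x}, by simpa using hx, ?_⟩
    have : sp ({x} : Finset V) x = 1 := by simp [sp]
    rw [this]
    exact mul_pos (mu_pos _ _ _ _ _) (by norm_num)
  have e1 : ∑ A ∈ S.powerset, mu G β S y A * (1 - sp A x) =
      1 - ∑ A ∈ S.powerset, mu G β S y A * sp A x := by
    have : ∑ A ∈ S.powerset, mu G β S y A * (1 - sp A x) =
        ∑ A ∈ S.powerset, mu G β S y A - ∑ A ∈ S.powerset, mu G β S y A * sp A x := by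
      rw [← Finset.sum_sub_distrib]
      exact Finset.sum_congr rfl fun A _ => by ring
    rw [this, hsum]
  have e2 : ∑ A ∈ S.powerset, mu G β S y A * (1 + sp A x) =
      1 + ∑ A ∈ S.powerset, mu G β S y A * sp A x := by
    have : ∑ A ∈ S.powerset, mu G β S y A * (1 + sp A x) =
        ∑ A ∈ S.powerset, mu G β S y A + ∑ A ∈ S.powerset, mu G β S y A * sp A x := by
      rw [← Finset.sum_add_distrib]
      exact Finset.sum_congr rfl fun A _ => by ring
    rw [this, hsum]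
  rw [e1] at h1
  rw [e2] at h2
  constructor <;> linarith

/-- Outside `S` the spin is frozen at `-1`. -/
private lemma mean_frozen (y : V → ℝ) {x : V} (hx : x ∉ S) : mean G β S y x = -1 := by
  unfold mean Ee
  have : ∀ A ∈ S.powerset, mu G β S y A * sp A x = mu G β S y A * (-1) := by
    intro A hA
    have hxA : x ∉ A := fun h => hx (Finset.mem_powerset.mp hA h)
    simp [sp, hxA]
  rw [Finset.sum_congr rfl this, ← Finset.sum_mul, sum_mu, one_mul]

/-- Jensen for the planted law. -/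
private lemma EP_concave_le {ψ : ℝ → ℝ} (hψ : ConcaveOn ℝ (Set.Icc (-1) 1) ψ) (hψm : Measurable ψ)
    {C : ℝ} (hψb : ∀ x, |x| ≤ 1 → |ψ x| ≤ C) (x : V) {h : ℝ} (hh : 0 ≤ h) (y : V → ℝ) :
    EP G β S h y (fun y' => ψ (mean G β S y' x)) ≤ ψ (mean G β S y x) := by
  by_cases hx : x ∈ S
  · obtain ⟨hc1, hc2⟩ := mean_strict (G := G) (β := β) (S := S) y hx
    obtain ⟨σ, hσ⟩ := concave_support hψ hc1 hc2
    set c := mean G β S y x with hc
    have hF : Measurable (fun y' : V → ℝ => ψ (mean G β S y' x)) :=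
      hψm.comp (measurable_mean S x)
    have hM : Measurable (fun y' : V → ℝ => σ * mean G β S y' x) :=
      (measurable_mean S x).const_mul σ
    have hC0 : 0 ≤ C := (abs_nonneg _).trans (hψb 0 (by simp))
    set a := ψ c - σ * c with ha
    set C' := C + |a| + |σ| with hC'
    have hσ0 := abs_nonneg σ
    have ha0 := abs_nonneg a
    have hFb : ∀ y' : V → ℝ, |ψ (mean G β S y' x)| ≤ C' + C' := fun y' => by
      have := hψb _ (abs_mean_le G β S y' x)
      rw [hC']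
      linarith
    have hMb : ∀ y' : V → ℝ, |σ * mean G β S y' x| ≤ C' := fun y' => by
      rw [abs_mul]
      have h1 := abs_mean_le G β S y' x
      have : |σ| * |mean G β S y' x| ≤ |σ| * 1 := mul_le_mul_of_nonneg_left h1 hσ0
      rw [hC']
      linarith
    have haB : ∀ y' : V → ℝ, |(fun _ : V → ℝ => a) y'| ≤ C' := fun _ => by
      show |a| ≤ C'
      rw [hC']
      linarith
    have hadd := EP_add (G := G) (β := β) (S := S) (t := h) (y₀ := y) (F := fun _ => a)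
      (H := fun y' => σ * mean G β S y' x) measurable_const hM haB hMb
    rw [EP_const, EP_const_mul, EP_mean hh y x, ← hc] at hadd
    have hle := EP_mono (G := G) (β := β) (S := S) (t := h) (y₀ := y)
      (F := fun y' => ψ (mean G β S y' x)) (H := fun y' => a + σ * mean G β S y' x)
      hF (measurable_const.add hM) (C := C' + C') hFb
      (fun y' => (abs_add_le _ _).trans (by linarith [haB y', hMb y']))
      (fun y' => by
        have := hσ _ (abs_mean_le G β S y' x)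
        rw [ha]
        linarith)
    refine hle.trans (le_of_eq ?_)
    rw [hadd, ha]
    ring
  · have e : (fun y' : V → ℝ => ψ (mean G β S y' x)) = fun _ => ψ (-1) := by
      funext y'
      rw [mean_frozen y' hx]
    rw [e, EP_const, mean_frozen y hx]

/-- Monotonicity in time of the mean of a concave function of the mean spin. -/
theorem EP_concave_anti {ψ : ℝ → ℝ} (hψ : ConcaveOn ℝ (Set.Icc (-1) 1) ψ) (hψm : Measurable ψ) {C : ℝ}
    (hψb : ∀ x, |x| ≤ 1 → |ψ x| ≤ C) (x : V) {s t : ℝ} (hs : 0 ≤ s) (hst : s ≤ t) :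
    EP G β S t 0 (fun y => ψ (mean G β S y x)) ≤ EP G β S s 0 (fun y => ψ (mean G β S y x)) := by
  have hh : 0 ≤ t - s := sub_nonneg.mpr hst
  have hF : Measurable (fun y' : V → ℝ => ψ (mean G β S y' x)) := hψm.comp (measurable_mean S x)
  have hFb : ∀ y' : V → ℝ, |ψ (mean G β S y' x)| ≤ C := fun y' => hψb _ (abs_mean_le G β S y' x)
  have e : t = s + (t - s) := by ring
  rw [e, EP_tower hs hh hF hFb 0]
  refine EP_mono (F := fun y => EP G β S (t - s) y (fun y' => ψ (mean G β S y' x)))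
    (measurable_EP hF hFb) hF (C := C) ?_ hFb ?_
  · intro y
    exact abs_EP_le hF hFb
  · intro y
    exact EP_concave_le hψ hψm hψb x hh y

end Vale.Agent.Lib.P161E
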