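import Vale.Agent.Lib.P161E.GaussMom
import Vale.Agent.Lib.P161E.Split
import Vale.Agent.Lib.P161E.CorrField

/-! Job D1a: disintegration of the planted law along a cut, flip symmetry, Bayes identity. -/

open MeasureTheory Finset
open scoped Classical ENNReal

noncomputable section

namespace Vale.Agent.Lib.P161E

open Vale.Agent.Lib.P161

variable {V : Type*} {G : SimpleGraph V} {β : ℝ} {S S₁ S₂ : Finset V} {a b : V} {t : ℝ}

/-- Glue two configurations. -/
def glue (S₁ : Finset V) (y₁ y₂ : V → ℝ) : V → ℝ := fun v => if v ∈ S₁ then y₁ v else y₂ v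

/-- The law on the far side given the spin `s` at the near end of the cut edge. -/
def EQ (G : SimpleGraph V) (β : ℝ) (S₂ : Finset V) (t : ℝ) (b : V) (s : ℝ) (F : (V → ℝ) → ℝ) : ℝ :=
  ∑ A ∈ S₂.powerset, mu G β S₂ 0 A * (1 + Real.tanh β * s * sp A b) *
    ∫ g, F (0 + t • stepVec S₂ A + Real.sqrt t • g) ∂gam V

/-- Zero tilt split of the Gibbs weights. -/
theorem mu_zero_split (h : Cut G S₁ S₂ a b) {A₁ A₂ : Finset V} (hA₁ : A₁ ⊆ S₁) (hA₂ : A₂ ⊆ S₂) :
    mu G β (S₁ ∪ S₂) 0 (A₁ ∪ A₂) =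
      mu G β S₁ 0 A₁ * mu G β S₂ 0 A₂ * (1 + Real.tanh β * sp A₁ a * sp A₂ b) := by
  have h1 := mu_split (G := G) (β := β) h (0 : V → ℝ) hA₁ hA₂
  rw [mean_zero _ h.ha, mean_zero _ h.hb] at h1
  simpa using h1

/-- A bounded measurable function is integrable for a finite measure. -/
theorem integrable_bdd {Ω : Type*} [MeasurableSpace Ω] {μ : Measure Ω} [IsFiniteMeasure μ]
    {f : Ω → ℝ} (hf : Measurable f) {C : ℝ} (hb : ∀ x, |f x| ≤ C) : Integrable f μ :=
  Integrable.of_bound hf.aestronglyMeasurable C (Filter.Eventually.of_forall fun x => by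
    simpa [Real.norm_eq_abs] using hb x)

theorem measurable_glue (S₁ : Finset V) :
    Measurable (fun p : (V → ℝ) × (V → ℝ) => glue S₁ p.1 p.2) := by
  refine measurable_pi_lambda _ fun v => ?_
  unfold glue
  by_cases h : v ∈ S₁
  · simp only [h, if_true]; exact (measurable_pi_apply v).comp measurable_fst
  · simp only [h, if_false]; exact (measurable_pi_apply v).comp measurable_snd

/-- Gluing two independent noises gives a noise. -/
theorem map_glue (S₁ : Finset V) :
    ((gam V).prod (gam V)).map (fun p : (V → ℝ) × (V → ℝ) => glue S₁ p.1 p.2) = gam V := by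
  refine Measure.eq_infinitePi _ (fun s τ hτ => ?_)
  rw [Measure.map_apply (measurable_glue S₁) (MeasurableSet.pi s.countable_toSet (fun v _ => hτ v))]
  have hset : (fun p : (V → ℝ) × (V → ℝ) => glue S₁ p.1 p.2) ⁻¹' Set.pi (s : Set V) τ =
      (Set.pi ((s ∩ S₁ : Finset V) : Set V) τ) ×ˢ (Set.pi ((s \ S₁ : Finset V) : Set V) τ) := by
    ext p
    simp only [Set.mem_preimage, Set.mem_pi, Set.mem_prod, Finset.mem_coe, Finset.mem_inter,
      Finset.mem_sdiff, glue]
    constructor
    · intro hp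
      refine ⟨fun v hv => ?_, fun v hv => ?_⟩
      · have := hp v hv.1
        rwa [if_pos hv.2] at this
      · have := hp v hv.1
        rwa [if_neg hv.2] at this
    · rintro ⟨h1, h2⟩ v hv
      by_cases hv1 : v ∈ S₁
      · rw [if_pos hv1]; exact h1 v ⟨hv, hv1⟩
      · rw [if_neg hv1]; exact h2 v ⟨hv, hv1⟩
  rw [hset, Measure.prod_prod]
  unfold gam
  rw [Measure.infinitePi_pi _ (fun v _ => hτ v), Measure.infinitePi_pi _ (fun v _ => hτ v)]
  rw [← Finset.prod_union]
  · congr 1
    ext v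
    simp only [Finset.mem_union, Finset.mem_inter, Finset.mem_sdiff]
    tauto
  · exact Finset.disjoint_left.mpr fun v hv hv' => by
      rw [Finset.mem_inter] at hv
      rw [Finset.mem_sdiff] at hv'
      exact hv'.2 hv.2

/-- The observation map. -/
def yA (S : Finset V) (t : ℝ) (y₀ : V → ℝ) (A : Finset V) (g : V → ℝ) : V → ℝ :=
  y₀ + t • stepVec S A + Real.sqrt t • g

theorem measurable_yA (S : Finset V) (t : ℝ) (y₀ : V → ℝ) (A : Finset V) :
    Measurable (yA S t y₀ A) := by
  exact measurable_shift (Real.sqrt t) (t • stepVec S A) y₀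

theorem integral_glue {F : (V → ℝ) → ℝ} (hF : Measurable F) {C : ℝ} (hFb : ∀ y, |F y| ≤ C)
    (S₁ : Finset V) :
    ∫ g, F g ∂gam V = ∫ g₁, ∫ g₂, F (glue S₁ g₁ g₂) ∂gam V ∂gam V := by
  conv_lhs => rw [← map_glue S₁]
  rw [integral_map (measurable_glue S₁).aemeasurable hF.aestronglyMeasurable]
  refine integral_prod _ ?_
  exact integrable_bdd (hF.comp (measurable_glue S₁)) (fun p => hFb _)

theorem stepVec_glue (h : Disjoint S₁ S₂) {A₁ A₂ : Finset V} (hA₁ : A₁ ⊆ S₁) (hA₂ : A₂ ⊆ S₂)
    (g₁ g₂ : V → ℝ) (c : ℝ) {v : V} (hv : v ∈ S₁ ∪ S₂) :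
    glue S₁ (0 + t • stepVec S₁ A₁ + c • g₁) (0 + t • stepVec S₂ A₂ + c • g₂) v =
      (0 + t • stepVec (S₁ ∪ S₂) (A₁ ∪ A₂) + c • glue S₁ g₁ g₂) v := by
  have hv' : v ∈ S₁ ∪ S₂ := hv
  simp only [glue, Pi.add_apply, Pi.smul_apply, smul_eq_mul, stepVec, Pi.zero_apply, zero_add]
  by_cases h1 : v ∈ S₁
  · have h2 : v ∉ A₂ := fun hh => Finset.disjoint_left.mp h h1 (hA₂ hh)
    simp only [h1, if_true, hv', sp, Finset.mem_union, h2, or_false]
  · have h3 : v ∈ S₂ := by
      rcases Finset.mem_union.mp hv with h4 | h4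
      · exact absurd h4 h1
      · exact h4
    have h2 : v ∉ A₁ := fun hh => h1 (hA₁ hh)
    simp only [h1, if_false, h3, if_true, hv', sp, Finset.mem_union, h2, false_or]

/-- Disintegration of `EP` along a cut. -/
theorem EP_split (h : Cut G S₁ S₂ a b) (ht : 0 ≤ t) {F : (V → ℝ) → ℝ} (hF : Measurable F) {C : ℝ}
    (hFb : ∀ y, |F y| ≤ C) (hdep : DepOn (S₁ ∪ S₂) F) :
    EP G β (S₁ ∪ S₂) t 0 F =
      ∑ A₁ ∈ S₁.powerset, mu G β S₁ 0 A₁ * ∫ g₁,
        EQ G β S₂ t b (sp A₁ a)
          (fun y₂ => F (glue S₁ (0 + t • stepVec S₁ A₁ + Real.sqrt t • g₁) y₂)) ∂gam V := by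
  unfold EP
  rw [sum_powerset_union h.disj]
  refine Finset.sum_congr rfl fun A₁ hA₁ => ?_
  have hA₁' := Finset.mem_powerset.mp hA₁
  unfold EQ
  -- measurability of the inner integrand
  have hjoint : ∀ A₂ : Finset V, Measurable (fun p : (V → ℝ) × (V → ℝ) =>
      F (glue S₁ (0 + t • stepVec S₁ A₁ + Real.sqrt t • p.1)
        (0 + t • stepVec S₂ A₂ + Real.sqrt t • p.2))) := by
    intro A₂
    exact hF.comp ((measurable_glue S₁).comp
      (f := fun p : (V → ℝ) × (V → ℝ) => (0 + t • stepVec S₁ A₁ + Real.sqrt t • p.1,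
        0 + t • stepVec S₂ A₂ + Real.sqrt t • p.2))
      (((measurable_yA S₁ t 0 A₁).comp measurable_fst).prodMk
        ((measurable_yA S₂ t 0 A₂).comp measurable_snd)))
  have hint : ∀ A₂ : Finset V, Integrable (fun g₁ : V → ℝ =>
      ∫ g₂, F (glue S₁ (0 + t • stepVec S₁ A₁ + Real.sqrt t • g₁)
        (0 + t • stepVec S₂ A₂ + Real.sqrt t • g₂)) ∂gam V) (gam V) := by
    intro A₂
    have : Integrable (fun p : (V → ℝ) × (V → ℝ) =>
      F (glue S₁ (0 + t • stepVec S₁ A₁ + Real.sqrt t • p.1)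
        (0 + t • stepVec S₂ A₂ + Real.sqrt t • p.2))) ((gam V).prod (gam V)) :=
      integrable_bdd (hjoint A₂) (fun p => hFb _)
    exact this.integral_prod_left
  rw [integral_finsetSum _ (fun A₂ _ => (hint A₂).const_mul _), Finset.mul_sum]
  refine Finset.sum_congr rfl fun A₂ hA₂ => ?_
  have hA₂' := Finset.mem_powerset.mp hA₂
  rw [mu_zero_split h hA₁' hA₂', integral_const_mul]
  have key : ∫ g, F (0 + t • stepVec (S₁ ∪ S₂) (A₁ ∪ A₂) + Real.sqrt t • g) ∂gam V =
      ∫ g₁, ∫ g₂, F (glue S₁ (0 + t • stepVec S₁ A₁ + Real.sqrt t • g₁)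
        (0 + t • stepVec S₂ A₂ + Real.sqrt t • g₂)) ∂gam V ∂gam V := by
    rw [integral_glue (F := fun g => F (0 + t • stepVec (S₁ ∪ S₂) (A₁ ∪ A₂) + Real.sqrt t • g))
      (hF.comp (by simpa using measurable_shift (Real.sqrt t) (t • stepVec (S₁ ∪ S₂) (A₁ ∪ A₂)) 0))
      (fun y => hFb _) S₁]
    refine integral_congr_ae (Filter.Eventually.of_forall fun g₁ => ?_)
    refine integral_congr_ae (Filter.Eventually.of_forall fun g₂ => ?_)
    exact hdep _ _ (fun v hv => (stepVec_glue h.disj hA₁' hA₂' g₁ g₂ _ hv).symm)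
  rw [key]
  ring

/-! ### The planted law as a measure -/

/-- The planted law as a measure. -/
def plm (G : SimpleGraph V) (β : ℝ) (S : Finset V) (t : ℝ) (y₀ : V → ℝ) : Measure (V → ℝ) :=
  ∑ A ∈ S.powerset, ENNReal.ofReal (mu G β S y₀ A) • (gam V).map (yA S t y₀ A)

theorem lintegral_plm (S : Finset V) (t : ℝ) (y₀ : V → ℝ) {F : (V → ℝ) → ℝ≥0∞} (hF : Measurable F) :
    ∫⁻ y, F y ∂plm G β S t y₀ = planted G β S t y₀ F := by
  unfold plm planted
  rw [lintegral_finsetSum_measure]
  refine Finset.sum_congr rfl fun A _ => ?_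
  rw [lintegral_smul_measure, lintegral_map hF (measurable_yA S t y₀ A)]
  rfl

instance (S : Finset V) (t : ℝ) (y₀ : V → ℝ) : IsProbabilityMeasure (plm G β S t y₀) := by
  constructor
  have h1 := lintegral_plm (G := G) (β := β) S t y₀ (F := fun _ => 1) measurable_const
  rw [lintegral_one] at h1
  rw [h1]
  unfold planted
  simp only [lintegral_one, measure_univ, mul_one]
  rw [← ENNReal.ofReal_sum_of_nonneg (fun A _ => (mu_pos _ _ _ _ _).le), sum_mu, ENNReal.ofReal_one]

theorem integrable_plm_iff (S : Finset V) (t : ℝ) (y₀ : V → ℝ) {F : (V → ℝ) → ℝ} (hF : Measurable F) :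
    Integrable F (plm G β S t y₀) ↔ ∀ A ∈ S.powerset, Integrable (fun g => F (yA S t y₀ A g)) (gam V) := by
  unfold plm
  rw [integrable_finsetSum_measure]
  refine forall₂_congr fun A _ => ?_
  have hne : ENNReal.ofReal (mu G β S y₀ A) ≠ 0 := by
    simpa using mu_pos G β S y₀ A
  have hnt : ENNReal.ofReal (mu G β S y₀ A) ≠ ∞ := ENNReal.ofReal_ne_top
  rw [integrable_smul_measure hne hnt, integrable_map_measure hF.aestronglyMeasurable
    (measurable_yA S t y₀ A).aemeasurable]
  rfl

/-- `EP` is the integral for the planted measure. -/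
theorem integral_plm (S : Finset V) (t : ℝ) (y₀ : V → ℝ) {F : (V → ℝ) → ℝ} (hF : Measurable F)
    (hi : Integrable F (plm G β S t y₀)) :
    ∫ y, F y ∂plm G β S t y₀ = EP G β S t y₀ F := by
  unfold plm at hi ⊢
  rw [integral_finsetSum_measure (fun A hA => (integrable_finsetSum_measure.mp hi) A hA)]
  unfold EP
  refine Finset.sum_congr rfl fun A _ => ?_
  rw [integral_smul_measure, integral_map (measurable_yA S t y₀ A).aemeasurable hF.aestronglyMeasurable,
    ENNReal.toReal_ofReal (mu_pos _ _ _ _ _).le]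
  rfl

/-- Bounded version. -/
theorem integral_plm_bdd (S : Finset V) (t : ℝ) (y₀ : V → ℝ) {F : (V → ℝ) → ℝ} (hF : Measurable F)
    {C : ℝ} (hb : ∀ y, |F y| ≤ C) :
    ∫ y, F y ∂plm G β S t y₀ = EP G β S t y₀ F :=
  integral_plm S t y₀ hF (integrable_bdd hF hb)

/-- Bayes formula, in density form. -/
theorem plm_withDensity (S : Finset V) (ht : 0 ≤ t) (y₀ : V → ℝ) {B : Finset V} (hB : B ∈ S.powerset) :
    (plm G β S t y₀).withDensity (fun y => ENNReal.ofReal (mu G β S y B)) =
      ENNReal.ofReal (mu G β S y₀ B) • (gam V).map (yA S t y₀ B) := by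
  ext s hs
  rw [withDensity_apply _ hs, Measure.smul_apply, Measure.map_apply (measurable_yA S t y₀ B) hs,
    ← lintegral_indicator hs, smul_eq_mul]
  rw [lintegral_plm S t y₀ (((measurable_mu S B).ennreal_ofReal).indicator hs)]
  have key := planted_bayes (G := G) (β := β) S ht y₀
    (fun A y => if A = B then s.indicator 1 y else 0) (fun A => by
      by_cases h : A = B
      · simp only [h, if_true]; exact measurable_one.indicator hs
      · simp only [h, if_false]; exact measurable_const)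
  have e1 : (fun y => ∑ x ∈ S.powerset, ENNReal.ofReal (mu G β S y x) *
      (if x = B then s.indicator (1 : (V → ℝ) → ℝ≥0∞) y else 0)) =
      s.indicator (fun y => ENNReal.ofReal (mu G β S y B)) := by
    funext y
    rw [Finset.sum_eq_single_of_mem B hB (fun x _ hx => by simp [hx])]
    by_cases hy : y ∈ s
    · simp [Set.indicator_of_mem hy]
    · simp [Set.indicator_of_notMem hy]
  rw [e1] at key
  rw [key, Finset.sum_eq_single_of_mem B hB (fun x _ hx => by simp [hx])]
  simp only [if_true]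
  congr 1
  have e2 : (fun g : V → ℝ => s.indicator (1 : (V → ℝ) → ℝ≥0∞) (y₀ + t • stepVec S B + Real.sqrt t • g)) =
      (yA S t y₀ B ⁻¹' s).indicator 1 := by
    funext g
    simp only [Set.indicator, Set.mem_preimage, yA, Pi.one_apply]
  rw [e2, lintegral_indicator_one (measurable_yA S t y₀ B hs)]

/-- Bayes formula: integral form. -/
theorem integral_mu_mul (S : Finset V) (ht : 0 ≤ t) (y₀ : V → ℝ) {B : Finset V} (hB : B ∈ S.powerset)
    {F : (V → ℝ) → ℝ} (hF : Measurable F) :
    ∫ y, mu G β S y B * F y ∂plm G β S t y₀ =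
      mu G β S y₀ B * ∫ g, F (y₀ + t • stepVec S B + Real.sqrt t • g) ∂gam V := by
  have h1 : ∫ y, F y ∂((plm G β S t y₀).withDensity (fun y => ENNReal.ofReal (mu G β S y B))) =
      ∫ y, F y ∂(ENNReal.ofReal (mu G β S y₀ B) • (gam V).map (yA S t y₀ B)) := by
    rw [plm_withDensity (G := G) (β := β) S ht y₀ hB]
  rw [integral_withDensity_eq_integral_toReal_smul (measurable_mu S B).ennreal_ofReal
    (Filter.Eventually.of_forall fun y => ENNReal.ofReal_lt_top), integral_smul_measure,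
    integral_map (measurable_yA S t y₀ B).aemeasurable hF.aestronglyMeasurable,
    ENNReal.toReal_ofReal (mu_pos _ _ _ _ _).le] at h1
  simp only [smul_eq_mul] at h1
  have h2 : ∀ y, (ENNReal.ofReal (mu G β S y B)).toReal = mu G β S y B := fun y =>
    ENNReal.toReal_ofReal (mu_pos _ _ _ _ _).le
  simp only [h2] at h1
  exact h1

theorem mu_le_one (S : Finset V) (y : V → ℝ) {A : Finset V} (hA : A ∈ S.powerset) :
    mu G β S y A ≤ 1 :=
  (Finset.single_le_sum (f := fun A => mu G β S y A) (fun A _ => (mu_pos _ _ _ _ _).le) hA).trans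
    (le_of_eq (sum_mu G β S y))

/-- A finite sum of the Bayes formula: for any weights `w`. -/
theorem sum_mu_mul_integral (S : Finset V) (ht : 0 ≤ t) (y₀ : V → ℝ) (w : Finset V → ℝ)
    {F : (V → ℝ) → ℝ} (hF : Measurable F) (hi : Integrable F (plm G β S t y₀)) :
    ∑ A ∈ S.powerset, mu G β S y₀ A * w A * ∫ g, F (y₀ + t • stepVec S A + Real.sqrt t • g) ∂gam V =
      ∫ y, Ee G β S y w * F y ∂plm G β S t y₀ := by
  have hint : ∀ A ∈ S.powerset, Integrable (fun y => w A * (mu G β S y A * F y)) (plm G β S t y₀) := by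
    intro A hA
    refine Integrable.const_mul ?_ _
    refine Integrable.bdd_mul (c := 1) hi (measurable_mu S A).aestronglyMeasurable
      (Filter.Eventually.of_forall fun y => ?_)
    rw [Real.norm_eq_abs, abs_of_pos (mu_pos _ _ _ _ _)]
    exact mu_le_one S y hA
  have e : ∀ y, Ee G β S y w * F y = ∑ A ∈ S.powerset, w A * (mu G β S y A * F y) := by
    intro y
    unfold Ee
    rw [Finset.sum_mul]
    exact Finset.sum_congr rfl fun A _ => by ring
  simp_rw [e]
  rw [integral_finsetSum _ hint]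
  refine Finset.sum_congr rfl fun A hA => ?_
  rw [integral_const_mul, integral_mu_mul S ht y₀ hA hF]
  ring

/-- Bayes identity. -/
theorem nishimori (hb : b ∈ S) (ht : 0 ≤ t) {F : (V → ℝ) → ℝ} (hF : Measurable F) {C : ℝ}
    (hFb : ∀ y, |F y| ≤ C) :
    ∑ A ∈ S.powerset, mu G β S 0 A * sp A b *
        ∫ g, F (0 + t • stepVec S A + Real.sqrt t • g) ∂gam V =
      EP G β S t 0 (fun y => mean G β S y b * F y) := by
  have h1 := sum_mu_mul_integral (G := G) (β := β) S ht 0 (fun A => sp A b) hF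
    (integrable_bdd hF hFb)
  rw [h1]
  have hC : 0 ≤ C := (abs_nonneg _).trans (hFb 0)
  exact integral_plm_bdd S t 0 ((measurable_mean S b).mul hF) (C := C) (fun y => by
    rw [abs_mul]
    calc |mean G β S y b| * |F y| ≤ 1 * C :=
          mul_le_mul (abs_mean_le _ _ _ _ _) (hFb y) (abs_nonneg _) zero_le_one
      _ = C := one_mul C)

theorem sp_compl {A : Finset V} {v : V} (hv : v ∈ S) : sp (S \ A) v = -sp A v := by
  unfold sp
  by_cases h : v ∈ A <;> simp [h, hv]

theorem stepVec_compl (A : Finset V) : stepVec S (S \ A) = -stepVec S A := by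
  funext v
  unfold stepVec
  by_cases hv : v ∈ S
  · simp [hv, sp_compl hv]
  · simp [hv]

theorem neg_yA (A : Finset V) (g : V → ℝ) :
    -(0 + t • stepVec S A + Real.sqrt t • g) = 0 + t • stepVec S (S \ A) + Real.sqrt t • (-g) := by
  rw [stepVec_compl]
  simp only [zero_add, smul_neg, neg_add_rev]
  abel

theorem integral_flip (A : Finset V) {F : (V → ℝ) → ℝ} (hF : Measurable F) :
    ∫ g, F (-(0 + t • stepVec S A + Real.sqrt t • g)) ∂gam V =
      ∫ g, F (0 + t • stepVec S (S \ A) + Real.sqrt t • g) ∂gam V := by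
  simp_rw [neg_yA]
  have hm := measurePreserving_neg_gam (V := V)
  have h2 : Measurable (fun g : V → ℝ => F (0 + t • stepVec S (S \ A) + Real.sqrt t • g)) :=
    hF.comp (measurable_yA S t 0 (S \ A))
  conv_rhs => rw [← hm.map_eq]
  rw [integral_map hm.measurable.aemeasurable h2.aestronglyMeasurable]

/-- Reindexing by the flip. -/
theorem sum_flip (w : Finset V → ℝ) {F : (V → ℝ) → ℝ} (hF : Measurable F) :
    ∑ A ∈ S.powerset, mu G β S 0 A * w A * ∫ g, F (-(0 + t • stepVec S A + Real.sqrt t • g)) ∂gam V =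
      ∑ A ∈ S.powerset, mu G β S 0 A * w (S \ A) *
        ∫ g, F (0 + t • stepVec S A + Real.sqrt t • g) ∂gam V := by
  refine Finset.sum_nbij' (fun A => S \ A) (fun A => S \ A) ?_ ?_ ?_ ?_ ?_
  · intro A _; exact Finset.mem_powerset.mpr Finset.sdiff_subset
  · intro A _; exact Finset.mem_powerset.mpr Finset.sdiff_subset
  · intro A hA; exact Finset.sdiff_sdiff_eq_self (Finset.mem_powerset.mp hA)
  · intro A hA; exact Finset.sdiff_sdiff_eq_self (Finset.mem_powerset.mp hA)
  · intro A hA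
    have h1 := mu_compl (G := G) (β := β) S (0 : V → ℝ) (Finset.mem_powerset.mp hA)
    rw [neg_zero] at h1
    rw [h1, Finset.sdiff_sdiff_eq_self (Finset.mem_powerset.mp hA), integral_flip A hF]

/-- Flip symmetry of `EP` at zero start. -/
theorem EP_neg {F : (V → ℝ) → ℝ} (hF : Measurable F) {C : ℝ} (hFb : ∀ y, |F y| ≤ C) :
    EP G β S t 0 (fun y => F (-y)) = EP G β S t 0 F := by
  have h := sum_flip (G := G) (β := β) (S := S) (t := t) (fun _ => 1) hF
  simpa [EP] using h

/-- Flip symmetry with a spin. -/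
theorem EPs_neg {F : (V → ℝ) → ℝ} (hF : Measurable F) {C : ℝ} (hFb : ∀ y, |F y| ≤ C) (hb : b ∈ S) :
    (∑ A ∈ S.powerset, mu G β S 0 A * sp A b *
        ∫ g, F (-(0 + t • stepVec S A + Real.sqrt t • g)) ∂gam V) =
      -∑ A ∈ S.powerset, mu G β S 0 A * sp A b *
        ∫ g, F (0 + t • stepVec S A + Real.sqrt t • g) ∂gam V := by
  rw [sum_flip (G := G) (β := β) (S := S) (t := t) (fun A => sp A b) hF, ← Finset.sum_neg_distrib]
  refine Finset.sum_congr rfl fun A _ => ?_
  rw [sp_compl hb]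
  ring

/-- Measurable linear form. -/
theorem measurable_lin (S : Finset V) (c : V → ℝ) : Measurable (fun y : V → ℝ => ∑ v ∈ S, c v * y v) :=
  Finset.measurable_sum _ fun v _ => (measurable_pi_apply v).const_mul _

theorem memLp_coord (v : V) : MemLp (fun g : V → ℝ => g v) 2 (gam V) := by
  rw [memLp_two_iff_integrable_sq (measurable_pi_apply v).aestronglyMeasurable]
  have := integrable_abs_pow_coord (V := V) v 2
  simpa [sq_abs] using this

theorem memLp_lin_yA (S : Finset V) (c : V → ℝ) (t : ℝ) (y₀ : V → ℝ) (A : Finset V) :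
    MemLp (fun g => ∑ v ∈ S, c v * yA S t y₀ A g v) 2 (gam V) := by
  have h1 : ∀ v, MemLp (fun g : V → ℝ => yA S t y₀ A g v) 2 (gam V) := by
    intro v
    have h2 : MemLp (fun g : V → ℝ => (y₀ v + t * stepVec S A v) + Real.sqrt t * g v) 2 (gam V) :=
      MemLp.add (memLp_const _) ((memLp_coord v).const_mul _)
    refine MemLp.ae_eq (Filter.Eventually.of_forall fun g => ?_) h2
    simp [yA]
  exact memLp_finsetSum S fun v _ => (h1 v).const_mul _

theorem memLp_lin_plm (S : Finset V) (c : V → ℝ) (t : ℝ) (y₀ : V → ℝ) :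
    MemLp (fun y => ∑ v ∈ S, c v * y v) 2 (plm G β S t y₀) := by
  rw [memLp_two_iff_integrable_sq (measurable_lin S c).aestronglyMeasurable]
  rw [integrable_plm_iff S t y₀ ((measurable_lin S c).pow_const 2)]
  intro A _
  exact (memLp_lin_yA S c t y₀ A).integrable_sq

/-- Nishimori for functions growing linearly in the noise (used with linear estimators). -/
theorem nishimori_sq_le (hb : b ∈ S) (ht : 0 ≤ t) (c : V → ℝ) :
    (∑ A ∈ S.powerset, mu G β S 0 A * sp A b * ∫ g,
        ∑ v ∈ S, c v * (0 + t • stepVec S A + Real.sqrt t • g) v ∂gam V) ^ 2 ≤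
      EP G β S t 0 (fun y => mean G β S y b ^ 2) *
        ∑ A ∈ S.powerset, mu G β S 0 A * ∫ g,
          (∑ v ∈ S, c v * (0 + t • stepVec S A + Real.sqrt t • g) v) ^ 2 ∂gam V := by
  set L : (V → ℝ) → ℝ := fun y => ∑ v ∈ S, c v * y v with hL
  have hLm : Measurable L := measurable_lin S c
  have hLp : MemLp L 2 (plm G β S t 0) := memLp_lin_plm S c t 0
  have h1 := sum_mu_mul_integral (G := G) (β := β) S ht 0 (fun A => sp A b) hLm (hLp.integrable one_le_two)
  rw [h1]
  have hmeanm := measurable_mean (G := G) (β := β) S b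
  have hmp : MemLp (fun y => mean G β S y b) 2 (plm G β S t 0) :=
    MemLp.of_bound hmeanm.aestronglyMeasurable 1 (Filter.Eventually.of_forall fun y => by
      rw [Real.norm_eq_abs]; exact abs_mean_le _ _ _ _ _)
  have h2 := Corr.ip_sq_le hmp hLp
  unfold Corr.ip at h2
  have e1 : ∫ y, mean G β S y b * mean G β S y b ∂plm G β S t 0 =
      EP G β S t 0 (fun y => mean G β S y b ^ 2) := by
    rw [← integral_plm_bdd S t 0 (hmeanm.pow_const 2) (C := 1) (fun y => by
      rw [abs_pow, pow_le_one_iff_of_nonneg (abs_nonneg _) two_ne_zero]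
      exact abs_mean_le _ _ _ _ _)]
    exact integral_congr_ae (Filter.Eventually.of_forall fun y => by
      simp only [pow_two])
  have e2 : ∫ y, L y * L y ∂plm G β S t 0 = ∑ A ∈ S.powerset, mu G β S 0 A * ∫ g,
      (∑ v ∈ S, c v * (0 + t • stepVec S A + Real.sqrt t • g) v) ^ 2 ∂gam V := by
    have hi : Integrable (fun y => L y ^ 2) (plm G β S t 0) := hLp.integrable_sq
    have := integral_plm (G := G) (β := β) S t 0 (hLm.pow_const 2) hi
    simp only [pow_two] at this ⊢
    exact this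
  rw [e1, e2] at h2
  exact h2

end Vale.Agent.Lib.P161E
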