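import Vale.Agent.Lib.P161E.PlantedA

/-! Job D1b: marginals, independence of even functions, correlation at zero tilt. -/

open MeasureTheory Finset
open scoped Classical ENNReal

noncomputable section

namespace Vale.Agent.Lib.P161E

open Vale.Agent.Lib.P161

variable {V : Type*} {G : SimpleGraph V} {β : ℝ} {S S₁ S₂ : Finset V} {a b : V} {t : ℝ}

/-- The marginal of the Gibbs measure at zero tilt on a star shaped subset. -/
theorem mu_marginal (hT : G.IsTree) {r : V} {D : Finset V} (hr : r ∈ D) (hD : Star G r D)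
    (hDS : D ⊆ S) (hS : Star G r S) {C : Finset V} (hC : C ⊆ D) :
    ∑ B ∈ (S \ D).powerset, mu G β S 0 (C ∪ B) = mu G β D 0 C := by
  set η : V → Bool := fun v => decide (v ∈ C) with hη
  have hspin : ∀ (A₁ : Finset V), A₁ ⊆ D → ((∀ v ∈ D, sp A₁ v = spin (η v)) ↔ A₁ = C) := by
    intro A₁ hA₁
    have hs : ∀ v, spin (η v) = sp C v := by
      intro v
      by_cases h : v ∈ C <;> simp [hη, spin, sp, h]
    constructor
    · intro h
      ext v
      by_cases hv : v ∈ D
      · have h1 := h v hv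
        rw [hs] at h1
        unfold sp at h1
        by_cases h2 : v ∈ A₁ <;> by_cases h3 : v ∈ C <;> simp [h2, h3] at h1 ⊢ <;> norm_num at h1
      · constructor
        · intro h2; exact absurd (hA₁ h2) hv
        · intro h2; exact absurd (hC h2) hv
    · rintro rfl v _
      rw [hs]
  have h1 := marginal_eq (β := β) hT hr hD hDS hS η
  have h2 := marginal_eq (β := β) hT hr hD (Finset.Subset.refl D) hD η
  rw [← h2] at h1
  have hCm : C ∈ D.powerset := Finset.mem_powerset.mpr hC
  rw [Finset.sum_eq_single_of_mem C hCm (fun A hA hne => by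
    rw [if_neg]
    intro h
    exact hne ((hspin A (Finset.mem_powerset.mp hA)).mp h))] at h1
  rw [if_pos ((hspin C hC).mpr rfl)] at h1
  rw [← h1]
  have hunion : D ∪ (S \ D) = S := Finset.union_sdiff_of_subset hDS
  have hd : Disjoint D (S \ D) := Finset.disjoint_sdiff
  conv_rhs => rw [← hunion]
  rw [sum_powerset_union hd, Finset.sum_eq_single_of_mem C hCm]
  · rw [hunion]
    refine Finset.sum_congr rfl fun B hB => ?_
    have hB' := Finset.mem_powerset.mp hB
    rw [if_pos]
    intro v hv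
    have : v ∉ B := fun h => Finset.disjoint_left.mp hd hv (hB' h)
    have h3 : sp (C ∪ B) v = sp C v := by simp [sp, this]
    rw [h3]
    exact (hspin C hC).mpr rfl v hv
  · intro A hA hne
    refine Finset.sum_eq_zero fun B hB => ?_
    have hB' := Finset.mem_powerset.mp hB
    rw [if_neg]
    intro h
    apply hne
    refine (hspin A (Finset.mem_powerset.mp hA)).mp fun v hv => ?_
    have : v ∉ B := fun h => Finset.disjoint_left.mp hd hv (hB' h)
    have h3 : sp (A ∪ B) v = sp A v := by simp [sp, this]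
    rw [← h3]
    exact h v hv

/-- Marginals: for `D ⊆ S` both stars around `r`, expectations of functions of the coordinates in
`D` agree. Uses `marginal_eq`. -/
theorem EP_marginal (hT : G.IsTree) {r : V} {D : Finset V} (hr : r ∈ D) (hD : Star G r D)
    (hDS : D ⊆ S) (hS : Star G r S) {F : (V → ℝ) → ℝ} (hF : Measurable F) {C : ℝ}
    (hFb : ∀ y, |F y| ≤ C) (hdep : DepOn D F) :
    EP G β S t 0 F = EP G β D t 0 F := by
  have hunion : D ∪ (S \ D) = S := Finset.union_sdiff_of_subset hDS
  have hd : Disjoint D (S \ D) := Finset.disjoint_sdiff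
  unfold EP
  conv_lhs => rw [← hunion]
  rw [sum_powerset_union hd, hunion]
  refine Finset.sum_congr rfl fun A hA => ?_
  have hA' := Finset.mem_powerset.mp hA
  rw [← mu_marginal (β := β) hT hr hD hDS hS hA', Finset.sum_mul]
  refine Finset.sum_congr rfl fun B hB => ?_
  have hB' := Finset.mem_powerset.mp hB
  congr 1
  refine integral_congr_ae (Filter.Eventually.of_forall fun g => ?_)
  refine hdep _ _ fun v hv => ?_
  have hvS : v ∈ S := hDS hv
  have hvB : v ∉ B := fun h => Finset.disjoint_left.mp hd hv (hB' h)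
  simp [stepVec, hvS, hv, sp, hvB]

/-- The law `EQ` in terms of the planted law and the signed sum. -/
theorem EQ_eq (s : ℝ) (F : (V → ℝ) → ℝ) :
    EQ G β S t b s F = EP G β S t 0 F + Real.tanh β * s *
      ∑ A ∈ S.powerset, mu G β S 0 A * sp A b * ∫ g, F (0 + t • stepVec S A + Real.sqrt t • g) ∂gam V := by
  unfold EQ EP
  rw [Finset.mul_sum, ← Finset.sum_add_distrib]
  refine Finset.sum_congr rfl fun A _ => ?_
  ring

/-- The signed sum vanishes for an even function. -/
theorem signed_sum_even {F : (V → ℝ) → ℝ} (hF : Measurable F) {C : ℝ} (hFb : ∀ y, |F y| ≤ C)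
    (hb : b ∈ S) (heven : ∀ y, F (-y) = F y) :
    ∑ A ∈ S.powerset, mu G β S 0 A * sp A b * ∫ g, F (0 + t • stepVec S A + Real.sqrt t • g) ∂gam V = 0 := by
  have h := EPs_neg (G := G) (β := β) (S := S) (b := b) (t := t) hF hFb hb
  simp only [heven] at h
  linarith

/-- `EQ` of an even function. -/
theorem EQ_even {F : (V → ℝ) → ℝ} (hF : Measurable F) {C : ℝ} (hFb : ∀ y, |F y| ≤ C)
    (hb : b ∈ S) (heven : ∀ y, F (-y) = F y) (s : ℝ) :
    EQ G β S t b s F = EP G β S t 0 F := by
  rw [EQ_eq, signed_sum_even hF hFb hb heven]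
  ring

/-- `EP` of an odd function vanishes. -/
theorem EP_odd {F : (V → ℝ) → ℝ} (hF : Measurable F) {C : ℝ} (hFb : ∀ y, |F y| ≤ C)
    (hodd : ∀ y, F (-y) = -F y) : EP G β S t 0 F = 0 := by
  have h := EP_neg (G := G) (β := β) (S := S) (t := t) hF hFb
  simp only [hodd] at h
  have e : EP G β S t 0 (fun y => -F y) = -EP G β S t 0 F := by
    have := EP_const_mul (G := G) (β := β) (S := S) (t := t) (y₀ := 0) (-1) F
    simpa using this
  rw [e] at h
  linarith

theorem glue_left (h : Disjoint S₁ S₂) {F : (V → ℝ) → ℝ} (hdep : DepOn S₂ F) (y₁ y₂ : V → ℝ) :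
    F (glue S₁ y₁ y₂) = F y₂ :=
  hdep _ _ fun v hv => by
    have : v ∉ S₁ := fun h1 => Finset.disjoint_left.mp h h1 hv
    simp [glue, this]

theorem glue_right {F : (V → ℝ) → ℝ} (hdep : DepOn S₁ F) (y₁ y₂ : V → ℝ) :
    F (glue S₁ y₁ y₂) = F y₁ :=
  hdep _ _ fun v hv => by simp [glue, hv]

/-- Independence of an even function of the far side. -/
theorem EP_indep_even (h : Cut G S₁ S₂ a b) (ht : 0 ≤ t) {F₁ F₂ : (V → ℝ) → ℝ} (hF₁ : Measurable F₁)
    (hF₂ : Measurable F₂) {C : ℝ} (hF₁b : ∀ y, |F₁ y| ≤ C) (hF₂b : ∀ y, |F₂ y| ≤ C)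
    (hdep₁ : DepOn S₁ F₁) (hdep₂ : DepOn S₂ F₂) (heven : ∀ y, F₂ (-y) = F₂ y) :
    EP G β (S₁ ∪ S₂) t 0 (fun y => F₁ y * F₂ y) = EP G β S₁ t 0 F₁ * EP G β S₂ t 0 F₂ := by
  have hC : 0 ≤ C := (abs_nonneg _).trans (hF₁b 0)
  have hdep : DepOn (S₁ ∪ S₂) (fun y => F₁ y * F₂ y) := by
    intro y y' hyy
    simp only
    rw [hdep₁ y y' fun v hv => hyy v (Finset.mem_union_left _ hv),
      hdep₂ y y' fun v hv => hyy v (Finset.mem_union_right _ hv)]
  rw [EP_split h ht (F := fun y => F₁ y * F₂ y) (hF₁.mul hF₂) (C := C * C) (fun y => by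
    rw [abs_mul]; exact mul_le_mul (hF₁b y) (hF₂b y) (abs_nonneg _) hC) hdep]
  unfold EP
  rw [Finset.sum_mul]
  refine Finset.sum_congr rfl fun A₁ _ => ?_
  rw [mul_assoc, ← integral_mul_const]
  congr 1
  refine integral_congr_ae (Filter.Eventually.of_forall fun g₁ => ?_)
  simp only
  have e : (fun y₂ => F₁ (glue S₁ (0 + t • stepVec S₁ A₁ + Real.sqrt t • g₁) y₂) *
      F₂ (glue S₁ (0 + t • stepVec S₁ A₁ + Real.sqrt t • g₁) y₂)) =
      fun y₂ => F₁ (0 + t • stepVec S₁ A₁ + Real.sqrt t • g₁) * F₂ y₂ := by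
    funext y₂
    rw [glue_right hdep₁, glue_left h.disj hdep₂]
  rw [e]
  have e2 : EQ G β S₂ t b (sp A₁ a) (fun y₂ => F₁ (0 + t • stepVec S₁ A₁ + Real.sqrt t • g₁) * F₂ y₂) =
      F₁ (0 + t • stepVec S₁ A₁ + Real.sqrt t • g₁) * EQ G β S₂ t b (sp A₁ a) F₂ := by
    unfold EQ
    rw [Finset.mul_sum]
    refine Finset.sum_congr rfl fun A _ => ?_
    rw [integral_const_mul]
    ring
  rw [e2, EQ_even hF₂ hF₂b h.hb heven]
  rfl

/-- The geodesic from the centre to a point of a star shaped set stays in the set. -/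
theorem geo_mem [G.LocallyFinite] (hT : G.IsTree) {r v : V} (hS : Star G r S) (hv : v ∈ S) {j : ℕ}
    (hj : j ≤ G.dist r v) : geo G r v j ∈ S := by
  obtain ⟨k, hk⟩ : ∃ k, j + k = G.dist r v := ⟨G.dist r v - j, by omega⟩
  induction k generalizing j with
  | zero =>
    have : j = G.dist r v := by omega
    rw [this, geo_last hT]
    exact hv
  | succ k ih =>
    have h1 := ih (j := j + 1) (by omega) (by omega)
    have hlt : j < G.dist r v := by omega
    have hadj := geo_adj hT hlt
    have d1 := (dist_geo hT (r := r) (v := v) (j := j) hlt.le).1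
    have d2 := (dist_geo hT (r := r) (v := v) (j := j + 1) (by omega)).1
    have d3 : G.dist r (geo G r v j) + 1 = G.dist r (geo G r v (j + 1)) := by omega
    exact hS _ h1 _ hadj.symm d3

/-- The correlation of spins at zero tilt. -/
theorem corr_zero [G.LocallyFinite] (hT : G.IsTree) (hβ : 0 ≤ β) {r v : V} (hr : r ∈ S) (hS : Star G r S)
    (hv : v ∈ S) :
    Ee G β S 0 (fun A => sp A r * sp A v) = Real.tanh β ^ G.dist r v := by
  have h := cov_path (G := G) (β := β) hT hβ hr hS hv (0 : V → ℝ)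
  unfold cov at h
  rw [mean_zero _ hr, mean_zero _ hv] at h
  unfold Cf pathG xiS at h
  rw [mean_zero _ hr] at h
  simp only [zero_mul, sub_zero] at h
  rw [h]
  have hg : gm (Real.tanh β) 0 = 1 := by simp [gm]
  have hprod : ∀ j ∈ Finset.range (G.dist r v),
      Real.tanh β * gm (Real.tanh β) (mean G β (side G S (geo G r v (j + 1)) (geo G r v j)) 0
        (geo G r v (j + 1))) = Real.tanh β := by
    intro j hj
    have hj' := Finset.mem_range.mp hj
    have hadj := geo_adj hT hj'
    have hmem : geo G r v (j + 1) ∈ side G S (geo G r v (j + 1)) (geo G r v j) := by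
      rw [mem_side]
      refine ⟨geo_mem hT hS hv (by omega), ?_⟩
      have h1 : G.dist (geo G r v j) (geo G r v (j + 1)) = 1 := SimpleGraph.dist_eq_one_iff_adj.2 hadj
      have h2 : G.dist (geo G r v (j + 1)) (geo G r v (j + 1)) = 0 := SimpleGraph.dist_self
      omega
    rw [mean_zero _ hmem, hg, mul_one]
  rw [Finset.prod_congr rfl hprod]
  simp

end Vale.Agent.Lib.P161E
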