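import Vale.Agent.Lib.P161E.Defs

/-! Algebra of `gm`, `bm`, `shat`. Job A7. All hypotheses: `0 ≤ θ`, `θ < 1` and points in `[-1, 1]`. -/

open Finset

noncomputable section

namespace Vale.Agent.Lib.P161E

variable {θ θ₁ θ₂ x x' a b a' b' : ℝ}

/-! Auxiliary facts. -/

private lemma sq_le_one_of_abs {x : ℝ} (hx : |x| ≤ 1) : x ^ 2 ≤ 1 := by
  have := abs_le.mp hx
  nlinarith

private lemma theta_sq_lt (h0 : 0 ≤ θ) (h1 : θ < 1) : θ ^ 2 < 1 := by nlinarith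

private lemma den_ge (h0 : 0 ≤ θ) (h1 : θ < 1) (hx : |x| ≤ 1) : 1 - θ ^ 2 ≤ 1 - θ ^ 2 * x ^ 2 := by
  have h2 := sq_le_one_of_abs hx
  nlinarith [sq_nonneg θ]

private lemma den_pos (h0 : 0 ≤ θ) (h1 : θ < 1) (hx : |x| ≤ 1) : 0 < 1 - θ ^ 2 * x ^ 2 := by
  have := den_ge h0 h1 hx
  have := theta_sq_lt h0 h1
  linarith

private lemma den_le_one (x : ℝ) : 1 - θ ^ 2 * x ^ 2 ≤ 1 := by
  nlinarith [mul_nonneg (sq_nonneg θ) (sq_nonneg x)]

private lemma one_sub_gm_eq (h0 : 0 ≤ θ) (h1 : θ < 1) (hx : |x| ≤ 1) :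
    1 - gm θ x = x ^ 2 * (1 - θ ^ 2) / (1 - θ ^ 2 * x ^ 2) := by
  have hD := den_pos h0 h1 hx
  unfold gm
  rw [eq_div_iff hD.ne', sub_mul, div_mul_cancel₀ _ hD.ne']
  ring

private lemma bden_ge (h0 : 0 ≤ θ) (h1 : θ < 1) (ha : |a| ≤ 1) (hb : |b| ≤ 1) :
    1 - θ ≤ 1 + θ * a * b := by
  have h2 : |a * b| ≤ 1 := by
    rw [abs_mul]
    exact mul_le_one₀ ha (abs_nonneg _) hb
  have h3 := abs_le.mp h2
  have : θ * a * b = θ * (a * b) := by ring
  rw [this]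
  nlinarith [h3.1, h3.2]

private lemma bden_le (h0 : 0 ≤ θ) (h1 : θ < 1) (ha : |a| ≤ 1) (hb : |b| ≤ 1) :
    1 + θ * a * b ≤ 1 + θ := by
  have h2 : |a * b| ≤ 1 := by
    rw [abs_mul]
    exact mul_le_one₀ ha (abs_nonneg _) hb
  have h3 := abs_le.mp h2
  have : θ * a * b = θ * (a * b) := by ring
  rw [this]
  nlinarith [h3.1, h3.2]

private lemma bden_pos (h0 : 0 ≤ θ) (h1 : θ < 1) (ha : |a| ≤ 1) (hb : |b| ≤ 1) :
    0 < 1 + θ * a * b := by
  have := bden_ge h0 h1 ha hb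
  linarith

private lemma abs_mul_le_one {a b : ℝ} (ha : |a| ≤ 1) (hb : |b| ≤ 1) : |a * b| ≤ 1 := by
  rw [abs_mul]
  exact mul_le_one₀ ha (abs_nonneg _) hb

/-- Numerator of a difference of values of `bm`. -/
private lemma bm_sub_eq (hD : 1 + θ * a * b ≠ 0) (hD' : 1 + θ * a' * b' ≠ 0) :
    (bm θ a b - bm θ a' b') * ((1 + θ * a * b) * (1 + θ * a' * b')) =
      (a - a') * (1 - θ ^ 2 * (b * b')) + θ * (b - b') * (1 - a * a') := by
  unfold bm
  have hX : (a + θ * b) / (1 + θ * a * b) * (1 + θ * a * b) = a + θ * b := div_mul_cancel₀ _ hD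
  have hX' : (a' + θ * b') / (1 + θ * a' * b') * (1 + θ * a' * b') = a' + θ * b' :=
    div_mul_cancel₀ _ hD'
  linear_combination (1 + θ * a' * b') * hX - (1 + θ * a * b) * hX'

theorem gm_nonneg (h0 : 0 ≤ θ) (h1 : θ < 1) (hx : |x| ≤ 1) : 0 ≤ gm θ x := by
  unfold gm
  exact div_nonneg (by linarith [sq_le_one_of_abs hx]) (den_pos h0 h1 hx).le

theorem gm_le_one (h0 : 0 ≤ θ) (h1 : θ < 1) (hx : |x| ≤ 1) : gm θ x ≤ 1 := by
  unfold gm
  rw [div_le_one (den_pos h0 h1 hx)]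
  have := theta_sq_lt h0 h1
  nlinarith [sq_nonneg x]

theorem gm_neg (θ x : ℝ) : gm θ (-x) = gm θ x := by
  simp [gm]

/-- `1 - γ ≥ (1 - θ²) x²`. -/
theorem one_sub_gm_ge (h0 : 0 ≤ θ) (h1 : θ < 1) (hx : |x| ≤ 1) :
    (1 - θ ^ 2) * x ^ 2 ≤ 1 - gm θ x := by
  rw [one_sub_gm_eq h0 h1 hx, le_div_iff₀ (den_pos h0 h1 hx)]
  have h2 := den_le_one (θ := θ) x
  have h3 : 0 ≤ (1 - θ ^ 2) * x ^ 2 :=
    mul_nonneg (by linarith [theta_sq_lt h0 h1]) (sq_nonneg x)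
  nlinarith

/-- `1 - γ ≤ x²`. -/
theorem one_sub_gm_le (h0 : 0 ≤ θ) (h1 : θ < 1) (hx : |x| ≤ 1) : 1 - gm θ x ≤ x ^ 2 := by
  rw [one_sub_gm_eq h0 h1 hx, div_le_iff₀ (den_pos h0 h1 hx)]
  have h2 := den_ge h0 h1 hx
  nlinarith [sq_nonneg x]

private lemma inv_convex {u v s t : ℝ} (hu : 0 < u) (hv : 0 < v) (hs : 0 ≤ s) (ht : 0 ≤ t)
    (hst : s + t = 1) : 1 / (s * u + t * v) ≤ s * (1 / u) + t * (1 / v) := by
  have hw : 0 < s * u + t * v := by
    rcases eq_or_lt_of_le hs with h | h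
    · have : t = 1 := by linarith
      rw [← h, this]; simpa using hv
    · have : 0 ≤ t * v := mul_nonneg ht hv.le
      have : 0 < s * u := mul_pos h hu
      linarith
  have e : s * (1 / u) + t * (1 / v) = (s * v + t * u) / (u * v) := by
    field_simp
  rw [e, div_le_div_iff₀ hw (mul_pos hu hv)]
  have hst' : s = 1 - t := by linarith
  subst hst'
  nlinarith [mul_nonneg (mul_nonneg hs ht) (sq_nonneg (u - v))]

/-- `gm` is concave on `[-1, 1]`. -/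
theorem gm_concave (h0 : 0 < θ) (h1 : θ < 1) : ConcaveOn ℝ (Set.Icc (-1) 1) (gm θ) := by
  refine ⟨convex_Icc _ _, ?_⟩
  intro u hu v hv s t hs ht hst
  simp only [smul_eq_mul]
  have hθ2 : 0 < θ ^ 2 := by positivity
  have hu1 : |θ * u| < 1 := by
    rw [abs_mul, abs_of_pos h0]
    have : |u| ≤ 1 := abs_le.mpr hu
    nlinarith [abs_nonneg u]
  have hv1 : |θ * v| < 1 := by
    rw [abs_mul, abs_of_pos h0]
    have : |v| ≤ 1 := abs_le.mpr hv
    nlinarith [abs_nonneg v]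
  have hformula : ∀ y : ℝ, |y| ≤ 1 → gm θ y = 1 / θ ^ 2 -
      ((1 - θ ^ 2) / (2 * θ ^ 2)) * (1 / (1 - θ * y) + 1 / (1 + θ * y)) := by
    intro y hy
    have hy1 : |θ * y| < 1 := by
      rw [abs_mul, abs_of_pos h0]
      nlinarith [abs_nonneg y]
    have h2 := abs_lt.mp hy1
    have hA : 1 - θ * y ≠ 0 := ne_of_gt (by linarith [h2.2])
    have hB : 1 + θ * y ≠ 0 := ne_of_gt (by linarith [h2.1])
    have hfac : 1 - θ ^ 2 * y ^ 2 = (1 - θ * y) * (1 + θ * y) := by ring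
    have hD : 1 - θ ^ 2 * y ^ 2 ≠ 0 := by
      rw [hfac]
      exact mul_ne_zero hA hB
    have hθne : θ ≠ 0 := h0.ne'
    have e1 : 1 / (1 - θ * y) + 1 / (1 + θ * y) = 2 / (1 - θ ^ 2 * y ^ 2) := by
      rw [div_add_div _ _ hA hB, hfac]
      congr 1
      ring
    rw [e1]
    unfold gm
    rw [eq_sub_iff_add_eq, div_add' _ _ _ hD, div_eq_iff hD]
    have e2 : (1 - θ ^ 2) / (2 * θ ^ 2) * (2 / (1 - θ ^ 2 * y ^ 2)) * (1 - θ ^ 2 * y ^ 2) =
        (1 - θ ^ 2) / θ ^ 2 := by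
      field_simp
    have e3 : 1 / θ ^ 2 * (1 - θ ^ 2 * y ^ 2) = 1 / θ ^ 2 - y ^ 2 := by
      field_simp
    rw [e3]
    have e4 : (1 - θ ^ 2) / θ ^ 2 = 1 / θ ^ 2 - 1 := by
      field_simp
    linear_combination e2 + e4
  have hw : |s * u + t * v| ≤ 1 := by
    have h1' := hu.1; have h2' := hu.2; have h3' := hv.1; have h4' := hv.2
    rw [abs_le]
    constructor <;> nlinarith [mul_nonneg hs (by linarith : (0:ℝ) ≤ 1 + u),
      mul_nonneg ht (by linarith : (0:ℝ) ≤ 1 + v), mul_nonneg hs (by linarith : (0:ℝ) ≤ 1 - u),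
      mul_nonneg ht (by linarith : (0:ℝ) ≤ 1 - v)]
  rw [hformula u (abs_le.mpr hu), hformula v (abs_le.mpr hv), hformula _ hw]
  have hκ : 0 ≤ (1 - θ ^ 2) / (2 * θ ^ 2) :=
    div_nonneg (by nlinarith) (by positivity)
  have hu2 := abs_lt.mp hu1
  have hv2 := abs_lt.mp hv1
  have c1 := inv_convex (u := 1 - θ * u) (v := 1 - θ * v) (by linarith [hu2.2]) (by linarith [hv2.2])
    hs ht hst
  have c2 := inv_convex (u := 1 + θ * u) (v := 1 + θ * v) (by linarith [hu2.1]) (by linarith [hv2.1])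
    hs ht hst
  have e1 : s * (1 - θ * u) + t * (1 - θ * v) = 1 - θ * (s * u + t * v) := by
    have : s = 1 - t := by linarith
    subst this; ring
  have e2 : s * (1 + θ * u) + t * (1 + θ * v) = 1 + θ * (s * u + t * v) := by
    have : s = 1 - t := by linarith
    subst this; ring
  rw [e1] at c1
  rw [e2] at c2
  have key := mul_le_mul_of_nonneg_left (add_le_add c1 c2) hκ
  have hst' : s = 1 - t := by linarith
  subst hst'
  nlinarith [key]

/-- Lipschitz in the point, with the factor `|x| + |x'|`. -/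
theorem gm_lip (h0 : 0 ≤ θ) (h1 : θ < 1) (hx : |x| ≤ 1) (hx' : |x'| ≤ 1) :
    |gm θ x - gm θ x'| ≤ (|x| + |x'|) * |x - x'| / (1 - θ ^ 2) := by
  have hD := den_pos h0 h1 hx
  have hD' := den_pos h0 h1 hx'
  have hg := den_ge h0 h1 hx
  have hg' := den_ge h0 h1 hx'
  have hT : 0 < 1 - θ ^ 2 := by linarith [theta_sq_lt h0 h1]
  have e : gm θ x - gm θ x' =
      (x' - x) * (x' + x) * (1 - θ ^ 2) / ((1 - θ ^ 2 * x ^ 2) * (1 - θ ^ 2 * x' ^ 2)) := by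
    unfold gm
    rw [div_sub_div _ _ hD.ne' hD'.ne']
    congr 1
    ring
  rw [e, abs_div, abs_mul, abs_mul, abs_of_pos hT,
    abs_of_pos (mul_pos hD hD'), div_le_div_iff₀ (mul_pos hD hD') hT]
  have h3 : |x' + x| ≤ |x| + |x'| := by
    rw [add_comm x' x]; exact abs_add_le _ _
  have h4 : |x' - x| = |x - x'| := abs_sub_comm _ _
  rw [h4]
  have h5 : (1 - θ ^ 2) * (1 - θ ^ 2) ≤ (1 - θ ^ 2 * x ^ 2) * (1 - θ ^ 2 * x' ^ 2) :=
    mul_le_mul hg hg' hT.le hD.le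
  have h6 : 0 ≤ |x - x'| := abs_nonneg _
  calc |x - x'| * |x' + x| * (1 - θ ^ 2) * (1 - θ ^ 2)
      ≤ |x - x'| * (|x| + |x'|) * (1 - θ ^ 2) * (1 - θ ^ 2) := by
        have := mul_le_mul_of_nonneg_left h3 h6
        have h7 : 0 ≤ (1 - θ ^ 2) * (1 - θ ^ 2) := by positivity
        nlinarith [mul_le_mul_of_nonneg_right this h7]
    _ = |x - x'| * (|x| + |x'|) * ((1 - θ ^ 2) * (1 - θ ^ 2)) := by ring
    _ ≤ |x - x'| * (|x| + |x'|) * ((1 - θ ^ 2 * x ^ 2) * (1 - θ ^ 2 * x' ^ 2)) :=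
        mul_le_mul_of_nonneg_left h5 (by positivity)
    _ = (|x| + |x'|) * |x - x'| * ((1 - θ ^ 2 * x ^ 2) * (1 - θ ^ 2 * x' ^ 2)) := by ring

/-- Lipschitz in `θ`, with the factor `x²`. -/
theorem gm_lip_theta (h0 : 0 ≤ θ₁) (h1 : θ₁ < 1) (h0' : 0 ≤ θ₂) (h1' : θ₂ < 1) (hx : |x| ≤ 1) :
    |gm θ₁ x - gm θ₂ x| ≤ 2 * |θ₁ - θ₂| * x ^ 2 / ((1 - θ₁ ^ 2) * (1 - θ₂ ^ 2)) := by
  have hD := den_pos h0 h1 hx
  have hD' := den_pos h0' h1' hx
  have hg := den_ge h0 h1 hx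
  have hg' := den_ge h0' h1' hx
  have hT : 0 < 1 - θ₁ ^ 2 := by linarith [theta_sq_lt h0 h1]
  have hT' : 0 < 1 - θ₂ ^ 2 := by linarith [theta_sq_lt h0' h1']
  have e : gm θ₁ x - gm θ₂ x =
      (1 - x ^ 2) * x ^ 2 * ((θ₁ - θ₂) * (θ₁ + θ₂)) /
        ((1 - θ₁ ^ 2 * x ^ 2) * (1 - θ₂ ^ 2 * x ^ 2)) := by
    unfold gm
    rw [div_sub_div _ _ hD.ne' hD'.ne']
    congr 1
    ring
  have hx2 := sq_le_one_of_abs hx
  rw [e, abs_div, abs_mul, abs_mul, abs_mul, abs_of_nonneg (by linarith : (0:ℝ) ≤ 1 - x ^ 2),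
    abs_of_nonneg (sq_nonneg x), abs_of_pos (mul_pos hD hD'),
    abs_of_nonneg (by linarith : (0:ℝ) ≤ θ₁ + θ₂)]
  have h5 : (1 - θ₁ ^ 2) * (1 - θ₂ ^ 2) ≤ (1 - θ₁ ^ 2 * x ^ 2) * (1 - θ₂ ^ 2 * x ^ 2) :=
    mul_le_mul hg hg' hT'.le hD.le
  apply div_le_div₀ (by positivity) _ (mul_pos hT hT') h5
  have h6 : θ₁ + θ₂ ≤ 2 := by linarith
  have h7 : 0 ≤ |θ₁ - θ₂| := abs_nonneg _
  have h8 : |θ₁ - θ₂| * (θ₁ + θ₂) ≤ |θ₁ - θ₂| * 2 := mul_le_mul_of_nonneg_left h6 h7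
  have h9 : 0 ≤ x ^ 2 := sq_nonneg x
  have h10 : 0 ≤ |θ₁ - θ₂| * (θ₁ + θ₂) := mul_nonneg h7 (by linarith)
  calc (1 - x ^ 2) * x ^ 2 * (|θ₁ - θ₂| * (θ₁ + θ₂))
      ≤ 1 * x ^ 2 * (|θ₁ - θ₂| * (θ₁ + θ₂)) := by
        apply mul_le_mul_of_nonneg_right _ h10
        apply mul_le_mul_of_nonneg_right _ h9
        linarith
    _ ≤ 1 * x ^ 2 * (|θ₁ - θ₂| * 2) := mul_le_mul_of_nonneg_left h8 (by positivity)
    _ = 2 * |θ₁ - θ₂| * x ^ 2 := by ring

theorem abs_bm_le (h0 : 0 ≤ θ) (h1 : θ < 1) (ha : |a| ≤ 1) (hb : |b| ≤ 1) :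
    |bm θ a b| ≤ 1 := by
  have hD := bden_pos h0 h1 ha hb
  unfold bm
  rw [abs_div, abs_of_pos hD, div_le_one hD, abs_le]
  have ha2 := abs_le.mp ha
  have hb2 := abs_le.mp hb
  have hθb1 : θ * b ≤ 1 := by nlinarith [hb2.2, hb2.1]
  have hθb2 : -1 ≤ θ * b := by nlinarith [hb2.2, hb2.1]
  constructor
  · nlinarith [mul_nonneg (by linarith : (0:ℝ) ≤ 1 + a) (by linarith : (0:ℝ) ≤ 1 + θ * b)]
  · nlinarith [mul_nonneg (by linarith : (0:ℝ) ≤ 1 - a) (by linarith : (0:ℝ) ≤ 1 - θ * b)]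

/-- `bm` is controlled by its arguments. -/
theorem abs_bm_le_add (h0 : 0 ≤ θ) (h1 : θ < 1) (ha : |a| ≤ 1) (hb : |b| ≤ 1) :
    |bm θ a b| ≤ (|a| + |b|) / (1 - θ) := by
  have hD := bden_pos h0 h1 ha hb
  have hg := bden_ge h0 h1 ha hb
  have hT : 0 < 1 - θ := by linarith
  unfold bm
  rw [abs_div, abs_of_pos hD]
  apply div_le_div₀ (by positivity) _ hT hg
  calc |a + θ * b| ≤ |a| + |θ * b| := abs_add_le _ _
    _ ≤ |a| + |b| := by
      rw [abs_mul, abs_of_nonneg h0]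
      nlinarith [abs_nonneg b]

/-- Exact inversion: the pair of cavity means is a Lipschitz function of the pair of means.
Proof: with `D = 1 + θ a b`, `D' = 1 + θ a' b'`, the numerators of the differences are
`(a-a')(1-θ²bb') + θ(b-b')(1-aa')` and `θ(a-a')(1-bb') + (b-b')(1-θ²aa')`, of determinant
`(1-θ²)(1-θ²aa'bb')`; solve by Cramer. -/
theorem bm_inv_lip (h0 : 0 ≤ θ) (h1 : θ < 1) (ha : |a| ≤ 1) (hb : |b| ≤ 1) (ha' : |a'| ≤ 1)
    (hb' : |b'| ≤ 1) :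
    |a - a'| ≤ 2 / (1 - θ) ^ 2 * (|bm θ a b - bm θ a' b'| + |bm θ b a - bm θ b' a'|) := by
  have hD := bden_pos h0 h1 ha hb
  have hD' := bden_pos h0 h1 ha' hb'
  have hDb := bden_pos h0 h1 hb ha
  have hDb' := bden_pos h0 h1 hb' ha'
  have hT : 0 < 1 - θ := by linarith
  set P := bm θ a b - bm θ a' b' with hP
  set Q := bm θ b a - bm θ b' a' with hQ
  have e1 := bm_sub_eq (θ := θ) (a := a) (b := b) (a' := a') (b' := b') hD.ne' hD'.ne'
  have e2 := bm_sub_eq (θ := θ) (a := b) (b := a) (a' := b') (b' := a') hDb.ne' hDb'.ne'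
  have e3 : 1 + θ * b * a = 1 + θ * a * b := by ring
  have e4 : 1 + θ * b' * a' = 1 + θ * a' * b' := by ring
  rw [e3, e4] at e2
  set E := (1 + θ * a * b) * (1 + θ * a' * b') with hE
  have hEpos : 0 < E := mul_pos hD hD'
  have hEle : E ≤ (1 + θ) ^ 2 := by
    have h5 := bden_le h0 h1 ha hb
    have h6 := bden_le h0 h1 ha' hb'
    rw [hE, sq]
    exact mul_le_mul h5 h6 hD'.le (by linarith)
  -- Cramer
  have hdet : (a - a') * ((1 - θ ^ 2) * (1 - θ ^ 2 * (a * a' * (b * b')))) =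
      E * (P * (1 - θ ^ 2 * (a * a')) - Q * (θ * (1 - a * a'))) := by
    have e1' : P * E = (a - a') * (1 - θ ^ 2 * (b * b')) + θ * (b - b') * (1 - a * a') := e1
    have e2' : Q * E = (b - b') * (1 - θ ^ 2 * (a * a')) + θ * (a - a') * (1 - b * b') := e2
    have : E * (P * (1 - θ ^ 2 * (a * a')) - Q * (θ * (1 - a * a'))) =
        (P * E) * (1 - θ ^ 2 * (a * a')) - (Q * E) * (θ * (1 - a * a')) := by ring
    rw [this, e1', e2']
    ring
  have haa := abs_le.mp (abs_mul_le_one ha ha')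
  have hbb := abs_le.mp (abs_mul_le_one hb hb')
  have hall : |a * a' * (b * b')| ≤ 1 := abs_mul_le_one (abs_mul_le_one ha ha') (abs_mul_le_one hb hb')
  have hall2 := abs_le.mp hall
  have hθ2 := theta_sq_lt h0 h1
  have hθ0 : 0 ≤ θ ^ 2 := sq_nonneg θ
  have hdetlow : 1 - θ ^ 2 ≤ 1 - θ ^ 2 * (a * a' * (b * b')) := by
    have := mul_le_of_le_one_right hθ0 hall2.2
    linarith
  have hT2 : 0 < 1 - θ ^ 2 := by linarith
  have hdet2 : (1 - θ ^ 2) ^ 2 ≤ (1 - θ ^ 2) * (1 - θ ^ 2 * (a * a' * (b * b'))) := by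
    rw [sq]
    exact mul_le_mul_of_nonneg_left hdetlow hT2.le
  have hdetpos : 0 < (1 - θ ^ 2) * (1 - θ ^ 2 * (a * a' * (b * b'))) :=
    lt_of_lt_of_le (by positivity) hdet2
  have hc1 : |1 - θ ^ 2 * (a * a')| ≤ 2 := by
    have hz : |θ ^ 2 * (a * a')| ≤ 1 := by
      rw [abs_mul, abs_of_nonneg hθ0]
      exact mul_le_one₀ hθ2.le (abs_nonneg _) (abs_mul_le_one ha ha')
    have hz' := abs_le.mp hz
    rw [abs_le]
    constructor <;> linarith [hz'.1, hz'.2]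
  have hc2 : |θ * (1 - a * a')| ≤ 2 := by
    rw [abs_mul, abs_of_nonneg h0, abs_of_nonneg (by linarith [haa.2] : (0:ℝ) ≤ 1 - a * a')]
    calc θ * (1 - a * a') ≤ 1 * (1 - a * a') :=
          mul_le_mul_of_nonneg_right h1.le (by linarith [haa.2])
      _ ≤ 2 := by linarith [haa.1]
  -- absolute values
  have hmain : |a - a'| * ((1 - θ ^ 2) * (1 - θ ^ 2 * (a * a' * (b * b')))) ≤
      E * (2 * (|P| + |Q|)) := by
    have h7 : |a - a'| * ((1 - θ ^ 2) * (1 - θ ^ 2 * (a * a' * (b * b')))) =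
        |(a - a') * ((1 - θ ^ 2) * (1 - θ ^ 2 * (a * a' * (b * b'))))| := by
      rw [abs_mul, abs_of_pos hdetpos]
    rw [h7, hdet, abs_mul, abs_of_pos hEpos]
    apply mul_le_mul_of_nonneg_left _ hEpos.le
    calc |P * (1 - θ ^ 2 * (a * a')) - Q * (θ * (1 - a * a'))|
        ≤ |P * (1 - θ ^ 2 * (a * a'))| + |Q * (θ * (1 - a * a'))| := abs_sub _ _
      _ = |P| * |1 - θ ^ 2 * (a * a')| + |Q| * |θ * (1 - a * a')| := by
          rw [abs_mul, abs_mul]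
      _ ≤ |P| * 2 + |Q| * 2 := by
          gcongr
      _ = 2 * (|P| + |Q|) := by ring
  have hS : 0 ≤ |P| + |Q| := by positivity
  have hfinal : |a - a'| * (1 - θ ^ 2) ^ 2 ≤ (1 + θ) ^ 2 * (2 * (|P| + |Q|)) := by
    calc |a - a'| * (1 - θ ^ 2) ^ 2
        ≤ |a - a'| * ((1 - θ ^ 2) * (1 - θ ^ 2 * (a * a' * (b * b')))) :=
          mul_le_mul_of_nonneg_left hdet2 (abs_nonneg _)
      _ ≤ E * (2 * (|P| + |Q|)) := hmain
      _ ≤ (1 + θ) ^ 2 * (2 * (|P| + |Q|)) :=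
          mul_le_mul_of_nonneg_right hEle (by positivity)
  have e5 : (1 - θ ^ 2) ^ 2 = (1 + θ) ^ 2 * (1 - θ) ^ 2 := by ring
  rw [e5] at hfinal
  have h1θ : 0 < (1 + θ) ^ 2 := by positivity
  have h2θ : 0 < (1 - θ) ^ 2 := by positivity
  have h8 : |a - a'| * (1 - θ) ^ 2 ≤ 2 * (|P| + |Q|) := by
    have : (1 + θ) ^ 2 * (|a - a'| * (1 - θ) ^ 2) ≤ (1 + θ) ^ 2 * (2 * (|P| + |Q|)) := by
      calc (1 + θ) ^ 2 * (|a - a'| * (1 - θ) ^ 2) = |a - a'| * ((1 + θ) ^ 2 * (1 - θ) ^ 2) := by ring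
        _ ≤ _ := hfinal
    exact le_of_mul_le_mul_left this h1θ
  rw [div_mul_eq_mul_div, le_div_iff₀ h2θ]
  exact h8

/-- Dependence of `bm` on `θ`. -/
theorem bm_lip_theta (h0 : 0 ≤ θ₁) (h1 : θ₁ < 1) (h0' : 0 ≤ θ₂) (h1' : θ₂ < 1) (ha : |a| ≤ 1)
    (hb : |b| ≤ 1) :
    |bm θ₁ a b - bm θ₂ a b| ≤ |θ₁ - θ₂| * |b| / ((1 - θ₁) * (1 - θ₂)) := by
  have hD := bden_pos h0 h1 ha hb
  have hD' := bden_pos h0' h1' ha hb
  have hg := bden_ge h0 h1 ha hb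
  have hg' := bden_ge h0' h1' ha hb
  have hT : 0 < 1 - θ₁ := by linarith
  have hT' : 0 < 1 - θ₂ := by linarith
  have e : bm θ₁ a b - bm θ₂ a b =
      (θ₁ - θ₂) * b * (1 - a ^ 2) / ((1 + θ₁ * a * b) * (1 + θ₂ * a * b)) := by
    unfold bm
    rw [div_sub_div _ _ hD.ne' hD'.ne']
    congr 1
    ring
  have ha2 := sq_le_one_of_abs ha
  rw [e, abs_div, abs_mul, abs_mul, abs_of_nonneg (by linarith : (0:ℝ) ≤ 1 - a ^ 2),
    abs_of_pos (mul_pos hD hD')]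
  have h5 : (1 - θ₁) * (1 - θ₂) ≤ (1 + θ₁ * a * b) * (1 + θ₂ * a * b) :=
    mul_le_mul hg hg' hT'.le hD.le
  apply div_le_div₀ (by positivity) _ (mul_pos hT hT') h5
  have h6 : 0 ≤ |θ₁ - θ₂| * |b| := by positivity
  nlinarith [sq_nonneg a]

/-- `bm` is Lipschitz in both arguments. -/
theorem bm_lip (h0 : 0 ≤ θ) (h1 : θ < 1) (ha : |a| ≤ 1) (hb : |b| ≤ 1) (ha' : |a'| ≤ 1)
    (hb' : |b'| ≤ 1) :
    |bm θ a b - bm θ a' b'| ≤ 2 / (1 - θ) ^ 2 * (|a - a'| + |b - b'|) := by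
  have hD := bden_pos h0 h1 ha hb
  have hD' := bden_pos h0 h1 ha' hb'
  have hg := bden_ge h0 h1 ha hb
  have hg' := bden_ge h0 h1 ha' hb'
  have hT : 0 < 1 - θ := by linarith
  have e1 := bm_sub_eq (θ := θ) (a := a) (b := b) (a' := a') (b' := b') hD.ne' hD'.ne'
  have hEpos : 0 < (1 + θ * a * b) * (1 + θ * a' * b') := mul_pos hD hD'
  have hEge : (1 - θ) ^ 2 ≤ (1 + θ * a * b) * (1 + θ * a' * b') := by
    rw [sq]; exact mul_le_mul hg hg' hT.le hD.le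
  have haa := abs_le.mp (abs_mul_le_one ha ha')
  have hbb := abs_le.mp (abs_mul_le_one hb hb')
  have hθ2 := theta_sq_lt h0 h1
  have hθ0 : 0 ≤ θ ^ 2 := sq_nonneg θ
  have hc1 : |1 - θ ^ 2 * (b * b')| ≤ 2 := by
    rw [abs_le]
    constructor <;> nlinarith [hbb.1, hbb.2]
  have hc2 : |θ * (1 - a * a')| ≤ 2 := by
    rw [abs_mul, abs_of_nonneg h0, abs_of_nonneg (by linarith [haa.2] : (0:ℝ) ≤ 1 - a * a')]
    nlinarith [haa.1, haa.2]
  have hmain : |bm θ a b - bm θ a' b'| * ((1 + θ * a * b) * (1 + θ * a' * b')) ≤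
      2 * (|a - a'| + |b - b'|) := by
    have h7 : |bm θ a b - bm θ a' b'| * ((1 + θ * a * b) * (1 + θ * a' * b')) =
        |(bm θ a b - bm θ a' b') * ((1 + θ * a * b) * (1 + θ * a' * b'))| := by
      rw [abs_mul, abs_of_pos hEpos]
    rw [h7, e1]
    have e8 : θ * (b - b') * (1 - a * a') = (b - b') * (θ * (1 - a * a')) := by ring
    rw [e8]
    calc |(a - a') * (1 - θ ^ 2 * (b * b')) + (b - b') * (θ * (1 - a * a'))|
        ≤ |(a - a') * (1 - θ ^ 2 * (b * b'))| + |(b - b') * (θ * (1 - a * a'))| := abs_add_le _ _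
      _ = |a - a'| * |1 - θ ^ 2 * (b * b')| + |b - b'| * |θ * (1 - a * a')| := by
          rw [abs_mul, abs_mul]
      _ ≤ |a - a'| * 2 + |b - b'| * 2 := by gcongr
      _ = 2 * (|a - a'| + |b - b'|) := by ring
  have h2θ : 0 < (1 - θ) ^ 2 := by positivity
  rw [div_mul_eq_mul_div, le_div_iff₀ h2θ]
  calc |bm θ a b - bm θ a' b'| * (1 - θ) ^ 2
      ≤ |bm θ a b - bm θ a' b'| * ((1 + θ * a * b) * (1 + θ * a' * b')) :=
        mul_le_mul_of_nonneg_left hEge (abs_nonneg _)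
    _ ≤ _ := hmain

/-- `bm θ a b` with `θ b = w`: lower bound of the square used for the fresh child inequality. -/
theorem bm_sq_ge (h0 : 0 ≤ θ) (h1 : θ < 1) (ha : |a| ≤ 1) (hb : |b| ≤ 1) :
    (a + θ * b) ^ 2 / (1 + θ) ^ 2 ≤ bm θ a b ^ 2 := by
  have hD := bden_pos h0 h1 ha hb
  have hg := bden_le h0 h1 ha hb
  unfold bm
  rw [div_pow]
  apply div_le_div_of_nonneg_left (sq_nonneg _) (by positivity)
  exact pow_le_pow_left₀ hD.le hg 2

private lemma max_pos_aux (θ x : ℝ) : 0 < max (gm θ x) (Real.exp (-1)) :=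
  lt_of_lt_of_le (Real.exp_pos _) (le_max_right _ _)

private lemma exp_neg_one_lt : Real.exp (-1) < 3 / 4 := by
  have h := Real.exp_one_gt_d9
  rw [Real.exp_neg]
  rw [inv_lt_comm₀ (Real.exp_pos _) (by norm_num)]
  norm_num
  linarith

theorem shat_nonneg (h0 : 0 ≤ θ) (h1 : θ < 1) (hx : |x| ≤ 1) : 0 ≤ shat θ x := by
  unfold shat
  have hle : max (gm θ x) (Real.exp (-1)) ≤ 1 :=
    max_le (gm_le_one h0 h1 hx) (by linarith [exp_neg_one_lt])
  have := Real.log_nonpos (max_pos_aux θ x).le hle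
  linarith

theorem shat_le_one (θ x : ℝ) : shat θ x ≤ 1 := by
  unfold shat
  have h := Real.log_le_log (Real.exp_pos (-1)) (le_max_right (gm θ x) (Real.exp (-1)))
  rw [Real.log_exp] at h
  linarith

private lemma gm_ge_sub (h0 : 0 ≤ θ) (h1 : θ < 1) (hx : |x| ≤ 1) : 1 - x ^ 2 ≤ gm θ x := by
  unfold gm
  have hD := den_pos h0 h1 hx
  rw [le_div_iff₀ hD]
  have h2 := den_le_one (θ := θ) x
  have h3 := sq_le_one_of_abs hx
  nlinarith

private lemma sq_le_quarter {x : ℝ} (hx : |x| ≤ 1 / 2) : x ^ 2 ≤ 1 / 4 := by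
  have := abs_le.mp hx
  nlinarith

/-- Below `1/2`, the cap is not active. -/
theorem gm_eq_exp_shat (h0 : 0 ≤ θ) (h1 : θ < 1) (hx : |x| ≤ 1 / 2) :
    gm θ x = Real.exp (-shat θ x) := by
  have hx1 : |x| ≤ 1 := by linarith
  have h2 := gm_ge_sub h0 h1 hx1
  have h3 := sq_le_quarter hx
  have h4 : Real.exp (-1) ≤ gm θ x := by linarith [exp_neg_one_lt]
  have h5 : 0 < gm θ x := lt_of_lt_of_le (Real.exp_pos _) h4
  unfold shat
  rw [max_eq_left h4, neg_neg, Real.exp_log h5]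

/-- `shat` is at least `(1-θ²) x²`. -/
theorem shat_ge (h0 : 0 ≤ θ) (h1 : θ < 1) (hx : |x| ≤ 1) : (1 - θ ^ 2) * x ^ 2 ≤ shat θ x := by
  unfold shat
  rcases le_total (gm θ x) (Real.exp (-1)) with h | h
  · rw [max_eq_right h, Real.log_exp]
    have h2 := sq_le_one_of_abs hx
    nlinarith [sq_nonneg θ, sq_nonneg x, mul_nonneg (sq_nonneg θ) (sq_nonneg x)]
  · rw [max_eq_left h]
    have h5 : 0 < gm θ x := lt_of_lt_of_le (Real.exp_pos _) h
    have h6 := Real.log_le_sub_one_of_pos h5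
    have h7 := one_sub_gm_ge h0 h1 hx
    linarith

/-- `shat` is at most `4 x²`. -/
theorem shat_le (h0 : 0 ≤ θ) (h1 : θ < 1) (hx : |x| ≤ 1) : shat θ x ≤ 4 * x ^ 2 := by
  by_cases hx2 : |x| ≤ 1 / 2
  · have h3 := sq_le_quarter hx2
    have h2 := gm_ge_sub h0 h1 hx
    have h4 : Real.exp (-1) ≤ gm θ x := by linarith [exp_neg_one_lt]
    have h5 : 0 < gm θ x := lt_of_lt_of_le (Real.exp_pos _) h4
    unfold shat
    rw [max_eq_left h4]
    have h6 : 0 < 1 - x ^ 2 := by linarith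
    have h7 : Real.log (1 - x ^ 2) ≤ Real.log (gm θ x) := Real.log_le_log h6 h2
    have h8 := Real.one_sub_inv_le_log_of_pos h6
    have h9 : (1 - x ^ 2)⁻¹ ≤ 1 + 4 * x ^ 2 := by
      rw [inv_le_comm₀ h6 (by positivity)]
      rw [inv_le_iff_one_le_mul₀ (by positivity)]
      nlinarith [sq_nonneg x, mul_nonneg (sq_nonneg x) (by linarith : (0:ℝ) ≤ 1 / 4 - x ^ 2)]
    linarith
  · have h3 : 1 / 2 < |x| := not_le.mp hx2
    have h4 : 1 / 4 < x ^ 2 := by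
      rw [← sq_abs]
      nlinarith
    have := shat_le_one θ x
    linarith

private lemma log_lip {u v : ℝ} (hu : Real.exp (-1) ≤ u) (hv : Real.exp (-1) ≤ v) :
    |Real.log u - Real.log v| ≤ Real.exp 1 * |u - v| := by
  have key : ∀ {u v : ℝ}, Real.exp (-1) ≤ v → v ≤ u →
      Real.log u - Real.log v ≤ Real.exp 1 * (u - v) := by
    intro u v hv huv
    have hv0 : 0 < v := lt_of_lt_of_le (Real.exp_pos _) hv
    have hu0 : 0 < u := lt_of_lt_of_le hv0 huv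
    rw [← Real.log_div hu0.ne' hv0.ne']
    have h1 := Real.log_le_sub_one_of_pos (div_pos hu0 hv0)
    have h2 : u / v - 1 = (u - v) / v := by field_simp
    have h3 : (u - v) / v ≤ Real.exp 1 * (u - v) := by
      rw [div_le_iff₀ hv0]
      have h4 : 1 ≤ Real.exp 1 * v := by
        have := mul_le_mul_of_nonneg_left hv (Real.exp_pos 1).le
        rw [← Real.exp_add] at this
        simpa using this
      nlinarith [sub_nonneg.mpr huv]
    linarith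
  rcases le_total v u with h | h
  · rw [abs_of_nonneg (sub_nonneg.mpr (Real.log_le_log (lt_of_lt_of_le (Real.exp_pos _) hv) h)),
      abs_of_nonneg (sub_nonneg.mpr h)]
    exact key hv h
  · rw [abs_of_nonpos (sub_nonpos.mpr (Real.log_le_log (lt_of_lt_of_le (Real.exp_pos _) hu) h)),
      abs_of_nonpos (sub_nonpos.mpr h)]
    have := key hu h
    linarith

/-- `shat` is Lipschitz on `[-1, 1]`. -/
theorem shat_lip (h0 : 0 ≤ θ) (h1 : θ < 1) (hx : |x| ≤ 1) (hx' : |x'| ≤ 1) :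
    |shat θ x - shat θ x'| ≤ 2 * Real.exp 1 / (1 - θ ^ 2) * |x - x'| := by
  have hT : 0 < 1 - θ ^ 2 := by linarith [theta_sq_lt h0 h1]
  unfold shat
  have h2 := log_lip (le_max_right (gm θ x) (Real.exp (-1))) (le_max_right (gm θ x') (Real.exp (-1)))
  have h3 : |max (gm θ x) (Real.exp (-1)) - max (gm θ x') (Real.exp (-1))| ≤ |gm θ x - gm θ x'| :=
    abs_max_sub_max_le_abs _ _ _
  have h4 := gm_lip h0 h1 hx hx'
  have h5 : (|x| + |x'|) * |x - x'| / (1 - θ ^ 2) ≤ 2 * |x - x'| / (1 - θ ^ 2) := by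
    apply div_le_div_of_nonneg_right _ hT.le
    apply mul_le_mul_of_nonneg_right _ (abs_nonneg _)
    linarith
  have e1 : |-Real.log (max (gm θ x) (Real.exp (-1))) - -Real.log (max (gm θ x') (Real.exp (-1)))| =
      |Real.log (max (gm θ x) (Real.exp (-1))) - Real.log (max (gm θ x') (Real.exp (-1)))| := by
    rw [← abs_neg]; congr 1; ring
  rw [e1]
  have he := Real.exp_pos 1
  calc _ ≤ Real.exp 1 * |max (gm θ x) (Real.exp (-1)) - max (gm θ x') (Real.exp (-1))| := h2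
    _ ≤ Real.exp 1 * (2 * |x - x'| / (1 - θ ^ 2)) :=
        mul_le_mul_of_nonneg_left (h3.trans (h4.trans h5)) he.le
    _ = 2 * Real.exp 1 / (1 - θ ^ 2) * |x - x'| := by ring

/-- Telescoping of a difference of products over `range n`. -/
theorem prod_sub_prod (n : ℕ) (f g : ℕ → ℝ) :
    ∏ j ∈ range n, f j - ∏ j ∈ range n, g j =
      ∑ j ∈ range n, (∏ i ∈ range j, g i) * (f j - g j) * ∏ i ∈ Finset.Ioo j n, f i := by
  induction n with
  | zero => simp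
  | succ n ih =>
    rw [prod_range_succ, prod_range_succ, sum_range_succ]
    have e1 : ∏ i ∈ Finset.Ioo n (n + 1), f i = 1 := by
      have : Finset.Ioo n (n + 1) = ∅ := by
        ext i; simp only [Finset.mem_Ioo, Finset.notMem_empty, iff_false]; omega
      rw [this, prod_empty]
    have e2 : ∀ j ∈ range n, (∏ i ∈ range j, g i) * (f j - g j) * ∏ i ∈ Finset.Ioo j (n + 1), f i =
        ((∏ i ∈ range j, g i) * (f j - g j) * ∏ i ∈ Finset.Ioo j n, f i) * f n := by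
      intro j hj
      have hj' : j < n := Finset.mem_range.mp hj
      have : Finset.Ioo j (n + 1) = insert n (Finset.Ioo j n) := by
        ext i; simp only [Finset.mem_Ioo, Finset.mem_insert]; omega
      rw [this, prod_insert (by simp)]
      ring
    rw [sum_congr rfl e2, ← sum_mul, ← ih, e1]
    ring

end Vale.Agent.Lib.P161E
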