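import Vale.Agent.Lib.P161E.TreeAut

/-! The forward and backward non-backtracking operators on functions of directed edges of a regular
tree, and a weighted sup-norm (Schur test) bound for them. -/

open Finset
open scoped Classical

noncomputable section

namespace Vale.Agent.Lib.P161E.Corr

open Vale.Agent.Lib.P161

variable {V : Type*} {G : SimpleGraph V} [G.LocallyFinite]

/-- Forward non-backtracking operator on functions of pairs. -/
def opU (G : SimpleGraph V) [G.LocallyFinite] {E : Type*} [AddCommMonoid E] (a : V → V → E) :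
    V → V → E :=
  fun x y => ∑ z ∈ (G.neighborFinset y).erase x, a y z

/-- Backward non-backtracking operator on functions of pairs. -/
def opW (G : SimpleGraph V) [G.LocallyFinite] {E : Type*} [AddCommMonoid E] (a : V → V → E) :
    V → V → E :=
  fun y z => ∑ x ∈ (G.neighborFinset y).erase z, a x y

/-- The weight on directed edges: `ρ ^ (depth of head)` times `s` on edges pointing away from the
root and `t` on edges pointing to it. -/
def wt (G : SimpleGraph V) (ρ : ℝ) (o : V) (s t : ℝ) (x y : V) : ℝ :=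
  ρ ^ G.dist o y * (if G.dist o y = G.dist o x + 1 then s else t)

omit [G.LocallyFinite] in
theorem wt_mono {ρ : ℝ} (hρ : 0 ≤ ρ) {o : V} {s t s' t' : ℝ} (hs : s ≤ s') (ht : t ≤ t') (x y : V) :
    wt G ρ o s t x y ≤ wt G ρ o s' t' x y := by
  unfold wt
  apply mul_le_mul_of_nonneg_left _ (by positivity)
  split_ifs <;> assumption

omit [G.LocallyFinite] in
theorem wt_same {ρ : ℝ} {o : V} (C : ℝ) (x y : V) : wt G ρ o C C x y = ρ ^ G.dist o y * C := by
  unfold wt
  split_ifs <;> rfl

theorem card_erase_nbr {d : ℕ} (hreg : G.IsRegularOfDegree d) {x y : V} (h : G.Adj x y) :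
    (((G.neighborFinset y).erase x).card : ℝ) = (d : ℝ) - 1 := by
  have hd := hreg y
  rw [Finset.card_erase_of_mem (by simpa using h.symm), SimpleGraph.card_neighborFinset_eq_degree,
    hd]
  have : 1 ≤ d := by
    rw [← hd]
    exact (G.degree_pos_iff_exists_adj y).2 ⟨x, h.symm⟩
  push_cast [this]
  ring

/-- A sum with at most one exceptional term. -/
theorem sum_le_of_one_exception {ι : Type*} (Z : Finset ι) (f : ι → ℝ) (P : ι → Prop) {A B : ℝ}
    (hA : 0 ≤ A) (hB : 0 ≤ B) (h1 : ∀ z ∈ Z, ¬ P z → f z ≤ B) (h2 : ∀ z ∈ Z, P z → f z ≤ A)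
    (h3 : ∀ z ∈ Z, ∀ z' ∈ Z, P z → P z' → z = z') :
    ∑ z ∈ Z, f z ≤ (Z.card : ℝ) * B + A := by
  rw [← Finset.sum_filter_add_sum_filter_not Z P]
  have e1 : ∑ z ∈ Z.filter P, f z ≤ A := by
    by_cases hne : (Z.filter P).Nonempty
    · obtain ⟨z, hz⟩ := hne
      have hz' := Finset.mem_filter.1 hz
      have : Z.filter P = {z} := by
        ext w
        simp only [Finset.mem_filter, Finset.mem_singleton]
        constructor
        · rintro ⟨hw, hP⟩
          exact h3 w hw z hz'.1 hP hz'.2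
        · rintro rfl
          exact hz'
      rw [this, Finset.sum_singleton]
      exact h2 z hz'.1 hz'.2
    · rw [Finset.not_nonempty_iff_eq_empty.1 hne]
      simpa using hA
  have e2 : ∑ z ∈ Z.filter (fun z => ¬ P z), f z ≤ (Z.card : ℝ) * B := by
    calc ∑ z ∈ Z.filter (fun z => ¬ P z), f z
        ≤ ∑ _z ∈ Z.filter (fun z => ¬ P z), B := by
          apply Finset.sum_le_sum
          intro z hz
          have hz' := Finset.mem_filter.1 hz
          exact h1 z hz'.1 hz'.2
      _ = ((Z.filter (fun z => ¬ P z)).card : ℝ) * B := by simp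
      _ ≤ (Z.card : ℝ) * B := by
          apply mul_le_mul_of_nonneg_right _ hB
          exact_mod_cast Finset.card_filter_le _ _
  linarith

section Steps

variable {d : ℕ} {o : V} {lam : ℝ}

theorem opU_step (hT : G.IsTree) (hreg : G.IsRegularOfDegree d) (hlam : 0 < lam)
    (hlam2 : lam ^ 2 = (d : ℝ) - 1) {s t : ℝ} (hs : 0 ≤ s) (ht : 0 ≤ t) {a : V → V → ℝ}
    (ha : ∀ u v, G.Adj u v → |a u v| ≤ wt G lam⁻¹ o s t u v) :
    ∀ x y, G.Adj x y → |opU G a x y| ≤ wt G lam⁻¹ o (lam * s) (lam * (t + s)) x y := by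
  intro x y hxy
  have hne : lam ≠ 0 := hlam.ne'
  set ρ := lam⁻¹ with hρ
  have hρpos : 0 < ρ := inv_pos.2 hlam
  have hρl : ρ * lam = 1 := inv_mul_cancel₀ hne
  set Z := (G.neighborFinset y).erase x with hZ
  have hcard : (Z.card : ℝ) = lam ^ 2 := by rw [hlam2]; exact card_erase_nbr hreg hxy
  have hz1 : ∀ z ∈ Z, G.Adj y z := by
    intro z hz
    exact (SimpleGraph.mem_neighborFinset _ _ _).1 (Finset.mem_of_mem_erase hz)
  have hz2 : ∀ z ∈ Z, z ≠ x := fun z hz => Finset.ne_of_mem_erase hz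
  have hbound : |opU G a x y| ≤ ∑ z ∈ Z, wt G ρ o s t y z := by
    unfold opU
    refine (Finset.abs_sum_le_sum_abs _ _).trans (Finset.sum_le_sum fun z hz => ha _ _ (hz1 z hz))
  refine hbound.trans ?_
  set D := G.dist o y with hD
  by_cases hdown : D = G.dist o x + 1
  · have hw : wt G ρ o (lam * s) (lam * (t + s)) x y = ρ ^ D * (lam * s) := by
      unfold wt
      rw [if_pos hdown]
    rw [hw]
    have hzd : ∀ z ∈ Z, G.dist o z = D + 1 := by
      intro z hz
      rcases dist_adj hT (o := o) (hz1 z hz) with h | h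
      · exact h
      · exact absurd (parent_unique hT (o := o) (hz1 z hz) hxy.symm (by omega) (by omega)) (hz2 z hz)
    have hterm : ∀ z ∈ Z, wt G ρ o s t y z = ρ ^ (D + 1) * s := by
      intro z hz
      unfold wt
      rw [if_pos (by rw [hzd z hz]), hzd z hz]
    rw [Finset.sum_congr rfl hterm, Finset.sum_const, nsmul_eq_mul, hcard, pow_succ ρ D]
    have : lam ^ 2 * (ρ ^ D * ρ * s) = ρ ^ D * (lam * s) * (ρ * lam) := by ring
    rw [this, hρl, mul_one]
  · have hw : wt G ρ o (lam * s) (lam * (t + s)) x y = ρ ^ D * (lam * (t + s)) := by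
      unfold wt
      rw [if_neg hdown]
    rw [hw]
    have hx : G.dist o x = D + 1 := by
      rcases dist_adj hT (o := o) hxy with h | h
      · exact absurd h hdown
      · exact h
    have key := sum_le_of_one_exception Z (fun z => wt G ρ o s t y z)
      (fun z => D = G.dist o z + 1) (A := ρ ^ D * (lam * t)) (B := ρ ^ (D + 1) * s)
      (by positivity) (by positivity) ?_ ?_ ?_
    · refine key.trans (le_of_eq ?_)
      rw [hcard, pow_succ ρ D]
      have : lam ^ 2 * (ρ ^ D * ρ * s) + ρ ^ D * (lam * t) =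
        ρ ^ D * (lam * t) + ρ ^ D * (lam * s) * (ρ * lam) := by ring
      rw [this, hρl]
      ring
    · intro z hz hP
      have hd : G.dist o z = D + 1 := by
        rcases dist_adj hT (o := o) (hz1 z hz) with h | h
        · exact h
        · exact absurd h hP
      show wt G ρ o s t y z ≤ _
      unfold wt
      rw [if_pos (by rw [hd]), hd]
    · intro z hz hP
      show wt G ρ o s t y z ≤ _
      unfold wt
      rw [if_neg (by omega)]
      have hDz : D = G.dist o z + 1 := hP
      have : ρ ^ D * lam = ρ ^ G.dist o z := by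
        rw [hDz, pow_succ, mul_assoc, hρl, mul_one]
      rw [← this]
      apply le_of_eq
      ring
    · intro z hz z' hz' hP hP'
      exact parent_unique hT (o := o) (hz1 z hz) (hz1 z' hz') hP.symm hP'.symm

theorem opW_step (hT : G.IsTree) (hreg : G.IsRegularOfDegree d) (hlam : 0 < lam)
    (hlam2 : lam ^ 2 = (d : ℝ) - 1) {s t : ℝ} (hs : 0 ≤ s) (ht : 0 ≤ t) {a : V → V → ℝ}
    (ha : ∀ u v, G.Adj u v → |a u v| ≤ wt G lam⁻¹ o s t u v) :
    ∀ y z, G.Adj y z →
      |opW G a y z| ≤ wt G lam⁻¹ o (lam * (s + lam ^ 2 * t)) (lam * t) y z := by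
  intro y z hyz
  have hne : lam ≠ 0 := hlam.ne'
  set ρ := lam⁻¹ with hρ
  have hρpos : 0 < ρ := inv_pos.2 hlam
  have hρl : ρ * lam = 1 := inv_mul_cancel₀ hne
  set Z := (G.neighborFinset y).erase z with hZ
  have hcard : (Z.card : ℝ) = lam ^ 2 := by rw [hlam2]; exact card_erase_nbr hreg hyz.symm
  have hz1 : ∀ x ∈ Z, G.Adj y x := by
    intro x hx
    exact (SimpleGraph.mem_neighborFinset _ _ _).1 (Finset.mem_of_mem_erase hx)
  have hz2 : ∀ x ∈ Z, x ≠ z := fun x hx => Finset.ne_of_mem_erase hx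
  have hbound : |opW G a y z| ≤ ∑ x ∈ Z, wt G ρ o s t x y := by
    unfold opW
    refine (Finset.abs_sum_le_sum_abs _ _).trans
      (Finset.sum_le_sum fun x hx => ha _ _ (hz1 x hx).symm)
  refine hbound.trans ?_
  set D := G.dist o y with hD
  by_cases hdown : G.dist o z = D + 1
  · have hw : wt G ρ o (lam * (s + lam ^ 2 * t)) (lam * t) y z =
        ρ ^ (D + 1) * (lam * (s + lam ^ 2 * t)) := by
      unfold wt
      rw [if_pos hdown, hdown]
    rw [hw]
    have key := sum_le_of_one_exception Z (fun x => wt G ρ o s t x y)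
      (fun x => D = G.dist o x + 1) (A := ρ ^ D * s) (B := ρ ^ D * t)
      (by positivity) (by positivity) ?_ ?_ ?_
    · refine key.trans (le_of_eq ?_)
      rw [hcard, pow_succ ρ D]
      have : ρ ^ D * ρ * (lam * (s + lam ^ 2 * t)) =
        ρ ^ D * (s + lam ^ 2 * t) * (ρ * lam) := by ring
      rw [this, hρl]
      ring
    · intro x hx hP
      show wt G ρ o s t x y ≤ _
      unfold wt
      rw [if_neg hP]
    · intro x hx hP
      show wt G ρ o s t x y ≤ _
      unfold wt
      rw [if_pos hP]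
    · intro x hx x' hx' hP hP'
      exact parent_unique hT (o := o) (hz1 x hx) (hz1 x' hx') hP.symm hP'.symm
  · have hDz : D = G.dist o z + 1 := by
      rcases dist_adj hT (o := o) hyz with h | h
      · exact absurd h hdown
      · exact h
    have hw : wt G ρ o (lam * (s + lam ^ 2 * t)) (lam * t) y z =
        ρ ^ G.dist o z * (lam * t) := by
      unfold wt
      rw [if_neg hdown]
    rw [hw]
    have hterm : ∀ x ∈ Z, wt G ρ o s t x y = ρ ^ D * t := by
      intro x hx
      unfold wt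
      rw [if_neg]
      intro hP
      exact hz2 x hx (parent_unique hT (o := o) (hz1 x hx) hyz hP.symm hDz.symm)
    rw [Finset.sum_congr rfl hterm, Finset.sum_const, nsmul_eq_mul, hcard]
    have e : ρ ^ D * lam = ρ ^ G.dist o z := by
      rw [hDz, pow_succ, mul_assoc, hρl, mul_one]
    rw [← e]
    apply le_of_eq
    ring

theorem opU_iter (hT : G.IsTree) (hreg : G.IsRegularOfDegree d) (hlam : 0 < lam)
    (hlam2 : lam ^ 2 = (d : ℝ) - 1) {s t : ℝ} (hs : 0 ≤ s) (ht : 0 ≤ t) {a : V → V → ℝ}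
    (ha : ∀ u v, G.Adj u v → |a u v| ≤ wt G lam⁻¹ o s t u v) (k : ℕ) :
    ∀ x y, G.Adj x y → |(opU G)^[k] a x y| ≤
      wt G lam⁻¹ o (lam ^ k * s) (lam ^ k * (t + k * s)) x y := by
  induction k with
  | zero => simpa using ha
  | succ k ih =>
    rw [Function.iterate_succ_apply']
    have := opU_step hT hreg hlam hlam2 (s := lam ^ k * s) (t := lam ^ k * (t + k * s))
      (by positivity) (by positivity) ih
    intro x y hxy
    refine (this x y hxy).trans (le_of_eq ?_)
    congr 1 <;> push_cast <;> ring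

theorem opW_iter (hT : G.IsTree) (hreg : G.IsRegularOfDegree d) (hlam : 0 < lam)
    (hlam2 : lam ^ 2 = (d : ℝ) - 1) {s t : ℝ} (hs : 0 ≤ s) (ht : 0 ≤ t) {a : V → V → ℝ}
    (ha : ∀ u v, G.Adj u v → |a u v| ≤ wt G lam⁻¹ o s t u v) (k : ℕ) :
    ∀ x y, G.Adj x y → |(opW G)^[k] a x y| ≤
      wt G lam⁻¹ o (lam ^ k * (s + k * lam ^ 2 * t)) (lam ^ k * t) x y := by
  induction k with
  | zero => simpa using ha
  | succ k ih =>
    rw [Function.iterate_succ_apply']
    have := opW_step hT hreg hlam hlam2 (s := lam ^ k * (s + k * lam ^ 2 * t)) (t := lam ^ k * t)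
      (by positivity) (by positivity) ih
    intro x y hxy
    refine (this x y hxy).trans (le_of_eq ?_)
    congr 1 <;> push_cast <;> ring

/-- The operator `S = W ^ k U ^ k`. -/
def opS (G : SimpleGraph V) [G.LocallyFinite] (k : ℕ) {E : Type*} [AddCommMonoid E]
    (a : V → V → E) : V → V → E :=
  (opW G)^[k] ((opU G)^[k] a)

/-- The norm bound `‖U ^ k‖ ^ 2 ≤ Lam`. -/
def Lam (d k : ℕ) : ℝ := ((d : ℝ) - 1) ^ k * ((1 + k) * (1 + k * ((d : ℝ) - 1)))

theorem Lam_nonneg {d : ℕ} (hd : 1 ≤ d) (k : ℕ) : 0 ≤ Lam d k := by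
  have : (1 : ℝ) ≤ d := by exact_mod_cast hd
  have h2 : (0 : ℝ) ≤ (d : ℝ) - 1 := by linarith
  unfold Lam
  positivity

theorem opS_step (hT : G.IsTree) (hreg : G.IsRegularOfDegree d) (hlam : 0 < lam)
    (hlam2 : lam ^ 2 = (d : ℝ) - 1) {C : ℝ} (hC : 0 ≤ C) {a : V → V → ℝ}
    (ha : ∀ u v, G.Adj u v → |a u v| ≤ wt G lam⁻¹ o C C u v) (k : ℕ) :
    ∀ x y, G.Adj x y → |opS G k a x y| ≤ wt G lam⁻¹ o (Lam d k * C) (Lam d k * C) x y := by
  have hρ : 0 ≤ lam⁻¹ := (inv_pos.2 hlam).le
  have hlk : 0 ≤ lam ^ k := by positivity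
  have h1 := opU_iter hT hreg hlam hlam2 hC hC ha k
  set C' := lam ^ k * ((1 + k) * C) with hC'
  have hC'0 : 0 ≤ C' := by positivity
  have h2 : ∀ u v, G.Adj u v → |(opU G)^[k] a u v| ≤ wt G lam⁻¹ o C' C' u v := by
    intro u v huv
    refine (h1 u v huv).trans (wt_mono hρ ?_ ?_ u v)
    · rw [hC']
      apply mul_le_mul_of_nonneg_left _ hlk
      have : (0 : ℝ) ≤ k * C := by positivity
      linarith
    · rw [hC']
      apply le_of_eq
      ring
  have h3 := opW_iter hT hreg hlam hlam2 hC'0 hC'0 h2 k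
  intro x y hxy
  refine (h3 x y hxy).trans (wt_mono hρ ?_ ?_ x y)
  · apply le_of_eq
    rw [hC', Lam, ← hlam2]
    have : (lam ^ 2) ^ k = lam ^ k * lam ^ k := by
      rw [← pow_mul, mul_comm, pow_mul, sq]
    rw [this]
    ring
  · rw [hC', Lam, ← hlam2]
    have : (lam ^ 2) ^ k = lam ^ k * lam ^ k := by
      rw [← pow_mul, mul_comm, pow_mul, sq]
    rw [this]
    have h0 : 0 ≤ lam ^ k * lam ^ k * ((1 + (k : ℝ)) * C) := by positivity
    have h01 : (0 : ℝ) ≤ k * lam ^ 2 := by positivity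
    nlinarith [mul_nonneg h0 h01]

theorem opS_iter (hT : G.IsTree) (hreg : G.IsRegularOfDegree d) (hlam : 0 < lam)
    (hlam2 : lam ^ 2 = (d : ℝ) - 1) {C : ℝ} (hC : 0 ≤ C) {a : V → V → ℝ}
    (ha : ∀ u v, G.Adj u v → |a u v| ≤ wt G lam⁻¹ o C C u v) (k n : ℕ) :
    ∀ x y, G.Adj x y → |(opS G k)^[n] a x y| ≤
      wt G lam⁻¹ o (Lam d k ^ n * C) (Lam d k ^ n * C) x y := by
  have hd1 : 1 ≤ d := by
    by_contra h
    have : d = 0 := by omega
    subst this
    have h2 : lam ^ 2 = -1 := by simpa using hlam2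
    nlinarith [sq_nonneg lam]
  induction n with
  | zero => simpa using ha
  | succ n ih =>
    rw [Function.iterate_succ_apply']
    have hL := Lam_nonneg hd1 k
    have := opS_step hT hreg hlam hlam2 (C := Lam d k ^ n * C) (by positivity) ih k
    intro x y hxy
    refine (this x y hxy).trans (le_of_eq ?_)
    congr 1 <;> ring

end Steps

end Vale.Agent.Lib.P161E.Corr
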