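import Vale.Agent.Lib.P161E.Fresh
import Vale.Agent.Lib.P161E.Analysis

/-! Jobs D4: elementary properties of shell sums, first moment. -/

open MeasureTheory Finset
open scoped Classical ENNReal

noncomputable section

namespace Vale.Agent.Lib.P161E

open Vale.Agent.Lib.P161

variable {V : Type*} {G : SimpleGraph V} [G.LocallyFinite] {β : ℝ} {d : ℕ} {x y : V} {t : ℝ}

/-- The Gibbs mean is measurable in the tilt. -/
theorem sa_measurable_mean (S : Finset V) (x : V) :
    Measurable (fun Y : V → ℝ => mean G β S Y x) := by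
  unfold mean Ee mu Zf wt tilt
  refine Finset.measurable_sum _ fun A _ => ?_
  refine Measurable.mul ?_ measurable_const
  refine Measurable.div ?_ ?_
  · refine Measurable.mul measurable_const ?_
    refine Real.measurable_exp.comp ?_
    exact Finset.measurable_sum _ fun v _ => (measurable_pi_apply v).mul measurable_const
  · refine Finset.measurable_sum _ fun B _ => ?_
    refine Measurable.mul measurable_const ?_
    refine Real.measurable_exp.comp ?_
    exact Finset.measurable_sum _ fun v _ => (measurable_pi_apply v).mul measurable_const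

theorem sa_measurable_gm (θ : ℝ) : Measurable (gm θ) := by
  unfold gm
  exact ((measurable_const.sub (measurable_id.pow_const 2))).div
    (measurable_const.sub (measurable_const.mul (measurable_id.pow_const 2)))

/-- Elementary properties of `shellF` -/
theorem measurable_xiF (x y : V) (m : ℕ) : Measurable (fun Y => xiF G β x y m Y) :=
  sa_measurable_mean _ _

theorem measurable_shellF (l m : ℕ) (x y : V) : Measurable (fun Y => shellF G β Y l m x y) := by
  induction l generalizing m x y with
  | zero => cases m <;> simpa [shellF] using measurable_const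
  | succ l ih =>
    cases m with
    | zero => simpa [shellF] using measurable_const
    | succ m =>
      simp only [shellF]
      refine Finset.measurable_sum _ fun c _ => ?_
      refine Measurable.mul ?_ (ih m c x)
      refine Measurable.pow_const ?_ 2
      exact measurable_const.mul ((sa_measurable_gm _).comp (measurable_xiF c x m))

theorem sa_mean_congr {S : Finset V} {Y Y' : V → ℝ} (h : ∀ v ∈ S, Y v = Y' v) (x : V) :
    mean G β S Y x = mean G β S Y' x := by
  have ht : ∀ A, tilt S A Y = tilt S A Y' := fun A =>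
    Finset.sum_congr rfl fun v hv => by rw [h v hv]
  have hw : ∀ A, wt G β S Y A = wt G β S Y' A := fun A => by simp only [wt, ht]
  have hZ : Zf G β S Y = Zf G β S Y' := Finset.sum_congr rfl fun A _ => hw A
  unfold mean Ee mu
  refine Finset.sum_congr rfl fun A _ => ?_
  rw [hw, hZ]

theorem depOn_xiF (x y : V) (m : ℕ) : DepOn (brn G x y m) (fun Y => xiF G β x y m Y) := by
  intro Y Y' h
  exact sa_mean_congr h x

/-- The branch of a kid lies in the branch of the parent. -/
theorem sa_brn_kid_subset (hT : G.IsTree) (hxy : G.Adj x y) {c : V} (hc : c ∈ kids G x y)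
    (m : ℕ) : brn G c x m ⊆ brn G x y (m + 1) := by
  have h := (brn_kid_cut hT hxy hc m).2
  rw [← h]
  exact Finset.subset_union_right

theorem depOn_shellF (hT : G.IsTree) (hxy : G.Adj x y) (l m : ℕ) :
    DepOn (brn G x y m) (fun Y => shellF G β Y l m x y) := by
  induction l generalizing m x y with
  | zero =>
    intro Y Y' _
    cases m <;> simp [shellF]
  | succ l ih =>
    cases m with
    | zero =>
      intro Y Y' _
      simp [shellF]
    | succ m =>
      intro Y Y' h
      simp only [shellF]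
      refine Finset.sum_congr rfl fun c hc => ?_
      have hcx : G.Adj c x := ((mem_kids.1 hc).1).symm
      have hsub := sa_brn_kid_subset hT hxy hc m
      have h' : ∀ v ∈ brn G c x m, Y v = Y' v := fun v hv => h v (hsub hv)
      have e1 : xiF G β c x m Y = xiF G β c x m Y' := depOn_xiF c x m Y Y' h'
      have e2 : shellF G β Y l m c x = shellF G β Y' l m c x := ih hcx m Y Y' h'
      rw [e1, e2]

theorem sa_self_mem_ball (x : V) (m : ℕ) : x ∈ ball G x m := by
  induction m with
  | zero => simp [ball]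
  | succ m ih => simp only [ball]; exact Finset.mem_union_left _ ih

theorem sa_self_mem_brn (h : G.Adj x y) (m : ℕ) : x ∈ brn G x y m := by
  unfold brn side
  rw [Finset.mem_filter]
  refine ⟨sa_self_mem_ball x m, ?_⟩
  have h1 : G.dist y x = 1 := SimpleGraph.dist_eq_one_iff_adj.2 h.symm
  have h2 : G.dist x x = 0 := SimpleGraph.dist_self
  omega

theorem xiF_neg (h : G.Adj x y) (m : ℕ) (Y : V → ℝ) : xiF G β x y m (-Y) = -xiF G β x y m Y :=
  mean_neg _ _ (sa_self_mem_brn h m)

theorem shellF_neg (l m : ℕ) (x y : V) (Y : V → ℝ) : shellF G β (-Y) l m x y = shellF G β Y l m x y := by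
  induction l generalizing m x y with
  | zero => cases m <;> simp [shellF]
  | succ l ih =>
    cases m with
    | zero => simp [shellF]
    | succ m =>
      simp only [shellF]
      refine Finset.sum_congr rfl fun c hc => ?_
      rw [xiF_neg ((mem_kids.1 hc).1).symm, gm_neg, ih]

theorem shellF_nonneg (hβ : 0 ≤ β) (l m : ℕ) (x y : V) (Y : V → ℝ) : 0 ≤ shellF G β Y l m x y := by
  induction l generalizing m x y with
  | zero => cases m <;> simp [shellF]
  | succ l ih =>
    cases m with
    | zero => simp [shellF]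
    | succ m =>
      simp only [shellF]
      exact Finset.sum_nonneg fun c _ => mul_nonneg (sq_nonneg _) (ih m c x)

theorem sa_tanh_nonneg (hβ : 0 ≤ β) : 0 ≤ Real.tanh β := by
  rw [Real.tanh_eq_sinh_div_cosh]
  exact div_nonneg (Real.sinh_nonneg_iff.2 hβ) (Real.cosh_pos β).le

theorem sa_tanh_lt : Real.tanh β < 1 := Real.tanh_lt_one β

theorem sa_gm_xi_nonneg (hβ : 0 ≤ β) (x y : V) (m : ℕ) (Y : V → ℝ) :
    0 ≤ gm (Real.tanh β) (xiF G β x y m Y) :=
  gm_nonneg (sa_tanh_nonneg hβ) sa_tanh_lt (abs_mean_le _ _ _ _ _)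

theorem sa_gm_xi_le (hβ : 0 ≤ β) (x y : V) (m : ℕ) (Y : V → ℝ) :
    gm (Real.tanh β) (xiF G β x y m Y) ≤ 1 :=
  gm_le_one (sa_tanh_nonneg hβ) sa_tanh_lt (abs_mean_le _ _ _ _ _)

theorem sa_gm_xi_sq_le (hβ : 0 ≤ β) (x y : V) (m : ℕ) (Y : V → ℝ) :
    gm (Real.tanh β) (xiF G β x y m Y) ^ 2 ≤ 1 :=
  pow_le_one₀ (sa_gm_xi_nonneg hβ x y m Y) (sa_gm_xi_le hβ x y m Y)

/-- `(d-1) θ² ≤ 1` makes the shell sums at most one. -/
theorem shellF_le_one (hT : G.IsTree) (hreg : G.IsRegularOfDegree d) (hβ : 0 ≤ β)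
    (hr : ((d : ℝ) - 1) * Real.tanh β ^ 2 ≤ 1) (hxy : G.Adj x y) (l m : ℕ) (Y : V → ℝ) :
    shellF G β Y l m x y ≤ 1 := by
  induction l generalizing m x y with
  | zero => cases m <;> simp [shellF]
  | succ l ih =>
    cases m with
    | zero => simp [shellF]
    | succ m =>
      simp only [shellF]
      have hcard : ((kids G x y).card : ℝ) = (d : ℝ) - 1 := by
        rw [card_kids hreg hxy]
        have hd1 : 1 ≤ d := by
          have : 0 < G.degree x := by
            rw [SimpleGraph.degree_pos_iff_exists_adj]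
            exact ⟨y, hxy⟩
          rw [hreg x] at this
          omega
        push_cast [Nat.cast_sub hd1]
        ring
      calc ∑ c ∈ kids G x y, (Real.tanh β * gm (Real.tanh β) (xiF G β c x m Y)) ^ 2 * shellF G β Y l m c x
          ≤ ∑ c ∈ kids G x y, Real.tanh β ^ 2 := by
            refine Finset.sum_le_sum fun c hc => ?_
            have hcx : G.Adj c x := ((mem_kids.1 hc).1).symm
            have h1 := ih hcx m
            have h2 := shellF_nonneg (G := G) hβ l m c x Y
            have h3 := sa_gm_xi_sq_le (G := G) hβ c x m Y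
            rw [mul_pow]
            calc Real.tanh β ^ 2 * gm (Real.tanh β) (xiF G β c x m Y) ^ 2 * shellF G β Y l m c x
                ≤ Real.tanh β ^ 2 * 1 * 1 := by
                  gcongr
              _ = Real.tanh β ^ 2 := by ring
        _ = ((d : ℝ) - 1) * Real.tanh β ^ 2 := by
            rw [Finset.sum_const, nsmul_eq_mul, hcard]
        _ ≤ 1 := hr

/-- Measurability of the functional in the recursion. -/
theorem sa_meas_a (l m : ℕ) (x y : V) :
    Measurable (fun Y => gm (Real.tanh β) (xiF G β x y m Y) ^ 2 * shellF G β Y l m x y) :=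
  (((sa_measurable_gm _).comp (measurable_xiF (G := G) (β := β) x y m)).pow_const 2).mul
    (measurable_shellF (G := G) (β := β) l m x y)

theorem sa_abs_a_le (hT : G.IsTree) (hreg : G.IsRegularOfDegree d) (hβ : 0 ≤ β)
    (hr : ((d : ℝ) - 1) * Real.tanh β ^ 2 ≤ 1) (hxy : G.Adj x y) (l m : ℕ) (Y : V → ℝ) :
    |gm (Real.tanh β) (xiF G β x y m Y) ^ 2 * shellF G β Y l m x y| ≤ 1 := by
  have h1 : shellF G β Y l m x y ≤ 1 := shellF_le_one hT hreg hβ hr hxy l m Y
  have h2 := shellF_nonneg (G := G) hβ l m x y Y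
  have h3 := sa_gm_xi_sq_le (G := G) hβ x y m Y
  have h4 : 0 ≤ gm (Real.tanh β) (xiF G β x y m Y) ^ 2 := sq_nonneg _
  rw [abs_of_nonneg (mul_nonneg h4 h2)]
  calc _ ≤ (1 : ℝ) * 1 := by gcongr
    _ = 1 := by ring

theorem sa_EP_nonneg {S : Finset V} {F : (V → ℝ) → ℝ} (hF : Measurable F) {C : ℝ}
    (hFb : ∀ y, |F y| ≤ C) (hF0 : ∀ y, 0 ≤ F y) (hC : 0 ≤ C) : 0 ≤ EP G β S t 0 F := by
  have h := EP_mono (G := G) (β := β) (S := S) (t := t) (y₀ := 0) (F := fun _ => (0 : ℝ))
    (H := F) measurable_const hF (C := C) (fun _ => by simpa using hC) hFb hF0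
  rwa [EP_const] at h

theorem sa_EP_le_of_le {S : Finset V} {F : (V → ℝ) → ℝ} (hF : Measurable F) {C : ℝ}
    (hFb : ∀ y, |F y| ≤ C) (hle : ∀ y, F y ≤ C) : EP G β S t 0 F ≤ C := by
  have hC : 0 ≤ C := (abs_nonneg _).trans (hFb 0)
  have h := EP_mono (G := G) (β := β) (S := S) (t := t) (y₀ := 0) (F := F)
    (H := fun _ => C) hF measurable_const (C := C) hFb (fun _ => by rw [abs_of_nonneg hC]) hle
  rwa [EP_const] at h

/-- Finite additivity of `EP`. -/
theorem sa_EP_sum {ι : Type*} (s : Finset ι) {S : Finset V} (F : ι → (V → ℝ) → ℝ)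
    (hF : ∀ i, Measurable (F i)) (C : ι → ℝ) (hFb : ∀ i y, |F i y| ≤ C i) :
    EP G β S t 0 (fun y => ∑ i ∈ s, F i y) = ∑ i ∈ s, EP G β S t 0 (F i) := by
  induction s using Finset.induction_on with
  | empty =>
    simpa using EP_const (G := G) (β := β) S t 0 (0 : ℝ)
  | insert a s ha ih =>
    have hm : Measurable (fun y => ∑ i ∈ s, F i y) :=
      Finset.measurable_sum _ fun i _ => hF i
    have hb : ∀ y, |∑ i ∈ s, F i y| ≤ ∑ i ∈ s, C i := fun y =>
      (Finset.abs_sum_le_sum_abs _ _).trans (Finset.sum_le_sum fun i _ => hFb i y)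
    have hCa : 0 ≤ C a := (abs_nonneg _).trans (hFb a 0)
    have hCs : 0 ≤ ∑ i ∈ s, C i := (abs_nonneg _).trans (hb 0)
    simp only [Finset.sum_insert ha]
    rw [EP_add (C := C a + ∑ i ∈ s, C i) (hF a) hm
      (fun y => (hFb a y).trans (by linarith)) (fun y => (hb y).trans (by linarith)), ih]

/-- A star around `x` is a star around any neighbour of `x` that it contains. -/
theorem sa_star_kid (hT : G.IsTree) (hd : 3 ≤ d) (hreg : G.IsRegularOfDegree d)
    {S : Finset V} (hS : Star G x S) (hx : x ∈ S) {c : V} (hcx : G.Adj c x) (hc : c ∈ S) :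
    Star G c S := by
  have hcard : 1 < (kids G c x).card := by
    rw [card_kids hreg hcx]
    omega
  obtain ⟨e, he, hex⟩ := Finset.exists_mem_ne hcard x
  have hce : G.Adj c e := (mem_kids.1 he).1
  refine star_side hT hce hx hS hc (Or.inl ?_)
  have h1 : G.dist x c = 1 := SimpleGraph.dist_eq_one_iff_adj.2 hcx.symm
  rcases dist_adj hT (o := x) hce with h | h
  · omega
  · exfalso
    have h0 : G.dist x e = 0 := by omega
    exact hex ((hT.1.dist_eq_zero_iff.1 h0).symm)

/-- Marginalisation of a functional of a kid's branch. -/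
theorem sa_marg (hT : G.IsTree) (hd : 3 ≤ d) (hreg : G.IsRegularOfDegree d)
    (hxy : G.Adj x y) {c : V} (hc : c ∈ kids G x y) (m : ℕ)
    {F : (V → ℝ) → ℝ} (hF : Measurable F) {C : ℝ} (hFb : ∀ y, |F y| ≤ C)
    (hdep : DepOn (brn G c x m) F) :
    EP G β (brn G x y (m + 1)) t 0 F = EP G β (brn G c x m) t 0 F := by
  have hcx : G.Adj c x := ((mem_kids.1 hc).1).symm
  have hcmem : c ∈ brn G c x m := self_mem_brn hT hcx m
  have hsub := sa_brn_kid_subset hT hxy hc m
  have hS : Star G c (brn G x y (m + 1)) :=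
    sa_star_kid hT hd hreg (star_brn hT hxy (m + 1)) (self_mem_brn hT hxy (m + 1)) hcx (hsub hcmem)
  exact EP_marginal hT hcmem (star_brn hT hcx m) hsub hS hF hFb hdep

/-- The product of `gm²` at the root and at a kid, integrated against the shell sum of the kid:
the fresh child inequality on a second kid. -/
theorem sa_step (hT : G.IsTree) (hd : 3 ≤ d) (hreg : G.IsRegularOfDegree d) (hβ : 0 ≤ β)
    (hr : ((d : ℝ) - 1) * Real.tanh β ^ 2 ≤ 1) (ht : 0 ≤ t) (hxy : G.Adj x y) {c : V}
    (hc : c ∈ kids G x y) (l m : ℕ) :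
    ∃ b, b ∈ kids G x y ∧ b ≠ c ∧
    EP G β (brn G x y (m + 1)) t 0 (fun Y => gm (Real.tanh β) (xiF G β x y (m + 1) Y) ^ 2 *
        (gm (Real.tanh β) (xiF G β c x m Y) ^ 2 * shellF G β Y l m c x)) ≤
      (1 - cF (Real.tanh β) * EP G β (brn G b x m) t 0 (fun Y => xiF G β b x m Y ^ 2)) *
        EP G β (brn G c x m) t 0
          (fun Y => gm (Real.tanh β) (xiF G β c x m Y) ^ 2 * shellF G β Y l m c x) := by
  have hcx : G.Adj c x := ((mem_kids.1 hc).1).symm
  have hcard : 1 < (kids G x y).card := by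
    rw [card_kids hreg hxy]
    omega
  obtain ⟨b, hb, hbc⟩ := Finset.exists_mem_ne hcard c
  refine ⟨b, hb, hbc, ?_⟩
  obtain ⟨hcut, hunion⟩ := brn_kid_cut hT hxy hb m
  set S₁ := side G (brn G x y (m + 1)) x b with hS₁
  have hcS₁ : brn G c x m ⊆ S₁ :=
    brn_other_kid_subset hT hxy hb hc hbc m
  set F : (V → ℝ) → ℝ := fun Y =>
    gm (Real.tanh β) (xiF G β c x m Y) ^ 2 * shellF G β Y l m c x with hFdef
  have hFm : Measurable F := sa_meas_a l m c x
  have hFb : ∀ Y, |F Y| ≤ 1 := sa_abs_a_le hT hreg hβ hr hcx l m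
  have hF0 : ∀ Y, 0 ≤ F Y := fun Y => mul_nonneg (sq_nonneg _) (shellF_nonneg hβ l m c x Y)
  have hFle : ∀ Y, F Y ≤ 1 := fun Y => (le_abs_self _).trans (hFb Y)
  have hdepc : DepOn (brn G c x m) F := by
    intro Y Y' h
    simp only [hFdef]
    have e1 : xiF G β c x m Y = xiF G β c x m Y' := depOn_xiF c x m Y Y' h
    have e2 : shellF G β Y l m c x = shellF G β Y' l m c x := depOn_shellF hT hcx l m Y Y' h
    rw [e1, e2]
  have hdep₁ : DepOn S₁ F := fun Y Y' h => hdepc Y Y' fun v hv => h v (hcS₁ hv)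
  have hfc := fresh_child hcut hβ ht hFm hF0 hFle hdep₁
  rw [hunion] at hfc
  have hS₁marg : EP G β S₁ t 0 F = EP G β (brn G c x m) t 0 F := by
    have hcmem : c ∈ brn G c x m := self_mem_brn hT hcx m
    have hS : Star G c S₁ :=
      sa_star_kid hT hd hreg
        (star_side_self hT (mem_kids.1 hb).1 (self_mem_brn hT hxy (m + 1)) (star_brn hT hxy (m + 1)))
        hcut.ha hcx (hcS₁ hcmem)
    exact EP_marginal hT hcmem (star_brn hT hcx m) hcS₁ hS hFm hFb hdepc
  rw [hS₁marg] at hfc
  refine le_trans (le_of_eq ?_) hfc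
  congr 1
  funext Y
  simp only [xiF, hFdef]
  ring

theorem sa_cF_nonneg (θ : ℝ) : 0 ≤ cF θ := by
  unfold cF
  positivity

theorem sa_cF_le {θ' : ℝ} (h0 : 0 ≤ θ') (h1 : θ' < 1) : cF θ' ≤ 1 := by
  unfold cF
  have h2 : θ' ^ 2 ≤ 1 := pow_le_one₀ h0 h1.le
  have h3 : (1 - θ') ^ 2 ≤ 1 := pow_le_one₀ (by linarith) (by linarith)
  calc θ' ^ 2 * (1 - θ') ^ 2 ≤ 1 * 1 := by gcongr
    _ = 1 := by ring

theorem sa_xi_sq_le (x y : V) (m : ℕ) (Y : V → ℝ) : xiF G β x y m Y ^ 2 ≤ 1 := by
  have := abs_mean_le G β (brn G x y m) Y x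
  have h2 : xiF G β x y m Y ^ 2 = |xiF G β x y m Y| ^ 2 := (sq_abs _).symm
  rw [h2]
  exact pow_le_one₀ (abs_nonneg _) this

theorem sa_q_nonneg (x y : V) (m : ℕ) :
    0 ≤ EP G β (brn G x y m) t 0 (fun Y => xiF G β x y m Y ^ 2) := by
  refine sa_EP_nonneg (C := 1) ((measurable_xiF x y m).pow_const 2) (fun Y => ?_)
    (fun Y => sq_nonneg _) zero_le_one
  rw [abs_of_nonneg (sq_nonneg _)]
  exact sa_xi_sq_le x y m Y

theorem sa_q_le (x y : V) (m : ℕ) :
    EP G β (brn G x y m) t 0 (fun Y => xiF G β x y m Y ^ 2) ≤ 1 := by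
  refine sa_EP_le_of_le ((measurable_xiF x y m).pow_const 2) (fun Y => ?_) (sa_xi_sq_le x y m)
  rw [abs_of_nonneg (sq_nonneg _)]
  exact sa_xi_sq_le x y m Y

/-- The quantity `a(l, m)` and its exponential decay. -/
theorem sa_a_bound (hT : G.IsTree) (hd : 3 ≤ d) (hreg : G.IsRegularOfDegree d) (hβ : 0 ≤ β)
    (hr : ((d : ℝ) - 1) * Real.tanh β ^ 2 ≤ 1) (ht : 0 ≤ t) {R : ℕ} {q₀ a : ℝ} (ha : 0 ≤ a)
    (hq : ∀ m, R ≤ m → ∀ x' y', G.Adj x' y' → q₀ ≤ EP G β (brn G x' y' m) t 0 (fun Y => xiF G β x' y' m Y ^ 2))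
    (hfac : ((d : ℝ) - 1) * Real.tanh β ^ 2 * (1 - cF (Real.tanh β) * q₀) ≤ Real.exp (-(2 * a)))
    (l m : ℕ) (x y : V) (hxy : G.Adj x y) :
    EP G β (brn G x y m) t 0
        (fun Y => gm (Real.tanh β) (xiF G β x y m Y) ^ 2 * shellF G β Y l m x y) ≤
      Real.exp (2 * a * (min R m : ℕ)) * Real.exp (-(2 * a * l)) := by
  induction l generalizing m x y with
  | zero =>
    have hb : ∀ Y, gm (Real.tanh β) (xiF G β x y m Y) ^ 2 * shellF G β Y 0 m x y ≤ 1 := fun Y =>
      (le_abs_self _).trans (sa_abs_a_le hT hreg hβ hr hxy 0 m Y)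
    have h1 := sa_EP_le_of_le (G := G) (β := β) (S := brn G x y m) (t := t) (sa_meas_a 0 m x y)
      (sa_abs_a_le hT hreg hβ hr hxy 0 m) hb
    refine h1.trans ?_
    have h2 : (1 : ℝ) ≤ Real.exp (2 * a * (min R m : ℕ)) := by
      apply Real.one_le_exp
      positivity
    simpa using h2
  | succ l ih =>
    cases m with
    | zero =>
      have h0 : (fun Y => gm (Real.tanh β) (xiF G β x y 0 Y) ^ 2 * shellF G β Y (l + 1) 0 x y) =
          fun _ => (0 : ℝ) := by
        funext Y
        simp [shellF]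
      rw [h0, EP_const]
      positivity
    | succ m =>
      set θ := Real.tanh β with hθ
      have hθ0 : 0 ≤ θ := sa_tanh_nonneg hβ
      have hθ1 : θ < 1 := sa_tanh_lt
      have hθ2 : θ ^ 2 ≤ 1 := pow_le_one₀ hθ0 hθ1.le
      set A : ℝ := Real.exp (2 * a * (min R m : ℕ)) * Real.exp (-(2 * a * l)) with hAdef
      have hA0 : 0 ≤ A := by positivity
      have hexp : ∀ c ∈ kids G x y, Measurable (fun Y => gm θ (xiF G β x y (m + 1) Y) ^ 2 *
          (gm θ (xiF G β c x m Y) ^ 2 * shellF G β Y l m c x)) := fun c _ =>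
        (((sa_measurable_gm _).comp (measurable_xiF x y (m + 1))).pow_const 2).mul (sa_meas_a l m c x)
      have hrw : (fun Y => gm θ (xiF G β x y (m + 1) Y) ^ 2 * shellF G β Y (l + 1) (m + 1) x y) =
          fun Y => ∑ c ∈ kids G x y, θ ^ 2 * (gm θ (xiF G β x y (m + 1) Y) ^ 2 *
            (gm θ (xiF G β c x m Y) ^ 2 * shellF G β Y l m c x)) := by
        funext Y
        simp only [shellF]
        rw [Finset.mul_sum]
        refine Finset.sum_congr rfl fun c _ => ?_
        ring
      have hFc : ∀ c : V, Measurable (fun Y => (if c ∈ kids G x y then θ ^ 2 * (gm θ (xiF G β x y (m + 1) Y) ^ 2 *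
            (gm θ (xiF G β c x m Y) ^ 2 * shellF G β Y l m c x)) else 0)) := by
        intro c
        by_cases hc : c ∈ kids G x y
        · simp only [hc, if_true]
          exact measurable_const.mul (hexp c hc)
        · simp only [hc, if_false]
          exact measurable_const
      have hbd : ∀ (c : V) (Y : V → ℝ), |(if c ∈ kids G x y then θ ^ 2 * (gm θ (xiF G β x y (m + 1) Y) ^ 2 *
            (gm θ (xiF G β c x m Y) ^ 2 * shellF G β Y l m c x)) else 0)| ≤ 1 := by
        intro c Y
        by_cases hc : c ∈ kids G x y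
        · simp only [hc, if_true]
          have hcx : G.Adj c x := ((mem_kids.1 hc).1).symm
          have h1 := sa_abs_a_le hT hreg hβ hr hcx l m Y
          have h2 := sa_gm_xi_sq_le (G := G) hβ x y (m + 1) Y
          rw [abs_mul, abs_mul, abs_of_nonneg (sq_nonneg θ), abs_of_nonneg (sq_nonneg (gm _ _))]
          calc θ ^ 2 * (gm θ (xiF G β x y (m + 1) Y) ^ 2 * _) ≤ 1 * (1 * 1) := by
                gcongr
            _ = 1 := by ring
        · simp [hc]
      have hsum : EP G β (brn G x y (m + 1)) t 0 (fun Y => ∑ c ∈ kids G x y,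
            θ ^ 2 * (gm θ (xiF G β x y (m + 1) Y) ^ 2 *
            (gm θ (xiF G β c x m Y) ^ 2 * shellF G β Y l m c x))) =
          ∑ c ∈ kids G x y, θ ^ 2 * EP G β (brn G x y (m + 1)) t 0
            (fun Y => gm θ (xiF G β x y (m + 1) Y) ^ 2 *
            (gm θ (xiF G β c x m Y) ^ 2 * shellF G β Y l m c x)) := by
        have h := sa_EP_sum (G := G) (β := β) (t := t) (S := brn G x y (m + 1)) (kids G x y)
          (fun c Y => if c ∈ kids G x y then θ ^ 2 * (gm θ (xiF G β x y (m + 1) Y) ^ 2 *
            (gm θ (xiF G β c x m Y) ^ 2 * shellF G β Y l m c x)) else 0) hFc (fun _ => 1) hbd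
        have e1 : (fun Y => ∑ c ∈ kids G x y, θ ^ 2 * (gm θ (xiF G β x y (m + 1) Y) ^ 2 *
            (gm θ (xiF G β c x m Y) ^ 2 * shellF G β Y l m c x))) =
            fun Y => ∑ c ∈ kids G x y, if c ∈ kids G x y then θ ^ 2 * (gm θ (xiF G β x y (m + 1) Y) ^ 2 *
            (gm θ (xiF G β c x m Y) ^ 2 * shellF G β Y l m c x)) else 0 := by
          funext Y
          refine Finset.sum_congr rfl fun c hc => ?_
          simp [hc]
        rw [e1, h]
        refine Finset.sum_congr rfl fun c hc => ?_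
        simp only [hc, if_true]
        exact EP_const_mul _ _
      rw [hrw, hsum]
      have hcard : ((kids G x y).card : ℝ) = (d : ℝ) - 1 := by
        rw [card_kids hreg hxy]
        push_cast [Nat.cast_sub (show 1 ≤ d by omega)]
        ring
      have hmain : ∀ c ∈ kids G x y, ∃ b, b ≠ c ∧ b ∈ kids G x y ∧
          EP G β (brn G x y (m + 1)) t 0
            (fun Y => gm θ (xiF G β x y (m + 1) Y) ^ 2 *
            (gm θ (xiF G β c x m Y) ^ 2 * shellF G β Y l m c x)) ≤
          (1 - cF θ * EP G β (brn G b x m) t 0 (fun Y => xiF G β b x m Y ^ 2)) * A := by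
        intro c hc
        obtain ⟨b, hb, hbc, h⟩ := sa_step hT hd hreg hβ hr ht hxy hc l m
        refine ⟨b, hbc, hb, h.trans ?_⟩
        have hcx : G.Adj c x := ((mem_kids.1 hc).1).symm
        have hqle := sa_q_le (G := G) (β := β) (t := t) b x m
        have hq0 := sa_q_nonneg (G := G) (β := β) (t := t) b x m
        have hcF := sa_cF_nonneg θ
        have hcF1 := sa_cF_le hθ0 hθ1
        have hnn : 0 ≤ 1 - cF θ * EP G β (brn G b x m) t 0 (fun Y => xiF G β b x m Y ^ 2) := by
          nlinarith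
        exact mul_le_mul_of_nonneg_left (ih m c x hcx) hnn
      by_cases hmR : R ≤ m
      · have hmin1 : min R m = R := min_eq_left hmR
        have hmin2 : min R (m + 1) = R := min_eq_left (by omega)
        have hterm : ∀ c ∈ kids G x y, θ ^ 2 * EP G β (brn G x y (m + 1)) t 0
            (fun Y => gm θ (xiF G β x y (m + 1) Y) ^ 2 *
            (gm θ (xiF G β c x m Y) ^ 2 * shellF G β Y l m c x)) ≤
            θ ^ 2 * ((1 - cF θ * q₀) * A) := by
          intro c hc
          obtain ⟨b, hbc, hb, h⟩ := hmain c hc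
          refine mul_le_mul_of_nonneg_left (h.trans ?_) (sq_nonneg θ)
          have hbx : G.Adj b x := ((mem_kids.1 hb).1).symm
          have hq1 := hq m hmR b x hbx
          have hcF := sa_cF_nonneg θ
          exact mul_le_mul_of_nonneg_right (by nlinarith) hA0
        calc ∑ c ∈ kids G x y, θ ^ 2 * EP G β (brn G x y (m + 1)) t 0
                (fun Y => gm θ (xiF G β x y (m + 1) Y) ^ 2 *
                (gm θ (xiF G β c x m Y) ^ 2 * shellF G β Y l m c x))
            ≤ ∑ _c ∈ kids G x y, θ ^ 2 * ((1 - cF θ * q₀) * A) := Finset.sum_le_sum hterm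
          _ = (((d : ℝ) - 1) * θ ^ 2 * (1 - cF θ * q₀)) * A := by
              rw [Finset.sum_const, nsmul_eq_mul, hcard]
              ring
          _ ≤ Real.exp (-(2 * a)) * A := mul_le_mul_of_nonneg_right hfac hA0
          _ = _ := by
              rw [hAdef, hmin1, hmin2, mul_left_comm, ← Real.exp_add]
              congr 2
              push_cast
              ring
      · have hmin1 : min R m = m := min_eq_right (by omega)
        have hmin2 : min R (m + 1) = m + 1 := min_eq_right (by omega)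
        have hterm : ∀ c ∈ kids G x y, θ ^ 2 * EP G β (brn G x y (m + 1)) t 0
            (fun Y => gm θ (xiF G β x y (m + 1) Y) ^ 2 *
            (gm θ (xiF G β c x m Y) ^ 2 * shellF G β Y l m c x)) ≤ θ ^ 2 * A := by
          intro c hc
          obtain ⟨b, hbc, hb, h⟩ := hmain c hc
          refine mul_le_mul_of_nonneg_left (h.trans ?_) (sq_nonneg θ)
          have hq0 := sa_q_nonneg (G := G) (β := β) (t := t) b x m
          have hcF := sa_cF_nonneg θ
          have : 0 ≤ cF θ * EP G β (brn G b x m) t 0 (fun Y => xiF G β b x m Y ^ 2) :=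
            mul_nonneg hcF hq0
          nlinarith
        calc ∑ c ∈ kids G x y, θ ^ 2 * EP G β (brn G x y (m + 1)) t 0
                (fun Y => gm θ (xiF G β x y (m + 1) Y) ^ 2 *
                (gm θ (xiF G β c x m Y) ^ 2 * shellF G β Y l m c x))
            ≤ ∑ _c ∈ kids G x y, θ ^ 2 * A := Finset.sum_le_sum hterm
          _ = (((d : ℝ) - 1) * θ ^ 2) * A := by
              rw [Finset.sum_const, nsmul_eq_mul, hcard]
              ring
          _ ≤ 1 * A := mul_le_mul_of_nonneg_right hr hA0
          _ = _ := by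
              rw [one_mul, hAdef, hmin1, hmin2, ← Real.exp_add, ← Real.exp_add]
              congr 1
              push_cast
              ring

/-- First moment of the shell sums. `q₀` is a lower bound of the cavity second moments at depth at
least `R`, and `r (1 - cF θ q₀) ≤ exp(-2a)`. The recursion is:
`a(l+1, m+1) ≤ r (1 - cF q_m) a(l, m)` for `a(l,m) = E[gm(ξ^m)² shellF l m]`, by `fresh_child`
applied with `b ≠ c` a second kid (this is where `d ≥ 3` is used), `S₂ = brn b x m`. -/
theorem shell_moment (hT : G.IsTree) (hd : 3 ≤ d) (hreg : G.IsRegularOfDegree d) (hβ : 0 ≤ β)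
    (hr : ((d : ℝ) - 1) * Real.tanh β ^ 2 ≤ 1) (ht : 0 ≤ t) {R : ℕ} {q₀ a : ℝ} (ha : 0 ≤ a)
    (hq : ∀ m, R ≤ m → ∀ x' y', G.Adj x' y' → q₀ ≤ EP G β (brn G x' y' m) t 0 (fun Y => xiF G β x' y' m Y ^ 2))
    (hfac : ((d : ℝ) - 1) * Real.tanh β ^ 2 * (1 - cF (Real.tanh β) * q₀) ≤ Real.exp (-(2 * a)))
    (hxy : G.Adj x y) (l m : ℕ) :
    EP G β (brn G x y m) t 0 (fun Y => shellF G β Y l m x y) ≤
      Real.exp (2 * a * (R + 1)) * Real.exp (-(2 * a * l)) := by
  cases l with
  | zero =>
    have h0 : (fun Y => shellF G β Y 0 m x y) = fun _ => (1 : ℝ) := by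
      funext Y
      cases m <;> simp [shellF]
    rw [h0, EP_const]
    have h2 : (1 : ℝ) ≤ Real.exp (2 * a * (R + 1)) := by
      apply Real.one_le_exp
      positivity
    simpa using h2
  | succ l =>
    cases m with
    | zero =>
      have h0 : (fun Y => shellF G β Y (l + 1) 0 x y) = fun _ => (0 : ℝ) := by
        funext Y
        simp [shellF]
      rw [h0, EP_const]
      positivity
    | succ m =>
      set θ := Real.tanh β with hθ
      have hθ0 : 0 ≤ θ := sa_tanh_nonneg hβ
      have hθ1 : θ < 1 := sa_tanh_lt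
      have hθ2 : θ ^ 2 ≤ 1 := pow_le_one₀ hθ0 hθ1.le
      have hFc : ∀ c : V, Measurable (fun Y => (if c ∈ kids G x y then θ ^ 2 *
            (gm θ (xiF G β c x m Y) ^ 2 * shellF G β Y l m c x) else 0)) := by
        intro c
        by_cases hc : c ∈ kids G x y
        · simp only [hc, if_true]
          exact measurable_const.mul (sa_meas_a l m c x)
        · simp only [hc, if_false]
          exact measurable_const
      have hbd : ∀ (c : V) (Y : V → ℝ), |(if c ∈ kids G x y then θ ^ 2 *
            (gm θ (xiF G β c x m Y) ^ 2 * shellF G β Y l m c x) else 0)| ≤ 1 := by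
        intro c Y
        by_cases hc : c ∈ kids G x y
        · simp only [hc, if_true]
          have hcx : G.Adj c x := ((mem_kids.1 hc).1).symm
          have h1 := sa_abs_a_le hT hreg hβ hr hcx l m Y
          rw [abs_mul, abs_of_nonneg (sq_nonneg θ)]
          calc θ ^ 2 * _ ≤ 1 * 1 := by gcongr
            _ = 1 := by ring
        · simp [hc]
      have hrw : (fun Y => shellF G β Y (l + 1) (m + 1) x y) =
          fun Y => ∑ c ∈ kids G x y, if c ∈ kids G x y then θ ^ 2 *
            (gm θ (xiF G β c x m Y) ^ 2 * shellF G β Y l m c x) else 0 := by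
        funext Y
        simp only [shellF]
        refine Finset.sum_congr rfl fun c hc => ?_
        simp only [hc, if_true]
        ring
      rw [hrw, sa_EP_sum (kids G x y) _ hFc (fun _ => 1) hbd]
      set B : ℝ := Real.exp (2 * a * R) * Real.exp (-(2 * a * l)) with hB
      have hB0 : 0 ≤ B := by positivity
      have hcard : ((kids G x y).card : ℝ) = (d : ℝ) - 1 := by
        rw [card_kids hreg hxy]
        push_cast [Nat.cast_sub (show 1 ≤ d by omega)]
        ring
      have hterm : ∀ c ∈ kids G x y, EP G β (brn G x y (m + 1)) t 0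
          (fun Y => if c ∈ kids G x y then θ ^ 2 *
            (gm θ (xiF G β c x m Y) ^ 2 * shellF G β Y l m c x) else 0) ≤ θ ^ 2 * B := by
        intro c hc
        have hcx : G.Adj c x := ((mem_kids.1 hc).1).symm
        simp only [hc, if_true]
        rw [EP_const_mul]
        refine mul_le_mul_of_nonneg_left ?_ (sq_nonneg θ)
        have hdep : DepOn (brn G c x m) (fun Y => gm θ (xiF G β c x m Y) ^ 2 * shellF G β Y l m c x) := by
          intro Y Y' h
          have e1 : xiF G β c x m Y = xiF G β c x m Y' := depOn_xiF c x m Y Y' h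
          have e2 : shellF G β Y l m c x = shellF G β Y' l m c x := depOn_shellF hT hcx l m Y Y' h
          simp only
          rw [e1, e2]
        rw [sa_marg hT hd hreg hxy hc m (sa_meas_a l m c x) (sa_abs_a_le hT hreg hβ hr hcx l m) hdep]
        refine (sa_a_bound hT hd hreg hβ hr ht ha hq hfac l m c x hcx).trans ?_
        refine mul_le_mul_of_nonneg_right ?_ (Real.exp_pos _).le
        apply Real.exp_le_exp.2
        have : ((min R m : ℕ) : ℝ) ≤ (R : ℝ) := by exact_mod_cast min_le_left R m
        nlinarith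
      calc ∑ c ∈ kids G x y, EP G β (brn G x y (m + 1)) t 0
              (fun Y => if c ∈ kids G x y then θ ^ 2 *
                (gm θ (xiF G β c x m Y) ^ 2 * shellF G β Y l m c x) else 0)
          ≤ ∑ _c ∈ kids G x y, θ ^ 2 * B := Finset.sum_le_sum hterm
        _ = (((d : ℝ) - 1) * θ ^ 2) * B := by
            rw [Finset.sum_const, nsmul_eq_mul, hcard]
            ring
        _ ≤ 1 * B := mul_le_mul_of_nonneg_right hr hB0
        _ = _ := by
            rw [one_mul, hB, ← Real.exp_add, ← Real.exp_add]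
            congr 1
            push_cast
            ring

end Vale.Agent.Lib.P161E
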