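import Vale.Agent.Lib.P161E.ShellA

/-! Jobs D5, D6: sum over descendants, exponential moment, tail, good events. -/

open MeasureTheory Finset
open scoped Classical ENNReal

noncomputable section

namespace Vale.Agent.Lib.P161E

open Vale.Agent.Lib.P161

variable {V : Type*} {G : SimpleGraph V} [G.LocallyFinite] {β : ℝ} {d : ℕ} {x y : V} {t : ℝ}

/-- Sum over the descendants at depth `J`. -/
def descSum (G : SimpleGraph V) [G.LocallyFinite] (f : V → V → ℝ) : ℕ → V → V → ℝ
  | 0, x, y => f x y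
  | J + 1, x, y => ∑ c ∈ kids G x y, descSum G f J c x

/-- Bound by the average over descendants. -/
theorem shellF_le_desc (hβ : 0 ≤ β) (l m J : ℕ) (x y : V) (Y : V → ℝ) :
    shellF G β Y (l + J) (m + J) x y ≤
      Real.tanh β ^ (2 * J) * descSum G (fun c p => shellF G β Y l m c p) J x y := by
  induction J generalizing x y with
  | zero => simp [descSum]
  | succ J ih =>
    show shellF G β Y ((l + J) + 1) ((m + J) + 1) x y ≤ _
    simp only [shellF, descSum]
    rw [Finset.mul_sum]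
    refine Finset.sum_le_sum fun c _ => ?_
    have h1 := ih c x
    have h2 := sa_gm_xi_sq_le (G := G) hβ c x (m + J) Y
    have h3 := shellF_nonneg (G := G) hβ (l + J) (m + J) c x Y
    have h4 : 0 ≤ Real.tanh β ^ 2 := sq_nonneg _
    rw [mul_pow]
    calc Real.tanh β ^ 2 * gm (Real.tanh β) (xiF G β c x (m + J) Y) ^ 2 * shellF G β Y (l + J) (m + J) c x
        ≤ Real.tanh β ^ 2 * 1 * shellF G β Y (l + J) (m + J) c x := by gcongr
      _ ≤ Real.tanh β ^ 2 * 1 * (Real.tanh β ^ (2 * J) * descSum G (fun c p => shellF G β Y l m c p) J c x) := by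
          gcongr
      _ = Real.tanh β ^ (2 * (J + 1)) * descSum G (fun c p => shellF G β Y l m c p) J c x := by
          rw [show 2 * (J + 1) = 2 + 2 * J by ring, pow_add]
          ring

/-- Crude bound of the shell sums, no condition on the parameter. -/
theorem sb_shellF_le_pow (hreg : G.IsRegularOfDegree d) (hβ : 0 ≤ β) (l m : ℕ) (x y : V)
    (hxy : G.Adj x y) (Y : V → ℝ) : shellF G β Y l m x y ≤ (d : ℝ) ^ l := by
  induction l generalizing m x y with
  | zero => cases m <;> simp [shellF]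
  | succ l ih =>
    cases m with
    | zero =>
      simp only [shellF]
      positivity
    | succ m =>
      simp only [shellF]
      have hθ0 := sa_tanh_nonneg hβ
      have hθ1 : Real.tanh β < 1 := Real.tanh_lt_one β
      have hθ2 : Real.tanh β ^ 2 ≤ 1 := pow_le_one₀ hθ0 hθ1.le
      have hcard : ((kids G x y).card : ℝ) ≤ (d : ℝ) := by
        rw [card_kids hreg hxy]
        exact_mod_cast Nat.sub_le _ _
      have hd0 : (0 : ℝ) ≤ (d : ℝ) ^ l := by positivity
      calc ∑ c ∈ kids G x y, (Real.tanh β * gm (Real.tanh β) (xiF G β c x m Y)) ^ 2 * shellF G β Y l m c x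
          ≤ ∑ _c ∈ kids G x y, (d : ℝ) ^ l := by
            refine Finset.sum_le_sum fun c hc => ?_
            have hcx : G.Adj c x := ((mem_kids.1 hc).1).symm
            have h1 := ih m c x hcx
            have h2 := shellF_nonneg (G := G) hβ l m c x Y
            have h3 := sa_gm_xi_sq_le (G := G) hβ c x m Y
            rw [mul_pow]
            calc Real.tanh β ^ 2 * gm (Real.tanh β) (xiF G β c x m Y) ^ 2 * shellF G β Y l m c x
                ≤ 1 * 1 * (d : ℝ) ^ l := by gcongr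
              _ = (d : ℝ) ^ l := by ring
        _ = ((kids G x y).card : ℝ) * (d : ℝ) ^ l := by
            rw [Finset.sum_const, nsmul_eq_mul]
        _ ≤ (d : ℝ) * (d : ℝ) ^ l := by gcongr
        _ = (d : ℝ) ^ (l + 1) := by ring

theorem sb_desc_nonneg (hβ : 0 ≤ β) (l m J : ℕ) (x y : V) (Y : V → ℝ) :
    0 ≤ descSum G (fun c p => shellF G β Y l m c p) J x y := by
  induction J generalizing x y with
  | zero => exact shellF_nonneg hβ l m x y Y
  | succ J ih =>
    simp only [descSum]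
    exact Finset.sum_nonneg fun c _ => ih c x

theorem sb_desc_le (hreg : G.IsRegularOfDegree d) (hβ : 0 ≤ β) (l m J : ℕ) (x y : V)
    (hxy : G.Adj x y) (Y : V → ℝ) :
    descSum G (fun c p => shellF G β Y l m c p) J x y ≤ (d : ℝ) ^ (l + J) := by
  induction J generalizing x y with
  | zero => exact sb_shellF_le_pow hreg hβ l m x y hxy Y
  | succ J ih =>
    simp only [descSum]
    have hcard : ((kids G x y).card : ℝ) ≤ (d : ℝ) := by
      rw [card_kids hreg hxy]
      exact_mod_cast Nat.sub_le _ _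
    have hd0 : (0 : ℝ) ≤ (d : ℝ) ^ (l + J) := by positivity
    calc ∑ c ∈ kids G x y, descSum G (fun c p => shellF G β Y l m c p) J c x
        ≤ ∑ _c ∈ kids G x y, (d : ℝ) ^ (l + J) :=
          Finset.sum_le_sum fun c hc => ih c x ((mem_kids.1 hc).1).symm
      _ = ((kids G x y).card : ℝ) * (d : ℝ) ^ (l + J) := by
          rw [Finset.sum_const, nsmul_eq_mul]
      _ ≤ (d : ℝ) * (d : ℝ) ^ (l + J) := by gcongr
      _ = (d : ℝ) ^ (l + (J + 1)) := by ring

theorem sb_desc_measurable (l m J : ℕ) (x y : V) :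
    Measurable (fun Y => descSum G (fun c p => shellF G β Y l m c p) J x y) := by
  induction J generalizing x y with
  | zero => exact measurable_shellF l m x y
  | succ J ih =>
    simp only [descSum]
    exact Finset.measurable_sum _ fun c _ => ih c x

theorem sb_desc_neg (l m J : ℕ) (x y : V) (Y : V → ℝ) :
    descSum G (fun c p => shellF G β (-Y) l m c p) J x y =
      descSum G (fun c p => shellF G β Y l m c p) J x y := by
  induction J generalizing x y with
  | zero => exact shellF_neg l m x y Y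
  | succ J ih =>
    simp only [descSum]
    exact Finset.sum_congr rfl fun c _ => ih c x

theorem sb_desc_dep (hT : G.IsTree) (l m J : ℕ) (x y : V) (hxy : G.Adj x y) :
    DepOn (brn G x y (m + J)) (fun Y => descSum G (fun c p => shellF G β Y l m c p) J x y) := by
  induction J generalizing x y with
  | zero => exact depOn_shellF hT hxy l m
  | succ J ih =>
    intro Y Y' h
    simp only [descSum]
    refine Finset.sum_congr rfl fun c hc => ?_
    have hcx : G.Adj c x := ((mem_kids.1 hc).1).symm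
    have hsub := sa_brn_kid_subset hT hxy hc (m + J)
    exact ih c x hcx Y Y' fun v hv => h v (hsub hv)

/-- The union of the kids' branches in `K` and the root. -/
def sbD (G : SimpleGraph V) [G.LocallyFinite] (x : V) (m : ℕ) (K : Finset V) : Finset V :=
  insert x (K.biUnion fun c => brn G c x m)

theorem sb_D_sub (hT : G.IsTree) (hxy : G.Adj x y) (m : ℕ) {K : Finset V} (hK : K ⊆ kids G x y) :
    sbD G x m K ⊆ brn G x y (m + 1) := by
  intro v hv
  simp only [sbD, Finset.mem_insert, Finset.mem_biUnion] at hv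
  rcases hv with rfl | ⟨c, hc, hv⟩
  · exact self_mem_brn hT hxy _
  · exact sa_brn_kid_subset hT hxy (hK hc) m hv

theorem sb_D_star (hT : G.IsTree) (m : ℕ) {K : Finset V} (hK : K ⊆ kids G x y) :
    Star G x (sbD G x m K) := by
  intro u hu p hup hd
  simp only [sbD, Finset.mem_insert, Finset.mem_biUnion] at hu ⊢
  rcases hu with rfl | ⟨c, hc, hu⟩
  · simp at hd
  · have hcx : G.Adj c x := ((mem_kids.1 (hK hc)).1).symm
    have hdc1 : G.dist x c = 1 := SimpleGraph.dist_eq_one_iff_adj.2 hcx.symm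
    have hum := (mem_brn hT).1 hu
    by_cases huc : u = c
    · subst huc
      left
      have h0 : G.dist x p = 0 := by omega
      exact (hT.1.dist_eq_zero_iff.1 h0).symm
    · right
      refine ⟨c, hc, ?_⟩
      obtain ⟨p', hp', hdp'⟩ := exists_parent hT (o := c) (x := u) huc
      have htri : G.dist x p' ≤ G.dist x c + G.dist c p' := hT.1.dist_triangle
      have hcomm : G.dist c x = G.dist x c := SimpleGraph.dist_comm
      have hlt : G.dist c u < G.dist x u := hum.2
      have hxp' : G.dist x p' + 1 = G.dist x u := by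
        rcases dist_adj hT (o := x) hp' with h | h
        · omega
        · omega
      have hpp : p = p' := parent_unique hT hup hp' hd hxp'
      subst hpp
      exact star_brn hT hcx m u hu p hup hdp'

theorem sb_D_cut (hT : G.IsTree) (hxy : G.Adj x y) (m : ℕ) {K : Finset V} (hK : K ⊆ kids G x y)
    {c : V} (hc : c ∈ kids G x y) (hcK : c ∉ K) : Cut G (sbD G x m K) (brn G c x m) x c := by
  have hcut := (brn_kid_cut hT hxy hc m).1
  have hsub : sbD G x m K ⊆ side G (brn G x y (m + 1)) x c := by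
    intro v hv
    simp only [sbD, Finset.mem_insert, Finset.mem_biUnion] at hv
    rcases hv with rfl | ⟨c', hc', hv⟩
    · exact hcut.ha
    · refine brn_other_kid_subset hT hxy hc (hK hc') ?_ m hv
      rintro rfl
      exact hcK hc'
  exact ⟨Finset.disjoint_of_subset_left hsub hcut.disj, Finset.mem_insert_self _ _, hcut.hb,
    hcut.adj, fun u hu v hv huv => hcut.cut u (hsub hu) v hv huv⟩

/-- Factorisation of the expectation of a product of even functions of the kids' branches. -/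
theorem sb_EP_prod (hT : G.IsTree) (hxy : G.Adj x y) (ht : 0 ≤ t) (m : ℕ) (F : V → (V → ℝ) → ℝ)
    {C : ℝ} (hC : 1 ≤ C) (hFm : ∀ c ∈ kids G x y, Measurable (F c))
    (hFb : ∀ c ∈ kids G x y, ∀ Y, |F c Y| ≤ C)
    (hdep : ∀ c ∈ kids G x y, DepOn (brn G c x m) (F c))
    (heven : ∀ c ∈ kids G x y, ∀ Y, F c (-Y) = F c Y) (K : Finset V) (hK : K ⊆ kids G x y) :
    EP G β (sbD G x m K) t 0 (fun Y => ∏ c ∈ K, F c Y) =
      ∏ c ∈ K, EP G β (brn G c x m) t 0 (F c) := by
  induction K using Finset.induction_on with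
  | empty =>
    simpa using EP_const (G := G) (β := β) (sbD G x m ∅) t 0 (1 : ℝ)
  | insert c K hcK ih =>
    have hK' : K ⊆ kids G x y := fun v hv => hK (Finset.mem_insert_of_mem hv)
    have hc : c ∈ kids G x y := hK (Finset.mem_insert_self _ _)
    have hcut := sb_D_cut hT hxy m hK' hc hcK
    have hunion : sbD G x m (insert c K) = sbD G x m K ∪ brn G c x m := by
      ext v
      simp only [sbD, Finset.mem_insert, Finset.mem_biUnion, Finset.mem_union]
      constructor
      · rintro (rfl | ⟨c', rfl | hc', hv⟩)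
        · exact Or.inl (Or.inl rfl)
        · exact Or.inr hv
        · exact Or.inl (Or.inr ⟨c', hc', hv⟩)
      · rintro ((rfl | ⟨c', hc', hv⟩) | hv)
        · exact Or.inl rfl
        · exact Or.inr ⟨c', Or.inr hc', hv⟩
        · exact Or.inr ⟨c, Or.inl rfl, hv⟩
    have hm₁ : Measurable (fun Y => ∏ c ∈ K, F c Y) :=
      Finset.measurable_prod _ fun c' hc' => hFm c' (hK' hc')
    have hC0 : 0 ≤ C := by linarith
    have hb₁ : ∀ Y, |∏ c ∈ K, F c Y| ≤ C ^ K.card := by
      intro Y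
      rw [Finset.abs_prod]
      calc ∏ c ∈ K, |F c Y| ≤ ∏ _c ∈ K, C :=
            Finset.prod_le_prod (fun _ _ => abs_nonneg _) fun c' hc' => hFb c' (hK' hc') Y
        _ = C ^ K.card := by rw [Finset.prod_const]
    have hCpow : 1 ≤ C ^ K.card := one_le_pow₀ hC
    have hdep₁ : DepOn (sbD G x m K) (fun Y => ∏ c ∈ K, F c Y) := by
      intro Y Y' h
      refine Finset.prod_congr rfl fun c' hc' => ?_
      refine hdep c' (hK' hc') Y Y' fun v hv => h v ?_
      simp only [sbD, Finset.mem_insert, Finset.mem_biUnion]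
      exact Or.inr ⟨c', hc', hv⟩
    have hmain := EP_indep_even (G := G) (β := β) (t := t) hcut ht hm₁ (hFm c hc)
      (C := max (C ^ K.card) C) (fun Y => (hb₁ Y).trans (le_max_left _ _))
      (fun Y => (hFb c hc Y).trans (le_max_right _ _)) hdep₁ (hdep c hc) (heven c hc)
    rw [hunion, Finset.prod_insert hcK, mul_comm (EP G β (brn G c x m) t 0 (F c)), ← ih hK', ← hmain]
    congr 1
    funext Y
    rw [Finset.prod_insert hcK]
    ring

/-- The exponential moment of a sum over descendants factorises, for even functions of the branches.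
Proof: induction on `J`, with `EP_indep_even` along the kids of `x`. -/
theorem mgf_desc (hT : G.IsTree) (hd : 3 ≤ d) (hreg : G.IsRegularOfDegree d) (hβ : 0 ≤ β) (ht : 0 ≤ t)
    {l m : ℕ} {lam M : ℝ} (hlam : 0 ≤ lam) (hM1 : 1 ≤ M)
    (hM : ∀ x' y', G.Adj x' y' →
      EP G β (brn G x' y' m) t 0 (fun Y => Real.exp (lam * shellF G β Y l m x' y')) ≤ M)
    (J : ℕ) (hxy : G.Adj x y) :
    EP G β (brn G x y (m + J)) t 0
        (fun Y => Real.exp (lam * descSum G (fun c p => shellF G β Y l m c p) J x y)) ≤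
      M ^ ((d - 1) ^ J) := by
  induction J generalizing x y with
  | zero => simpa [descSum] using hM x y hxy
  | succ J ih =>
    show EP G β (brn G x y ((m + J) + 1)) t 0 _ ≤ _
    set F : V → (V → ℝ) → ℝ := fun c Y =>
      Real.exp (lam * descSum G (fun c p => shellF G β Y l m c p) J c x) with hF
    have hrw : (fun Y => Real.exp (lam * descSum G (fun c p => shellF G β Y l m c p) (J + 1) x y)) =
        fun Y => ∏ c ∈ kids G x y, F c Y := by
      funext Y
      simp only [descSum, hF]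
      rw [Finset.mul_sum, Real.exp_sum]
    rw [hrw]
    set C : ℝ := Real.exp (lam * (d : ℝ) ^ (l + J)) with hCdef
    have hC : 1 ≤ C := by
      apply Real.one_le_exp
      positivity
    have hFm : ∀ c ∈ kids G x y, Measurable (F c) := fun c _ =>
      Real.measurable_exp.comp (measurable_const.mul (sb_desc_measurable l m J c x))
    have hF0 : ∀ c Y, 0 ≤ F c Y := fun c Y => (Real.exp_pos _).le
    have hFb : ∀ c ∈ kids G x y, ∀ Y, |F c Y| ≤ C := by
      intro c hc Y
      rw [abs_of_nonneg (hF0 c Y)]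
      apply Real.exp_le_exp.2
      exact mul_le_mul_of_nonneg_left
        (sb_desc_le hreg hβ l m J c x ((mem_kids.1 hc).1).symm Y) hlam
    have hdep : ∀ c ∈ kids G x y, DepOn (brn G c x (m + J)) (F c) := by
      intro c hc Y Y' h
      simp only [hF]
      have e := sb_desc_dep (G := G) (β := β) hT l m J c x ((mem_kids.1 hc).1).symm Y Y' h
      simp only at e
      rw [e]
    have heven : ∀ c ∈ kids G x y, ∀ Y, F c (-Y) = F c Y := by
      intro c _ Y
      simp only [hF]
      rw [sb_desc_neg]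
    have hprod := sb_EP_prod (G := G) (β := β) hT hxy ht (m + J) F hC hFm hFb hdep heven
      (kids G x y) (Finset.Subset.refl _)
    have hmeasP : Measurable (fun Y => ∏ c ∈ kids G x y, F c Y) :=
      Finset.measurable_prod _ fun c hc => hFm c hc
    have hbP : ∀ Y, |∏ c ∈ kids G x y, F c Y| ≤ C ^ (kids G x y).card := by
      intro Y
      rw [Finset.abs_prod]
      calc ∏ c ∈ kids G x y, |F c Y| ≤ ∏ _c ∈ kids G x y, C :=
            Finset.prod_le_prod (fun _ _ => abs_nonneg _) fun c hc => hFb c hc Y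
        _ = C ^ (kids G x y).card := by rw [Finset.prod_const]
    have hdepP : DepOn (sbD G x (m + J) (kids G x y)) (fun Y => ∏ c ∈ kids G x y, F c Y) := by
      intro Y Y' h
      refine Finset.prod_congr rfl fun c hc => ?_
      refine hdep c hc Y Y' fun v hv => h v ?_
      simp only [sbD, Finset.mem_insert, Finset.mem_biUnion]
      exact Or.inr ⟨c, hc, hv⟩
    have hmarg := EP_marginal (G := G) (β := β) (S := brn G x y ((m + J) + 1)) (t := t)
      (D := sbD G x (m + J) (kids G x y)) hT (r := x)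
      (Finset.mem_insert_self _ _) (sb_D_star hT (m + J) (Finset.Subset.refl _))
      (sb_D_sub hT hxy (m + J) (Finset.Subset.refl _)) (star_brn hT hxy _) hmeasP hbP hdepP
    rw [hmarg, hprod]
    have hcardk : (kids G x y).card = d - 1 := card_kids hreg hxy
    calc ∏ c ∈ kids G x y, EP G β (brn G c x (m + J)) t 0 (F c)
        ≤ ∏ _c ∈ kids G x y, M ^ ((d - 1) ^ J) := by
          refine Finset.prod_le_prod (fun c hc => ?_) fun c hc => ?_
          · exact sa_EP_nonneg (hFm c hc) (hFb c hc) (hF0 c) (by linarith)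
          · exact ih ((mem_kids.1 hc).1).symm
      _ = M ^ ((d - 1) ^ (J + 1)) := by
          rw [Finset.prod_const, hcardk, ← pow_mul, pow_succ]

/-- Elementary inequality for the exponential on `[0, 1]`. -/
theorem sb_exp_le {s : ℝ} (h0 : 0 ≤ s) (h1 : s ≤ 1) : Real.exp s ≤ 1 + 2 * s := by
  have h := Real.abs_exp_sub_one_sub_id_le (x := s) (by rw [abs_of_nonneg h0]; exact h1)
  have h2 := (abs_le.1 h).2
  nlinarith

/-- Chernoff bound for the shell sums: with `μ` a bound for the first moment at depth `l`. -/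
theorem shell_tail (hT : G.IsTree) (hd : 3 ≤ d) (hreg : G.IsRegularOfDegree d) (hβ : 0 ≤ β)
    (hr : ((d : ℝ) - 1) * Real.tanh β ^ 2 ≤ 1) (ht : 0 ≤ t) {l m J : ℕ} {μ w : ℝ} (hμ0 : 0 ≤ μ)
    (hw : 0 ≤ w)
    (hμ : ∀ x' y', G.Adj x' y' → EP G β (brn G x' y' m) t 0 (fun Y => shellF G β Y l m x' y') ≤ μ)
    (hxy : G.Adj x y) :
    EP G β (brn G x y (m + J)) t 0
        (Set.indicator {Y | 3 * μ + w ≤ shellF G β Y (l + J) (m + J) x y} 1) ≤
      Real.exp (-(((d - 1) ^ J : ℕ) * w)) := by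
  set N : ℝ := (((d - 1) ^ J : ℕ) : ℝ) with hN
  have hN1 : 1 ≤ N := by
    rw [hN]
    exact_mod_cast Nat.one_le_pow _ _ (by omega)
  have hN0 : 0 ≤ N := by linarith
  have hNθ : N * Real.tanh β ^ (2 * J) ≤ 1 := by
    have e : N * Real.tanh β ^ (2 * J) = (((d : ℝ) - 1) * Real.tanh β ^ 2) ^ J := by
      rw [hN, mul_pow, ← pow_mul]
      push_cast [Nat.cast_sub (show 1 ≤ d by omega)]
      ring_nf
    rw [e]
    refine pow_le_one₀ ?_ hr
    have h3 : (3 : ℝ) ≤ d := by exact_mod_cast hd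
    exact mul_nonneg (by linarith) (sq_nonneg _)
  have hmgf : ∀ x' y', G.Adj x' y' →
      EP G β (brn G x' y' m) t 0 (fun Y => Real.exp (1 * shellF G β Y l m x' y')) ≤ 1 + 2 * μ := by
    intro x' y' hadj
    have hs0 := fun Y => shellF_nonneg (G := G) hβ l m x' y' Y
    have hs1 := fun Y => shellF_le_one (G := G) (β := β) hT hreg hβ hr hadj l m Y
    have hmeas := measurable_shellF (G := G) (β := β) l m x' y'
    have h1 : EP G β (brn G x' y' m) t 0 (fun Y => Real.exp (1 * shellF G β Y l m x' y')) ≤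
        EP G β (brn G x' y' m) t 0 (fun Y => 1 + 2 * shellF G β Y l m x' y') := by
      refine EP_mono (C := 3) (Real.measurable_exp.comp (measurable_const.mul hmeas))
        (measurable_const.add (measurable_const.mul hmeas)) (fun Y => ?_) (fun Y => ?_) (fun Y => ?_)
      · rw [abs_of_pos (Real.exp_pos _), one_mul]
        have := sb_exp_le (hs0 Y) (hs1 Y)
        linarith [hs1 Y]
      · rw [abs_of_nonneg (by linarith [hs0 Y])]
        linarith [hs1 Y]
      · rw [one_mul]
        exact sb_exp_le (hs0 Y) (hs1 Y)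
    refine h1.trans ?_
    have e := EP_add (G := G) (β := β) (S := brn G x' y' m) (t := t) (y₀ := 0)
      (F := fun _ => (1 : ℝ)) (H := fun Y => 2 * shellF G β Y l m x' y') (C := 3)
      measurable_const (measurable_const.mul hmeas)
      (fun _ => by norm_num) (fun Y => by
        rw [abs_of_nonneg (by linarith [hs0 Y])]
        linarith [hs1 Y])
    rw [e, EP_const, EP_const_mul]
    linarith [hμ x' y' hadj]
  have hdesc := mgf_desc (G := G) (β := β) (l := l) (m := m) hT hd hreg hβ ht zero_le_one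
    (by linarith : (1 : ℝ) ≤ 1 + 2 * μ) hmgf J hxy
  simp only [one_mul] at hdesc
  have hpow : (1 + 2 * μ) ^ ((d - 1) ^ J) ≤ Real.exp (2 * μ * N) := by
    have h1 : 1 + 2 * μ ≤ Real.exp (2 * μ) := by
      have := Real.add_one_le_exp (2 * μ)
      linarith
    calc (1 + 2 * μ) ^ ((d - 1) ^ J) ≤ Real.exp (2 * μ) ^ ((d - 1) ^ J) :=
          pow_le_pow_left₀ (by linarith) h1 _
      _ = Real.exp (2 * μ * N) := by
          rw [← Real.exp_nat_mul]
          congr 1
          rw [hN]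
          ring
  set A : ℝ := 3 * μ + w with hA
  have hA0 : 0 ≤ A := by positivity
  set C₁ : ℝ := Real.exp ((d : ℝ) ^ (l + J)) with hC₁
  have hC₁1 : 1 ≤ C₁ := Real.one_le_exp (by positivity)
  have hmeasD : Measurable (fun Y => Real.exp (descSum G (fun c p => shellF G β Y l m c p) J x y)) :=
    Real.measurable_exp.comp (sb_desc_measurable l m J x y)
  have hsetm : MeasurableSet {Y | A ≤ shellF G β Y (l + J) (m + J) x y} :=
    measurableSet_le measurable_const (measurable_shellF _ _ _ _)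
  have hmi : Measurable (Set.indicator {Y | A ≤ shellF G β Y (l + J) (m + J) x y}
      (1 : (V → ℝ) → ℝ)) := measurable_const.indicator hsetm
  set e₀ : ℝ := Real.exp (-(N * A)) with he₀
  have he₀1 : e₀ ≤ 1 := by
    rw [he₀, Real.exp_le_one_iff]
    have : 0 ≤ N * A := mul_nonneg hN0 hA0
    linarith
  have he₀0 : 0 < e₀ := Real.exp_pos _
  have hDb : ∀ Y, |Real.exp (descSum G (fun c p => shellF G β Y l m c p) J x y)| ≤ C₁ := by
    intro Y
    rw [abs_of_pos (Real.exp_pos _)]
    exact Real.exp_le_exp.2 (sb_desc_le hreg hβ l m J x y hxy Y)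
  have hind : EP G β (brn G x y (m + J)) t 0
      (Set.indicator {Y | A ≤ shellF G β Y (l + J) (m + J) x y} 1) ≤
      EP G β (brn G x y (m + J)) t 0
        (fun Y => e₀ * Real.exp (descSum G (fun c p => shellF G β Y l m c p) J x y)) := by
    refine EP_mono (C := C₁) hmi (measurable_const.mul hmeasD) (fun Y => ?_) (fun Y => ?_) (fun Y => ?_)
    · by_cases hY : Y ∈ {Y | A ≤ shellF G β Y (l + J) (m + J) x y}
      · rw [Set.indicator_of_mem hY]
        simpa using hC₁1
      · rw [Set.indicator_of_notMem hY]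
        simpa using (by linarith : (0 : ℝ) ≤ C₁)
    · rw [abs_mul, abs_of_pos he₀0]
      calc e₀ * _ ≤ 1 * C₁ := mul_le_mul he₀1 (hDb Y) (abs_nonneg _) zero_le_one
        _ = C₁ := one_mul _
    · by_cases hY : Y ∈ {Y | A ≤ shellF G β Y (l + J) (m + J) x y}
      · rw [Set.indicator_of_mem hY]
        have hY' : A ≤ shellF G β Y (l + J) (m + J) x y := hY
        have h1 := shellF_le_desc (G := G) hβ l m J x y Y
        have h2 := sb_desc_nonneg (G := G) (β := β) hβ l m J x y Y
        have h3 : N * A ≤ descSum G (fun c p => shellF G β Y l m c p) J x y := by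
          calc N * A ≤ N * (Real.tanh β ^ (2 * J) * descSum G (fun c p => shellF G β Y l m c p) J x y) :=
                mul_le_mul_of_nonneg_left (hY'.trans h1) hN0
            _ = (N * Real.tanh β ^ (2 * J)) * descSum G (fun c p => shellF G β Y l m c p) J x y := by ring
            _ ≤ 1 * descSum G (fun c p => shellF G β Y l m c p) J x y :=
                mul_le_mul_of_nonneg_right hNθ h2
            _ = _ := one_mul _
        rw [he₀, ← Real.exp_add]
        simp only [Pi.one_apply]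
        apply Real.one_le_exp
        linarith
      · rw [Set.indicator_of_notMem hY]
        positivity
  refine hind.trans ?_
  rw [EP_const_mul]
  calc e₀ * EP G β (brn G x y (m + J)) t 0
        (fun Y => Real.exp (descSum G (fun c p => shellF G β Y l m c p) J x y))
      ≤ e₀ * Real.exp (2 * μ * N) := mul_le_mul_of_nonneg_left (hdesc.trans hpow) he₀0.le
    _ = Real.exp (-(N * A) + 2 * μ * N) := by rw [he₀, ← Real.exp_add]
    _ ≤ Real.exp (-(N * w)) := by
        apply Real.exp_le_exp.2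
        rw [hA]
        nlinarith [mul_nonneg hN0 hμ0]

/-- The exponent `ς`. -/
def sig (d : ℕ) (a : ℝ) : ℝ := 2 * a / Real.log ((d : ℝ) - 1)

/-- The good event for the shell sums: off an event of probability `2 e^{-z}`, for all `l`,
`shellF l ≤ C₂ (1+z)^ς exp(-a l/4)`, where `C₂` depends on `d`, `C₀` only. -/
def C2 (d : ℕ) (C₀ : ℝ) : ℝ := (3 * C₀ * d + 1) * (d : ℝ) ^ 3 * 100

theorem sb_shellF_zero {l m : ℕ} (hlm : m < l) (x y : V) (Y : V → ℝ) : shellF G β Y l m x y = 0 := by
  induction m generalizing l x y with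
  | zero =>
    cases l with
    | zero => omega
    | succ l => simp [shellF]
  | succ m ih =>
    cases l with
    | zero => omega
    | succ l =>
      simp only [shellF]
      refine Finset.sum_eq_zero fun c _ => ?_
      rw [ih (by omega) c x, mul_zero]

theorem sb_pow_four (l : ℕ) : (l + 1) ^ 4 ≤ 2 ^ (3 * l + 1) := by
  induction l with
  | zero => norm_num
  | succ l ih =>
    cases l with
    | zero => norm_num
    | succ k =>
      have e : 8 * (k + 1 + 1) ^ 4 = (k + 1 + 1 + 1) ^ 4 + (7 * k ^ 4 + 52 * k ^ 3 + 138 * k ^ 2 + 148 * k + 47) := by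
        ring
      have e2 : 2 ^ (3 * (k + 1 + 1) + 1) = 8 * 2 ^ (3 * (k + 1) + 1) := by
        rw [show 3 * (k + 1 + 1) + 1 = 3 + (3 * (k + 1) + 1) by ring, pow_add]
        norm_num
      rw [e2]
      omega

theorem sb_log_succ (l : ℕ) {L : ℝ} (hL : Real.log 2 ≤ L) :
    Real.log ((l : ℝ) + 1) ≤ L * (3 * l + 1) / 4 := by
  have h : ((l : ℝ) + 1) ^ 4 ≤ 2 ^ (3 * l + 1) := by exact_mod_cast sb_pow_four l
  have h1 : Real.log (((l : ℝ) + 1) ^ 4) ≤ Real.log ((2 : ℝ) ^ (3 * l + 1)) :=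
    Real.log_le_log (by positivity) h
  rw [Real.log_pow, Real.log_pow] at h1
  push_cast at h1
  have h2 : ((3 : ℝ) * l + 1) * Real.log 2 ≤ (3 * l + 1) * L :=
    mul_le_mul_of_nonneg_left hL (by positivity)
  linarith

theorem sb_C2_ge {C₀ : ℝ} (hd : 3 ≤ d) (hC₀ : 1 ≤ C₀) :
    2 ≤ C2 d C₀ ∧ (d : ℝ) - 1 ≤ C2 d C₀ ∧ 6 * C₀ * ((d : ℝ) - 1) ^ 2 ≤ C2 d C₀ := by
  have hd3 : (3 : ℝ) ≤ d := by exact_mod_cast hd
  unfold C2
  set x : ℝ := (d : ℝ) with hx
  have hx1 : 1 ≤ x := by linarith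
  have hx3 : x ≤ x ^ 3 := by nlinarith [sq_nonneg x]
  have hx32 : x ^ 2 ≤ x ^ 3 := by nlinarith [sq_nonneg x]
  have hprod : x ^ 3 * 100 ≤ (3 * C₀ * x + 1) * x ^ 3 * 100 := by
    have : 0 ≤ 3 * C₀ * x * (x ^ 3) := by positivity
    nlinarith
  refine ⟨by nlinarith, by nlinarith, ?_⟩
  have h1 : 6 * C₀ * (x - 1) ^ 2 ≤ 6 * C₀ * x ^ 2 := by
    have : (x - 1) ^ 2 ≤ x ^ 2 := by nlinarith
    have hc : 0 ≤ 6 * C₀ := by positivity
    exact mul_le_mul_of_nonneg_left this hc
  have h2 : 6 * C₀ * x ^ 2 ≤ (3 * C₀ * x + 1) * x ^ 3 * 100 := by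
    have h3 : 0 ≤ C₀ * x ^ 2 := by positivity
    have h4 : 0 ≤ C₀ * x ^ 4 := by positivity
    have h5 : x ^ 2 ≤ x ^ 4 := by nlinarith [sq_nonneg x, sq_nonneg (x ^ 2 - x)]
    have h6 : C₀ * x ^ 2 ≤ C₀ * x ^ 4 := mul_le_mul_of_nonneg_left h5 (by linarith)
    have h7 : 0 ≤ x ^ 3 := by positivity
    nlinarith
  linarith

theorem sb_r_J {xl L : ℝ} (hxl0 : 0 ≤ xl) (hL : 0 < L) :
    ∃ J : ℕ, xl ≤ J * L ∧ J * L < xl + L := by
  refine ⟨⌈xl / L⌉₊, ?_, ?_⟩
  · have := Nat.le_ceil (xl / L)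
    rwa [div_le_iff₀ hL] at this
  · have h := Nat.ceil_lt_add_one (div_nonneg hxl0 hL.le)
    have h2 := mul_lt_mul_of_pos_right h hL
    have e : (xl / L + 1) * L = xl + L := by
      field_simp
    rwa [e] at h2

theorem sb_r_sx {s L a lz ll xl lr : ℝ} (hs0 : 0 < s) (hsig : s ≤ 1) (hsL : s * L = 2 * a)
    (ha : 0 < a) (hlr : 0 ≤ lr) (hll : ll ≤ L * (3 * lr + 1) / 4) (hxl : xl = lz + ll + a * lr / 4) :
    s * xl ≤ s * lz + a * (3 * lr + 1) / 2 + a * lr / 4 := by
  have hsl : s * ll ≤ a * (3 * lr + 1) / 2 := by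
    calc s * ll ≤ s * (L * (3 * lr + 1) / 4) := mul_le_mul_of_nonneg_left hll hs0.le
      _ = (s * L) * (3 * lr + 1) / 4 := by ring
      _ = a * (3 * lr + 1) / 2 := by rw [hsL]; ring
  have hsa : s * (a * lr / 4) ≤ a * lr / 4 := by
    calc s * (a * lr / 4) ≤ 1 * (a * lr / 4) := mul_le_mul_of_nonneg_right hsig (by positivity)
      _ = a * lr / 4 := one_mul _
  have e : s * xl = s * lz + s * ll + s * (a * lr / 4) := by
    rw [hxl]
    ring
  rw [e]
  linarith

theorem sb_r_big {s L a lz xl lr J C D : ℝ} (hL : 0 < L) (hs0 : 0 < s) (hsL : s * L = 2 * a)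
    (ha2 : 2 * a ≤ L) (ha : 0 < a) (hexpL : Real.exp L = D) (hD0 : 0 < D) (hCD : D ≤ C)
    (hsx : s * xl ≤ s * lz + a * (3 * lr + 1) / 2 + a * lr / 4) (hlJ : lr + 1 ≤ J)
    (hJ2 : J * L < xl + L) : 1 ≤ C * Real.exp (s * lz) * Real.exp (-(a * lr / 4)) := by
  have h1 : (lr + 1) * L ≤ J * L := mul_le_mul_of_nonneg_right hlJ hL.le
  have h2 : lr * L ≤ xl := by linarith
  have h3 : s * (lr * L) ≤ s * xl := mul_le_mul_of_nonneg_left h2 hs0.le
  have h4 : s * (lr * L) = 2 * a * lr := by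
    calc s * (lr * L) = (s * L) * lr := by ring
      _ = 2 * a * lr := by rw [hsL]
  have h5 : a * lr / 4 - a / 2 ≤ s * lz := by linarith
  have e1 : C * Real.exp (s * lz) * Real.exp (-(a * lr / 4)) =
      C * Real.exp (s * lz + -(a * lr / 4)) := by
    rw [Real.exp_add]
    ring
  rw [e1]
  have e2 : Real.exp (-L) ≤ Real.exp (s * lz + -(a * lr / 4)) := by
    apply Real.exp_le_exp.2
    linarith
  have e3 : Real.exp (-L) = 1 / D := by
    rw [Real.exp_neg, hexpL, one_div]
  have e4 : 1 ≤ C * Real.exp (-L) := by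
    rw [e3, mul_one_div, le_div_iff₀ hD0]
    linarith
  have hC0 : 0 ≤ C := by linarith
  exact e4.trans (mul_le_mul_of_nonneg_left e2 hC0)

theorem sb_r_small {s L a lz xl lr J lp C D C₀ : ℝ} (hs0 : 0 < s) (hsL : s * L = 2 * a)
    (ha2 : 2 * a ≤ L) (ha : 0 < a) (hexpL : Real.exp L = D) (hC₀ : 1 ≤ C₀)
    (hCC : 6 * C₀ * D ^ 2 ≤ C)
    (hsx : s * xl ≤ s * lz + a * (3 * lr + 1) / 2 + a * lr / 4) (hlr : lr = lp + J)
    (hJ2 : J * L < xl + L) :
    6 * (C₀ * Real.exp (-(2 * a * lp))) ≤ C * Real.exp (s * lz) * Real.exp (-(a * lr / 4)) := by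
  have hJs : 2 * a * J ≤ s * lz + a * (3 * lr + 1) / 2 + a * lr / 4 + 2 * a := by
    have h1 : s * (J * L) ≤ s * (xl + L) := mul_le_mul_of_nonneg_left hJ2.le hs0.le
    have h2 : s * (J * L) = 2 * a * J := by
      calc s * (J * L) = (s * L) * J := by ring
        _ = 2 * a * J := by rw [hsL]
    have h3 : s * (xl + L) = s * xl + 2 * a := by rw [mul_add, hsL]
    linarith
  have hexp1 : Real.exp (-(2 * a * lp)) ≤
      Real.exp (s * lz) * Real.exp (-(a * lr / 4)) * D ^ 2 := by
    have e : D ^ 2 = Real.exp (2 * L) := by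
      rw [two_mul, Real.exp_add, hexpL, sq]
    rw [e, ← Real.exp_add, ← Real.exp_add]
    apply Real.exp_le_exp.2
    have e2 : 2 * a * lp = 2 * a * lr - 2 * a * J := by
      rw [hlr]
      ring
    rw [e2]
    have e3 : a * (3 * lr + 1) / 2 = 3 * (a * lr) / 2 + a / 2 := by ring
    have e4 : 2 * a * lr = 2 * (a * lr) := by ring
    have e5 : a * lr / 4 = (a * lr) / 4 := rfl
    linarith
  have h2 : 0 ≤ Real.exp (s * lz) * Real.exp (-(a * lr / 4)) := by positivity
  calc 6 * (C₀ * Real.exp (-(2 * a * lp)))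
      ≤ 6 * (C₀ * (Real.exp (s * lz) * Real.exp (-(a * lr / 4)) * D ^ 2)) := by
        gcongr
    _ = (6 * C₀ * D ^ 2) * (Real.exp (s * lz) * Real.exp (-(a * lr / 4))) := by
        ring
    _ ≤ C * (Real.exp (s * lz) * Real.exp (-(a * lr / 4))) :=
        mul_le_mul_of_nonneg_right hCC h2
    _ = _ := by ring

theorem sb_r_prod {N T z lz ll xl lr a s C : ℝ} (hz : 0 ≤ z) (hlr : 0 ≤ lr)
    (hlz : Real.exp lz = 1 + z) (hll : Real.exp ll = lr + 1) (hxl : xl = lz + ll + a * lr / 4)
    (hN : Real.exp xl ≤ N) (hC : 2 ≤ C) (hs : 1 ≤ Real.exp (s * lz))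
    (hT : T = C * Real.exp (s * lz) * Real.exp (-(a * lr / 4))) : z + lr ≤ N * (T / 2) := by
  have hTlow : Real.exp (-(a * lr / 4)) ≤ T / 2 := by
    rw [hT]
    have he : 0 < Real.exp (-(a * lr / 4)) := Real.exp_pos _
    have : 2 * 1 * Real.exp (-(a * lr / 4)) ≤ C * Real.exp (s * lz) * Real.exp (-(a * lr / 4)) := by
      gcongr
    linarith
  have h1 : Real.exp xl * Real.exp (-(a * lr / 4)) ≤ N * (T / 2) :=
    mul_le_mul hN hTlow (Real.exp_pos _).le ((Real.exp_pos _).le.trans hN)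
  have h2 : Real.exp xl * Real.exp (-(a * lr / 4)) = (1 + z) * (lr + 1) := by
    rw [hxl, Real.exp_add, Real.exp_add, hlz, hll, mul_assoc, ← Real.exp_add]
    simp
  rw [h2] at h1
  nlinarith

theorem sb_r_final {w z : ℝ} {n : ℕ} (h : z + (n : ℝ) ≤ w) :
    Real.exp (-w) ≤ Real.exp (-z) * (1 / 2) ^ n := by
  calc Real.exp (-w) ≤ Real.exp (-(z + (n : ℝ))) := by
        apply Real.exp_le_exp.2
        linarith
    _ = Real.exp (-z) * Real.exp (-1) ^ n := by
        rw [neg_add, Real.exp_add, ← Real.exp_nat_mul]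
        congr 2
        ring
    _ ≤ Real.exp (-z) * (1 / 2) ^ n := by
        have h1 : Real.exp (-1) ≤ 1 / 2 := by
          rw [Real.exp_neg, one_div]
          have h2 : (2 : ℝ) ≤ Real.exp 1 := by
            have := Real.add_one_le_exp (1 : ℝ)
            linarith
          exact inv_anti₀ (by norm_num) h2
        gcongr

theorem sb_ind_abs (A : Set (V → ℝ)) (Y : V → ℝ) : |A.indicator (1 : (V → ℝ) → ℝ) Y| ≤ 1 := by
  by_cases hY : Y ∈ A
  · rw [Set.indicator_of_mem hY]
    simp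
  · rw [Set.indicator_of_notMem hY]
    simp

/-- The case of a small threshold: the tail bound applies. -/
theorem sb_event_tail (hT : G.IsTree) (hd : 3 ≤ d) (hreg : G.IsRegularOfDegree d) (hβ : 0 ≤ β)
    (hr : ((d : ℝ) - 1) * Real.tanh β ^ 2 ≤ 1) (ht : 0 ≤ t) {C₀ a Tt : ℝ} (hC₀ : 1 ≤ C₀)
    (hTpos : 0 < Tt)
    (hmom : ∀ l m x' y', G.Adj x' y' →
      EP G β (brn G x' y' m) t 0 (fun Y => shellF G β Y l m x' y') ≤ C₀ * Real.exp (-(2 * a * l)))
    (hxy : G.Adj x y) (l' m' J : ℕ) (h6 : 6 * (C₀ * Real.exp (-(2 * a * l'))) ≤ Tt) :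
    EP G β (brn G x y (m' + J)) t 0
        (Set.indicator {Y | Tt < shellF G β Y (l' + J) (m' + J) x y} 1) ≤
      Real.exp (-(((d - 1) ^ J : ℕ) * (Tt / 2))) := by
  obtain ⟨μ, hμdef⟩ : ∃ μ : ℝ, μ = C₀ * Real.exp (-(2 * a * l')) := ⟨_, rfl⟩
  rw [← hμdef] at h6
  have hμ0 : 0 ≤ μ := by
    rw [hμdef]
    positivity
  have htail := shell_tail (G := G) (β := β) (t := t) (x := x) (y := y) (d := d) (l := l') (m := m') (J := J)
    (μ := μ) (w := Tt / 2) hT hd hreg hβ hr ht hμ0 (by positivity)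
    (fun x' y' h => by
      rw [hμdef]
      exact hmom l' m' x' y' h) hxy
  have hset : {Y | Tt < shellF G β Y (l' + J) (m' + J) x y} ⊆
      {Y | 3 * μ + Tt / 2 ≤ shellF G β Y (l' + J) (m' + J) x y} := by
    intro Y hY
    have hY' : Tt < shellF G β Y (l' + J) (m' + J) x y := hY
    show 3 * μ + Tt / 2 ≤ shellF G β Y (l' + J) (m' + J) x y
    linarith
  have hm1 : Measurable (Set.indicator {Y | Tt < shellF G β Y (l' + J) (m' + J) x y}
      (1 : (V → ℝ) → ℝ)) :=
    measurable_const.indicator (measurableSet_lt measurable_const (measurable_shellF _ _ _ _))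
  have hm2 : Measurable (Set.indicator {Y | 3 * μ + Tt / 2 ≤ shellF G β Y (l' + J) (m' + J) x y}
      (1 : (V → ℝ) → ℝ)) :=
    measurable_const.indicator (measurableSet_le measurable_const (measurable_shellF _ _ _ _))
  have hmono := EP_mono (G := G) (β := β) (S := brn G x y (m' + J)) (t := t) (y₀ := 0) (C := 1)
    hm1 hm2 (sb_ind_abs _) (sb_ind_abs _)
    (fun Y => Set.indicator_le_indicator_of_subset hset (fun _ => zero_le_one) Y)
  exact hmono.trans htail

/-- One level of the good event. -/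
theorem sb_event (hT : G.IsTree) (hd : 3 ≤ d) (hreg : G.IsRegularOfDegree d) (hβ : 0 ≤ β)
    (hr : ((d : ℝ) - 1) * Real.tanh β ^ 2 ≤ 1) (ht : 0 ≤ t) {a C₀ z : ℝ} (ha : 0 < a)
    (hsig : sig d a ≤ 1) (hC₀ : 1 ≤ C₀) (hz : 0 ≤ z)
    (hmom : ∀ l m x' y', G.Adj x' y' →
      EP G β (brn G x' y' m) t 0 (fun Y => shellF G β Y l m x' y') ≤ C₀ * Real.exp (-(2 * a * l)))
    (hxy : G.Adj x y) (l m : ℕ) (hlm : l ≤ m) :
    EP G β (brn G x y m) t 0
        (Set.indicator {Y | C2 d C₀ * (1 + z) ^ sig d a * Real.exp (-(a * l / 4)) <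
          shellF G β Y l m x y} 1) ≤ Real.exp (-z) * (1 / 2) ^ l := by
  have hd3 : (3 : ℝ) ≤ d := by exact_mod_cast hd
  obtain ⟨hC2, hCD, hCC⟩ := sb_C2_ge hd hC₀
  obtain ⟨D, hDdef⟩ : ∃ D : ℝ, D = (d : ℝ) - 1 := ⟨_, rfl⟩
  rw [← hDdef] at hCD hCC
  have hD2 : 2 ≤ D := by linarith
  have hD0 : 0 < D := by linarith
  obtain ⟨L, hLdef⟩ : ∃ L : ℝ, L = Real.log D := ⟨_, rfl⟩
  have hlog2 : 0 < Real.log 2 := Real.log_pos (by norm_num)
  have hL2 : Real.log 2 ≤ L := by
    rw [hLdef]
    exact Real.log_le_log (by norm_num) hD2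
  have hL : 0 < L := by linarith
  have hexpL : Real.exp L = D := by rw [hLdef, Real.exp_log hD0]
  obtain ⟨s, hsdef⟩ : ∃ s : ℝ, s = sig d a := ⟨_, rfl⟩
  rw [← hsdef] at hsig ⊢
  have hsL : s * L = 2 * a := by
    rw [hsdef, sig, ← hDdef, ← hLdef]
    field_simp
  have hs0 : 0 < s := by
    rw [hsdef, sig, ← hDdef, ← hLdef]
    positivity
  have ha2 : 2 * a ≤ L := by
    rw [← hsL]
    calc s * L ≤ 1 * L := mul_le_mul_of_nonneg_right hsig hL.le
      _ = L := one_mul _
  have hz1 : 0 < 1 + z := by linarith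
  have hP : (1 + z) ^ s = Real.exp (s * Real.log (1 + z)) := by
    rw [Real.rpow_def_of_pos hz1, mul_comm]
  obtain ⟨lz, hlzdef⟩ : ∃ lz : ℝ, lz = Real.log (1 + z) := ⟨_, rfl⟩
  have hlz0 : 0 ≤ lz := by
    rw [hlzdef]
    exact Real.log_nonneg (by linarith)
  have hlzexp : Real.exp lz = 1 + z := by rw [hlzdef, Real.exp_log hz1]
  rw [hP, ← hlzdef]
  have hl0 : (0 : ℝ) ≤ l := Nat.cast_nonneg _
  have hl1 : (0 : ℝ) < (l : ℝ) + 1 := by positivity
  obtain ⟨ll, hlldef⟩ : ∃ ll : ℝ, ll = Real.log ((l : ℝ) + 1) := ⟨_, rfl⟩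
  have hll0 : 0 ≤ ll := by
    rw [hlldef]
    exact Real.log_nonneg (by linarith)
  have hllexp : Real.exp ll = (l : ℝ) + 1 := by rw [hlldef, Real.exp_log hl1]
  have hll : ll ≤ L * (3 * l + 1) / 4 := by
    rw [hlldef]
    exact sb_log_succ l hL2
  have hal : 0 ≤ a * l := by positivity
  obtain ⟨xl, hxldef⟩ : ∃ xl : ℝ, xl = lz + ll + a * l / 4 := ⟨_, rfl⟩
  have hxl0 : 0 ≤ xl := by
    rw [hxldef]
    positivity
  obtain ⟨J, hJ1, hJ2⟩ := sb_r_J hxl0 hL
  have hsx := sb_r_sx hs0 hsig hsL ha hl0 hll hxldef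
  have hsexp : 1 ≤ Real.exp (s * lz) := Real.one_le_exp (mul_nonneg hs0.le hlz0)
  obtain ⟨Tt, hTt⟩ : ∃ Tt : ℝ, Tt = C2 d C₀ * Real.exp (s * lz) * Real.exp (-(a * l / 4)) := ⟨_, rfl⟩
  rw [← hTt]
  have hC0 : 0 < C2 d C₀ := by linarith
  have hTpos : 0 < Tt := by
    rw [hTt]
    positivity
  by_cases hJl : l < J
  · have hlJ : (l : ℝ) + 1 ≤ J := by exact_mod_cast hJl
    have hT1 : 1 ≤ Tt := by
      rw [hTt]
      exact sb_r_big hL hs0 hsL ha2 ha hexpL hD0 hCD hsx hlJ hJ2
    have hzero : Set.indicator {Y | Tt < shellF G β Y l m x y} (1 : (V → ℝ) → ℝ) =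
        fun _ => (0 : ℝ) := by
      funext Y
      apply Set.indicator_of_notMem
      simp only [Set.mem_ofPred_eq, not_lt]
      exact (shellF_le_one hT hreg hβ hr hxy l m Y).trans hT1
    rw [hzero, EP_const]
    positivity
  · have hJl' : J ≤ l := by omega
    obtain ⟨l', hl'⟩ : ∃ l', l = l' + J := ⟨l - J, by omega⟩
    obtain ⟨m', hm'⟩ : ∃ m', m = m' + J := ⟨m - J, by omega⟩
    have hcast : (l : ℝ) = (l' : ℝ) + J := by
      rw [hl']
      push_cast
      ring
    have h6 : 6 * (C₀ * Real.exp (-(2 * a * l'))) ≤ Tt := by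
      rw [hTt]
      exact sb_r_small hs0 hsL ha2 ha hexpL hC₀ hCC hsx hcast hJ2
    have hN : (((d - 1) ^ J : ℕ) : ℝ) = Real.exp (J * L) := by
      rw [Real.exp_nat_mul, hexpL, hDdef]
      push_cast [Nat.cast_sub (show 1 ≤ d by omega)]
      ring_nf
    have hNge : Real.exp xl ≤ (((d - 1) ^ J : ℕ) : ℝ) := by
      rw [hN]
      exact Real.exp_le_exp.2 hJ1
    have hprod := sb_r_prod hz hl0 hlzexp hllexp hxldef hNge hC2 hsexp hTt
    have hfin := sb_r_final hprod
    have htail := sb_event_tail (G := G) (β := β) (t := t) hT hd hreg hβ hr ht hC₀ hTpos hmom hxy l' m' J h6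
    rw [← hl', ← hm'] at htail
    exact htail.trans hfin

theorem shell_good (hT : G.IsTree) (hd : 3 ≤ d) (hreg : G.IsRegularOfDegree d) (hβ : 0 ≤ β)
    (hr : ((d : ℝ) - 1) * Real.tanh β ^ 2 ≤ 1) (ht : 0 ≤ t) {a C₀ z : ℝ} (ha : 0 < a)
    (hsig : sig d a ≤ 1) (hC₀ : 1 ≤ C₀) (hz : 0 ≤ z)
    (hmom : ∀ l m x' y', G.Adj x' y' →
      EP G β (brn G x' y' m) t 0 (fun Y => shellF G β Y l m x' y') ≤ C₀ * Real.exp (-(2 * a * l)))
    (hxy : G.Adj x y) (m : ℕ) :
    EP G β (brn G x y m) t 0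
        (Set.indicator {Y | ∃ l : ℕ, C2 d C₀ * (1 + z) ^ sig d a * Real.exp (-(a * l / 4)) <
          shellF G β Y l m x y} 1) ≤ 2 * Real.exp (-z) := by
  obtain ⟨hC2, -, -⟩ := sb_C2_ge hd hC₀
  have hz1 : 0 < 1 + z := by linarith
  have hPpos : 0 < (1 + z) ^ sig d a := Real.rpow_pos_of_pos hz1 _
  have hTpos : ∀ l : ℕ, 0 < C2 d C₀ * (1 + z) ^ sig d a * Real.exp (-(a * l / 4)) := fun l => by
    have : 0 < C2 d C₀ := by linarith
    positivity
  set F : ℕ → (V → ℝ) → ℝ := fun l => Set.indicator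
    {Y | C2 d C₀ * (1 + z) ^ sig d a * Real.exp (-(a * l / 4)) < shellF G β Y l m x y} 1 with hF
  have hFm : ∀ l, Measurable (F l) := fun l =>
    measurable_const.indicator (measurableSet_lt measurable_const (measurable_shellF _ _ _ _))
  have hind_abs : ∀ (A : Set (V → ℝ)) (Y : V → ℝ), |A.indicator (1 : (V → ℝ) → ℝ) Y| ≤ 1 := by
    intro A Y
    by_cases hY : Y ∈ A
    · rw [Set.indicator_of_mem hY]
      simp
    · rw [Set.indicator_of_notMem hY]
      simp
  have hF0 : ∀ l Y, 0 ≤ F l Y := fun l Y => by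
    simp only [hF]
    exact Set.indicator_nonneg (fun _ _ => zero_le_one) _
  have hFb : ∀ l Y, |F l Y| ≤ 1 := fun l Y => hind_abs _ Y
  have hmU : Measurable (Set.indicator {Y | ∃ l : ℕ, C2 d C₀ * (1 + z) ^ sig d a *
      Real.exp (-(a * l / 4)) < shellF G β Y l m x y} (1 : (V → ℝ) → ℝ)) := by
    refine measurable_const.indicator ?_
    have e : {Y | ∃ l : ℕ, C2 d C₀ * (1 + z) ^ sig d a * Real.exp (-(a * l / 4)) <
        shellF G β Y l m x y} = ⋃ l : ℕ, {Y | C2 d C₀ * (1 + z) ^ sig d a * Real.exp (-(a * l / 4)) <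
        shellF G β Y l m x y} := by
      ext Y
      simp
    rw [e]
    exact MeasurableSet.iUnion fun l => measurableSet_lt measurable_const (measurable_shellF _ _ _ _)
  have hsum_m : Measurable (fun Y => ∑ l ∈ range (m + 1), F l Y) :=
    Finset.measurable_sum _ fun l _ => hFm l
  have hsum_b : ∀ Y, |∑ l ∈ range (m + 1), F l Y| ≤ (m : ℝ) + 1 := by
    intro Y
    calc |∑ l ∈ range (m + 1), F l Y| ≤ ∑ l ∈ range (m + 1), |F l Y| := Finset.abs_sum_le_sum_abs _ _
      _ ≤ ∑ _l ∈ range (m + 1), (1 : ℝ) := Finset.sum_le_sum fun l _ => hFb l Y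
      _ = (m : ℝ) + 1 := by simp
  have hle : ∀ Y, Set.indicator {Y | ∃ l : ℕ, C2 d C₀ * (1 + z) ^ sig d a *
      Real.exp (-(a * l / 4)) < shellF G β Y l m x y} (1 : (V → ℝ) → ℝ) Y ≤
      ∑ l ∈ range (m + 1), F l Y := by
    intro Y
    by_cases hY : Y ∈ {Y | ∃ l : ℕ, C2 d C₀ * (1 + z) ^ sig d a *
      Real.exp (-(a * l / 4)) < shellF G β Y l m x y}
    · rw [Set.indicator_of_mem hY]
      obtain ⟨l, hl⟩ := hY
      have hlm : l ≤ m := by
        by_contra hlm
        have h0 : shellF G β Y l m x y = 0 := sb_shellF_zero (by omega) x y Y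
        rw [h0] at hl
        linarith [hTpos l]
      have hmem : l ∈ range (m + 1) := Finset.mem_range.2 (by omega)
      have h1 : F l Y = 1 := by
        simp only [hF]
        rw [Set.indicator_of_mem (show Y ∈ _ from hl)]
        simp
      calc (1 : (V → ℝ) → ℝ) Y = F l Y := by rw [h1]; simp
        _ ≤ ∑ l ∈ range (m + 1), F l Y :=
            Finset.single_le_sum (f := fun l => F l Y) (fun i _ => hF0 i Y) hmem
    · rw [Set.indicator_of_notMem hY]
      exact Finset.sum_nonneg fun l _ => hF0 l Y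
  have hm1 : (1 : ℝ) ≤ (m : ℝ) + 1 := by
    have : (0 : ℝ) ≤ m := Nat.cast_nonneg _
    linarith
  have h1 := EP_mono (G := G) (β := β) (S := brn G x y m) (t := t) (y₀ := 0) (C := (m : ℝ) + 1)
    hmU hsum_m (fun Y => (hind_abs _ Y).trans hm1) hsum_b hle
  refine h1.trans ?_
  rw [sa_EP_sum (range (m + 1)) F hFm (fun _ => 1) hFb]
  calc ∑ l ∈ range (m + 1), EP G β (brn G x y m) t 0 (F l)
      ≤ ∑ l ∈ range (m + 1), Real.exp (-z) * (1 / 2) ^ l := by
        refine Finset.sum_le_sum fun l hl => ?_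
        exact sb_event hT hd hreg hβ hr ht ha hsig hC₀ hz hmom hxy l m
          (by have := Finset.mem_range.1 hl; omega)
    _ = Real.exp (-z) * ∑ l ∈ range (m + 1), (1 / 2 : ℝ) ^ l := by rw [Finset.mul_sum]
    _ ≤ Real.exp (-z) * 2 := by
        refine mul_le_mul_of_nonneg_left ?_ (Real.exp_pos _).le
        exact sum_geometric_two_le _
    _ = 2 * Real.exp (-z) := by ring

end Vale.Agent.Lib.P161E
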