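import Vale.Agent.Lib.P161E.TreeGeo
import Vale.Agent.Lib.P161E.Real

/-! Job C1: splitting of the Gibbs measure along a cut edge. -/

open MeasureTheory Finset
open scoped Classical ENNReal

noncomputable section

namespace Vale.Agent.Lib.P161E

open Vale.Agent.Lib.P161

variable {V : Type*} {G : SimpleGraph V} {β : ℝ} {S₁ S₂ : Finset V} {a b : V}

private lemma splitA_sp_compl {S A : Finset V} {v : V} (hv : v ∈ S) : sp (S \ A) v = - sp A v := by
  unfold sp
  by_cases h : v ∈ A <;> simp [h, hv]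

private lemma splitA_pairSum_compl (S A : Finset V) : pairSum G S (S \ A) = pairSum G S A := by
  unfold pairSum
  refine Finset.sum_congr rfl fun u hu => Finset.sum_congr rfl fun v hv => ?_
  rw [splitA_sp_compl hu, splitA_sp_compl hv]
  ring

private lemma splitA_tilt_compl (S A : Finset V) (y : V → ℝ) : tilt S (S \ A) (-y) = tilt S A y := by
  unfold tilt
  refine Finset.sum_congr rfl fun v hv => ?_
  rw [splitA_sp_compl hv, Pi.neg_apply]
  ring

private lemma splitA_wt_compl (S A : Finset V) (y : V → ℝ) :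
    wt G β S (-y) (S \ A) = wt G β S y A := by
  unfold wt baseW
  rw [splitA_pairSum_compl, splitA_tilt_compl]

/-- Reindexing the powerset by complements. -/
private lemma splitA_sum_compl (S : Finset V) (F : Finset V → ℝ) :
    ∑ A ∈ S.powerset, F (S \ A) = ∑ A ∈ S.powerset, F A := by
  refine Finset.sum_nbij' (fun A => S \ A) (fun A => S \ A) ?_ ?_ ?_ ?_ ?_
  · intro A _
    exact Finset.mem_powerset.2 Finset.sdiff_subset
  · intro A _
    exact Finset.mem_powerset.2 Finset.sdiff_subset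
  · intro A hA
    exact Finset.sdiff_sdiff_eq_self (Finset.mem_powerset.1 hA)
  · intro A hA
    exact Finset.sdiff_sdiff_eq_self (Finset.mem_powerset.1 hA)
  · intro A _
    rfl

private lemma splitA_Zf_neg (S : Finset V) (y : V → ℝ) : Zf G β S (-y) = Zf G β S y := by
  unfold Zf
  rw [← splitA_sum_compl S (fun A => wt G β S (-y) A)]
  exact Finset.sum_congr rfl fun A _ => splitA_wt_compl S A y

theorem mu_compl (S : Finset V) (y : V → ℝ) {A : Finset V} (hA : A ⊆ S) :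
    mu G β S (-y) (S \ A) = mu G β S y A := by
  unfold mu
  rw [splitA_Zf_neg, splitA_wt_compl]

/-- Mean at zero tilt vanishes, flip symmetry. (Needs `x ∈ S`: off `S` every spin is `-1`.) -/
theorem mean_neg (S : Finset V) (y : V → ℝ) {x : V} (hx : x ∈ S) :
    mean G β S (-y) x = -mean G β S y x := by
  unfold mean Ee
  rw [← splitA_sum_compl S (fun A => mu G β S (-y) A * sp A x), ← Finset.sum_neg_distrib]
  refine Finset.sum_congr rfl fun A hA => ?_
  rw [mu_compl S y (Finset.mem_powerset.1 hA), splitA_sp_compl hx]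
  ring

theorem mean_zero (S : Finset V) {x : V} (hx : x ∈ S) : mean G β S 0 x = 0 := by
  have h := mean_neg (G := G) (β := β) S (0 : V → ℝ) hx
  rw [neg_zero] at h
  linarith

private lemma splitA_sum_powerset (h : Disjoint S₁ S₂) (F : Finset V → ℝ) :
    ∑ A ∈ (S₁ ∪ S₂).powerset, F A = ∑ A₁ ∈ S₁.powerset, ∑ A₂ ∈ S₂.powerset, F (A₁ ∪ A₂) := by
  rw [← Finset.sum_product']
  refine Finset.sum_nbij' (fun A => (A ∩ S₁, A ∩ S₂)) (fun p => p.1 ∪ p.2) ?_ ?_ ?_ ?_ ?_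
  · intro A _
    simp only [Finset.mem_product, Finset.mem_powerset]
    exact ⟨Finset.inter_subset_right, Finset.inter_subset_right⟩
  · rintro ⟨A₁, A₂⟩ hp
    simp only [Finset.mem_product, Finset.mem_powerset] at hp ⊢
    exact Finset.union_subset_union hp.1 hp.2
  · intro A hA
    simp only
    rw [← Finset.inter_union_distrib_left]
    exact Finset.inter_eq_left.2 (Finset.mem_powerset.1 hA)
  · rintro ⟨A₁, A₂⟩ hp
    simp only [Finset.mem_product, Finset.mem_powerset] at hp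
    have h₁ : (A₁ ∪ A₂) ∩ S₁ = A₁ := by
      rw [Finset.union_inter_distrib_right, Finset.inter_eq_left.2 hp.1]
      have : A₂ ∩ S₁ = ∅ := by
        apply Finset.disjoint_iff_inter_eq_empty.1
        exact (Finset.disjoint_of_subset_right hp.2 h).symm
      rw [this, Finset.union_empty]
    have h₂ : (A₁ ∪ A₂) ∩ S₂ = A₂ := by
      rw [Finset.union_inter_distrib_right, Finset.inter_eq_left.2 hp.2]
      have : A₁ ∩ S₂ = ∅ := by
        apply Finset.disjoint_iff_inter_eq_empty.1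
        exact Finset.disjoint_of_subset_left hp.1 h
      rw [this, Finset.empty_union]
    simp only [h₁, h₂]
  · intro A hA
    simp only
    rw [← Finset.inter_union_distrib_left, Finset.inter_eq_left.2 (Finset.mem_powerset.1 hA)]

private lemma splitA_inter_left (h : Disjoint S₁ S₂) {A₁ A₂ : Finset V} (h₁ : A₁ ⊆ S₁)
    (h₂ : A₂ ⊆ S₂) : (A₁ ∪ A₂) ∩ S₁ = A₁ := by
  rw [Finset.union_inter_distrib_right, Finset.inter_eq_left.2 h₁]
  have : A₂ ∩ S₁ = ∅ := by
    apply Finset.disjoint_iff_inter_eq_empty.1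
    exact (Finset.disjoint_of_subset_right h₂ h).symm
  rw [this, Finset.union_empty]

private lemma splitA_inter_right (h : Disjoint S₁ S₂) {A₁ A₂ : Finset V} (h₁ : A₁ ⊆ S₁)
    (h₂ : A₂ ⊆ S₂) : (A₁ ∪ A₂) ∩ S₂ = A₂ := by
  rw [Finset.union_inter_distrib_right, Finset.inter_eq_left.2 h₂]
  have : A₁ ∩ S₂ = ∅ := by
    apply Finset.disjoint_iff_inter_eq_empty.1
    exact Finset.disjoint_of_subset_left h₁ h
  rw [this, Finset.empty_union]

private lemma splitA_sp_left (h : Disjoint S₁ S₂) {A₁ A₂ : Finset V} (h₂ : A₂ ⊆ S₂) {u : V}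
    (hu : u ∈ S₁) : sp (A₁ ∪ A₂) u = sp A₁ u := by
  have hn : u ∉ A₂ := fun hc => (Finset.disjoint_left.1 h hu) (h₂ hc)
  unfold sp
  simp [hn]

private lemma splitA_sp_right (h : Disjoint S₁ S₂) {A₁ A₂ : Finset V} (h₁ : A₁ ⊆ S₁) {u : V}
    (hu : u ∈ S₂) : sp (A₁ ∪ A₂) u = sp A₂ u := by
  have hn : u ∉ A₁ := fun hc => (Finset.disjoint_right.1 h hu) (h₁ hc)
  unfold sp
  simp [hn]

private lemma splitA_pairSum (h : Cut G S₁ S₂ a b) {A₁ A₂ : Finset V} (h₁ : A₁ ⊆ S₁)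
    (h₂ : A₂ ⊆ S₂) :
    pairSum G (S₁ ∪ S₂) (A₁ ∪ A₂) =
      pairSum G S₁ A₁ + pairSum G S₂ A₂ + 2 * (sp A₁ a * sp A₂ b) := by
  classical
  have hd := h.disj
  have hc₁ : ∑ u ∈ S₁, ∑ v ∈ S₂, (if G.Adj u v then sp A₁ u * sp A₂ v else 0) =
      sp A₁ a * sp A₂ b := by
    rw [Finset.sum_eq_single a]
    · rw [Finset.sum_eq_single b]
      · rw [if_pos h.adj]
      · intro v hv hvb
        rw [if_neg]
        intro hadj
        exact hvb (h.cut a h.ha v hv hadj).2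
      · intro hb
        exact absurd h.hb hb
    · intro u hu hua
      refine Finset.sum_eq_zero fun v hv => ?_
      rw [if_neg]
      intro hadj
      exact hua (h.cut u hu v hv hadj).1
    · intro ha
      exact absurd h.ha ha
  have hc₂ : ∑ u ∈ S₂, ∑ v ∈ S₁, (if G.Adj u v then sp A₂ u * sp A₁ v else 0) =
      sp A₁ a * sp A₂ b := by
    rw [Finset.sum_comm, ← hc₁]
    refine Finset.sum_congr rfl fun u _ => Finset.sum_congr rfl fun v _ => ?_
    simp only [G.adj_comm v u, mul_comm]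
  unfold pairSum
  rw [Finset.sum_union hd]
  have e₁ : ∑ u ∈ S₁, ∑ v ∈ S₁ ∪ S₂, (if G.Adj u v then sp (A₁ ∪ A₂) u * sp (A₁ ∪ A₂) v else 0) =
      ∑ u ∈ S₁, ∑ v ∈ S₁, (if G.Adj u v then sp A₁ u * sp A₁ v else 0) +
        ∑ u ∈ S₁, ∑ v ∈ S₂, (if G.Adj u v then sp A₁ u * sp A₂ v else 0) := by
    rw [← Finset.sum_add_distrib]
    refine Finset.sum_congr rfl fun u hu => ?_
    rw [Finset.sum_union hd]
    congr 1
    · refine Finset.sum_congr rfl fun v hv => ?_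
      rw [splitA_sp_left hd h₂ hu, splitA_sp_left hd h₂ hv]
    · refine Finset.sum_congr rfl fun v hv => ?_
      rw [splitA_sp_left hd h₂ hu, splitA_sp_right hd h₁ hv]
  have e₂ : ∑ u ∈ S₂, ∑ v ∈ S₁ ∪ S₂, (if G.Adj u v then sp (A₁ ∪ A₂) u * sp (A₁ ∪ A₂) v else 0) =
      ∑ u ∈ S₂, ∑ v ∈ S₁, (if G.Adj u v then sp A₂ u * sp A₁ v else 0) +
        ∑ u ∈ S₂, ∑ v ∈ S₂, (if G.Adj u v then sp A₂ u * sp A₂ v else 0) := by
    rw [← Finset.sum_add_distrib]
    refine Finset.sum_congr rfl fun u hu => ?_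
    rw [Finset.sum_union hd]
    congr 1
    · refine Finset.sum_congr rfl fun v hv => ?_
      rw [splitA_sp_right hd h₁ hu, splitA_sp_left hd h₂ hv]
    · refine Finset.sum_congr rfl fun v hv => ?_
      rw [splitA_sp_right hd h₁ hu, splitA_sp_right hd h₁ hv]
  rw [e₁, e₂, hc₁, hc₂]
  ring

private lemma splitA_tilt (h : Disjoint S₁ S₂) {A₁ A₂ : Finset V} (h₁ : A₁ ⊆ S₁) (h₂ : A₂ ⊆ S₂)
    (y : V → ℝ) : tilt (S₁ ∪ S₂) (A₁ ∪ A₂) y = tilt S₁ A₁ y + tilt S₂ A₂ y := by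
  unfold tilt
  rw [Finset.sum_union h]
  congr 1
  · refine Finset.sum_congr rfl fun v hv => ?_
    rw [splitA_sp_left h h₂ hv]
  · refine Finset.sum_congr rfl fun v hv => ?_
    rw [splitA_sp_right h h₁ hv]

private lemma splitA_exp_sp (β s : ℝ) (hs : s = 1 ∨ s = -1) :
    Real.exp (β * s) = Real.cosh β * (1 + Real.tanh β * s) := by
  have hc : Real.cosh β ≠ 0 := (Real.cosh_pos β).ne'
  have ht : Real.tanh β * Real.cosh β = Real.sinh β := by
    rw [Real.tanh_eq_sinh_div_cosh]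
    field_simp
  rcases hs with rfl | rfl
  · rw [mul_one, mul_one, ← Real.cosh_add_sinh, ← ht]
    ring
  · have e : β * (-1) = -β := by ring
    rw [e, ← Real.cosh_sub_sinh, ← ht]
    ring

private lemma splitA_sp_mul (A B : Finset V) (u v : V) :
    sp A u * sp B v = 1 ∨ sp A u * sp B v = -1 := by
  rcases sp_eq_or A u with h | h <;> rcases sp_eq_or B v with h' | h' <;> rw [h, h'] <;> norm_num

/-- The split formula for the weights. -/
private lemma splitA_wt (h : Cut G S₁ S₂ a b) (y : V → ℝ) {A₁ A₂ : Finset V} (h₁ : A₁ ⊆ S₁)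
    (h₂ : A₂ ⊆ S₂) :
    wt G β (S₁ ∪ S₂) y (A₁ ∪ A₂) =
      Real.cosh β * (wt G β S₁ y A₁ * wt G β S₂ y A₂ * (1 + Real.tanh β * (sp A₁ a * sp A₂ b))) := by
  unfold wt baseW
  rw [splitA_pairSum h h₁ h₂, splitA_tilt h.disj h₁ h₂]
  have e₁ : Real.exp (β / 2 * (pairSum G S₁ A₁ + pairSum G S₂ A₂ + 2 * (sp A₁ a * sp A₂ b))) =
      Real.exp (β / 2 * pairSum G S₁ A₁) * Real.exp (β / 2 * pairSum G S₂ A₂) *
        Real.exp (β * (sp A₁ a * sp A₂ b)) := by
    rw [← Real.exp_add, ← Real.exp_add]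
    congr 1
    ring
  rw [e₁, splitA_exp_sp β _ (splitA_sp_mul A₁ A₂ a b), Real.exp_add]
  ring

/-- The general product formula. -/
private lemma splitA_sum_wt (h : Cut G S₁ S₂ a b) (y : V → ℝ) (g₁ g₂ : Finset V → ℝ) :
    ∑ A ∈ (S₁ ∪ S₂).powerset, wt G β (S₁ ∪ S₂) y A * (g₁ (A ∩ S₁) * g₂ (A ∩ S₂)) =
      Real.cosh β * ((∑ A ∈ S₁.powerset, wt G β S₁ y A * g₁ A) *
          (∑ A ∈ S₂.powerset, wt G β S₂ y A * g₂ A) +
        Real.tanh β * (∑ A ∈ S₁.powerset, wt G β S₁ y A * (g₁ A * sp A a)) *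
          (∑ A ∈ S₂.powerset, wt G β S₂ y A * (g₂ A * sp A b))) := by
  have A : (∑ A ∈ S₁.powerset, wt G β S₁ y A * g₁ A) * (∑ A ∈ S₂.powerset, wt G β S₂ y A * g₂ A) =
      ∑ A₁ ∈ S₁.powerset, ∑ A₂ ∈ S₂.powerset, (wt G β S₁ y A₁ * g₁ A₁) * (wt G β S₂ y A₂ * g₂ A₂) :=
    Finset.sum_mul_sum _ _ _ _
  have B : Real.tanh β * (∑ A ∈ S₁.powerset, wt G β S₁ y A * (g₁ A * sp A a)) *
        (∑ A ∈ S₂.powerset, wt G β S₂ y A * (g₂ A * sp A b)) =
      ∑ A₁ ∈ S₁.powerset, ∑ A₂ ∈ S₂.powerset, Real.tanh β *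
        ((wt G β S₁ y A₁ * (g₁ A₁ * sp A₁ a)) * (wt G β S₂ y A₂ * (g₂ A₂ * sp A₂ b))) := by
    rw [mul_assoc, Finset.sum_mul_sum, Finset.mul_sum]
    exact Finset.sum_congr rfl fun A₁ _ => Finset.mul_sum _ _ _
  rw [splitA_sum_powerset h.disj, A, B, ← Finset.sum_add_distrib, Finset.mul_sum]
  refine Finset.sum_congr rfl fun A₁ hA₁ => ?_
  rw [← Finset.sum_add_distrib, Finset.mul_sum]
  refine Finset.sum_congr rfl fun A₂ hA₂ => ?_
  have h₁ := Finset.mem_powerset.1 hA₁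
  have h₂ := Finset.mem_powerset.1 hA₂
  rw [splitA_inter_left h.disj h₁ h₂, splitA_inter_right h.disj h₁ h₂, splitA_wt h y h₁ h₂]
  ring

/-- The denominator `D`. -/
private lemma splitA_Zf (h : Cut G S₁ S₂ a b) (y : V → ℝ) :
    Zf G β (S₁ ∪ S₂) y = Real.cosh β * (Zf G β S₁ y * Zf G β S₂ y) *
      (1 + Real.tanh β * mean G β S₁ y a * mean G β S₂ y b) := by
  have h1 := splitA_sum_wt (β := β) h y (fun _ => 1) (fun _ => 1)
  simp only [one_mul, mul_one] at h1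
  unfold Zf
  rw [h1]
  unfold mean
  rw [Ee_eq, Ee_eq]
  have hZ₁ : (∑ A ∈ S₁.powerset, wt G β S₁ y A) ≠ 0 := (Zf_pos G β S₁ y).ne'
  have hZ₂ : (∑ A ∈ S₂.powerset, wt G β S₂ y A) ≠ 0 := (Zf_pos G β S₂ y).ne'
  unfold Zf
  field_simp

private lemma splitA_D_pos (h : Cut G S₁ S₂ a b) (y : V → ℝ) :
    0 < 1 + Real.tanh β * mean G β S₁ y a * mean G β S₂ y b := by
  have h1 := splitA_Zf (β := β) h y
  have h2 := Zf_pos G β (S₁ ∪ S₂) y
  have h3 : 0 < Real.cosh β * (Zf G β S₁ y * Zf G β S₂ y) :=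
    mul_pos (Real.cosh_pos β) (mul_pos (Zf_pos _ _ _ _) (Zf_pos _ _ _ _))
  rw [h1] at h2
  exact (pos_iff_pos_of_mul_pos h2).1 h3

/-- The split formula for the Gibbs weights. -/
theorem mu_split (h : Cut G S₁ S₂ a b) (y : V → ℝ) {A₁ A₂ : Finset V} (hA₁ : A₁ ⊆ S₁) (hA₂ : A₂ ⊆ S₂) :
    mu G β (S₁ ∪ S₂) y (A₁ ∪ A₂) *
        (1 + Real.tanh β * mean G β S₁ y a * mean G β S₂ y b) =
      mu G β S₁ y A₁ * mu G β S₂ y A₂ * (1 + Real.tanh β * sp A₁ a * sp A₂ b) := by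
  unfold mu
  rw [splitA_Zf h y, splitA_wt h y hA₁ hA₂]
  have hD := (splitA_D_pos (β := β) h y).ne'
  have hc := (Real.cosh_pos β).ne'
  have hZ₁ := (Zf_pos G β S₁ y).ne'
  have hZ₂ := (Zf_pos G β S₂ y).ne'
  field_simp

/-- The split formula for expectations of products. -/
theorem Ee_split (h : Cut G S₁ S₂ a b) (y : V → ℝ) (f₁ f₂ : Finset V → ℝ) :
    Ee G β (S₁ ∪ S₂) y (fun A => f₁ (A ∩ S₁) * f₂ (A ∩ S₂)) *
        (1 + Real.tanh β * mean G β S₁ y a * mean G β S₂ y b) =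
      Ee G β S₁ y (fun A => f₁ (A ∩ S₁)) * Ee G β S₂ y (fun A => f₂ (A ∩ S₂)) +
      Real.tanh β * Ee G β S₁ y (fun A => f₁ (A ∩ S₁) * sp A a) *
        Ee G β S₂ y (fun A => f₂ (A ∩ S₂) * sp A b) := by
  have hD := (splitA_D_pos (β := β) h y).ne'
  have hc := (Real.cosh_pos β).ne'
  have hZ₁ := (Zf_pos G β S₁ y).ne'
  have hZ₂ := (Zf_pos G β S₂ y).ne'
  have e₁ : ∀ (S : Finset V) (f : Finset V → ℝ) (g : Finset V → ℝ),
      (∀ A ∈ S.powerset, f A = g A) → Ee G β S y f = Ee G β S y g := by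
    intro S f g hfg
    unfold Ee
    exact Finset.sum_congr rfl fun A hA => by rw [hfg A hA]
  have h1 := splitA_sum_wt (β := β) h y f₁ f₂
  rw [Ee_eq, splitA_Zf h y, h1, Ee_eq, Ee_eq, Ee_eq, Ee_eq]
  have c₁ : ∑ A ∈ S₁.powerset, wt G β S₁ y A * f₁ (A ∩ S₁) =
      ∑ A ∈ S₁.powerset, wt G β S₁ y A * f₁ A := by
    refine Finset.sum_congr rfl fun A hA => ?_
    rw [Finset.inter_eq_left.2 (Finset.mem_powerset.1 hA)]
  have c₂ : ∑ A ∈ S₂.powerset, wt G β S₂ y A * f₂ (A ∩ S₂) =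
      ∑ A ∈ S₂.powerset, wt G β S₂ y A * f₂ A := by
    refine Finset.sum_congr rfl fun A hA => ?_
    rw [Finset.inter_eq_left.2 (Finset.mem_powerset.1 hA)]
  have c₃ : ∑ A ∈ S₁.powerset, wt G β S₁ y A * (f₁ (A ∩ S₁) * sp A a) =
      ∑ A ∈ S₁.powerset, wt G β S₁ y A * (f₁ A * sp A a) := by
    refine Finset.sum_congr rfl fun A hA => ?_
    rw [Finset.inter_eq_left.2 (Finset.mem_powerset.1 hA)]
  have c₄ : ∑ A ∈ S₂.powerset, wt G β S₂ y A * (f₂ (A ∩ S₂) * sp A b) =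
      ∑ A ∈ S₂.powerset, wt G β S₂ y A * (f₂ A * sp A b) := by
    refine Finset.sum_congr rfl fun A hA => ?_
    rw [Finset.inter_eq_left.2 (Finset.mem_powerset.1 hA)]
  rw [c₁, c₂, c₃, c₄]
  field_simp

private lemma splitA_inter_sp {S A : Finset V} {u : V} (hu : u ∈ S) : sp (A ∩ S) u = sp A u := by
  unfold sp
  simp [hu]

private lemma splitA_Ee_congr (S : Finset V) (y : V → ℝ) {f g : Finset V → ℝ}
    (hfg : ∀ A, f A = g A) : Ee G β S y f = Ee G β S y g := by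
  unfold Ee
  exact Finset.sum_congr rfl fun A _ => by rw [hfg A]

/-- One sided split: a function of the left part only. -/
private lemma splitA_left (h : Cut G S₁ S₂ a b) (y : V → ℝ) (f : Finset V → ℝ) :
    Ee G β (S₁ ∪ S₂) y (fun A => f (A ∩ S₁)) *
        (1 + Real.tanh β * mean G β S₁ y a * mean G β S₂ y b) =
      Ee G β S₁ y (fun A => f (A ∩ S₁)) +
      Real.tanh β * Ee G β S₁ y (fun A => f (A ∩ S₁) * sp A a) * mean G β S₂ y b := by
  have h1 := Ee_split (β := β) h y f (fun _ => 1)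
  simp only [mul_one, one_mul, Ee_const] at h1
  exact h1

private lemma splitA_right (h : Cut G S₁ S₂ a b) (y : V → ℝ) (f : Finset V → ℝ) :
    Ee G β (S₁ ∪ S₂) y (fun A => f (A ∩ S₂)) *
        (1 + Real.tanh β * mean G β S₁ y a * mean G β S₂ y b) =
      Ee G β S₂ y (fun A => f (A ∩ S₂)) +
      Real.tanh β * mean G β S₁ y a * Ee G β S₂ y (fun A => f (A ∩ S₂) * sp A b) := by
  have h1 := Ee_split (β := β) h y (fun _ => 1) f
  simp only [mul_one, one_mul, Ee_const] at h1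
  exact h1

theorem mean_split_left (h : Cut G S₁ S₂ a b) (y : V → ℝ) :
    mean G β (S₁ ∪ S₂) y a = bm (Real.tanh β) (mean G β S₁ y a) (mean G β S₂ y b) := by
  have hD := (splitA_D_pos (β := β) h y).ne'
  have h1 := splitA_left (β := β) h y (fun A => sp A a)
  have e₁ : Ee G β (S₁ ∪ S₂) y (fun A => sp (A ∩ S₁) a) = mean G β (S₁ ∪ S₂) y a :=
    splitA_Ee_congr _ _ fun A => splitA_inter_sp h.ha
  have e₂ : Ee G β S₁ y (fun A => sp (A ∩ S₁) a) = mean G β S₁ y a :=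
    splitA_Ee_congr _ _ fun A => splitA_inter_sp h.ha
  have e₃ : Ee G β S₁ y (fun A => sp (A ∩ S₁) a * sp A a) = 1 := by
    rw [splitA_Ee_congr S₁ y (g := fun _ => 1) fun A => by
      rw [splitA_inter_sp h.ha, sp_mul_self]]
    exact Ee_const _ _ _ _ _
  rw [e₁, e₂, e₃] at h1
  unfold bm
  rw [eq_div_iff (by
    have : 1 + Real.tanh β * mean G β S₁ y a * mean G β S₂ y b ≠ 0 := hD
    exact this)]
  linarith

theorem mean_split_right (h : Cut G S₁ S₂ a b) (y : V → ℝ) :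
    mean G β (S₁ ∪ S₂) y b = bm (Real.tanh β) (mean G β S₂ y b) (mean G β S₁ y a) := by
  have hD := (splitA_D_pos (β := β) h y).ne'
  have h1 := splitA_right (β := β) h y (fun A => sp A b)
  have e₁ : Ee G β (S₁ ∪ S₂) y (fun A => sp (A ∩ S₂) b) = mean G β (S₁ ∪ S₂) y b :=
    splitA_Ee_congr _ _ fun A => splitA_inter_sp h.hb
  have e₂ : Ee G β S₂ y (fun A => sp (A ∩ S₂) b) = mean G β S₂ y b :=
    splitA_Ee_congr _ _ fun A => splitA_inter_sp h.hb
  have e₃ : Ee G β S₂ y (fun A => sp (A ∩ S₂) b * sp A b) = 1 := by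
    rw [splitA_Ee_congr S₂ y (g := fun _ => 1) fun A => by
      rw [splitA_inter_sp h.hb, sp_mul_self]]
    exact Ee_const _ _ _ _ _
  rw [e₁, e₂, e₃] at h1
  unfold bm
  have hD' : 1 + Real.tanh β * mean G β S₂ y b * mean G β S₁ y a ≠ 0 := by
    have : 1 + Real.tanh β * mean G β S₂ y b * mean G β S₁ y a =
        1 + Real.tanh β * mean G β S₁ y a * mean G β S₂ y b := by ring
    rw [this]
    exact hD
  rw [eq_div_iff hD']
  have : 1 + Real.tanh β * mean G β S₂ y b * mean G β S₁ y a =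
      1 + Real.tanh β * mean G β S₁ y a * mean G β S₂ y b := by ring
  rw [this]
  linarith

/-- The covariance across the cut. -/
theorem cov_split (h : Cut G S₁ S₂ a b) (y : V → ℝ) {u v : V} (hu : u ∈ S₁) (hv : v ∈ S₂) :
    cov G β (S₁ ∪ S₂) y u v =
      Real.tanh β * cov G β S₁ y u a * cov G β S₂ y b v /
        (1 + Real.tanh β * mean G β S₁ y a * mean G β S₂ y b) ^ 2 := by
  have hD := (splitA_D_pos (β := β) h y).ne'
  set D := 1 + Real.tanh β * mean G β S₁ y a * mean G β S₂ y b with hDdef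
  have h1 := Ee_split (β := β) h y (fun A => sp A u) (fun A => sp A v)
  have h2 := splitA_left (β := β) h y (fun A => sp A u)
  have h3 := splitA_right (β := β) h y (fun A => sp A v)
  have e₁ : Ee G β (S₁ ∪ S₂) y (fun A => sp (A ∩ S₁) u * sp (A ∩ S₂) v) =
      Ee G β (S₁ ∪ S₂) y (fun A => sp A u * sp A v) :=
    splitA_Ee_congr _ _ fun A => by rw [splitA_inter_sp hu, splitA_inter_sp hv]
  have e₂ : ∀ (S : Finset V) (w : V) (hw : w ∈ S) (T : Finset V),
      Ee G β T y (fun A => sp (A ∩ S) w) = Ee G β T y (fun A => sp A w) := by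
    intro S w hw T
    exact splitA_Ee_congr _ _ fun A => splitA_inter_sp hw
  have e₃ : ∀ (S : Finset V) (w w' : V) (hw : w ∈ S) (T : Finset V),
      Ee G β T y (fun A => sp (A ∩ S) w * sp A w') = Ee G β T y (fun A => sp A w * sp A w') := by
    intro S w w' hw T
    exact splitA_Ee_congr _ _ fun A => by rw [splitA_inter_sp hw]
  rw [e₁, e₂ S₁ u hu, e₂ S₂ v hv, e₃ S₁ u a hu, e₃ S₂ v b hv] at h1
  rw [e₂ S₁ u hu, e₂ S₁ u hu, e₃ S₁ u a hu] at h2
  rw [e₂ S₂ v hv, e₂ S₂ v hv, e₃ S₂ v b hv] at h3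
  unfold cov
  unfold mean at *
  rw [eq_div_iff (pow_ne_zero 2 hD)]
  have hcomm : Ee G β S₂ y (fun A => sp A b * sp A v) = Ee G β S₂ y (fun A => sp A v * sp A b) :=
    splitA_Ee_congr _ _ fun A => mul_comm _ _
  rw [hcomm]
  set X := Ee G β (S₁ ∪ S₂) y (fun A => sp A u * sp A v)
  set Mu := Ee G β (S₁ ∪ S₂) y (fun A => sp A u)
  set Mv := Ee G β (S₁ ∪ S₂) y (fun A => sp A v)
  set p := Ee G β S₁ y (fun A => sp A u)
  set q := Ee G β S₂ y (fun A => sp A v)
  set P := Ee G β S₁ y (fun A => sp A u * sp A a)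
  set Q := Ee G β S₂ y (fun A => sp A v * sp A b)
  set m₁ := Ee G β S₁ y (fun A => sp A a)
  set m₂ := Ee G β S₂ y (fun A => sp A b)
  have hDe : D = 1 + Real.tanh β * m₁ * m₂ := rfl
  have h1' : X * D = p * q + Real.tanh β * P * Q := h1
  have h2' : Mu * D = p + Real.tanh β * P * m₂ := h2
  have h3' : Mv * D = q + Real.tanh β * m₁ * Q := h3
  have key : (X - Mu * Mv) * D ^ 2 = X * D * D - (Mu * D) * (Mv * D) := by ring
  rw [key, h1', h2', h3', hDe]
  ring

theorem cov_self (S : Finset V) (y : V → ℝ) (x : V) : cov G β S y x x = 1 - mean G β S y x ^ 2 := by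
  unfold cov
  rw [splitA_Ee_congr S y (g := fun _ => 1) fun A => sp_mul_self A x, Ee_const]
  ring

theorem cov_comm (S : Finset V) (y : V → ℝ) (u v : V) : cov G β S y u v = cov G β S y v u := by
  unfold cov
  rw [splitA_Ee_congr S y (g := fun A => sp A v * sp A u) fun A => mul_comm _ _]
  ring

end Vale.Agent.Lib.P161E
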