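import Vale.Agent.Lib.P161E.SplitA

/-! Job C2: the path formula for the covariance, shell sums of covariances. -/

open MeasureTheory Finset
open scoped Classical ENNReal

noncomputable section

namespace Vale.Agent.Lib.P161E

open Vale.Agent.Lib.P161

variable {V : Type*} {G : SimpleGraph V} {β : ℝ} {S₁ S₂ : Finset V} {a b : V}

/-- `1 + θ m₁ m₂` is positive. -/
private lemma splitB_den_pos (θ m₁ m₂ : ℝ) (hθ : |θ| < 1) (h₁ : |m₁| ≤ 1) (h₂ : |m₂| ≤ 1) :
    0 < 1 + θ * m₁ * m₂ := by
  have h : |θ * m₁ * m₂| < 1 := by
    rw [abs_mul, abs_mul]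
    calc |θ| * |m₁| * |m₂| ≤ |θ| * 1 * 1 := by gcongr
      _ = |θ| := by ring
      _ < 1 := hθ
  have := (abs_lt.1 h).1
  linarith

private lemma splitB_sq_pos (θ m : ℝ) (hθ : |θ| < 1) (h : |m| ≤ 1) : 0 < 1 - θ ^ 2 * m ^ 2 := by
  have h1 : θ ^ 2 < 1 := (sq_lt_one_iff_abs_lt_one θ).2 hθ
  have h2 : m ^ 2 ≤ 1 := (sq_le_one_iff_abs_le_one m).2 h
  nlinarith [sq_nonneg θ, sq_nonneg m]

/-- Distances across an edge on the far side. -/
private lemma splitB_far (hT : G.IsTree) {r p c c' w : V} (hcc : G.Adj c' c)
    (h₁ : G.dist r c' + 1 = G.dist r c) (h₂ : G.dist p c' + 1 = G.dist p c)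
    (h₃ : G.dist r c = G.dist p c + 1) (hw : G.dist c w < G.dist c' w) :
    G.dist p w < G.dist r w := by
  have hv : G.dist w c + 1 = G.dist w c' := by
    rw [SimpleGraph.dist_comm (u := w) (v := c), SimpleGraph.dist_comm (u := w) (v := c')]
    rcases dist_adj hT (o := w) hcc with h | h
    · rw [SimpleGraph.dist_comm (u := w) (v := c), SimpleGraph.dist_comm (u := w) (v := c')] at h
      omega
    · rw [SimpleGraph.dist_comm (u := w) (v := c), SimpleGraph.dist_comm (u := w) (v := c')] at h
      omega
  have e₁ := dist_add_across hT (o := r) (v := w) hcc h₁ hv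
  have e₂ := dist_add_across hT (o := p) (v := w) hcc h₂ hv
  omega

/-- The points of the geodesic lie in a star set. -/
private lemma splitB_geo_mem [G.LocallyFinite] (hT : G.IsTree) {S : Finset V} {r v : V}
    (hS : Star G r S) (hv : v ∈ S) : ∀ j, j ≤ G.dist r v → geo G r v (G.dist r v - j) ∈ S := by
  intro j
  induction j with
  | zero =>
    intro _
    simpa [geo_last hT r v] using hv
  | succ j ih =>
    intro hj
    have h1 := ih (by omega)
    have e : G.dist r v - j = G.dist r v - (j + 1) + 1 := by omega
    rw [e] at h1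
    have hlt : G.dist r v - (j + 1) < G.dist r v := by omega
    have hadj := geo_adj hT hlt
    have d₁ := (dist_geo hT (r := r) (v := v) (j := G.dist r v - (j + 1)) (by omega)).1
    have d₂ := (dist_geo hT (r := r) (v := v) (j := G.dist r v - (j + 1) + 1) (by omega)).1
    exact hS _ h1 _ hadj.symm (by omega)

/-- The path formula: for a subtree `S` containing `r` and `v`. With `β ≥ 0`. -/
theorem cov_path [G.LocallyFinite] (hT : G.IsTree) (hβ : 0 ≤ β) {S : Finset V} {r v : V} (hr : r ∈ S)
    (hS : Star G r S) (hv : v ∈ S) (y : V → ℝ) :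
    cov G β S y r v =
      Cf G (Real.tanh β) (mean G β S y) (fun x x' => xiS G β S x x' y) r v := by
  induction hn : G.dist r v generalizing r S with
  | zero =>
    have hrv : r = v := (hT.1.dist_eq_zero_iff).1 hn
    subst hrv
    rw [cov_self]
    unfold Cf pathG
    simp
  | succ n ih =>
    have hlt : 0 < G.dist r v := by omega
    have hg0 : geo G r v 0 = r := rfl
    have hadj : G.Adj r (geo G r v 1) := geo_adj hT (r := r) (v := v) (j := 0) hlt
    set p := geo G r v 1 with hp
    have hp1 : G.dist r p = 1 := (dist_geo hT (j := 1) (by omega)).1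
    have hp2 : G.dist p v = n := by
      have := (dist_geo hT (j := 1) (r := r) (v := v) (by omega)).2
      rw [← hp] at this
      omega
    have hpS : p ∈ S := by
      have h1 := splitB_geo_mem hT hS hv n (by omega)
      have e : G.dist r v - n = 1 := by omega
      rw [e] at h1
      exact h1
    have hcut : Cut G (side G S r p) (side G S p r) r p := side_cut hT hadj hr hpS
    have hun : side G S r p ∪ side G S p r = S := side_union hT hadj S
    have hvS₂ : v ∈ side G S p r := by
      rw [mem_side]
      exact ⟨hv, by rw [hp2]; omega⟩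
    -- star around `p`
    have hStar : Star G p (side G S p r) := by
      intro x hx q hqx hqd
      rw [mem_side] at hx ⊢
      have hrx : G.dist r x = G.dist p x + 1 := by
        rcases dist_adj hT (o := x) hadj with h | h
        · rw [SimpleGraph.dist_comm (u := x) (v := r), SimpleGraph.dist_comm (u := x) (v := p)] at h
          omega
        · rw [SimpleGraph.dist_comm (u := x) (v := r), SimpleGraph.dist_comm (u := x) (v := p)] at h
          omega
      have hrq : G.dist r q = G.dist p q + 1 := by
        have h1 := dist_le_succ_of_adj hT (o := r) hqx.symm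
        have h2 : G.dist r q ≤ G.dist p q + 1 := by
          have := hT.1.dist_triangle (u := r) (v := p) (w := q)
          omega
        omega
      refine ⟨hS x hx.1 q hqx (by omega), by omega⟩
    -- induction hypothesis
    have hIH := ih (S := side G S p r) (r := p) hcut.hb hStar hvS₂ hp2
    -- the cut formula
    have hcov := cov_split (β := β) hcut y hcut.ha hvS₂
    rw [hun, cov_self] at hcov
    rw [hcov, hIH]
    have hmean := mean_split_left (β := β) hcut y
    rw [hun] at hmean
    -- the path
    have hsplit := pathG_split hT (Real.tanh β) (fun x x' => xiS G β S x x' y) (r := r) (v := v)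
      (j := 0) hlt
    have hone : pathG G (Real.tanh β) (fun x x' => xiS G β S x x' y) r (geo G r v 0) = 1 := by
      rw [hg0]
      unfold pathG
      simp
    rw [hone, one_mul] at hsplit
    -- the cavity means agree on the far side
    have hpath : pathG G (Real.tanh β) (fun x x' => xiS G β (side G S p r) x x' y) p v =
        pathG G (Real.tanh β) (fun x x' => xiS G β S x x' y) p v := by
      unfold pathG
      refine Finset.prod_congr rfl fun j hj => ?_
      have hj' : j < G.dist p v := Finset.mem_range.1 hj
      have s₁ : geo G p v j = geo G r v (1 + j) := geo_suffix hT (by omega)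
      have s₂ : geo G p v (j + 1) = geo G r v (1 + (j + 1)) := geo_suffix hT (by omega)
      have hside : side G (side G S p r) (geo G p v (j + 1)) (geo G p v j) =
          side G S (geo G p v (j + 1)) (geo G p v j) := by
        ext w
        rw [mem_side, mem_side, mem_side]
        constructor
        · rintro ⟨⟨h1, _⟩, h3⟩
          exact ⟨h1, h3⟩
        · rintro ⟨h1, h3⟩
          refine ⟨⟨h1, ?_⟩, h3⟩
          have hadj' : G.Adj (geo G p v j) (geo G p v (j + 1)) := geo_adj hT hj'
          have d₁ := (dist_geo hT (r := r) (v := v) (j := 1 + j) (by omega)).1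
          have d₂ := (dist_geo hT (r := r) (v := v) (j := 1 + (j + 1)) (by omega)).1
          have d₃ := (dist_geo hT (r := p) (v := v) (j := j) (by omega)).1
          have d₄ := (dist_geo hT (r := p) (v := v) (j := j + 1) (by omega)).1
          rw [← s₁] at d₁
          rw [← s₂] at d₂
          exact splitB_far hT (r := r) (p := p) hadj' (by omega) (by omega) (by omega) h3
      simp only [xiS]
      rw [hside]
    unfold Cf
    rw [hpath, hsplit, hg0, ← hp, hmean]
    simp only [xiS]
    have hθ := Real.abs_tanh_lt_one β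
    set m₁ := mean G β (side G S r p) y r with hm₁
    set m₂ := mean G β (side G S p r) y p with hm₂
    have h₁ : |m₁| ≤ 1 := abs_mean_le _ _ _ _ _
    have h₂ : |m₂| ≤ 1 := abs_mean_le _ _ _ _ _
    have hD := splitB_den_pos (Real.tanh β) m₁ m₂ hθ h₁ h₂
    have hE := splitB_sq_pos (Real.tanh β) m₂ hθ h₂
    unfold bm gm
    set θ := Real.tanh β
    set P := pathG G θ (fun x x' => mean G β (side G S x x') y x) p v
    have hD' := hD.ne'
    have hE' := hE.ne'
    field_simp
    ring

/-- The branch inside a branch. -/
private lemma splitB_side_brn [G.LocallyFinite] (hT : G.IsTree) {x y c p : V} {m : ℕ}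
    (hxy : G.Adj x y) (hp : G.Adj c p) (hdist : G.dist x p + 1 = G.dist x c)
    (hc : c ∈ brn G x y m) : side G (brn G x y m) c p = brn G c p (m - G.dist x c) := by
  rw [mem_brn hT] at hc
  have hyx : G.dist y x = 1 := SimpleGraph.dist_eq_one_iff_adj.2 hxy.symm
  have hyc : G.dist y c = G.dist x c + 1 := by
    have h1 := hT.1.dist_triangle (u := y) (v := x) (w := c)
    omega
  have hyp : G.dist y p + 1 = G.dist y c := by
    have h1 := hT.1.dist_triangle (u := y) (v := x) (w := p)
    have h2 := dist_le_succ_of_adj hT (o := y) hp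
    rcases dist_adj hT (o := y) hp with h | h <;> omega
  ext w
  rw [mem_side, mem_brn hT, mem_brn hT]
  constructor
  · rintro ⟨⟨h1, _⟩, h3⟩
    have hv : G.dist w c + 1 = G.dist w p := by
      rw [SimpleGraph.dist_comm (u := w) (v := c), SimpleGraph.dist_comm (u := w) (v := p)]
      rcases dist_adj hT (o := w) hp with h | h <;>
        rw [SimpleGraph.dist_comm (u := w) (v := c), SimpleGraph.dist_comm (u := w) (v := p)] at h <;>
        omega
    have e := dist_add_across hT (o := x) (v := w) hp.symm hdist hv
    refine ⟨by omega, h3⟩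
  · rintro ⟨h1, h3⟩
    have hv : G.dist w c + 1 = G.dist w p := by
      rw [SimpleGraph.dist_comm (u := w) (v := c), SimpleGraph.dist_comm (u := w) (v := p)]
      rcases dist_adj hT (o := w) hp with h | h <;>
        rw [SimpleGraph.dist_comm (u := w) (v := c), SimpleGraph.dist_comm (u := w) (v := p)] at h <;>
        omega
    have e := dist_add_across hT (o := x) (v := w) hp.symm hdist hv
    have e' := dist_add_across hT (o := y) (v := w) hp.symm hyp hv
    refine ⟨⟨by omega, by omega⟩, h3⟩

/-- On a branch, the cavity means of the path formula are those of the sub-branches: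
for `c` at distance `l` from `x` in `brn x y m`, and `p` its parent toward `x`,
`xiS (brn x y m) c p = xiF c p (m - l)`. -/
theorem xiS_brn [G.LocallyFinite] (hT : G.IsTree) {x y c p : V} {m : ℕ} (hxy : G.Adj x y)
    (hp : G.Adj c p) (hdist : G.dist x p + 1 = G.dist x c) (hc : c ∈ brn G x y m) (Y : V → ℝ) :
    xiS G β (brn G x y m) c p Y = xiF G β c p (m - G.dist x c) Y := by
  unfold xiS xiF
  rw [splitB_side_brn hT hxy hp hdist hc]

/-- Identification of the shell sums. -/
private lemma splitB_shell_eq [G.LocallyFinite] (hT : G.IsTree) {x y : V} (m : ℕ) (hxy : G.Adj x y)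
    (Y : V → ℝ) (l : ℕ) : ∀ c p k, c ∈ brn G x y m → G.Adj c p →
      ((c = x ∧ p = y) ∨ G.dist x p + 1 = G.dist x c) → k = G.dist x c → l ≤ m - k →
      shell G (Real.tanh β) (fun u u' => xiS G β (brn G x y m) u u' Y) l c p =
        shellF G β Y l (m - k) c p := by
  induction l with
  | zero =>
    intro c p k _ _ _ _ _
    simp [shell, shellF]
  | succ l ih =>
    intro c p k hc hcp hpar hk hl
    obtain ⟨M, hM⟩ : ∃ M, m - k = M + 1 := ⟨m - k - 1, by omega⟩
    rw [hM]
    simp only [shell, shellF]
    refine Finset.sum_congr rfl fun c' hc' => ?_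
    obtain ⟨hcc', hne⟩ := mem_kids.1 hc'
    have hcm := (mem_brn hT).1 hc
    have hd : G.dist x c' = k + 1 := by
      rcases dist_adj hT (o := x) hcc' with h | h
      · omega
      · exfalso
        rcases hpar with ⟨rfl, rfl⟩ | hpar
        · simp at h
        · exact hne (parent_unique hT hcc' hcp (by omega) hpar)
    have hc'm : c' ∈ brn G x y m := by
      rw [mem_brn hT]
      refine ⟨by omega, ?_⟩
      by_contra hcon
      have hb : G.dist c' y < G.dist c' x := by
        rw [SimpleGraph.dist_comm (u := c') (v := y), SimpleGraph.dist_comm (u := c') (v := x)]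
        rcases dist_adj hT (o := c') hxy with h | h <;>
          rw [SimpleGraph.dist_comm (u := c') (v := x), SimpleGraph.dist_comm (u := c') (v := y)] at h <;>
          omega
      have ha : G.dist c x < G.dist c y := by
        rw [SimpleGraph.dist_comm (u := c) (v := x), SimpleGraph.dist_comm (u := c) (v := y)]
        exact hcm.2
      obtain ⟨rfl, rfl⟩ := edge_cut hT hxy hcc' ha hb
      rcases hpar with ⟨_, rfl⟩ | hpar
      · exact hne rfl
      · simp at hpar
    have hxi : xiS G β (brn G x y m) c' c Y = xiF G β c' c M Y := by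
      rw [xiS_brn hT hxy hcc'.symm (by omega) hc'm]
      congr 1
      omega
    have hih := ih c' c (k + 1) hc'm hcc'.symm (Or.inr (by omega)) hd.symm (by omega)
    have hMe : m - (k + 1) = M := by omega
    rw [hMe] at hih
    rw [hih, hxi]

/-- The sum of squared covariances at the root of a branch is at most the sum of shell sums. -/
theorem sum_cov_sq_le [G.LocallyFinite] (hT : G.IsTree) (hβ : 0 ≤ β) {x y : V} (m : ℕ)
    (hxy : G.Adj x y) (Y : V → ℝ) :
    ∑ v ∈ brn G x y m, cov G β (brn G x y m) Y x v ^ 2 ≤
      ∑ l ∈ range (m + 1), shellF G β Y l m x y := by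
  have hx : x ∈ brn G x y m := self_mem_brn hT hxy m
  have hS : Star G x (brn G x y m) := star_brn hT hxy m
  set ξ : V → V → ℝ := fun u u' => xiS G β (brn G x y m) u u' Y with hξ
  have hmaps : ∀ v ∈ brn G x y m, G.dist x v ∈ range (m + 1) := by
    intro v hv
    exact Finset.mem_range.2 (by have := ((mem_brn hT).1 hv).1; omega)
  rw [← Finset.sum_fiberwise_of_maps_to hmaps]
  refine Finset.sum_le_sum fun l hl => ?_
  have hlm : l ≤ m := by
    have := Finset.mem_range.1 hl
    omega
  have hfilter : (brn G x y m).filter (fun v => G.dist x v = l) = bsph G x y l := by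
    ext v
    rw [Finset.mem_filter, mem_brn hT, mem_bsph hT]
    constructor
    · rintro ⟨⟨_, h2⟩, h3⟩
      exact ⟨h3, h2⟩
    · rintro ⟨h1, h2⟩
      exact ⟨⟨by omega, h2⟩, h1⟩
  rw [hfilter]
  have hshell := splitB_shell_eq (β := β) hT m hxy Y l x y 0 hx hxy (Or.inl ⟨rfl, rfl⟩)
    (by simp) (by omega)
  rw [Nat.sub_zero] at hshell
  rw [← hshell, ← sum_pathG_sq_bsph hT hxy]
  refine Finset.sum_le_sum fun v hv => ?_
  have hvm : v ∈ brn G x y m := by
    rw [← hfilter] at hv
    exact (Finset.mem_filter.1 hv).1
  rw [cov_path hT hβ hx hS hvm Y]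
  unfold Cf
  have hm : |mean G β (brn G x y m) Y x| ≤ 1 := abs_mean_le _ _ _ _ _
  have h1 : mean G β (brn G x y m) Y x ^ 2 ≤ 1 := (sq_le_one_iff_abs_le_one _).2 hm
  have h0 : 0 ≤ mean G β (brn G x y m) Y x ^ 2 := sq_nonneg _
  rw [mul_pow]
  have h2 : (1 - mean G β (brn G x y m) Y x ^ 2) ^ 2 ≤ 1 := by nlinarith
  have h3 : 0 ≤ pathG G (Real.tanh β) ξ x v ^ 2 := sq_nonneg _
  calc (1 - mean G β (brn G x y m) Y x ^ 2) ^ 2 * pathG G (Real.tanh β) ξ x v ^ 2
      ≤ 1 * pathG G (Real.tanh β) ξ x v ^ 2 := mul_le_mul_of_nonneg_right h2 h3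
    _ = _ := one_mul _

/-- Shell sums at finite depth converge to the shell sums of the limit configuration. -/
theorem shellF_tendsto [G.LocallyFinite] (hβ : 0 ≤ β) {Y : V → ℝ} {ξ : V → V → ℝ}
    (hξ : ∀ x y, Filter.Tendsto (fun m => xiF G β x y m Y) Filter.atTop (nhds (ξ x y)))
    (l : ℕ) (x y : V) :
    Filter.Tendsto (fun m => shellF G β Y l m x y) Filter.atTop
      (nhds (shell G (Real.tanh β) ξ l x y)) := by
  induction l generalizing x y with
  | zero =>
    simp only [shell, shellF]
    exact tendsto_const_nhds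
  | succ l ih =>
    rw [← Filter.tendsto_add_atTop_iff_nat 1]
    simp only [shell, shellF]
    refine tendsto_finsetSum _ fun c _ => ?_
    have hθ := Real.abs_tanh_lt_one β
    have hlim : |ξ c x| ≤ 1 :=
      le_of_tendsto (hξ c x).abs (Filter.Eventually.of_forall fun m => abs_mean_le _ _ _ _ _)
    have hE := splitB_sq_pos (Real.tanh β) (ξ c x) hθ hlim
    have hcont : ContinuousAt (gm (Real.tanh β)) (ξ c x) := by
      unfold gm
      refine ContinuousAt.div (by fun_prop) (by fun_prop) hE.ne'
    have hgm : Filter.Tendsto (fun m => gm (Real.tanh β) (xiF G β c x m Y)) Filter.atTop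
        (nhds (gm (Real.tanh β) (ξ c x))) := hcont.tendsto.comp (hξ c x)
    exact ((hgm.const_mul _).pow 2).mul (ih c x)

end Vale.Agent.Lib.P161E
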