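import Vale.Agent.Lib.P161E.Const
import Vale.Agent.Lib.P161E.FiidCorr
import Vale.Agent.Lib.P161E.Near1D

/-! The abstract description of one system at time `t`, in infinite volume: all that the two system
estimate uses. -/

open MeasureTheory Finset
open scoped Classical ENNReal

noncomputable section

namespace Vale.Agent.Lib.P161E

open Vale.Agent.Lib.P161

variable {V : Type*} {G : SimpleGraph V} [G.LocallyFinite] {d : ℕ}

/-- A system: cavity field `ξ` and mean field `m` at parameter `θ` and time `t`. -/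
structure Sys (G : SimpleGraph V) [G.LocallyFinite] (d : ℕ) (T θ t : ℝ)
    (ξ : (V → unitInterval) → V → V → ℝ) (m : (V → unitInterval) → V → ℝ) : Prop where
  lo : thc d / 2 ≤ θ
  hi : θ < thc d
  ht : 0 < t
  htT : t ≤ T
  meas_ξ : ∀ x y, Measurable (fun U => ξ U x y)
  meas_m : ∀ x, Measurable (fun U => m U x)
  abs_ξ : ∀ U x y, |ξ U x y| ≤ 1
  abs_m : ∀ U x, |m U x| ≤ 1
  equi_ξ : ∀ (φ : G ≃g G) U x y, ξ (U ∘ φ.symm) (φ x) (φ y) = ξ U x y
  equi_m : ∀ (φ : G ≃g G) U x, m (U ∘ φ.symm) (φ x) = m U x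
  bethe : ∀ x y, G.Adj x y → ∀ᵐ U ∂iidUniform V, m U x = bm θ (ξ U x y) (ξ U y x)
  rev : ∀ r v, ∀ᵐ U ∂iidUniform V, Cf G θ (m U) (ξ U) r v = Cf G θ (m U) (ξ U) v r
  mom : ∀ l x y, G.Adj x y → ∫ U, shell G θ (ξ U) l x y ∂iidUniform V ≤
    C0 d T * Real.exp (-(2 * rate d T t * l))
  good : ∀ z : ℝ, 0 ≤ z → ∀ x y, G.Adj x y →
    iidUniform V {U | ∃ l : ℕ, C2 d (C0 d T) * (1 + z) ^ sig d (rate d T t) *
      Real.exp (-(rate d T t * l / 4)) < shell G θ (ξ U) l x y} ≤ ENNReal.ofReal (2 * Real.exp (-z))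
  exp_ξ : ∀ x y, G.Adj x y →
    ∫⁻ U, ENNReal.ofReal (Real.exp (kap0 d T / Real.sqrt t * ξ U x y ^ 2)) ∂iidUniform V ≤
      ENNReal.ofReal (Ce d T)
  rate_shat : ∀ x y, G.Adj x y → 2 * rate d T t ≤
    -Real.log (((d : ℝ) - 1) * θ ^ 2) + 2 * ∫ U, shat θ (ξ U x y) ∂iidUniform V

end Vale.Agent.Lib.P161E
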