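import Vale.Agent.Lib.P161E.FieldsE

/-! The limit fields form a system. Job E4. All items: finite depth statement of `Const.lean` under the planted
law on `brn x y m`, transferred by `Yf_EP` (or `Yf_law`) to `Yc`, and `m → ∞` by `xiF_tendsto` and `shellF_tendsto`
(bounded convergence for means, Fatou for exponential moments and for the good event). -/

open MeasureTheory Finset Filter Topology
open scoped Classical ENNReal

noncomputable section

namespace Vale.Agent.Lib.P161E

open Vale.Agent.Lib.P161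

variable {V : Type*} {G : SimpleGraph V} [G.LocallyFinite] {β : ℝ} {d : ℕ}
  {g : ℕ → ℕ → unitInterval → ℝ}

/-! Auxiliary lemmas. -/

section aux

theorem sl_thc_pos (hd : 3 ≤ d) : 0 < thc d := by
  have hd3 : (3 : ℝ) ≤ d := by exact_mod_cast hd
  unfold thc
  have : 0 < Real.sqrt ((d : ℝ) - 1) := Real.sqrt_pos.mpr (by linarith)
  positivity

theorem sl_theta_pos (hd : 3 ≤ d) (hβ : Adm d β) : 0 < Real.tanh β := by
  have := hβ.lo
  have h2 := sl_thc_pos hd
  linarith

theorem sl_r_le (hd : 3 ≤ d) (hβ : Adm d β) : ((d : ℝ) - 1) * Real.tanh β ^ 2 ≤ 1 := by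
  have hd3 : (3 : ℝ) ≤ d := by exact_mod_cast hd
  have h0 := sl_theta_pos hd hβ
  have h1 := hβ.hi
  have hs : 0 < Real.sqrt ((d : ℝ) - 1) := Real.sqrt_pos.mpr (by linarith)
  have hss : Real.sqrt ((d : ℝ) - 1) ^ 2 = (d : ℝ) - 1 := Real.sq_sqrt (by linarith)
  unfold thc at h1
  rw [lt_div_iff₀ hs] at h1
  have h2 : (Real.tanh β * Real.sqrt ((d : ℝ) - 1)) ^ 2 ≤ 1 := by
    have : 0 ≤ Real.tanh β * Real.sqrt ((d : ℝ) - 1) := by positivity
    exact pow_le_one₀ this h1.le
  rw [mul_pow, hss] at h2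
  linarith

theorem sl_continuousAt_gm {θ a : ℝ} (h0 : 0 ≤ θ) (h1 : θ < 1) (ha : |a| ≤ 1) :
    ContinuousAt (fun x => gm θ x) a := by
  unfold gm
  refine ContinuousAt.div (by fun_prop) (by fun_prop) ?_
  have h2 : a ^ 2 ≤ 1 := (sq_le_one_iff_abs_le_one _).mpr ha
  have h3 : θ ^ 2 < 1 := by nlinarith
  nlinarith [sq_nonneg a, sq_nonneg θ]

theorem sl_measurable_gm (θ : ℝ) : Measurable (fun x : ℝ => gm θ x) := by
  unfold gm
  fun_prop

theorem sl_measurable_shat (θ : ℝ) : Measurable (fun x : ℝ => shat θ x) := by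
  unfold shat
  exact (Real.measurable_log.comp ((sl_measurable_gm θ).max measurable_const)).neg

theorem sl_prob : IsProbabilityMeasure (iidUniform V) := by
  unfold iidUniform
  infer_instance

end aux

section main

variable (hg : DN g) (hT : G.IsTree) (hd : 3 ≤ d) (hreg : G.IsRegularOfDegree d) (hβ : Adm d β)
  (P : Par d β) {L k : ℕ}

theorem sl_measurable_Yc (hg : DN g) (P : Par d β) (u : ℝ) :
    Measurable (Yc g G β P u : (V → unitInterval) → V → ℝ) :=
  measurable_pi_iff.mpr fun v => measurable_Yf hg P u v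

include hg hT hd hreg hβ

/-- Transfer to the planted law on a branch. -/
theorem sl_transfer {x y : V} (hxy : G.Adj x y) (m : ℕ) {F : (V → ℝ) → ℝ} (hF : Measurable F) {C : ℝ}
    (hFb : ∀ Y, |F Y| ≤ C) (hdep : DepOn (brn G x y m) F) :
    ∫ U, F (Yc g G β P (dy L k) U) ∂iidUniform V = EP G β (brn G x y m) (dy L k) 0 F :=
  Yf_EP hg hT (by omega) hreg hβ.hβ P (self_mem_brn hT hxy m) (star_brn hT hxy m) hF hFb hdep

theorem sl_xiF_tendsto {x y : V} (hxy : G.Adj x y) : ∀ᵐ U ∂iidUniform V,
    Tendsto (fun N => xiF G β x y N (Yc g G β P (dy L k) U)) atTop (𝓝 (XiL g G β P (dy L k) U x y)) :=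
  xiF_tendsto hT (by omega) hreg hβ.hβ P hg x y hxy

/-- Shell sums converge a.e. -/
theorem sl_shell_tendsto (l : ℕ) : ∀ x y : V, ∀ᵐ U ∂iidUniform V,
    Tendsto (fun m => shellF G β (Yc g G β P (dy L k) U) l m x y) atTop
      (𝓝 (shell G (Real.tanh β) (XiL g G β P (dy L k) U) l x y)) := by
  induction l with
  | zero =>
    intro x y
    refine Filter.Eventually.of_forall (fun U => ?_)
    simp [shellF, shell]
  | succ l ih =>
    intro x y
    have h0 := (sl_theta_pos hd hβ).le
    have h1 := Real.tanh_lt_one β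
    have hall : ∀ᵐ U ∂iidUniform V, ∀ c ∈ kids G x y,
        (Tendsto (fun N => xiF G β c x N (Yc g G β P (dy L k) U)) atTop
          (𝓝 (XiL g G β P (dy L k) U c x))) ∧
        Tendsto (fun m => shellF G β (Yc g G β P (dy L k) U) l m c x) atTop
          (𝓝 (shell G (Real.tanh β) (XiL g G β P (dy L k) U) l c x)) := by
      refine (Filter.eventually_all_finset (kids G x y)).mpr (fun c hc => ?_)
      have hcx : G.Adj c x := by
        have := (mem_kids.mp hc).1
        exact this.symm
      filter_upwards [sl_xiF_tendsto (k := k) (L := L) hg hT hd hreg hβ P hcx, ih c x] with U h1 h2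
      exact ⟨h1, h2⟩
    filter_upwards [hall] with U hU
    rw [← tendsto_add_atTop_iff_nat 1]
    simp only [shellF, shell]
    refine tendsto_finset_sum _ (fun c hc => ?_)
    obtain ⟨h2, h3⟩ := hU c hc
    refine Tendsto.mul ?_ h3
    refine Tendsto.pow ?_ 2
    refine Tendsto.const_mul _ ?_
    exact (sl_continuousAt_gm h0 h1 (abs_XiL_le P _ U c x)).tendsto.comp h2

/-- First moment of the shell sums in the limit. -/
theorem sl_mom {T : ℝ} (hT1 : 1 ≤ T) (hu0 : 0 < dy L k) (huT : dy L k ≤ T) {x y : V} (hxy : G.Adj x y)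
    (l : ℕ) :
    ∫ U, shell G (Real.tanh β) (XiL g G β P (dy L k) U) l x y ∂iidUniform V ≤
      C0 d T * Real.exp (-(2 * rate d T (dy L k) * l)) := by
  have hprob : IsProbabilityMeasure (iidUniform V) := sl_prob
  have hr := sl_r_le hd hβ
  have hmeas : ∀ m, Measurable (fun U => shellF G β (Yc g G β P (dy L k) U) l m x y) := fun m =>
    (measurable_shellF (G := G) (β := β) l m x y).comp (sl_measurable_Yc hg P _)
  have hb : ∀ m Y, |shellF G β Y l m x y| ≤ 1 := fun m Y => by
    rw [abs_of_nonneg (shellF_nonneg hβ.hβ l m x y Y)]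
    exact shellF_le_one hT hreg hβ.hβ hr hxy l m Y
  have hlim : Tendsto (fun m => ∫ U, shellF G β (Yc g G β P (dy L k) U) l m x y ∂iidUniform V) atTop
      (𝓝 (∫ U, shell G (Real.tanh β) (XiL g G β P (dy L k) U) l x y ∂iidUniform V)) := by
    refine tendsto_integral_of_dominated_convergence (fun _ => (1 : ℝ))
      (fun m => (hmeas m).aestronglyMeasurable) (integrable_const _) ?_ ?_
    · intro m
      exact Filter.Eventually.of_forall (fun U => by
        rw [Real.norm_eq_abs]
        exact hb m _)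
    · exact sl_shell_tendsto hg hT hd hreg hβ P l x y
  refine le_of_tendsto' hlim (fun m => ?_)
  have h1 := sl_transfer (L := L) (k := k) hg hT hd hreg hβ P hxy m
    (measurable_shellF (G := G) (β := β) l m x y) (hb m) (depOn_shellF hT hxy l m)
  rw [h1]
  exact shell_moment_final hT hd hreg hβ hT1 hu0 huT hxy l m

/-- The good event in the limit. -/
theorem sl_good {T : ℝ} (hT1 : 1 ≤ T) (hu0 : 0 < dy L k) (huT : dy L k ≤ T) {z : ℝ} (hz : 0 ≤ z)
    {x y : V} (hxy : G.Adj x y) :
    iidUniform V {U | ∃ l : ℕ, C2 d (C0 d T) * (1 + z) ^ sig d (rate d T (dy L k)) *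
      Real.exp (-(rate d T (dy L k) * l / 4)) <
        shell G (Real.tanh β) (XiL g G β P (dy L k) U) l x y} ≤ ENNReal.ofReal (2 * Real.exp (-z)) := by
  have hprob : IsProbabilityMeasure (iidUniform V) := sl_prob
  set B : ℕ → ℝ := fun l => C2 d (C0 d T) * (1 + z) ^ sig d (rate d T (dy L k)) *
      Real.exp (-(rate d T (dy L k) * l / 4)) with hB
  let E : ℕ → Set (V → ℝ) := fun m => {Y | ∃ l : ℕ, B l < shellF G β Y l m x y}
  have hEm : ∀ m, MeasurableSet (E m) := by
    intro m
    have : E m = ⋃ l : ℕ, {Y | B l < shellF G β Y l m x y} := by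
      ext Y
      simp [E]
    rw [this]
    exact MeasurableSet.iUnion fun l =>
      measurableSet_lt measurable_const (measurable_shellF (G := G) (β := β) l m x y)
  have hEdep : ∀ m, DepOn (brn G x y m) (Set.indicator (E m) (1 : (V → ℝ) → ℝ)) := by
    intro m Y Y' h
    have h1 : ∀ l, shellF G β Y l m x y = shellF G β Y' l m x y := fun l =>
      depOn_shellF hT hxy l m Y Y' h
    have h2 : Y ∈ E m ↔ Y' ∈ E m := by
      simp only [E, Set.mem_setOf_eq, h1]
    by_cases h3 : Y ∈ E m
    · rw [Set.indicator_of_mem h3, Set.indicator_of_mem (h2.mp h3)]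
      rfl
    · rw [Set.indicator_of_notMem h3, Set.indicator_of_notMem (fun h4 => h3 (h2.mpr h4))]
  have hEb : ∀ m Y, |Set.indicator (E m) (1 : (V → ℝ) → ℝ) Y| ≤ 1 := by
    intro m Y
    by_cases h3 : Y ∈ E m
    · rw [Set.indicator_of_mem h3]
      simp
    · rw [Set.indicator_of_notMem h3]
      simp
  have hYm := sl_measurable_Yc (V := V) (G := G) hg P (dy L k)
  have hEP : ∀ m, iidUniform V ((Yc g G β P (dy L k)) ⁻¹' (E m)) ≤ ENNReal.ofReal (2 * Real.exp (-z)) := by
    intro m
    have h1 := sl_transfer (L := L) (k := k) hg hT hd hreg hβ P hxy m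
      (measurable_one.indicator (hEm m)) (hEb m) (hEdep m)
    have h2 := shell_good_final hT hd hreg hβ hT1 hu0 huT hz hxy m
    rw [← h1] at h2
    have h3 : (fun U => Set.indicator (E m) (1 : (V → ℝ) → ℝ) (Yc g G β P (dy L k) U)) =
        Set.indicator ((Yc g G β P (dy L k)) ⁻¹' (E m)) (1 : (V → unitInterval) → ℝ) := by
      ext U
      by_cases h4 : Yc g G β P (dy L k) U ∈ E m
      · rw [Set.indicator_of_mem h4, Set.indicator_of_mem (Set.mem_preimage.mpr h4)]
        rfl
      · rw [Set.indicator_of_notMem h4, Set.indicator_of_notMem (fun h5 => h4 (Set.mem_preimage.mp h5))]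
    have h5 : ∫ U, Set.indicator (E m) (1 : (V → ℝ) → ℝ) (Yc g G β P (dy L k) U) ∂iidUniform V =
        (iidUniform V).real ((Yc g G β P (dy L k)) ⁻¹' (E m)) := by
      rw [h3]
      exact integral_indicator_one (hYm (hEm m))
    rw [h5] at h2
    rw [← ENNReal.ofReal_toReal (measure_ne_top (iidUniform V) _)]
    exact ENNReal.ofReal_le_ofReal h2
  let D : ℕ → Set (V → unitInterval) := fun M => ⋂ m, ⋂ _ : M ≤ m, (Yc g G β P (dy L k)) ⁻¹' (E m)
  have hDmono : Monotone D := by
    intro M M' hMM' U hU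
    simp only [D, Set.mem_iInter] at hU ⊢
    intro m hm
    exact hU m (hMM'.trans hm)
  have hsub : {U | ∃ l : ℕ, B l < shell G (Real.tanh β) (XiL g G β P (dy L k) U) l x y} ≤ᵐ[iidUniform V]
      ⋃ M, D M := by
    have hall : ∀ᵐ U ∂iidUniform V, ∀ l : ℕ,
        Tendsto (fun m => shellF G β (Yc g G β P (dy L k) U) l m x y) atTop
          (𝓝 (shell G (Real.tanh β) (XiL g G β P (dy L k) U) l x y)) :=
      ae_all_iff.mpr (fun l => sl_shell_tendsto hg hT hd hreg hβ P l x y)
    filter_upwards [hall] with U hU hmem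
    obtain ⟨l, hl⟩ := hmem
    have h1 := (hU l).eventually (lt_mem_nhds hl)
    obtain ⟨M, hM⟩ := Filter.eventually_atTop.mp h1
    refine Set.mem_iUnion.mpr ⟨M, ?_⟩
    simp only [D, Set.mem_iInter]
    intro m hm
    exact ⟨l, hM m hm⟩
  calc iidUniform V {U | ∃ l : ℕ, B l < shell G (Real.tanh β) (XiL g G β P (dy L k) U) l x y}
      ≤ iidUniform V (⋃ M, D M) := measure_mono_ae hsub
    _ = ⨆ M, iidUniform V (D M) := hDmono.measure_iUnion
    _ ≤ _ := iSup_le (fun M => by
        refine (measure_mono ?_).trans (hEP M)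
        intro U hU
        simp only [D, Set.mem_iInter] at hU
        exact hU M le_rfl)

/-- Exponential moment in the limit. -/
theorem sl_exp {T : ℝ} (hT1 : 1 ≤ T) (hu0 : 0 < dy L k) (huT : dy L k ≤ T) {x y : V} (hxy : G.Adj x y) :
    ∫⁻ U, ENNReal.ofReal (Real.exp (kap0 d T / Real.sqrt (dy L k) * XiL g G β P (dy L k) U x y ^ 2))
      ∂iidUniform V ≤ ENNReal.ofReal (Ce d T) := by
  have hprob : IsProbabilityMeasure (iidUniform V) := sl_prob
  set c := kap0 d T / Real.sqrt (dy L k) with hc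
  have hc0 : 0 ≤ c := by
    have h3 : 0 ≤ kap0 d T := by
      have hd0 : (0 : ℝ) < d := by
        have : (3 : ℝ) ≤ d := by exact_mod_cast hd
        linarith
      unfold kap0 C3
      have h1 : 0 < C2 d (C0 d T) := by
        have hC0 : 0 < C0 d T := Real.exp_pos _
        unfold C2
        positivity
      have h2 : 0 < c1 d T := c1_pos hd hT1
      positivity
    exact div_nonneg h3 (Real.sqrt_nonneg _)
  have hYm := sl_measurable_Yc (V := V) (G := G) hg P (dy L k)
  set F : (V → ℝ) → ℕ → ℝ := fun Y m => Real.exp (c * xiF G β x y m Y ^ 2) with hF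
  have hFm : ∀ m, Measurable (fun Y => F Y m) := fun m => by
    have := measurable_xiF (G := G) (β := β) x y m
    exact Real.measurable_exp.comp (measurable_const.mul (this.pow_const 2))
  have hFb : ∀ m Y, |F Y m| ≤ Real.exp c := fun m Y => by
    rw [abs_of_pos (Real.exp_pos _)]
    refine Real.exp_le_exp.mpr ?_
    have h1 : xiF G β x y m Y ^ 2 ≤ 1 := (sq_le_one_iff_abs_le_one _).mpr (abs_xiF_le x y m Y)
    nlinarith
  have hFdep : ∀ m, DepOn (brn G x y m) (fun Y => F Y m) := fun m Y Y' h => by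
    have h5 : xiF G β x y m Y = xiF G β x y m Y' := depOn_xiF x y m Y Y' h
    simp only [hF]
    rw [h5]
  have hUm : ∀ m, ∫⁻ U, ENNReal.ofReal (F (Yc g G β P (dy L k) U) m) ∂iidUniform V ≤
      ENNReal.ofReal (Ce d T) := by
    intro m
    have h1 := sl_transfer (L := L) (k := k) hg hT hd hreg hβ P hxy m (hFm m) (hFb m) (hFdep m)
    have h2 := exp_xi_bound hT hd hreg hβ hT1 hu0 huT hxy m
    have h3 : ∫ U, F (Yc g G β P (dy L k) U) m ∂iidUniform V ≤ Ce d T := by
      rw [h1]
      exact h2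
    have hint : Integrable (fun U => F (Yc g G β P (dy L k) U) m) (iidUniform V) := by
      refine Integrable.mono' (integrable_const (Real.exp c))
        ((hFm m).comp hYm).aestronglyMeasurable (Filter.Eventually.of_forall fun U => ?_)
      rw [Real.norm_eq_abs]
      exact hFb m _
    rw [← ofReal_integral_eq_lintegral_ofReal hint
      (Filter.Eventually.of_forall fun U => (Real.exp_pos _).le)]
    exact ENNReal.ofReal_le_ofReal h3
  have hae : ∀ᵐ U ∂iidUniform V,
      ENNReal.ofReal (Real.exp (c * XiL g G β P (dy L k) U x y ^ 2)) =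
        liminf (fun m => ENNReal.ofReal (F (Yc g G β P (dy L k) U) m)) atTop := by
    filter_upwards [sl_xiF_tendsto (L := L) (k := k) hg hT hd hreg hβ P hxy] with U hU
    have h1 : Tendsto (fun m => ENNReal.ofReal (F (Yc g G β P (dy L k) U) m)) atTop
        (𝓝 (ENNReal.ofReal (Real.exp (c * XiL g G β P (dy L k) U x y ^ 2)))) := by
      refine ENNReal.continuous_ofReal.continuousAt.tendsto.comp ?_
      refine (Real.continuous_exp.continuousAt.tendsto).comp ?_
      exact Tendsto.const_mul _ (hU.pow 2)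
    exact h1.liminf_eq.symm
  rw [lintegral_congr_ae hae]
  refine (lintegral_liminf_le (fun m =>
    (ENNReal.measurable_ofReal.comp ((hFm m).comp hYm)))).trans ?_
  calc liminf (fun m => ∫⁻ U, ENNReal.ofReal (F (Yc g G β P (dy L k) U) m) ∂iidUniform V) atTop
      ≤ liminf (fun _ : ℕ => ENNReal.ofReal (Ce d T)) atTop :=
        Filter.liminf_le_liminf (Filter.Eventually.of_forall hUm)
    _ = _ := Filter.liminf_const _

/-- The second moments converge. -/
theorem sl_xi_sq_tendsto {x y : V} (hxy : G.Adj x y) :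
    Tendsto (fun m => ∫ U, xiF G β x y m (Yc g G β P (dy L k) U) ^ 2 ∂iidUniform V) atTop
      (𝓝 (∫ U, XiL g G β P (dy L k) U x y ^ 2 ∂iidUniform V)) := by
  have hprob : IsProbabilityMeasure (iidUniform V) := sl_prob
  have hYm := sl_measurable_Yc (V := V) (G := G) hg P (dy L k)
  refine tendsto_integral_of_dominated_convergence (fun _ => (1 : ℝ))
    (fun m => ((measurable_xiF (G := G) (β := β) x y m).pow_const 2 |>.comp hYm).aestronglyMeasurable)
    (integrable_const _) ?_ ?_
  · intro m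
    refine Filter.Eventually.of_forall (fun U => ?_)
    rw [Real.norm_of_nonneg (sq_nonneg _)]
    exact (sq_le_one_iff_abs_le_one _).mpr (abs_xiF_le x y m _)
  · filter_upwards [sl_xiF_tendsto (L := L) (k := k) hg hT hd hreg hβ P hxy] with U hU
    exact hU.pow 2

/-- The rate in the limit. -/
theorem sl_rate {T : ℝ} (hT1 : 1 ≤ T) (hu0 : 0 < dy L k) (huT : dy L k ≤ T) {x y : V} (hxy : G.Adj x y) :
    2 * rate d T (dy L k) ≤ -Real.log (((d : ℝ) - 1) * Real.tanh β ^ 2) +
      2 * ∫ U, shat (Real.tanh β) (XiL g G β P (dy L k) U x y) ∂iidUniform V := by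
  have hprob : IsProbabilityMeasure (iidUniform V) := sl_prob
  set θ := Real.tanh β with hθ
  have h0 : 0 ≤ θ := (sl_theta_pos hd hβ).le
  have h1 : θ < 1 := Real.tanh_lt_one β
  have hθ2 : 0 ≤ 1 - θ ^ 2 := by nlinarith
  have hlim := sl_xi_sq_tendsto (L := L) (k := k) hg hT hd hreg hβ P hxy
  have hstep : 2 * rate d T (dy L k) ≤ -Real.log (((d : ℝ) - 1) * θ ^ 2) +
      2 * (1 - θ ^ 2) * ∫ U, XiL g G β P (dy L k) U x y ^ 2 ∂iidUniform V := by
    refine ge_of_tendsto ((hlim.const_mul (2 * (1 - θ ^ 2))).const_add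
      (-Real.log (((d : ℝ) - 1) * θ ^ 2))) ?_
    filter_upwards [Filter.eventually_ge_atTop ⌈1 / Real.sqrt (dy L k)⌉₊] with m hm
    have h2 := rate_le_q hT hd hreg hβ hT1 hu0 huT hxy hm
    have h3 := sl_transfer (L := L) (k := k) hg hT hd hreg hβ P hxy m
      (F := fun Y => xiF G β x y m Y ^ 2) ((measurable_xiF (G := G) (β := β) x y m).pow_const 2)
      (C := 1) (fun Y => by
        rw [abs_of_nonneg (sq_nonneg _)]
        exact (sq_le_one_iff_abs_le_one _).mpr (abs_xiF_le x y m Y))
      (fun Y Y' h => by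
        have h5 : xiF G β x y m Y = xiF G β x y m Y' := depOn_xiF x y m Y Y' h
        simp only []
        rw [h5])
    rw [h3]
    exact h2
  have hXim : Measurable (fun U => XiL g G β P (dy L k) U x y) := measurable_XiL P _ hg x y
  have hshat : (1 - θ ^ 2) * ∫ U, XiL g G β P (dy L k) U x y ^ 2 ∂iidUniform V ≤
      ∫ U, shat θ (XiL g G β P (dy L k) U x y) ∂iidUniform V := by
    rw [← integral_const_mul]
    have hi2 : Integrable (fun U => shat θ (XiL g G β P (dy L k) U x y)) (iidUniform V) := by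
      refine Integrable.mono' (integrable_const (1 : ℝ))
        ((sl_measurable_shat θ).comp hXim).aestronglyMeasurable (Filter.Eventually.of_forall fun U => ?_)
      have ha : |XiL g G β P (dy L k) U x y| ≤ 1 := abs_XiL_le P (dy L k) U x y
      rw [Real.norm_of_nonneg (shat_nonneg h0 h1 ha)]
      exact shat_le_one θ _
    refine integral_mono_of_nonneg (Filter.Eventually.of_forall fun U => ?_) hi2
      (Filter.Eventually.of_forall fun U => ?_)
    · exact mul_nonneg hθ2 (sq_nonneg _)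
    · exact shat_ge h0 h1 (abs_XiL_le P (dy L k) U x y)
  linarith

end main

section

variable (hg : DN g) (hT : G.IsTree) (hd : 3 ≤ d) (hreg : G.IsRegularOfDegree d) (hβ : Adm d β)
  (P : Par d β) {T : ℝ} (hT1 : 1 ≤ T) {L k : ℕ} (hu0 : 0 < dy L k) (huT : dy L k ≤ T)

include hg hT hd hreg hβ hT1 hu0 huT

theorem sysL_mom {x y : V} (hxy : G.Adj x y) (l : ℕ) :
    ∫ U, shell G (Real.tanh β) (XiL g G β P (dy L k) U) l x y ∂iidUniform V ≤
      C0 d T * Real.exp (-(2 * rate d T (dy L k) * l)) :=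
  sl_mom hg hT hd hreg hβ P hT1 hu0 huT hxy l

theorem sysL_good {z : ℝ} (hz : 0 ≤ z) {x y : V} (hxy : G.Adj x y) :
    iidUniform V {U | ∃ l : ℕ, C2 d (C0 d T) * (1 + z) ^ sig d (rate d T (dy L k)) *
      Real.exp (-(rate d T (dy L k) * l / 4)) <
        shell G (Real.tanh β) (XiL g G β P (dy L k) U) l x y} ≤ ENNReal.ofReal (2 * Real.exp (-z)) :=
  sl_good hg hT hd hreg hβ P hT1 hu0 huT hz hxy

theorem sysL_exp {x y : V} (hxy : G.Adj x y) :
    ∫⁻ U, ENNReal.ofReal (Real.exp (kap0 d T / Real.sqrt (dy L k) * XiL g G β P (dy L k) U x y ^ 2)) ∂iidUniform V ≤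
      ENNReal.ofReal (Ce d T) :=
  sl_exp hg hT hd hreg hβ P hT1 hu0 huT hxy

theorem sysL_rate {x y : V} (hxy : G.Adj x y) :
    2 * rate d T (dy L k) ≤ -Real.log (((d : ℝ) - 1) * Real.tanh β ^ 2) +
      2 * ∫ U, shat (Real.tanh β) (XiL g G β P (dy L k) U x y) ∂iidUniform V :=
  sl_rate hg hT hd hreg hβ P hT1 hu0 huT hxy

/-- The limit fields form a system. -/
theorem sys_limit :
    Sys G d T (Real.tanh β) (dy L k) (XiL g G β P (dy L k)) (MuL g G β P (dy L k)) where
  lo := hβ.lo
  hi := hβ.hi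
  ht := hu0
  htT := huT
  meas_ξ := fun x y => measurable_XiL P _ hg x y
  meas_m := fun x => measurable_MuL P _ hg x
  abs_ξ := fun U x y => abs_XiL_le P _ U x y
  abs_m := fun U x => abs_MuL_le P _ U x
  equi_ξ := fun φ U x y => XiL_map P _ hT φ U x y
  equi_m := fun φ U x => MuL_map P _ hT φ U x
  bethe := fun _ _ hxy => bethe_limit hT (by omega) hreg hβ.hβ P hg hxy
  rev := fun r v => rev_limit hT (by omega) hreg hβ.hβ P hg r v
  mom := fun l _ _ hxy => sysL_mom hg hT hd hreg hβ P hT1 hu0 huT hxy l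
  good := fun _ hz _ _ hxy => sysL_good hg hT hd hreg hβ P hT1 hu0 huT hz hxy
  exp_ξ := fun _ _ hxy => sysL_exp hg hT hd hreg hβ P hT1 hu0 huT hxy
  rate_shat := fun _ _ hxy => sysL_rate hg hT hd hreg hβ P hT1 hu0 huT hxy

end

/-- E4'. Monotonicity in time of the mean of `gm` in the limit: `EP_concave_anti` with `gm_concave`. -/
theorem phi_anti (hg : DN g) (hT : G.IsTree) (hd : 3 ≤ d) (hreg : G.IsRegularOfDegree d)
    (hβ : Adm d β) (P : Par d β) {x y : V} (hxy : G.Adj x y) {L k L' k' : ℕ} (hu0 : 0 < dy L k)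
    (huv : dy L k ≤ dy L' k') :
    ∫ U, gm (Real.tanh β) (XiL g G β P (dy L' k') U x y) ∂iidUniform V ≤
      ∫ U, gm (Real.tanh β) (XiL g G β P (dy L k) U x y) ∂iidUniform V := by
  have hprob : IsProbabilityMeasure (iidUniform V) := sl_prob
  set θ := Real.tanh β with hθ
  have h0 : 0 < θ := sl_theta_pos hd hβ
  have h1 : θ < 1 := Real.tanh_lt_one β
  have hbd : ∀ a, |a| ≤ 1 → |gm θ a| ≤ 1 := fun a ha => by
    rw [abs_of_nonneg (gm_nonneg h0.le h1 ha)]
    exact gm_le_one h0.le h1 ha
  have hm := sl_measurable_gm θ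
  have key : ∀ {L k : ℕ}, Tendsto (fun m => ∫ U, gm θ (xiF G β x y m (Yc g G β P (dy L k) U)) ∂iidUniform V) atTop
      (𝓝 (∫ U, gm θ (XiL g G β P (dy L k) U x y) ∂iidUniform V)) := by
    intro L k
    have hYm := sl_measurable_Yc (V := V) (G := G) hg P (dy L k)
    refine tendsto_integral_of_dominated_convergence (fun _ => (1 : ℝ))
      (fun m => (hm.comp ((measurable_xiF (G := G) (β := β) x y m).comp hYm)).aestronglyMeasurable)
      (integrable_const _) ?_ ?_
    · intro m
      refine Filter.Eventually.of_forall (fun U => ?_)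
      rw [Real.norm_eq_abs]
      exact hbd _ (abs_xiF_le x y m _)
    · filter_upwards [sl_xiF_tendsto (L := L) (k := k) hg hT hd hreg hβ P hxy] with U hU
      exact (sl_continuousAt_gm h0.le h1 (abs_XiL_le P _ U x y)).tendsto.comp hU
  refine le_of_tendsto_of_tendsto' key key (fun m => ?_)
  have hFm : Measurable (fun Y => gm θ (xiF G β x y m Y)) :=
    hm.comp (measurable_xiF (G := G) (β := β) x y m)
  have hFb : ∀ Y, |gm θ (xiF G β x y m Y)| ≤ 1 := fun Y => hbd _ (abs_xiF_le x y m Y)
  have hFdep : DepOn (brn G x y m) (fun Y => gm θ (xiF G β x y m Y)) := fun Y Y' h => by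
    have h5 : xiF G β x y m Y = xiF G β x y m Y' := depOn_xiF x y m Y Y' h
    simp only []
    rw [h5]
  have e1 := sl_transfer (L := L') (k := k') hg hT hd hreg hβ P hxy m hFm hFb hFdep
  have e2 := sl_transfer (L := L) (k := k) hg hT hd hreg hβ P hxy m hFm hFb hFdep
  rw [e1, e2]
  exact EP_concave_anti (gm_concave h0 h1) hm (C := 1) hbd x hu0.le huv

end Vale.Agent.Lib.P161E
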