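import Vale.Agent.Lib.P161E.Defs

/-! Job B1a: kids, sides, branches (definitions `sph`, `bsph` at the start). -/

open MeasureTheory Finset Filter Topology
open scoped Classical ENNReal

set_option linter.unusedSectionVars false
set_option linter.unusedVariables false

noncomputable section

namespace Vale.Agent.Lib.P161E

open Vale.Agent.Lib.P161

variable {V : Type*} {G : SimpleGraph V} [G.LocallyFinite] {d : ℕ} {x y c r v : V} {m : ℕ}

/-- Sphere around `r`. -/
def sph (G : SimpleGraph V) [G.LocallyFinite] (r : V) (n : ℕ) : Finset V :=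
  (ball G r n).filter (fun v => G.dist r v = n)

/-- Sphere of radius `l` in the branch of `x` away from `y`. -/
def bsph (G : SimpleGraph V) [G.LocallyFinite] (x y : V) (l : ℕ) : Finset V :=
  (brn G x y l).filter (fun v => G.dist x v = l)

/-! Basic facts on distances in a tree, with the free end first. -/

lemma tg_dist_adj' (hT : G.IsTree) {a b : V} (h : G.Adj a b) (w : V) :
    G.dist b w = G.dist a w + 1 ∨ G.dist a w = G.dist b w + 1 := by
  have := dist_adj hT (o := w) h
  rwa [SimpleGraph.dist_comm (u := w) (v := b), SimpleGraph.dist_comm (u := w) (v := a)] at this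

lemma tg_dist_self_zero (a : V) : G.dist a a = 0 := SimpleGraph.dist_self

lemma tg_dist_of_adj {a b : V} (h : G.Adj a b) : G.dist a b = 1 :=
  SimpleGraph.dist_eq_one_iff_adj.2 h

/-- If `c`, `y` are distinct neighbours of `x` and `v` is closer to `c` than to `x`, then `v` is
closer to `x` than to `y`. -/
lemma tg_closer_of_kid (hT : G.IsTree) (hxy : G.Adj x y) (hxc : G.Adj x c) (hne : c ≠ y)
    (hv : G.dist c v < G.dist x v) : G.dist x v < G.dist y v := by
  rcases tg_dist_adj' hT hxy v with h | h
  · omega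
  · exfalso
    have h1 := tg_dist_adj' hT hxc v
    apply hne
    refine parent_unique hT (o := v) hxc hxy ?_ ?_
    · rw [SimpleGraph.dist_comm (u := v) (v := c), SimpleGraph.dist_comm (u := v) (v := x)]
      omega
    · rw [SimpleGraph.dist_comm (u := v) (v := y), SimpleGraph.dist_comm (u := v) (v := x)]
      omega

theorem mem_kids : c ∈ kids G x y ↔ G.Adj x c ∧ c ≠ y := by
  unfold kids
  rw [Finset.mem_erase, SimpleGraph.mem_neighborFinset]
  tauto

theorem card_kids (hreg : G.IsRegularOfDegree d) (h : G.Adj x y) : (kids G x y).card = d - 1 := by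
  unfold kids
  rw [Finset.card_erase_of_mem (by simpa using h), SimpleGraph.card_neighborFinset_eq_degree,
    hreg x]

theorem mem_side {S : Finset V} : v ∈ side G S x y ↔ v ∈ S ∧ G.dist x v < G.dist y v := by
  unfold side
  rw [Finset.mem_filter]

theorem mem_brn (hT : G.IsTree) : v ∈ brn G x y m ↔ G.dist x v ≤ m ∧ G.dist x v < G.dist y v := by
  unfold brn
  rw [mem_side, mem_ball hT]

theorem self_mem_brn (hT : G.IsTree) (h : G.Adj x y) (m : ℕ) : x ∈ brn G x y m := by
  rw [mem_brn hT, tg_dist_self_zero, tg_dist_of_adj h.symm]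
  omega

theorem brn_mono (hT : G.IsTree) {m m' : ℕ} (h : m ≤ m') : brn G x y m ⊆ brn G x y m' := by
  intro v hv
  rw [mem_brn hT] at hv ⊢
  omega

theorem side_union (hT : G.IsTree) (h : G.Adj x y) (S : Finset V) :
    side G S x y ∪ side G S y x = S := by
  ext v
  rw [Finset.mem_union, mem_side, mem_side]
  have := tg_dist_adj' hT h v
  constructor
  · rintro (h1 | h1) <;> exact h1.1
  · intro hv
    rcases this with h2 | h2
    · exact Or.inl ⟨hv, by omega⟩
    · exact Or.inr ⟨hv, by omega⟩

/-- The two sides of an edge inside `S` are cut by the edge only. -/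
theorem side_cut (hT : G.IsTree) (h : G.Adj x y) {S : Finset V} (hx : x ∈ S) (hy : y ∈ S) :
    Cut G (side G S x y) (side G S y x) x y := by
  refine ⟨?_, ?_, ?_, h, ?_⟩
  · rw [Finset.disjoint_left]
    intro v hv hv'
    rw [mem_side] at hv hv'
    omega
  · rw [mem_side, tg_dist_self_zero, tg_dist_of_adj h.symm]
    exact ⟨hx, by omega⟩
  · rw [mem_side, tg_dist_self_zero, tg_dist_of_adj h]
    exact ⟨hy, by omega⟩
  · intro u hu w hw huw
    rw [mem_side] at hu hw
    refine edge_cut hT h huw ?_ ?_
    · rw [SimpleGraph.dist_comm (u := u) (v := x), SimpleGraph.dist_comm (u := u) (v := y)]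
      exact hu.2
    · rw [SimpleGraph.dist_comm (u := w) (v := y), SimpleGraph.dist_comm (u := w) (v := x)]
      exact hw.2

/-- The branch of a kid inside a side is the side of the kid. -/
theorem side_side (hT : G.IsTree) (h : G.Adj x y) (hc : c ∈ kids G x y) (S : Finset V) :
    side G (side G S x y) c x = side G S c x := by
  rw [mem_kids] at hc
  ext v
  rw [mem_side, mem_side, mem_side]
  constructor
  · rintro ⟨⟨h1, _⟩, h3⟩
    exact ⟨h1, h3⟩
  · rintro ⟨h1, h3⟩
    exact ⟨⟨h1, tg_closer_of_kid hT h hc.1 hc.2 h3⟩, h3⟩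

theorem side_brn (hT : G.IsTree) (h : G.Adj x y) (hc : c ∈ kids G x y) (m : ℕ) :
    side G (brn G x y (m + 1)) c x = brn G c x m := by
  rw [mem_kids] at hc
  ext v
  rw [mem_side, mem_brn hT, mem_brn hT]
  have h0 := tg_dist_adj' hT hc.1 v
  constructor
  · rintro ⟨⟨h1, _⟩, h3⟩
    exact ⟨by omega, h3⟩
  · rintro ⟨h1, h3⟩
    exact ⟨⟨by omega, tg_closer_of_kid hT h hc.1 hc.2 h3⟩, h3⟩

theorem side_ball (hT : G.IsTree) (h : G.Adj x y) (m : ℕ) :
    side G (ball G x (m + 1)) y x = brn G y x m := by
  ext v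
  rw [mem_side, mem_ball hT, mem_brn hT]
  have h0 := tg_dist_adj' hT h v
  constructor
  · rintro ⟨h1, h3⟩
    exact ⟨by omega, h3⟩
  · rintro ⟨h1, h3⟩
    exact ⟨by omega, h3⟩

theorem side_ball_self (x y : V) (m : ℕ) : side G (ball G x m) x y = brn G x y m := rfl

/-- The kid's branch and the rest of the branch of `x`. -/
theorem brn_kid_cut (hT : G.IsTree) (h : G.Adj x y) (hc : c ∈ kids G x y) (m : ℕ) :
    Cut G (side G (brn G x y (m + 1)) x c) (brn G c x m) x c ∧
    side G (brn G x y (m + 1)) x c ∪ brn G c x m = brn G x y (m + 1) := by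
  have hc' := mem_kids.1 hc
  have hxS : x ∈ brn G x y (m + 1) := self_mem_brn hT h _
  have hcS : c ∈ brn G x y (m + 1) := by
    rw [mem_brn hT, tg_dist_of_adj hc'.1]
    refine ⟨by omega, ?_⟩
    have h1 : G.dist c c < G.dist x c := by
      rw [tg_dist_self_zero, tg_dist_of_adj hc'.1]
      omega
    have := tg_closer_of_kid hT h hc'.1 hc'.2 h1
    rwa [tg_dist_of_adj hc'.1] at this
  have h1 := side_cut hT hc'.1 hxS hcS
  have h2 := side_union hT hc'.1 (brn G x y (m + 1))
  rw [side_brn hT h hc] at h1 h2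
  exact ⟨h1, h2⟩

/-- Any other kid's branch lies in the rest. -/
theorem brn_other_kid_subset (hT : G.IsTree) (h : G.Adj x y) {c c' : V} (hc : c ∈ kids G x y)
    (hc' : c' ∈ kids G x y) (hne : c ≠ c') (m : ℕ) :
    brn G c' x m ⊆ side G (brn G x y (m + 1)) x c := by
  rw [mem_kids] at hc hc'
  intro v hv
  rw [mem_brn hT] at hv
  rw [mem_side, mem_brn hT]
  have h0 := tg_dist_adj' hT hc'.1 v
  exact ⟨⟨by omega, tg_closer_of_kid hT h hc'.1 hc'.2 hv.2⟩,
    tg_closer_of_kid hT hc.1 hc'.1 hne.symm hv.2⟩

/-- Distinct kids have disjoint branches. -/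
theorem brn_kids_disjoint (hT : G.IsTree) (h : G.Adj x y) {c c' : V} (hc : c ∈ kids G x y)
    (hc' : c' ∈ kids G x y) (hne : c ≠ c') (m m' : ℕ) :
    Disjoint (brn G c x m) (brn G c' x m') := by
  rw [mem_kids] at hc hc'
  rw [Finset.disjoint_left]
  intro v hv hv'
  rw [mem_brn hT] at hv hv'
  have := tg_closer_of_kid hT hc'.1 hc.1 hne hv.2
  omega

/-- Points on a geodesic from `r` to a point of a star shaped set are in the set. -/
lemma tg_star_between (hT : G.IsTree) {S : Finset V} {r : V} (hS : Star G r S) {p : V} :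
    ∀ (n : ℕ) {w : V}, G.dist p w = n → w ∈ S → G.dist r w = G.dist r p + G.dist p w → p ∈ S := by
  intro n
  induction n with
  | zero =>
    intro w h0 hw _
    have : p = w := (hT.1.dist_eq_zero_iff).1 h0
    rwa [this]
  | succ n ih =>
    intro w h0 hw hd
    have hne : w ≠ p := by
      rintro rfl
      simp at h0
    obtain ⟨w', hadj, hd'⟩ := exists_parent hT (o := p) hne
    have h1 : G.dist r w' ≤ G.dist r p + G.dist p w' := hT.1.dist_triangle
    have h2 := dist_adj hT (o := r) hadj
    have hpar : G.dist r w' + 1 = G.dist r w := by omega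
    exact ih (by omega) (hS w hw w' hadj hpar) (by omega)

theorem star_side (hT : G.IsTree) (h : G.Adj x y) {S : Finset V} {r : V} (hr : r ∈ S)
    (hS : Star G r S) (hx : x ∈ S) (hxr : G.dist r x < G.dist r y ∨ r = x) :
    Star G x S := by
  intro z hz p hp hd
  rcases dist_adj hT (o := r) hp with h1 | h1
  · have hadd := dist_add_across hT (o := r) (v := x) hp h1.symm (by
      rw [SimpleGraph.dist_comm (u := x) (v := p), SimpleGraph.dist_comm (u := x) (v := z)] at *
      exact hd)
    exact tg_star_between hT hS _ rfl hx hadd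
  · exact hS z hz p hp h1.symm

lemma tg_side_of_toward (hT : G.IsTree) (h : G.Adj x y) {z p : V} (hp : G.Adj z p)
    (hd : G.dist x p + 1 = G.dist x z) (hz : G.dist x z < G.dist y z) :
    G.dist x p < G.dist y p := by
  rcases tg_dist_adj' hT h p with h1 | h1
  · omega
  · exfalso
    have h2 := edge_cut hT h hp (by
      rw [SimpleGraph.dist_comm (u := z) (v := x), SimpleGraph.dist_comm (u := z) (v := y)]
      exact hz) (by
      rw [SimpleGraph.dist_comm (u := p) (v := y), SimpleGraph.dist_comm (u := p) (v := x)]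
      omega)
    obtain ⟨rfl, rfl⟩ := h2
    rw [tg_dist_of_adj h, tg_dist_self_zero] at hd
    omega

theorem star_side_self (hT : G.IsTree) (h : G.Adj x y) {S : Finset V} (hx : x ∈ S)
    (hS : Star G x S) : Star G x (side G S x y) := by
  intro z hz p hp hd
  rw [mem_side] at hz ⊢
  exact ⟨hS z hz.1 p hp hd, tg_side_of_toward hT h hp hd hz.2⟩

theorem star_brn (hT : G.IsTree) (h : G.Adj x y) (m : ℕ) : Star G x (brn G x y m) := by
  intro z hz p hp hd
  rw [mem_brn hT] at hz ⊢
  exact ⟨by omega, tg_side_of_toward hT h hp hd hz.2⟩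

/-! Geodesics. -/

end Vale.Agent.Lib.P161E
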