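import Vale.Agent.Lib.P161.Tree

/-! Automorphisms of regular trees: any two non-backtracking paths of the same length are
related by an automorphism. -/

open Finset
open scoped Classical

noncomputable section

namespace Vale.Agent.Lib.P161E.Corr

open Vale.Agent.Lib.P161

variable {V : Type*} {G : SimpleGraph V}

/-- `x 0, …, x n` is a non-backtracking path with `n` edges. -/
def IsNB (G : SimpleGraph V) (x : ℕ → V) (n : ℕ) : Prop :=
  (∀ i, i < n → G.Adj (x i) (x (i + 1))) ∧ ∀ i, i + 1 < n → x (i + 2) ≠ x i

theorem IsNB.dist_eq (hT : G.IsTree) {x : ℕ → V} {n : ℕ} (hx : IsNB G x n) :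
    ∀ i, i ≤ n → G.dist (x 0) (x i) = i := by
  intro i
  induction i using Nat.strong_induction_on with
  | _ i ih =>
    intro hi
    match i, ih, hi with
    | 0, _, _ => simp
    | 1, _, hi =>
      have := hx.1 0 (by omega)
      simpa using SimpleGraph.dist_eq_one_iff_adj.2 this
    | i + 2, ih, hi =>
      have h1 := ih (i + 1) (by omega) (by omega)
      have h0 := ih i (by omega) (by omega)
      have hadj := hx.1 (i + 1) (by omega)
      have hadj0 := hx.1 i (by omega)
      rcases dist_adj hT (o := x 0) hadj with h | h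
      · change G.dist (x 0) (x (i + 2)) = _ at h
        omega
      · exfalso
        change _ = G.dist (x 0) (x (i + 2)) + 1 at h
        have : x (i + 2) = x i :=
          parent_unique hT (o := x 0) hadj hadj0.symm (by omega) (by omega)
        exact hx.2 i (by omega) this

section Children

variable [G.LocallyFinite]

/-- The children of `p` in the tree rooted at `o`. -/
def kids (G : SimpleGraph V) [G.LocallyFinite] (o p : V) : Finset V :=
  (G.neighborFinset p).filter (fun v => G.dist o v = G.dist o p + 1)

theorem mem_kids {o p v : V} : v ∈ kids G o p ↔ G.Adj p v ∧ G.dist o v = G.dist o p + 1 := by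
  simp [kids]

theorem card_kids_root {d : ℕ} (hreg : G.IsRegularOfDegree d) (o : V) :
    (kids G o o).card = d := by
  have : kids G o o = G.neighborFinset o := by
    apply Finset.filter_true_of_mem
    intro v hv
    have hv' : G.Adj o v := by simpa using hv
    simpa using SimpleGraph.dist_eq_one_iff_adj.2 hv'
  rw [this, SimpleGraph.card_neighborFinset_eq_degree, hreg o]

theorem card_kids (hT : G.IsTree) {d : ℕ} (hreg : G.IsRegularOfDegree d) {o p : V} (hp : p ≠ o) :
    (kids G o p).card + 1 = d := by
  obtain ⟨q, hq, hd⟩ := exists_parent hT hp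
  have hins : G.neighborFinset p = insert q (kids G o p) := by
    ext v
    simp only [SimpleGraph.mem_neighborFinset, Finset.mem_insert, mem_kids]
    constructor
    · intro hv
      rcases dist_adj hT (o := o) hv with h | h
      · exact Or.inr ⟨hv, h⟩
      · exact Or.inl (parent_unique hT (o := o) hv hq (by omega) (by omega))
    · rintro (rfl | h)
      · exact hq
      · exact h.1
  have hnot : q ∉ kids G o p := by
    rw [mem_kids]
    rintro ⟨-, h⟩
    omega
  rw [← Finset.card_insert_of_notMem hnot, ← hins, SimpleGraph.card_neighborFinset_eq_degree,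
    hreg p]

end Children

/-- A bijection between finite sets of the same size, with one prescribed value. -/
theorem exists_bij_prescribed {A B : Finset V} (h : A.card = B.card) {a b : V} (ha : a ∈ A)
    (hb : b ∈ B) :
    ∃ f : V → V, Set.MapsTo f A B ∧ Set.InjOn f A ∧ Set.SurjOn f A B ∧ f a = b := by
  obtain ⟨e⟩ : Nonempty (A ≃ B) := ⟨Finset.equivOfCardEq h⟩
  let e' : A ≃ B := e.trans (Equiv.swap (e ⟨a, ha⟩) ⟨b, hb⟩)
  refine ⟨fun v => if hv : v ∈ A then (e' ⟨v, hv⟩ : V) else v, ?_, ?_, ?_, ?_⟩
  · intro v hv
    have hv' : v ∈ A := by simpa using hv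
    simp only [hv', dif_pos]
    exact (e' ⟨v, hv'⟩).2
  · intro u hu v hv huv
    have hu' : u ∈ A := by simpa using hu
    have hv' : v ∈ A := by simpa using hv
    simp only [hu', hv', dif_pos] at huv
    have := e'.injective (Subtype.ext huv)
    simpa using this
  · intro w hw
    have hw' : w ∈ B := by simpa using hw
    refine ⟨(e'.symm ⟨w, hw'⟩ : V), (e'.symm ⟨w, hw'⟩).2, ?_⟩
    simp
  · have : e' ⟨a, ha⟩ = ⟨b, hb⟩ := by simp [e']
    simp only [ha, dif_pos, this]

theorem exists_bij {A B : Finset V} (h : A.card = B.card) :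
    ∃ f : V → V, Set.MapsTo f A B ∧ Set.InjOn f A ∧ Set.SurjOn f A B := by
  by_cases hA : A.Nonempty
  · obtain ⟨a, ha⟩ := hA
    have hB : B.Nonempty := by
      rw [← Finset.card_pos, ← h]
      exact Finset.card_pos.2 ⟨a, ha⟩
    obtain ⟨b, hb⟩ := hB
    obtain ⟨f, h1, h2, h3, -⟩ := exists_bij_prescribed h ha hb
    exact ⟨f, h1, h2, h3⟩
  · have hA' : A = ∅ := Finset.not_nonempty_iff_eq_empty.1 hA
    subst hA'
    have hB' : B = ∅ := by
      rw [← Finset.card_eq_zero, ← h]
      simp
    subst hB'
    exact ⟨id, by simp, by simp, by simp⟩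

section Aut

variable [G.LocallyFinite]

/-- The parent of a vertex in the tree rooted at `o`. -/
def par (G : SimpleGraph V) (o v : V) : V :=
  if h : ∃ p, G.Adj v p ∧ G.dist o p + 1 = G.dist o v then h.choose else o

theorem par_spec (hT : G.IsTree) {o v : V} (hv : v ≠ o) :
    G.Adj v (par G o v) ∧ G.dist o (par G o v) + 1 = G.dist o v := by
  have h := exists_parent hT hv
  unfold par
  rw [dif_pos h]
  exact h.choose_spec

theorem par_eq (hT : G.IsTree) {o v p : V} (h1 : G.Adj v p) (h2 : G.dist o p + 1 = G.dist o v) :
    par G o v = p := by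
  have hv : v ≠ o := by
    rintro rfl
    simp at h2
  obtain ⟨h3, h4⟩ := par_spec hT hv
  exact parent_unique hT h3 h1 h4 h2

theorem kid_ne_root {o p v : V} (h : v ∈ kids G o p) : v ≠ o := by
  rintro rfl
  have := (mem_kids.1 h).2
  simp at this

theorem par_of_kid (hT : G.IsTree) {o p v : V} (h : v ∈ kids G o p) : par G o v = p := by
  obtain ⟨h1, h2⟩ := mem_kids.1 h
  exact par_eq hT h1.symm h2.symm

variable (G) in
/-- Recursive definition of the map, by depth. -/
def phiN (o o' : V) (β : V → V → V → V) : ℕ → V → V
  | 0, _ => o'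
  | k + 1, v => if v = o then o' else β (par G o v) (phiN o o' β k (par G o v)) v

variable (G) in
def phi (o o' : V) (β : V → V → V → V) (v : V) : V := phiN G o o' β (G.dist o v) v

theorem phi_root (o o' : V) (β : V → V → V → V) : phi G o o' β o = o' := by
  simp [phi, phiN]

theorem phi_of_ne (hT : G.IsTree) {o v : V} (o' : V) (β : V → V → V → V) (hv : v ≠ o) :
    phi G o o' β v = β (par G o v) (phi G o o' β (par G o v)) v := by
  obtain ⟨-, h2⟩ := par_spec hT hv
  unfold phi
  rw [← h2, phiN, if_neg hv]

/-- Data of the construction: for corresponding vertices, `β` maps children bijectively. -/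
structure BetaGood (G : SimpleGraph V) [G.LocallyFinite] (o o' : V) (β : V → V → V → V) : Prop where
  maps : ∀ p p', (p = o ↔ p' = o') → Set.MapsTo (β p p') (kids G o p) (kids G o' p')
  inj : ∀ p p', (p = o ↔ p' = o') → Set.InjOn (β p p') (kids G o p)
  surj : ∀ p p', (p = o ↔ p' = o') → Set.SurjOn (β p p') (kids G o p) (kids G o' p')

variable {o o' : V} {β : V → V → V → V}

theorem phi_dist (hT : G.IsTree) (hβ : BetaGood G o o' β) :
    ∀ n v, G.dist o v = n → G.dist o' (phi G o o' β v) = n ∧ (v ≠ o →
      phi G o o' β v ∈ kids G o' (phi G o o' β (par G o v))) := by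
  intro n
  induction n with
  | zero =>
    intro v hv
    have hvo : v = o := ((hT.1.dist_eq_zero_iff).1 hv).symm
    subst hvo
    simp [phi_root]
  | succ n ih =>
    intro v hv
    have hvo : v ≠ o := by
      rintro rfl
      simp at hv
    obtain ⟨h1, h2⟩ := par_spec hT hvo
    obtain ⟨ih1, -⟩ := ih (par G o v) (by omega)
    have hcompat : (par G o v = o ↔ phi G o o' β (par G o v) = o') := by
      constructor
      · intro h
        have : G.dist o (par G o v) = 0 := by rw [h]; simp
        have h3 : n = 0 := by omega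
        rw [h3] at ih1
        exact ((hT.1.dist_eq_zero_iff).1 ih1).symm
      · intro h
        rw [h] at ih1
        have h3 : n = 0 := by simpa using ih1.symm
        have h4 : G.dist o (par G o v) = 0 := by omega
        exact ((hT.1.dist_eq_zero_iff).1 h4).symm
    have hkid : v ∈ kids G o (par G o v) := mem_kids.2 ⟨h1.symm, h2.symm⟩
    have hm := hβ.maps _ _ hcompat hkid
    rw [← phi_of_ne hT o' β hvo] at hm
    refine ⟨?_, fun _ => hm⟩
    have := (mem_kids.1 hm).2
    rw [this, ih1]

theorem phi_dist_eq (hT : G.IsTree) (hβ : BetaGood G o o' β) (v : V) :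
    G.dist o' (phi G o o' β v) = G.dist o v := (phi_dist hT hβ _ v rfl).1

theorem phi_kid (hT : G.IsTree) (hβ : BetaGood G o o' β) {v : V} (hv : v ≠ o) :
    phi G o o' β v ∈ kids G o' (phi G o o' β (par G o v)) := (phi_dist hT hβ _ v rfl).2 hv

theorem phi_compat (hT : G.IsTree) (hβ : BetaGood G o o' β) (v : V) :
    v = o ↔ phi G o o' β v = o' := by
  have h := phi_dist_eq hT hβ v
  constructor
  · rintro rfl
    exact phi_root _ _ _
  · intro h2
    rw [h2] at h
    simp only [SimpleGraph.dist_self] at h
    exact ((hT.1.dist_eq_zero_iff).1 h.symm).symm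

theorem phi_injective (hT : G.IsTree) (hβ : BetaGood G o o' β) :
    Function.Injective (phi G o o' β) := by
  have key : ∀ n u v, G.dist o u = n → phi G o o' β u = phi G o o' β v → u = v := by
    intro n
    induction n with
    | zero =>
      intro u v hu huv
      have huo : u = o := ((hT.1.dist_eq_zero_iff).1 hu).symm
      subst huo
      rw [phi_root] at huv
      exact ((phi_compat hT hβ v).2 huv.symm).symm
    | succ n ih =>
      intro u v hu huv
      have hd := phi_dist_eq hT hβ u
      have hd' := phi_dist_eq hT hβ v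
      rw [huv] at hd
      have hdv : G.dist o v = n + 1 := by omega
      have huo : u ≠ o := by
        rintro rfl
        simp at hu
      have hvo : v ≠ o := by
        rintro rfl
        simp at hdv
      have hk1 := mem_kids.1 (phi_kid hT hβ huo)
      have hk2 := mem_kids.1 (phi_kid hT hβ hvo)
      rw [huv] at hk1
      have hp : phi G o o' β (par G o u) = phi G o o' β (par G o v) :=
        parent_unique hT (o := o') hk1.1.symm hk2.1.symm (by omega) (by omega)
      obtain ⟨-, h2⟩ := par_spec hT huo
      have hpp : par G o u = par G o v := ih _ _ (by omega) hp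
      have e1 := phi_of_ne hT o' β huo
      have e2 := phi_of_ne hT o' β hvo
      rw [e1, e2, ← hpp] at huv
      have hc : (par G o u = o ↔ phi G o o' β (par G o u) = o') := phi_compat hT hβ _
      obtain ⟨g1, g2⟩ := par_spec hT huo
      obtain ⟨g3, g4⟩ := par_spec hT hvo
      refine hβ.inj _ _ hc ?_ ?_ huv
      · exact mem_kids.2 ⟨g1.symm, g2.symm⟩
      · rw [hpp]
        exact mem_kids.2 ⟨g3.symm, g4.symm⟩
  intro u v h
  exact key _ u v rfl h

theorem phi_surjective (hT : G.IsTree) (hβ : BetaGood G o o' β) :
    Function.Surjective (phi G o o' β) := by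
  have key : ∀ n w, G.dist o' w = n → ∃ v, phi G o o' β v = w := by
    intro n
    induction n with
    | zero =>
      intro w hw
      have hwo : w = o' := ((hT.1.dist_eq_zero_iff).1 hw).symm
      exact ⟨o, by rw [phi_root, hwo]⟩
    | succ n ih =>
      intro w hw
      have hwo : w ≠ o' := by
        rintro rfl
        simp at hw
      obtain ⟨h1, h2⟩ := par_spec hT hwo
      obtain ⟨p, hp⟩ := ih (par G o' w) (by omega)
      have hkid : w ∈ kids G o' (phi G o o' β p) := by
        rw [hp]
        exact mem_kids.2 ⟨h1.symm, h2.symm⟩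
      obtain ⟨v, hv, hvw⟩ := hβ.surj p _ (phi_compat hT hβ p) hkid
      have hv' : v ∈ kids G o p := hv
      refine ⟨v, ?_⟩
      rw [phi_of_ne hT o' β (kid_ne_root hv'), par_of_kid hT hv']
      exact hvw
  intro w
  exact key _ w rfl

theorem phi_adj (hT : G.IsTree) (hβ : BetaGood G o o' β) {u v : V} :
    G.Adj (phi G o o' β u) (phi G o o' β v) ↔ G.Adj u v := by
  -- the child case
  have forward : ∀ {a b : V}, G.Adj a b → G.dist o b = G.dist o a + 1 →
      G.Adj (phi G o o' β a) (phi G o o' β b) := by
    intro a b hab hd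
    have hb : b ∈ kids G o a := mem_kids.2 ⟨hab, hd⟩
    have hk := phi_kid hT hβ (kid_ne_root hb)
    rw [par_of_kid hT hb] at hk
    exact (mem_kids.1 hk).1
  have backward : ∀ {a b : V}, G.Adj (phi G o o' β a) (phi G o o' β b) →
      G.dist o' (phi G o o' β b) = G.dist o' (phi G o o' β a) + 1 → G.Adj a b := by
    intro a b hab hd
    have hb : b ≠ o := by
      rintro rfl
      rw [phi_root] at hd
      simp at hd
    have hk := mem_kids.1 (phi_kid hT hβ hb)
    have h1 : phi G o o' β (par G o b) = phi G o o' β a :=
      parent_unique hT (o := o') hk.1.symm hab.symm (by omega) (by omega)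
    have h2 := phi_injective hT hβ h1
    rw [← h2]
    exact (par_spec hT hb).1.symm
  constructor
  · intro h
    rcases dist_adj hT (o := o') h with h1 | h1
    · exact backward h h1
    · exact (backward h.symm h1).symm
  · intro h
    rcases dist_adj hT (o := o) h with h1 | h1
    · exact forward h h1
    · exact (forward h.symm h1).symm

end Aut

/-- Two non-backtracking paths with the same number of edges in a regular tree are related by an
automorphism. -/
theorem exists_aut_of_paths [G.LocallyFinite] (hT : G.IsTree) {d : ℕ}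
    (hreg : G.IsRegularOfDegree d) {x x' : ℕ → V} {n : ℕ} (hx : IsNB G x n) (hx' : IsNB G x' n) :
    ∃ φ : G ≃g G, ∀ i, i ≤ n → φ (x i) = x' i := by
  set o := x 0 with ho
  set o' := x' 0 with ho'
  have hdx := hx.dist_eq hT
  have hdx' := hx'.dist_eq hT
  have hcard : ∀ p p', (p = o ↔ p' = o') → (kids G o p).card = (kids G o' p').card := by
    intro p p' h
    by_cases hp : p = o
    · have hp' := h.1 hp
      subst hp
      rw [hp', card_kids_root hreg, card_kids_root hreg]
    · have hp' : p' ≠ o' := fun h' => hp (h.2 h')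
      have h1 := card_kids hT hreg hp
      have h2 := card_kids hT hreg hp'
      omega
  have hexists : ∀ p p', (p = o ↔ p' = o') → ∃ f : V → V,
      Set.MapsTo f (kids G o p) (kids G o' p') ∧ Set.InjOn f (kids G o p) ∧
      Set.SurjOn f (kids G o p) (kids G o' p') ∧
      ∀ i, i < n → p = x i → p' = x' i → f (x (i + 1)) = x' (i + 1) := by
    intro p p' h
    by_cases hi : ∃ i, i < n ∧ p = x i ∧ p' = x' i
    · obtain ⟨i, hi1, hi2, hi3⟩ := hi
      have ha : x (i + 1) ∈ kids G o p := by
        rw [hi2]
        refine mem_kids.2 ⟨hx.1 i hi1, ?_⟩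
        rw [ho, hdx i (by omega), hdx (i + 1) (by omega)]
      have hb : x' (i + 1) ∈ kids G o' p' := by
        rw [hi3]
        refine mem_kids.2 ⟨hx'.1 i hi1, ?_⟩
        rw [ho', hdx' i (by omega), hdx' (i + 1) (by omega)]
      obtain ⟨f, h1, h2, h3, h4⟩ := exists_bij_prescribed (hcard p p' h) ha hb
      refine ⟨f, h1, h2, h3, ?_⟩
      intro j hj hj1 hj2
      have : j = i := by
        have e : G.dist o (x j) = G.dist o (x i) := by rw [← hj1, hi2]
        rw [ho, hdx j (by omega), hdx i (by omega)] at e
        exact e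
      subst this
      exact h4
    · obtain ⟨f, h1, h2, h3⟩ := exists_bij (hcard p p' h)
      refine ⟨f, h1, h2, h3, ?_⟩
      intro j hj hj1 hj2
      exact absurd ⟨j, hj, hj1, hj2⟩ hi
  let β : V → V → V → V := fun p p' =>
    if h : (p = o ↔ p' = o') then (hexists p p' h).choose else id
  have hβ1 : ∀ p p' (h : p = o ↔ p' = o'), β p p' = (hexists p p' h).choose := by
    intro p p' h
    simp only [β, dif_pos h]
  have hβ : BetaGood G o o' β := by
    refine ⟨?_, ?_, ?_⟩
    · intro p p' h
      rw [hβ1 p p' h]
      exact (hexists p p' h).choose_spec.1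
    · intro p p' h
      rw [hβ1 p p' h]
      exact (hexists p p' h).choose_spec.2.1
    · intro p p' h
      rw [hβ1 p p' h]
      exact (hexists p p' h).choose_spec.2.2.1
  have hbij : Function.Bijective (phi G o o' β) := ⟨phi_injective hT hβ, phi_surjective hT hβ⟩
  refine ⟨⟨Equiv.ofBijective _ hbij, ?_⟩, ?_⟩
  · intro u v
    simp only [Equiv.ofBijective_apply]
    exact phi_adj hT hβ
  · intro i
    induction i with
    | zero =>
      intro _
      simp only [RelIso.coe_fn_mk, Equiv.ofBijective_apply]
      exact phi_root _ _ _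
    | succ i ih =>
      intro hi
      have h1 := ih (by omega)
      simp only [RelIso.coe_fn_mk, Equiv.ofBijective_apply] at h1 ⊢
      have hne : x (i + 1) ≠ o := by
        intro h
        have := hdx (i + 1) (by omega)
        rw [← ho, h] at this
        simp at this
      have hkid : x (i + 1) ∈ kids G o (x i) := by
        refine mem_kids.2 ⟨hx.1 i (by omega), ?_⟩
        rw [ho, hdx i (by omega), hdx (i + 1) (by omega)]
      rw [phi_of_ne hT o' β hne, par_of_kid hT hkid, h1]
      have hc : (x i = o ↔ x' i = o') := by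
        rw [← h1]
        exact phi_compat hT hβ _
      rw [hβ1 _ _ hc]
      exact (hexists _ _ hc).choose_spec.2.2.2 i (by omega) rfl rfl

end Vale.Agent.Lib.P161E.Corr
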