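import Vale.Agent.Lib.P161E.TreeA

/-! Job B1b: geodesics. -/

open MeasureTheory Finset Filter Topology
open scoped Classical ENNReal

set_option linter.unusedSectionVars false
set_option linter.unusedVariables false

noncomputable section

namespace Vale.Agent.Lib.P161E

open Vale.Agent.Lib.P161

variable {V : Type*} {G : SimpleGraph V} [G.LocallyFinite] {d : ℕ} {x y c r v : V} {m : ℕ}

theorem geo_zero (r v : V) : geo G r v 0 = r := rfl

theorem geo_succ (r v : V) (j : ℕ) : geo G r v (j + 1) = nxt G (geo G r v j) v := rfl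

lemma tg_nxt_spec (hT : G.IsTree) {a v : V} (h : a ≠ v) :
    G.Adj a (nxt G a v) ∧ G.dist v (nxt G a v) + 1 = G.dist v a := by
  have hex : ∃ p, G.Adj a p ∧ G.dist v p + 1 = G.dist v a := exists_parent hT (o := v) h
  unfold nxt
  rw [dif_pos hex]
  exact hex.choose_spec

lemma tg_nxt_eq (hT : G.IsTree) {a v p : V} (hp : G.Adj a p)
    (hd : G.dist v p + 1 = G.dist v a) : nxt G a v = p := by
  have hne : a ≠ v := by
    rintro rfl
    simp at hd
  have h1 := tg_nxt_spec hT hne
  exact parent_unique hT (o := v) h1.1 hp h1.2 hd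

theorem dist_geo (hT : G.IsTree) {r v : V} {j : ℕ} (hj : j ≤ G.dist r v) :
    G.dist r (geo G r v j) = j ∧ G.dist (geo G r v j) v = G.dist r v - j := by
  induction j with
  | zero => simp [geo]
  | succ j ih =>
    obtain ⟨h1, h2⟩ := ih (by omega)
    have hne : geo G r v j ≠ v := by
      intro he
      rw [he] at h2
      simp at h2
      omega
    obtain ⟨h3, h4⟩ := tg_nxt_spec hT hne
    rw [geo_succ]
    set a := geo G r v j
    set b := nxt G a v
    have h5 : G.dist b v + 1 = G.dist a v := by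
      rw [SimpleGraph.dist_comm (u := b) (v := v), SimpleGraph.dist_comm (u := a) (v := v)]
      exact h4
    have h6 : G.dist r b ≤ G.dist r a + G.dist a b := hT.1.dist_triangle
    have h7 : G.dist a b = 1 := tg_dist_of_adj h3
    have h8 : G.dist r v ≤ G.dist r b + G.dist b v := hT.1.dist_triangle
    omega

theorem geo_adj (hT : G.IsTree) {r v : V} {j : ℕ} (hj : j < G.dist r v) :
    G.Adj (geo G r v j) (geo G r v (j + 1)) := by
  have h2 := (dist_geo hT (r := r) (v := v) hj.le).2
  have hne : geo G r v j ≠ v := by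
    intro he
    rw [he] at h2
    simp at h2
    omega
  exact (tg_nxt_spec hT hne).1

lemma tg_geo_step_dist (hT : G.IsTree) {r v : V} {j : ℕ} (hj : j < G.dist r v) :
    G.dist v (geo G r v (j + 1)) + 1 = G.dist v (geo G r v j) := by
  have h2 := (dist_geo hT (r := r) (v := v) hj.le).2
  have hne : geo G r v j ≠ v := by
    intro he
    rw [he] at h2
    simp at h2
    omega
  exact (tg_nxt_spec hT hne).2

theorem geo_last (hT : G.IsTree) (r v : V) : geo G r v (G.dist r v) = v := by
  have h2 := (dist_geo hT (r := r) (v := v) le_rfl).2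
  rw [Nat.sub_self] at h2
  exact (hT.1.dist_eq_zero_iff).1 h2

theorem geo_suffix (hT : G.IsTree) {r v : V} {j i : ℕ} (hj : j + i ≤ G.dist r v) :
    geo G (geo G r v j) v i = geo G r v (j + i) := by
  induction i with
  | zero => rfl
  | succ i ih =>
    rw [geo_succ, ih (by omega), ← Nat.add_assoc, geo_succ]

/-- If `b` is between `r` and `v`, the geodesics to `b` and to `v` agree up to `b`. -/
lemma tg_geo_between (hT : G.IsTree) {r v b : V}
    (hb : G.dist r v = G.dist r b + G.dist b v) {i : ℕ} (hi : i ≤ G.dist r b) :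
    geo G r b i = geo G r v i := by
  induction i with
  | zero => rfl
  | succ i ih =>
    have hi' : i ≤ G.dist r b := by omega
    rw [geo_succ, geo_succ, ← ih hi']
    obtain ⟨h1, h2⟩ := dist_geo hT (r := r) (v := b) hi'
    set a := geo G r b i with ha
    have hne : a ≠ b := by
      intro he
      rw [he] at h2
      simp at h2
      omega
    obtain ⟨h3, h4⟩ := tg_nxt_spec hT hne
    set p := nxt G a b with hp
    symm
    apply tg_nxt_eq hT h3
    have h5 : G.dist a v ≤ G.dist a b + G.dist b v := hT.1.dist_triangle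
    have h6 : G.dist r v ≤ G.dist r a + G.dist a v := hT.1.dist_triangle
    have h7 : G.dist p v ≤ G.dist p b + G.dist b v := hT.1.dist_triangle
    have h8 : G.dist b p = G.dist p b := SimpleGraph.dist_comm
    have h9 : G.dist b a = G.dist a b := SimpleGraph.dist_comm
    have h10 := dist_adj hT (o := v) h3
    rw [SimpleGraph.dist_comm (u := v) (v := a), SimpleGraph.dist_comm (u := v) (v := p)] at h10 ⊢
    omega

theorem geo_prefix (hT : G.IsTree) {r v : V} {j i : ℕ} (hi : i ≤ j) (hj : j ≤ G.dist r v) :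
    geo G r (geo G r v j) i = geo G r v i := by
  obtain ⟨h1, h2⟩ := dist_geo hT (r := r) (v := v) hj
  exact tg_geo_between hT (b := geo G r v j) (by omega) (by omega)

/-- The reversed geodesic. -/
theorem geo_rev (hT : G.IsTree) {r v : V} {i : ℕ} (hi : i ≤ G.dist r v) :
    geo G v r i = geo G r v (G.dist r v - i) := by
  induction i with
  | zero => simp [geo_zero, geo_last hT]
  | succ i ih =>
    rw [geo_succ, ih (by omega)]
    have hlt : G.dist r v - (i + 1) < G.dist r v := by omega
    have h1 := geo_adj hT hlt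
    have h2 : G.dist r v - (i + 1) + 1 = G.dist r v - i := by omega
    rw [h2] at h1
    apply tg_nxt_eq hT h1.symm
    rw [(dist_geo hT (r := r) (v := v) (by omega)).1, (dist_geo hT (r := r) (v := v) (by omega)).1]
    omega

theorem isGeo_geo (hT : G.IsTree) (r v : V) : IsGeo G (geo G r v) (G.dist r v) := by
  refine ⟨fun i hi => geo_adj hT hi, ?_⟩
  rw [geo_zero, geo_last hT]

lemma IsGeo.tg_dist_le {q : ℕ → V} {n : ℕ} (hT : G.IsTree) (hq : IsGeo G q n) {i : ℕ} :
    ∀ k, i + k ≤ n → G.dist (q i) (q (i + k)) ≤ k := by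
  intro k
  induction k with
  | zero => simp
  | succ k ih =>
    intro h
    have h1 := ih (by omega)
    have h2 : G.dist (q (i + k)) (q (i + k + 1)) = 1 := tg_dist_of_adj (hq.1 _ (by omega))
    have h3 : G.dist (q i) (q (i + k + 1)) ≤ G.dist (q i) (q (i + k)) +
        G.dist (q (i + k)) (q (i + k + 1)) := hT.1.dist_triangle
    rw [← Nat.add_assoc]
    omega

/-- Along a geodesic segment distances are differences of indices. -/
theorem IsGeo.dist_eq (hT : G.IsTree) {q : ℕ → V} {n : ℕ} (hq : IsGeo G q n) {i j : ℕ} (hij : i ≤ j)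
    (hj : j ≤ n) : G.dist (q i) (q j) = j - i := by
  have h1 := IsGeo.tg_dist_le hT hq (i := i) (j - i) (by omega)
  have h2 := IsGeo.tg_dist_le hT hq (i := 0) i (by omega)
  have h3 := IsGeo.tg_dist_le hT hq (i := j) (n - j) (by omega)
  rw [show i + (j - i) = j by omega] at h1
  rw [show 0 + i = i by omega] at h2
  rw [show j + (n - j) = n by omega] at h3
  have h4 : G.dist (q 0) (q n) ≤ G.dist (q 0) (q i) + G.dist (q i) (q n) := hT.1.dist_triangle
  have h5 : G.dist (q i) (q n) ≤ G.dist (q i) (q j) + G.dist (q j) (q n) := hT.1.dist_triangle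
  have h6 := hq.2
  omega

/-- A geodesic segment is `geo` of its ends. -/
theorem IsGeo.eq_geo (hT : G.IsTree) {q : ℕ → V} {n : ℕ} (hq : IsGeo G q n) {i : ℕ} (hi : i ≤ n) :
    geo G (q 0) (q n) i = q i := by
  induction i with
  | zero => rfl
  | succ i ih =>
    rw [geo_succ, ih (by omega)]
    apply tg_nxt_eq hT (hq.1 i (by omega))
    rw [SimpleGraph.dist_comm (u := q n) (v := q (i + 1)), SimpleGraph.dist_comm (u := q n) (v := q i),
      IsGeo.dist_eq hT hq (by omega) le_rfl, IsGeo.dist_eq hT hq (by omega) le_rfl]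
    omega

/-- Reversal and shifting of geodesic segments. -/
theorem IsGeo.rev (hT : G.IsTree) {q : ℕ → V} {n : ℕ} (hq : IsGeo G q n) :
    IsGeo G (fun i => q (n - i)) n := by
  refine ⟨fun i hi => ?_, ?_⟩
  · have h1 := hq.1 (n - (i + 1)) (by omega)
    rw [show n - (i + 1) + 1 = n - i by omega] at h1
    exact h1.symm
  · simp only [Nat.sub_zero, Nat.sub_self]
    rw [SimpleGraph.dist_comm]
    exact hq.2

theorem IsGeo.shift (hT : G.IsTree) {q : ℕ → V} {n a : ℕ} (hq : IsGeo G q (a + n)) :
    IsGeo G (fun i => q (a + i)) n := by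
  refine ⟨fun i hi => hq.1 (a + i) (by omega), ?_⟩
  simp only [Nat.add_zero]
  rw [IsGeo.dist_eq hT hq (by omega) le_rfl]
  omega

lemma tg_dist_iso (hT : G.IsTree) (φ : G ≃g G) (a b : V) : G.dist (φ a) (φ b) = G.dist a b := by
  apply le_antisymm
  · obtain ⟨w, hw⟩ := hT.1.exists_walk_length_eq_dist a b
    rw [← hw]
    have := SimpleGraph.dist_le (w.map φ.toHom)
    simpa using this
  · obtain ⟨w, hw⟩ := hT.1.exists_walk_length_eq_dist (φ a) (φ b)
    rw [← hw]
    have := SimpleGraph.dist_le (w.map φ.symm.toHom)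
    simpa using this

/-- Automorphisms map geodesics to geodesics. -/
theorem geo_map (hT : G.IsTree) (φ : G ≃g G) (r v : V) {j : ℕ} (hj : j ≤ G.dist r v) :
    φ (geo G r v j) = geo G (φ r) (φ v) j := by
  have hq : IsGeo G (fun i => φ (geo G r v i)) (G.dist r v) := by
    refine ⟨fun i hi => φ.map_rel_iff.2 (geo_adj hT hi), ?_⟩
    simp only [geo_zero, geo_last hT]
    exact tg_dist_iso hT φ r v
  have h := IsGeo.eq_geo hT hq hj
  simp only [geo_zero, geo_last hT] at h
  exact h.symm

theorem side_map (hT : G.IsTree) (φ : G ≃g G) (S : Finset V) (x y : V) :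
    side G (S.map φ.toEquiv.toEmbedding) (φ x) (φ y) =
      (side G S x y).map φ.toEquiv.toEmbedding := by
  ext v
  rw [mem_side, Finset.mem_map, Finset.mem_map]
  constructor
  · rintro ⟨⟨u, hu, rfl⟩, h2⟩
    refine ⟨u, mem_side.2 ⟨hu, ?_⟩, rfl⟩
    have h3 := tg_dist_iso hT φ x u
    have h4 := tg_dist_iso hT φ y u
    simp only [Equiv.coe_toEmbedding] at h2
    change G.dist (φ x) (φ u) < G.dist (φ y) (φ u) at h2
    omega
  · rintro ⟨u, hu, rfl⟩
    rw [mem_side] at hu
    refine ⟨⟨u, hu.1, rfl⟩, ?_⟩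
    have h3 := tg_dist_iso hT φ x u
    have h4 := tg_dist_iso hT φ y u
    change G.dist (φ x) (φ u) < G.dist (φ y) (φ u)
    omega

theorem brn_map (hT : G.IsTree) (φ : G ≃g G) (x y : V) (m : ℕ) :
    brn G (φ x) (φ y) m = (brn G x y m).map φ.toEquiv.toEmbedding := by
  ext v
  rw [mem_brn hT, Finset.mem_map]
  constructor
  · rintro ⟨h1, h2⟩
    obtain ⟨u, rfl⟩ := φ.toEquiv.surjective v
    change G.dist (φ x) (φ u) ≤ m at h1
    change G.dist (φ x) (φ u) < G.dist (φ y) (φ u) at h2
    rw [tg_dist_iso hT φ] at h1 h2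
    rw [tg_dist_iso hT φ] at h2
    exact ⟨u, (mem_brn hT).2 ⟨h1, h2⟩, rfl⟩
  · rintro ⟨u, hu, rfl⟩
    rw [mem_brn hT] at hu
    change G.dist (φ x) (φ u) ≤ m ∧ G.dist (φ x) (φ u) < G.dist (φ y) (φ u)
    rw [tg_dist_iso hT φ, tg_dist_iso hT φ]
    exact hu

/-! Spheres. -/

end Vale.Agent.Lib.P161E
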