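import Vale.Agent.Lib.P161E.TreeB

/-! Job B1c: spheres and the sums over them. -/

open MeasureTheory Finset Filter Topology
open scoped Classical ENNReal

set_option linter.unusedSectionVars false
set_option linter.unusedVariables false

noncomputable section

namespace Vale.Agent.Lib.P161E

open Vale.Agent.Lib.P161

variable {V : Type*} {G : SimpleGraph V} [G.LocallyFinite] {d : ℕ} {x y c r v : V} {m : ℕ}

theorem mem_sph (hT : G.IsTree) : v ∈ sph G r m ↔ G.dist r v = m := by
  unfold sph
  rw [Finset.mem_filter, mem_ball hT]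
  omega

theorem mem_bsph (hT : G.IsTree) {l : ℕ} :
    v ∈ bsph G x y l ↔ G.dist x v = l ∧ G.dist x v < G.dist y v := by
  unfold bsph
  rw [Finset.mem_filter, mem_brn hT]
  omega

lemma tg_bsph_zero (hT : G.IsTree) (h : G.Adj x y) : bsph G x y 0 = {x} := by
  ext v
  rw [mem_bsph hT, Finset.mem_singleton]
  constructor
  · rintro ⟨h1, _⟩
    exact ((hT.1.dist_eq_zero_iff).1 h1).symm
  · rintro rfl
    rw [tg_dist_self_zero, tg_dist_of_adj h.symm]
    omega

/-- A sphere of the branch is the union of the spheres of the kids' branches. -/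
lemma tg_bsph_succ (hT : G.IsTree) (h : G.Adj x y) (l : ℕ) :
    bsph G x y (l + 1) = (kids G x y).biUnion (fun c => bsph G c x l) := by
  ext v
  rw [Finset.mem_biUnion, mem_bsph hT]
  constructor
  · rintro ⟨h1, h2⟩
    have hne : x ≠ v := by
      rintro rfl
      simp at h1
    obtain ⟨c, hc, hd⟩ := tg_nxt_spec hT hne |>.imp (fun a => a) (fun a => a) |> fun ⟨a, b⟩ =>
      (⟨nxt G x v, a, b⟩ : ∃ c, G.Adj x c ∧ G.dist v c + 1 = G.dist v x)
    rw [SimpleGraph.dist_comm (u := v) (v := c), SimpleGraph.dist_comm (u := v) (v := x)] at hd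
    have hcy : c ≠ y := by
      rintro rfl
      omega
    exact ⟨c, mem_kids.2 ⟨hc, hcy⟩, (mem_bsph hT).2 ⟨by omega, by omega⟩⟩
  · rintro ⟨c, hc, hv⟩
    rw [mem_kids] at hc
    rw [mem_bsph hT] at hv
    have h0 := tg_dist_adj' hT hc.1 v
    exact ⟨by omega, tg_closer_of_kid hT h hc.1 hc.2 hv.2⟩

lemma tg_bsph_pairwise (hT : G.IsTree) (l : ℕ) :
    Set.PairwiseDisjoint (↑(kids G x y)) (fun c => bsph G c x l) := by
  intro c hc c' hc' hne
  have hc1 := (mem_kids.1 hc).1
  have hc2 := (mem_kids.1 hc').1
  change Disjoint (bsph G c x l) (bsph G c' x l)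
  rw [Finset.disjoint_left]
  intro v hv hv'
  rw [mem_bsph hT] at hv hv'
  have := tg_closer_of_kid hT hc2 hc1 hne hv.2
  omega

theorem card_bsph (hT : G.IsTree) (hd : 2 ≤ d) (hreg : G.IsRegularOfDegree d) (h : G.Adj x y)
    (l : ℕ) : (bsph G x y l).card = (d - 1) ^ l := by
  induction l generalizing x y with
  | zero => simp [tg_bsph_zero hT h]
  | succ l ih =>
    rw [tg_bsph_succ hT h, Finset.card_biUnion (tg_bsph_pairwise hT l)]
    have : ∀ c ∈ kids G x y, (bsph G c x l).card = (d - 1) ^ l := fun c hc =>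
      ih (mem_kids.1 hc).1.symm
    rw [Finset.sum_congr rfl this, Finset.sum_const, card_kids hreg h, smul_eq_mul, pow_succ]
    ring

/-- A sphere around `r` is the union of the spheres of the branches at the neighbours of `r`. -/
lemma tg_sph_succ (hT : G.IsTree) (r : V) (n : ℕ) :
    sph G r (n + 1) = (G.neighborFinset r).biUnion (fun c => bsph G c r n) := by
  ext v
  rw [Finset.mem_biUnion, mem_sph hT]
  constructor
  · intro h1
    have hne : r ≠ v := by
      rintro rfl
      simp at h1
    have hs := tg_nxt_spec hT hne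
    refine ⟨nxt G r v, by simpa using hs.1, (mem_bsph hT).2 ?_⟩
    have h2 := hs.2
    rw [SimpleGraph.dist_comm (u := v) (v := nxt G r v), SimpleGraph.dist_comm (u := v) (v := r)] at h2
    omega
  · rintro ⟨c, hc, hv⟩
    have hc' : G.Adj r c := by simpa using hc
    rw [mem_bsph hT] at hv
    have h0 := tg_dist_adj' hT hc' v
    omega

lemma tg_sph_pairwise (hT : G.IsTree) (r : V) (n : ℕ) :
    Set.PairwiseDisjoint (↑(G.neighborFinset r)) (fun c => bsph G c r n) := by
  intro c hc c' hc' hne
  have hc1 : G.Adj r c := by simpa using hc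
  have hc2 : G.Adj r c' := by simpa using hc'
  change Disjoint (bsph G c r n) (bsph G c' r n)
  rw [Finset.disjoint_left]
  intro v hv hv'
  rw [mem_bsph hT] at hv hv'
  have := tg_closer_of_kid hT hc2 hc1 hne hv.2
  omega

theorem card_sph (hT : G.IsTree) (hd : 2 ≤ d) (hreg : G.IsRegularOfDegree d) (r : V) (n : ℕ) :
    (sph G r (n + 1)).card = d * (d - 1) ^ n := by
  rw [tg_sph_succ hT, Finset.card_biUnion (tg_sph_pairwise hT r n)]
  have : ∀ c ∈ G.neighborFinset r, (bsph G c r n).card = (d - 1) ^ n := fun c hc =>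
    card_bsph hT hd hreg (by simpa using (show G.Adj r c by simpa using hc).symm) n
  rw [Finset.sum_congr rfl this, Finset.sum_const, SimpleGraph.card_neighborFinset_eq_degree,
    hreg r, smul_eq_mul]

/-- The fibre of the map `v ↦ geo r v (j+1)` on the sphere of radius `n`. -/
lemma tg_fiber_geo (hT : G.IsTree) (r : V) {n j : ℕ} (hj : j < n) {b : V}
    (hb : b ∈ sph G r (j + 1)) :
    (sph G r n).filter (fun v => geo G r v (j + 1) = b) =
      bsph G b (geo G r b j) (n - (j + 1)) := by
  rw [mem_sph hT] at hb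
  have hjb : j < G.dist r b := by omega
  have hadj := geo_adj hT (r := r) (v := b) hjb
  rw [show geo G r b (j + 1) = b by
    have := geo_last hT r b
    rwa [hb] at this] at hadj
  have hdp := (dist_geo hT (r := r) (v := b) hjb.le).1
  set p := geo G r b j with hp
  ext v
  rw [Finset.mem_filter, mem_sph hT, mem_bsph hT]
  constructor
  · rintro ⟨h1, h2⟩
    have h3 := (dist_geo hT (r := r) (v := v) (j := j + 1) (by omega)).2
    have h3' := (dist_geo hT (r := r) (v := v) (j := j) (by omega)).2
    rw [h2] at h3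
    have h4 : p = geo G r v j := by
      rw [hp, ← h2]
      exact geo_prefix hT (by omega) (by omega)
    rw [← h4] at h3'
    omega
  · rintro ⟨h1, h2⟩
    have h0 := tg_dist_adj' hT hadj v
    have hadd := dist_add_across hT (o := r) (v := v) hadj (by omega) (by
      rw [SimpleGraph.dist_comm (u := v) (v := b), SimpleGraph.dist_comm (u := v) (v := p)]
      omega)
    have hn : G.dist r v = n := by omega
    refine ⟨hn, ?_⟩
    have h5 := tg_geo_between hT (r := r) (v := v) (b := b) hadd (i := j + 1) (by omega)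
    rw [← h5, ← hb]
    exact geo_last hT r b

/-- A vertex of the `j+1` sphere has parent `geo r b j`; the sum over the `n` sphere is grouped by
the vertex at level `j+1` of the geodesic. -/
theorem sum_sph_geo (hT : G.IsTree) (r : V) {n j : ℕ} (hj : j < n) (f : V → V → V → ℝ) :
    ∑ v ∈ sph G r n, f v (geo G r v (j + 1)) (geo G r v j) =
      ∑ b ∈ sph G r (j + 1), ∑ v ∈ bsph G b (geo G r b j) (n - (j + 1)), f v b (geo G r b j) := by
  have hmaps : ∀ v ∈ sph G r n, geo G r v (j + 1) ∈ sph G r (j + 1) := by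
    intro v hv
    rw [mem_sph hT] at hv ⊢
    exact (dist_geo hT (by omega)).1
  rw [← Finset.sum_fiberwise_of_maps_to hmaps]
  refine Finset.sum_congr rfl fun b hb => ?_
  rw [← tg_fiber_geo hT r hj hb]
  refine Finset.sum_congr rfl fun v hv => ?_
  rw [Finset.mem_filter, mem_sph hT] at hv
  rw [hv.2]
  congr 1
  rw [← hv.2]
  exact (geo_prefix hT (by omega) (by omega)).symm

/-- The point at distance `j` behind `c` and the edge `b c` form a geodesic with `c` next to `b`:
the segment `r', ..., c, b`. -/
theorem isGeo_of_mem_bsph (hT : G.IsTree) {b c r' : V} (h : G.Adj c b) {j : ℕ}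
    (hr : r' ∈ bsph G c b j) :
    IsGeo G (fun i => if i ≤ j then geo G r' c i else b) (j + 1) := by
  rw [mem_bsph hT] at hr
  have h1 : G.dist r' c = j := by rw [SimpleGraph.dist_comm]; exact hr.1
  have h2 := tg_dist_adj' hT h r'
  have h3 : G.dist r' b = j + 1 := by
    rw [SimpleGraph.dist_comm]
    omega
  refine ⟨fun i hi => ?_, ?_⟩
  · by_cases hij : i < j
    · have h4 : i ≤ j := by omega
      have h5 : i + 1 ≤ j := by omega
      simp only [h4, h5, if_true]
      exact geo_adj hT (by omega)
    · have h4 : i = j := by omega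
      subst h4
      have h5 : ¬ (i + 1 ≤ i) := by omega
      simp only [le_refl, if_true, h5, if_false]
      rw [← h1, geo_last hT]
      exact h
  · have h4 : ¬ (j + 1 ≤ j) := by omega
    simp only [Nat.zero_le, if_true, h4, if_false, geo_zero]
    exact h3

lemma tg_pathG_zero (θ : ℝ) (ξ : V → V → ℝ) (x : V) : pathG G θ ξ x x = 1 := by
  unfold pathG
  simp

/-- The first step of the path product. -/
lemma tg_pathG_first (hT : G.IsTree) (θ : ℝ) (ξ : V → V → ℝ) {x c v : V} (hc : G.Adj x c)
    (hv : G.dist c v < G.dist x v) :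
    pathG G θ ξ x v = θ * gm θ (ξ c x) * pathG G θ ξ c v := by
  have h0 := tg_dist_adj' hT hc v
  have hd : G.dist x v = G.dist c v + 1 := by omega
  have hne : x ≠ v := by
    rintro rfl
    simp at hd
  have h1 : geo G x v 1 = c := by
    rw [show (1 : ℕ) = 0 + 1 from rfl, geo_succ, geo_zero]
    apply tg_nxt_eq hT hc
    rw [SimpleGraph.dist_comm (u := v) (v := c), SimpleGraph.dist_comm (u := v) (v := x)]
    omega
  unfold pathG
  rw [hd, Finset.prod_range_succ']
  simp only [geo_zero, zero_add, h1]
  rw [mul_comm]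
  congr 1
  refine Finset.prod_congr rfl fun j hj => ?_
  rw [Finset.mem_range] at hj
  have h2 : geo G c v j = geo G x v (1 + j) := by
    rw [← h1]
    exact geo_suffix hT (by omega)
  have h3 : geo G c v (j + 1) = geo G x v (1 + (j + 1)) := by
    rw [← h1]
    exact geo_suffix hT (by omega)
  rw [h2, h3, show j + 1 + 1 = 1 + (j + 1) by omega, show j + 1 = 1 + j by omega]

/-- The shell sum of a cavity configuration is the sum over the sphere of squares of path products. -/
theorem sum_pathG_sq_bsph (hT : G.IsTree) (h : G.Adj x y) (θ : ℝ) (ξ : V → V → ℝ) (l : ℕ) :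
    ∑ v ∈ bsph G x y l, pathG G θ ξ x v ^ 2 = shell G θ ξ l x y := by
  induction l generalizing x y with
  | zero => simp [tg_bsph_zero hT h, tg_pathG_zero, shell]
  | succ l ih =>
    rw [tg_bsph_succ hT h, Finset.sum_biUnion (tg_bsph_pairwise hT l)]
    simp only [shell]
    refine Finset.sum_congr rfl fun c hc => ?_
    have hc' := (mem_kids.1 hc).1
    rw [← ih hc'.symm, Finset.mul_sum]
    refine Finset.sum_congr rfl fun v hv => ?_
    rw [mem_bsph hT] at hv
    rw [tg_pathG_first hT θ ξ hc' hv.2]
    ring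

/-- Same with the first step through the neighbours of `r`: the sphere around `r` is made of the
spheres of the branches. -/
theorem sum_pathG_sq_sph (hT : G.IsTree) (θ : ℝ) (ξ : V → V → ℝ) (r : V) (n : ℕ) :
    ∑ v ∈ sph G r (n + 1), pathG G θ ξ r v ^ 2 =
      ∑ c ∈ G.neighborFinset r, (θ * gm θ (ξ c r)) ^ 2 * shell G θ ξ n c r := by
  rw [tg_sph_succ hT, Finset.sum_biUnion (tg_sph_pairwise hT r n)]
  refine Finset.sum_congr rfl fun c hc => ?_
  have hc' : G.Adj r c := by simpa using hc
  rw [← sum_pathG_sq_bsph hT hc'.symm, Finset.mul_sum]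
  refine Finset.sum_congr rfl fun v hv => ?_
  rw [mem_bsph hT] at hv
  rw [tg_pathG_first hT θ ξ hc' hv.2]
  ring

/-- Prefix and suffix decomposition of the path product. -/
theorem pathG_split (hT : G.IsTree) (θ : ℝ) (ξ : V → V → ℝ) {r v : V} {j : ℕ} (hj : j < G.dist r v) :
    pathG G θ ξ r v = pathG G θ ξ r (geo G r v j) *
      (θ * gm θ (ξ (geo G r v (j + 1)) (geo G r v j))) * pathG G θ ξ (geo G r v (j + 1)) v := by
  obtain ⟨h1, _⟩ := dist_geo hT (r := r) (v := v) hj.le
  obtain ⟨_, h2⟩ := dist_geo hT (r := r) (v := v) (j := j + 1) (by omega)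
  set D := G.dist r v with hD
  have hD' : D = j + 1 + (D - (j + 1)) := by omega
  have hA : pathG G θ ξ r (geo G r v j) =
      ∏ i ∈ range j, (θ * gm θ (ξ (geo G r v (i + 1)) (geo G r v i))) := by
    unfold pathG
    rw [h1]
    refine Finset.prod_congr rfl fun i hi => ?_
    rw [Finset.mem_range] at hi
    rw [geo_prefix hT (by omega) (by omega), geo_prefix hT (by omega) (by omega)]
  have hB : pathG G θ ξ (geo G r v (j + 1)) v =
      ∏ i ∈ range (D - (j + 1)), (θ * gm θ (ξ (geo G r v (j + 1 + (i + 1))) (geo G r v (j + 1 + i)))) := by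
    unfold pathG
    rw [h2]
    refine Finset.prod_congr rfl fun i hi => ?_
    rw [Finset.mem_range] at hi
    rw [geo_suffix hT (by omega), geo_suffix hT (by omega)]
  rw [hA, hB]
  conv_lhs =>
    unfold pathG
    rw [← hD, hD', Finset.prod_range_add, Finset.prod_range_succ]
  rfl

end Vale.Agent.Lib.P161E
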