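import Vale.Agent.Lib.P161E.Sys

/-! Jobs F1, F2, F3: pointwise decomposition, bound on the difference of the factors, second moments. -/

open MeasureTheory Finset
open scoped Classical ENNReal

noncomputable section

namespace Vale.Agent.Lib.P161E

open Vale.Agent.Lib.P161

variable {V : Type*} {G : SimpleGraph V} [G.LocallyFinite] {d : ℕ} {T θ₁ θ₂ t : ℝ}
  {ξ₁ ξ₂ : (V → unitInterval) → V → V → ℝ} {m₁ m₂ : (V → unitInterval) → V → ℝ}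

/-- The constant of `dh_L2`. -/
def Cv (d : ℕ) (T : ℝ) : ℝ :=
  1000 * (d : ℝ) ^ 8 * (4 * (1 + Real.log (Ce d T)) / kap0 d T + 3 * Ce d T / kap0 d T)

/-- The difference of the `γ` factors on a directed edge. -/
def dh (θ₁ θ₂ : ℝ) (ξ₁ ξ₂ : (V → unitInterval) → V → V → ℝ) (x y : V) (U : V → unitInterval) : ℝ :=
  gm θ₁ (ξ₁ U x y) - gm θ₂ (ξ₂ U x y)

/-- The `D` of the two systems at `r`. -/
def Dd (m₁ m₂ : (V → unitInterval) → V → ℝ) (r : V) : ℝ :=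
  ∫ U, (m₁ U r - m₂ U r) ^ 2 ∂iidUniform V

/-- The product of the `γ` along the geodesic from `r` to `v`, without the powers of `θ`. -/
def prodG (G : SimpleGraph V) (θ : ℝ) (ξ : V → V → ℝ) (r v : V) : ℝ :=
  ∏ j ∈ range (G.dist r v), gm θ (ξ (geo G r v (j + 1)) (geo G r v j))

omit [G.LocallyFinite] in
theorem pathG_eq (θ : ℝ) (ξ : V → V → ℝ) (r v : V) :
    pathG G θ ξ r v = θ ^ G.dist r v * prodG G θ ξ r v := by
  unfold pathG prodG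
  rw [Finset.prod_mul_distrib, Finset.prod_const, Finset.card_range]

omit [G.LocallyFinite] in
/-- F1. Pointwise decomposition (no hypothesis on the fields except boundedness). -/
theorem Cf_sub_sq (θ₁ θ₂ : ℝ) (hθ₁ : 0 < θ₁) (hθ₂ : 0 ≤ θ₂) (m₁' m₂' : V → ℝ) (ξ₁' ξ₂' : V → V → ℝ)
    (r v : V) (hm₂ : |m₂' r| ≤ 1) :
    (Cf G θ₁ m₁' ξ₁' r v - Cf G θ₂ m₂' ξ₂' r v) ^ 2 ≤
      3 * ((m₁' r - m₂' r) ^ 2 * (m₁' r + m₂' r) ^ 2 * pathG G θ₁ ξ₁' r v ^ 2 +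
        (1 - (θ₂ / θ₁) ^ G.dist r v) ^ 2 * pathG G θ₁ ξ₁' r v ^ 2 +
        ((1 - m₂' r ^ 2) * θ₂ ^ G.dist r v * (prodG G θ₁ ξ₁' r v - prodG G θ₂ ξ₂' r v)) ^ 2) := by
  have hp1 := pathG_eq (G := G) θ₁ ξ₁' r v
  have hp2 := pathG_eq (G := G) θ₂ ξ₂' r v
  unfold Cf
  set n := G.dist r v
  set P := pathG G θ₁ ξ₁' r v with hP
  set Q := pathG G θ₂ ξ₂' r v with hQ
  set R₁ := prodG G θ₁ ξ₁' r v
  set R₂ := prodG G θ₂ ξ₂' r v
  set a := m₁' r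
  set b := m₂' r
  have hθ₁n : θ₁ ^ n ≠ 0 := (pow_pos hθ₁ n).ne'
  have hratio : (θ₂ / θ₁) ^ n * θ₁ ^ n = θ₂ ^ n := by
    rw [div_pow]; field_simp
  have hb2 : 0 ≤ 1 - b ^ 2 := by
    have := abs_le.1 hm₂
    nlinarith [this.1, this.2]
  have hb3 : 1 - b ^ 2 ≤ 1 := by nlinarith [sq_nonneg b]
  have key : (1 - a ^ 2) * P - (1 - b ^ 2) * Q =
      -((a - b) * (a + b) * P) + (1 - b ^ 2) * ((1 - (θ₂ / θ₁) ^ n) * P) +
        (1 - b ^ 2) * θ₂ ^ n * (R₁ - R₂) := by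
    rw [hp1, hp2, ← hratio]
    ring
  rw [key]
  set A := (a - b) * (a + b) * P
  set B := (1 - (θ₂ / θ₁) ^ n) * P
  set C := (1 - b ^ 2) * θ₂ ^ n * (R₁ - R₂)
  have hB : ((1 - b ^ 2) * B) ^ 2 ≤ B ^ 2 := by
    rw [mul_pow]
    have : (1 - b ^ 2) ^ 2 ≤ 1 := by nlinarith
    nlinarith [sq_nonneg B]
  have h3 : (-A + (1 - b ^ 2) * B + C) ^ 2 ≤ 3 * (A ^ 2 + ((1 - b ^ 2) * B) ^ 2 + C ^ 2) := by
    nlinarith [sq_nonneg (-A - (1 - b ^ 2) * B), sq_nonneg (-A - C), sq_nonneg ((1 - b ^ 2) * B - C)]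
  have hA : A ^ 2 = (a - b) ^ 2 * (a + b) ^ 2 * P ^ 2 := by
    simp only [A]; ring
  have hB' : B ^ 2 = (1 - (θ₂ / θ₁) ^ n) ^ 2 * P ^ 2 := by
    simp only [B]; ring
  calc (-A + (1 - b ^ 2) * B + C) ^ 2 ≤ 3 * (A ^ 2 + ((1 - b ^ 2) * B) ^ 2 + C ^ 2) := h3
    _ ≤ 3 * (A ^ 2 + B ^ 2 + C ^ 2) := by linarith
    _ = _ := by rw [hA, hB']

/-- Bounds of the constants for small `θ`. -/
theorem twoA_const {th : ℝ} (h0 : 0 ≤ th) (h1 : th ^ 2 < 1 / 2) :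
    th < 1 ∧ 0 < 1 / (1 - th) ∧ 1 / (1 - th) ≤ 3.45 ∧ 0 < 1 / (1 - th ^ 2) ∧ 1 / (1 - th ^ 2) ≤ 2 := by
  have h71 : th < 0.71 := by nlinarith
  have hone : th < 1 := by linarith
  refine ⟨hone, div_pos one_pos (by linarith), ?_, div_pos one_pos (by linarith), ?_⟩
  · rw [div_le_iff₀ (by linarith)]; norm_num; nlinarith
  · rw [div_le_iff₀ (by linarith)]; linarith

/-- Cramer with the dependence on `θ`. -/
theorem twoA_X {th₁ th₂ a b a' b' mx₁ my₁ mx₂ my₂ : ℝ}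
    (h0₁ : 0 ≤ th₁) (h1₁ : th₁ ^ 2 < 1 / 2) (h0₂ : 0 ≤ th₂) (h1₂ : th₂ ^ 2 < 1 / 2)
    (ha : |a| ≤ 1) (hb : |b| ≤ 1) (ha' : |a'| ≤ 1) (hb' : |b'| ≤ 1)
    (hmx₁ : mx₁ = bm th₁ a b) (hmy₁ : my₁ = bm th₁ b a)
    (hmx₂ : mx₂ = bm th₂ a' b') (hmy₂ : my₂ = bm th₂ b' a') :
    |a - a'| ≤ 24 * ((|mx₁ - mx₂| + |my₁ - my₂|) + |th₁ - th₂| * 12 * (|a'| + |b'|)) := by
  obtain ⟨hone1, hc1', hc1, -, -⟩ := twoA_const h0₁ h1₁
  obtain ⟨hone2, hc2', hc2, -, -⟩ := twoA_const h0₂ h1₂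
  have hinv := bm_inv_lip (θ := th₁) (a := a) (b := b) (a' := a') (b' := b') h0₁ hone1 ha hb ha' hb'
  have hθa := bm_lip_theta (θ₁ := th₁) (θ₂ := th₂) (a := a') (b := b') h0₁ hone1 h0₂ hone2 ha' hb'
  have hθb := bm_lip_theta (θ₁ := th₁) (θ₂ := th₂) (a := b') (b := a') h0₁ hone1 h0₂ hone2 hb' ha'
  set Dθ := |th₁ - th₂| with hDθ
  have hDθ0 : 0 ≤ Dθ := abs_nonneg _
  have hcc : 1 / ((1 - th₁) * (1 - th₂)) ≤ 12 := by
    have : 1 / ((1 - th₁) * (1 - th₂)) = 1 / (1 - th₁) * (1 / (1 - th₂)) := by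
      rw [one_div_mul_one_div]
    rw [this]
    nlinarith
  have hcc2 : 2 / (1 - th₁) ^ 2 ≤ 24 := by
    have : 2 / (1 - th₁) ^ 2 = 2 * (1 / (1 - th₁)) ^ 2 := by
      rw [div_pow]; ring
    rw [this]
    nlinarith
  set Sx := |mx₁ - mx₂| with hSx
  set Sy := |my₁ - my₂| with hSy
  have hb'0 : 0 ≤ |b'| := abs_nonneg _
  have ha'0 : 0 ≤ |a'| := abs_nonneg _
  have e1 : |bm th₁ a b - bm th₁ a' b'| ≤ Sx + Dθ * |b'| * 12 := by
    have t1 : |bm th₁ a' b' - bm th₂ a' b'| ≤ Dθ * |b'| * 12 := by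
      refine hθa.trans ?_
      rw [div_eq_mul_one_div]
      exact mul_le_mul_of_nonneg_left hcc (mul_nonneg hDθ0 hb'0)
    have t2 : bm th₁ a b - bm th₁ a' b' = (mx₁ - mx₂) - (bm th₁ a' b' - bm th₂ a' b') := by
      rw [hmx₁, hmx₂]; ring
    rw [t2]
    exact (abs_sub _ _).trans (add_le_add le_rfl t1)
  have e2 : |bm th₁ b a - bm th₁ b' a'| ≤ Sy + Dθ * |a'| * 12 := by
    have t1 : |bm th₁ b' a' - bm th₂ b' a'| ≤ Dθ * |a'| * 12 := by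
      refine hθb.trans ?_
      rw [div_eq_mul_one_div]
      exact mul_le_mul_of_nonneg_left hcc (mul_nonneg hDθ0 ha'0)
    have t2 : bm th₁ b a - bm th₁ b' a' = (my₁ - my₂) - (bm th₁ b' a' - bm th₂ b' a') := by
      rw [hmy₁, hmy₂]; ring
    rw [t2]
    exact (abs_sub _ _).trans (add_le_add le_rfl t1)
  refine hinv.trans ?_
  have hsum : |bm th₁ a b - bm th₁ a' b'| + |bm th₁ b a - bm th₁ b' a'| ≤
      (Sx + Sy) + Dθ * 12 * (|a'| + |b'|) := by linarith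
  have hsum0 : 0 ≤ |bm th₁ a b - bm th₁ a' b'| + |bm th₁ b a - bm th₁ b' a'| := by positivity
  calc 2 / (1 - th₁) ^ 2 * (|bm th₁ a b - bm th₁ a' b'| + |bm th₁ b a - bm th₁ b' a'|)
      ≤ 24 * (|bm th₁ a b - bm th₁ a' b'| + |bm th₁ b a - bm th₁ b' a'|) :=
        mul_le_mul_of_nonneg_right hcc2 hsum0
    _ ≤ _ := by linarith

/-- The square of the previous bound. -/
theorem twoA_X2 {X Sx Sy Dθ p q Δ T₂ w : ℝ} (hX0 : 0 ≤ X) (hSx0 : 0 ≤ Sx) (hSy0 : 0 ≤ Sy)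
    (hDθ0 : 0 ≤ Dθ) (hp0 : 0 ≤ p) (hq0 : 0 ≤ q)
    (hXle : X ≤ 24 * ((Sx + Sy) + Dθ * 12 * (p + q)))
    (hS : Sx ^ 2 + Sy ^ 2 = Δ) (hT : Dθ ^ 2 = T₂) (hpq : p ^ 2 + q ^ 2 = w) :
    X ^ 2 ≤ 11520 * Δ + 184320 * T₂ * w := by
  set S := Sx + Sy with hSd
  set E := Dθ * 12 * (p + q) with hEd
  have hS0 : 0 ≤ S := add_nonneg hSx0 hSy0
  have hE0 : 0 ≤ E := by positivity
  have h1 : X ^ 2 ≤ (24 * (S + E)) ^ 2 := pow_le_pow_left₀ hX0 hXle 2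
  have h2 : (S + E) ^ 2 ≤ 10 * S ^ 2 + 10 / 9 * E ^ 2 := by
    nlinarith [sq_nonneg (3 * S - E / 3)]
  have h3 : S ^ 2 ≤ 2 * Δ := by
    rw [← hS, hSd]; nlinarith [sq_nonneg (Sx - Sy)]
  have h4 : E ^ 2 ≤ 288 * T₂ * w := by
    have h5 : (p + q) ^ 2 ≤ 2 * w := by
      rw [← hpq]; nlinarith [sq_nonneg (p - q)]
    have h6 : E ^ 2 = 144 * Dθ ^ 2 * (p + q) ^ 2 := by rw [hEd]; ring
    rw [h6, hT]
    have h7 : 0 ≤ T₂ := by rw [← hT]; positivity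
    nlinarith [mul_le_mul_of_nonneg_left h5 h7]
  have h8 : (24 * (S + E)) ^ 2 = 576 * (S + E) ^ 2 := by ring
  rw [h8] at h1
  linarith

/-- The two pieces of `dh`. -/
theorem twoA_pieces {th₁ th₂ a a' : ℝ}
    (h0₁ : 0 ≤ th₁) (h1₁ : th₁ ^ 2 < 1 / 2) (h0₂ : 0 ≤ th₂) (h1₂ : th₂ ^ 2 < 1 / 2)
    (ha : |a| ≤ 1) (ha' : |a'| ≤ 1) :
    |gm th₁ a - gm th₁ a'| ≤ 2 * ((|a| + |a'|) * |a - a'|) ∧
    |gm th₁ a' - gm th₂ a'| ≤ 8 * |th₁ - th₂| * a' ^ 2 := by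
  obtain ⟨hone1, -, -, hs1', hs1⟩ := twoA_const h0₁ h1₁
  obtain ⟨hone2, -, -, hs2', hs2⟩ := twoA_const h0₂ h1₂
  have hlip := gm_lip (θ := th₁) (x := a) (x' := a') h0₁ hone1 ha ha'
  have hlipθ := gm_lip_theta (θ₁ := th₁) (θ₂ := th₂) (x := a') h0₁ hone1 h0₂ hone2 ha'
  have hA0 : 0 ≤ |a| + |a'| := by positivity
  have hX0 : 0 ≤ |a - a'| := abs_nonneg _
  constructor
  · refine hlip.trans ?_
    rw [div_eq_mul_one_div, mul_comm ((|a| + |a'|) * |a - a'|)]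
    exact mul_le_mul_of_nonneg_right hs1 (mul_nonneg hA0 hX0)
  · refine hlipθ.trans ?_
    have h5 : 1 / ((1 - th₁ ^ 2) * (1 - th₂ ^ 2)) ≤ 4 := by
      rw [← one_div_mul_one_div]
      nlinarith
    rw [div_eq_mul_one_div]
    have h6 : 0 ≤ 2 * |th₁ - th₂| * a' ^ 2 := by positivity
    calc 2 * |th₁ - th₂| * a' ^ 2 * (1 / ((1 - th₁ ^ 2) * (1 - th₂ ^ 2)))
        ≤ 2 * |th₁ - th₂| * a' ^ 2 * 4 := mul_le_mul_of_nonneg_left h5 h6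
      _ = _ := by ring

/-- Assembly of the numerics. -/
theorem twoA_final {D P₁ P₂ Ax X Dθ a a' b' Δ T₂ d : ℝ} (hd : 3 ≤ d)
    (hD : D = P₁ + P₂) (hp1 : |P₁| ≤ 2 * (Ax * X)) (hp2 : |P₂| ≤ 8 * Dθ * a' ^ 2)
    (ha2 : a ^ 2 ≤ 1) (ha'2 : a' ^ 2 ≤ 1)
    (hA2 : Ax ^ 2 ≤ 2 * (a ^ 2 + a' ^ 2)) (hX3 : X ^ 2 ≤ 11520 * Δ + 184320 * T₂ * (a' ^ 2 + b' ^ 2))
    (hT : Dθ ^ 2 = T₂) (hΔ0 : 0 ≤ Δ) (hT0 : 0 ≤ T₂) :
    D ^ 2 ≤ 1000 * d ^ 8 * ((a ^ 2 + a' ^ 2) * Δ + T₂ * (a ^ 2 + a' ^ 2 + b' ^ 2)) := by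
  set R := a ^ 2 + a' ^ 2 with hR
  have hR0 : 0 ≤ R := by positivity
  have hR2 : R ≤ 2 := by linarith
  have hW0 : 0 ≤ a' ^ 2 + b' ^ 2 := by positivity
  have hq1 : (2 * (Ax * X)) ^ 2 ≤ 8 * R * (11520 * Δ + 184320 * T₂ * (a' ^ 2 + b' ^ 2)) := by
    have h1 : (2 * (Ax * X)) ^ 2 = 4 * (Ax ^ 2 * X ^ 2) := by ring
    rw [h1]
    have h2 : Ax ^ 2 * X ^ 2 ≤ (2 * R) * (11520 * Δ + 184320 * T₂ * (a' ^ 2 + b' ^ 2)) := by
      apply mul_le_mul hA2 hX3 (sq_nonneg _) (by positivity)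
    linarith
  have hq2 : (8 * Dθ * a' ^ 2) ^ 2 ≤ 64 * T₂ * (a' ^ 2) := by
    have h1 : (8 * Dθ * a' ^ 2) ^ 2 = 64 * Dθ ^ 2 * (a' ^ 2 * a' ^ 2) := by ring
    rw [h1, hT]
    have h3 : a' ^ 2 * a' ^ 2 ≤ a' ^ 2 := by nlinarith [sq_nonneg a']
    have h4 : 0 ≤ 64 * T₂ := by positivity
    calc 64 * T₂ * (a' ^ 2 * a' ^ 2) ≤ 64 * T₂ * a' ^ 2 := mul_le_mul_of_nonneg_left h3 h4
      _ = _ := by ring
  have hq : D ^ 2 ≤ 2 * ((2 * (Ax * X)) ^ 2 + (8 * Dθ * a' ^ 2) ^ 2) := by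
    rw [hD]
    have h1 : P₁ ^ 2 ≤ (2 * (Ax * X)) ^ 2 := sq_le_sq' (by linarith [abs_le.1 hp1]) (abs_le.1 hp1).2
    have h2 : P₂ ^ 2 ≤ (8 * Dθ * a' ^ 2) ^ 2 :=
      sq_le_sq' (by linarith [abs_le.1 hp2]) (abs_le.1 hp2).2
    nlinarith [sq_nonneg (P₁ - P₂)]
  have hd8 : (6561 : ℝ) ≤ d ^ 8 := by
    calc (6561 : ℝ) = 3 ^ 8 := by norm_num
      _ ≤ d ^ 8 := pow_le_pow_left₀ (by norm_num) hd 8
  have h1 : R * (T₂ * (a' ^ 2 + b' ^ 2)) ≤ 2 * (T₂ * (a' ^ 2 + b' ^ 2)) :=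
    mul_le_mul_of_nonneg_right hR2 (by positivity)
  have h2 : T₂ * a' ^ 2 ≤ T₂ * (a' ^ 2 + b' ^ 2) :=
    mul_le_mul_of_nonneg_left (by nlinarith [sq_nonneg b']) hT0
  have h3 : T₂ * (a' ^ 2 + b' ^ 2) ≤ T₂ * (R + b' ^ 2) :=
    mul_le_mul_of_nonneg_left (by nlinarith [sq_nonneg a]) hT0
  have h4 : 0 ≤ R * Δ := by positivity
  have h5 : 0 ≤ T₂ * (a' ^ 2 + b' ^ 2) := by positivity
  have hmain : D ^ 2 ≤ 6561000 * (R * Δ + T₂ * (R + b' ^ 2)) := by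
    have e1 : 8 * R * (11520 * Δ + 184320 * T₂ * (a' ^ 2 + b' ^ 2)) =
        92160 * (R * Δ) + 1474560 * (R * (T₂ * (a' ^ 2 + b' ^ 2))) := by ring
    rw [e1] at hq1
    have e2 : 64 * T₂ * a' ^ 2 = 64 * (T₂ * a' ^ 2) := by ring
    rw [e2] at hq2
    linarith
  have hnn : 0 ≤ R * Δ + T₂ * (R + b' ^ 2) := by positivity
  calc D ^ 2 ≤ 6561000 * (R * Δ + T₂ * (R + b' ^ 2)) := hmain
    _ ≤ 1000 * d ^ 8 * (R * Δ + T₂ * (R + b' ^ 2)) := by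
      apply mul_le_mul_of_nonneg_right _ hnn
      linarith

/-- The elementary bound behind `dh_sq_le`. -/
theorem twoA_dh_alg {th₁ th₂ a b a' b' mx₁ my₁ mx₂ my₂ : ℝ} {d : ℝ} (hd : 3 ≤ d)
    (h0₁ : 0 ≤ th₁) (h1₁ : th₁ ^ 2 < 1 / 2) (h0₂ : 0 ≤ th₂) (h1₂ : th₂ ^ 2 < 1 / 2)
    (ha : |a| ≤ 1) (hb : |b| ≤ 1) (ha' : |a'| ≤ 1) (hb' : |b'| ≤ 1)
    (hmx₁ : mx₁ = bm th₁ a b) (hmy₁ : my₁ = bm th₁ b a)
    (hmx₂ : mx₂ = bm th₂ a' b') (hmy₂ : my₂ = bm th₂ b' a') :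
    (gm th₁ a - gm th₂ a') ^ 2 ≤
      1000 * d ^ 8 * ((a ^ 2 + a' ^ 2) * ((mx₁ - mx₂) ^ 2 + (my₁ - my₂) ^ 2) +
        (th₁ - th₂) ^ 2 * (a ^ 2 + a' ^ 2 + b' ^ 2)) := by
  have hX := twoA_X h0₁ h1₁ h0₂ h1₂ ha hb ha' hb' hmx₁ hmy₁ hmx₂ hmy₂
  obtain ⟨hp1, hp2⟩ := twoA_pieces h0₁ h1₁ h0₂ h1₂ ha ha'
  have habs (z : ℝ) : |z| ^ 2 = z ^ 2 := sq_abs z
  have hX3 : |a - a'| ^ 2 ≤ 11520 * ((mx₁ - mx₂) ^ 2 + (my₁ - my₂) ^ 2) +
      184320 * (th₁ - th₂) ^ 2 * (a' ^ 2 + b' ^ 2) :=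
    twoA_X2 (abs_nonneg _) (abs_nonneg _) (abs_nonneg _) (abs_nonneg _) (abs_nonneg _)
      (abs_nonneg _) hX (by rw [habs, habs]) (habs _) (by rw [habs, habs])
  have ha2 : a ^ 2 ≤ 1 := by rw [← habs]; nlinarith [abs_nonneg a]
  have ha'2 : a' ^ 2 ≤ 1 := by rw [← habs]; nlinarith [abs_nonneg a']
  have hA2 : (|a| + |a'|) ^ 2 ≤ 2 * (a ^ 2 + a' ^ 2) := by
    have := sq_nonneg (|a| - |a'|)
    nlinarith [habs a, habs a']
  exact twoA_final hd (by ring) hp1 hp2 ha2 ha'2 hA2 hX3 (habs _) (by positivity) (by positivity)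

/-- `θ` is small in a system. -/
theorem twoA_theta_small {θ : ℝ} (hd : 3 ≤ d) (hlo : thc d / 2 ≤ θ) (hhi : θ < thc d) :
    0 ≤ θ ∧ θ ^ 2 < 1 / 2 := by
  have hd3 : (3 : ℝ) ≤ d := by exact_mod_cast hd
  have hs : 0 < Real.sqrt ((d : ℝ) - 1) := Real.sqrt_pos.2 (by linarith)
  have hsq : Real.sqrt ((d : ℝ) - 1) ^ 2 = (d : ℝ) - 1 := Real.sq_sqrt (by linarith)
  have hc : 0 < thc d := by unfold thc; positivity
  have h0 : 0 ≤ θ := by linarith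
  refine ⟨h0, ?_⟩
  have h1 : θ ^ 2 < thc d ^ 2 := pow_lt_pow_left₀ hhi h0 (by norm_num)
  have h2 : thc d ^ 2 = 1 / ((d : ℝ) - 1) := by
    unfold thc; rw [div_pow, hsq]; norm_num
  have h3 : 1 / ((d : ℝ) - 1) ≤ 1 / 2 := by
    apply one_div_le_one_div_of_le (by norm_num); linarith
  linarith

/-! ### Positivity of the constants -/

theorem twoA_C3_pos (hd : 3 ≤ d) (hT : 1 ≤ T) : 0 < C3 d T := by
  have h1 := c1_pos hd hT
  have h2 : 0 < C0 d T := by unfold C0; positivity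
  have hd0 : (0 : ℝ) < d := by
    have : 0 < d := by omega
    exact_mod_cast this
  have h3 : 0 < C2 d (C0 d T) := by unfold C2; positivity
  unfold C3; positivity

theorem twoA_kap0_pos (hd : 3 ≤ d) (hT : 1 ≤ T) : 0 < kap0 d T := by
  have := twoA_C3_pos hd hT
  unfold kap0; positivity

theorem twoA_one_le_Ce (hd : 3 ≤ d) (hT : 1 ≤ T) : 1 ≤ Ce d T := by
  have h3 := twoA_C3_pos hd hT
  unfold Ce
  have h1 : (1 : ℝ) ≤ Real.exp (Real.exp 1) := by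
    apply Real.one_le_exp; positivity
  have h2 : (1 : ℝ) ≤ (1 + T) ^ 3 := one_le_pow₀ (by linarith)
  have h4 : (1 : ℝ) ≤ (1 + C3 d T) ^ 3 := one_le_pow₀ (by linarith)
  have h5 : (1 : ℝ) ≤ 1000 * Real.exp (Real.exp 1) := by linarith
  have h6 : (1 : ℝ) ≤ 1000 * Real.exp (Real.exp 1) * (1 + T) ^ 3 := by nlinarith
  nlinarith

/-! ### Integrals -/

theorem twoA_meas_gm (θ : ℝ) {f : (V → unitInterval) → ℝ} (hf : Measurable f) :
    Measurable (fun U => gm θ (f U)) := by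
  unfold gm
  exact (measurable_const.sub (hf.pow_const 2)).div
    (measurable_const.sub (measurable_const.mul (hf.pow_const 2)))

theorem twoA_int {f : (V → unitInterval) → ℝ} (hf : Measurable f) {A : ℝ} (hA : ∀ U, |f U| ≤ A) :
    Integrable f (iidUniform V) :=
  Integrable.of_bound hf.aestronglyMeasurable A (Filter.Eventually.of_forall fun U => by
    simpa using hA U)

theorem twoA_exp_int_le {f : (V → unitInterval) → ℝ} {M : ℝ} (hM0 : 0 ≤ M)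
    (hf : Measurable f)
    (h : ∫⁻ U, ENNReal.ofReal (Real.exp (f U)) ∂iidUniform V ≤ ENNReal.ofReal M) :
    ∫ U, Real.exp (f U) ∂iidUniform V ≤ M := by
  rw [integral_eq_lintegral_of_nonneg_ae (Filter.Eventually.of_forall fun U => (Real.exp_pos _).le)
    (hf.exp).aestronglyMeasurable]
  exact ENNReal.toReal_le_of_le_ofReal hM0 h

/-- Moments from the exponential moment of a bounded variable. -/
theorem twoA_moments {ξ : (V → unitInterval) → ℝ} {lam M : ℝ} (hlam : 0 < lam) (hM0 : 0 ≤ M)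
    (hm : Measurable ξ) (hb : ∀ U, |ξ U| ≤ 1)
    (h : ∫⁻ U, ENNReal.ofReal (Real.exp (lam * ξ U ^ 2)) ∂iidUniform V ≤ ENNReal.ofReal M) :
    ∫ U, ξ U ^ 2 ∂iidUniform V ≤ M / lam ∧ ∫ U, ξ U ^ 4 ∂iidUniform V ≤ 2 * M / lam ^ 2 := by
  have hmeas : Measurable (fun U => lam * ξ U ^ 2) := measurable_const.mul (hm.pow_const 2)
  have hexp := twoA_exp_int_le hM0 hmeas h
  have hsq : ∀ U, ξ U ^ 2 ≤ 1 := fun U => by
    have := abs_le.1 (hb U)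
    nlinarith [this.1, this.2]
  have hbd : ∀ U, |Real.exp (lam * ξ U ^ 2)| ≤ Real.exp lam := fun U => by
    rw [abs_of_pos (Real.exp_pos _)]
    apply Real.exp_le_exp.2
    nlinarith [hsq U]
  have iexp : Integrable (fun U => Real.exp (lam * ξ U ^ 2)) (iidUniform V) :=
    twoA_int hmeas.exp hbd
  have i2 : Integrable (fun U => ξ U ^ 2) (iidUniform V) :=
    twoA_int (hm.pow_const 2) (A := 1) fun U => by
      rw [abs_of_nonneg (sq_nonneg _)]; exact hsq U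
  have i4 : Integrable (fun U => ξ U ^ 4) (iidUniform V) :=
    twoA_int (hm.pow_const 4) (A := 1) fun U => by
      rw [abs_of_nonneg (by positivity)]
      have : ξ U ^ 4 = ξ U ^ 2 * ξ U ^ 2 := by ring
      nlinarith [hsq U, sq_nonneg (ξ U)]
  constructor
  · rw [le_div_iff₀ hlam, ← integral_mul_const]
    refine (integral_mono (i2.mul_const lam) iexp fun U => ?_).trans hexp
    have := Real.add_one_le_exp (lam * ξ U ^ 2)
    show ξ U ^ 2 * lam ≤ _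
    nlinarith
  · rw [le_div_iff₀ (by positivity), ← integral_mul_const]
    have h2 : ∫ U, ξ U ^ 4 * lam ^ 2 ∂iidUniform V ≤ 2 * M := by
      have h3 : ∫ U, ξ U ^ 4 * lam ^ 2 ∂iidUniform V ≤
          ∫ U, 2 * Real.exp (lam * ξ U ^ 2) ∂iidUniform V := by
        refine integral_mono (i4.mul_const (lam ^ 2)) (iexp.const_mul 2) fun U => ?_
        have hx : 0 ≤ lam * ξ U ^ 2 := by positivity
        have := Real.quadratic_le_exp_of_nonneg hx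
        show ξ U ^ 4 * lam ^ 2 ≤ 2 * _
        nlinarith
      rw [integral_const_mul] at h3
      linarith
    exact h2

/-- `ψ (2 D) ≤ 2 ψ (D)`. -/
theorem twoA_psi_two {D : ℝ} (hD : 0 ≤ D) : psi (2 * D) ≤ 2 * psi D := by
  rcases hD.eq_or_lt with rfl | hpos
  · simp [psi]
  · unfold psi
    have h1 : Real.log (8 / (2 * D)) ≤ Real.log (8 / D) := by
      apply Real.log_le_log (by positivity)
      apply div_le_div_of_nonneg_left (by norm_num) hpos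
      linarith
    nlinarith

/-- Numerics of the conclusion of `dh_L2`. -/
theorem twoA_L2_num {K s k L Ce P Δ A₁ A₂ B₁ B₂ B₃ Cv : ℝ}
    (hK : 0 ≤ K) (hs : 0 < s) (hk : 0 < k) (hL : 0 ≤ L) (hCe : 0 ≤ Ce) (hP : 0 ≤ P) (hΔ : 0 ≤ Δ)
    (hCv : Cv = K * (4 * L / k + 3 * Ce / k))
    (hA₁ : A₁ ≤ s / k * L * (2 * P)) (hA₂ : A₂ ≤ s / k * L * (2 * P))
    (hB₁ : B₁ ≤ Ce / k * s) (hB₂ : B₂ ≤ Ce / k * s) (hB₃ : B₃ ≤ Ce / k * s) :
    K * (A₁ + A₂ + Δ * (B₁ + B₂ + B₃)) ≤ Cv * s * (P + Δ) := by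
  have h1 : A₁ + A₂ ≤ 4 * L / k * s * P := by
    have e : s / k * L * (2 * P) = 2 * L / k * s * P := by ring
    rw [e] at hA₁ hA₂
    have e2 : 4 * L / k * s * P = 2 * L / k * s * P + 2 * L / k * s * P := by ring
    rw [e2]
    linarith
  have h2 : Δ * (B₁ + B₂ + B₃) ≤ 3 * Ce / k * s * Δ := by
    have e : 3 * Ce / k * s * Δ = Δ * (Ce / k * s + Ce / k * s + Ce / k * s) := by ring
    rw [e]
    exact mul_le_mul_of_nonneg_left (by linarith) hΔ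
  have h3 : 0 ≤ 4 * L / k * s := by positivity
  have h4 : 0 ≤ 3 * Ce / k * s := by positivity
  have h5 : 0 ≤ 4 * L / k * s * Δ := by positivity
  have h6 : 0 ≤ 3 * Ce / k * s * P := by positivity
  rw [hCv]
  calc K * (A₁ + A₂ + Δ * (B₁ + B₂ + B₃)) ≤ K * (4 * L / k * s * P + 3 * Ce / k * s * Δ) :=
        mul_le_mul_of_nonneg_left (by linarith) hK
    _ ≤ K * (4 * L / k * s * P + 3 * Ce / k * s * Δ + (4 * L / k * s * Δ + 3 * Ce / k * s * P)) :=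
        mul_le_mul_of_nonneg_left (by linarith) hK
    _ = K * (4 * L / k + 3 * Ce / k) * s * (P + Δ) := by ring

section stationarity

variable (s₁ : Sys G d T θ₁ t ξ₁ m₁) (s₂ : Sys G d T θ₂ t ξ₂ m₂)

include s₁ s₂

/-- `D` does not depend on the vertex. -/
theorem Dd_eq (hT : G.IsTree) (hreg : G.IsRegularOfDegree d) (x y : V) : Dd m₁ m₂ x = Dd m₁ m₂ y := by
  obtain ⟨φ, hφ⟩ := exists_aut (G := G) hT hreg (p := fun _ => x) (q := fun _ => y) (n := 0)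
    ⟨fun i hi => absurd hi (by omega), by simp⟩ ⟨fun i hi => absurd hi (by omega), by simp⟩
  have hφx : φ x = y := hφ 0 le_rfl
  subst hφx
  have hmp := measurePreserving_act (V := V) (G := G) φ
  have hmeas : Measurable (fun U => (m₁ U (φ x) - m₂ U (φ x)) ^ 2) :=
    ((s₁.meas_m _).sub (s₂.meas_m _)).pow_const 2
  unfold Dd
  have h1 : ∫ U, (m₁ U (φ x) - m₂ U (φ x)) ^ 2 ∂iidUniform V =
      ∫ U, (m₁ (U ∘ φ.symm) (φ x) - m₂ (U ∘ φ.symm) (φ x)) ^ 2 ∂iidUniform V := by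
    conv_lhs => rw [← hmp.map_eq]
    exact integral_map hmp.measurable.aemeasurable hmeas.aestronglyMeasurable
  rw [h1]
  simp only [s₁.equi_m, s₂.equi_m]

/-- F2. The bound on `δ̂`, a.e. on each edge, with constant depending on `d` only. -/
theorem dh_sq_le (hd : 3 ≤ d) {x y : V} (hxy : G.Adj x y) :
    ∀ᵐ U ∂iidUniform V, dh θ₁ θ₂ ξ₁ ξ₂ x y U ^ 2 ≤
      1000 * (d : ℝ) ^ 8 * ((ξ₁ U x y ^ 2 + ξ₂ U x y ^ 2) *
          ((m₁ U x - m₂ U x) ^ 2 + (m₁ U y - m₂ U y) ^ 2) +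
        (θ₁ - θ₂) ^ 2 * (ξ₁ U x y ^ 2 + ξ₂ U x y ^ 2 + ξ₂ U y x ^ 2)) := by
  obtain ⟨h01, h11⟩ := twoA_theta_small hd s₁.lo s₁.hi
  obtain ⟨h02, h12⟩ := twoA_theta_small hd s₂.lo s₂.hi
  have hd3 : (3 : ℝ) ≤ d := by exact_mod_cast hd
  filter_upwards [s₁.bethe x y hxy, s₁.bethe y x hxy.symm, s₂.bethe x y hxy,
    s₂.bethe y x hxy.symm] with U e1 e2 e3 e4
  exact twoA_dh_alg hd3 h01 h11 h02 h12 (s₁.abs_ξ U x y) (s₁.abs_ξ U y x) (s₂.abs_ξ U x y)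
    (s₂.abs_ξ U y x) e1 e2 e3 e4

/-- Bound on `dh`: the mean square of `ξ` is at most `Ce √t / kap0`, and its fourth moment at most
`2 Ce t / kap0²`. The hypothesis `3 ≤ d` is necessary: for `d = 2` the constant `kap0` vanishes. -/
theorem sq_ξ_le (hd : 3 ≤ d) (hT1 : 1 ≤ T) {x y : V} (hxy : G.Adj x y) :
    ∫ U, ξ₁ U x y ^ 2 ∂iidUniform V ≤ Ce d T / kap0 d T * Real.sqrt t ∧
    ∫ U, ξ₁ U x y ^ 4 ∂iidUniform V ≤ 2 * Ce d T / kap0 d T ^ 2 * t := by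
  have hk := twoA_kap0_pos hd hT1
  have hCe : 0 ≤ Ce d T := (zero_le_one.trans (twoA_one_le_Ce hd hT1))
  have hs : 0 < Real.sqrt t := Real.sqrt_pos.2 s₁.ht
  have hlam : 0 < kap0 d T / Real.sqrt t := div_pos hk hs
  obtain ⟨h2, h4⟩ := twoA_moments hlam hCe (s₁.meas_ξ x y) (fun U => s₁.abs_ξ U x y)
    (s₁.exp_ξ x y hxy)
  have hsq : Real.sqrt t ^ 2 = t := Real.sq_sqrt s₁.ht.le
  constructor
  · refine h2.trans (le_of_eq ?_)
    field_simp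
  · refine h4.trans (le_of_eq ?_)
    rw [div_pow, hsq]
    field_simp

/-- The tail of `ξ` above `1/2`. The hypothesis `3 ≤ d` is as in `sq_ξ_le`. -/
theorem tail_ξ (hd : 3 ≤ d) (hT1 : 1 ≤ T) {x y : V} (hxy : G.Adj x y) :
    iidUniform V {U | 1 / 2 < |ξ₁ U x y|} ≤
      ENNReal.ofReal (Ce d T * Real.exp (-(kap0 d T / (4 * Real.sqrt t)))) := by
  have hk := twoA_kap0_pos hd hT1
  have hs : 0 < Real.sqrt t := Real.sqrt_pos.2 s₁.ht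
  set lam := kap0 d T / Real.sqrt t with hlamd
  have hlam : 0 < lam := div_pos hk hs
  have hm : Measurable (fun U => ENNReal.ofReal (Real.exp (lam * ξ₁ U x y ^ 2))) :=
    ((measurable_const.mul ((s₁.meas_ξ x y).pow_const 2)).exp).ennreal_ofReal
  have hsub : {U | 1 / 2 < |ξ₁ U x y|} ⊆
      {U | ENNReal.ofReal (Real.exp (lam / 4)) ≤ ENNReal.ofReal (Real.exp (lam * ξ₁ U x y ^ 2))} := by
    intro U hU
    have hU' : 1 / 2 < |ξ₁ U x y| := hU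
    show ENNReal.ofReal (Real.exp (lam / 4)) ≤ ENNReal.ofReal (Real.exp (lam * ξ₁ U x y ^ 2))
    apply ENNReal.ofReal_le_ofReal
    apply Real.exp_le_exp.2
    have : (1 / 4 : ℝ) ≤ ξ₁ U x y ^ 2 := by
      rw [← sq_abs]
      nlinarith [abs_nonneg (ξ₁ U x y), hU']
    nlinarith
  have hε0 : ENNReal.ofReal (Real.exp (lam / 4)) ≠ 0 := by
    simpa using Real.exp_pos _
  have hεt : ENNReal.ofReal (Real.exp (lam / 4)) ≠ ⊤ := ENNReal.ofReal_ne_top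
  have hmk := meas_ge_le_lintegral_div (μ := iidUniform V) hm.aemeasurable hε0 hεt
  refine (measure_mono hsub).trans (hmk.trans ?_)
  have hexp := s₁.exp_ξ x y hxy
  refine (ENNReal.div_le_div_right hexp _).trans ?_
  rw [← ENNReal.ofReal_div_of_pos (Real.exp_pos _)]
  apply ENNReal.ofReal_le_ofReal
  rw [div_eq_mul_inv, ← Real.exp_neg]
  apply le_of_eq
  congr 2
  rw [hlamd]
  field_simp

/-- F3. Second moment of `δ̂`, by Yudovich with the exponential moment of `ξ²`. -/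
theorem dh_L2 (hT : G.IsTree) (hd : 3 ≤ d) (hreg : G.IsRegularOfDegree d) (hT1 : 1 ≤ T) {x y : V}
    (hxy : G.Adj x y) :
    ∫ U, dh θ₁ θ₂ ξ₁ ξ₂ x y U ^ 2 ∂iidUniform V ≤
      Cv d T * Real.sqrt t * (psi (Dd m₁ m₂ x) + (θ₁ - θ₂) ^ 2) := by
  have hk := twoA_kap0_pos hd hT1
  have hCe1 := twoA_one_le_Ce hd hT1
  have hCe : 0 ≤ Ce d T := zero_le_one.trans hCe1
  have hs : 0 < Real.sqrt t := Real.sqrt_pos.2 s₁.ht
  have hlam : 0 < kap0 d T / Real.sqrt t := div_pos hk hs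
  have hd3 : (3 : ℝ) ≤ d := by exact_mod_cast hd
  obtain ⟨h01, h11⟩ := twoA_theta_small hd s₁.lo s₁.hi
  obtain ⟨h02, h12⟩ := twoA_theta_small hd s₂.lo s₂.hi
  have hone1 : θ₁ < 1 := (twoA_const h01 h11).1
  have hone2 : θ₂ < 1 := (twoA_const h02 h12).1
  -- the functions
  set a : (V → unitInterval) → ℝ := fun U => ξ₁ U x y with ha
  set a' : (V → unitInterval) → ℝ := fun U => ξ₂ U x y with ha'
  set b' : (V → unitInterval) → ℝ := fun U => ξ₂ U y x with hb'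
  set Y : (V → unitInterval) → ℝ := fun U => (m₁ U x - m₂ U x) ^ 2 + (m₁ U y - m₂ U y) ^ 2 with hY
  have hma : Measurable a := s₁.meas_ξ x y
  have hma' : Measurable a' := s₂.meas_ξ x y
  have hmb' : Measurable b' := s₂.meas_ξ y x
  have hmmx : Measurable (fun U => (m₁ U x - m₂ U x) ^ 2) :=
    ((s₁.meas_m x).sub (s₂.meas_m x)).pow_const 2
  have hmmy : Measurable (fun U => (m₁ U y - m₂ U y) ^ 2) :=
    ((s₁.meas_m y).sub (s₂.meas_m y)).pow_const 2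
  have hmY : Measurable Y := hmmx.add hmmy
  have hsqb : ∀ (p q : ℝ), |p| ≤ 1 → |q| ≤ 1 → (p - q) ^ 2 ≤ 4 := by
    intro p q hp hq
    have h1 := abs_le.1 hp
    have h2 := abs_le.1 hq
    nlinarith [h1.1, h1.2, h2.1, h2.2, sq_nonneg (p + q)]
  have hY0 : ∀ U, 0 ≤ Y U := fun U => by simp only [hY]; positivity
  have hY8 : ∀ U, Y U ≤ 8 := fun U => by
    have h1 := hsqb _ _ (s₁.abs_m U x) (s₂.abs_m U x)
    have h2 := hsqb _ _ (s₁.abs_m U y) (s₂.abs_m U y)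
    simp only [hY]; linarith
  have hsq1 : ∀ (ξ : (V → unitInterval) → ℝ), (∀ U, |ξ U| ≤ 1) → ∀ U, |ξ U ^ 2| ≤ 1 := by
    intro ξ hξ U
    rw [abs_of_nonneg (sq_nonneg _)]
    have := abs_le.1 (hξ U)
    nlinarith [this.1, this.2]
  have habsa : ∀ U, |a U| ≤ 1 := fun U => s₁.abs_ξ U x y
  have habsa' : ∀ U, |a' U| ≤ 1 := fun U => s₂.abs_ξ U x y
  have habsb' : ∀ U, |b' U| ≤ 1 := fun U => s₂.abs_ξ U y x
  have ia : Integrable (fun U => a U ^ 2) (iidUniform V) := twoA_int (hma.pow_const 2) (hsq1 a habsa)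
  have ia' : Integrable (fun U => a' U ^ 2) (iidUniform V) :=
    twoA_int (hma'.pow_const 2) (hsq1 a' habsa')
  have ib' : Integrable (fun U => b' U ^ 2) (iidUniform V) :=
    twoA_int (hmb'.pow_const 2) (hsq1 b' habsb')
  have hbdY : ∀ (ξ : (V → unitInterval) → ℝ), (∀ U, |ξ U| ≤ 1) → ∀ U, |ξ U ^ 2 * Y U| ≤ 8 := by
    intro ξ hξ U
    rw [abs_mul, abs_of_nonneg (hY0 U)]
    have h1 := hsq1 ξ hξ U
    have h2 := hY8 U
    calc |ξ U ^ 2| * Y U ≤ 1 * 8 := mul_le_mul h1 h2 (hY0 U) zero_le_one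
      _ = 8 := by norm_num
  have iaY : Integrable (fun U => a U ^ 2 * Y U) (iidUniform V) :=
    twoA_int ((hma.pow_const 2).mul hmY) (hbdY a habsa)
  have ia'Y : Integrable (fun U => a' U ^ 2 * Y U) (iidUniform V) :=
    twoA_int ((hma'.pow_const 2).mul hmY) (hbdY a' habsa')
  -- Yudovich
  have hy1 := yudovich_psi (P := iidUniform V) (W := fun U => a U ^ 2) (Y := Y) (hma.pow_const 2) hmY
    (fun U => sq_nonneg _) hY0 hY8 hlam hCe1 (s₁.exp_ξ x y hxy)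
  have hy2 := yudovich_psi (P := iidUniform V) (W := fun U => a' U ^ 2) (Y := Y) (hma'.pow_const 2) hmY
    (fun U => sq_nonneg _) hY0 hY8 hlam hCe1 (s₂.exp_ξ x y hxy)
  -- the mean of Y
  have iY1 : Integrable (fun U => (m₁ U x - m₂ U x) ^ 2) (iidUniform V) :=
    twoA_int hmmx (A := 4) fun U => by
      rw [abs_of_nonneg (sq_nonneg _)]; exact hsqb _ _ (s₁.abs_m U x) (s₂.abs_m U x)
  have iY2 : Integrable (fun U => (m₁ U y - m₂ U y) ^ 2) (iidUniform V) :=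
    twoA_int hmmy (A := 4) fun U => by
      rw [abs_of_nonneg (sq_nonneg _)]; exact hsqb _ _ (s₁.abs_m U y) (s₂.abs_m U y)
  have hYint : ∫ U, Y U ∂iidUniform V = 2 * Dd m₁ m₂ x := by
    have h1 : ∫ U, Y U ∂iidUniform V = Dd m₁ m₂ x + Dd m₁ m₂ y := integral_add iY1 iY2
    rw [h1, ← Dd_eq s₁ s₂ hT hreg x y]; ring
  have hD0 : 0 ≤ Dd m₁ m₂ x := integral_nonneg fun U => sq_nonneg _
  have hD4 : Dd m₁ m₂ x ≤ 4 := by
    have h1 : Dd m₁ m₂ x ≤ ∫ _U : V → unitInterval, (4 : ℝ) ∂iidUniform V :=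
      integral_mono iY1 (integrable_const _) fun U => hsqb _ _ (s₁.abs_m U x) (s₂.abs_m U x)
    simpa using h1
  have hP0 : 0 ≤ psi (Dd m₁ m₂ x) := psi_nonneg hD0 (by linarith)
  have hψ := twoA_psi_two hD0
  have hL : 0 ≤ 1 + Real.log (Ce d T) := by
    have := Real.log_nonneg hCe1
    linarith
  have hinv : 1 / (kap0 d T / Real.sqrt t) = Real.sqrt t / kap0 d T := by
    field_simp
  have hcoef : 0 ≤ Real.sqrt t / kap0 d T * (1 + Real.log (Ce d T)) := by positivity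
  have hA₁ : ∫ U, a U ^ 2 * Y U ∂iidUniform V ≤
      Real.sqrt t / kap0 d T * (1 + Real.log (Ce d T)) * (2 * psi (Dd m₁ m₂ x)) := by
    refine hy1.trans ?_
    rw [hYint, hinv]
    exact mul_le_mul_of_nonneg_left hψ hcoef
  have hA₂ : ∫ U, a' U ^ 2 * Y U ∂iidUniform V ≤
      Real.sqrt t / kap0 d T * (1 + Real.log (Ce d T)) * (2 * psi (Dd m₁ m₂ x)) := by
    refine hy2.trans ?_
    rw [hYint, hinv]
    exact mul_le_mul_of_nonneg_left hψ hcoef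
  have hB₁ := (sq_ξ_le s₁ s₂ hd hT1 hxy).1
  have hB₂ := (sq_ξ_le s₂ s₁ hd hT1 hxy).1
  have hB₃ := (sq_ξ_le s₂ s₁ hd hT1 hxy.symm).1
  -- main integration
  have hdh : Measurable (fun U => dh θ₁ θ₂ ξ₁ ξ₂ x y U ^ 2) :=
    ((twoA_meas_gm θ₁ hma).sub (twoA_meas_gm θ₂ hma')).pow_const 2
  have hdh_bd : ∀ U, |dh θ₁ θ₂ ξ₁ ξ₂ x y U ^ 2| ≤ 1 := fun U => by
    rw [abs_of_nonneg (sq_nonneg _)]
    have g1 := gm_nonneg h01 hone1 (habsa U)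
    have g2 := gm_le_one h01 hone1 (habsa U)
    have g3 := gm_nonneg h02 hone2 (habsa' U)
    have g4 := gm_le_one h02 hone2 (habsa' U)
    show (gm θ₁ (a U) - gm θ₂ (a' U)) ^ 2 ≤ 1
    nlinarith
  have idh : Integrable (fun U => dh θ₁ θ₂ ξ₁ ξ₂ x y U ^ 2) (iidUniform V) := twoA_int hdh hdh_bd
  set K : ℝ := 1000 * (d : ℝ) ^ 8 with hK
  have hK0 : 0 ≤ K := by positivity
  set Δ : ℝ := (θ₁ - θ₂) ^ 2 with hΔ
  have hΔ0 : 0 ≤ Δ := sq_nonneg _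
  have iR : Integrable (fun U => K * ((a U ^ 2 * Y U + a' U ^ 2 * Y U) +
      Δ * (a U ^ 2 + a' U ^ 2 + b' U ^ 2))) (iidUniform V) :=
    ((iaY.add ia'Y).add (((ia.add ia').add ib').const_mul Δ)).const_mul K
  have hmono : ∫ U, dh θ₁ θ₂ ξ₁ ξ₂ x y U ^ 2 ∂iidUniform V ≤
      ∫ U, K * ((a U ^ 2 * Y U + a' U ^ 2 * Y U) + Δ * (a U ^ 2 + a' U ^ 2 + b' U ^ 2)) ∂iidUniform V := by
    refine integral_mono_ae idh iR ?_
    filter_upwards [dh_sq_le s₁ s₂ hd hxy] with U hU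
    refine hU.trans (le_of_eq ?_)
    simp only [ha, ha', hb', hY, hK, hΔ]
    ring
  have hexpand : ∫ U, K * ((a U ^ 2 * Y U + a' U ^ 2 * Y U) + Δ * (a U ^ 2 + a' U ^ 2 + b' U ^ 2)) ∂iidUniform V =
      K * ((∫ U, a U ^ 2 * Y U ∂iidUniform V) + (∫ U, a' U ^ 2 * Y U ∂iidUniform V) +
        Δ * ((∫ U, a U ^ 2 ∂iidUniform V) + (∫ U, a' U ^ 2 ∂iidUniform V) +
          ∫ U, b' U ^ 2 ∂iidUniform V)) := by
    have i1 : Integrable (fun U => a U ^ 2 * Y U + a' U ^ 2 * Y U) (iidUniform V) := iaY.add ia'Y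
    have i2 : Integrable (fun U => a U ^ 2 + a' U ^ 2) (iidUniform V) := ia.add ia'
    have i3 : Integrable (fun U => a U ^ 2 + a' U ^ 2 + b' U ^ 2) (iidUniform V) := i2.add ib'
    have i4 : Integrable (fun U => Δ * (a U ^ 2 + a' U ^ 2 + b' U ^ 2)) (iidUniform V) :=
      i3.const_mul Δ
    rw [integral_const_mul, integral_add i1 i4, integral_add iaY ia'Y, integral_const_mul,
      integral_add i2 ib', integral_add ia ia']
  refine hmono.trans ?_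
  rw [hexpand]
  exact twoA_L2_num hK0 hs hk hL hCe hP0 hΔ0 rfl hA₁ hA₂ hB₁ hB₂ hB₃

end stationarity

end Vale.Agent.Lib.P161E
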