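import Vale.Agent.Lib.P161E.TwoNear3

/-! Job F6: reorganisation of the far part (reversal, transitivity). -/

open MeasureTheory Finset
open scoped Classical ENNReal

noncomputable section

namespace Vale.Agent.Lib.P161E

open Vale.Agent.Lib.P161

variable {V : Type*} {G : SimpleGraph V} [G.LocallyFinite] {d : ℕ} {T θ₁ θ₂ t : ℝ}
  {ξ₁ ξ₂ : (V → unitInterval) → V → V → ℝ} {m₁ m₂ : (V → unitInterval) → V → ℝ}

/-! Far part. -/

/-- The double shell sum of the far part on the edge `(b, c)`. -/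
def Xfar (G : SimpleGraph V) [G.LocallyFinite] (θ₁ θ₂ : ℝ) (ξ₁ ξ₂ : V → V → ℝ) (K N : ℕ) (b c : V) : ℝ :=
  ∑ j ∈ range N, ∑ l ∈ range N, if K < j + l + 1 ∧ j + l + 1 ≤ N then
    ((j : ℝ) + l + 1) * (shell G θ₂ ξ₂ j c b * shell G θ₁ ξ₁ l b c) else 0

/-! Bounded measurable functions on the uniform variables. -/

/-- Bounded and measurable. -/
def far1BM (f : (V → unitInterval) → ℝ) : Prop := Measurable f ∧ ∃ B, ∀ U, |f U| ≤ B

theorem far1BM.integrable {f : (V → unitInterval) → ℝ} (h : far1BM f) :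
    Integrable f (iidUniform V) := by
  have : IsProbabilityMeasure (iidUniform V) := by unfold iidUniform; infer_instance
  obtain ⟨hm, B, hB⟩ := h
  exact Integrable.of_bound hm.aestronglyMeasurable B
    (Filter.Eventually.of_forall fun U => by simpa using hB U)

theorem far1BM.mul {f g : (V → unitInterval) → ℝ} (hf : far1BM f) (hg : far1BM g) :
    far1BM (fun U => f U * g U) := by
  obtain ⟨hf1, A, hA⟩ := hf
  obtain ⟨hg1, B, hB⟩ := hg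
  refine ⟨hf1.mul hg1, A * B, fun U => ?_⟩
  rw [abs_mul]
  exact mul_le_mul (hA U) (hB U) (abs_nonneg _) ((abs_nonneg _).trans (hA U))

theorem far1BM.sq {f : (V → unitInterval) → ℝ} (hf : far1BM f) : far1BM (fun U => f U ^ 2) := by
  simpa [pow_two] using hf.mul hf

theorem far1BM.const (c : ℝ) : far1BM (fun _ : V → unitInterval => c) :=
  ⟨measurable_const, |c|, fun _ => le_rfl⟩

theorem far1BM.sub {f g : (V → unitInterval) → ℝ} (hf : far1BM f) (hg : far1BM g) :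
    far1BM (fun U => f U - g U) := by
  obtain ⟨hf1, A, hA⟩ := hf
  obtain ⟨hg1, B, hB⟩ := hg
  exact ⟨hf1.sub hg1, A + B, fun U => (abs_sub _ _).trans (add_le_add (hA U) (hB U))⟩

theorem far1BM.sum {ι : Type*} (s : Finset ι) {f : ι → (V → unitInterval) → ℝ}
    (h : ∀ i ∈ s, far1BM (f i)) : far1BM (fun U => ∑ i ∈ s, f i U) := by
  refine ⟨Finset.measurable_fun_sum s fun i hi => (h i hi).1, ?_⟩
  choose! B hB using fun i (hi : i ∈ s) => (h i hi).2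
  exact ⟨∑ i ∈ s, B i, fun U => (Finset.abs_sum_le_sum_abs _ _).trans
    (Finset.sum_le_sum fun i hi => hB i hi U)⟩

theorem far1BM.prod {ι : Type*} (s : Finset ι) {f : ι → (V → unitInterval) → ℝ}
    (h : ∀ i ∈ s, far1BM (f i)) : far1BM (fun U => ∏ i ∈ s, f i U) := by
  refine ⟨Finset.measurable_fun_prod s fun i hi => (h i hi).1, ?_⟩
  choose! B hB using fun i (hi : i ∈ s) => (h i hi).2
  refine ⟨∏ i ∈ s, B i, fun U => ?_⟩
  rw [Finset.abs_prod]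
  exact Finset.prod_le_prod (fun i _ => abs_nonneg _) fun i hi => hB i hi U

theorem far1_theta (hd : 3 ≤ d) {θ : ℝ} (hlo : thc d / 2 ≤ θ) (hhi : θ < thc d) :
    0 ≤ θ ∧ θ < 1 := by
  have hd' : (3 : ℝ) ≤ d := by exact_mod_cast hd
  have h1 : (1 : ℝ) ≤ Real.sqrt ((d : ℝ) - 1) := Real.one_le_sqrt.mpr (by linarith)
  have hpos : 0 < thc d := by
    unfold thc
    positivity
  have hle : thc d ≤ 1 := by
    unfold thc
    rw [div_le_one (by linarith)]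
    exact h1
  constructor
  · linarith
  · linarith

theorem far1BM_gm {θ : ℝ} (h0 : 0 ≤ θ) (h1 : θ < 1) {f : (V → unitInterval) → ℝ}
    (hm : Measurable f) (hb : ∀ U, |f U| ≤ 1) : far1BM (fun U => gm θ (f U)) := by
  refine ⟨?_, 1, fun U => ?_⟩
  · unfold gm
    exact (measurable_const.sub (hm.pow_const 2)).div
      (measurable_const.sub (measurable_const.mul (hm.pow_const 2)))
  · rw [abs_of_nonneg (gm_nonneg h0 h1 (hb U))]
    exact gm_le_one h0 h1 (hb U)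

theorem far1BM_pathG {θ : ℝ} (h0 : 0 ≤ θ) (h1 : θ < 1) {ξ : (V → unitInterval) → V → V → ℝ}
    (hm : ∀ x y, Measurable (fun U => ξ U x y)) (hb : ∀ U x y, |ξ U x y| ≤ 1) (r v : V) :
    far1BM (fun U => pathG G θ (ξ U) r v) := by
  unfold pathG
  refine far1BM.prod _ fun j _ => ?_
  exact (far1BM.const θ).mul (far1BM_gm h0 h1 (hm _ _) fun U => hb U _ _)

theorem far1BM_prodG {θ : ℝ} (h0 : 0 ≤ θ) (h1 : θ < 1) {ξ : (V → unitInterval) → V → V → ℝ}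
    (hm : ∀ x y, Measurable (fun U => ξ U x y)) (hb : ∀ U x y, |ξ U x y| ≤ 1) (r v : V) :
    far1BM (fun U => prodG G θ (ξ U) r v) := by
  unfold prodG
  exact far1BM.prod _ fun j _ => far1BM_gm h0 h1 (hm _ _) fun U => hb U _ _

theorem far1BM_shell {θ : ℝ} (h0 : 0 ≤ θ) (h1 : θ < 1) {ξ : (V → unitInterval) → V → V → ℝ}
    (hm : ∀ x y, Measurable (fun U => ξ U x y)) (hb : ∀ U x y, |ξ U x y| ≤ 1) (l : ℕ) :
    ∀ x y : V, far1BM (fun U => shell G θ (ξ U) l x y) := by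
  induction l with
  | zero =>
    intro x y
    simpa [shell] using far1BM.const (V := V) 1
  | succ l ih =>
    intro x y
    simp only [shell]
    refine far1BM.sum _ fun c _ => ?_
    exact (((far1BM.const θ).mul (far1BM_gm h0 h1 (hm _ _) fun U => hb U _ _)).sq).mul (ih c x)

theorem far1_shell_nonneg (θ : ℝ) (ξ : V → V → ℝ) (l : ℕ) :
    ∀ x y : V, 0 ≤ shell G θ ξ l x y := by
  induction l with
  | zero => intro x y; simp [shell]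
  | succ l ih =>
    intro x y
    simp only [shell]
    exact Finset.sum_nonneg fun c _ => mul_nonneg (sq_nonneg _) (ih c x)

/-! Equivariance. -/

theorem far1_shell_equi (φ : G ≃g G) {θ : ℝ} {ξ ξ' : V → V → ℝ}
    (h : ∀ x y, ξ' (φ x) (φ y) = ξ x y) (l : ℕ) :
    ∀ x y : V, shell G θ ξ' l (φ x) (φ y) = shell G θ ξ l x y := by
  induction l with
  | zero => intro x y; simp [shell]
  | succ l ih =>
    intro x y
    simp only [shell]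
    symm
    refine Finset.sum_equiv φ.toEquiv (fun c => ?_) (fun c _ => ?_)
    · simp only [mem_kids, RelIso.coe_fn_toEquiv]
      rw [φ.map_adj_iff]
      simp
    · simp only [RelIso.coe_fn_toEquiv]
      rw [ih c x, h]

theorem far1_pathG_equi (hT : G.IsTree) (φ : G ≃g G) {θ : ℝ} {ξ ξ' : V → V → ℝ}
    (h : ∀ x y, ξ' (φ x) (φ y) = ξ x y) (a b : V) :
    pathG G θ ξ' (φ a) (φ b) = pathG G θ ξ a b := by
  unfold pathG
  rw [Corr.dist_aut hT]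
  refine Finset.prod_congr rfl fun j hj => ?_
  have hj' := Finset.mem_range.1 hj
  rw [← geo_map hT φ a b (by omega : j + 1 ≤ G.dist a b), ← geo_map hT φ a b (by omega : j ≤ G.dist a b), h]

/-- Transitivity of the automorphism group on the geodesic segments. -/
theorem far1_transfer (hT : G.IsTree) (hreg : G.IsRegularOfDegree d)
    (s₁ : Sys G d T θ₁ t ξ₁ m₁) (s₂ : Sys G d T θ₂ t ξ₂ m₂)
    {r b r' b₀ c₀ : V} {j l : ℕ} (hb : b ∈ sph G r (j + 1)) (h₀ : G.Adj c₀ b₀)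
    (hr' : r' ∈ bsph G c₀ b₀ j) (hF : far1BM (fun U => pathG G θ₂ (ξ₂ U) c₀ r' ^ 2 *
      dh θ₁ θ₂ ξ₁ ξ₂ b₀ c₀ U ^ 2 * shell G θ₁ (ξ₁ U) l b₀ c₀)) :
    ∫ U, pathG G θ₂ (ξ₂ U) (geo G r b j) r ^ 2 * dh θ₁ θ₂ ξ₁ ξ₂ b (geo G r b j) U ^ 2 *
        shell G θ₁ (ξ₁ U) l b (geo G r b j) ∂iidUniform V =
      ∫ U, pathG G θ₂ (ξ₂ U) c₀ r' ^ 2 * dh θ₁ θ₂ ξ₁ ξ₂ b₀ c₀ U ^ 2 *
        shell G θ₁ (ξ₁ U) l b₀ c₀ ∂iidUniform V := by
  have hdb : G.dist r b = j + 1 := (mem_sph hT).1 hb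
  have hq : IsGeo G (geo G r b) (j + 1) := by
    have := isGeo_geo hT r b
    rwa [hdb] at this
  have hq' := isGeo_of_mem_bsph hT h₀ hr'
  obtain ⟨φ, hφ⟩ := exists_aut hT hreg hq hq'
  have hdr : G.dist r' c₀ = j := by
    rw [SimpleGraph.dist_comm]
    exact ((mem_bsph hT).1 hr').1
  have h1 : φ r = r' := by
    have := hφ 0 (by omega)
    simpa [geo] using this
  have h2 : φ (geo G r b j) = c₀ := by
    have := hφ j (by omega)
    simp only [le_refl, if_true] at this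
    rw [this, ← hdr]
    exact geo_last hT r' c₀
  have h3 : φ b = b₀ := by
    have := hφ (j + 1) (by omega)
    rw [show geo G r b (j + 1) = b by rw [← hdb]; exact geo_last hT r b] at this
    simpa using this
  have hmp := measurePreserving_act (V := V) (G := G) φ
  have key : ∫ U, pathG G θ₂ (ξ₂ U) c₀ r' ^ 2 * dh θ₁ θ₂ ξ₁ ξ₂ b₀ c₀ U ^ 2 *
        shell G θ₁ (ξ₁ U) l b₀ c₀ ∂iidUniform V =
      ∫ U, pathG G θ₂ (ξ₂ (U ∘ φ.symm)) c₀ r' ^ 2 * dh θ₁ θ₂ ξ₁ ξ₂ b₀ c₀ (U ∘ φ.symm) ^ 2 *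
        shell G θ₁ (ξ₁ (U ∘ φ.symm)) l b₀ c₀ ∂iidUniform V := by
    conv_lhs => rw [← hmp.map_eq]
    exact integral_map hmp.measurable.aemeasurable hF.1.aestronglyMeasurable
  rw [key]
  refine integral_congr_ae (Filter.Eventually.of_forall fun U => ?_)
  simp only
  rw [← h1, ← h2, ← h3]
  rw [far1_pathG_equi hT φ (ξ := ξ₂ U) (ξ' := ξ₂ (U ∘ φ.symm)) (fun x y => s₂.equi_ξ φ U x y),
    far1_shell_equi φ (ξ := ξ₁ U) (ξ' := ξ₁ (U ∘ φ.symm)) (fun x y => s₁.equi_ξ φ U x y)]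
  unfold dh
  rw [s₁.equi_ξ φ U, s₂.equi_ξ φ U]

/-- Pointwise estimate of the far term: telescoping, reversal, Cauchy-Schwarz. -/
theorem far1_point (hT : G.IsTree) (θ₁ θ₂ : ℝ) (h20 : 0 ≤ θ₂) (h21 : θ₂ ≤ θ₁) (m : V → ℝ)
    (ξ₁' ξ₂' : V → V → ℝ) (hm : ∀ x, |m x| ≤ 1) (r v : V) {n : ℕ} (hn : G.dist r v = n)
    (hrev : ∀ j, Cf G θ₂ m ξ₂' r (geo G r v j) = Cf G θ₂ m ξ₂' (geo G r v j) r) :
    ((1 - m r ^ 2) * θ₂ ^ n * (prodG G θ₁ ξ₁' r v - prodG G θ₂ ξ₂' r v)) ^ 2 ≤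
      n * θ₂ ^ 2 * ∑ j ∈ range n, (pathG G θ₂ ξ₂' (geo G r v j) r ^ 2 *
        (gm θ₁ (ξ₁' (geo G r v (j + 1)) (geo G r v j)) - gm θ₂ (ξ₂' (geo G r v (j + 1)) (geo G r v j))) ^ 2 *
        pathG G θ₁ ξ₁' (geo G r v (j + 1)) v ^ 2) := by
  set f : ℕ → ℝ := fun j => gm θ₁ (ξ₁' (geo G r v (j + 1)) (geo G r v j)) with hf
  set g : ℕ → ℝ := fun j => gm θ₂ (ξ₂' (geo G r v (j + 1)) (geo G r v j)) with hg
  have h1 : prodG G θ₁ ξ₁' r v = ∏ j ∈ range n, f j := by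
    unfold prodG; rw [hn]
  have h2 : prodG G θ₂ ξ₂' r v = ∏ j ∈ range n, g j := by
    unfold prodG; rw [hn]
  rw [h1, h2, prod_sub_prod, Finset.mul_sum]
  refine (sq_sum_le_card_mul_sum_sq).trans ?_
  rw [Finset.card_range, mul_assoc, Finset.mul_sum (range n) _ (θ₂ ^ 2)]
  refine mul_le_mul_of_nonneg_left ?_ (Nat.cast_nonneg n : (0 : ℝ) ≤ (n : ℝ))
  refine Finset.sum_le_sum fun j hj => ?_
  have hj' : j < n := Finset.mem_range.1 hj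
  -- initial segment
  have hdc : G.dist r (geo G r v j) = j := (dist_geo hT (by omega)).1
  have hP : (1 - m r ^ 2) * (θ₂ ^ j * ∏ i ∈ range j, g i) = Cf G θ₂ m ξ₂' r (geo G r v j) := by
    unfold Cf
    rw [pathG_eq]
    congr 2
    · rw [hdc]
    · unfold prodG
      rw [hdc]
      refine Finset.prod_congr rfl fun i hi => ?_
      have hi' := Finset.mem_range.1 hi
      rw [geo_prefix hT (by omega : i + 1 ≤ j) (by omega), geo_prefix hT (by omega : i ≤ j) (by omega)]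
  -- final segment
  have hdb : G.dist (geo G r v (j + 1)) v = n - (j + 1) := by
    rw [(dist_geo hT (by omega)).2, hn]
  have hS : ∏ i ∈ Finset.Ioo j n, f i = prodG G θ₁ ξ₁' (geo G r v (j + 1)) v := by
    unfold prodG
    rw [hdb]
    have hI : Finset.Ioo j n = Finset.Ico (j + 1) n := by
      ext i; simp only [Finset.mem_Ioo, Finset.mem_Ico]; omega
    rw [hI, Finset.prod_Ico_eq_prod_range]
    refine Finset.prod_congr rfl fun i hi => ?_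
    have hi' := Finset.mem_range.1 hi
    simp only [hf]
    rw [geo_suffix hT (by omega : j + 1 + (i + 1) ≤ G.dist r v),
      geo_suffix hT (by omega : j + 1 + i ≤ G.dist r v)]
    rfl
  have hQ : pathG G θ₁ ξ₁' (geo G r v (j + 1)) v =
      θ₁ ^ (n - (j + 1)) * ∏ i ∈ Finset.Ioo j n, f i := by
    rw [pathG_eq, hdb, hS]
  have hrevj := hrev j
  have hC : Cf G θ₂ m ξ₂' (geo G r v j) r ^ 2 ≤ pathG G θ₂ ξ₂' (geo G r v j) r ^ 2 := by
    unfold Cf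
    rw [mul_pow]
    have h3 : (1 - m (geo G r v j) ^ 2) ^ 2 ≤ 1 := by
      have h4 := abs_le.1 (hm (geo G r v j))
      have h5 : m (geo G r v j) ^ 2 ≤ 1 := by nlinarith
      have h6 : 0 ≤ m (geo G r v j) ^ 2 := sq_nonneg _
      nlinarith
    nlinarith [sq_nonneg (pathG G θ₂ ξ₂' (geo G r v j) r)]
  have hpow : θ₂ ^ n = θ₂ ^ j * θ₂ * θ₂ ^ (n - (j + 1)) := by
    rw [← pow_succ, ← pow_add]
    congr 1
    omega
  have hthe : (θ₂ ^ (n - (j + 1))) ^ 2 ≤ (θ₁ ^ (n - (j + 1))) ^ 2 :=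
    pow_le_pow_left₀ (pow_nonneg h20 _) (pow_le_pow_left₀ h20 h21 _) 2
  have hid : (1 - m r ^ 2) * θ₂ ^ n * ((∏ i ∈ range j, g i) * (f j - g j) * ∏ i ∈ Finset.Ioo j n, f i) =
      ((1 - m r ^ 2) * (θ₂ ^ j * ∏ i ∈ range j, g i)) * θ₂ * (f j - g j) *
        (θ₂ ^ (n - (j + 1)) * ∏ i ∈ Finset.Ioo j n, f i) := by
    rw [hpow]; ring
  rw [hid, hP, hrevj, hQ]
  set C := Cf G θ₂ m ξ₂' (geo G r v j) r
  set A := pathG G θ₂ ξ₂' (geo G r v j) r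
  set P := ∏ i ∈ Finset.Ioo j n, f i
  set a := θ₂ ^ (n - (j + 1))
  set b := θ₁ ^ (n - (j + 1))
  have e1 : (C * θ₂ * (f j - g j) * (a * P)) ^ 2 =
      C ^ 2 * (θ₂ ^ 2 * (f j - g j) ^ 2 * (a ^ 2 * P ^ 2)) := by ring
  have e2 : θ₂ ^ 2 * (A ^ 2 * (f j - g j) ^ 2 * (b * P) ^ 2) =
      A ^ 2 * (θ₂ ^ 2 * (f j - g j) ^ 2 * (b ^ 2 * P ^ 2)) := by ring
  rw [e1, e2]
  have hnn : 0 ≤ θ₂ ^ 2 * (f j - g j) ^ 2 := by positivity
  have h7 : θ₂ ^ 2 * (f j - g j) ^ 2 * (a ^ 2 * P ^ 2) ≤ θ₂ ^ 2 * (f j - g j) ^ 2 * (b ^ 2 * P ^ 2) :=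
    mul_le_mul_of_nonneg_left (mul_le_mul_of_nonneg_right hthe (sq_nonneg P)) hnn
  exact mul_le_mul hC h7 (by positivity) (sq_nonneg A)

/-- Reindexing of the double sum. -/
theorem far1_reindex (K N : ℕ) (h : ℕ → ℕ → ℝ) :
    ∑ n ∈ Finset.Ioc K N, ∑ j ∈ range n, ((n : ℝ) * h j (n - (j + 1))) =
      ∑ j ∈ range N, ∑ l ∈ range N, if K < j + l + 1 ∧ j + l + 1 ≤ N then
        ((j : ℝ) + l + 1) * h j l else 0 := by
  have e : (∑ j ∈ range N, ∑ l ∈ range N, if K < j + l + 1 ∧ j + l + 1 ≤ N then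
        ((j : ℝ) + l + 1) * h j l else 0) =
      ∑ x ∈ (range N ×ˢ range N).filter (fun x : ℕ × ℕ => K < x.1 + x.2 + 1 ∧ x.1 + x.2 + 1 ≤ N),
        (((x.1 : ℝ) + x.2 + 1) * h x.1 x.2) := by
    rw [Finset.sum_filter, Finset.sum_product]
  rw [e, Finset.sum_sigma']
  refine Finset.sum_bij' (fun x _ => (x.2, x.1 - (x.2 + 1))) (fun y _ => ⟨y.1 + y.2 + 1, y.1⟩)
    ?_ ?_ ?_ ?_ ?_
  · rintro ⟨n, j⟩ hx
    simp only [Finset.mem_sigma, Finset.mem_Ioc, Finset.mem_range] at hx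
    simp only [Finset.mem_filter, Finset.mem_product, Finset.mem_range]
    omega
  · rintro ⟨j, l⟩ hx
    simp only [Finset.mem_filter, Finset.mem_product, Finset.mem_range] at hx
    simp only [Finset.mem_sigma, Finset.mem_Ioc, Finset.mem_range]
    omega
  · rintro ⟨n, j⟩ hx
    simp only [Finset.mem_sigma, Finset.mem_Ioc, Finset.mem_range] at hx
    simp only [Sigma.mk.injEq, heq_eq_eq, and_true]
    omega
  · rintro ⟨j, l⟩ hx
    simp only [Prod.mk.injEq, true_and]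
    omega
  · rintro ⟨n, j⟩ hx
    simp only [Finset.mem_sigma, Finset.mem_Ioc, Finset.mem_range] at hx
    have e1 : n = j + (n - (j + 1)) + 1 := by omega
    have e2 : (n : ℝ) = (j : ℝ) + ((n - (j + 1) : ℕ) : ℝ) + 1 := by exact_mod_cast e1
    simp only [e2]

/-- The integral of the product of the two shells with `dh²`. -/
def far1J (G : SimpleGraph V) [G.LocallyFinite] (θ₁ θ₂ : ℝ) (ξ₁ ξ₂ : (V → unitInterval) → V → V → ℝ)
    (b₀ c₀ : V) (j l : ℕ) : ℝ :=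
  ∫ U, shell G θ₂ (ξ₂ U) j c₀ b₀ * shell G θ₁ (ξ₁ U) l b₀ c₀ * dh θ₁ θ₂ ξ₁ ξ₂ b₀ c₀ U ^ 2 ∂iidUniform V

/-- F6. Reorganisation of the far part. Proof: `prod_sub_prod`, Cauchy-Schwarz along the path,
`pathG_split`, `Sys.rev` for system 2 (initial segment `(1 - m₂ r²) pathG r c = (1 - m₂ c²) pathG c r`), `θ₂ ≤ θ₁`,
`sum_sph_geo`, `sum_pathG_sq_bsph`, and for fixed `j`, transitivity (`exists_aut`, `measurePreserving_act`):
the integral on `(r, c, b)` equals the integral on `(r', c₀, b₀)` for every `r' ∈ bsph c₀ b₀ j`; average over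
`r'`, the sizes are `d (d-1)^j` and `(d-1)^j`. -/
theorem far_sum (hT : G.IsTree) (hd : 3 ≤ d) (hreg : G.IsRegularOfDegree d)
    (s₁ : Sys G d T θ₁ t ξ₁ m₁) (s₂ : Sys G d T θ₂ t ξ₂ m₂) (hθ : θ₂ ≤ θ₁) {b₀ c₀ : V}
    (h₀ : G.Adj b₀ c₀) (r : V) (K N : ℕ) :
    ∑ n ∈ Finset.Ioc K N, ∑ v ∈ sph G r n, ∫ U,
        ((1 - m₂ U r ^ 2) * θ₂ ^ n * (prodG G θ₁ (ξ₁ U) r v - prodG G θ₂ (ξ₂ U) r v)) ^ 2 ∂iidUniform V ≤
      d * θ₂ ^ 2 * ∫ U, Xfar G θ₁ θ₂ (ξ₁ U) (ξ₂ U) K N b₀ c₀ * dh θ₁ θ₂ ξ₁ ξ₂ b₀ c₀ U ^ 2 ∂iidUniform V := by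
  obtain ⟨h10, h11⟩ := far1_theta hd s₁.lo s₁.hi
  obtain ⟨h20, h21⟩ := far1_theta hd s₂.lo s₂.hi
  have bmP₂ : ∀ x y, far1BM (fun U => pathG G θ₂ (ξ₂ U) x y) :=
    far1BM_pathG h20 h21 s₂.meas_ξ s₂.abs_ξ
  have bmP₁ : ∀ x y, far1BM (fun U => pathG G θ₁ (ξ₁ U) x y) :=
    far1BM_pathG h10 h11 s₁.meas_ξ s₁.abs_ξ
  have bmQ₂ : ∀ x y, far1BM (fun U => prodG G θ₂ (ξ₂ U) x y) :=
    far1BM_prodG h20 h21 s₂.meas_ξ s₂.abs_ξ
  have bmQ₁ : ∀ x y, far1BM (fun U => prodG G θ₁ (ξ₁ U) x y) :=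
    far1BM_prodG h10 h11 s₁.meas_ξ s₁.abs_ξ
  have bmS₁ : ∀ l x y, far1BM (fun U => shell G θ₁ (ξ₁ U) l x y) :=
    fun l => far1BM_shell h10 h11 s₁.meas_ξ s₁.abs_ξ l
  have bmS₂ : ∀ l x y, far1BM (fun U => shell G θ₂ (ξ₂ U) l x y) :=
    fun l => far1BM_shell h20 h21 s₂.meas_ξ s₂.abs_ξ l
  have bmD : ∀ x y, far1BM (fun U => dh θ₁ θ₂ ξ₁ ξ₂ x y U) := fun x y =>
    (far1BM_gm h10 h11 (s₁.meas_ξ x y) (fun U => s₁.abs_ξ U x y)).sub
      (far1BM_gm h20 h21 (s₂.meas_ξ x y) fun U => s₂.abs_ξ U x y)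
  have bmM : ∀ x, far1BM (fun U => m₂ U x) := fun x =>
    ⟨s₂.meas_m x, 1, fun U => s₂.abs_m U x⟩
  have hc₀b₀ : G.Adj c₀ b₀ := h₀.symm
  have hdpos : (0 : ℝ) < ((d - 1 : ℕ) : ℝ) := by
    have : 0 < d - 1 := by omega
    exact_mod_cast this
  -- transitivity
  have stepD : ∀ j l b, b ∈ sph G r (j + 1) →
      ∫ U, pathG G θ₂ (ξ₂ U) (geo G r b j) r ^ 2 * dh θ₁ θ₂ ξ₁ ξ₂ b (geo G r b j) U ^ 2 *
        shell G θ₁ (ξ₁ U) l b (geo G r b j) ∂iidUniform V =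
      far1J G θ₁ θ₂ ξ₁ ξ₂ b₀ c₀ j l / ((d - 1 : ℕ) : ℝ) ^ j := by
    intro j l b hb
    rw [eq_div_iff (by positivity)]
    have hcard := card_bsph hT (by omega : 2 ≤ d) hreg hc₀b₀ j
    have hJ : far1J G θ₁ θ₂ ξ₁ ξ₂ b₀ c₀ j l = ∑ r' ∈ bsph G c₀ b₀ j, ∫ U,
        pathG G θ₂ (ξ₂ U) c₀ r' ^ 2 * dh θ₁ θ₂ ξ₁ ξ₂ b₀ c₀ U ^ 2 *
          shell G θ₁ (ξ₁ U) l b₀ c₀ ∂iidUniform V := by
      rw [← integral_finsetSum _ (fun r' _ =>
        (((bmP₂ c₀ r').sq.mul (bmD b₀ c₀).sq).mul (bmS₁ l b₀ c₀)).integrable)]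
      refine integral_congr_ae (Filter.Eventually.of_forall fun U => ?_)
      show shell G θ₂ (ξ₂ U) j c₀ b₀ * shell G θ₁ (ξ₁ U) l b₀ c₀ * dh θ₁ θ₂ ξ₁ ξ₂ b₀ c₀ U ^ 2 = _
      rw [← sum_pathG_sq_bsph hT hc₀b₀ θ₂ (ξ₂ U) j, Finset.sum_mul, Finset.sum_mul]
      refine Finset.sum_congr rfl fun r' _ => ?_
      ring
    rw [hJ, Finset.sum_congr rfl (fun r' hr' => (far1_transfer hT hreg s₁ s₂ hb hc₀b₀ hr'
      (((bmP₂ c₀ r').sq.mul (bmD b₀ c₀).sq).mul (bmS₁ l b₀ c₀))).symm),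
      Finset.sum_const, hcard, nsmul_eq_mul]
    push_cast
    ring
  -- one value of `j`
  have stepB : ∀ n j, j < n →
      ∑ v ∈ sph G r n, ∫ U, pathG G θ₂ (ξ₂ U) (geo G r v j) r ^ 2 *
        dh θ₁ θ₂ ξ₁ ξ₂ (geo G r v (j + 1)) (geo G r v j) U ^ 2 *
        pathG G θ₁ (ξ₁ U) (geo G r v (j + 1)) v ^ 2 ∂iidUniform V =
      d * far1J G θ₁ θ₂ ξ₁ ξ₂ b₀ c₀ j (n - (j + 1)) := by
    intro n j hj
    have h1 := sum_sph_geo hT r hj (fun v b c => ∫ U, pathG G θ₂ (ξ₂ U) c r ^ 2 *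
        dh θ₁ θ₂ ξ₁ ξ₂ b c U ^ 2 * pathG G θ₁ (ξ₁ U) b v ^ 2 ∂iidUniform V)
    rw [h1]
    have h2 : ∀ b ∈ sph G r (j + 1), ∑ v ∈ bsph G b (geo G r b j) (n - (j + 1)), ∫ U,
        pathG G θ₂ (ξ₂ U) (geo G r b j) r ^ 2 * dh θ₁ θ₂ ξ₁ ξ₂ b (geo G r b j) U ^ 2 *
          pathG G θ₁ (ξ₁ U) b v ^ 2 ∂iidUniform V =
        far1J G θ₁ θ₂ ξ₁ ξ₂ b₀ c₀ j (n - (j + 1)) / ((d - 1 : ℕ) : ℝ) ^ j := by
      intro b hb
      have hdb : G.dist r b = j + 1 := (mem_sph hT).1 hb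
      have hadj : G.Adj b (geo G r b j) := by
        have h3 := geo_adj hT (r := r) (v := b) (j := j) (by omega)
        have h4 : geo G r b (j + 1) = b := by rw [← hdb]; exact geo_last hT r b
        rw [h4] at h3
        exact h3.symm
      rw [← stepD j (n - (j + 1)) b hb, ← integral_finsetSum _ (fun v _ =>
        (((bmP₂ _ _).sq.mul (bmD _ _).sq).mul (bmP₁ _ _).sq).integrable)]
      refine integral_congr_ae (Filter.Eventually.of_forall fun U => ?_)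
      show ∑ v ∈ bsph G b (geo G r b j) (n - (j + 1)), pathG G θ₂ (ξ₂ U) (geo G r b j) r ^ 2 *
          dh θ₁ θ₂ ξ₁ ξ₂ b (geo G r b j) U ^ 2 * pathG G θ₁ (ξ₁ U) b v ^ 2 =
        pathG G θ₂ (ξ₂ U) (geo G r b j) r ^ 2 * dh θ₁ θ₂ ξ₁ ξ₂ b (geo G r b j) U ^ 2 *
          shell G θ₁ (ξ₁ U) (n - (j + 1)) b (geo G r b j)
      rw [← sum_pathG_sq_bsph hT hadj θ₁ (ξ₁ U) (n - (j + 1)), Finset.mul_sum]
    rw [Finset.sum_congr rfl h2, Finset.sum_const, card_sph hT (by omega : 2 ≤ d) hreg r j,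
      nsmul_eq_mul]
    push_cast
    field_simp
  -- one vertex
  have stepA : ∀ n, ∀ v ∈ sph G r n, ∫ U,
        ((1 - m₂ U r ^ 2) * θ₂ ^ n * (prodG G θ₁ (ξ₁ U) r v - prodG G θ₂ (ξ₂ U) r v)) ^ 2 ∂iidUniform V ≤
      (n : ℝ) * θ₂ ^ 2 * ∑ j ∈ range n, ∫ U, pathG G θ₂ (ξ₂ U) (geo G r v j) r ^ 2 *
        dh θ₁ θ₂ ξ₁ ξ₂ (geo G r v (j + 1)) (geo G r v j) U ^ 2 *
        pathG G θ₁ (ξ₁ U) (geo G r v (j + 1)) v ^ 2 ∂iidUniform V := by
    intro n v hv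
    have hF : ∀ j ∈ range n, far1BM (fun U => pathG G θ₂ (ξ₂ U) (geo G r v j) r ^ 2 *
        dh θ₁ θ₂ ξ₁ ξ₂ (geo G r v (j + 1)) (geo G r v j) U ^ 2 *
        pathG G θ₁ (ξ₁ U) (geo G r v (j + 1)) v ^ 2) := fun j _ =>
      ((bmP₂ _ _).sq.mul (bmD _ _).sq).mul (bmP₁ _ _).sq
    rw [← integral_finsetSum _ (fun j hj => (hF j hj).integrable), ← integral_const_mul]
    refine integral_mono_ae ?_ ?_ ?_
    · exact (((((far1BM.const 1).sub (bmM r).sq).mul (far1BM.const _)).mul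
        ((bmQ₁ r v).sub (bmQ₂ r v))).sq).integrable
    · exact ((far1BM.const _).mul (far1BM.sum _ hF)).integrable
    · filter_upwards [ae_all_iff.2 (fun j => s₂.rev r (geo G r v j))] with U hU
      exact far1_point hT θ₁ θ₂ h20 hθ (m₂ U) (ξ₁ U) (ξ₂ U) (s₂.abs_m U) r v
        ((mem_sph hT).1 hv) hU
  -- the right side
  have stepF : ∫ U, Xfar G θ₁ θ₂ (ξ₁ U) (ξ₂ U) K N b₀ c₀ * dh θ₁ θ₂ ξ₁ ξ₂ b₀ c₀ U ^ 2 ∂iidUniform V =
      ∑ j ∈ range N, ∑ l ∈ range N, if K < j + l + 1 ∧ j + l + 1 ≤ N then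
        ((j : ℝ) + l + 1) * far1J G θ₁ θ₂ ξ₁ ξ₂ b₀ c₀ j l else 0 := by
    have hB : ∀ j l, far1BM (fun U => (if K < j + l + 1 ∧ j + l + 1 ≤ N then
        ((j : ℝ) + l + 1) * (shell G θ₂ (ξ₂ U) j c₀ b₀ * shell G θ₁ (ξ₁ U) l b₀ c₀) else 0) *
        dh θ₁ θ₂ ξ₁ ξ₂ b₀ c₀ U ^ 2) := by
      intro j l
      by_cases hc : K < j + l + 1 ∧ j + l + 1 ≤ N
      · simp only [if_pos hc]
        exact ((far1BM.const _).mul ((bmS₂ j c₀ b₀).mul (bmS₁ l b₀ c₀))).mul (bmD b₀ c₀).sq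
      · simp only [if_neg hc, zero_mul]
        exact far1BM.const 0
    have e1 : ∀ U, Xfar G θ₁ θ₂ (ξ₁ U) (ξ₂ U) K N b₀ c₀ * dh θ₁ θ₂ ξ₁ ξ₂ b₀ c₀ U ^ 2 =
        ∑ j ∈ range N, ∑ l ∈ range N, (if K < j + l + 1 ∧ j + l + 1 ≤ N then
          ((j : ℝ) + l + 1) * (shell G θ₂ (ξ₂ U) j c₀ b₀ * shell G θ₁ (ξ₁ U) l b₀ c₀) else 0) *
          dh θ₁ θ₂ ξ₁ ξ₂ b₀ c₀ U ^ 2 := by
      intro U
      unfold Xfar
      rw [Finset.sum_mul]
      refine Finset.sum_congr rfl fun j _ => ?_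
      rw [Finset.sum_mul]
    simp_rw [e1]
    rw [integral_finsetSum _ (fun j _ => (far1BM.sum _ fun l _ => hB j l).integrable)]
    refine Finset.sum_congr rfl fun j _ => ?_
    rw [integral_finsetSum _ (fun l _ => (hB j l).integrable)]
    refine Finset.sum_congr rfl fun l _ => ?_
    by_cases hc : K < j + l + 1 ∧ j + l + 1 ≤ N
    · simp only [if_pos hc]
      unfold far1J
      rw [← integral_const_mul]
      refine integral_congr_ae (Filter.Eventually.of_forall fun U => ?_)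
      show _ = _
      simp only
      ring
    · simp only [if_neg hc, zero_mul, integral_zero]
  rw [stepF, ← far1_reindex]
  calc ∑ n ∈ Finset.Ioc K N, ∑ v ∈ sph G r n, ∫ U,
        ((1 - m₂ U r ^ 2) * θ₂ ^ n * (prodG G θ₁ (ξ₁ U) r v - prodG G θ₂ (ξ₂ U) r v)) ^ 2 ∂iidUniform V
      ≤ ∑ n ∈ Finset.Ioc K N, ∑ v ∈ sph G r n, ((n : ℝ) * θ₂ ^ 2 * ∑ j ∈ range n, ∫ U,
          pathG G θ₂ (ξ₂ U) (geo G r v j) r ^ 2 *
          dh θ₁ θ₂ ξ₁ ξ₂ (geo G r v (j + 1)) (geo G r v j) U ^ 2 *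
          pathG G θ₁ (ξ₁ U) (geo G r v (j + 1)) v ^ 2 ∂iidUniform V) :=
        Finset.sum_le_sum fun n _ => Finset.sum_le_sum fun v hv => stepA n v hv
    _ = d * θ₂ ^ 2 * ∑ n ∈ Finset.Ioc K N, ∑ j ∈ range n,
          ((n : ℝ) * far1J G θ₁ θ₂ ξ₁ ξ₂ b₀ c₀ j (n - (j + 1))) := by
        rw [Finset.mul_sum]
        refine Finset.sum_congr rfl fun n _ => ?_
        rw [← Finset.mul_sum, Finset.sum_comm, Finset.mul_sum, Finset.mul_sum]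
        refine Finset.sum_congr rfl fun j hj => ?_
        rw [stepB n j (Finset.mem_range.1 hj)]
        ring

end Vale.Agent.Lib.P161E
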