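import Vale.Agent.Lib.P161E.TwoFar1

/-! Job F7: exponential moment of the far weight, Yudovich. -/

open MeasureTheory Finset
open scoped Classical ENNReal

noncomputable section

namespace Vale.Agent.Lib.P161E

open Vale.Agent.Lib.P161

variable {V : Type*} {G : SimpleGraph V} [G.LocallyFinite] {d : ℕ} {T θ₁ θ₂ t : ℝ}
  {ξ₁ ξ₂ : (V → unitInterval) → V → V → ℝ} {m₁ m₂ : (V → unitInterval) → V → ℝ}

/-- The deterministic bound for `Xfar` on the good events, and the quantity `x₀`. -/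
def x0 (d : ℕ) (T t : ℝ) (K : ℕ) : ℝ :=
  C2 d (C0 d T) ^ 2 * 8192 * ((K : ℝ) + 1) ^ 2 / rate d T t ^ 3 * Real.exp (-(rate d T t * K / 4))

/-! Auxiliary facts. -/

theorem far_shell_nonneg (G : SimpleGraph V) [G.LocallyFinite] (θ : ℝ) (ξ : V → V → ℝ) :
    ∀ (l : ℕ) (x y : V), 0 ≤ shell G θ ξ l x y
  | 0, _, _ => by simp [shell]
  | l + 1, x, y => by
      simp only [shell]
      exact Finset.sum_nonneg (fun c _ => mul_nonneg (sq_nonneg _) (far_shell_nonneg G θ ξ l c x))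

theorem far_measurable_gm (θ : ℝ) : Measurable (fun x : ℝ => gm θ x) := by
  unfold gm
  fun_prop

theorem far_measurable_shell (G : SimpleGraph V) [G.LocallyFinite] (θ : ℝ)
    {ξ : (V → unitInterval) → V → V → ℝ} (hξ : ∀ x y, Measurable (fun U => ξ U x y)) :
    ∀ (l : ℕ) (x y : V), Measurable (fun U => shell G θ (ξ U) l x y)
  | 0, _, _ => by simp [shell]
  | l + 1, x, y => by
      simp only [shell]
      refine Finset.measurable_sum _ (fun c _ => ?_)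
      refine Measurable.mul ?_ (far_measurable_shell G θ hξ l c x)
      exact (measurable_const.mul ((far_measurable_gm θ).comp (hξ c x))).pow_const 2

theorem far_Xfar_nonneg (G : SimpleGraph V) [G.LocallyFinite] (θ₁ θ₂ : ℝ) (ξ₁ ξ₂ : V → V → ℝ)
    (K N : ℕ) (b c : V) : 0 ≤ Xfar G θ₁ θ₂ ξ₁ ξ₂ K N b c := by
  unfold Xfar
  refine Finset.sum_nonneg (fun j _ => Finset.sum_nonneg (fun l _ => ?_))
  split_ifs
  · exact mul_nonneg (by positivity)
      (mul_nonneg (far_shell_nonneg G θ₂ ξ₂ j c b) (far_shell_nonneg G θ₁ ξ₁ l b c))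
  · exact le_rfl

theorem far_measurable_Xfar (G : SimpleGraph V) [G.LocallyFinite] (θ₁ θ₂ : ℝ)
    (h₁ : ∀ x y, Measurable (fun U => ξ₁ U x y)) (h₂ : ∀ x y, Measurable (fun U => ξ₂ U x y))
    (K N : ℕ) (b c : V) : Measurable (fun U => Xfar G θ₁ θ₂ (ξ₁ U) (ξ₂ U) K N b c) := by
  unfold Xfar
  refine Finset.measurable_sum _ (fun j _ => Finset.measurable_sum _ (fun l _ => ?_))
  split_ifs
  · exact measurable_const.mul
      ((far_measurable_shell G θ₂ h₂ j c b).mul (far_measurable_shell G θ₁ h₁ l b c))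
  · exact measurable_const

/-- The combinatorial sum over the pairs `(j, l)`. -/
theorem far_double_sum (e : ℝ) (K N : ℕ) :
    ∑ j ∈ range N, ∑ l ∈ range N, (if K < j + l + 1 ∧ j + l + 1 ≤ N then
        ((j : ℝ) + l + 1) * Real.exp (-(e * ((j + l : ℕ) : ℝ))) else 0) ≤
      ∑ n ∈ Finset.Ico K N, ((n : ℝ) + 1) ^ 2 * Real.exp (-(e * n)) := by
  classical
  set F : ℕ × ℕ → ℝ := fun p => (((p.1 + p.2 : ℕ) : ℝ) + 1) * Real.exp (-(e * ((p.1 + p.2 : ℕ) : ℝ)))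
    with hF
  have hF0 : ∀ p, 0 ≤ F p := fun p => mul_nonneg (by positivity) (Real.exp_pos _).le
  set S : Finset (ℕ × ℕ) := ((range N ×ˢ range N).filter
    (fun p => K < p.1 + p.2 + 1 ∧ p.1 + p.2 + 1 ≤ N)) with hS
  have h1 : ∑ j ∈ range N, ∑ l ∈ range N, (if K < j + l + 1 ∧ j + l + 1 ≤ N then
        ((j : ℝ) + l + 1) * Real.exp (-(e * ((j + l : ℕ) : ℝ))) else 0) = ∑ p ∈ S, F p := by
    rw [hS, Finset.sum_filter, Finset.sum_product]
    refine Finset.sum_congr rfl (fun j _ => Finset.sum_congr rfl (fun l _ => ?_))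
    simp only [hF]
    split_ifs
    · push_cast
      ring
    · rfl
  rw [h1]
  have hmaps : ∀ p ∈ S, p.1 + p.2 ∈ Finset.Ico K N := by
    intro p hp
    rw [hS, Finset.mem_filter] at hp
    rw [Finset.mem_Ico]
    omega
  rw [← Finset.sum_fiberwise_of_maps_to hmaps]
  refine Finset.sum_le_sum (fun n _ => ?_)
  have h2 : ∀ p ∈ S.filter (fun p => p.1 + p.2 = n),
      F p = ((n : ℝ) + 1) * Real.exp (-(e * n)) := by
    intro p hp
    rw [Finset.mem_filter] at hp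
    simp only [hF, hp.2]
  rw [Finset.sum_congr rfl h2, Finset.sum_const, nsmul_eq_mul]
  have h3 : (S.filter (fun p => p.1 + p.2 = n)).card ≤ n + 1 := by
    have : S.filter (fun p => p.1 + p.2 = n) ⊆ Finset.HasAntidiagonal.antidiagonal n := by
      intro p hp
      rw [Finset.mem_filter] at hp
      exact Finset.HasAntidiagonal.mem_antidiagonal.mpr hp.2
    calc _ ≤ (Finset.HasAntidiagonal.antidiagonal n).card := Finset.card_le_card this
      _ = n + 1 := Finset.Nat.card_antidiagonal n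
  have h4 : ((S.filter (fun p => p.1 + p.2 = n)).card : ℝ) ≤ (n : ℝ) + 1 := by exact_mod_cast h3
  have h5 : 0 ≤ ((n : ℝ) + 1) * Real.exp (-(e * n)) := mul_nonneg (by positivity) (Real.exp_pos _).le
  calc _ ≤ ((n : ℝ) + 1) * (((n : ℝ) + 1) * Real.exp (-(e * n))) :=
        mul_le_mul_of_nonneg_right h4 h5
    _ = _ := by ring

theorem far_C2_pos (hd : 3 ≤ d) : 0 < C2 d (C0 d T) := by
  have hd0 : (0 : ℝ) < d := by
    have : (3 : ℝ) ≤ d := by exact_mod_cast hd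
    linarith
  have hC0 : 0 < C0 d T := Real.exp_pos _
  unfold C2
  positivity

theorem far_rate_pos (hd : 3 ≤ d) (hT1 : 1 ≤ T) (ht : 0 < t) : 0 < rate d T t :=
  mul_pos (c1_pos hd hT1) (Real.sqrt_pos.mpr ht)

theorem far_c1_le (hd : 3 ≤ d) (hT1 : 1 ≤ T) : c1 d T * Real.sqrt T ≤ 1 := by
  have hd3 : (3 : ℝ) ≤ d := by exact_mod_cast hd
  have hs : 1 ≤ Real.sqrt ((d : ℝ) - 1) := by
    rw [Real.one_le_sqrt]
    linarith
  have hth0 : 0 < thc d := by
    unfold thc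
    positivity
  have hth1 : thc d ≤ 1 := by
    unfold thc
    rw [div_le_one (by linarith)]
    exact hs
  have hsT : 0 < Real.sqrt T := Real.sqrt_pos.mpr (by linarith)
  have h1 : c1 d T ≤ (thc d / 2) ^ 2 * (1 - thc d) ^ 2 / (148 * Real.sqrt T) := by
    unfold c1
    exact (min_le_right _ _).trans (min_le_left _ _)
  have h2 : (thc d / 2) ^ 2 * (1 - thc d) ^ 2 ≤ 148 := by
    have h3 : (thc d / 2) ^ 2 ≤ 1 := by
      have : thc d / 2 ≤ 1 := by linarith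
      exact pow_le_one₀ (by positivity) this
    have h4 : (1 - thc d) ^ 2 ≤ 1 := pow_le_one₀ (by linarith) (by linarith)
    calc _ ≤ (1 : ℝ) * 1 := mul_le_mul h3 h4 (sq_nonneg _) (by norm_num)
      _ ≤ 148 := by norm_num
  calc c1 d T * Real.sqrt T ≤ (thc d / 2) ^ 2 * (1 - thc d) ^ 2 / (148 * Real.sqrt T) * Real.sqrt T :=
        mul_le_mul_of_nonneg_right h1 hsT.le
    _ = (thc d / 2) ^ 2 * (1 - thc d) ^ 2 / 148 := by
        field_simp
    _ ≤ 1 := by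
        rw [div_le_one (by norm_num)]
        exact h2

theorem far_rate_le (hd : 3 ≤ d) (hT1 : 1 ≤ T) (ht : 0 < t) (htT : t ≤ T) : rate d T t ≤ 1 := by
  have h0 : 0 < c1 d T := c1_pos hd hT1
  calc rate d T t = c1 d T * Real.sqrt t := rfl
    _ ≤ c1 d T * Real.sqrt T := mul_le_mul_of_nonneg_left (Real.sqrt_le_sqrt htT) h0.le
    _ ≤ 1 := far_c1_le hd hT1

theorem far_x0_pos (hd : 3 ≤ d) (hT1 : 1 ≤ T) (ht : 0 < t) (K : ℕ) : 0 < x0 d T t K := by
  have h1 := far_C2_pos (T := T) hd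
  have h2 := far_rate_pos hd hT1 ht
  unfold x0
  positivity

/-- The deterministic bound for `Xfar` on a good event. -/
theorem far_Xfar_le (hd : 3 ≤ d) (hT1 : 1 ≤ T) (ht : 0 < t) (htT : t ≤ T) (θ₁ θ₂ : ℝ)
    (ξ₁ ξ₂ : V → V → ℝ) (K N : ℕ) (b c : V) {B : ℝ} (hB : 0 ≤ B)
    (h₁ : ∀ l : ℕ, shell G θ₁ ξ₁ l b c ≤ B * Real.exp (-(rate d T t * l / 4)))
    (h₂ : ∀ l : ℕ, shell G θ₂ ξ₂ l c b ≤ B * Real.exp (-(rate d T t * l / 4))) :
    Xfar G θ₁ θ₂ ξ₁ ξ₂ K N b c ≤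
      B ^ 2 * (4096 * (((K : ℝ) + 1) ^ 2 / rate d T t ^ 3) * Real.exp (-(rate d T t * K / 4))) := by
  set a := rate d T t with ha
  have ha0 : 0 < a := far_rate_pos hd hT1 ht
  have ha1 : a ≤ 1 := far_rate_le hd hT1 ht htT
  have hterm : ∀ j l : ℕ, shell G θ₂ ξ₂ j c b * shell G θ₁ ξ₁ l b c ≤
      B ^ 2 * Real.exp (-(a / 4 * ((j + l : ℕ) : ℝ))) := by
    intro j l
    have h3 := mul_le_mul (h₂ j) (h₁ l) (far_shell_nonneg G θ₁ ξ₁ l b c)
      (mul_nonneg hB (Real.exp_pos _).le)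
    refine h3.trans (le_of_eq ?_)
    have : Real.exp (-(a / 4 * ((j + l : ℕ) : ℝ))) =
        Real.exp (-(a * j / 4)) * Real.exp (-(a * l / 4)) := by
      rw [← Real.exp_add]
      congr 1
      push_cast
      ring
    rw [this]
    ring
  have h4 : Xfar G θ₁ θ₂ ξ₁ ξ₂ K N b c ≤
      B ^ 2 * ∑ j ∈ range N, ∑ l ∈ range N, (if K < j + l + 1 ∧ j + l + 1 ≤ N then
        ((j : ℝ) + l + 1) * Real.exp (-(a / 4 * ((j + l : ℕ) : ℝ))) else 0) := by
    unfold Xfar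
    rw [Finset.mul_sum]
    refine Finset.sum_le_sum (fun j _ => ?_)
    rw [Finset.mul_sum]
    refine Finset.sum_le_sum (fun l _ => ?_)
    split_ifs
    · have := hterm j l
      calc ((j : ℝ) + l + 1) * (shell G θ₂ ξ₂ j c b * shell G θ₁ ξ₁ l b c)
          ≤ ((j : ℝ) + l + 1) * (B ^ 2 * Real.exp (-(a / 4 * ((j + l : ℕ) : ℝ)))) :=
            mul_le_mul_of_nonneg_left this (by positivity)
        _ = _ := by ring
    · simp
  refine h4.trans (mul_le_mul_of_nonneg_left ?_ (sq_nonneg _))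
  refine (far_double_sum (a / 4) K N).trans ?_
  have h5 := sum_tail_sq_exp_le (a := a / 4) (by linarith) (by linarith) K N
  refine h5.trans (le_of_eq ?_)
  have : a / 4 * (K : ℝ) = a * K / 4 := by ring
  rw [this]
  field_simp
  norm_num

/-- Exponential moment of `Xfar / x0`. -/
theorem far_lintegral_exp (hd : 3 ≤ d) (hT1 : 1 ≤ T) (s₁ : Sys G d T θ₁ t ξ₁ m₁)
    (s₂ : Sys G d T θ₂ t ξ₂ m₂) {b c : V} (hbc : G.Adj b c) (K N : ℕ) :
    ∫⁻ U, ENNReal.ofReal (Real.exp (1 / x0 d T t K * Xfar G θ₁ θ₂ (ξ₁ U) (ξ₂ U) K N b c))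
      ∂iidUniform V ≤ ENNReal.ofReal 120 := by
  have : IsProbabilityMeasure (iidUniform V) := by unfold iidUniform; infer_instance
  have ht := s₁.ht
  have htT := s₁.htT
  have hx0 := far_x0_pos hd hT1 ht K
  set σ := sig d (rate d T t) with hσ
  have hσ8 : σ ≤ 1 / 8 := sig_rate_le hd hT1 ht htT
  have hσ0 : 0 ≤ σ := by
    have hd3 : (3 : ℝ) ≤ d := by exact_mod_cast hd
    have : 0 < Real.log ((d : ℝ) - 1) := Real.log_pos (by linarith)
    have h2 := far_rate_pos hd hT1 ht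
    rw [hσ]
    unfold sig
    positivity
  set C := C2 d (C0 d T) with hC
  have hC0 : 0 < C := far_C2_pos hd
  set a := rate d T t with ha
  let Good : ℕ → Set (V → unitInterval) := fun z =>
    {U | (∀ l : ℕ, shell G θ₁ (ξ₁ U) l b c ≤ C * (1 + (z : ℝ)) ^ σ * Real.exp (-(a * l / 4))) ∧
      (∀ l : ℕ, shell G θ₂ (ξ₂ U) l c b ≤ C * (1 + (z : ℝ)) ^ σ * Real.exp (-(a * l / 4)))}
  have hGm : ∀ z, MeasurableSet (Good z) := by
    intro z
    have : Good z = (⋂ l : ℕ, {U | shell G θ₁ (ξ₁ U) l b c ≤ C * (1 + (z : ℝ)) ^ σ * Real.exp (-(a * l / 4))}) ∩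
        (⋂ l : ℕ, {U | shell G θ₂ (ξ₂ U) l c b ≤ C * (1 + (z : ℝ)) ^ σ * Real.exp (-(a * l / 4))}) := by
      ext U
      simp [Good]
    rw [this]
    refine MeasurableSet.inter (MeasurableSet.iInter fun l => ?_) (MeasurableSet.iInter fun l => ?_)
    · exact measurableSet_le (far_measurable_shell G θ₁ s₁.meas_ξ l b c) measurable_const
    · exact measurableSet_le (far_measurable_shell G θ₂ s₂.meas_ξ l c b) measurable_const
  have hG : ∀ z : ℕ, iidUniform V (Good z)ᶜ ≤ ENNReal.ofReal (4 * Real.exp (-(z : ℝ))) := by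
    intro z
    have h1 := s₁.good (z : ℝ) (Nat.cast_nonneg z) b c hbc
    have h2 := s₂.good (z : ℝ) (Nat.cast_nonneg z) c b hbc.symm
    have hsub : (Good z)ᶜ ⊆
        {U | ∃ l : ℕ, C * (1 + (z : ℝ)) ^ σ * Real.exp (-(a * l / 4)) < shell G θ₁ (ξ₁ U) l b c} ∪
        {U | ∃ l : ℕ, C * (1 + (z : ℝ)) ^ σ * Real.exp (-(a * l / 4)) < shell G θ₂ (ξ₂ U) l c b} := by
      intro U hU
      simp only [Good, Set.mem_compl_iff, Set.mem_setOf_eq, not_and_or, not_forall, not_le] at hU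
      exact hU
    calc iidUniform V (Good z)ᶜ ≤ _ := measure_mono hsub
      _ ≤ _ := measure_union_le _ _
      _ ≤ ENNReal.ofReal (2 * Real.exp (-(z : ℝ))) + ENNReal.ofReal (2 * Real.exp (-(z : ℝ))) :=
          add_le_add h1 h2
      _ = ENNReal.ofReal (4 * Real.exp (-(z : ℝ))) := by
          rw [← ENNReal.ofReal_add (by positivity) (by positivity)]
          congr 1
          ring
  have hXm : Measurable (fun U => 1 / x0 d T t K * Xfar G θ₁ θ₂ (ξ₁ U) (ξ₂ U) K N b c) :=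
    measurable_const.mul (far_measurable_Xfar G θ₁ θ₂ s₁.meas_ξ s₂.meas_ξ K N b c)
  have hX0 : ∀ U, 0 ≤ 1 / x0 d T t K * Xfar G θ₁ θ₂ (ξ₁ U) (ξ₂ U) K N b c := fun U =>
    mul_nonneg (by positivity) (far_Xfar_nonneg G θ₁ θ₂ _ _ K N b c)
  have hX : ∀ (z : ℕ), ∀ U ∈ Good z,
      1 / x0 d T t K * Xfar G θ₁ θ₂ (ξ₁ U) (ξ₂ U) K N b c ≤ (1 + (z : ℝ)) ^ (1 / 4 : ℝ) := by
    intro z U hU
    have hz1 : (1 : ℝ) ≤ 1 + (z : ℝ) := by
      have : (0 : ℝ) ≤ z := Nat.cast_nonneg z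
      linarith
    have hzp : 0 < (1 + (z : ℝ)) ^ σ := Real.rpow_pos_of_pos (by linarith) _
    have h3 := far_Xfar_le (G := G) hd hT1 ht htT θ₁ θ₂ (ξ₁ U) (ξ₂ U) K N b c
      (B := C * (1 + (z : ℝ)) ^ σ) (by positivity) hU.1 hU.2
    have h4 : ((1 + (z : ℝ)) ^ σ) ^ 2 ≤ (1 + (z : ℝ)) ^ (1 / 4 : ℝ) := by
      rw [← Real.rpow_natCast, ← Real.rpow_mul (by linarith)]
      refine Real.rpow_le_rpow_of_exponent_le hz1 ?_
      push_cast
      linarith
    have h5 : 0 ≤ 4096 * (((K : ℝ) + 1) ^ 2 / a ^ 3) * Real.exp (-(a * K / 4)) := by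
      have := far_rate_pos (t := t) hd hT1 ht
      positivity
    have hx0' : x0 d T t K = 2 * (C ^ 2 * (4096 * (((K : ℝ) + 1) ^ 2 / a ^ 3) * Real.exp (-(a * K / 4)))) := by
      unfold x0
      ring
    have h6 : Xfar G θ₁ θ₂ (ξ₁ U) (ξ₂ U) K N b c ≤
        (1 + (z : ℝ)) ^ (1 / 4 : ℝ) * x0 d T t K := by
      refine h3.trans ?_
      rw [hx0', mul_pow]
      have h7 : 0 ≤ C ^ 2 * (4096 * (((K : ℝ) + 1) ^ 2 / a ^ 3) * Real.exp (-(a * K / 4))) :=
        mul_nonneg (sq_nonneg _) h5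
      have h8 : (0 : ℝ) ≤ (1 + (z : ℝ)) ^ (1 / 4 : ℝ) := by positivity
      nlinarith [mul_le_mul_of_nonneg_right h4 h7, mul_nonneg h8 h7]
    calc 1 / x0 d T t K * Xfar G θ₁ θ₂ (ξ₁ U) (ξ₂ U) K N b c
        ≤ 1 / x0 d T t K * ((1 + (z : ℝ)) ^ (1 / 4 : ℝ) * x0 d T t K) :=
          mul_le_mul_of_nonneg_left h6 (by positivity)
      _ = (1 + (z : ℝ)) ^ (1 / 4 : ℝ) := by
          field_simp
  have := exp_moment_good (P := iidUniform V) hXm hX0 (A := 4) (by norm_num) Good hGm hG hX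
  refine this.trans (le_of_eq ?_)
  norm_num

theorem far_log_120 : 1 + Real.log 120 ≤ 10 := by
  have h1 : Real.log 120 ≤ 9 := by
    rw [Real.log_le_iff_le_exp (by norm_num)]
    have h2 : (2 : ℝ) ≤ Real.exp 1 := by
      have := Real.add_one_le_exp (1 : ℝ)
      linarith
    have h3 : Real.exp 9 = Real.exp 1 ^ 9 := by
      rw [← Real.exp_nat_mul]
      norm_num
    rw [h3]
    calc (120 : ℝ) ≤ 2 ^ 9 := by norm_num
      _ ≤ _ := pow_le_pow_left₀ (by norm_num) h2 9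
  linarith

/-- F7. Exponential moment of `Xfar / x0` from the good events (`exp_moment_good`, `sig ≤ 1/8`), and Yudovich:
for `Y` bounded by `8`, `∫ Xfar Y ≤ 10 (1 + log 120) x0 psi(∫ Y)` and `∫ Xfar ≤ 200 x0`. -/
theorem far_exp (hT : G.IsTree) (hd : 3 ≤ d) (hT1 : 1 ≤ T) (s₁ : Sys G d T θ₁ t ξ₁ m₁)
    (s₂ : Sys G d T θ₂ t ξ₂ m₂) {b c : V} (hbc : G.Adj b c) (K N : ℕ) {Y : (V → unitInterval) → ℝ}
    (hYm : Measurable Y) (hY0 : ∀ U, 0 ≤ Y U) (hY8 : ∀ U, Y U ≤ 8) :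
    ∫ U, Xfar G θ₁ θ₂ (ξ₁ U) (ξ₂ U) K N b c * Y U ∂iidUniform V ≤
        10 * x0 d T t K * psi (∫ U, Y U ∂iidUniform V) ∧
    ∫ U, Xfar G θ₁ θ₂ (ξ₁ U) (ξ₂ U) K N b c ∂iidUniform V ≤ 200 * x0 d T t K := by
  have : IsProbabilityMeasure (iidUniform V) := by unfold iidUniform; infer_instance
  have ht := s₁.ht
  have hx0 := far_x0_pos hd hT1 ht K
  have hW := far_lintegral_exp hd hT1 s₁ s₂ hbc K N
  have hWm := far_measurable_Xfar G θ₁ θ₂ s₁.meas_ξ s₂.meas_ξ K N b c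
  have hW0 : ∀ U, 0 ≤ Xfar G θ₁ θ₂ (ξ₁ U) (ξ₂ U) K N b c := fun U => far_Xfar_nonneg G θ₁ θ₂ _ _ K N b c
  have hlam : 0 < 1 / x0 d T t K := by positivity
  have hcoef : (1 / (1 / x0 d T t K)) * (1 + Real.log 120) ≤ 10 * x0 d T t K := by
    have : 1 / (1 / x0 d T t K) = x0 d T t K := by field_simp
    rw [this]
    nlinarith [far_log_120]
  constructor
  · have h := yudovich_psi (P := iidUniform V) hWm hYm hW0 hY0 hY8 hlam (by norm_num : (1 : ℝ) ≤ 120) hW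
    refine h.trans (mul_le_mul_of_nonneg_right hcoef ?_)
    refine psi_nonneg (integral_nonneg hY0) ?_
    calc ∫ U, Y U ∂iidUniform V ≤ ∫ _, (8 : ℝ) ∂iidUniform V := by
          refine integral_mono_of_nonneg (Filter.Eventually.of_forall hY0) (integrable_const _)
            (Filter.Eventually.of_forall hY8)
      _ = 8 := by simp
  · have h := yudovich_psi (P := iidUniform V) hWm (Y := fun _ => (1 : ℝ)) measurable_const
      hW0 (fun _ => zero_le_one) (fun _ => by norm_num) hlam (by norm_num : (1 : ℝ) ≤ 120) hW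
    have hone : ∫ _, (1 : ℝ) ∂iidUniform V = 1 := by simp
    simp only [mul_one] at h
    rw [hone] at h
    refine h.trans ?_
    have hpsi : psi 1 ≤ 20 := by
      unfold psi
      have h1 : Real.log (8 / 1) ≤ 19 := by
        rw [Real.log_le_iff_le_exp (by norm_num)]
        have := Real.add_one_le_exp (19 : ℝ)
        norm_num at this ⊢
        linarith
      linarith
    have hpsi0 : 0 ≤ psi 1 := psi_nonneg zero_le_one (by norm_num)
    calc _ ≤ 10 * x0 d T t K * psi 1 := mul_le_mul_of_nonneg_right hcoef hpsi0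
      _ ≤ 10 * x0 d T t K * 20 := mul_le_mul_of_nonneg_left hpsi (by positivity)
      _ = 200 * x0 d T t K := by ring

theorem far_integrable_Xfar (hd : 3 ≤ d) (hT1 : 1 ≤ T) (s₁ : Sys G d T θ₁ t ξ₁ m₁)
    (s₂ : Sys G d T θ₂ t ξ₂ m₂) {b c : V} (hbc : G.Adj b c) (K N : ℕ) :
    Integrable (fun U => Xfar G θ₁ θ₂ (ξ₁ U) (ξ₂ U) K N b c) (iidUniform V) := by
  have ht := s₁.ht
  have hx0 := far_x0_pos hd hT1 ht K
  have hW := far_lintegral_exp hd hT1 s₁ s₂ hbc K N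
  have hWm := far_measurable_Xfar G θ₁ θ₂ s₁.meas_ξ s₂.meas_ξ K N b c
  have hW0 : ∀ U, 0 ≤ Xfar G θ₁ θ₂ (ξ₁ U) (ξ₂ U) K N b c := fun U => far_Xfar_nonneg G θ₁ θ₂ _ _ K N b c
  refine ⟨hWm.aestronglyMeasurable, ?_⟩
  rw [hasFiniteIntegral_iff_ofReal (Filter.Eventually.of_forall hW0)]
  have h1 : ∫⁻ U, ENNReal.ofReal (Xfar G θ₁ θ₂ (ξ₁ U) (ξ₂ U) K N b c) ∂iidUniform V ≤
      ∫⁻ U, ENNReal.ofReal (x0 d T t K) *
        ENNReal.ofReal (Real.exp (1 / x0 d T t K * Xfar G θ₁ θ₂ (ξ₁ U) (ξ₂ U) K N b c)) ∂iidUniform V := by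
    refine lintegral_mono (fun U => ?_)
    rw [← ENNReal.ofReal_mul hx0.le]
    refine ENNReal.ofReal_le_ofReal ?_
    have h2 := Real.add_one_le_exp (1 / x0 d T t K * Xfar G θ₁ θ₂ (ξ₁ U) (ξ₂ U) K N b c)
    have h3 : x0 d T t K * (1 / x0 d T t K * Xfar G θ₁ θ₂ (ξ₁ U) (ξ₂ U) K N b c) =
        Xfar G θ₁ θ₂ (ξ₁ U) (ξ₂ U) K N b c := by field_simp
    nlinarith [mul_le_mul_of_nonneg_left h2 hx0.le]
  refine lt_of_le_of_lt h1 ?_
  rw [lintegral_const_mul' _ _ ENNReal.ofReal_ne_top]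
  refine ENNReal.mul_lt_top ENNReal.ofReal_lt_top (lt_of_le_of_lt hW ENNReal.ofReal_lt_top)

theorem far_psi_two {D : ℝ} (hD : 0 ≤ D) : psi (2 * D) ≤ 2 * psi D := by
  rcases hD.eq_or_lt with h | h
  · subst h
    simp [psi]
  · unfold psi
    have h1 : Real.log (8 / (2 * D)) ≤ Real.log (8 / D) := by
      refine Real.log_le_log (by positivity) ?_
      rw [div_le_div_iff₀ (by positivity) h]
      nlinarith
    nlinarith

/-- F7'. The far part in terms of `D`: uses `dh_sq_le`, `far_exp` with `Y = (m₁ b - m₂ b)² + (m₁ c - m₂ c)²`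
and `psi (2 D) ≤ 2 psi D`, `ξ ² ≤ 1`. -/
theorem far_bound (hT : G.IsTree) (hd : 3 ≤ d) (hreg : G.IsRegularOfDegree d) (hT1 : 1 ≤ T)
    (s₁ : Sys G d T θ₁ t ξ₁ m₁) (s₂ : Sys G d T θ₂ t ξ₂ m₂) {b c : V} (hbc : G.Adj b c) (K N : ℕ) :
    ∫ U, Xfar G θ₁ θ₂ (ξ₁ U) (ξ₂ U) K N b c * dh θ₁ θ₂ ξ₁ ξ₂ b c U ^ 2 ∂iidUniform V ≤
      1000000 * (d : ℝ) ^ 8 * x0 d T t K * (psi (Dd m₁ m₂ b) + (θ₁ - θ₂) ^ 2) := by
  have : IsProbabilityMeasure (iidUniform V) := by unfold iidUniform; infer_instance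
  have ht := s₁.ht
  have hx0 := far_x0_pos hd hT1 ht K
  have hd0 : (0 : ℝ) < d := by
    have : (3 : ℝ) ≤ d := by exact_mod_cast hd
    linarith
  set X : (V → unitInterval) → ℝ := fun U => Xfar G θ₁ θ₂ (ξ₁ U) (ξ₂ U) K N b c with hXdef
  have hXi : Integrable X (iidUniform V) := far_integrable_Xfar hd hT1 s₁ s₂ hbc K N
  have hXm : Measurable X := far_measurable_Xfar G θ₁ θ₂ s₁.meas_ξ s₂.meas_ξ K N b c
  have hX0 : ∀ U, 0 ≤ X U := fun U => far_Xfar_nonneg G θ₁ θ₂ _ _ K N b c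
  set Y : (V → unitInterval) → ℝ := fun U => (m₁ U b - m₂ U b) ^ 2 + (m₁ U c - m₂ U c) ^ 2 with hYdef
  have hsq : ∀ U v, (m₁ U v - m₂ U v) ^ 2 ≤ 4 := by
    intro U v
    have h1 := abs_le.mp (s₁.abs_m U v)
    have h2 := abs_le.mp (s₂.abs_m U v)
    nlinarith
  have hY0 : ∀ U, 0 ≤ Y U := fun U => by
    simp only [hYdef]
    positivity
  have hY8 : ∀ U, Y U ≤ 8 := fun U => by
    simp only [hYdef]
    linarith [hsq U b, hsq U c]
  have hmeas1 : ∀ v, Measurable (fun U => (m₁ U v - m₂ U v) ^ 2) := fun v =>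
    ((s₁.meas_m v).sub (s₂.meas_m v)).pow_const 2
  have hYm : Measurable Y := (hmeas1 b).add (hmeas1 c)
  have hint1 : ∀ v, Integrable (fun U => (m₁ U v - m₂ U v) ^ 2) (iidUniform V) := by
    intro v
    refine Integrable.mono' (integrable_const (4 : ℝ)) (hmeas1 v).aestronglyMeasurable
      (Filter.Eventually.of_forall fun U => ?_)
    rw [Real.norm_of_nonneg (sq_nonneg _)]
    exact hsq U v
  have hYint : ∫ U, Y U ∂iidUniform V = 2 * Dd m₁ m₂ b := by
    simp only [hYdef]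
    rw [integral_add (hint1 b) (hint1 c)]
    have h := Dd_eq s₁ s₂ hT hreg c b
    unfold Dd at h ⊢
    rw [h]
    ring
  have hD0 : 0 ≤ Dd m₁ m₂ b := integral_nonneg (fun U => sq_nonneg _)
  have hD8 : Dd m₁ m₂ b ≤ 8 := by
    have : Dd m₁ m₂ b ≤ ∫ _, (4 : ℝ) ∂iidUniform V :=
      integral_mono_of_nonneg (Filter.Eventually.of_forall fun U => sq_nonneg _) (integrable_const _)
        (Filter.Eventually.of_forall fun U => hsq U b)
    simp at this
    linarith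
  obtain ⟨h1, h2⟩ := far_exp hT hd hT1 s₁ s₂ hbc K N hYm hY0 hY8
  rw [hYint] at h1
  have hXY : Integrable (fun U => X U * Y U) (iidUniform V) := by
    refine Integrable.mono' (hXi.const_mul 8) (hXm.mul hYm).aestronglyMeasurable
      (Filter.Eventually.of_forall fun U => ?_)
    rw [Real.norm_of_nonneg (mul_nonneg (hX0 U) (hY0 U))]
    nlinarith [hX0 U, hY8 U]
  set η := (θ₁ - θ₂) ^ 2 with hη
  have hη0 : 0 ≤ η := sq_nonneg _
  have hae : ∀ᵐ U ∂iidUniform V, X U * dh θ₁ θ₂ ξ₁ ξ₂ b c U ^ 2 ≤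
      1000 * (d : ℝ) ^ 8 * (2 * (X U * Y U) + 3 * η * X U) := by
    filter_upwards [dh_sq_le s₁ s₂ hd hbc] with U hU
    have hsq1 : ∀ (ξ : V → V → ℝ) (x y : V), |ξ x y| ≤ 1 → ξ x y ^ 2 ≤ 1 := fun ξ x y h =>
      (sq_le_one_iff_abs_le_one _).mpr h
    have a1 := hsq1 (ξ₁ U) b c (s₁.abs_ξ U b c)
    have a2 := hsq1 (ξ₂ U) b c (s₂.abs_ξ U b c)
    have a3 := hsq1 (ξ₂ U) c b (s₂.abs_ξ U c b)
    have h3 : dh θ₁ θ₂ ξ₁ ξ₂ b c U ^ 2 ≤ 1000 * (d : ℝ) ^ 8 * (2 * Y U + 3 * η) := by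
      refine hU.trans (mul_le_mul_of_nonneg_left ?_ (by positivity))
      have h4 : (ξ₁ U b c ^ 2 + ξ₂ U b c ^ 2) * ((m₁ U b - m₂ U b) ^ 2 + (m₁ U c - m₂ U c) ^ 2) ≤
          2 * Y U := mul_le_mul_of_nonneg_right (by linarith) (hY0 U)
      have h5 : (θ₁ - θ₂) ^ 2 * (ξ₁ U b c ^ 2 + ξ₂ U b c ^ 2 + ξ₂ U c b ^ 2) ≤ 3 * η := by
        rw [mul_comm]
        exact mul_le_mul_of_nonneg_right (by linarith) hη0
      linarith
    calc X U * dh θ₁ θ₂ ξ₁ ξ₂ b c U ^ 2 ≤ X U * (1000 * (d : ℝ) ^ 8 * (2 * Y U + 3 * η)) :=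
          mul_le_mul_of_nonneg_left h3 (hX0 U)
      _ = _ := by ring
  have hRint : Integrable (fun U => 1000 * (d : ℝ) ^ 8 * (2 * (X U * Y U) + 3 * η * X U))
      (iidUniform V) := ((hXY.const_mul 2).add (hXi.const_mul (3 * η))).const_mul _
  have hmono := integral_mono_of_nonneg
    (Filter.Eventually.of_forall fun U => mul_nonneg (hX0 U) (sq_nonneg _)) hRint hae
  have hRval : ∫ U, 1000 * (d : ℝ) ^ 8 * (2 * (X U * Y U) + 3 * η * X U) ∂iidUniform V =
      1000 * (d : ℝ) ^ 8 * (2 * ∫ U, X U * Y U ∂iidUniform V + 3 * η * ∫ U, X U ∂iidUniform V) := by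
    rw [integral_const_mul, integral_add (hXY.const_mul 2) (hXi.const_mul (3 * η)),
      integral_const_mul, integral_const_mul]
  rw [hRval] at hmono
  refine hmono.trans ?_
  have h3 := far_psi_two hD0
  have hpsi0 : 0 ≤ psi (Dd m₁ m₂ b) := psi_nonneg hD0 hD8
  have hk : 0 < 1000 * (d : ℝ) ^ 8 := by positivity
  have h4 : 2 * ∫ U, X U * Y U ∂iidUniform V + 3 * η * ∫ U, X U ∂iidUniform V ≤
      1000 * (x0 d T t K * (psi (Dd m₁ m₂ b) + η)) := by
    have h5 : ∫ U, X U * Y U ∂iidUniform V ≤ 10 * x0 d T t K * (2 * psi (Dd m₁ m₂ b)) :=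
      h1.trans (mul_le_mul_of_nonneg_left h3 (by positivity))
    have h6 : 3 * η * ∫ U, X U ∂iidUniform V ≤ 3 * η * (200 * x0 d T t K) :=
      mul_le_mul_of_nonneg_left h2 (by positivity)
    have h7 : 0 ≤ x0 d T t K * psi (Dd m₁ m₂ b) := mul_nonneg hx0.le hpsi0
    have h8 : 0 ≤ x0 d T t K * η := mul_nonneg hx0.le hη0
    nlinarith
  calc 1000 * (d : ℝ) ^ 8 * (2 * ∫ U, X U * Y U ∂iidUniform V + 3 * η * ∫ U, X U ∂iidUniform V)
      ≤ 1000 * (d : ℝ) ^ 8 * (1000 * (x0 d T t K * (psi (Dd m₁ m₂ b) + η))) :=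
        mul_le_mul_of_nonneg_left h4 hk.le
    _ = _ := by ring

/-- F7''. `x0` is bounded: for `t < 1` with `K = Kt`, and for `t ≥ 1` with `K = 0`. -/
theorem x0_bound (hd : 3 ≤ d) (hT1 : 1 ≤ T) : ∃ Cx : ℝ, 0 < Cx ∧ ∀ t : ℝ, 0 < t → t ≤ T →
    (t < 1 → x0 d T t (Kt d T t) ≤ Cx) ∧ (1 ≤ t → x0 d T t 0 ≤ Cx) := by
  have hc0 : 0 < c1 d T := c1_pos hd hT1
  have hc1 : c1 d T ≤ 1 / 2 := by
    unfold c1
    exact min_le_left _ _
  set c := c1 d T with hc
  have hC := far_C2_pos (T := T) hd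
  set C := C2 d (C0 d T) with hCdef
  set A := C ^ 2 * 8192 with hA
  have hA0 : 0 < A := by positivity
  refine ⟨A * (4356 / c ^ 5) + A / c ^ 3, by positivity, fun t ht htT => ⟨fun ht1 => ?_, fun ht1 => ?_⟩⟩
  · -- small time
    set s := Real.sqrt (Real.sqrt t) with hs
    have hst : 0 < Real.sqrt t := Real.sqrt_pos.mpr ht
    have hs0 : 0 < s := Real.sqrt_pos.mpr hst
    have hs2 : s ^ 2 = Real.sqrt t := Real.sq_sqrt hst.le
    have hs4 : s ^ 4 = t := by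
      have : s ^ 4 = (s ^ 2) ^ 2 := by ring
      rw [this, hs2, Real.sq_sqrt ht.le]
    have hs1 : s ≤ 1 := Real.sqrt_le_one.mpr (Real.sqrt_le_one.mpr ht1.le)
    have hc1' : c ≤ 1 := by linarith
    set a := rate d T t with ha
    have haeq : a = c * s ^ 2 := by rw [hs2]; rfl
    have ha0 : 0 < a := by rw [haeq]; positivity
    set L := Real.log (1 / t) with hL
    have hL0 : 0 ≤ L := Real.log_nonneg (by rw [le_div_iff₀ ht]; linarith)
    have hLs : L ≤ 4 * (1 / s) := by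
      have h1 : 1 / t = (1 / s) ^ 4 := by
        rw [← hs4]
        field_simp
      rw [hL, h1, Real.log_pow]
      have h2 : Real.log (1 / s) ≤ 1 / s - 1 := Real.log_le_sub_one_of_pos (by positivity)
      push_cast
      linarith
    set K := Kt d T t with hK
    have hK1 : 16 * L / a ≤ (K : ℝ) := Nat.le_ceil _
    have hK2 : (K : ℝ) < 16 * L / a + 1 := Nat.ceil_lt_add_one (by positivity)
    have hE : Real.exp (-(a * K / 4)) ≤ s ^ 16 := by
      have h1 : 16 * L ≤ a * K := by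
        rw [div_le_iff₀ ha0] at hK1
        linarith
      have h2 : -(a * K / 4) ≤ 4 * Real.log t := by
        have : L = -Real.log t := by
          rw [hL, one_div, Real.log_inv]
        rw [this] at h1
        linarith
      calc Real.exp (-(a * K / 4)) ≤ Real.exp (4 * Real.log t) := Real.exp_le_exp.mpr h2
        _ = t ^ 4 := by
            rw [mul_comm, Real.exp_mul, Real.exp_log ht]
            norm_num
        _ = s ^ 16 := by rw [← hs4]; ring
    have hsc : c * s ^ 3 ≤ 1 := by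
      have : s ^ 3 ≤ 1 := pow_le_one₀ hs0.le hs1
      calc c * s ^ 3 ≤ 1 * 1 := mul_le_mul hc1' this (by positivity) (by norm_num)
        _ = 1 := by norm_num
    have hK3 : (K : ℝ) + 1 ≤ 66 / (c * s ^ 3) := by
      have h1 : 16 * L / a ≤ 64 / (c * s ^ 3) := by
        rw [haeq, div_le_div_iff₀ (by positivity) (by positivity)]
        have h2 : L * s ≤ 4 := by
          have := mul_le_mul_of_nonneg_right hLs hs0.le
          have h3 : 4 * (1 / s) * s = 4 := by field_simp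
          linarith
        have h4 : 0 < c * s ^ 2 := by positivity
        nlinarith [mul_le_mul_of_nonneg_right h2 h4.le]
      have h5 : 2 ≤ 2 / (c * s ^ 3) := by
        rw [le_div_iff₀ (by positivity)]
        linarith
      have h6 : 66 / (c * s ^ 3) = 64 / (c * s ^ 3) + 2 / (c * s ^ 3) := by ring
      rw [h6]
      linarith
    have hK0 : (0 : ℝ) ≤ (K : ℝ) + 1 := by positivity
    have hmain : ((K : ℝ) + 1) ^ 2 / a ^ 3 * Real.exp (-(a * K / 4)) ≤ 4356 / c ^ 5 := by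
      have h1 : ((K : ℝ) + 1) ^ 2 ≤ (66 / (c * s ^ 3)) ^ 2 := pow_le_pow_left₀ hK0 hK3 2
      calc ((K : ℝ) + 1) ^ 2 / a ^ 3 * Real.exp (-(a * K / 4))
          ≤ (66 / (c * s ^ 3)) ^ 2 / a ^ 3 * s ^ 16 := by
            refine mul_le_mul ?_ hE (Real.exp_pos _).le (by positivity)
            exact div_le_div_of_nonneg_right h1 (by positivity)
        _ = 4356 * s ^ 4 / c ^ 5 := by
            rw [haeq]
            field_simp
            ring
        _ ≤ 4356 / c ^ 5 := by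
            refine div_le_div_of_nonneg_right ?_ (by positivity)
            have : s ^ 4 ≤ 1 := pow_le_one₀ hs0.le hs1
            linarith
    have hx : x0 d T t K = A * (((K : ℝ) + 1) ^ 2 / a ^ 3 * Real.exp (-(a * K / 4))) := by
      unfold x0
      rw [hA]
      ring
    rw [hx]
    have h7 := mul_le_mul_of_nonneg_left hmain hA0.le
    have h8 : 0 ≤ A / c ^ 3 := by positivity
    linarith
  · -- large time
    have ha : c ≤ rate d T t := by
      have : 1 ≤ Real.sqrt t := by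
        rw [Real.one_le_sqrt]
        exact ht1
      calc c = c * 1 := by ring
        _ ≤ c * Real.sqrt t := mul_le_mul_of_nonneg_left this hc0.le
    have h0 : x0 d T t 0 = A / rate d T t ^ 3 := by
      unfold x0
      simp [hA, hCdef]
    rw [h0]
    have h1 : A / rate d T t ^ 3 ≤ A / c ^ 3 := by
      refine div_le_div_of_nonneg_left hA0.le (by positivity) ?_
      exact pow_le_pow_left₀ hc0.le ha 3
    have h2 : 0 ≤ A * (4356 / c ^ 5) := by positivity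
    linarith

end Vale.Agent.Lib.P161E
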