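import Vale.Agent.Lib.P161E.TwoFar2

/-! Jobs F8, F9: the term with the mean field and the term with the powers of theta. -/

open MeasureTheory Finset
open scoped Classical ENNReal

noncomputable section

namespace Vale.Agent.Lib.P161E

open Vale.Agent.Lib.P161

variable {V : Type*} {G : SimpleGraph V} [G.LocallyFinite] {d : ℕ} {T θ₁ θ₂ t : ℝ}
  {ξ₁ ξ₂ : (V → unitInterval) → V → V → ℝ} {m₁ m₂ : (V → unitInterval) → V → ℝ}

/-! ### Auxiliary facts -/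

theorem tk1_thc_pos (hd : 3 ≤ d) : 0 < thc d := by
  unfold thc
  have h : (3 : ℝ) ≤ d := by exact_mod_cast hd
  have h2 : 0 < Real.sqrt ((d : ℝ) - 1) := Real.sqrt_pos.2 (by linarith)
  positivity

theorem tk1_thc_lt_one (hd : 3 ≤ d) : thc d < 1 := by
  unfold thc
  have h : (3 : ℝ) ≤ d := by exact_mod_cast hd
  have h2 : 1 < Real.sqrt ((d : ℝ) - 1) := by
    rw [Real.lt_sqrt (by norm_num)]
    linarith
  rw [div_lt_one (by linarith)]
  exact h2

theorem tk1_c1_le_log (hd : 3 ≤ d) (hT : 1 ≤ T) : c1 d T ≤ Real.log ((d : ℝ) - 1) / 16 := by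
  have h : (3 : ℝ) ≤ d := by exact_mod_cast hd
  have hl : 0 < Real.log ((d : ℝ) - 1) := Real.log_pos (by linarith)
  have hs : 1 ≤ Real.sqrt T := Real.one_le_sqrt.2 hT
  refine (min_le_right _ _).trans ((min_le_right _ _).trans ?_)
  exact div_le_div_of_nonneg_left hl.le (by norm_num) (by nlinarith)

theorem tk1_rate_pos (hd : 3 ≤ d) (hT : 1 ≤ T) (ht : 0 < t) : 0 < rate d T t :=
  mul_pos (c1_pos hd hT) (Real.sqrt_pos.2 ht)

theorem tk1_rate_le (hd : 3 ≤ d) (hT : 1 ≤ T) (ht : t ≤ T) : rate d T t ≤ 1 / 148 := by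
  have h1 := tk1_thc_pos hd
  have h2 := tk1_thc_lt_one hd
  have hs : 0 < Real.sqrt T := Real.sqrt_pos.2 (by linarith)
  have hc0 := c1_pos hd hT
  have hc : c1 d T ≤ 1 / (148 * Real.sqrt T) := by
    refine (min_le_right _ _).trans ((min_le_left _ _).trans ?_)
    apply div_le_div_of_nonneg_right _ (by positivity)
    have h3 : (thc d / 2) ^ 2 ≤ 1 := by nlinarith
    have h4 : (1 - thc d) ^ 2 ≤ 1 := by nlinarith
    have h5 : 0 ≤ (thc d / 2) ^ 2 := sq_nonneg _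
    have h6 : 0 ≤ (1 - thc d) ^ 2 := sq_nonneg _
    nlinarith
  have hst : Real.sqrt t ≤ Real.sqrt T := Real.sqrt_le_sqrt ht
  unfold rate
  calc c1 d T * Real.sqrt t ≤ 1 / (148 * Real.sqrt T) * Real.sqrt T :=
        mul_le_mul hc hst (Real.sqrt_nonneg _) (by positivity)
    _ = 1 / 148 := by field_simp

theorem tk1_gm_meas (θ : ℝ) : Measurable (gm θ) := by
  unfold gm
  fun_prop

theorem tk1_shell_nonneg (θ : ℝ) (ξ : V → V → ℝ) : ∀ (l : ℕ) (x y : V), 0 ≤ shell G θ ξ l x y := by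
  intro l
  induction l with
  | zero =>
    intro x y
    simp [shell]
  | succ l ih =>
    intro x y
    simp only [shell]
    exact Finset.sum_nonneg fun c _ => mul_nonneg (sq_nonneg _) (ih c x)

theorem tk1_shell_meas {Ω : Type*} [MeasurableSpace Ω] {θ : ℝ} {ξ : Ω → V → V → ℝ}
    (hξ : ∀ x y, Measurable fun U => ξ U x y) :
    ∀ (l : ℕ) (x y : V), Measurable fun U => shell G θ (ξ U) l x y := by
  intro l
  induction l with
  | zero =>
    intro x y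
    simp only [shell]
    exact measurable_const
  | succ l ih =>
    intro x y
    simp only [shell]
    refine Finset.measurable_sum _ fun c _ => ?_
    exact (((tk1_gm_meas θ).comp (hξ c x)).const_mul θ).pow_const 2 |>.mul (ih c x)

theorem tk1_factor_mem {θ x : ℝ} (h0 : 0 ≤ θ) (h1 : θ < 1) (hx : |x| ≤ 1) :
    0 ≤ θ * gm θ x ∧ θ * gm θ x ≤ 1 := by
  have h2 := gm_nonneg h0 h1 hx
  have h3 := gm_le_one h0 h1 hx
  exact ⟨mul_nonneg h0 h2, by nlinarith⟩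

theorem tk1_pathG_mem {θ : ℝ} (h0 : 0 ≤ θ) (h1 : θ < 1) {ξ : V → V → ℝ} (hξ : ∀ x y, |ξ x y| ≤ 1)
    (r v : V) : 0 ≤ pathG G θ ξ r v ∧ pathG G θ ξ r v ≤ 1 := by
  unfold pathG
  exact ⟨Finset.prod_nonneg fun j _ => (tk1_factor_mem h0 h1 (hξ _ _)).1,
    Finset.prod_le_one (fun j _ => (tk1_factor_mem h0 h1 (hξ _ _)).1)
      fun j _ => (tk1_factor_mem h0 h1 (hξ _ _)).2⟩

theorem tk1_pathG_meas {Ω : Type*} [MeasurableSpace Ω] {θ : ℝ} {ξ : Ω → V → V → ℝ}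
    (hξ : ∀ x y, Measurable fun U => ξ U x y) (r v : V) :
    Measurable fun U => pathG G θ (ξ U) r v := by
  unfold pathG
  exact Finset.measurable_prod _ fun j _ => ((tk1_gm_meas θ).comp (hξ _ _)).const_mul θ

theorem tk1_sph_zero (hT : G.IsTree) (r : V) : sph G r 0 = {r} := by
  ext v
  rw [mem_sph hT, Finset.mem_singleton, hT.1.dist_eq_zero_iff]
  exact ⟨fun h => h.symm, fun h => h.symm⟩

theorem tk1_pathG_self (θ : ℝ) (ξ : V → V → ℝ) (r : V) : pathG G θ ξ r r = 1 := by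
  simp [pathG]

/-- The total sum of the squares of the path products on a good event. -/
theorem tk1_T_bound (hT : G.IsTree) (hreg : G.IsRegularOfDegree d) {θ : ℝ} (h0 : 0 ≤ θ) (h1 : θ < 1)
    {ξ : V → V → ℝ} (hξ : ∀ x y, |ξ x y| ≤ 1) (r : V) (R : Finset V) {K a : ℝ} (hK : 0 ≤ K)
    (ha : 0 < a) (ha1 : a ≤ 1)
    (hgood : ∀ c ∈ G.neighborFinset r, ∀ l : ℕ, shell G θ ξ l c r ≤ K * Real.exp (-(a * l / 4))) :
    ∑ v ∈ R, pathG G θ ξ r v ^ 2 ≤ 1 + d * K * (8 / a) := by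
  set f : V → ℝ := fun v => pathG G θ ξ r v ^ 2 with hf
  have hf0 : ∀ v, 0 ≤ f v := fun v => sq_nonneg _
  set N := R.sup (fun v => G.dist r v) with hN
  have hmaps : ∀ v ∈ R, G.dist r v ∈ Finset.range (N + 1) := by
    intro v hv
    have : G.dist r v ≤ N := Finset.le_sup (f := fun v => G.dist r v) hv
    exact Finset.mem_range.2 (by omega)
  have h2 : ∑ v ∈ R, f v ≤ ∑ n ∈ Finset.range (N + 1), ∑ v ∈ sph G r n, f v := by
    rw [← Finset.sum_fiberwise_of_maps_to hmaps]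
    refine Finset.sum_le_sum fun n _ => ?_
    refine Finset.sum_le_sum_of_subset_of_nonneg ?_ fun v _ _ => hf0 v
    intro v hv
    rw [mem_sph hT]
    exact (Finset.mem_filter.1 hv).2
  have hcard : ((G.neighborFinset r).card : ℝ) = d := by
    rw [SimpleGraph.card_neighborFinset_eq_degree, hreg r]
  have h3 : ∀ k : ℕ, ∑ v ∈ sph G r (k + 1), f v ≤ d * K * Real.exp (-(a / 4 * k)) := by
    intro k
    rw [hf, sum_pathG_sq_sph hT θ ξ r k]
    calc ∑ c ∈ G.neighborFinset r, (θ * gm θ (ξ c r)) ^ 2 * shell G θ ξ k c r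
        ≤ ∑ c ∈ G.neighborFinset r, K * Real.exp (-(a / 4 * k)) := by
          refine Finset.sum_le_sum fun c hc => ?_
          have h4 := tk1_factor_mem h0 h1 (hξ c r)
          have h5 : (θ * gm θ (ξ c r)) ^ 2 ≤ 1 := by nlinarith
          have h6 := hgood c hc k
          have h7 : -(a * (k : ℝ) / 4) = -(a / 4 * k) := by ring
          rw [h7] at h6
          have h8 := tk1_shell_nonneg (G := G) θ ξ k c r
          have h9 : 0 ≤ (θ * gm θ (ξ c r)) ^ 2 := sq_nonneg _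
          nlinarith
      _ = d * K * Real.exp (-(a / 4 * k)) := by
          rw [Finset.sum_const, nsmul_eq_mul, hcard]
          ring
  have h4 : ∑ v ∈ sph G r 0, f v = 1 := by
    rw [tk1_sph_zero hT, Finset.sum_singleton, hf]
    simp [tk1_pathG_self]
  have h5 : ∑ k ∈ Finset.range N, Real.exp (-(a / 4 * k)) ≤ 2 / (a / 4) :=
    sum_exp_le (by positivity) (by linarith) N
  have hd0 : (0 : ℝ) ≤ d := Nat.cast_nonneg d
  calc ∑ v ∈ R, f v ≤ ∑ n ∈ Finset.range (N + 1), ∑ v ∈ sph G r n, f v := h2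
    _ = ∑ k ∈ Finset.range N, ∑ v ∈ sph G r (k + 1), f v + ∑ v ∈ sph G r 0, f v :=
        Finset.sum_range_succ' _ _
    _ ≤ ∑ k ∈ Finset.range N, (d * K * Real.exp (-(a / 4 * k))) + 1 := by
        rw [h4]
        gcongr with k _
        exact h3 k
    _ = d * K * ∑ k ∈ Finset.range N, Real.exp (-(a / 4 * k)) + 1 := by
        rw [Finset.mul_sum]
    _ ≤ d * K * (2 / (a / 4)) + 1 := by
        gcongr
    _ = 1 + d * K * (8 / a) := by
        field_simp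
        ring

theorem tk1_exp_four (x₁ x₂ x₃ x₄ : ℝ) :
    Real.exp (x₁ + x₂ + x₃ + x₄) ≤
      Real.exp (4 * x₁) + Real.exp (4 * x₂) + Real.exp (4 * x₃) + Real.exp (4 * x₄) := by
  have p1 := Real.exp_pos (4 * x₁)
  have p2 := Real.exp_pos (4 * x₂)
  have p3 := Real.exp_pos (4 * x₃)
  have p4 := Real.exp_pos (4 * x₄)
  by_cases h1 : x₁ + x₂ + x₃ + x₄ ≤ 4 * x₁
  · have := Real.exp_le_exp.2 h1
    linarith
  by_cases h2 : x₁ + x₂ + x₃ + x₄ ≤ 4 * x₂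
  · have := Real.exp_le_exp.2 h2
    linarith
  by_cases h3 : x₁ + x₂ + x₃ + x₄ ≤ 4 * x₃
  · have := Real.exp_le_exp.2 h3
    linarith
  have h4 : x₁ + x₂ + x₃ + x₄ ≤ 4 * x₄ := by
    have h1' := not_le.1 h1
    have h2' := not_le.1 h2
    have h3' := not_le.1 h3
    linarith
  have := Real.exp_le_exp.2 h4
  linarith

/-- Square of the mean in terms of the cavity means. -/
theorem tk1_m_sq_le {θ a b : ℝ} (h0 : 0 ≤ θ) (h1 : θ < 1) (ha : |a| ≤ 1) (hb : |b| ≤ 1) {D : ℝ}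
    (hD : 0 < D) (hD1 : D ≤ (1 - θ) ^ 2) : bm θ a b ^ 2 ≤ 2 * (a ^ 2 + b ^ 2) / D := by
  have h2 := abs_bm_le_add h0 h1 ha hb
  have h3 : 0 < 1 - θ := by linarith
  have h4 : bm θ a b ^ 2 ≤ ((|a| + |b|) / (1 - θ)) ^ 2 := by
    rw [← sq_abs (bm θ a b)]
    exact pow_le_pow_left₀ (abs_nonneg _) h2 2
  have h5 : (|a| + |b|) ^ 2 ≤ 2 * (a ^ 2 + b ^ 2) := by
    rw [← sq_abs a, ← sq_abs b]
    nlinarith [sq_nonneg (|a| - |b|)]
  rw [div_pow] at h4
  refine h4.trans ?_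
  calc (|a| + |b|) ^ 2 / (1 - θ) ^ 2 ≤ 2 * (a ^ 2 + b ^ 2) / (1 - θ) ^ 2 := by gcongr
    _ ≤ 2 * (a ^ 2 + b ^ 2) / D := by
        apply div_le_div_of_nonneg_left (by positivity) hD hD1

/-- The bound on the total sum on the good events. -/
theorem tk1_T_good (hT : G.IsTree) (hd : 3 ≤ d) (hreg : G.IsRegularOfDegree d) (hT1 : 1 ≤ T)
    {θ : ℝ} (h0 : 0 ≤ θ) (h1 : θ < 1) {ξ : V → V → ℝ} (hξ : ∀ x y, |ξ x y| ≤ 1) (r : V)
    (R : Finset V) (ht : 0 < t) (htT : t ≤ T) {W : ℝ} (hW : 1 ≤ W)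
    (hgood : ∀ c ∈ G.neighborFinset r, ∀ l : ℕ, shell G θ ξ l c r ≤
      C2 d (C0 d T) * W * Real.exp (-(rate d T t * l / 4))) :
    ∑ v ∈ R, pathG G θ ξ r v ^ 2 ≤
      (Real.sqrt T + 8 * d * C2 d (C0 d T) / c1 d T) * W / Real.sqrt t := by
  have hc1 := c1_pos hd hT1
  have hC0 : 0 < C0 d T := Real.exp_pos _
  have hd0 : (0 : ℝ) < d := by
    have : (3 : ℝ) ≤ d := by exact_mod_cast hd
    linarith
  have hC2 : 0 < C2 d (C0 d T) := by
    unfold C2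
    positivity
  have ha := tk1_rate_pos hd hT1 ht
  have ha1 := tk1_rate_le hd hT1 htT
  have hst : 0 < Real.sqrt t := Real.sqrt_pos.2 ht
  have hsT : Real.sqrt t ≤ Real.sqrt T := Real.sqrt_le_sqrt htT
  have h2 := tk1_T_bound hT hreg h0 h1 hξ r R (K := C2 d (C0 d T) * W) (a := rate d T t)
    (by positivity) ha (by linarith) hgood
  refine h2.trans ?_
  have e : (Real.sqrt T + 8 * d * C2 d (C0 d T) / c1 d T) * W / Real.sqrt t =
      Real.sqrt T * W / Real.sqrt t + d * (C2 d (C0 d T) * W) * (8 / rate d T t) := by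
    unfold rate
    field_simp
  rw [e]
  have h3 : 1 ≤ Real.sqrt T * W / Real.sqrt t := by
    rw [le_div_iff₀ hst]
    nlinarith
  linarith

theorem tk1_C2_pos (hd : 3 ≤ d) : 0 < C2 d (C0 d T) := by
  have hC0 : 0 < C0 d T := Real.exp_pos _
  have hd0 : (0 : ℝ) < d := by
    have : (3 : ℝ) ≤ d := by exact_mod_cast hd
    linarith
  unfold C2
  positivity

theorem tk1_C3_pos (hd : 3 ≤ d) (hT1 : 1 ≤ T) : 0 < C3 d T := by
  have hc1 := c1_pos hd hT1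
  have h2 := tk1_C2_pos (T := T) hd
  unfold C3
  positivity

theorem tk1_Ce_nonneg (hd : 3 ≤ d) (hT1 : 1 ≤ T) : 0 ≤ Ce d T := by
  have h3 := tk1_C3_pos hd hT1
  unfold Ce
  have h1 : 0 < 1 + T := by linarith
  have h2 : 0 < 1 + C3 d T := by linarith
  positivity

theorem tk1_sig_nonneg (hd : 3 ≤ d) (hT1 : 1 ≤ T) (ht : 0 < t) : 0 ≤ sig d (rate d T t) := by
  have h : (3 : ℝ) ≤ d := by exact_mod_cast hd
  have hl : 0 < Real.log ((d : ℝ) - 1) := Real.log_pos (by linarith)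
  have ha := tk1_rate_pos hd hT1 ht
  unfold sig
  positivity

/-- The good events for the shell sums around `r`. -/
def tk1Good (G : SimpleGraph V) [G.LocallyFinite] (θ : ℝ) (ξ : (V → unitInterval) → V → V → ℝ)
    (r : V) (K σ a : ℝ) (z : ℕ) : Set (V → unitInterval) :=
  {U | ∀ c ∈ G.neighborFinset r, ∀ l : ℕ,
    shell G θ (ξ U) l c r ≤ K * (1 + (z : ℝ)) ^ σ * Real.exp (-(a * l / 4))}

theorem tk1Good_meas {θ : ℝ} {ξ : (V → unitInterval) → V → V → ℝ}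
    (hξ : ∀ x y, Measurable fun U => ξ U x y) (r : V) (K σ a : ℝ) (z : ℕ) :
    MeasurableSet (tk1Good G θ ξ r K σ a z) := by
  have e : tk1Good G θ ξ r K σ a z = ⋂ c ∈ G.neighborFinset r, ⋂ l : ℕ,
      {U | shell G θ (ξ U) l c r ≤ K * (1 + (z : ℝ)) ^ σ * Real.exp (-(a * l / 4))} := by
    ext U
    simp [tk1Good]
  rw [e]
  refine Finset.measurableSet_biInter _ fun c _ => MeasurableSet.iInter fun l => ?_
  exact measurableSet_le (tk1_shell_meas hξ l c r) measurable_const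

theorem tk1Good_mono {θ : ℝ} {ξ : (V → unitInterval) → V → V → ℝ} (r : V) {K σ a : ℝ} (hK : 0 ≤ K)
    (hσ : 0 ≤ σ) {z z' : ℕ} (hzz : z ≤ z') :
    tk1Good G θ ξ r K σ a z ⊆ tk1Good G θ ξ r K σ a z' := by
  intro U hU c hc l
  refine (hU c hc l).trans ?_
  have h1 : (1 + (z : ℝ)) ^ σ ≤ (1 + (z' : ℝ)) ^ σ := by
    apply Real.rpow_le_rpow (by positivity) _ hσ
    have : (z : ℝ) ≤ z' := by exact_mod_cast hzz
    linarith
  have := Real.exp_pos (-(a * l / 4))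
  exact mul_le_mul_of_nonneg_right (mul_le_mul_of_nonneg_left h1 hK) this.le

theorem tk1Good_compl (hreg : G.IsRegularOfDegree d) (s₁ : Sys G d T θ₁ t ξ₁ m₁) (r : V) (z : ℕ) :
    iidUniform V (tk1Good G θ₁ ξ₁ r (C2 d (C0 d T)) (sig d (rate d T t)) (rate d T t) z)ᶜ ≤
      ENNReal.ofReal ((2 * d) * Real.exp (-(z : ℝ))) := by
  have hsub : (tk1Good G θ₁ ξ₁ r (C2 d (C0 d T)) (sig d (rate d T t)) (rate d T t) z)ᶜ ⊆
      ⋃ c ∈ G.neighborFinset r, {U | ∃ l : ℕ, C2 d (C0 d T) *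
        (1 + (z : ℝ)) ^ sig d (rate d T t) * Real.exp (-(rate d T t * l / 4)) <
          shell G θ₁ (ξ₁ U) l c r} := by
    intro U hU
    simp only [tk1Good, Set.mem_compl_iff, Set.mem_ofPred_eq, not_forall, not_le, exists_prop] at hU
    obtain ⟨c, hc, l, hl'⟩ := hU
    exact Set.mem_biUnion hc ⟨l, hl'⟩
  calc iidUniform V (tk1Good G θ₁ ξ₁ r (C2 d (C0 d T)) (sig d (rate d T t)) (rate d T t) z)ᶜ
      ≤ ∑ c ∈ G.neighborFinset r, iidUniform V {U | ∃ l : ℕ, C2 d (C0 d T) *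
          (1 + (z : ℝ)) ^ sig d (rate d T t) * Real.exp (-(rate d T t * l / 4)) <
            shell G θ₁ (ξ₁ U) l c r} :=
        (measure_mono hsub).trans (measure_biUnion_finset_le _ _)
    _ ≤ ∑ c ∈ G.neighborFinset r, ENNReal.ofReal (2 * Real.exp (-(z : ℝ))) := by
        refine Finset.sum_le_sum fun c hc => ?_
        exact s₁.good (z : ℝ) (Nat.cast_nonneg z) c r (by simpa [G.adj_comm] using hc)
    _ = ENNReal.ofReal ((2 * d) * Real.exp (-(z : ℝ))) := by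
        rw [Finset.sum_const, SimpleGraph.card_neighborFinset_eq_degree, hreg r, nsmul_eq_mul,
          ← ENNReal.ofReal_natCast d, ← ENNReal.ofReal_mul (Nat.cast_nonneg d)]
        congr 1
        ring

/-- The threshold: up to `z₀ = exp (1 / √t)` the power of `1 + z` stays bounded. -/
theorem tk1_threshold (hd : 3 ≤ d) (hT1 : 1 ≤ T) (ht : 0 < t) (htT : t ≤ T) :
    (1 + ((⌈Real.exp (1 / Real.sqrt t)⌉₊ : ℕ) : ℝ)) ^ sig d (rate d T t) ≤ 3 := by
  have hd' : (3 : ℝ) ≤ d := by exact_mod_cast hd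
  have hl : 0 < Real.log ((d : ℝ) - 1) := Real.log_pos (by linarith)
  have hst : 0 < Real.sqrt t := Real.sqrt_pos.2 ht
  have hσ0 := tk1_sig_nonneg hd hT1 ht
  have hσ8 : sig d (rate d T t) ≤ 1 / 8 := sig_rate_le hd hT1 ht htT
  have hz₀2 : ((⌈Real.exp (1 / Real.sqrt t)⌉₊ : ℕ) : ℝ) < Real.exp (1 / Real.sqrt t) + 1 :=
    Nat.ceil_lt_add_one (Real.exp_pos _).le
  have hE1 : 1 ≤ Real.exp (1 / Real.sqrt t) := Real.one_le_exp (by positivity)
  have h3e : (3 : ℝ) ≤ Real.exp 2 := by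
    have h4 := Real.add_one_le_exp (2 : ℝ)
    linarith
  have h1 : 1 + ((⌈Real.exp (1 / Real.sqrt t)⌉₊ : ℕ) : ℝ) ≤ Real.exp (2 + 1 / Real.sqrt t) := by
    rw [Real.exp_add]
    nlinarith
  have h2 := Real.rpow_le_rpow (by positivity) h1 hσ0
  rw [← Real.exp_mul] at h2
  have h5 : sig d (rate d T t) / Real.sqrt t ≤ 1 / 8 := by
    unfold sig rate
    have h6 : 2 * (c1 d T * Real.sqrt t) / Real.log ((d : ℝ) - 1) / Real.sqrt t =
        2 * c1 d T / Real.log ((d : ℝ) - 1) := by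
      field_simp
    rw [h6, div_le_iff₀ hl]
    have := tk1_c1_le_log hd hT1
    linarith
  have h6 : (2 + 1 / Real.sqrt t) * sig d (rate d T t) ≤ 1 := by
    have : (2 + 1 / Real.sqrt t) * sig d (rate d T t) =
        2 * sig d (rate d T t) + sig d (rate d T t) / Real.sqrt t := by
      field_simp
    rw [this]
    linarith
  have h7 := Real.exp_le_exp.2 h6
  have h8 := Real.exp_one_lt_d9
  linarith

/-- Above the threshold the total sum is at most a power of `1 + z`. -/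
theorem tk1_large (hσ8 : sig d (rate d T t) ≤ 1 / 8) (ht : 0 < t) {B : ℝ} (hB0 : 0 < B) {z : ℕ}
    (hz : ⌈Real.exp (1 / Real.sqrt t)⌉₊ ≤ z) {x : ℝ}
    (hx : x ≤ B * (1 + (z : ℝ)) ^ sig d (rate d T t) / Real.sqrt t) :
    x ≤ 8 * B * (1 + (z : ℝ)) ^ (1 / 4 : ℝ) := by
  have hst : 0 < Real.sqrt t := Real.sqrt_pos.2 ht
  have hz₀1 : Real.exp (1 / Real.sqrt t) ≤ (z : ℝ) :=
    (Nat.le_ceil _).trans (by exact_mod_cast hz)
  have hz0 : (0 : ℝ) ≤ z := Nat.cast_nonneg z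
  have hx1 : (1 : ℝ) ≤ 1 + (z : ℝ) := by linarith
  have hx0 : (0 : ℝ) < 1 + (z : ℝ) := by linarith
  have h1 : 1 / Real.sqrt t ≤ Real.log (1 + (z : ℝ)) := by
    rw [Real.le_log_iff_exp_le hx0]
    linarith
  set w := (1 + (z : ℝ)) ^ (1 / 8 : ℝ) with hw
  have hw1 : 1 ≤ w := Real.one_le_rpow hx1 (by norm_num)
  have h2 : Real.log (1 + (z : ℝ)) ≤ 8 * w := by
    have h3 : Real.log w = (1 / 8 : ℝ) * Real.log (1 + (z : ℝ)) := Real.log_rpow hx0 _
    have h4 := Real.log_le_sub_one_of_pos (by linarith : 0 < w)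
    linarith
  have h3 : (1 + (z : ℝ)) ^ sig d (rate d T t) ≤ w := Real.rpow_le_rpow_of_exponent_le hx1 hσ8
  have h4 : (1 + (z : ℝ)) ^ (1 / 4 : ℝ) = w * w := by
    rw [hw, ← Real.rpow_add hx0]
    norm_num
  rw [h4]
  have h6 : B * (1 + (z : ℝ)) ^ sig d (rate d T t) / Real.sqrt t =
      B * (1 + (z : ℝ)) ^ sig d (rate d T t) * (1 / Real.sqrt t) := by
    ring
  rw [h6] at hx
  have h7 : B * (1 + (z : ℝ)) ^ sig d (rate d T t) * (1 / Real.sqrt t) ≤ B * w * (8 * w) :=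
    mul_le_mul (mul_le_mul_of_nonneg_left h3 hB0.le) (h1.trans h2) (by positivity) (by positivity)
  nlinarith

/-- Pointwise bound of the main part. -/
theorem tk1_main_pt {lam B κ₀ D st a₁ a₂ a₃ a₄ m₁' m₂' : ℝ} (hlam0 : 0 < lam) (hB0 : 0 < B)
    (hD0 : 0 < D) (hst : 0 < st) (hlam2 : lam * (48 * B) ≤ κ₀ * D)
    (h1 : m₁' ^ 2 ≤ 2 * (a₁ + a₂) / D) (h2 : m₂' ^ 2 ≤ 2 * (a₃ + a₄) / D)
    (h10 : 0 ≤ a₁) (h20 : 0 ≤ a₂) (h30 : 0 ≤ a₃) (h40 : 0 ≤ a₄) :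
    Real.exp (lam * ((m₁' + m₂') ^ 2 * (3 * B / st))) ≤
      Real.exp (κ₀ / st * a₁) + Real.exp (κ₀ / st * a₂) + Real.exp (κ₀ / st * a₃) +
        Real.exp (κ₀ / st * a₄) := by
  have h5 : (m₁' + m₂') ^ 2 ≤ 4 * (a₁ + a₂ + a₃ + a₄) / D := by
    have h6 : 4 * (a₁ + a₂ + a₃ + a₄) / D = 2 * (2 * (a₁ + a₂) / D) + 2 * (2 * (a₃ + a₄) / D) := by
      field_simp
      ring
    rw [h6]
    nlinarith [sq_nonneg (m₁' - m₂')]
  set μ := 12 * lam * B / D / st with hμ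
  have hμ0 : 0 ≤ μ := by positivity
  have h4μ : 4 * μ ≤ κ₀ / st := by
    rw [hμ]
    have : 4 * (12 * lam * B / D / st) = (lam * (48 * B)) / D / st := by ring
    rw [this]
    apply div_le_div_of_nonneg_right _ hst.le
    rw [div_le_iff₀ hD0]
    exact hlam2
  have h7 : lam * ((m₁' + m₂') ^ 2 * (3 * B / st)) ≤ μ * a₁ + μ * a₂ + μ * a₃ + μ * a₄ := by
    have h8 : lam * ((m₁' + m₂') ^ 2 * (3 * B / st)) ≤
        lam * (4 * (a₁ + a₂ + a₃ + a₄) / D * (3 * B / st)) :=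
      mul_le_mul_of_nonneg_left (mul_le_mul_of_nonneg_right h5 (by positivity)) hlam0.le
    refine h8.trans (le_of_eq ?_)
    rw [hμ]
    field_simp
    ring
  have h9 := tk1_exp_four (μ * a₁) (μ * a₂) (μ * a₃) (μ * a₄)
  have hmono : ∀ s : ℝ, 0 ≤ s → Real.exp (4 * (μ * s)) ≤ Real.exp (κ₀ / st * s) := by
    intro s hs
    apply Real.exp_le_exp.2
    have := mul_le_mul_of_nonneg_right h4μ hs
    linarith
  have e1 := hmono a₁ h10
  have e2 := hmono a₂ h20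
  have e3 := hmono a₃ h30
  have e4 := hmono a₄ h40
  have h10' := Real.exp_le_exp.2 h7
  linarith

/-- The main part of the exponential moment, through the Bethe relation and `exp_ξ`. -/
theorem tk1_main (hT1 : 1 ≤ T) (hd : 3 ≤ d) (hreg : G.IsRegularOfDegree d) {lam B : ℝ}
    (hlam0 : 0 < lam) (hB0 : 0 < B)
    (hlam2 : lam * (48 * B) ≤ kap0 d T * (1 - thc d) ^ 2)
    (s₁ : Sys G d T θ₁ t ξ₁ m₁) (s₂ : Sys G d T θ₂ t ξ₂ m₂) (r : V) :
    ∫⁻ U, ENNReal.ofReal (Real.exp (lam * ((m₁ U r + m₂ U r) ^ 2 * (3 * B / Real.sqrt t))))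
        ∂iidUniform V ≤ ENNReal.ofReal (4 * Ce d T) := by
  have hth := tk1_thc_pos hd
  have hth1 := tk1_thc_lt_one hd
  have hD0 : 0 < (1 - thc d) ^ 2 := by
    have : 0 < 1 - thc d := by linarith
    positivity
  have hst : 0 < Real.sqrt t := Real.sqrt_pos.2 s₁.ht
  have h0₁ : 0 < θ₁ := lt_of_lt_of_le (half_pos hth) s₁.lo
  have h1₁ : θ₁ < 1 := s₁.hi.trans hth1
  have h0₂ : 0 < θ₂ := lt_of_lt_of_le (half_pos hth) s₂.lo
  have h1₂ : θ₂ < 1 := s₂.hi.trans hth1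
  obtain ⟨c, hc⟩ : ∃ c, G.Adj r c := by
    rw [← SimpleGraph.degree_pos_iff_exists_adj, hreg r]
    omega
  have hae : ∀ᵐ U ∂iidUniform V,
      Real.exp (lam * ((m₁ U r + m₂ U r) ^ 2 * (3 * B / Real.sqrt t))) ≤
      Real.exp (kap0 d T / Real.sqrt t * ξ₁ U r c ^ 2) +
        Real.exp (kap0 d T / Real.sqrt t * ξ₁ U c r ^ 2) +
        Real.exp (kap0 d T / Real.sqrt t * ξ₂ U r c ^ 2) +
        Real.exp (kap0 d T / Real.sqrt t * ξ₂ U c r ^ 2) := by
    filter_upwards [s₁.bethe r c hc, s₂.bethe r c hc] with U h1 h2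
    have hD₁ : (1 - thc d) ^ 2 ≤ (1 - θ₁) ^ 2 := by
      have := s₁.hi
      apply pow_le_pow_left₀ (by linarith) (by linarith)
    have hD₂ : (1 - thc d) ^ 2 ≤ (1 - θ₂) ^ 2 := by
      have := s₂.hi
      apply pow_le_pow_left₀ (by linarith) (by linarith)
    have h3 := tk1_m_sq_le h0₁.le h1₁ (s₁.abs_ξ U r c) (s₁.abs_ξ U c r) hD0 hD₁
    have h4 := tk1_m_sq_le h0₂.le h1₂ (s₂.abs_ξ U r c) (s₂.abs_ξ U c r) hD0 hD₂
    rw [← h1] at h3
    rw [← h2] at h4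
    exact tk1_main_pt hlam0 hB0 hD0 hst hlam2 h3 h4 (sq_nonneg _) (sq_nonneg _) (sq_nonneg _)
      (sq_nonneg _)
  have hmeas : ∀ {ξ : (V → unitInterval) → V → V → ℝ}, (∀ x y, Measurable fun U => ξ U x y) →
      ∀ x y, Measurable fun U =>
        ENNReal.ofReal (Real.exp (kap0 d T / Real.sqrt t * ξ U x y ^ 2)) := by
    intro ξ hξ x y
    exact (Real.measurable_exp.comp (((hξ x y).pow_const 2).const_mul _)).ennreal_ofReal
  have hCe0 := tk1_Ce_nonneg hd hT1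
  calc ∫⁻ U, ENNReal.ofReal (Real.exp (lam * ((m₁ U r + m₂ U r) ^ 2 * (3 * B / Real.sqrt t))))
        ∂iidUniform V
      ≤ ∫⁻ U, (ENNReal.ofReal (Real.exp (kap0 d T / Real.sqrt t * ξ₁ U r c ^ 2)) +
          ENNReal.ofReal (Real.exp (kap0 d T / Real.sqrt t * ξ₁ U c r ^ 2)) +
          ENNReal.ofReal (Real.exp (kap0 d T / Real.sqrt t * ξ₂ U r c ^ 2)) +
          ENNReal.ofReal (Real.exp (kap0 d T / Real.sqrt t * ξ₂ U c r ^ 2))) ∂iidUniform V := by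
        refine lintegral_mono_ae ?_
        filter_upwards [hae] with U hU
        rw [← ENNReal.ofReal_add (Real.exp_pos _).le (Real.exp_pos _).le,
          ← ENNReal.ofReal_add (by positivity) (Real.exp_pos _).le,
          ← ENNReal.ofReal_add (by positivity) (Real.exp_pos _).le]
        exact ENNReal.ofReal_le_ofReal hU
    _ ≤ ENNReal.ofReal (Ce d T) + ENNReal.ofReal (Ce d T) + ENNReal.ofReal (Ce d T) +
          ENNReal.ofReal (Ce d T) := by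
        rw [lintegral_add_right _ (hmeas s₂.meas_ξ c r),
          lintegral_add_right _ (hmeas s₂.meas_ξ r c),
          lintegral_add_right _ (hmeas s₁.meas_ξ c r)]
        exact add_le_add (add_le_add (add_le_add (s₁.exp_ξ r c hc) (s₁.exp_ξ c r hc.symm))
          (s₂.exp_ξ r c hc)) (s₂.exp_ξ c r hc.symm)
    _ = ENNReal.ofReal (4 * Ce d T) := by
        rw [← ENNReal.ofReal_add hCe0 hCe0, ← ENNReal.ofReal_add (by positivity) hCe0,
          ← ENNReal.ofReal_add (by positivity) hCe0]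
        congr 1
        ring

/-- The part off the good event at the threshold. -/
theorem tk1_off (hT : G.IsTree) (hT1 : 1 ≤ T) (hd : 3 ≤ d) (hreg : G.IsRegularOfDegree d)
    {lam B : ℝ} (hB : B = Real.sqrt T + 8 * d * C2 d (C0 d T) / c1 d T) (hB0 : 0 < B)
    (hlam0 : 0 < lam) (hlam1 : lam * (32 * B) ≤ 1)
    (s₁ : Sys G d T θ₁ t ξ₁ m₁) (s₂ : Sys G d T θ₂ t ξ₂ m₂) (r : V) (R : Finset V) :
    ∫⁻ U, ENNReal.ofReal (Real.exp (if U ∈ tk1Good G θ₁ ξ₁ r (C2 d (C0 d T)) (sig d (rate d T t))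
          (rate d T t) ⌈Real.exp (1 / Real.sqrt t)⌉₊ then 0 else
        lam * ((m₁ U r + m₂ U r) ^ 2 * ∑ v ∈ R, pathG G θ₁ (ξ₁ U) r v ^ 2))) ∂iidUniform V ≤
      ENNReal.ofReal (30 * (2 * d)) := by
  have hd' : (3 : ℝ) ≤ d := by exact_mod_cast hd
  have hth := tk1_thc_pos hd
  have hth1 := tk1_thc_lt_one hd
  have h0₁ : 0 < θ₁ := lt_of_lt_of_le (half_pos hth) s₁.lo
  have h1₁ : θ₁ < 1 := s₁.hi.trans hth1
  have hσ0 := tk1_sig_nonneg hd hT1 s₁.ht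
  have hσ8 : sig d (rate d T t) ≤ 1 / 8 := sig_rate_le hd hT1 s₁.ht s₁.htT
  have hC2 := tk1_C2_pos (T := T) hd
  set z₀ : ℕ := ⌈Real.exp (1 / Real.sqrt t)⌉₊ with hz₀
  set Good := tk1Good G θ₁ ξ₁ r (C2 d (C0 d T)) (sig d (rate d T t)) (rate d T t) with hGood
  have hGm : ∀ z, MeasurableSet (Good z) := tk1Good_meas s₁.meas_ξ r _ _ _
  set Q : (V → unitInterval) → ℝ :=
    fun U => lam * ((m₁ U r + m₂ U r) ^ 2 * ∑ v ∈ R, pathG G θ₁ (ξ₁ U) r v ^ 2) with hQ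
  have hTf0 : ∀ U, 0 ≤ ∑ v ∈ R, pathG G θ₁ (ξ₁ U) r v ^ 2 :=
    fun U => Finset.sum_nonneg fun v _ => sq_nonneg _
  have hQ0 : ∀ U, 0 ≤ Q U := fun U => by
    have := hTf0 U
    simp only [hQ]
    positivity
  have hQm : Measurable Q :=
    (((s₁.meas_m r).add (s₂.meas_m r)).pow_const 2 |>.mul (Finset.measurable_sum _ fun v _ =>
      (tk1_pathG_meas s₁.meas_ξ r v).pow_const 2)).const_mul lam
  have hXm : Measurable (fun U => if U ∈ Good z₀ then 0 else Q U) :=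
    Measurable.ite (hGm z₀) measurable_const hQm
  have hX0 : ∀ U, 0 ≤ (if U ∈ Good z₀ then 0 else Q U) := by
    intro U
    split_ifs
    · exact le_rfl
    · exact hQ0 U
  have hA1 : (1 : ℝ) ≤ 2 * d := by linarith
  refine exp_moment_good (P := iidUniform V) hXm hX0 hA1 Good hGm
    (fun z => tk1Good_compl hreg s₁ r z) ?_
  intro z U hU
  have hr0 : 0 ≤ (1 + (z : ℝ)) ^ (1 / 4 : ℝ) := by positivity
  rcases le_total z z₀ with hz | hz
  · have : U ∈ Good z₀ := tk1Good_mono r hC2.le hσ0 hz hU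
    rw [if_pos this]
    exact hr0
  · split_ifs
    · exact hr0
    · have hx1 : (1 : ℝ) ≤ 1 + (z : ℝ) := by
        have : (0 : ℝ) ≤ z := Nat.cast_nonneg z
        linarith
      have h1 := tk1_T_good hT hd hreg hT1 h0₁.le h1₁ (s₁.abs_ξ U) r R s₁.ht s₁.htT
        (Real.one_le_rpow hx1 hσ0) hU
      rw [← hB] at h1
      have h1' := tk1_large hσ8 s₁.ht hB0 hz h1
      have h2 : (m₁ U r + m₂ U r) ^ 2 ≤ 4 := by
        have h1 := abs_le.1 (s₁.abs_m U r)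
        have h2 := abs_le.1 (s₂.abs_m U r)
        nlinarith
      have h4 : (m₁ U r + m₂ U r) ^ 2 * ∑ v ∈ R, pathG G θ₁ (ξ₁ U) r v ^ 2 ≤
          4 * (8 * B * (1 + (z : ℝ)) ^ (1 / 4 : ℝ)) :=
        mul_le_mul h2 h1' (hTf0 U) (by norm_num)
      have h5 := mul_le_mul_of_nonneg_left h4 hlam0.le
      have h6 : lam * (4 * (8 * B * (1 + (z : ℝ)) ^ (1 / 4 : ℝ))) =
          lam * (32 * B) * (1 + (z : ℝ)) ^ (1 / 4 : ℝ) := by ring
      rw [h6] at h5
      have h7 : lam * (32 * B) * (1 + (z : ℝ)) ^ (1 / 4 : ℝ) ≤ 1 * (1 + (z : ℝ)) ^ (1 / 4 : ℝ) :=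
        mul_le_mul_of_nonneg_right hlam1 hr0
      simp only [hQ]
      linarith

/-- The core of the exponential moment. -/
theorem tk1_core (hT : G.IsTree) (hd : 3 ≤ d) (hreg : G.IsRegularOfDegree d) (hT1 : 1 ≤ T)
    {lam B : ℝ} (hB : B = Real.sqrt T + 8 * d * C2 d (C0 d T) / c1 d T) (hB0 : 0 < B)
    (hlam0 : 0 < lam) (hlam1 : lam * (32 * B) ≤ 1)
    (hlam2 : lam * (48 * B) ≤ kap0 d T * (1 - thc d) ^ 2)
    (s₁ : Sys G d T θ₁ t ξ₁ m₁) (s₂ : Sys G d T θ₂ t ξ₂ m₂) (r : V) (R : Finset V) :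
    ∫⁻ U, ENNReal.ofReal (Real.exp (lam * ((m₁ U r + m₂ U r) ^ 2 *
        ∑ v ∈ R, pathG G θ₁ (ξ₁ U) r v ^ 2))) ∂iidUniform V ≤
      ENNReal.ofReal (4 * Ce d T + 60 * d) := by
  have hd' : (3 : ℝ) ≤ d := by exact_mod_cast hd
  have hth := tk1_thc_pos hd
  have hth1 := tk1_thc_lt_one hd
  have h0₁ : 0 < θ₁ := lt_of_lt_of_le (half_pos hth) s₁.lo
  have h1₁ : θ₁ < 1 := s₁.hi.trans hth1
  have hst : 0 < Real.sqrt t := Real.sqrt_pos.2 s₁.ht
  have hσ0 := tk1_sig_nonneg hd hT1 s₁.ht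
  have hW0 := tk1_threshold hd hT1 s₁.ht s₁.htT
  have hCe0 := tk1_Ce_nonneg hd hT1
  set z₀ : ℕ := ⌈Real.exp (1 / Real.sqrt t)⌉₊ with hz₀
  set Good := tk1Good G θ₁ ξ₁ r (C2 d (C0 d T)) (sig d (rate d T t)) (rate d T t) with hGood
  have hGm : ∀ z, MeasurableSet (Good z) := tk1Good_meas s₁.meas_ξ r _ _ _
  have hmain := tk1_main hT1 hd hreg hlam0 hB0 hlam2 s₁ s₂ r
  have hoff := tk1_off hT hT1 hd hreg hB hB0 hlam0 hlam1 s₁ s₂ r R
  have hQm : Measurable (fun U => lam * ((m₁ U r + m₂ U r) ^ 2 *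
      ∑ v ∈ R, pathG G θ₁ (ξ₁ U) r v ^ 2)) :=
    (((s₁.meas_m r).add (s₂.meas_m r)).pow_const 2 |>.mul (Finset.measurable_sum _ fun v _ =>
      (tk1_pathG_meas s₁.meas_ξ r v).pow_const 2)).const_mul lam
  have hXm : Measurable (fun U => if U ∈ Good z₀ then 0 else lam * ((m₁ U r + m₂ U r) ^ 2 *
      ∑ v ∈ R, pathG G θ₁ (ξ₁ U) r v ^ 2)) :=
    Measurable.ite (hGm z₀) measurable_const hQm
  have hle : ∀ U, Real.exp (lam * ((m₁ U r + m₂ U r) ^ 2 * ∑ v ∈ R, pathG G θ₁ (ξ₁ U) r v ^ 2)) ≤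
      Real.exp (lam * ((m₁ U r + m₂ U r) ^ 2 * (3 * B / Real.sqrt t))) +
      Real.exp (if U ∈ Good z₀ then 0 else lam * ((m₁ U r + m₂ U r) ^ 2 *
        ∑ v ∈ R, pathG G θ₁ (ξ₁ U) r v ^ 2)) := by
    intro U
    by_cases hU : U ∈ Good z₀
    · rw [if_pos hU]
      have h1 := tk1_T_good hT hd hreg hT1 h0₁.le h1₁ (s₁.abs_ξ U) r R s₁.ht s₁.htT
        (W := (1 + (z₀ : ℝ)) ^ sig d (rate d T t))
        (Real.one_le_rpow (by
          have : (0 : ℝ) ≤ z₀ := Nat.cast_nonneg z₀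
          linarith) hσ0) hU
      rw [← hB] at h1
      have h2 : ∑ v ∈ R, pathG G θ₁ (ξ₁ U) r v ^ 2 ≤ 3 * B / Real.sqrt t := by
        refine h1.trans ?_
        apply div_le_div_of_nonneg_right _ hst.le
        nlinarith
      have h3 := Real.exp_le_exp.2 (mul_le_mul_of_nonneg_left
        (mul_le_mul_of_nonneg_left h2 (sq_nonneg (m₁ U r + m₂ U r))) hlam0.le)
      have h4 := Real.exp_pos (0 : ℝ)
      linarith
    · rw [if_neg hU]
      have h4 := Real.exp_pos (lam * ((m₁ U r + m₂ U r) ^ 2 * (3 * B / Real.sqrt t)))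
      linarith
  calc _ ≤ ∫⁻ U, (ENNReal.ofReal (Real.exp (lam * ((m₁ U r + m₂ U r) ^ 2 *
            (3 * B / Real.sqrt t)))) +
          ENNReal.ofReal (Real.exp (if U ∈ Good z₀ then 0 else lam * ((m₁ U r + m₂ U r) ^ 2 *
            ∑ v ∈ R, pathG G θ₁ (ξ₁ U) r v ^ 2)))) ∂iidUniform V := by
        refine lintegral_mono fun U => ?_
        rw [← ENNReal.ofReal_add (Real.exp_pos _).le (Real.exp_pos _).le]
        exact ENNReal.ofReal_le_ofReal (hle U)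
    _ ≤ ENNReal.ofReal (4 * Ce d T) + ENNReal.ofReal (30 * (2 * d)) := by
        have hXm' : Measurable (fun U => ENNReal.ofReal (Real.exp (if U ∈ Good z₀ then 0 else
            lam * ((m₁ U r + m₂ U r) ^ 2 * ∑ v ∈ R, pathG G θ₁ (ξ₁ U) r v ^ 2)))) :=
          (Real.measurable_exp.comp hXm).ennreal_ofReal
        rw [lintegral_add_right _ hXm']
        exact add_le_add hmain hoff
    _ = ENNReal.ofReal (4 * Ce d T + 60 * d) := by
        rw [← ENNReal.ofReal_add (by positivity) (by positivity)]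
        congr 1
        ring

/-! Terms A and epsilon. -/


/-- F8. Exponential moment of `(m₁ + m₂)² T`, `T = ∑_{v ∈ R} pathG²`. On the good event with
`z ≤ exp(1/√t)`, `T ≤ C/√t` and `m_i² ≤ C (ξ² + ξ'²)` (`Sys.bethe`, `abs_bm_le_add`); off it, use the good events
for larger `z` (`(1+z)^(sig) / rate ≤ C (1+z)^(1/4)`) -/
theorem termA_exp (hT : G.IsTree) (hd : 3 ≤ d) (hreg : G.IsRegularOfDegree d) (hT1 : 1 ≤ T) :
    ∃ lam CA : ℝ, 0 < lam ∧ 1 ≤ CA ∧ ∀ {θ₁ θ₂ t : ℝ} {ξ₁ ξ₂ : (V → unitInterval) → V → V → ℝ}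
      {m₁ m₂ : (V → unitInterval) → V → ℝ}, Sys G d T θ₁ t ξ₁ m₁ → Sys G d T θ₂ t ξ₂ m₂ →
      ∀ (r : V) (R : Finset V),
        ∫⁻ U, ENNReal.ofReal (Real.exp (lam * ((m₁ U r + m₂ U r) ^ 2 *
          ∑ v ∈ R, pathG G θ₁ (ξ₁ U) r v ^ 2))) ∂iidUniform V ≤ ENNReal.ofReal CA := by
  have hd' : (3 : ℝ) ≤ d := by exact_mod_cast hd
  have hc1 := c1_pos hd hT1
  have hC0 : 0 < C0 d T := Real.exp_pos _
  have hC2 : 0 < C2 d (C0 d T) := by
    unfold C2
    positivity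
  have hC3 : 0 < C3 d T := by
    unfold C3
    positivity
  have hk : 0 < kap0 d T := by
    unfold kap0
    positivity
  have hCe0 : 0 ≤ Ce d T := by
    unfold Ce
    have h1 : 0 < 1 + T := by linarith
    have h2 : 0 < 1 + C3 d T := by linarith
    positivity
  have hth1 := tk1_thc_lt_one hd
  have hD0 : 0 < (1 - thc d) ^ 2 := by
    have : 0 < 1 - thc d := by linarith
    positivity
  set B : ℝ := Real.sqrt T + 8 * d * C2 d (C0 d T) / c1 d T with hB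
  have hB0 : 0 < B := by
    have := Real.sqrt_nonneg T
    have h3 : 0 < 8 * (d : ℝ) * C2 d (C0 d T) / c1 d T := by positivity
    rw [hB]
    linarith
  refine ⟨min (1 / (32 * B)) (kap0 d T * (1 - thc d) ^ 2 / (48 * B)), 4 * Ce d T + 60 * d + 1,
    lt_min (by positivity) (by positivity), by linarith, ?_⟩
  intro θ₁ θ₂ t ξ₁ ξ₂ m₁ m₂ s₁ s₂ r R
  refine (tk1_core hT hd hreg hT1 hB hB0 (lt_min (by positivity) (by positivity)) ?_ ?_ s₁ s₂ r R).trans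
    (ENNReal.ofReal_le_ofReal (by linarith))
  · calc _ ≤ 1 / (32 * B) * (32 * B) :=
        mul_le_mul_of_nonneg_right (min_le_left _ _) (by positivity)
      _ = 1 := by field_simp
  · calc _ ≤ kap0 d T * (1 - thc d) ^ 2 / (48 * B) * (48 * B) :=
        mul_le_mul_of_nonneg_right (min_le_right _ _) (by positivity)
      _ = kap0 d T * (1 - thc d) ^ 2 := by field_simp

/-- F9. The term with the powers of `θ`: the sum over spheres of the first moments (`Sys.mom`,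
`sum_pathG_sq_sph`), `1 - (θ₂/θ₁)^n ≤ n η / θ₁`, `sum_sq_mul_exp_le`. -/
theorem termEps (hT : G.IsTree) (hd : 3 ≤ d) (hreg : G.IsRegularOfDegree d) (hT1 : 1 ≤ T)
    (s₁ : Sys G d T θ₁ t ξ₁ m₁) (hθ₂ : 0 ≤ θ₂) (hθ : θ₂ ≤ θ₁) (r : V) (N : ℕ) :
    ∑ n ∈ range (N + 1), ∑ v ∈ sph G r n, ∫ U,
        (1 - (θ₂ / θ₁) ^ n) ^ 2 * pathG G θ₁ (ξ₁ U) r v ^ 2 ∂iidUniform V ≤
      1000 * (d : ℝ) ^ 3 * C0 d T * (θ₁ - θ₂) ^ 2 / rate d T t ^ 3 := by
  have hd' : (3 : ℝ) ≤ d := by exact_mod_cast hd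
  have hd0 : (0 : ℝ) < d := by linarith
  have hth := tk1_thc_pos hd
  have h0 : 0 < θ₁ := lt_of_lt_of_le (half_pos hth) s₁.lo
  have h1 : θ₁ < 1 := s₁.hi.trans (tk1_thc_lt_one hd)
  have ht := s₁.ht
  have ha := tk1_rate_pos hd hT1 ht
  have ha1 := tk1_rate_le hd hT1 s₁.htT
  set a := rate d T t with ha_def
  set η := θ₁ - θ₂ with hη
  have hC0 : 0 < C0 d T := Real.exp_pos _
  have hI : ∀ x v, Integrable (fun U => pathG G θ₁ (ξ₁ U) x v ^ 2) (iidUniform V) := by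
    intro x v
    refine Integrable.of_bound ((tk1_pathG_meas s₁.meas_ξ x v).pow_const 2).aestronglyMeasurable 1
      (Filter.Eventually.of_forall fun U => ?_)
    have h2 := tk1_pathG_mem (G := G) h0.le h1 (s₁.abs_ξ U) x v
    rw [Real.norm_eq_abs, abs_of_nonneg (sq_nonneg _)]
    nlinarith [h2.1, h2.2]
  have hIs : ∀ k c, G.Adj c r → Integrable (fun U => shell G θ₁ (ξ₁ U) k c r) (iidUniform V) := by
    intro k c hc
    have e : (fun U => shell G θ₁ (ξ₁ U) k c r) =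
        fun U => ∑ v ∈ bsph G c r k, pathG G θ₁ (ξ₁ U) c v ^ 2 := by
      funext U
      exact (sum_pathG_sq_bsph hT hc θ₁ (ξ₁ U) k).symm
    rw [e]
    exact integrable_finsetSum _ fun v _ => hI c v
  have hcard : ((G.neighborFinset r).card : ℝ) = d := by
    rw [SimpleGraph.card_neighborFinset_eq_degree, hreg r]
  have key : ∀ k : ℕ, ∑ v ∈ sph G r (k + 1), ∫ U, pathG G θ₁ (ξ₁ U) r v ^ 2 ∂iidUniform V ≤
      θ₁ ^ 2 * (d * (C0 d T * Real.exp (-(2 * a * k)))) := by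
    intro k
    rw [← integral_finsetSum _ fun v _ => hI r v]
    have h3 : ∫ U, ∑ v ∈ sph G r (k + 1), pathG G θ₁ (ξ₁ U) r v ^ 2 ∂iidUniform V ≤
        ∫ U, ∑ c ∈ G.neighborFinset r, θ₁ ^ 2 * shell G θ₁ (ξ₁ U) k c r ∂iidUniform V := by
      refine integral_mono (integrable_finsetSum _ fun v _ => hI r v)
        (integrable_finsetSum _ fun c hc => (hIs k c (by simpa [G.adj_comm] using hc)).const_mul _)
        fun U => ?_
      simp only
      rw [sum_pathG_sq_sph hT θ₁ (ξ₁ U) r k]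
      refine Finset.sum_le_sum fun c _ => ?_
      refine mul_le_mul_of_nonneg_right ?_ (tk1_shell_nonneg (G := G) θ₁ (ξ₁ U) k c r)
      have h4 := gm_nonneg h0.le h1 (s₁.abs_ξ U c r)
      have h5 := gm_le_one h0.le h1 (s₁.abs_ξ U c r)
      rw [mul_pow]
      have h6 : gm θ₁ (ξ₁ U c r) ^ 2 ≤ 1 := by nlinarith
      have h7 : 0 ≤ θ₁ ^ 2 := sq_nonneg _
      nlinarith
    refine h3.trans ?_
    rw [integral_finsetSum _ fun c hc =>
      (hIs k c (by simpa [G.adj_comm] using hc)).const_mul _]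
    simp_rw [integral_const_mul]
    rw [← Finset.mul_sum]
    refine mul_le_mul_of_nonneg_left ?_ (sq_nonneg _)
    calc ∑ c ∈ G.neighborFinset r, ∫ U, shell G θ₁ (ξ₁ U) k c r ∂iidUniform V
        ≤ ∑ c ∈ G.neighborFinset r, (C0 d T * Real.exp (-(2 * a * k))) := by
          refine Finset.sum_le_sum fun c hc => ?_
          exact s₁.mom k c r (by simpa [G.adj_comm] using hc)
      _ = d * (C0 d T * Real.exp (-(2 * a * k))) := by
          rw [Finset.sum_const, nsmul_eq_mul, hcard]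
  have hx0 : 0 ≤ θ₂ / θ₁ := div_nonneg hθ₂ h0.le
  have hx1 : θ₂ / θ₁ ≤ 1 := (div_le_one h0).2 hθ
  have hsucc : ∀ k ∈ Finset.range N, ∑ v ∈ sph G r (k + 1), ∫ U,
      (1 - (θ₂ / θ₁) ^ (k + 1)) ^ 2 * pathG G θ₁ (ξ₁ U) r v ^ 2 ∂iidUniform V ≤
      d * C0 d T * η ^ 2 * ((k + 1 : ℝ) ^ 2 * Real.exp (-(2 * a * k))) := by
    intro k _
    simp_rw [integral_const_mul]
    rw [← Finset.mul_sum]
    have hb := one_add_mul_le_pow (a := θ₂ / θ₁ - 1) (by linarith) (k + 1)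
    have he : 1 + (θ₂ / θ₁ - 1) = θ₂ / θ₁ := by ring
    rw [he] at hb
    have hp1 : (θ₂ / θ₁) ^ (k + 1) ≤ 1 := pow_le_one₀ hx0 hx1
    have hs0 : 0 ≤ 1 - (θ₂ / θ₁) ^ (k + 1) := by linarith
    have hs1 : 1 - (θ₂ / θ₁) ^ (k + 1) ≤ (k + 1 : ℝ) * (η / θ₁) := by
      have e1 : η / θ₁ = 1 - θ₂ / θ₁ := by
        rw [hη]
        field_simp
      rw [e1]
      push_cast at hb
      nlinarith
    have hs2 : (1 - (θ₂ / θ₁) ^ (k + 1)) ^ 2 ≤ ((k + 1 : ℝ) * (η / θ₁)) ^ 2 :=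
      pow_le_pow_left₀ hs0 hs1 2
    have hk0 : 0 ≤ θ₁ ^ 2 * (d * (C0 d T * Real.exp (-(2 * a * k)))) := by positivity
    calc (1 - (θ₂ / θ₁) ^ (k + 1)) ^ 2 *
          ∑ v ∈ sph G r (k + 1), ∫ U, pathG G θ₁ (ξ₁ U) r v ^ 2 ∂iidUniform V
        ≤ ((k + 1 : ℝ) * (η / θ₁)) ^ 2 * (θ₁ ^ 2 * (d * (C0 d T * Real.exp (-(2 * a * k))))) :=
          mul_le_mul hs2 (key k) (Finset.sum_nonneg fun v _ =>
            integral_nonneg fun U => sq_nonneg _) (sq_nonneg _)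
      _ = d * C0 d T * η ^ 2 * ((k + 1 : ℝ) ^ 2 * Real.exp (-(2 * a * k))) := by
          field_simp
  rw [Finset.sum_range_succ']
  have hzero : ∑ v ∈ sph G r 0, ∫ U, (1 - (θ₂ / θ₁) ^ 0) ^ 2 * pathG G θ₁ (ξ₁ U) r v ^ 2
      ∂iidUniform V = 0 := by
    simp
  rw [hzero, add_zero]
  have hsum := sum_sq_mul_exp_le (a := 2 * a) (by positivity) (by linarith) N
  calc _ ≤ ∑ k ∈ Finset.range N, (d * C0 d T * η ^ 2 * ((k + 1 : ℝ) ^ 2 *
        Real.exp (-(2 * a * k)))) := Finset.sum_le_sum hsucc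
    _ = d * C0 d T * η ^ 2 * ∑ k ∈ Finset.range N, (k + 1 : ℝ) ^ 2 *
        Real.exp (-(2 * a * k)) := by rw [Finset.mul_sum]
    _ ≤ d * C0 d T * η ^ 2 * (64 / (2 * a) ^ 3) :=
        mul_le_mul_of_nonneg_left hsum (by positivity)
    _ = 8 * d * C0 d T * η ^ 2 / a ^ 3 := by
        field_simp
        ring
    _ ≤ 1000 * (d : ℝ) ^ 3 * C0 d T * η ^ 2 / a ^ 3 := by
        apply div_le_div_of_nonneg_right _ (by positivity)
        have h8 : 8 * (d : ℝ) ≤ 1000 * (d : ℝ) ^ 3 := by nlinarith [sq_nonneg ((d : ℝ) - 1)]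
        exact mul_le_mul_of_nonneg_right (mul_le_mul_of_nonneg_right h8 hC0.le) (sq_nonneg _)

end Vale.Agent.Lib.P161E
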