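import Vale.Agent.Lib.P161E.TwoKey1

/-! Job F10: the static two system estimate. -/

open MeasureTheory Finset
open scoped Classical ENNReal

set_option linter.unusedSectionVars false
set_option linter.unusedVariables false

noncomputable section

namespace Vale.Agent.Lib.P161E

open Vale.Agent.Lib.P161

variable {V : Type*} {G : SimpleGraph V} [G.LocallyFinite] {d : ℕ} {T θ₁ θ₂ t : ℝ}
  {ξ₁ ξ₂ : (V → unitInterval) → V → V → ℝ} {m₁ m₂ : (V → unitInterval) → V → ℝ}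

private lemma key_thc_pos (hd : 3 ≤ d) : 0 < thc d := by
  unfold thc
  have h2 : (2 : ℝ) ≤ (d : ℝ) - 1 := by
    have : (3 : ℝ) ≤ d := by exact_mod_cast hd
    linarith
  have h3 : 0 < Real.sqrt ((d : ℝ) - 1) := Real.sqrt_pos.2 (by linarith)
  positivity

private lemma key_thc_le_one (hd : 3 ≤ d) : thc d ≤ 1 := by
  unfold thc
  have h2 : (2 : ℝ) ≤ (d : ℝ) - 1 := by
    have : (3 : ℝ) ≤ d := by exact_mod_cast hd
    linarith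
  have h3 : 1 ≤ Real.sqrt ((d : ℝ) - 1) := by
    rw [Real.one_le_sqrt]; linarith
  rw [div_le_one (by linarith)]
  exact h3

private lemma key_theta {θ : ℝ} {ξ : (V → unitInterval) → V → V → ℝ} {m : (V → unitInterval) → V → ℝ}
    (hd : 3 ≤ d) (s : Sys G d T θ t ξ m) : 0 < θ ∧ θ < 1 := by
  have h1 := key_thc_pos hd
  have h2 := key_thc_le_one hd
  have h3 := s.lo
  have h4 := s.hi
  constructor <;> linarith

private lemma key_gm_bd {θ x : ℝ} (h0 : 0 < θ) (h1 : θ < 1) (hx : |x| ≤ 1) : |gm θ x| ≤ 1 := by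
  have hx2 : x ^ 2 ≤ 1 := (sq_le_one_iff_abs_le_one x).2 hx
  have hθ2 : θ ^ 2 < 1 := by nlinarith
  have hx0 : 0 ≤ x ^ 2 := sq_nonneg x
  have hθ0 : 0 ≤ θ ^ 2 := sq_nonneg θ
  have hden : 0 < 1 - θ ^ 2 * x ^ 2 := by nlinarith
  unfold gm
  rw [abs_of_nonneg (div_nonneg (by linarith) hden.le), div_le_one hden]
  nlinarith

private lemma key_abs_prodG {θ : ℝ} {ξ : V → V → ℝ} (h0 : 0 < θ) (h1 : θ < 1)
    (hξ : ∀ x y, |ξ x y| ≤ 1) (r v : V) : |prodG G θ ξ r v| ≤ 1 := by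
  unfold prodG
  rw [Finset.abs_prod]
  exact Finset.prod_le_one (fun _ _ => abs_nonneg _) (fun _ _ => key_gm_bd h0 h1 (hξ _ _))

private lemma key_abs_pathG {θ : ℝ} {ξ : V → V → ℝ} (h0 : 0 < θ) (h1 : θ < 1)
    (hξ : ∀ x y, |ξ x y| ≤ 1) (r v : V) : |pathG G θ ξ r v| ≤ 1 := by
  unfold pathG
  rw [Finset.abs_prod]
  refine Finset.prod_le_one (fun _ _ => abs_nonneg _) (fun _ _ => ?_)
  rw [abs_mul, abs_of_pos h0]
  calc θ * |gm θ _| ≤ 1 * 1 := mul_le_mul h1.le (key_gm_bd h0 h1 (hξ _ _)) (abs_nonneg _) zero_le_one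
    _ = 1 := one_mul 1

private lemma key_meas_gm {θ : ℝ} {f : (V → unitInterval) → ℝ} (hf : Measurable f) :
    Measurable (fun U => gm θ (f U)) := by
  unfold gm
  exact (measurable_const.sub (hf.pow_const 2)).div
    (measurable_const.sub (measurable_const.mul (hf.pow_const 2)))

private lemma key_meas_prodG {θ : ℝ} {ξ : (V → unitInterval) → V → V → ℝ}
    (hξ : ∀ x y, Measurable (fun U => ξ U x y)) (r v : V) :
    Measurable (fun U => prodG G θ (ξ U) r v) := by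
  unfold prodG
  exact Finset.measurable_prod _ fun _ _ => key_meas_gm (hξ _ _)

private lemma key_meas_pathG {θ : ℝ} {ξ : (V → unitInterval) → V → V → ℝ}
    (hξ : ∀ x y, Measurable (fun U => ξ U x y)) (r v : V) :
    Measurable (fun U => pathG G θ (ξ U) r v) := by
  unfold pathG
  exact Finset.measurable_prod _ fun _ _ => measurable_const.mul (key_meas_gm (hξ _ _))

private lemma key_int {f : (V → unitInterval) → ℝ} (hm : Measurable f) {C : ℝ} (hb : ∀ U, |f U| ≤ C) :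
    Integrable f (iidUniform V) :=
  Integrable.of_bound hm.aestronglyMeasurable C (Filter.Eventually.of_forall fun U => by simpa using hb U)

private lemma key_int_sq {f : (V → unitInterval) → ℝ} (hm : Measurable f) {C : ℝ} (hb : ∀ U, |f U| ≤ C) :
    Integrable (fun U => f U ^ 2) (iidUniform V) := by
  refine key_int (hm.pow_const 2) (C := C ^ 2) fun U => ?_
  rw [abs_pow]
  exact pow_le_pow_left₀ (abs_nonneg _) (hb U) 2

private lemma key_arith {cA cE cN cM cF a b ψ Eh η2 A E Hn Hf : ℝ} (hcA : 0 ≤ cA) (hcE : 0 ≤ cE)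
    (hcN : 0 ≤ cN) (hcM : 0 ≤ cM) (hcF : 0 ≤ cF) (ha0 : 0 ≤ a) (hb0 : 0 ≤ b) (hψ : 0 ≤ ψ) (hEh : 0 ≤ Eh)
    (hη : 0 ≤ η2) (hab : a ≤ 1 + b)
    (hA : A ≤ cA * ψ) (hE : E ≤ cE * b * η2) (hHn : Hn ≤ cN * b * Eh + cM * a * (ψ + η2))
    (hHf : Hf ≤ cF * (ψ + η2)) :
    3 * (A + E + (Hn + Hf)) ≤
      (3 * (cA + cE + cN + cM + cF) + 1) * ((a + 1) * ψ + (1 + b) * (Eh + η2)) := by
  set X := (a + 1) * ψ + (1 + b) * (Eh + η2) with hX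
  have h1 : ψ ≤ X := by rw [hX]; nlinarith [mul_nonneg ha0 hψ, mul_nonneg hb0 hEh, mul_nonneg hb0 hη]
  have h2 : b * η2 ≤ X := by rw [hX]; nlinarith [mul_nonneg ha0 hψ, mul_nonneg hb0 hEh, mul_nonneg hb0 hη]
  have h3 : b * Eh ≤ X := by rw [hX]; nlinarith [mul_nonneg ha0 hψ, mul_nonneg hb0 hEh, mul_nonneg hb0 hη]
  have h4 : a * (ψ + η2) ≤ X := by
    rw [hX]
    nlinarith [mul_nonneg ha0 hψ, mul_nonneg hb0 hEh, mul_nonneg hb0 hη,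
      mul_le_mul_of_nonneg_right hab hη]
  have h5 : ψ + η2 ≤ X := by rw [hX]; nlinarith [mul_nonneg ha0 hψ, mul_nonneg hb0 hEh, mul_nonneg hb0 hη]
  have hX0 : 0 ≤ X := le_trans hψ h1
  have e1 : cA * ψ ≤ cA * X := mul_le_mul_of_nonneg_left h1 hcA
  have e2 : cE * b * η2 ≤ cE * X := by
    rw [mul_assoc]; exact mul_le_mul_of_nonneg_left h2 hcE
  have e3 : cN * b * Eh ≤ cN * X := by
    rw [mul_assoc]; exact mul_le_mul_of_nonneg_left h3 hcN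
  have e4 : cM * a * (ψ + η2) ≤ cM * X := by
    rw [mul_assoc]; exact mul_le_mul_of_nonneg_left h4 hcM
  have e5 : cF * (ψ + η2) ≤ cF * X := mul_le_mul_of_nonneg_left h5 hcF
  nlinarith

private lemma key_rpow_le {t : ℝ} (ht : 0 < t) :
    t ^ (-(31 / 32) : ℝ) ≤ 1 + t ^ (-(3 / 2) : ℝ) := by
  have hb : 0 ≤ t ^ (-(3 / 2) : ℝ) := Real.rpow_nonneg ht.le _
  rcases le_total t 1 with h | h
  · have := Real.rpow_le_rpow_of_exponent_ge ht h (show (-(3 / 2) : ℝ) ≤ -(31 / 32) by norm_num)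
    linarith
  · have : t ^ (-(31 / 32) : ℝ) ≤ 1 := Real.rpow_le_one_of_one_le_of_nonpos h (by norm_num)
    linarith

private lemma key_mem_biUnion (hT : G.IsTree) (r : V) (N : ℕ) (v : V) :
    v ∈ (range (N + 1)).biUnion (sph G r) ↔ G.dist r v ≤ N := by
  rw [Finset.mem_biUnion]
  constructor
  · rintro ⟨n, hn, hv⟩
    rw [mem_sph hT] at hv
    rw [Finset.mem_range] at hn
    omega
  · intro h
    exact ⟨G.dist r v, Finset.mem_range.2 (by omega), (mem_sph hT).2 rfl⟩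

private lemma key_sum_biUnion (hT : G.IsTree) (r : V) (N : ℕ) (f : V → ℝ) :
    ∑ v ∈ (range (N + 1)).biUnion (sph G r), f v = ∑ n ∈ range (N + 1), ∑ v ∈ sph G r n, f v := by
  refine Finset.sum_biUnion fun a _ b _ hab => ?_
  rw [Function.onFun, Finset.disjoint_left]
  intro v hva hvb
  rw [mem_sph hT] at hva hvb
  exact hab (hva.symm.trans hvb)

/-- Reduction to the three sums, using the pointwise decomposition. -/
private theorem key_reduce (hT : G.IsTree) (hd : 3 ≤ d) (s₁ : Sys G d T θ₁ t ξ₁ m₁)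
    (s₂ : Sys G d T θ₂ t ξ₂ m₂) (r : V) (R : Finset V) (N : ℕ) (hN : ∀ v ∈ R, G.dist r v ≤ N) :
    ∫ U, ∑ v ∈ R, (Cf G θ₁ (m₁ U) (ξ₁ U) r v - Cf G θ₂ (m₂ U) (ξ₂ U) r v) ^ 2 ∂iidUniform V ≤
      3 * (∫ U, ((m₁ U r + m₂ U r) ^ 2 * ∑ v ∈ (range (N + 1)).biUnion (sph G r),
            pathG G θ₁ (ξ₁ U) r v ^ 2) * (m₁ U r - m₂ U r) ^ 2 ∂iidUniform V +
        ∑ n ∈ range (N + 1), ∑ v ∈ sph G r n, ∫ U,
          (1 - (θ₂ / θ₁) ^ n) ^ 2 * pathG G θ₁ (ξ₁ U) r v ^ 2 ∂iidUniform V +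
        ∑ n ∈ range (N + 1), ∑ v ∈ sph G r n, ∫ U,
          ((1 - m₂ U r ^ 2) * θ₂ ^ n * (prodG G θ₁ (ξ₁ U) r v - prodG G θ₂ (ξ₂ U) r v)) ^ 2
            ∂iidUniform V) := by
  obtain ⟨h10, h11⟩ := key_theta hd s₁
  obtain ⟨h20, h21⟩ := key_theta hd s₂
  set B := (range (N + 1)).biUnion (sph G r) with hB
  have hP1 : ∀ U v, |pathG G θ₁ (ξ₁ U) r v| ≤ 1 := fun U v =>
    key_abs_pathG h10 h11 (fun x y => s₁.abs_ξ U x y) r v
  have hp1 : ∀ U v, |prodG G θ₁ (ξ₁ U) r v| ≤ 1 := fun U v =>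
    key_abs_prodG h10 h11 (fun x y => s₁.abs_ξ U x y) r v
  have hp2 : ∀ U v, |prodG G θ₂ (ξ₂ U) r v| ≤ 1 := fun U v =>
    key_abs_prodG h20 h21 (fun x y => s₂.abs_ξ U x y) r v
  have hP2 : ∀ U v, |pathG G θ₂ (ξ₂ U) r v| ≤ 1 := fun U v =>
    key_abs_pathG h20 h21 (fun x y => s₂.abs_ξ U x y) r v
  have hmP1 : ∀ v, Measurable (fun U => pathG G θ₁ (ξ₁ U) r v) := fun v =>
    key_meas_pathG s₁.meas_ξ r v
  have hmP2 : ∀ v, Measurable (fun U => pathG G θ₂ (ξ₂ U) r v) := fun v =>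
    key_meas_pathG s₂.meas_ξ r v
  have hmp1 : ∀ v, Measurable (fun U => prodG G θ₁ (ξ₁ U) r v) := fun v =>
    key_meas_prodG s₁.meas_ξ r v
  have hmp2 : ∀ v, Measurable (fun U => prodG G θ₂ (ξ₂ U) r v) := fun v =>
    key_meas_prodG s₂.meas_ξ r v
  have hm1 := s₁.meas_m r
  have hm2 := s₂.meas_m r
  have habs1 : ∀ U, |m₁ U r| ≤ 1 := fun U => s₁.abs_m U r
  have habs2 : ∀ U, |m₂ U r| ≤ 1 := fun U => s₂.abs_m U r
  -- the integrands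
  let a : (V → unitInterval) → ℝ := fun U =>
    ((m₁ U r + m₂ U r) ^ 2 * ∑ v ∈ B, pathG G θ₁ (ξ₁ U) r v ^ 2) * (m₁ U r - m₂ U r) ^ 2
  let e : ℕ → V → (V → unitInterval) → ℝ := fun n v U =>
    (1 - (θ₂ / θ₁) ^ n) ^ 2 * pathG G θ₁ (ξ₁ U) r v ^ 2
  let h : ℕ → V → (V → unitInterval) → ℝ := fun n v U =>
    ((1 - m₂ U r ^ 2) * θ₂ ^ n * (prodG G θ₁ (ξ₁ U) r v - prodG G θ₂ (ξ₂ U) r v)) ^ 2
  have hea : ∀ n v, Integrable (e n v) (iidUniform V) := fun n v =>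
    (key_int_sq (hmP1 v) (fun U => hP1 U v)).const_mul _
  have hha : ∀ n v, Integrable (h n v) (iidUniform V) := by
    intro n v
    refine key_int_sq (((measurable_const.sub (hm2.pow_const 2)).mul measurable_const).mul
      ((hmp1 v).sub (hmp2 v))) (C := 1 * 1 * (1 + 1)) fun U => ?_
    rw [abs_mul, abs_mul]
    have h1 : |1 - m₂ U r ^ 2| ≤ 1 := by
      have : m₂ U r ^ 2 ≤ 1 := (sq_le_one_iff_abs_le_one _).2 (habs2 U)
      rw [abs_of_nonneg (by linarith)]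
      nlinarith [sq_nonneg (m₂ U r)]
    have h2 : |θ₂ ^ n| ≤ 1 := by
      rw [abs_pow, abs_of_pos h20]
      exact pow_le_one₀ h20.le h21.le
    have h3 : |prodG G θ₁ (ξ₁ U) r v - prodG G θ₂ (ξ₂ U) r v| ≤ 1 + 1 :=
      (abs_sub _ _).trans (add_le_add (hp1 U v) (hp2 U v))
    exact mul_le_mul (mul_le_mul h1 h2 (abs_nonneg _) zero_le_one) h3 (abs_nonneg _) (by norm_num)
  have haa : Integrable a (iidUniform V) := by
    refine key_int (C := (2 ^ 2 * ∑ v ∈ B, (1 : ℝ)) * 2 ^ 2) ?_ ?_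
    · exact (((hm1.add hm2).pow_const 2).mul
        (Finset.measurable_sum _ fun v _ => (hmP1 v).pow_const 2)).mul ((hm1.sub hm2).pow_const 2)
    · intro U
      have hsum : ∀ x y : ℝ, |x| ≤ 1 → |y| ≤ 1 → (x + y) ^ 2 ≤ 2 ^ 2 ∧ (x - y) ^ 2 ≤ 2 ^ 2 := by
        intro x y hx hy
        rw [abs_le] at hx hy
        constructor <;> nlinarith
      obtain ⟨h1, h2⟩ := hsum _ _ (habs1 U) (habs2 U)
      have h3 : ∑ v ∈ B, pathG G θ₁ (ξ₁ U) r v ^ 2 ≤ ∑ v ∈ B, (1 : ℝ) :=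
        Finset.sum_le_sum fun v _ => (sq_le_one_iff_abs_le_one _).2 (hP1 U v)
      have h4 : 0 ≤ ∑ v ∈ B, pathG G θ₁ (ξ₁ U) r v ^ 2 := Finset.sum_nonneg fun _ _ => sq_nonneg _
      show |((m₁ U r + m₂ U r) ^ 2 * ∑ v ∈ B, pathG G θ₁ (ξ₁ U) r v ^ 2) * (m₁ U r - m₂ U r) ^ 2| ≤ _
      rw [abs_of_nonneg (by positivity)]
      exact mul_le_mul (mul_le_mul h1 h3 h4 (by norm_num)) h2 (sq_nonneg _) (by positivity)
  -- the pointwise bound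
  have hpt : ∀ U, ∑ v ∈ R, (Cf G θ₁ (m₁ U) (ξ₁ U) r v - Cf G θ₂ (m₂ U) (ξ₂ U) r v) ^ 2 ≤
      3 * (a U + ∑ n ∈ range (N + 1), ∑ v ∈ sph G r n, e n v U +
        ∑ n ∈ range (N + 1), ∑ v ∈ sph G r n, h n v U) := by
    intro U
    have h1 : ∑ v ∈ R, (Cf G θ₁ (m₁ U) (ξ₁ U) r v - Cf G θ₂ (m₂ U) (ξ₂ U) r v) ^ 2 ≤
        ∑ v ∈ B, (Cf G θ₁ (m₁ U) (ξ₁ U) r v - Cf G θ₂ (m₂ U) (ξ₂ U) r v) ^ 2 :=
      Finset.sum_le_sum_of_subset_of_nonneg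
        (fun v hv => (key_mem_biUnion hT r N v).2 (hN v hv)) (fun _ _ _ => sq_nonneg _)
    refine h1.trans ?_
    rw [hB, key_sum_biUnion hT]
    have h2 : ∀ n ∈ range (N + 1), ∀ v ∈ sph G r n,
        (Cf G θ₁ (m₁ U) (ξ₁ U) r v - Cf G θ₂ (m₂ U) (ξ₂ U) r v) ^ 2 ≤
          3 * ((m₁ U r - m₂ U r) ^ 2 * (m₁ U r + m₂ U r) ^ 2 * pathG G θ₁ (ξ₁ U) r v ^ 2 +
            e n v U + h n v U) := by
      intro n _ v hv
      have hd := (mem_sph hT).1 hv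
      have := Cf_sub_sq (G := G) θ₁ θ₂ h10 h20.le (m₁ U) (m₂ U) (ξ₁ U) (ξ₂ U) r v (habs2 U)
      rw [hd] at this
      exact this
    have h3 : ∑ n ∈ range (N + 1), ∑ v ∈ sph G r n,
        (Cf G θ₁ (m₁ U) (ξ₁ U) r v - Cf G θ₂ (m₂ U) (ξ₂ U) r v) ^ 2 ≤
        ∑ n ∈ range (N + 1), ∑ v ∈ sph G r n,
          3 * ((m₁ U r - m₂ U r) ^ 2 * (m₁ U r + m₂ U r) ^ 2 * pathG G θ₁ (ξ₁ U) r v ^ 2 +
            e n v U + h n v U) :=
      Finset.sum_le_sum fun n hn => Finset.sum_le_sum fun v hv => h2 n hn v hv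
    refine h3.trans (le_of_eq ?_)
    have h4 : a U = ∑ n ∈ range (N + 1), ∑ v ∈ sph G r n,
        (m₁ U r - m₂ U r) ^ 2 * (m₁ U r + m₂ U r) ^ 2 * pathG G θ₁ (ξ₁ U) r v ^ 2 := by
      show ((m₁ U r + m₂ U r) ^ 2 * ∑ v ∈ B, pathG G θ₁ (ξ₁ U) r v ^ 2) * (m₁ U r - m₂ U r) ^ 2 = _
      rw [hB, key_sum_biUnion hT, Finset.mul_sum, Finset.sum_mul]
      refine Finset.sum_congr rfl fun n _ => ?_
      rw [Finset.mul_sum, Finset.sum_mul]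
      refine Finset.sum_congr rfl fun v _ => ?_
      ring
    rw [h4, ← Finset.sum_add_distrib, ← Finset.sum_add_distrib, Finset.mul_sum]
    refine Finset.sum_congr rfl fun n _ => ?_
    rw [← Finset.sum_add_distrib, ← Finset.sum_add_distrib, Finset.mul_sum]
  have hint_e : Integrable (fun U => ∑ n ∈ range (N + 1), ∑ v ∈ sph G r n, e n v U) (iidUniform V) :=
    integrable_finsetSum _ fun n _ => integrable_finsetSum _ fun v _ => hea n v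
  have hint_h : Integrable (fun U => ∑ n ∈ range (N + 1), ∑ v ∈ sph G r n, h n v U) (iidUniform V) :=
    integrable_finsetSum _ fun n _ => integrable_finsetSum _ fun v _ => hha n v
  have hint_R : Integrable (fun U => ∑ v ∈ R,
      (Cf G θ₁ (m₁ U) (ξ₁ U) r v - Cf G θ₂ (m₂ U) (ξ₂ U) r v) ^ 2) (iidUniform V) := by
    refine integrable_finsetSum _ fun v _ => ?_
    refine key_int_sq (C := 1 + 1) ?_ fun U => ?_
    · unfold Cf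
      exact ((measurable_const.sub (hm1.pow_const 2)).mul (hmP1 v)).sub
        ((measurable_const.sub (hm2.pow_const 2)).mul (hmP2 v))
    · have hC : ∀ {m p : ℝ}, |m| ≤ 1 → |p| ≤ 1 → |(1 - m ^ 2) * p| ≤ 1 := by
        intro m p hm hp
        rw [abs_mul]
        have hm2 : m ^ 2 ≤ 1 := (sq_le_one_iff_abs_le_one _).2 hm
        have h1 : |1 - m ^ 2| ≤ 1 := by
          rw [abs_of_nonneg (by linarith)]
          nlinarith [sq_nonneg m]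
        calc |1 - m ^ 2| * |p| ≤ 1 * 1 := mul_le_mul h1 hp (abs_nonneg _) zero_le_one
          _ = 1 := one_mul 1
      exact (abs_sub _ _).trans (add_le_add (hC (habs1 U) (hP1 U v)) (hC (habs2 U) (hP2 U v)))
  calc ∫ U, ∑ v ∈ R, (Cf G θ₁ (m₁ U) (ξ₁ U) r v - Cf G θ₂ (m₂ U) (ξ₂ U) r v) ^ 2 ∂iidUniform V
      ≤ ∫ U, 3 * (a U + ∑ n ∈ range (N + 1), ∑ v ∈ sph G r n, e n v U +
        ∑ n ∈ range (N + 1), ∑ v ∈ sph G r n, h n v U) ∂iidUniform V :=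
        integral_mono hint_R (((haa.add hint_e).add hint_h).const_mul 3) hpt
    _ = _ := by
        have h12 : Integrable (fun U => a U + ∑ n ∈ range (N + 1), ∑ v ∈ sph G r n, e n v U)
            (iidUniform V) := haa.add hint_e
        rw [integral_const_mul, integral_add h12 hint_h, integral_add haa hint_e]
        congr 2
        · congr 1
          rw [integral_finsetSum _ fun n _ => integrable_finsetSum _ fun v _ => hea n v]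
          refine Finset.sum_congr rfl fun n _ => ?_
          rw [integral_finsetSum _ fun v _ => hea n v]
        · rw [integral_finsetSum _ fun n _ => integrable_finsetSum _ fun v _ => hha n v]
          refine Finset.sum_congr rfl fun n _ => ?_
          rw [integral_finsetSum _ fun v _ => hha n v]

private lemma key_rate_cube {c t : ℝ} (hc : 0 < c) (ht : 0 < t) :
    1 / (c * Real.sqrt t) ^ 3 = 1 / c ^ 3 * t ^ (-(3 / 2) : ℝ) := by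
  have h1 : Real.sqrt t ^ 3 = t ^ (3 / 2 : ℝ) := by
    rw [Real.sqrt_eq_rpow, ← Real.rpow_natCast, ← Real.rpow_mul ht.le]
    norm_num
  rw [mul_pow, h1, Real.rpow_neg ht.le]
  have h2 : 0 < t ^ (3 / 2 : ℝ) := Real.rpow_pos_of_pos ht _
  field_simp

private lemma key_one_sub_sq_mul {m x : ℝ} (hm : |m| ≤ 1) : ((1 - m ^ 2) * x) ^ 2 ≤ x ^ 2 := by
  have h1 : m ^ 2 ≤ 1 := (sq_le_one_iff_abs_le_one _).2 hm
  have h0 : 0 ≤ m ^ 2 := sq_nonneg m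
  have h2 : (1 - m ^ 2) ^ 2 ≤ 1 := by nlinarith
  rw [mul_pow]
  nlinarith [sq_nonneg x]

private lemma key_int_near (hd : 3 ≤ d) (s₁ : Sys G d T θ₁ t ξ₁ m₁) (s₂ : Sys G d T θ₂ t ξ₂ m₂)
    (r v : V) (c : (V → unitInterval) → ℝ) (hc : Measurable c) (hc1 : ∀ U, |c U| ≤ 1) (n : ℕ) :
    Integrable (fun U => (c U * θ₂ ^ n * (prodG G θ₁ (ξ₁ U) r v - prodG G θ₂ (ξ₂ U) r v)) ^ 2)
      (iidUniform V) := by
  obtain ⟨h10, h11⟩ := key_theta hd s₁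
  obtain ⟨h20, h21⟩ := key_theta hd s₂
  refine key_int_sq ((hc.mul measurable_const).mul
    ((key_meas_prodG s₁.meas_ξ r v).sub (key_meas_prodG s₂.meas_ξ r v))) (C := 1 * 1 * (1 + 1))
    fun U => ?_
  rw [abs_mul, abs_mul]
  have h2 : |θ₂ ^ n| ≤ 1 := by
    rw [abs_pow, abs_of_pos h20]
    exact pow_le_one₀ h20.le h21.le
  have h3 : |prodG G θ₁ (ξ₁ U) r v - prodG G θ₂ (ξ₂ U) r v| ≤ 1 + 1 :=
    (abs_sub _ _).trans (add_le_add (key_abs_prodG h10 h11 (fun x y => s₁.abs_ξ U x y) r v)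
      (key_abs_prodG h20 h21 (fun x y => s₂.abs_ξ U x y) r v))
  exact mul_le_mul (mul_le_mul (hc1 U) h2 (abs_nonneg _) zero_le_one) h3 (abs_nonneg _) (by norm_num)

/-- The near part, below time one. -/
private theorem key_near_small (hT : G.IsTree) (hd : 3 ≤ d) (hreg : G.IsRegularOfDegree d) (hT1 : 1 ≤ T)
    (s₁ : Sys G d T θ₁ t ξ₁ m₁) (s₂ : Sys G d T θ₂ t ξ₂ m₂) (hθ : θ₂ ≤ θ₁) (ht1 : t < 1)
    {Cn : ℝ} (hCn : 0 < Cn)
    (hcoef : Real.sqrt t * (1 / rate d T t ^ 2 + t ^ (1 / 8 : ℝ) / rate d T t ^ 3 +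
      ((Kt d T t : ℝ) + 1) ^ 2 +
      ((Kt d T t : ℝ) + 1) ^ 3 * (Real.sqrt (t ^ (-(1 / 16) : ℝ) * ((Kt d T t : ℝ) * Ce d T *
        Real.exp (-(kap0 d T / (4 * Real.sqrt t))) +
        (Kt d T t : ℝ) * kapSum d * (Ce d T * t / kap0 d T ^ 2) / (t ^ (1 / 8 : ℝ)) ^ 2)) +
        1 / t ^ (-(1 / 16) : ℝ))) ≤ Cn * t ^ (-(31 / 32) : ℝ))
    (r : V) {x₀ y₀ : V} (h₀ : G.Adj x₀ y₀) (hψ : 0 ≤ psi (Dd m₁ m₂ r)) :
    ∑ n ∈ range (Kt d T t + 1), ∑ v ∈ sph G r n, ∫ U,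
        ((1 - m₂ U r ^ 2) * θ₂ ^ n * (prodG G θ₁ (ξ₁ U) r v - prodG G θ₂ (ξ₂ U) r v)) ^ 2
          ∂iidUniform V ≤
      (20000 * (kapSum d + 1) / c1 d T ^ 3) * t ^ (-(3 / 2) : ℝ) *
          (∫ U, dh θ₁ θ₂ ξ₁ ξ₂ x₀ y₀ U ∂iidUniform V) ^ 2 +
        (20000 * (kapSum d + 1) * (|Cv d T| * Cn)) * t ^ (-(31 / 32) : ℝ) *
          (psi (Dd m₁ m₂ r) + (θ₁ - θ₂) ^ 2) := by
  have ht0 := s₁.ht
  have hc1 := c1_pos hd hT1
  have hs : 0 < Real.sqrt t := Real.sqrt_pos.2 ht0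
  have hrate : 0 < rate d T t := by unfold rate; positivity
  have hε0 : 0 < t ^ (1 / 8 : ℝ) := Real.rpow_pos_of_pos ht0 _
  have hε1 : t ^ (1 / 8 : ℝ) ≤ 1 := Real.rpow_le_one ht0.le ht1.le (by norm_num)
  have hM1 : 1 ≤ t ^ (-(1 / 16) : ℝ) :=
    Real.one_le_rpow_of_pos_of_le_one_of_nonpos ht0 ht1.le (by norm_num)
  have hM0 : 0 < t ^ (-(1 / 16) : ℝ) := by linarith
  have hkap : (0 : ℝ) < kapSum d := by unfold kapSum; positivity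
  have hN := near_sum hT hd hreg hT1 s₁ s₂ hθ h₀ r (Kt d T t) hε0 hε1 hM1
  have hmono : ∑ n ∈ range (Kt d T t + 1), ∑ v ∈ sph G r n, ∫ U,
        ((1 - m₂ U r ^ 2) * θ₂ ^ n * (prodG G θ₁ (ξ₁ U) r v - prodG G θ₂ (ξ₂ U) r v)) ^ 2
          ∂iidUniform V ≤
      ∑ n ∈ range (Kt d T t + 1), ∑ v ∈ sph G r n, ∫ U,
        (θ₂ ^ n * (prodG G θ₁ (ξ₁ U) r v - prodG G θ₂ (ξ₂ U) r v)) ^ 2 ∂iidUniform V := by
    refine Finset.sum_le_sum fun n _ => Finset.sum_le_sum fun v _ => ?_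
    have hm2 : ∀ U, |1 - m₂ U r ^ 2| ≤ 1 := by
      intro U
      have h1 : m₂ U r ^ 2 ≤ 1 := (sq_le_one_iff_abs_le_one _).2 (s₂.abs_m U r)
      rw [abs_of_nonneg (by linarith)]
      nlinarith [sq_nonneg (m₂ U r)]
    refine integral_mono (key_int_near hd s₁ s₂ r v _
      (measurable_const.sub ((s₂.meas_m r).pow_const 2)) hm2 n) ?_ fun U => ?_
    · have := key_int_near hd s₁ s₂ r v (fun _ => 1) measurable_const (by simp) n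
      simpa using this
    · show ((1 - m₂ U r ^ 2) * θ₂ ^ n * (prodG G θ₁ (ξ₁ U) r v - prodG G θ₂ (ξ₂ U) r v)) ^ 2 ≤ _
      rw [mul_assoc]
      exact key_one_sub_sq_mul (s₂.abs_m U r)
  refine hmono.trans (hN.trans ?_)
  set coef := 1 / rate d T t ^ 2 + t ^ (1 / 8 : ℝ) / rate d T t ^ 3 + ((Kt d T t : ℝ) + 1) ^ 2 +
      ((Kt d T t : ℝ) + 1) ^ 3 * (Real.sqrt (t ^ (-(1 / 16) : ℝ) * ((Kt d T t : ℝ) * Ce d T *
        Real.exp (-(kap0 d T / (4 * Real.sqrt t))) +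
        (Kt d T t : ℝ) * kapSum d * (Ce d T * t / kap0 d T ^ 2) / (t ^ (1 / 8 : ℝ)) ^ 2)) +
        1 / t ^ (-(1 / 16) : ℝ)) with hcoefd
  have hcoef0 : 0 ≤ coef := by rw [hcoefd]; positivity
  have hL2 := dh_L2 s₁ s₂ hT hd hreg hT1 h₀
  rw [Dd_eq s₁ s₂ hT hreg x₀ r] at hL2
  set ψ := psi (Dd m₁ m₂ r) with hψd
  set η2 := (θ₁ - θ₂) ^ 2 with hη2
  have hη0 : 0 ≤ η2 := sq_nonneg _
  have hL3 : (∫ U, dh θ₁ θ₂ ξ₁ ξ₂ x₀ y₀ U ^ 2 ∂iidUniform V) * coef ≤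
      (|Cv d T| * Cn) * t ^ (-(31 / 32) : ℝ) * (ψ + η2) := by
    have h1 : (∫ U, dh θ₁ θ₂ ξ₁ ξ₂ x₀ y₀ U ^ 2 ∂iidUniform V) ≤ |Cv d T| * Real.sqrt t * (ψ + η2) := by
      refine hL2.trans ?_
      have h2 : Cv d T ≤ |Cv d T| := le_abs_self _
      have h3 : 0 ≤ Real.sqrt t * (ψ + η2) := by positivity
      nlinarith
    calc (∫ U, dh θ₁ θ₂ ξ₁ ξ₂ x₀ y₀ U ^ 2 ∂iidUniform V) * coef
        ≤ (|Cv d T| * Real.sqrt t * (ψ + η2)) * coef := mul_le_mul_of_nonneg_right h1 hcoef0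
      _ = |Cv d T| * (ψ + η2) * (Real.sqrt t * coef) := by ring
      _ ≤ |Cv d T| * (ψ + η2) * (Cn * t ^ (-(31 / 32) : ℝ)) :=
          mul_le_mul_of_nonneg_left hcoef (by positivity)
      _ = _ := by ring
  have hr3 : (∫ U, dh θ₁ θ₂ ξ₁ ξ₂ x₀ y₀ U ∂iidUniform V) ^ 2 / rate d T t ^ 3 =
      1 / c1 d T ^ 3 * t ^ (-(3 / 2) : ℝ) * (∫ U, dh θ₁ θ₂ ξ₁ ξ₂ x₀ y₀ U ∂iidUniform V) ^ 2 := by
    rw [← key_rate_cube hc1 ht0]
    unfold rate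
    ring
  rw [hr3]
  have hk : 0 ≤ 20000 * (kapSum d + 1) := by positivity
  have := mul_le_mul_of_nonneg_left hL3 hk
  calc 20000 * (kapSum d + 1) * (1 / c1 d T ^ 3 * t ^ (-(3 / 2) : ℝ) *
        (∫ U, dh θ₁ θ₂ ξ₁ ξ₂ x₀ y₀ U ∂iidUniform V) ^ 2 +
        (∫ U, dh θ₁ θ₂ ξ₁ ξ₂ x₀ y₀ U ^ 2 ∂iidUniform V) * coef)
      = 20000 * (kapSum d + 1) / c1 d T ^ 3 * t ^ (-(3 / 2) : ℝ) *
        (∫ U, dh θ₁ θ₂ ξ₁ ξ₂ x₀ y₀ U ∂iidUniform V) ^ 2 +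
        20000 * (kapSum d + 1) * ((∫ U, dh θ₁ θ₂ ξ₁ ξ₂ x₀ y₀ U ^ 2 ∂iidUniform V) * coef) := by ring
    _ ≤ _ := by
      have h5 : 20000 * (kapSum d + 1) * ((|Cv d T| * Cn) * t ^ (-(31 / 32) : ℝ) * (ψ + η2)) =
          20000 * (kapSum d + 1) * (|Cv d T| * Cn) * t ^ (-(31 / 32) : ℝ) * (ψ + η2) := by ring
      linarith

/-- The near part is empty when `K = 0`. -/
private theorem key_near_zero (hT : G.IsTree) (r : V) :
    ∑ n ∈ range (0 + 1), ∑ v ∈ sph G r n, ∫ U,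
        ((1 - m₂ U r ^ 2) * θ₂ ^ n * (prodG G θ₁ (ξ₁ U) r v - prodG G θ₂ (ξ₂ U) r v)) ^ 2
          ∂iidUniform V = 0 := by
  simp only [zero_add, Finset.sum_range_one]
  refine Finset.sum_eq_zero fun v hv => ?_
  have hd : G.dist r v = 0 := (mem_sph hT).1 hv
  have : (fun U => ((1 - m₂ U r ^ 2) * θ₂ ^ 0 * (prodG G θ₁ (ξ₁ U) r v - prodG G θ₂ (ξ₂ U) r v)) ^ 2) =
      fun _ => (0 : ℝ) := by
    funext U
    unfold prodG
    rw [hd]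
    simp
  rw [this]
  simp

/-- F10. The static estimate. The sum over `R` is bounded by the sum over a big ball, split at `K`, with
`K = Kt d T t` for `t < 1` and `K = 0` for `t ≥ 1`. -/
theorem key_static (hT : G.IsTree) (hd : 3 ≤ d) (hreg : G.IsRegularOfDegree d) (hT1 : 1 ≤ T) :
    ∃ CK : ℝ, 0 < CK ∧ ∀ {θ₁ θ₂ t : ℝ} {ξ₁ ξ₂ : (V → unitInterval) → V → V → ℝ}
      {m₁ m₂ : (V → unitInterval) → V → ℝ}, Sys G d T θ₁ t ξ₁ m₁ → Sys G d T θ₂ t ξ₂ m₂ → θ₂ ≤ θ₁ →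
      ∀ (r : V) (R : Finset V) {x₀ y₀ : V}, G.Adj x₀ y₀ →
        ∫ U, ∑ v ∈ R, (Cf G θ₁ (m₁ U) (ξ₁ U) r v - Cf G θ₂ (m₂ U) (ξ₂ U) r v) ^ 2 ∂iidUniform V ≤
          CK * ((t ^ (-(31 / 32) : ℝ) + 1) * psi (Dd m₁ m₂ r) + (1 + t ^ (-(3 / 2) : ℝ)) *
            ((∫ U, dh θ₁ θ₂ ξ₁ ξ₂ x₀ y₀ U ∂iidUniform V) ^ 2 + (θ₁ - θ₂) ^ 2)) := by
  obtain ⟨lam, CA, hlam, hCA, hA⟩ := termA_exp hT hd hreg hT1
  obtain ⟨Cn, hCn, hcoef⟩ := near_coef (d := d) (T := T) hd hT1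
  obtain ⟨Cx, hCx, hx0⟩ := x0_bound (d := d) (T := T) hd hT1
  have hc1 := c1_pos hd hT1
  have hd0 : (0 : ℝ) < d := by
    have : 3 ≤ d := hd
    exact_mod_cast (by omega : 0 < d)
  have hkap : (0 : ℝ) < kapSum d := by unfold kapSum; positivity
  have hC0 : 0 < C0 d T := by unfold C0; positivity
  have hlogCA : 0 ≤ Real.log CA := Real.log_nonneg hCA
  have hcA : 0 ≤ 1 / lam * (1 + Real.log CA) := by positivity
  have hcE : 0 ≤ 1000 * (d : ℝ) ^ 3 * C0 d T / c1 d T ^ 3 := by positivity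
  have hcN : 0 ≤ 20000 * (kapSum d + 1) / c1 d T ^ 3 := by positivity
  have hcM : 0 ≤ 20000 * (kapSum d + 1) * (|Cv d T| * Cn) := by positivity
  have hcF : 0 ≤ 1000000 * (d : ℝ) ^ 9 * Cx := by positivity
  refine ⟨3 * (1 / lam * (1 + Real.log CA) + 1000 * (d : ℝ) ^ 3 * C0 d T / c1 d T ^ 3 +
    20000 * (kapSum d + 1) / c1 d T ^ 3 + 20000 * (kapSum d + 1) * (|Cv d T| * Cn) +
    1000000 * (d : ℝ) ^ 9 * Cx) + 1, by positivity, ?_⟩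
  intro θ₁ θ₂ t ξ₁ ξ₂ m₁ m₂ s₁ s₂ hθ r R x₀ y₀ h₀
  obtain ⟨h10, h11⟩ := key_theta hd s₁
  obtain ⟨h20, h21⟩ := key_theta hd s₂
  have ht0 := s₁.ht
  have htT := s₁.htT
  -- the quantity `D`
  have hYm : Measurable (fun U => (m₁ U r - m₂ U r) ^ 2) :=
    ((s₁.meas_m r).sub (s₂.meas_m r)).pow_const 2
  have hY4 : ∀ U, (m₁ U r - m₂ U r) ^ 2 ≤ 4 := by
    intro U
    have h1 := abs_le.1 (s₁.abs_m U r)
    have h2 := abs_le.1 (s₂.abs_m U r)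
    nlinarith [h1.1, h1.2, h2.1, h2.2]
  have hYi : Integrable (fun U => (m₁ U r - m₂ U r) ^ 2) (iidUniform V) :=
    key_int hYm (C := 4) fun U => by rw [abs_of_nonneg (sq_nonneg _)]; exact hY4 U
  have hD0 : 0 ≤ Dd m₁ m₂ r := integral_nonneg fun U => sq_nonneg _
  have hD8 : Dd m₁ m₂ r ≤ 8 := by
    have : Dd m₁ m₂ r ≤ ∫ _U : V → unitInterval, (8 : ℝ) ∂iidUniform V :=
      integral_mono hYi (integrable_const _) fun U => by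
        have := hY4 U
        show (m₁ U r - m₂ U r) ^ 2 ≤ 8
        linarith
    simpa using this
  have hψ : 0 ≤ psi (Dd m₁ m₂ r) := psi_nonneg hD0 hD8
  -- the splitting level
  obtain ⟨K, hKx, hHn⟩ : ∃ K : ℕ, x0 d T t K ≤ Cx ∧
      ∑ n ∈ range (K + 1), ∑ v ∈ sph G r n, ∫ U,
        ((1 - m₂ U r ^ 2) * θ₂ ^ n * (prodG G θ₁ (ξ₁ U) r v - prodG G θ₂ (ξ₂ U) r v)) ^ 2
          ∂iidUniform V ≤
      (20000 * (kapSum d + 1) / c1 d T ^ 3) * t ^ (-(3 / 2) : ℝ) *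
          (∫ U, dh θ₁ θ₂ ξ₁ ξ₂ x₀ y₀ U ∂iidUniform V) ^ 2 +
        (20000 * (kapSum d + 1) * (|Cv d T| * Cn)) * t ^ (-(31 / 32) : ℝ) *
          (psi (Dd m₁ m₂ r) + (θ₁ - θ₂) ^ 2) := by
    rcases lt_or_ge t 1 with ht1 | ht1
    · exact ⟨Kt d T t, (hx0 t ht0 htT).1 ht1, key_near_small hT hd hreg hT1 s₁ s₂ hθ ht1 hCn
        (hcoef t ht0 ht1) r h₀ hψ⟩
    · refine ⟨0, (hx0 t ht0 htT).2 ht1, ?_⟩
      rw [key_near_zero hT r]
      have hb : 0 ≤ t ^ (-(3 / 2) : ℝ) := Real.rpow_nonneg ht0.le _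
      have ha : 0 ≤ t ^ (-(31 / 32) : ℝ) := Real.rpow_nonneg ht0.le _
      positivity
  -- the big sphere
  set N := max K (R.sup (G.dist r)) with hNd
  have hN : ∀ v ∈ R, G.dist r v ≤ N := fun v hv =>
    (Finset.le_sup (f := G.dist r) hv).trans (le_max_right _ _)
  have hKN : K ≤ N := le_max_left _ _
  have hred := key_reduce hT hd s₁ s₂ r R N hN
  -- term A
  have hWm : Measurable (fun U => (m₁ U r + m₂ U r) ^ 2 * ∑ v ∈ (range (N + 1)).biUnion (sph G r),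
      pathG G θ₁ (ξ₁ U) r v ^ 2) :=
    (((s₁.meas_m r).add (s₂.meas_m r)).pow_const 2).mul
      (Finset.measurable_sum _ fun v _ => (key_meas_pathG s₁.meas_ξ r v).pow_const 2)
  have hA1 := yudovich_psi (P := iidUniform V) hWm hYm
    (fun U => mul_nonneg (sq_nonneg _) (Finset.sum_nonneg fun _ _ => sq_nonneg _))
    (fun U => sq_nonneg _) (fun U => by have := hY4 U; linarith) hlam hCA
    (hA s₁ s₂ r ((range (N + 1)).biUnion (sph G r)))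
  -- term eps
  have hE1 := termEps hT hd hreg hT1 s₁ h20.le hθ r N
  -- term H
  have hsplit : ∑ n ∈ range (N + 1), ∑ v ∈ sph G r n, ∫ U,
        ((1 - m₂ U r ^ 2) * θ₂ ^ n * (prodG G θ₁ (ξ₁ U) r v - prodG G θ₂ (ξ₂ U) r v)) ^ 2
          ∂iidUniform V =
      ∑ n ∈ range (K + 1), ∑ v ∈ sph G r n, ∫ U,
        ((1 - m₂ U r ^ 2) * θ₂ ^ n * (prodG G θ₁ (ξ₁ U) r v - prodG G θ₂ (ξ₂ U) r v)) ^ 2
          ∂iidUniform V +
      ∑ n ∈ Finset.Ioc K N, ∑ v ∈ sph G r n, ∫ U,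
        ((1 - m₂ U r ^ 2) * θ₂ ^ n * (prodG G θ₁ (ξ₁ U) r v - prodG G θ₂ (ξ₂ U) r v)) ^ 2
          ∂iidUniform V := by
    rw [← Finset.sum_union]
    · congr 1
      ext n
      simp only [Finset.mem_range, Finset.mem_union, Finset.mem_Ioc]
      omega
    · rw [Finset.disjoint_left]
      intro n hn hn'
      rw [Finset.mem_range] at hn
      rw [Finset.mem_Ioc] at hn'
      omega
  have hF1 := far_sum hT hd hreg s₁ s₂ hθ h₀ r K N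
  have hF2 := far_bound hT hd hreg hT1 s₁ s₂ h₀ K N
  rw [Dd_eq s₁ s₂ hT hreg x₀ r] at hF2
  have hη0 : 0 ≤ (θ₁ - θ₂) ^ 2 := sq_nonneg _
  have hθ2 : θ₂ ^ 2 ≤ 1 := by nlinarith
  have hF3 : ∑ n ∈ Finset.Ioc K N, ∑ v ∈ sph G r n, ∫ U,
        ((1 - m₂ U r ^ 2) * θ₂ ^ n * (prodG G θ₁ (ξ₁ U) r v - prodG G θ₂ (ξ₂ U) r v)) ^ 2
          ∂iidUniform V ≤ 1000000 * (d : ℝ) ^ 9 * Cx * (psi (Dd m₁ m₂ r) + (θ₁ - θ₂) ^ 2) := by
    refine hF1.trans ?_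
    have hX : 0 ≤ psi (Dd m₁ m₂ r) + (θ₁ - θ₂) ^ 2 := by positivity
    have h1 : (d : ℝ) * θ₂ ^ 2 * (∫ U, Xfar G θ₁ θ₂ (ξ₁ U) (ξ₂ U) K N x₀ y₀ * dh θ₁ θ₂ ξ₁ ξ₂ x₀ y₀ U ^ 2
        ∂iidUniform V) ≤ (d : ℝ) * θ₂ ^ 2 * (1000000 * (d : ℝ) ^ 8 * x0 d T t K *
          (psi (Dd m₁ m₂ r) + (θ₁ - θ₂) ^ 2)) :=
      mul_le_mul_of_nonneg_left hF2 (by positivity)
    refine h1.trans ?_
    have h2 : θ₂ ^ 2 * x0 d T t K ≤ Cx := by
      have h3 : θ₂ ^ 2 * x0 d T t K ≤ θ₂ ^ 2 * Cx := mul_le_mul_of_nonneg_left hKx (sq_nonneg _)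
      have h4 : θ₂ ^ 2 * Cx ≤ 1 * Cx := mul_le_mul_of_nonneg_right hθ2 hCx.le
      linarith
    have h5 : 0 ≤ (d : ℝ) ^ 9 * (psi (Dd m₁ m₂ r) + (θ₁ - θ₂) ^ 2) := by positivity
    calc (d : ℝ) * θ₂ ^ 2 * (1000000 * (d : ℝ) ^ 8 * x0 d T t K * (psi (Dd m₁ m₂ r) + (θ₁ - θ₂) ^ 2))
        = 1000000 * ((d : ℝ) ^ 9 * (psi (Dd m₁ m₂ r) + (θ₁ - θ₂) ^ 2)) * (θ₂ ^ 2 * x0 d T t K) := by ring
      _ ≤ 1000000 * ((d : ℝ) ^ 9 * (psi (Dd m₁ m₂ r) + (θ₁ - θ₂) ^ 2)) * Cx :=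
          mul_le_mul_of_nonneg_left h2 (by positivity)
      _ = _ := by ring
  have hE2 : (1000 * (d : ℝ) ^ 3 * C0 d T * (θ₁ - θ₂) ^ 2 / rate d T t ^ 3) =
      1000 * (d : ℝ) ^ 3 * C0 d T / c1 d T ^ 3 * t ^ (-(3 / 2) : ℝ) * (θ₁ - θ₂) ^ 2 := by
    have h := key_rate_cube hc1 ht0
    have : 1 / rate d T t ^ 3 = 1 / c1 d T ^ 3 * t ^ (-(3 / 2) : ℝ) := h
    calc _ = 1000 * (d : ℝ) ^ 3 * C0 d T * (θ₁ - θ₂) ^ 2 * (1 / rate d T t ^ 3) := by ring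
      _ = _ := by rw [this]; ring
  rw [hE2] at hE1
  rw [hsplit] at hred
  refine hred.trans ?_
  have hfin := key_arith (A := ∫ U, ((m₁ U r + m₂ U r) ^ 2 * ∑ v ∈ (range (N + 1)).biUnion (sph G r),
            pathG G θ₁ (ξ₁ U) r v ^ 2) * (m₁ U r - m₂ U r) ^ 2 ∂iidUniform V)
    (a := t ^ (-(31 / 32) : ℝ)) (b := t ^ (-(3 / 2) : ℝ)) (ψ := psi (Dd m₁ m₂ r))
    hcA hcE hcN hcM hcF (Real.rpow_nonneg ht0.le _) (Real.rpow_nonneg ht0.le _) hψ (sq_nonneg _) hη0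
    (key_rpow_le ht0) hA1 hE1 hHn hF3
  exact hfin

end Vale.Agent.Lib.P161E
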