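import Vale.Agent.Lib.P161E.TwoA

/-! Job F4: the near field estimate along one geodesic. -/

open MeasureTheory Finset
open scoped Classical ENNReal

noncomputable section

namespace Vale.Agent.Lib.P161E

open Vale.Agent.Lib.P161

variable {V : Type*} {G : SimpleGraph V} [G.LocallyFinite] {d : ℕ} {T θ₁ θ₂ t : ℝ}
  {ξ₁ ξ₂ : (V → unitInterval) → V → V → ℝ} {m₁ m₂ : (V → unitInterval) → V → ℝ}

/-! Near part. -/

theorem tn1_thc (hd : 3 ≤ d) : 0 < thc d ∧ thc d < 1 := by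
  have hd3 : (3 : ℝ) ≤ d := by exact_mod_cast hd
  have h1 : 1 < Real.sqrt ((d : ℝ) - 1) := by
    rw [Real.lt_sqrt (by norm_num)]
    nlinarith
  unfold thc
  refine ⟨by positivity, ?_⟩
  rw [div_lt_one (by linarith)]
  exact h1

theorem tn1_bounds {θ : ℝ} {ξ : (V → unitInterval) → V → V → ℝ} {m : (V → unitInterval) → V → ℝ}
    (s : Sys G d T θ t ξ m) (hd : 3 ≤ d) : 0 ≤ θ ∧ θ < 1 := by
  obtain ⟨h0, h1⟩ := tn1_thc hd
  have := s.lo
  have := s.hi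
  constructor <;> linarith

theorem tn1_meas_gm (θ : ℝ) : Measurable (gm θ) := by
  unfold gm
  fun_prop

theorem tn1_meas_shat (θ : ℝ) : Measurable (shat θ) := by
  unfold shat
  have h := tn1_meas_gm θ
  exact (Real.measurable_log.comp (h.max measurable_const)).neg

/-- Generic field built from the two cavity means. -/
theorem tn1_fe {θa θb : ℝ} {ξa ξb : (V → unitInterval) → V → V → ℝ}
    {ma mb : (V → unitInterval) → V → ℝ}
    (sa : Sys G d T θa t ξa ma) (sb : Sys G d T θb t ξb mb)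
    (F : ℝ → ℝ → ℝ) (hF : Measurable (fun p : ℝ × ℝ => F p.1 p.2)) {A : ℝ}
    (hA : ∀ a b, |a| ≤ 1 → |b| ≤ 1 → |F a b| ≤ A) :
    FE G (fun x y U => F (ξa U x y) (ξb U x y)) := by
  refine ⟨fun x y => ?_, ⟨A, fun x y U => hA _ _ (sa.abs_ξ U x y) (sb.abs_ξ U x y)⟩, ?_⟩
  · exact hF.comp ((sa.meas_ξ x y).prodMk (sb.meas_ξ x y))
  · intro φ x y U
    simp only [sa.equi_ξ, sb.equi_ξ]

/-- The sum of the decay kernel. -/
theorem tn1_kap_sum (hd : 3 ≤ d) (N : ℕ) : ∑ k ∈ Finset.range N, kap d k ≤ kapSum d := by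
  have hd3 : (3 : ℝ) ≤ d := by exact_mod_cast hd
  set ρ : ℝ := 1 / Real.sqrt ((d : ℝ) - 1) with hρ
  have hρ0 : 0 ≤ ρ := by positivity
  have hs : (3 / 2 : ℝ) ^ 2 ≤ (d : ℝ) - 1 ∨ (d : ℝ) - 1 < (3 / 2) ^ 2 := le_or_gt _ _
  have hρ1 : ρ ≤ 3 / 4 := by
    have h1 : (4 / 3 : ℝ) ≤ Real.sqrt ((d : ℝ) - 1) := by
      apply Real.le_sqrt_of_sq_le
      nlinarith
    rw [hρ, div_le_iff₀ (by linarith)]
    nlinarith
  have key : ∀ N : ℕ, ∑ k ∈ Finset.range N, ((k : ℝ) + 1) * ρ ^ k + (4 * (N : ℝ) + 16) * ρ ^ N ≤ 16 := by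
    intro N
    induction N with
    | zero => simp
    | succ N ih =>
      rw [Finset.sum_range_succ]
      have hρN : 0 ≤ ρ ^ N := by positivity
      push_cast
      have h2 : (4 * ((N : ℝ) + 1) + 16) * ρ ^ (N + 1) ≤ (4 * ((N : ℝ) + 1) + 16) * ((3 / 4) * ρ ^ N) := by
        apply mul_le_mul_of_nonneg_left _ (by positivity)
        rw [pow_succ, mul_comm]
        exact mul_le_mul_of_nonneg_right hρ1 hρN
      have hN : (0 : ℝ) ≤ N := Nat.cast_nonneg N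
      nlinarith [mul_nonneg hN hρN]
  have h := key N
  have h0 : 0 ≤ (4 * (N : ℝ) + 16) * ρ ^ N := by positivity
  have h1 : ∑ k ∈ Finset.range N, ((k : ℝ) + 1) * ρ ^ k ≤ 16 := by linarith
  have h2 : ∑ k ∈ Finset.range N, kap d k =
      2 * ((d : ℝ) + 1) * ∑ k ∈ Finset.range N, ((k : ℝ) + 1) * ρ ^ k := by
    rw [Finset.mul_sum]
    refine Finset.sum_congr rfl fun k _ => ?_
    unfold kap
    rw [hρ]
    ring
  rw [h2]
  unfold kapSum
  have h3 : (0 : ℝ) ≤ (d : ℝ) + 1 := by linarith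
  nlinarith

/-- Correlation along a geodesic, in the direction opposite to it. -/
theorem tn1_corr_le (hT : G.IsTree) (hd : 3 ≤ d) (hreg : G.IsRegularOfDegree d)
    {a : V → V → (V → unitInterval) → ℝ} (ha : FE G a) {x₀ y₀ : V} (h₀ : G.Adj x₀ y₀)
    {p : ℕ → V} {n : ℕ} (hp : IsGeo G p n) {i j : ℕ} (hij : i ≤ j) (hj : j < n) :
    ∫ U, a (p (i + 1)) (p i) U * a (p (j + 1)) (p j) U ∂iidUniform V ≤
      (∫ U, a x₀ y₀ U ∂iidUniform V) ^ 2 + kap d (j - i) *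
        (∫ U, a x₀ y₀ U ^ 2 ∂iidUniform V - (∫ U, a x₀ y₀ U ∂iidUniform V) ^ 2) := by
  set q : ℕ → V := fun l => p (j + 1 - l) with hq
  have hqg : IsGeo G q (j - i + 1) := by
    refine ⟨fun l hl => ?_, ?_⟩
    · have h1 : j + 1 - (l + 1) = j - l := by omega
      have h2 : j + 1 - l = j - l + 1 := by omega
      show G.Adj (p (j + 1 - l)) (p (j + 1 - (l + 1)))
      rw [h1, h2]
      exact (hp.1 (j - l) (by omega)).symm
    · show G.dist (p (j + 1 - 0)) (p (j + 1 - (j - i + 1))) = j - i + 1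
      have h1 : j + 1 - (j - i + 1) = i := by omega
      rw [h1, Nat.sub_zero, G.dist_comm, hp.dist_eq hT (by omega) (by omega)]
      omega
  have hadj : G.Adj (p (j + 1)) (p j) := (hp.1 j hj).symm
  have hc := fe_corr hT hd hreg ha (k := j - i) hqg
  have h0 : q 0 = p (j + 1) := rfl
  have h1 : q 1 = p j := by simp [hq]
  have h2 : q (j - i) = p (i + 1) := by
    show p (j + 1 - (j - i)) = p (i + 1)
    congr 1; omega
  have h3 : q (j - i + 1) = p i := by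
    show p (j + 1 - (j - i + 1)) = p i
    congr 1; omega
  rw [h0, h1, h2, h3] at hc
  have hm : ∫ U, a (p (j + 1)) (p j) U ∂iidUniform V = ∫ U, a x₀ y₀ U ∂iidUniform V :=
    integral_edge_eq hT hreg ha.meas ha.equi hadj h₀
  have hs : ∫ U, a (p (j + 1)) (p j) U ^ 2 ∂iidUniform V = ∫ U, a x₀ y₀ U ^ 2 ∂iidUniform V :=
    integral_edge_eq (a := fun x y U => a x y U ^ 2) hT hreg
      (fun x y => (ha.meas x y).pow_const 2) (fun φ x y U => by simp only [ha.equi]) hadj h₀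
  rw [hm, hs] at hc
  have hc' := (abs_le.1 hc).2
  have hmul : ∫ U, a (p (i + 1)) (p i) U * a (p (j + 1)) (p j) U ∂iidUniform V =
      ∫ U, a (p (j + 1)) (p j) U * a (p (i + 1)) (p i) U ∂iidUniform V := by
    congr 1; funext U; ring
  rw [hmul]
  linarith

/-- Correlation along a geodesic, any two indices. -/
theorem tn1_corr (hT : G.IsTree) (hd : 3 ≤ d) (hreg : G.IsRegularOfDegree d)
    {a : V → V → (V → unitInterval) → ℝ} (ha : FE G a) {x₀ y₀ : V} (h₀ : G.Adj x₀ y₀)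
    {p : ℕ → V} {n : ℕ} (hp : IsGeo G p n) {i j : ℕ} (hi : i < n) (hj : j < n) :
    ∫ U, a (p (i + 1)) (p i) U * a (p (j + 1)) (p j) U ∂iidUniform V ≤
      (∫ U, a x₀ y₀ U ∂iidUniform V) ^ 2 + kap d (max i j - min i j) *
        (∫ U, a x₀ y₀ U ^ 2 ∂iidUniform V - (∫ U, a x₀ y₀ U ∂iidUniform V) ^ 2) := by
  rcases le_total i j with hij | hij
  · rw [max_eq_right hij, min_eq_left hij]
    exact tn1_corr_le hT hd hreg ha h₀ hp hij hj
  · rw [max_eq_left hij, min_eq_right hij]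
    have hmul : ∫ U, a (p (i + 1)) (p i) U * a (p (j + 1)) (p j) U ∂iidUniform V =
        ∫ U, a (p (j + 1)) (p j) U * a (p (i + 1)) (p i) U ∂iidUniform V := by
      congr 1; funext U; ring
    rw [hmul]
    exact tn1_corr_le hT hd hreg ha h₀ hp hij hi

theorem tn1_kap_nonneg (hd : 3 ≤ d) (k : ℕ) : 0 ≤ kap d k := by
  unfold kap
  positivity

/-- `Ce` is positive: the exponential moment of the system is positive. -/
theorem tn1_Ce_pos {θ : ℝ} {ξ : (V → unitInterval) → V → V → ℝ} {m : (V → unitInterval) → V → ℝ}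
    (s : Sys G d T θ t ξ m) {x y : V} (hxy : G.Adj x y) : 0 < Ce d T := by
  have : IsProbabilityMeasure (iidUniform V) := by unfold iidUniform; infer_instance
  by_contra hC
  have h := s.exp_ξ x y hxy
  rw [ENNReal.ofReal_of_nonpos (not_lt.1 hC)] at h
  have h0 : ∫⁻ U, ENNReal.ofReal (Real.exp (kap0 d T / Real.sqrt t * ξ U x y ^ 2)) ∂iidUniform V = 0 :=
    le_antisymm h bot_le
  have hm : Measurable (fun U => ENNReal.ofReal (Real.exp (kap0 d T / Real.sqrt t * ξ U x y ^ 2))) :=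
    ((Real.measurable_exp.comp (((s.meas_ξ x y).pow_const 2).const_mul _))).ennreal_ofReal
  rw [lintegral_eq_zero_iff hm] at h0
  have h1 : ∀ᵐ U ∂iidUniform V, False := by
    filter_upwards [h0] with U hU
    have : 0 < ENNReal.ofReal (Real.exp (kap0 d T / Real.sqrt t * ξ U x y ^ 2)) :=
      ENNReal.ofReal_pos.2 (Real.exp_pos _)
    simp only [Pi.zero_apply] at hU
    rw [hU] at this
    exact lt_irrefl _ this
  have h2 : iidUniform V = 0 := by
    simpa using (Filter.eventually_false_iff_eq_bot.1 h1 : ae (iidUniform V) = ⊥)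
  exact (IsProbabilityMeasure.ne_zero (iidUniform V)) h2

/-- Second moment of `shat`. -/
theorem tn1_shat_sq {θ θ' : ℝ} {ξ ξ' : (V → unitInterval) → V → V → ℝ}
    {m m' : (V → unitInterval) → V → ℝ}
    (s : Sys G d T θ t ξ m) (s' : Sys G d T θ' t ξ' m') (hd : 3 ≤ d) (hT1 : 1 ≤ T) {x y : V}
    (hxy : G.Adj x y) :
    ∫ U, shat θ (ξ U x y) ^ 2 ∂iidUniform V ≤ 32 * Ce d T * t / kap0 d T ^ 2 := by
  have : IsProbabilityMeasure (iidUniform V) := by unfold iidUniform; infer_instance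
  obtain ⟨h0, h1⟩ := tn1_bounds s hd
  have h4 := (sq_ξ_le s s' hd hT1 hxy).2
  have hint4 : Integrable (fun U => ξ U x y ^ 4) (iidUniform V) := by
    refine Integrable.of_bound ((s.meas_ξ x y).pow_const 4).aestronglyMeasurable 1
      (Filter.Eventually.of_forall fun U => ?_)
    rw [Real.norm_eq_abs, abs_pow]
    exact pow_le_one₀ (abs_nonneg _) (s.abs_ξ U x y)
  have hle : ∫ U, shat θ (ξ U x y) ^ 2 ∂iidUniform V ≤ ∫ U, 16 * ξ U x y ^ 4 ∂iidUniform V := by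
    refine integral_mono_of_nonneg (Filter.Eventually.of_forall fun U => by positivity)
      (hint4.const_mul 16) (Filter.Eventually.of_forall fun U => ?_)
    have hh := s.abs_ξ U x y
    have h5 := shat_nonneg h0 h1 hh
    have h6 := shat_le h0 h1 hh
    show shat θ (ξ U x y) ^ 2 ≤ 16 * ξ U x y ^ 4
    have h7 : shat θ (ξ U x y) ^ 2 ≤ (4 * ξ U x y ^ 2) ^ 2 := pow_le_pow_left₀ h5 h6 2
    calc shat θ (ξ U x y) ^ 2 ≤ (4 * ξ U x y ^ 2) ^ 2 := h7
      _ = 16 * ξ U x y ^ 4 := by ring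
  rw [integral_const_mul] at hle
  calc ∫ U, shat θ (ξ U x y) ^ 2 ∂iidUniform V ≤ 16 * ∫ U, ξ U x y ^ 4 ∂iidUniform V := hle
    _ ≤ 16 * (2 * Ce d T / kap0 d T ^ 2 * t) := by linarith
    _ = 32 * Ce d T * t / kap0 d T ^ 2 := by ring

/-- Covariance of `shat` along the geodesic. -/
theorem tn1_corr_shat (hT : G.IsTree) (hd : 3 ≤ d) (hreg : G.IsRegularOfDegree d) (hT1 : 1 ≤ T)
    {θ θ' : ℝ} {ξ ξ' : (V → unitInterval) → V → V → ℝ} {m m' : (V → unitInterval) → V → ℝ}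
    (s : Sys G d T θ t ξ m) (s' : Sys G d T θ' t ξ' m') {x₀ y₀ : V} (h₀ : G.Adj x₀ y₀)
    {p : ℕ → V} {n : ℕ} (hp : IsGeo G p n) {i j : ℕ} (hi : i < n) (hj : j < n) :
    ∫ U, (shat θ (ξ U (p (i + 1)) (p i)) - ∫ U, shat θ (ξ U x₀ y₀) ∂iidUniform V) *
        (shat θ (ξ U (p (j + 1)) (p j)) - ∫ U, shat θ (ξ U x₀ y₀) ∂iidUniform V) ∂iidUniform V ≤
      kap d (max i j - min i j) * (32 * Ce d T * t / kap0 d T ^ 2) := by
  have : IsProbabilityMeasure (iidUniform V) := by unfold iidUniform; infer_instance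
  obtain ⟨h0, h1⟩ := tn1_bounds s hd
  set sb := ∫ U, shat θ (ξ U x₀ y₀) ∂iidUniform V with hsb
  have hfe : FE G (fun x y U => shat θ (ξ U x y)) := by
    refine ⟨fun x y => (tn1_meas_shat θ).comp (s.meas_ξ x y), ⟨1, fun x y U => ?_⟩, ?_⟩
    · rw [abs_of_nonneg (shat_nonneg h0 h1 (s.abs_ξ U x y))]
      exact shat_le_one _ _
    · intro φ x y U
      simp only [s.equi_ξ]
  have hc := tn1_corr hT hd hreg hfe h₀ hp hi hj
  have hmean : ∀ k, k < n → ∫ U, shat θ (ξ U (p (k + 1)) (p k)) ∂iidUniform V = sb := fun k hk =>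
    integral_edge_eq hT hreg hfe.meas hfe.equi (hp.1 k hk).symm h₀
  have hbd : ∀ x y U, |shat θ (ξ U x y)| ≤ 1 := fun x y U => by
    rw [abs_of_nonneg (shat_nonneg h0 h1 (s.abs_ξ U x y))]
    exact shat_le_one _ _
  have hI : ∀ x y, Integrable (fun U => shat θ (ξ U x y)) (iidUniform V) := fun x y =>
    Integrable.of_bound (hfe.meas x y).aestronglyMeasurable 1
      (Filter.Eventually.of_forall fun U => by simpa using hbd x y U)
  have hII : Integrable (fun U => shat θ (ξ U (p (i + 1)) (p i)) * shat θ (ξ U (p (j + 1)) (p j)))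
      (iidUniform V) := by
    refine Integrable.of_bound ((hfe.meas _ _).mul (hfe.meas _ _)).aestronglyMeasurable 1
      (Filter.Eventually.of_forall fun U => ?_)
    rw [Real.norm_eq_abs, abs_mul]
    calc _ ≤ (1 : ℝ) * 1 := mul_le_mul (hbd _ _ U) (hbd _ _ U) (abs_nonneg _) zero_le_one
      _ = 1 := by norm_num
  have hexp : ∫ U, (shat θ (ξ U (p (i + 1)) (p i)) - sb) * (shat θ (ξ U (p (j + 1)) (p j)) - sb)
      ∂iidUniform V =
      ∫ U, shat θ (ξ U (p (i + 1)) (p i)) * shat θ (ξ U (p (j + 1)) (p j)) ∂iidUniform V - sb ^ 2 := by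
    have e1 : (fun U => (shat θ (ξ U (p (i + 1)) (p i)) - sb) * (shat θ (ξ U (p (j + 1)) (p j)) - sb)) =
        fun U => shat θ (ξ U (p (i + 1)) (p i)) * shat θ (ξ U (p (j + 1)) (p j)) -
          sb * shat θ (ξ U (p (i + 1)) (p i)) - sb * shat θ (ξ U (p (j + 1)) (p j)) + sb ^ 2 := by
      funext U; ring
    have i1 : Integrable (fun U => sb * shat θ (ξ U (p (i + 1)) (p i))) (iidUniform V) :=
      (hI (p (i + 1)) (p i)).const_mul sb
    have i2 : Integrable (fun U => sb * shat θ (ξ U (p (j + 1)) (p j))) (iidUniform V) :=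
      (hI (p (j + 1)) (p j)).const_mul sb
    have i3 : Integrable (fun U => shat θ (ξ U (p (i + 1)) (p i)) * shat θ (ξ U (p (j + 1)) (p j)) -
        sb * shat θ (ξ U (p (i + 1)) (p i))) (iidUniform V) := hII.sub i1
    have i4 : Integrable (fun U => shat θ (ξ U (p (i + 1)) (p i)) * shat θ (ξ U (p (j + 1)) (p j)) -
        sb * shat θ (ξ U (p (i + 1)) (p i)) - sb * shat θ (ξ U (p (j + 1)) (p j))) (iidUniform V) :=
      i3.sub i2
    rw [e1, integral_add i4 (integrable_const _), integral_sub i3 i2,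
      integral_sub hII i1, integral_const_mul, integral_const_mul, hmean i hi, hmean j hj]
    simp
    ring
  rw [hexp]
  have hw := tn1_shat_sq s s' hd hT1 h₀
  have hk := tn1_kap_nonneg hd (max i j - min i j)
  have h2 : kap d (max i j - min i j) * (∫ U, shat θ (ξ U x₀ y₀) ^ 2 ∂iidUniform V - sb ^ 2) ≤
      kap d (max i j - min i j) * (32 * Ce d T * t / kap0 d T ^ 2) := by
    apply mul_le_mul_of_nonneg_left _ hk
    nlinarith [sq_nonneg sb]
  linarith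

/-- F4. The near field estimate along one geodesic: `near_lemma` applied to
`g1 j = gm θ₁ (ξ₁ (p (j+1)) (p j))`, `g2 j = gm θ₂ (ξ₂ (p (j+1)) (p j))`, `s_i = shat ...`, with `κ = kap d`,
`c₅ = kapSum d`, `B` the event that some `|ξ_i| > 1/2` along the path. The correlation hypotheses come from
`fe_corr` applied to the bounded measurable equivariant fields `dh`, `max (|dh| - a₀) 0`, `shat θ_i ξ_i - mean`
(`FE`), the geodesic being read backward from `v` to `r`. Here `φ = ∫ dh` on some edge,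
`v = ∫ dh²`, `w = 32 Ce t / kap0²`, `τ = 2 n Ce exp(-kap0/(4√t))`, `sb_i = ∫ shat`. -/
theorem near_path (hT : G.IsTree) (hd : 3 ≤ d) (hreg : G.IsRegularOfDegree d) (hT1 : 1 ≤ T)
    (s₁ : Sys G d T θ₁ t ξ₁ m₁) (s₂ : Sys G d T θ₂ t ξ₂ m₂) {x₀ y₀ : V} (h₀ : G.Adj x₀ y₀) (r v : V)
    {ε M : ℝ} (hε : 0 < ε) (hε1 : ε ≤ 1) (hM : 1 ≤ M) :
    ∫ U, (prodG G θ₁ (ξ₁ U) r v - prodG G θ₂ (ξ₂ U) r v) ^ 2 ∂iidUniform V ≤
      Real.exp (-(2 * min (∫ U, shat θ₁ (ξ₁ U x₀ y₀) ∂iidUniform V)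
          (∫ U, shat θ₂ (ξ₂ U x₀ y₀) ∂iidUniform V) * ((G.dist r v : ℝ) - 2))) *
        ((G.dist r v : ℝ) ^ 2 * (∫ U, dh θ₁ θ₂ ξ₁ ξ₂ x₀ y₀ U ∂iidUniform V) ^ 2 +
          2 * G.dist r v * kapSum d * ∫ U, dh θ₁ θ₂ ξ₁ ξ₂ x₀ y₀ U ^ 2 ∂iidUniform V +
          2 * ε * (G.dist r v : ℝ) ^ 2 * ∫ U, dh θ₁ θ₂ ξ₁ ξ₂ x₀ y₀ U ^ 2 ∂iidUniform V) +
      (∫ U, dh θ₁ θ₂ ξ₁ ξ₂ x₀ y₀ U ^ 2 ∂iidUniform V) *
        ((G.dist r v : ℝ) ^ 2 * (2 * Real.sqrt (M * (2 * G.dist r v * Ce d T *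
            Real.exp (-(kap0 d T / (4 * Real.sqrt t))) +
            32 * G.dist r v * kapSum d * (32 * Ce d T * t / kap0 d T ^ 2) / ε ^ 2)) + 1 / M) +
          2 * G.dist r v * kapSum d) := by
  have : IsProbabilityMeasure (iidUniform V) := by unfold iidUniform; infer_instance
  obtain ⟨hθ₁0, hθ₁1⟩ := tn1_bounds s₁ hd
  obtain ⟨hθ₂0, hθ₂1⟩ := tn1_bounds s₂ hd
  have hCe := tn1_Ce_pos s₁ h₀
  have htp := s₁.ht
  set n := G.dist r v with hn
  set p := geo G r v with hpdef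
  have hp : IsGeo G p n := isGeo_geo hT r v
  have hadj : ∀ j, j < n → G.Adj (p (j + 1)) (p j) := fun j hj => (hp.1 j hj).symm
  -- the fields
  have hg1bd : ∀ a : ℝ, |a| ≤ 1 → 0 ≤ gm θ₁ a ∧ gm θ₁ a ≤ 1 := fun a ha =>
    ⟨gm_nonneg hθ₁0 hθ₁1 ha, gm_le_one hθ₁0 hθ₁1 ha⟩
  have hg2bd : ∀ a : ℝ, |a| ≤ 1 → 0 ≤ gm θ₂ a ∧ gm θ₂ a ≤ 1 := fun a ha =>
    ⟨gm_nonneg hθ₂0 hθ₂1 ha, gm_le_one hθ₂0 hθ₂1 ha⟩
  have hdbd : ∀ a b : ℝ, |a| ≤ 1 → |b| ≤ 1 → |gm θ₁ a - gm θ₂ b| ≤ 2 := fun a b ha hb => by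
    obtain ⟨h1, h2⟩ := hg1bd a ha
    obtain ⟨h3, h4⟩ := hg2bd b hb
    rw [abs_le]
    constructor <;> linarith
  have hmD : Measurable (fun q : ℝ × ℝ => gm θ₁ q.1 - gm θ₂ q.2) :=
    ((tn1_meas_gm θ₁).comp measurable_fst).sub ((tn1_meas_gm θ₂).comp measurable_snd)
  have feD : FE G (fun x y U => dh θ₁ θ₂ ξ₁ ξ₂ x y U) :=
    tn1_fe s₁ s₂ (fun a b => gm θ₁ a - gm θ₂ b) hmD hdbd
  have feF : ∀ a₀ : ℝ, 0 ≤ a₀ → FE G (fun x y U => max (|dh θ₁ θ₂ ξ₁ ξ₂ x y U| - a₀) 0) := by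
    intro a₀ ha₀
    refine tn1_fe s₁ s₂ (fun a b => max (|gm θ₁ a - gm θ₂ b| - a₀) 0) ?_ (A := 2) ?_
    · exact ((hmD.abs).sub_const a₀).max measurable_const
    · intro a b ha hb
      have h2 := hdbd a b ha hb
      rw [abs_of_nonneg (le_max_right _ _)]
      exact max_le (by linarith) (by norm_num)
  have feS1 : FE G (fun x y U => shat θ₁ (ξ₁ U x y)) := by
    refine tn1_fe s₁ s₂ (fun a _ => shat θ₁ a) ((tn1_meas_shat θ₁).comp measurable_fst) (A := 1) ?_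
    intro a b ha _
    rw [abs_of_nonneg (shat_nonneg hθ₁0 hθ₁1 ha)]
    exact shat_le_one _ _
  have feS2 : FE G (fun x y U => shat θ₂ (ξ₂ U x y)) := by
    refine tn1_fe s₁ s₂ (fun _ b => shat θ₂ b) ((tn1_meas_shat θ₂).comp measurable_snd) (A := 1) ?_
    intro a b _ hb
    rw [abs_of_nonneg (shat_nonneg hθ₂0 hθ₂1 hb)]
    exact shat_le_one _ _
  let g1 : ℕ → (V → unitInterval) → ℝ := fun j U => gm θ₁ (ξ₁ U (p (j + 1)) (p j))
  let g2 : ℕ → (V → unitInterval) → ℝ := fun j U => gm θ₂ (ξ₂ U (p (j + 1)) (p j))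
  let h1 : ℕ → (V → unitInterval) → ℝ := fun j U => shat θ₁ (ξ₁ U (p (j + 1)) (p j))
  let h2 : ℕ → (V → unitInterval) → ℝ := fun j U => shat θ₂ (ξ₂ U (p (j + 1)) (p j))
  let A₁ : ℕ → Set (V → unitInterval) := fun j => {U | 1 / 2 < |ξ₁ U (p (j + 1)) (p j)|}
  let A₂ : ℕ → Set (V → unitInterval) := fun j => {U | 1 / 2 < |ξ₂ U (p (j + 1)) (p j)|}
  let B : Set (V → unitInterval) := ⋃ j ∈ Finset.range n, (A₁ j ∪ A₂ j)
  have hA₁ : ∀ j, MeasurableSet (A₁ j) := fun j =>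
    measurableSet_lt measurable_const ((s₁.meas_ξ _ _).abs)
  have hA₂ : ∀ j, MeasurableSet (A₂ j) := fun j =>
    measurableSet_lt measurable_const ((s₂.meas_ξ _ _).abs)
  have hmB : MeasurableSet B := Finset.measurableSet_biUnion _ fun j _ => (hA₁ j).union (hA₂ j)
  set e := Ce d T * Real.exp (-(kap0 d T / (4 * Real.sqrt t))) with he
  have he0 : 0 ≤ e := by positivity
  have hbad : iidUniform V B ≤ ENNReal.ofReal (2 * n * Ce d T *
      Real.exp (-(kap0 d T / (4 * Real.sqrt t)))) := by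
    calc iidUniform V B ≤ ∑ j ∈ Finset.range n, iidUniform V (A₁ j ∪ A₂ j) :=
          measure_biUnion_finset_le _ _
      _ ≤ ∑ j ∈ Finset.range n, ENNReal.ofReal (2 * e) := by
          refine Finset.sum_le_sum fun j hj => ?_
          have hjn : j < n := Finset.mem_range.1 hj
          calc iidUniform V (A₁ j ∪ A₂ j) ≤ iidUniform V (A₁ j) + iidUniform V (A₂ j) :=
                measure_union_le _ _
            _ ≤ ENNReal.ofReal e + ENNReal.ofReal e :=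
                add_le_add (tail_ξ s₁ s₂ hd hT1 (hadj j hjn)) (tail_ξ s₂ s₁ hd hT1 (hadj j hjn))
            _ = ENNReal.ofReal (2 * e) := by
                rw [← ENNReal.ofReal_add he0 he0, two_mul]
      _ = ENNReal.ofReal (2 * n * Ce d T * Real.exp (-(kap0 d T / (4 * Real.sqrt t)))) := by
          rw [← ENNReal.ofReal_sum_of_nonneg (fun _ _ => by positivity)]
          congr 1
          simp only [Finset.sum_const, Finset.card_range, nsmul_eq_mul, he]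
          ring
  have hsB : ∀ j, j < n → ∀ U, U ∉ B → |ξ₁ U (p (j + 1)) (p j)| ≤ 1 / 2 ∧
      |ξ₂ U (p (j + 1)) (p j)| ≤ 1 / 2 := by
    intro j hj U hU
    have hU' : U ∉ A₁ j ∪ A₂ j := fun hh => hU (Set.mem_biUnion (Finset.mem_coe.2 (Finset.mem_range.2 hj)) hh)
    constructor
    · by_contra hc
      exact hU' (Or.inl (not_le.1 hc))
    · by_contra hc
      exact hU' (Or.inr (not_le.1 hc))
  -- stationarity of the fields
  have hmeanδ : ∀ j, j < n → ∫ ω, g1 j ω - g2 j ω ∂iidUniform V =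
      ∫ U, dh θ₁ θ₂ ξ₁ ξ₂ x₀ y₀ U ∂iidUniform V := fun j hj =>
    integral_edge_eq (a := fun x y U => dh θ₁ θ₂ ξ₁ ξ₂ x y U) hT hreg feD.meas feD.equi (hadj j hj) h₀
  have hsqδ : ∀ j, j < n → ∫ ω, (g1 j ω - g2 j ω) ^ 2 ∂iidUniform V =
      ∫ U, dh θ₁ θ₂ ξ₁ ξ₂ x₀ y₀ U ^ 2 ∂iidUniform V := fun j hj =>
    integral_edge_eq (a := fun x y U => dh θ₁ θ₂ ξ₁ ξ₂ x y U ^ 2) hT hreg
      (fun x y => (feD.meas x y).pow_const 2) (fun φ x y U => by simp only [feD.equi]) (hadj j hj) h₀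
  have hdata : NearData (iidUniform V) n g1 g2 h1 h2 B
      (∫ U, dh θ₁ θ₂ ξ₁ ξ₂ x₀ y₀ U ∂iidUniform V) (∫ U, dh θ₁ θ₂ ξ₁ ξ₂ x₀ y₀ U ^ 2 ∂iidUniform V)
      (32 * Ce d T * t / kap0 d T ^ 2)
      (∫ U, shat θ₁ (ξ₁ U x₀ y₀) ∂iidUniform V) (∫ U, shat θ₂ (ξ₂ U x₀ y₀) ∂iidUniform V)
      (kapSum d) (2 * n * Ce d T * Real.exp (-(kap0 d T / (4 * Real.sqrt t)))) (kap d) := by
    refine
      { mg1 := fun j => (tn1_meas_gm θ₁).comp (s₁.meas_ξ _ _)
        mg2 := fun j => (tn1_meas_gm θ₂).comp (s₂.meas_ξ _ _)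
        ms1 := fun j => (tn1_meas_shat θ₁).comp (s₁.meas_ξ _ _)
        ms2 := fun j => (tn1_meas_shat θ₂).comp (s₂.meas_ξ _ _)
        mB := hmB
        g1_mem := fun j ω => hg1bd _ (s₁.abs_ξ _ _ _)
        g2_mem := fun j ω => hg2bd _ (s₂.abs_ξ _ _ _)
        s1_mem := fun j ω => ⟨shat_nonneg hθ₁0 hθ₁1 (s₁.abs_ξ _ _ _), shat_le_one _ _⟩
        s2_mem := fun j ω => ⟨shat_nonneg hθ₂0 hθ₂1 (s₂.abs_ξ _ _ _), shat_le_one _ _⟩
        good1 := fun j hj ω hω => gm_eq_exp_shat hθ₁0 hθ₁1 (hsB j hj ω hω).1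
        good2 := fun j hj ω hω => gm_eq_exp_shat hθ₂0 hθ₂1 (hsB j hj ω hω).2
        bad := hbad
        mean_δ := hmeanδ
        sq_δ := hsqδ
        mean_s1 := fun j hj => integral_edge_eq (a := fun x y U => shat θ₁ (ξ₁ U x y)) hT hreg
          feS1.meas feS1.equi (hadj j hj) h₀
        mean_s2 := fun j hj => integral_edge_eq (a := fun x y U => shat θ₂ (ξ₂ U x y)) hT hreg
          feS2.meas feS2.equi (hadj j hj) h₀
        κ0 := tn1_kap_nonneg hd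
        κsum := tn1_kap_sum hd
        corr_δ := ?_
        corr_F := ?_
        mean_F := ?_
        corr_s1 := fun i j hi hj => tn1_corr_shat hT hd hreg hT1 s₁ s₂ h₀ hp hi hj
        corr_s2 := fun i j hi hj => tn1_corr_shat hT hd hreg hT1 s₂ s₁ h₀ hp hi hj }
    · intro i j hi hj
      have hc := tn1_corr hT hd hreg feD h₀ hp hi hj
      have hk := tn1_kap_nonneg hd (max i j - min i j)
      have h3 : kap d (max i j - min i j) * (∫ U, dh θ₁ θ₂ ξ₁ ξ₂ x₀ y₀ U ^ 2 ∂iidUniform V -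
          (∫ U, dh θ₁ θ₂ ξ₁ ξ₂ x₀ y₀ U ∂iidUniform V) ^ 2) ≤
          kap d (max i j - min i j) * ∫ U, dh θ₁ θ₂ ξ₁ ξ₂ x₀ y₀ U ^ 2 ∂iidUniform V := by
        apply mul_le_mul_of_nonneg_left _ hk
        nlinarith [sq_nonneg (∫ U, dh θ₁ θ₂ ξ₁ ξ₂ x₀ y₀ U ∂iidUniform V)]
      exact hc.trans (by linarith)
    · intro a₀ ha₀ i j hi hj
      have hn0 : 0 < n := by omega
      have hc := tn1_corr hT hd hreg (feF a₀ ha₀) (hadj 0 hn0) hp hi hj
      have hk := tn1_kap_nonneg hd (max i j - min i j)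
      have h3 : kap d (max i j - min i j) *
          (∫ U, max (|dh θ₁ θ₂ ξ₁ ξ₂ (p (0 + 1)) (p 0) U| - a₀) 0 ^ 2 ∂iidUniform V -
          (∫ U, max (|dh θ₁ θ₂ ξ₁ ξ₂ (p (0 + 1)) (p 0) U| - a₀) 0 ∂iidUniform V) ^ 2) ≤
          kap d (max i j - min i j) *
            ∫ U, max (|dh θ₁ θ₂ ξ₁ ξ₂ (p (0 + 1)) (p 0) U| - a₀) 0 ^ 2 ∂iidUniform V := by
        apply mul_le_mul_of_nonneg_left _ hk
        nlinarith [sq_nonneg (∫ U, max (|dh θ₁ θ₂ ξ₁ ξ₂ (p (0 + 1)) (p 0) U| - a₀) 0 ∂iidUniform V)]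
      refine hc.trans ?_
      change _ ≤ (∫ U, max (|dh θ₁ θ₂ ξ₁ ξ₂ (p (0 + 1)) (p 0) U| - a₀) 0 ∂iidUniform V) ^ 2 +
        kap d (max i j - min i j) *
          ∫ U, max (|dh θ₁ θ₂ ξ₁ ξ₂ (p (0 + 1)) (p 0) U| - a₀) 0 ^ 2 ∂iidUniform V
      linarith
    · intro a₀ ha₀ j hj
      have hn0 : 0 < n := by omega
      exact integral_edge_eq (a := fun x y U => max (|dh θ₁ θ₂ ξ₁ ξ₂ x y U| - a₀) 0) hT hreg
        (feF a₀ ha₀).meas (feF a₀ ha₀).equi (hadj j hj) (hadj 0 hn0)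
  have hw : 0 ≤ 32 * Ce d T * t / kap0 d T ^ 2 := by positivity
  have hτ : 0 ≤ 2 * (n : ℝ) * Ce d T * Real.exp (-(kap0 d T / (4 * Real.sqrt t))) := by positivity
  have hmain := near_lemma hdata hε hε1 hM hw hτ
  have hintegrand : (fun U => (prodG G θ₁ (ξ₁ U) r v - prodG G θ₂ (ξ₂ U) r v) ^ 2) =
      fun U => (∑ j ∈ Finset.range n, Aj g1 g2 n j U * (g1 j U - g2 j U)) ^ 2 := by
    funext U
    congr 1
    unfold prodG
    rw [prod_sub_prod]
    refine Finset.sum_congr rfl fun j _ => ?_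
    unfold Aj
    ring
  rw [hintegrand]
  exact hmain

end Vale.Agent.Lib.P161E
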