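import Vale.Agent.Lib.P161E.TwoNear1

/-! Job F5: the near field estimate summed over spheres. -/

open MeasureTheory Finset
open scoped Classical ENNReal

noncomputable section

namespace Vale.Agent.Lib.P161E

open Vale.Agent.Lib.P161

variable {V : Type*} {G : SimpleGraph V} [G.LocallyFinite] {d : ℕ} {T θ₁ θ₂ t : ℝ}
  {ξ₁ ξ₂ : (V → unitInterval) → V → V → ℝ} {m₁ m₂ : (V → unitInterval) → V → ℝ}

/-- Pure summation step of `near_sum`. -/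
lemma ns_sum_pure {a X w c5 ε M Q : ℝ} {K : ℕ} {f : ℕ → ℝ} (ha : 0 < a) (ha1 : 2 * a ≤ 1) (hX : 0 ≤ X)
    (hw : 0 ≤ w) (hc5 : 0 ≤ c5) (hε : 0 < ε) (hM : 1 ≤ M) (hQ : 0 ≤ Q)
    (hf : ∀ n ∈ range (K + 1), f n ≤ 82 * (Real.exp (-(2 * a * n)) *
        (((n : ℝ) + 1) ^ 2 * X + ((n : ℝ) + 1) * (2 * c5 * w) + ((n : ℝ) + 1) ^ 2 * (2 * ε * w))) +
      3 / 2 * w * (((K : ℝ) + 1) ^ 2 * (64 * Q + 1 / M) + 2 * ((K : ℝ) + 1) * c5)) :
    ∑ n ∈ range (K + 1), f n ≤ 20000 * (c5 + 1) * (X / a ^ 3 +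
        w * (1 / a ^ 2 + ε / a ^ 3 + ((K : ℝ) + 1) ^ 2 + ((K : ℝ) + 1) ^ 3 * (Q + 1 / M))) := by
  have h2a : 0 < 2 * a := by positivity
  have hs1 := sum_sq_mul_exp_le h2a ha1 (K + 1)
  have hs2 := sum_mul_exp_le h2a ha1 (K + 1)
  have hKpos : (0 : ℝ) ≤ (K : ℝ) + 1 := by positivity
  have hsum := Finset.sum_le_sum hf
  have hsplit : ∑ n ∈ range (K + 1), (82 * (Real.exp (-(2 * a * n)) *
        (((n : ℝ) + 1) ^ 2 * X + ((n : ℝ) + 1) * (2 * c5 * w) + ((n : ℝ) + 1) ^ 2 * (2 * ε * w))) +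
      3 / 2 * w * (((K : ℝ) + 1) ^ 2 * (64 * Q + 1 / M) + 2 * ((K : ℝ) + 1) * c5)) =
      82 * (X + 2 * ε * w) * (∑ n ∈ range (K + 1), ((n : ℝ) + 1) ^ 2 * Real.exp (-(2 * a * n))) +
      82 * (2 * c5 * w) * (∑ n ∈ range (K + 1), ((n : ℝ) + 1) * Real.exp (-(2 * a * n))) +
      ((K : ℝ) + 1) * (3 / 2 * w * (((K : ℝ) + 1) ^ 2 * (64 * Q + 1 / M) + 2 * ((K : ℝ) + 1) * c5)) := by
    rw [Finset.sum_add_distrib, Finset.sum_const, Finset.card_range, nsmul_eq_mul]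
    push_cast
    congr 1
    rw [Finset.mul_sum, Finset.mul_sum, ← Finset.sum_add_distrib]
    apply Finset.sum_congr rfl
    intro n _
    ring
  have h3 : (0 : ℝ) ≤ 1 / M := by positivity
  have ha3 : 64 / (2 * a) ^ 3 = 8 * (1 / a ^ 3) := by field_simp; norm_num
  have ha2 : 8 / (2 * a) ^ 2 = 2 * (1 / a ^ 2) := by field_simp; norm_num
  rw [ha3] at hs1
  rw [ha2] at hs2
  calc ∑ n ∈ range (K + 1), f n ≤ _ := hsum
    _ = _ := hsplit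
    _ ≤ 82 * (X + 2 * ε * w) * (8 * (1 / a ^ 3)) + 82 * (2 * c5 * w) * (2 * (1 / a ^ 2)) +
        ((K : ℝ) + 1) * (3 / 2 * w * (((K : ℝ) + 1) ^ 2 * (64 * Q + 1 / M) + 2 * ((K : ℝ) + 1) * c5)) := by
      have e1 := mul_le_mul_of_nonneg_left hs1 (show 0 ≤ 82 * (X + 2 * ε * w) by positivity)
      have e2 := mul_le_mul_of_nonneg_left hs2 (show 0 ≤ 82 * (2 * c5 * w) by positivity)
      linarith
    _ ≤ _ := by
      set A3 : ℝ := 1 / a ^ 3 with hA3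
      set A2 : ℝ := 1 / a ^ 2 with hA2
      set K1 : ℝ := (K : ℝ) + 1 with hK1
      set R : ℝ := 1 / M with hR
      have hA3n : 0 ≤ A3 := by positivity
      have hA2n : 0 ≤ A2 := by positivity
      have e1 : X / a ^ 3 = X * A3 := by rw [hA3]; ring
      have e2 : ε / a ^ 3 = ε * A3 := by rw [hA3]; ring
      rw [e1, e2]
      have hXA : 0 ≤ X * A3 := by positivity
      have hwA2 : 0 ≤ w * A2 := by positivity
      have hwA3 : 0 ≤ w * (ε * A3) := by positivity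
      have hwK2 : 0 ≤ w * K1 ^ 2 := by positivity
      have hwK3Q : 0 ≤ w * (K1 ^ 3 * Q) := by positivity
      have hwK3R : 0 ≤ w * (K1 ^ 3 * R) := by positivity
      have expand : 20000 * (c5 + 1) * (X * A3 + w * (A2 + ε * A3 + K1 ^ 2 + K1 ^ 3 * (Q + R))) =
          20000 * (c5 + 1) * (X * A3) + 20000 * (c5 + 1) * (w * A2) + 20000 * (c5 + 1) * (w * (ε * A3)) +
          20000 * (c5 + 1) * (w * K1 ^ 2) + 20000 * (c5 + 1) * (w * (K1 ^ 3 * Q)) +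
          20000 * (c5 + 1) * (w * (K1 ^ 3 * R)) := by ring
      have lhs : 82 * (X + 2 * ε * w) * (8 * A3) + 82 * (2 * c5 * w) * (2 * A2) +
          K1 * (3 / 2 * w * (K1 ^ 2 * (64 * Q + R) + 2 * K1 * c5)) =
          656 * (X * A3) + 1312 * (w * (ε * A3)) + 328 * c5 * (w * A2) + 3 * c5 * (w * K1 ^ 2) +
            96 * (w * (K1 ^ 3 * Q)) + 3 / 2 * (w * (K1 ^ 3 * R)) := by ring
      rw [expand, lhs]
      have hc : (1 : ℝ) ≤ c5 + 1 := by linarith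
      have b1 : 656 * (X * A3) ≤ 20000 * (c5 + 1) * (X * A3) :=
        mul_le_mul_of_nonneg_right (by linarith) hXA
      have b2 : 1312 * (w * (ε * A3)) ≤ 20000 * (c5 + 1) * (w * (ε * A3)) :=
        mul_le_mul_of_nonneg_right (by linarith) hwA3
      have b3 : 328 * c5 * (w * A2) ≤ 20000 * (c5 + 1) * (w * A2) :=
        mul_le_mul_of_nonneg_right (by linarith) hwA2
      have b4 : 3 * c5 * (w * K1 ^ 2) ≤ 20000 * (c5 + 1) * (w * K1 ^ 2) :=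
        mul_le_mul_of_nonneg_right (by linarith) hwK2
      have b5 : 96 * (w * (K1 ^ 3 * Q)) ≤ 20000 * (c5 + 1) * (w * (K1 ^ 3 * Q)) :=
        mul_le_mul_of_nonneg_right (by linarith) hwK3Q
      have b6 : 3 / 2 * (w * (K1 ^ 3 * R)) ≤ 20000 * (c5 + 1) * (w * (K1 ^ 3 * R)) :=
        mul_le_mul_of_nonneg_right (by linarith) hwK3R
      linarith

lemma ns_weight {a sb r₂ r' ρ : ℝ} {n : ℕ} (ha1 : 2 * a ≤ 1) (hsb : sb ≤ 1) (hr2 : 0 ≤ r₂)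
    (hrr : r₂ ≤ r') (hr1 : r' ≤ 1) (hkey : r' * Real.exp (-(2 * sb)) ≤ Real.exp (-(2 * a)))
    (hρ0 : 0 ≤ ρ) (hρ : ρ ≤ 3 / 2 * r₂ ^ n) (hn : 1 ≤ n) :
    ρ * Real.exp (-(2 * sb * ((n : ℝ) - 2))) ≤ 82 * Real.exp (-(2 * a * n)) := by
  have hr'0 : 0 ≤ r' := hr2.trans hrr
  have he3 : Real.exp 3 ≤ 54 := by
    have h := Real.exp_one_lt_d9
    have : Real.exp 3 = Real.exp 1 ^ 3 := by rw [← Real.exp_nat_mul]; norm_num
    rw [this]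
    have h0 := Real.exp_pos 1
    have : Real.exp 1 ^ 3 ≤ 3 ^ 3 := pow_le_pow_left₀ h0.le (by linarith) 3
    linarith
  rcases Nat.lt_or_ge n 2 with h | h
  · obtain rfl : n = 1 := by omega
    simp only [Nat.cast_one, pow_one] at hρ ⊢
    have hρ' : ρ ≤ 3 / 2 := by
      have : r₂ ≤ 1 := hrr.trans hr1
      linarith
    have h1 : Real.exp (-(2 * sb * ((1 : ℝ) - 2))) ≤ Real.exp 2 := by
      apply Real.exp_le_exp.2
      linarith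
    have h2 : ρ * Real.exp (-(2 * sb * ((1 : ℝ) - 2))) ≤ 3 / 2 * Real.exp 2 :=
      mul_le_mul hρ' h1 (Real.exp_pos _).le (by norm_num)
    refine h2.trans ?_
    have h3 : Real.exp (-1) ≤ Real.exp (-(2 * a * (1 : ℝ))) := by
      apply Real.exp_le_exp.2
      linarith
    have h7 : Real.exp 2 ≤ 54 * Real.exp (-1) := by
      have : Real.exp 2 = Real.exp 3 * Real.exp (-1) := by rw [← Real.exp_add]; norm_num
      rw [this]
      exact mul_le_mul_of_nonneg_right he3 (Real.exp_pos _).le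
    have h8 := Real.exp_pos (-(2 * a * (1 : ℝ)))
    linarith
  · obtain ⟨k, rfl⟩ : ∃ k, n = k + 2 := ⟨n - 2, by omega⟩
    have hcast : ((k + 2 : ℕ) : ℝ) - 2 = k := by push_cast; ring
    rw [hcast]
    have h1 : ρ ≤ 3 / 2 * r' ^ k := by
      refine hρ.trans ?_
      have h2 : r₂ ^ (k + 2) ≤ r' ^ (k + 2) := pow_le_pow_left₀ hr2 hrr _
      have h3 : r' ^ (k + 2) ≤ r' ^ k := pow_le_pow_of_le_one hr'0 hr1 (by omega)
      linarith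
    have h2 : Real.exp (-(2 * sb * k)) = Real.exp (-(2 * sb)) ^ k := by
      rw [← Real.exp_nat_mul]; congr 1; ring
    have h3 : r' ^ k * Real.exp (-(2 * sb)) ^ k ≤ Real.exp (-(2 * a)) ^ k := by
      rw [← mul_pow]
      exact pow_le_pow_left₀ (mul_nonneg hr'0 (Real.exp_pos _).le) hkey k
    have h4 : Real.exp (-(2 * a)) ^ k = Real.exp (-(2 * a * ((k + 2 : ℕ) : ℝ))) * Real.exp (4 * a) := by
      rw [← Real.exp_nat_mul, ← Real.exp_add]; congr 1; push_cast; ring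
    have h5 : Real.exp (4 * a) ≤ Real.exp 2 := Real.exp_le_exp.2 (by linarith)
    have h6 : Real.exp 2 ≤ 54 := by
      have : Real.exp 2 ≤ Real.exp 3 := Real.exp_le_exp.2 (by norm_num)
      linarith
    have h0e := Real.exp_pos (-(2 * a * ((k + 2 : ℕ) : ℝ)))
    have hle : ρ * Real.exp (-(2 * sb * k)) ≤ 3 / 2 * (r' ^ k * Real.exp (-(2 * sb)) ^ k) := by
      rw [h2]
      calc _ ≤ 3 / 2 * r' ^ k * Real.exp (-(2 * sb)) ^ k :=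
            mul_le_mul_of_nonneg_right h1 (by positivity)
        _ = _ := by ring
    have h7 : Real.exp (-(2 * a * ((k + 2 : ℕ) : ℝ))) * Real.exp (4 * a) ≤
        Real.exp (-(2 * a * ((k + 2 : ℕ) : ℝ))) * 54 :=
      mul_le_mul_of_nonneg_left (h5.trans h6) h0e.le
    nlinarith

lemma ns_r_lt {d : ℕ} {θ : ℝ} (hd : 3 ≤ d) (h0 : 0 ≤ θ) (hi : θ < thc d) : ((d : ℝ) - 1) * θ ^ 2 < 1 := by
  have hd' : (3 : ℝ) ≤ d := by exact_mod_cast hd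
  have hpos : 0 < (d : ℝ) - 1 := by linarith
  have hs : 0 < Real.sqrt ((d : ℝ) - 1) := Real.sqrt_pos.2 hpos
  have h1 : θ * Real.sqrt ((d : ℝ) - 1) < 1 := by
    unfold thc at hi
    rwa [lt_div_iff₀ hs] at hi
  have h2 : (θ * Real.sqrt ((d : ℝ) - 1)) ^ 2 < 1 := by
    have h3 : 0 ≤ θ * Real.sqrt ((d : ℝ) - 1) := by positivity
    nlinarith
  rw [mul_pow, Real.sq_sqrt hpos.le] at h2
  linarith

lemma ns_thc_pos {d : ℕ} (hd : 3 ≤ d) : 0 < thc d := by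
  have hd' : (3 : ℝ) ≤ d := by exact_mod_cast hd
  have hpos : 0 < (d : ℝ) - 1 := by linarith
  unfold thc
  have : 0 < Real.sqrt ((d : ℝ) - 1) := Real.sqrt_pos.2 hpos
  positivity

lemma ns_thc_le {d : ℕ} (hd : 3 ≤ d) : thc d ≤ 1 := by
  have hd' : (3 : ℝ) ≤ d := by exact_mod_cast hd
  unfold thc
  have h1 : (1 : ℝ) ≤ Real.sqrt ((d : ℝ) - 1) := by
    rw [Real.one_le_sqrt]
    linarith
  rw [div_le_one (by linarith)]
  exact h1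

lemma ns_rate_le {d : ℕ} {T t : ℝ} (hd : 3 ≤ d) (hT1 : 1 ≤ T) (ht0 : 0 < t) (ht : t ≤ T) :
    2 * rate d T t ≤ 1 := by
  have h0 := ns_thc_pos hd
  have h1 := ns_thc_le hd
  have hsT : 0 < Real.sqrt T := Real.sqrt_pos.2 (by linarith)
  have hst : Real.sqrt t ≤ Real.sqrt T := Real.sqrt_le_sqrt ht
  have hst0 : 0 ≤ Real.sqrt t := Real.sqrt_nonneg t
  have hA : (thc d / 2) ^ 2 * (1 - thc d) ^ 2 ≤ 1 := by
    have h2 : (thc d / 2) ^ 2 ≤ 1 := by nlinarith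
    have h3 : (1 - thc d) ^ 2 ≤ 1 := by nlinarith
    have h4 : 0 ≤ (1 - thc d) ^ 2 := by positivity
    nlinarith
  have hc : c1 d T ≤ 1 / (148 * Real.sqrt T) := by
    unfold c1
    calc _ ≤ min ((thc d / 2) ^ 2 * (1 - thc d) ^ 2 / (148 * Real.sqrt T))
          (Real.log ((d : ℝ) - 1) / (16 * Real.sqrt T)) := min_le_right _ _
      _ ≤ (thc d / 2) ^ 2 * (1 - thc d) ^ 2 / (148 * Real.sqrt T) := min_le_left _ _
      _ ≤ _ := div_le_div_of_nonneg_right hA (by positivity)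
  have hc0 : 0 < c1 d T := c1_pos hd hT1
  unfold rate
  have h5 : c1 d T * Real.sqrt t ≤ 1 / (148 * Real.sqrt T) * Real.sqrt T :=
    mul_le_mul hc hst hst0 (by positivity)
  have h6 : 1 / (148 * Real.sqrt T) * Real.sqrt T = 1 / 148 := by
    field_simp
  linarith

lemma ns_int_shat_le {θ : ℝ} {t T : ℝ} (s : Sys G d T θ t ξ₁ m₁) (hd : 3 ≤ d) (x y : V) :
    ∫ U, shat θ (ξ₁ U x y) ∂iidUniform V ≤ 1 := by
  have hthc := ns_thc_pos hd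
  have hthc1 := ns_thc_le hd
  have h0 : 0 ≤ θ := by linarith [s.lo]
  have h1 : θ < 1 := lt_of_lt_of_le s.hi hthc1
  have h2 : ∫ U, shat θ (ξ₁ U x y) ∂iidUniform V ≤ ∫ _U, (1 : ℝ) ∂iidUniform V :=
    integral_mono_of_nonneg (Filter.Eventually.of_forall fun U => shat_nonneg h0 h1 (s.abs_ξ U x y))
      (integrable_const _) (Filter.Eventually.of_forall fun U => shat_le_one θ _)
  simpa using h2


lemma ns_card_pure {D θ : ℝ} (hD : 3 ≤ D) (hθ : 0 ≤ θ) (m : ℕ) :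
    D * (D - 1) ^ m * θ ^ (2 * (m + 1)) ≤ 3 / 2 * ((D - 1) * θ ^ 2) ^ (m + 1) := by
  have h0 : 0 ≤ D - 1 := by linarith
  have h1 : ((D - 1) * θ ^ 2) ^ (m + 1) = (D - 1) ^ m * (D - 1) * θ ^ (2 * (m + 1)) := by
    rw [mul_pow, ← pow_mul, pow_succ]
  rw [h1]
  have h2 : 0 ≤ (D - 1) ^ m * θ ^ (2 * (m + 1)) := by positivity
  have h3 : D ≤ 3 / 2 * (D - 1) := by linarith
  calc D * (D - 1) ^ m * θ ^ (2 * (m + 1)) = D * ((D - 1) ^ m * θ ^ (2 * (m + 1))) := by ring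
    _ ≤ 3 / 2 * (D - 1) * ((D - 1) ^ m * θ ^ (2 * (m + 1))) := mul_le_mul_of_nonneg_right h3 h2
    _ = _ := by ring

lemma ns_term_pure {ρ e0 eA φ w c5 ε M Q Sn n K : ℝ} (hρ0 : 0 ≤ ρ) (hρ : ρ ≤ 3 / 2)
    (hW : ρ * e0 ≤ 82 * eA) (he0 : 0 ≤ e0) (heA : 0 ≤ eA) (hw : 0 ≤ w) (hc5 : 0 ≤ c5) (hε : 0 ≤ ε)
    (hM : 0 < M) (hn : 0 ≤ n) (hnK : n ≤ K) (hSn0 : 0 ≤ Sn) (hS : Sn ≤ 32 * Q) :
    ρ * (e0 * (n ^ 2 * φ ^ 2 + 2 * n * c5 * w + 2 * ε * n ^ 2 * w) +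
        w * (n ^ 2 * (2 * Sn + 1 / M) + 2 * n * c5)) ≤
      82 * (eA * ((n + 1) ^ 2 * φ ^ 2 + (n + 1) * (2 * c5 * w) + (n + 1) ^ 2 * (2 * ε * w))) +
      3 / 2 * w * ((K + 1) ^ 2 * (64 * Q + 1 / M) + 2 * (K + 1) * c5) := by
  have hbr : n ^ 2 * φ ^ 2 + 2 * n * c5 * w + 2 * ε * n ^ 2 * w ≤
      (n + 1) ^ 2 * φ ^ 2 + (n + 1) * (2 * c5 * w) + (n + 1) ^ 2 * (2 * ε * w) := by
    have h1 : n ^ 2 ≤ (n + 1) ^ 2 := by nlinarith
    have h2 : n ≤ n + 1 := by linarith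
    have e1 : n ^ 2 * φ ^ 2 ≤ (n + 1) ^ 2 * φ ^ 2 := mul_le_mul_of_nonneg_right h1 (sq_nonneg φ)
    have e2 : 2 * n * c5 * w = n * (2 * c5 * w) := by ring
    have e3 : n * (2 * c5 * w) ≤ (n + 1) * (2 * c5 * w) :=
      mul_le_mul_of_nonneg_right h2 (by positivity)
    have e4 : 2 * ε * n ^ 2 * w = n ^ 2 * (2 * ε * w) := by ring
    have e5 : n ^ 2 * (2 * ε * w) ≤ (n + 1) ^ 2 * (2 * ε * w) :=
      mul_le_mul_of_nonneg_right h1 (by positivity)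
    linarith
  have hbr0 : 0 ≤ n ^ 2 * φ ^ 2 + 2 * n * c5 * w + 2 * ε * n ^ 2 * w := by positivity
  have hpart1 : ρ * e0 * (n ^ 2 * φ ^ 2 + 2 * n * c5 * w + 2 * ε * n ^ 2 * w) ≤
      82 * (eA * ((n + 1) ^ 2 * φ ^ 2 + (n + 1) * (2 * c5 * w) + (n + 1) ^ 2 * (2 * ε * w))) := by
    calc _ ≤ 82 * eA * ((n + 1) ^ 2 * φ ^ 2 + (n + 1) * (2 * c5 * w) + (n + 1) ^ 2 * (2 * ε * w)) :=
          mul_le_mul hW hbr hbr0 (by positivity)
      _ = _ := by ring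
  have hnK1 : n ≤ K + 1 := by linarith
  have hn2 : n ^ 2 ≤ (K + 1) ^ 2 := pow_le_pow_left₀ hn hnK1 2
  have hM1 : 0 ≤ 1 / M := by positivity
  have hQ0 : 0 ≤ Q := by linarith
  have hinner : n ^ 2 * (2 * Sn + 1 / M) + 2 * n * c5 ≤ (K + 1) ^ 2 * (64 * Q + 1 / M) + 2 * (K + 1) * c5 := by
    have e1 : 2 * Sn + 1 / M ≤ 64 * Q + 1 / M := by linarith
    have e2 : n ^ 2 * (2 * Sn + 1 / M) ≤ (K + 1) ^ 2 * (64 * Q + 1 / M) :=
      mul_le_mul hn2 e1 (by positivity) (by positivity)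
    have e3 : 2 * n * c5 ≤ 2 * (K + 1) * c5 := by
      apply mul_le_mul_of_nonneg_right _ hc5
      linarith
    linarith
  have hinner0 : 0 ≤ n ^ 2 * (2 * Sn + 1 / M) + 2 * n * c5 := by positivity
  have hpart2 : ρ * (w * (n ^ 2 * (2 * Sn + 1 / M) + 2 * n * c5)) ≤
      3 / 2 * w * ((K + 1) ^ 2 * (64 * Q + 1 / M) + 2 * (K + 1) * c5) := by
    calc _ ≤ 3 / 2 * (w * ((K + 1) ^ 2 * (64 * Q + 1 / M) + 2 * (K + 1) * c5)) :=
          mul_le_mul hρ (mul_le_mul_of_nonneg_left hinner hw) (by positivity) (by norm_num)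
      _ = _ := by ring
  have hsplit : ρ * (e0 * (n ^ 2 * φ ^ 2 + 2 * n * c5 * w + 2 * ε * n ^ 2 * w) +
        w * (n ^ 2 * (2 * Sn + 1 / M) + 2 * n * c5)) =
      ρ * e0 * (n ^ 2 * φ ^ 2 + 2 * n * c5 * w + 2 * ε * n ^ 2 * w) +
        ρ * (w * (n ^ 2 * (2 * Sn + 1 / M) + 2 * n * c5)) := by ring
  rw [hsplit]
  exact add_le_add hpart1 hpart2

lemma ns_sqrt_pure {M n K C e c5 t κ ε : ℝ} (hM : 0 ≤ M) (hn : 0 ≤ n) (hnK : n ≤ K) (hC : 0 ≤ C)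
    (he : 0 ≤ e) (hc5 : 0 ≤ c5) (ht : 0 ≤ t) :
    Real.sqrt (M * (2 * n * C * e + 32 * n * c5 * (32 * C * t / κ ^ 2) / ε ^ 2)) ≤
      32 * Real.sqrt (M * (K * C * e + K * c5 * (C * t / κ ^ 2) / ε ^ 2)) := by
  have hK : 0 ≤ K := hn.trans hnK
  have hD : 0 ≤ C * t / κ ^ 2 := by positivity
  have hF : 0 ≤ c5 * (C * t / κ ^ 2) / ε ^ 2 := by positivity
  have hCe : 0 ≤ C * e := by positivity
  have h1 : M * (2 * n * C * e + 32 * n * c5 * (32 * C * t / κ ^ 2) / ε ^ 2) ≤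
      32 ^ 2 * (M * (K * C * e + K * c5 * (C * t / κ ^ 2) / ε ^ 2)) := by
    have e1 : 2 * n * C * e ≤ 32 ^ 2 * (K * C * e) := by
      have hnn : 2 * n ≤ 32 ^ 2 * K := by linarith
      calc 2 * n * C * e = (2 * n) * (C * e) := by ring
        _ ≤ (32 ^ 2 * K) * (C * e) := mul_le_mul_of_nonneg_right hnn hCe
        _ = _ := by ring
    have e2 : 32 * n * c5 * (32 * C * t / κ ^ 2) / ε ^ 2 ≤
        32 ^ 2 * (K * c5 * (C * t / κ ^ 2) / ε ^ 2) := by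
      calc 32 * n * c5 * (32 * C * t / κ ^ 2) / ε ^ 2 =
          32 ^ 2 * (n * (c5 * (C * t / κ ^ 2) / ε ^ 2)) := by ring
        _ ≤ 32 ^ 2 * (K * (c5 * (C * t / κ ^ 2) / ε ^ 2)) := by
            apply mul_le_mul_of_nonneg_left _ (by norm_num)
            exact mul_le_mul_of_nonneg_right hnK hF
        _ = _ := by ring
    calc _ ≤ M * (32 ^ 2 * (K * C * e) + 32 ^ 2 * (K * c5 * (C * t / κ ^ 2) / ε ^ 2)) :=
          mul_le_mul_of_nonneg_left (add_le_add e1 e2) hM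
      _ = _ := by ring
  have h2 := Real.sqrt_le_sqrt h1
  have h3 : Real.sqrt (32 ^ 2 * (M * (K * C * e + K * c5 * (C * t / κ ^ 2) / ε ^ 2))) =
      32 * Real.sqrt (M * (K * C * e + K * c5 * (C * t / κ ^ 2) / ε ^ 2)) := by
    rw [Real.sqrt_mul (by norm_num), Real.sqrt_sq (by norm_num)]
  rw [h3] at h2
  exact h2

lemma ns_aux_key {D θ sb a : ℝ} (hpos : 0 < D * θ ^ 2) (h : 2 * a ≤ -Real.log (D * θ ^ 2) + 2 * sb) :
    D * θ ^ 2 * Real.exp (-(2 * sb)) ≤ Real.exp (-(2 * a)) := by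
  calc D * θ ^ 2 * Real.exp (-(2 * sb)) = Real.exp (Real.log (D * θ ^ 2) + -(2 * sb)) := by
        rw [Real.exp_add, Real.exp_log hpos]
    _ ≤ _ := Real.exp_le_exp.2 (by linarith)

/-- F5. Sum of the near part over the spheres of radius at most `K`: the geometric factor. Write
`a = rate d T t`, `φ = ∫ dh`, `v = ∫ dh²`. Uses `near_path`, `card_sph`, `Sys.rate_shat`, `θ₂ ≤ θ₁`,
`sum_mul_exp_le`, `sum_sq_mul_exp_le`. -/
theorem near_sum (hT : G.IsTree) (hd : 3 ≤ d) (hreg : G.IsRegularOfDegree d) (hT1 : 1 ≤ T)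
    (s₁ : Sys G d T θ₁ t ξ₁ m₁) (s₂ : Sys G d T θ₂ t ξ₂ m₂) (hθ : θ₂ ≤ θ₁) {x₀ y₀ : V}
    (h₀ : G.Adj x₀ y₀) (r : V) (K : ℕ) {ε M : ℝ} (hε : 0 < ε) (hε1 : ε ≤ 1) (hM : 1 ≤ M) :
    ∑ n ∈ range (K + 1), ∑ v ∈ sph G r n, ∫ U,
        (θ₂ ^ n * (prodG G θ₁ (ξ₁ U) r v - prodG G θ₂ (ξ₂ U) r v)) ^ 2 ∂iidUniform V ≤
      20000 * (kapSum d + 1) * ((∫ U, dh θ₁ θ₂ ξ₁ ξ₂ x₀ y₀ U ∂iidUniform V) ^ 2 / rate d T t ^ 3 +
        (∫ U, dh θ₁ θ₂ ξ₁ ξ₂ x₀ y₀ U ^ 2 ∂iidUniform V) *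
          (1 / rate d T t ^ 2 + ε / rate d T t ^ 3 + ((K : ℝ) + 1) ^ 2 +
            ((K : ℝ) + 1) ^ 3 * (Real.sqrt (M * ((K : ℝ) * Ce d T *
              Real.exp (-(kap0 d T / (4 * Real.sqrt t))) +
              (K : ℝ) * kapSum d * (Ce d T * t / kap0 d T ^ 2) / ε ^ 2)) + 1 / M))) := by
  have hd' : (3 : ℝ) ≤ d := by exact_mod_cast hd
  have hthc := ns_thc_pos hd
  have ht0 : 0 < t := s₁.ht
  have htT : t ≤ T := s₁.htT
  have hT0 : 0 ≤ T := by linarith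
  have hθ₂0 : 0 < θ₂ := by linarith [s₂.lo]
  have hθ₁0 : 0 < θ₁ := by linarith [s₁.lo]
  have hr₁ := ns_r_lt hd hθ₁0.le s₁.hi
  have hr₂ := ns_r_lt hd hθ₂0.le s₂.hi
  have hdm : 0 < (d : ℝ) - 1 := by linarith
  have hc : 0 < c1 d T := c1_pos hd hT1
  have hE : 0 ≤ Ce d T := by
    have hC2 : 0 < C2 d (C0 d T) := by
      unfold C2 C0
      positivity
    have hC3 : 0 < C3 d T := by
      unfold C3
      positivity
    unfold Ce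
    positivity
  have hc5 : 0 ≤ kapSum d := by
    unfold kapSum
    positivity
  have ha : 0 < rate d T t := by
    unfold rate
    have := Real.sqrt_pos.2 ht0
    positivity
  have ha1 : 2 * rate d T t ≤ 1 := ns_rate_le hd hT1 ht0 htT
  have hw0 : 0 ≤ ∫ U, dh θ₁ θ₂ ξ₁ ξ₂ x₀ y₀ U ^ 2 ∂iidUniform V := integral_nonneg fun U => sq_nonneg _
  have hsb1le : ∫ U, shat θ₁ (ξ₁ U x₀ y₀) ∂iidUniform V ≤ 1 := ns_int_shat_le s₁ hd x₀ y₀
  have hsb2le : ∫ U, shat θ₂ (ξ₂ U x₀ y₀) ∂iidUniform V ≤ 1 := ns_int_shat_le s₂ hd x₀ y₀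
  have hr20 : 0 ≤ ((d : ℝ) - 1) * θ₂ ^ 2 := by positivity
  obtain ⟨r', hrr, hr'1, hkey⟩ : ∃ r' : ℝ, ((d : ℝ) - 1) * θ₂ ^ 2 ≤ r' ∧ r' ≤ 1 ∧
      r' * Real.exp (-(2 * min (∫ U, shat θ₁ (ξ₁ U x₀ y₀) ∂iidUniform V)
        (∫ U, shat θ₂ (ξ₂ U x₀ y₀) ∂iidUniform V))) ≤ Real.exp (-(2 * rate d T t)) := by
    rcases le_total (∫ U, shat θ₁ (ξ₁ U x₀ y₀) ∂iidUniform V)
      (∫ U, shat θ₂ (ξ₂ U x₀ y₀) ∂iidUniform V) with h | h
    · refine ⟨((d : ℝ) - 1) * θ₁ ^ 2, ?_, hr₁.le, ?_⟩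
      · apply mul_le_mul_of_nonneg_left _ hdm.le
        exact pow_le_pow_left₀ hθ₂0.le hθ 2
      · rw [min_eq_left h]
        exact ns_aux_key (by positivity) (s₁.rate_shat x₀ y₀ h₀)
    · refine ⟨((d : ℝ) - 1) * θ₂ ^ 2, le_rfl, hr₂.le, ?_⟩
      rw [min_eq_right h]
      exact ns_aux_key (by positivity) (s₂.rate_shat x₀ y₀ h₀)
  have hsble : min (∫ U, shat θ₁ (ξ₁ U x₀ y₀) ∂iidUniform V)
      (∫ U, shat θ₂ (ξ₂ U x₀ y₀) ∂iidUniform V) ≤ 1 := (min_le_left _ _).trans hsb1le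
  have hM0 : 0 < M := by linarith
  apply ns_sum_pure ha ha1 (sq_nonneg _) hw0 hc5 hε hM (Real.sqrt_nonneg _)
  intro n hn
  have hnK : (n : ℝ) ≤ K := by
    rw [Finset.mem_range] at hn
    have : n ≤ K := by omega
    exact_mod_cast this
  rcases Nat.eq_zero_or_pos n with rfl | hnpos
  · have h0 : ∀ v ∈ sph G r 0, ∫ U, (θ₂ ^ 0 * (prodG G θ₁ (ξ₁ U) r v - prodG G θ₂ (ξ₂ U) r v)) ^ 2 ∂iidUniform V = 0 := by
      intro v hv
      have hv0 : G.dist r v = 0 := (mem_sph hT).1 hv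
      have h1 : ∀ U, (θ₂ ^ 0 * (prodG G θ₁ (ξ₁ U) r v - prodG G θ₂ (ξ₂ U) r v)) ^ 2 = 0 := by
        intro U
        unfold prodG
        rw [hv0]
        simp
      rw [integral_congr_ae (Filter.Eventually.of_forall h1)]
      simp
    rw [Finset.sum_eq_zero h0]
    have hQ0 := Real.sqrt_nonneg (M * ((K : ℝ) * Ce d T * Real.exp (-(kap0 d T / (4 * Real.sqrt t))) +
      (K : ℝ) * kapSum d * (Ce d T * t / kap0 d T ^ 2) / ε ^ 2))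
    positivity
  have hcard : ((sph G r n).card : ℝ) * θ₂ ^ (2 * n) ≤ 3 / 2 * (((d : ℝ) - 1) * θ₂ ^ 2) ^ n := by
    obtain ⟨m, rfl⟩ : ∃ m, n = m + 1 := ⟨n - 1, by omega⟩
    rw [card_sph hT (by omega) hreg r m]
    have hcast : (((d * (d - 1) ^ m : ℕ)) : ℝ) = d * ((d : ℝ) - 1) ^ m := by
      push_cast [Nat.cast_sub (show 1 ≤ d by omega)]
      ring
    rw [hcast]
    exact ns_card_pure hd' hθ₂0.le m
  have hρ0 : 0 ≤ ((sph G r n).card : ℝ) * θ₂ ^ (2 * n) := by positivity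
  have hρ32 : ((sph G r n).card : ℝ) * θ₂ ^ (2 * n) ≤ 3 / 2 := by
    refine hcard.trans ?_
    have : (((d : ℝ) - 1) * θ₂ ^ 2) ^ n ≤ 1 := pow_le_one₀ hr20 hr₂.le
    linarith
  have hW := ns_weight ha1 hsble hr20 hrr hr'1 hkey hρ0 hcard hnpos
  have hterm : ∀ v ∈ sph G r n, ∫ U, (θ₂ ^ n * (prodG G θ₁ (ξ₁ U) r v - prodG G θ₂ (ξ₂ U) r v)) ^ 2 ∂iidUniform V ≤
      θ₂ ^ (2 * n) * (Real.exp (-(2 * min (∫ U, shat θ₁ (ξ₁ U x₀ y₀) ∂iidUniform V)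
          (∫ U, shat θ₂ (ξ₂ U x₀ y₀) ∂iidUniform V) * ((n : ℝ) - 2))) *
        ((n : ℝ) ^ 2 * (∫ U, dh θ₁ θ₂ ξ₁ ξ₂ x₀ y₀ U ∂iidUniform V) ^ 2 +
          2 * n * kapSum d * ∫ U, dh θ₁ θ₂ ξ₁ ξ₂ x₀ y₀ U ^ 2 ∂iidUniform V +
          2 * ε * (n : ℝ) ^ 2 * ∫ U, dh θ₁ θ₂ ξ₁ ξ₂ x₀ y₀ U ^ 2 ∂iidUniform V) +
      (∫ U, dh θ₁ θ₂ ξ₁ ξ₂ x₀ y₀ U ^ 2 ∂iidUniform V) *
        ((n : ℝ) ^ 2 * (2 * Real.sqrt (M * (2 * n * Ce d T *
            Real.exp (-(kap0 d T / (4 * Real.sqrt t))) +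
            32 * n * kapSum d * (32 * Ce d T * t / kap0 d T ^ 2) / ε ^ 2)) + 1 / M) +
          2 * n * kapSum d)) := by
    intro v hv
    have hvn : G.dist r v = n := (mem_sph hT).1 hv
    have hnp := near_path hT hd hreg hT1 s₁ s₂ h₀ r v hε hε1 hM
    rw [hvn] at hnp
    have h1 : ∀ U, (θ₂ ^ n * (prodG G θ₁ (ξ₁ U) r v - prodG G θ₂ (ξ₂ U) r v)) ^ 2 =
        θ₂ ^ (2 * n) * (prodG G θ₁ (ξ₁ U) r v - prodG G θ₂ (ξ₂ U) r v) ^ 2 := by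
      intro U
      rw [mul_pow, ← pow_mul, mul_comm n 2]
    rw [integral_congr_ae (Filter.Eventually.of_forall h1), integral_const_mul]
    exact mul_le_mul_of_nonneg_left hnp (by positivity)
  have hsumle := Finset.sum_le_sum hterm
  rw [Finset.sum_const, nsmul_eq_mul, ← mul_assoc] at hsumle
  refine hsumle.trans ?_
  have hS := ns_sqrt_pure (κ := kap0 d T) (ε := ε) (e := Real.exp (-(kap0 d T / (4 * Real.sqrt t))))
    hM0.le (Nat.cast_nonneg n) hnK hE (Real.exp_pos _).le hc5 ht0.le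
  exact ns_term_pure hρ0 hρ32 hW (Real.exp_pos _).le (Real.exp_pos _).le hw0 hc5 hε.le hM0
    (Nat.cast_nonneg n) hnK (Real.sqrt_nonneg _) hS

end Vale.Agent.Lib.P161E
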