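import Vale.Agent.Lib.P161E.TwoNear2

/-! Job F5p: real analysis of the coefficient at small time. -/

open MeasureTheory Finset
open scoped Classical ENNReal

noncomputable section

namespace Vale.Agent.Lib.P161E

open Vale.Agent.Lib.P161

variable {V : Type*} {G : SimpleGraph V} [G.LocallyFinite] {d : ℕ} {T θ₁ θ₂ t : ℝ}
  {ξ₁ ξ₂ : (V → unitInterval) → V → V → ℝ} {m₁ m₂ : (V → unitInterval) → V → ℝ}

lemma nc_inv_pow_mono {v : ℝ} (h0 : 0 < v) (h1 : v < 1) {n m : ℕ} (h : n ≤ m) :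
    (v ^ n)⁻¹ ≤ (v ^ m)⁻¹ :=
  inv_anti₀ (pow_pos h0 m) (pow_le_pow_of_le_one h0.le h1.le h)

lemma nc_exp_neg_le_two_div {y : ℝ} (hy : 0 < y) : Real.exp (-y) ≤ 2 / y ^ 2 := by
  have h := Real.quadratic_le_exp_of_nonneg hy.le
  rw [Real.exp_neg, inv_eq_one_div, div_le_div_iff₀ (Real.exp_pos y) (by positivity)]
  nlinarith [sq_nonneg y]

lemma nc_near_core {c κ E S : ℝ} (hc : 0 < c) (hκ : 0 < κ) (hE : 0 ≤ E) (hS : 0 ≤ S)
    {v K : ℝ} (hv0 : 0 < v) (hv1 : v < 1) (hK : 0 ≤ K) (hKB : K + 1 ≤ (2048 / c + 2) / v ^ 65) :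
    v ^ 64 * (1 / (c * v ^ 64) ^ 2 + v ^ 16 / (c * v ^ 64) ^ 3 + (K + 1) ^ 2 +
      (K + 1) ^ 3 * (Real.sqrt ((v ^ 8)⁻¹ * (K * E * Real.exp (-(κ / (4 * v ^ 64))) +
        K * S * (E * v ^ 128 / κ ^ 2) / (v ^ 16) ^ 2)) + 1 / (v ^ 8)⁻¹)) ≤
    (1 / c ^ 2 + 1 / c ^ 3 + (2048 / c + 2) ^ 2 +
      (2048 / c + 2) ^ 3 * Real.sqrt ((2048 / c + 2) * E * (32 + S) / κ ^ 2) + (2048 / c + 2) ^ 3) *
      (v ^ 124)⁻¹ := by
  set B : ℝ := 2048 / c + 2 with hB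
  have hBpos : 0 < B := by positivity
  set D : ℝ := Real.sqrt (B * E * (32 + S) / κ ^ 2) with hD
  have hD0 : 0 ≤ D := Real.sqrt_nonneg _
  have hvn : ∀ n : ℕ, 0 < v ^ n := fun n => pow_pos hv0 n
  have hK1 : 0 ≤ K + 1 := by linarith
  have hK2 : K ≤ B / v ^ 65 := by linarith
  -- first term
  have t1 : v ^ 64 * (1 / (c * v ^ 64) ^ 2) ≤ 1 / c ^ 2 * (v ^ 124)⁻¹ := by
    have : v ^ 64 * (1 / (c * v ^ 64) ^ 2) = 1 / c ^ 2 * (v ^ 64)⁻¹ := by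
      have := (hvn 64).ne'
      field_simp
    rw [this]
    exact mul_le_mul_of_nonneg_left (nc_inv_pow_mono hv0 hv1 (by norm_num)) (by positivity)
  have t2 : v ^ 64 * (v ^ 16 / (c * v ^ 64) ^ 3) ≤ 1 / c ^ 3 * (v ^ 124)⁻¹ := by
    have : v ^ 64 * (v ^ 16 / (c * v ^ 64) ^ 3) = 1 / c ^ 3 * (v ^ 112)⁻¹ := by
      have h1 := hv0.ne'
      field_simp
    rw [this]
    exact mul_le_mul_of_nonneg_left (nc_inv_pow_mono hv0 hv1 (by norm_num)) (by positivity)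
  have hpow2 : (K + 1) ^ 2 ≤ (B / v ^ 65) ^ 2 := pow_le_pow_left₀ hK1 hKB 2
  have hpow3 : (K + 1) ^ 3 ≤ (B / v ^ 65) ^ 3 := pow_le_pow_left₀ hK1 hKB 3
  have t3 : v ^ 64 * (K + 1) ^ 2 ≤ B ^ 2 * (v ^ 124)⁻¹ := by
    have h1 : v ^ 64 * (B / v ^ 65) ^ 2 = B ^ 2 * (v ^ 66)⁻¹ := by
      have h1 := hv0.ne'
      field_simp
    calc v ^ 64 * (K + 1) ^ 2 ≤ v ^ 64 * (B / v ^ 65) ^ 2 :=
          mul_le_mul_of_nonneg_left hpow2 (hvn 64).le
      _ = B ^ 2 * (v ^ 66)⁻¹ := h1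
      _ ≤ _ := mul_le_mul_of_nonneg_left (nc_inv_pow_mono hv0 hv1 (by norm_num)) (by positivity)
  -- the square root
  have hexp : Real.exp (-(κ / (4 * v ^ 64))) ≤ 32 * v ^ 128 / κ ^ 2 := by
    have hy : 0 < κ / (4 * v ^ 64) := by positivity
    refine (nc_exp_neg_le_two_div hy).trans (le_of_eq ?_)
    have h1 := hv0.ne'
    field_simp
    ring
  have hZ : (v ^ 8)⁻¹ * (K * E * Real.exp (-(κ / (4 * v ^ 64))) +
      K * S * (E * v ^ 128 / κ ^ 2) / (v ^ 16) ^ 2) ≤ (D * v ^ 11) ^ 2 := by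
    have hD2 : D ^ 2 = B * E * (32 + S) / κ ^ 2 := Real.sq_sqrt (by positivity)
    have h1 : K * E * Real.exp (-(κ / (4 * v ^ 64))) ≤ B / v ^ 65 * E * (32 * v ^ 128 / κ ^ 2) := by
      have : K * E ≤ B / v ^ 65 * E := mul_le_mul_of_nonneg_right hK2 hE
      exact (mul_le_mul_of_nonneg_right this (Real.exp_pos _).le).trans
        (mul_le_mul_of_nonneg_left hexp (by positivity))
    have h2 : K * S * (E * v ^ 128 / κ ^ 2) / (v ^ 16) ^ 2 ≤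
        B / v ^ 65 * S * (E * v ^ 128 / κ ^ 2) / (v ^ 16) ^ 2 := by
      have : K * S ≤ B / v ^ 65 * S := mul_le_mul_of_nonneg_right hK2 hS
      exact div_le_div_of_nonneg_right (mul_le_mul_of_nonneg_right this (by positivity)) (by positivity)
    have h3 : (v ^ 8)⁻¹ * (B / v ^ 65 * E * (32 * v ^ 128 / κ ^ 2) +
        B / v ^ 65 * S * (E * v ^ 128 / κ ^ 2) / (v ^ 16) ^ 2) =
        B * E / κ ^ 2 * (32 * v ^ 55 + S * v ^ 23) := by
      have h1 := hv0.ne'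
      field_simp
    have h4 : B * E / κ ^ 2 * (32 * v ^ 55 + S * v ^ 23) ≤ (D * v ^ 11) ^ 2 := by
      rw [mul_pow, hD2]
      have h55 : v ^ 55 ≤ v ^ 22 := pow_le_pow_of_le_one hv0.le hv1.le (by norm_num)
      have h23 : v ^ 23 ≤ v ^ 22 := pow_le_pow_of_le_one hv0.le hv1.le (by norm_num)
      have : 32 * v ^ 55 + S * v ^ 23 ≤ (32 + S) * v ^ 22 := by nlinarith
      calc B * E / κ ^ 2 * (32 * v ^ 55 + S * v ^ 23) ≤ B * E / κ ^ 2 * ((32 + S) * v ^ 22) :=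
            mul_le_mul_of_nonneg_left this (by positivity)
        _ = B * E * (32 + S) / κ ^ 2 * (v ^ 11) ^ 2 := by ring
    calc _ ≤ (v ^ 8)⁻¹ * (B / v ^ 65 * E * (32 * v ^ 128 / κ ^ 2) +
          B / v ^ 65 * S * (E * v ^ 128 / κ ^ 2) / (v ^ 16) ^ 2) :=
          mul_le_mul_of_nonneg_left (add_le_add h1 h2) (inv_nonneg.2 (hvn 8).le)
      _ = _ := h3
      _ ≤ _ := h4
  have hsqrt : Real.sqrt ((v ^ 8)⁻¹ * (K * E * Real.exp (-(κ / (4 * v ^ 64))) +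
      K * S * (E * v ^ 128 / κ ^ 2) / (v ^ 16) ^ 2)) ≤ D * v ^ 11 :=
    Real.sqrt_le_iff.2 ⟨by positivity, hZ⟩
  have t4 : v ^ 64 * ((K + 1) ^ 3 * Real.sqrt ((v ^ 8)⁻¹ * (K * E * Real.exp (-(κ / (4 * v ^ 64))) +
      K * S * (E * v ^ 128 / κ ^ 2) / (v ^ 16) ^ 2))) ≤ B ^ 3 * D * (v ^ 124)⁻¹ := by
    have h1 : v ^ 64 * ((B / v ^ 65) ^ 3 * (D * v ^ 11)) = B ^ 3 * D * (v ^ 120)⁻¹ := by
      have h1 := hv0.ne'
      field_simp
    calc _ ≤ v ^ 64 * ((B / v ^ 65) ^ 3 * (D * v ^ 11)) := by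
          apply mul_le_mul_of_nonneg_left _ (hvn 64).le
          exact mul_le_mul hpow3 hsqrt (Real.sqrt_nonneg _) (by positivity)
      _ = _ := h1
      _ ≤ _ := mul_le_mul_of_nonneg_left (nc_inv_pow_mono hv0 hv1 (by norm_num)) (by positivity)
  have t5 : v ^ 64 * ((K + 1) ^ 3 * (1 / (v ^ 8)⁻¹)) ≤ B ^ 3 * (v ^ 124)⁻¹ := by
    have h1 : v ^ 64 * ((B / v ^ 65) ^ 3 * (1 / (v ^ 8)⁻¹)) = B ^ 3 * (v ^ 123)⁻¹ := by
      have h1 := hv0.ne'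
      field_simp
    calc _ ≤ v ^ 64 * ((B / v ^ 65) ^ 3 * (1 / (v ^ 8)⁻¹)) := by
          apply mul_le_mul_of_nonneg_left _ (hvn 64).le
          exact mul_le_mul_of_nonneg_right hpow3 (by positivity)
      _ = _ := h1
      _ ≤ _ := mul_le_mul_of_nonneg_left (nc_inv_pow_mono hv0 hv1 (by norm_num)) (by positivity)
  have := add_le_add (add_le_add (add_le_add (add_le_add t1 t2) t3) t4) t5
  calc _ = v ^ 64 * (1 / (c * v ^ 64) ^ 2) + v ^ 64 * (v ^ 16 / (c * v ^ 64) ^ 3) +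
        v ^ 64 * (K + 1) ^ 2 +
        v ^ 64 * ((K + 1) ^ 3 * Real.sqrt ((v ^ 8)⁻¹ * (K * E * Real.exp (-(κ / (4 * v ^ 64))) +
          K * S * (E * v ^ 128 / κ ^ 2) / (v ^ 16) ^ 2))) +
        v ^ 64 * ((K + 1) ^ 3 * (1 / (v ^ 8)⁻¹)) := by ring
    _ ≤ _ := this
    _ = _ := by ring


/-- F5'. The parameters at small time: `K(t) = ⌈16 log(1/t) / a⌉`, `ε = t^(1/8)`, `M = t^(-1/16)`.
Pure real analysis. Multiply the coefficient of `∫ dh²` in `near_sum` by `√t`. -/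
def Kt (d : ℕ) (T t : ℝ) : ℕ := ⌈16 * Real.log (1 / t) / rate d T t⌉₊

theorem near_coef (hd : 3 ≤ d) (hT1 : 1 ≤ T) : ∃ Cn : ℝ, 0 < Cn ∧ ∀ t : ℝ, 0 < t → t < 1 →
    Real.sqrt t * (1 / rate d T t ^ 2 + t ^ (1 / 8 : ℝ) / rate d T t ^ 3 + ((Kt d T t : ℝ) + 1) ^ 2 +
      ((Kt d T t : ℝ) + 1) ^ 3 * (Real.sqrt (t ^ (-(1 / 16) : ℝ) * ((Kt d T t : ℝ) * Ce d T *
        Real.exp (-(kap0 d T / (4 * Real.sqrt t))) +
        (Kt d T t : ℝ) * kapSum d * (Ce d T * t / kap0 d T ^ 2) / (t ^ (1 / 8 : ℝ)) ^ 2)) +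
        1 / t ^ (-(1 / 16) : ℝ))) ≤ Cn * t ^ (-(31 / 32) : ℝ) := by
  have hd0 : (0 : ℝ) < d := by
    have : 0 < d := by omega
    exact_mod_cast this
  have hT0 : 0 ≤ T := by linarith
  have hc : 0 < c1 d T := c1_pos hd hT1
  have hC2 : 0 < C2 d (C0 d T) := by
    unfold C2 C0
    positivity
  have hC3 : 0 < C3 d T := by
    unfold C3
    positivity
  have hκ : 0 < kap0 d T := by
    unfold kap0
    positivity
  have hE : 0 ≤ Ce d T := by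
    unfold Ce
    positivity
  have hS : 0 ≤ kapSum d := by
    unfold kapSum
    positivity
  refine ⟨1 / c1 d T ^ 2 + 1 / c1 d T ^ 3 + (2048 / c1 d T + 2) ^ 2 +
      (2048 / c1 d T + 2) ^ 3 * Real.sqrt ((2048 / c1 d T + 2) * Ce d T * (32 + kapSum d) / kap0 d T ^ 2) +
      (2048 / c1 d T + 2) ^ 3, by positivity, ?_⟩
  intro t ht0 ht1
  obtain ⟨v, hv0, hv1, rfl⟩ : ∃ v : ℝ, 0 < v ∧ v < 1 ∧ t = v ^ 128 := by
    refine ⟨t ^ (1 / 128 : ℝ), Real.rpow_pos_of_pos ht0 _, Real.rpow_lt_one ht0.le ht1 (by norm_num), ?_⟩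
    rw [← Real.rpow_natCast, ← Real.rpow_mul ht0.le]
    norm_num
  have hs : Real.sqrt (v ^ 128) = v ^ 64 := by
    rw [show v ^ 128 = (v ^ 64) ^ 2 by ring, Real.sqrt_sq (by positivity)]
  have h18 : (v ^ 128) ^ (1 / 8 : ℝ) = v ^ 16 := by
    rw [← Real.rpow_natCast v 128, ← Real.rpow_mul hv0.le, ← Real.rpow_natCast v 16]
    norm_num
  have hm116 : (v ^ 128) ^ (-(1 / 16) : ℝ) = (v ^ 8)⁻¹ := by
    rw [Real.rpow_neg (by positivity), ← Real.rpow_natCast v 128, ← Real.rpow_mul hv0.le,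
      ← Real.rpow_natCast v 8]
    norm_num
  have hm3132 : (v ^ 128) ^ (-(31 / 32) : ℝ) = (v ^ 124)⁻¹ := by
    rw [Real.rpow_neg (by positivity), ← Real.rpow_natCast v 128, ← Real.rpow_mul hv0.le,
      ← Real.rpow_natCast v 124]
    norm_num
  have hrate : rate d T (v ^ 128) = c1 d T * v ^ 64 := by
    unfold rate
    rw [hs]
  have hK : ((Kt d T (v ^ 128) : ℕ) : ℝ) + 1 ≤ (2048 / c1 d T + 2) / v ^ 65 := by
    have hlogv : -Real.log v ≤ 1 / v := by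
      have h := Real.log_le_sub_one_of_pos (inv_pos.2 hv0)
      rw [Real.log_inv] at h
      rw [one_div]
      linarith
    have hlogv0 : 0 ≤ -Real.log v := by
      have := Real.log_nonpos hv0.le hv1.le
      linarith
    have hL : Real.log (1 / v ^ 128) = 128 * (-Real.log v) := by
      rw [one_div, Real.log_inv, Real.log_pow]
      norm_num
    have hdiv0 : 0 ≤ 16 * Real.log (1 / v ^ 128) / rate d T (v ^ 128) := by
      rw [hL, hrate]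
      positivity
    have hceil := Nat.ceil_lt_add_one hdiv0
    have hbound : 16 * Real.log (1 / v ^ 128) / rate d T (v ^ 128) ≤ (2048 / c1 d T) / v ^ 65 := by
      rw [hL, hrate]
      rw [div_le_iff₀ (by positivity)]
      have h2 : 2048 / c1 d T / v ^ 65 * (c1 d T * v ^ 64) = 2048 * (1 / v) := by
        have h1 := hv0.ne'
        have h3 := hc.ne'
        field_simp
      rw [h2]
      linarith
    have hv65 : v ^ 65 ≤ 1 := pow_le_one₀ hv0.le hv1.le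
    have h2 : 2 ≤ 2 / v ^ 65 := by
      rw [le_div_iff₀ (by positivity)]
      linarith
    have h3 : (2048 / c1 d T + 2) / v ^ 65 = 2048 / c1 d T / v ^ 65 + 2 / v ^ 65 := add_div _ _ _
    unfold Kt
    rw [h3]
    unfold Kt at hceil
    linarith
  have hkey := nc_near_core (κ := kap0 d T) (E := Ce d T) (S := kapSum d) hc hκ hE hS hv0 hv1
    (Nat.cast_nonneg (Kt d T (v ^ 128))) hK
  rw [hs, hrate, h18, hm116, hm3132]
  exact hkey

end Vale.Agent.Lib.P161E
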