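import Vale.Agent.Lib.P161E.LemmaM

/-! One step for two Euler schemes driven by the same noise. Jobs F11a, F11b. -/

open MeasureTheory Finset Filter Topology
open scoped Classical ENNReal

noncomputable section

namespace Vale.Agent.Lib.P161E

open Vale.Agent.Lib.P161

variable {V : Type*} {G : SimpleGraph V} {β₁ β₂ : ℝ} {S₁ S₂ : Finset V} {r : V} {δ : ℝ}

private theorem ts_cov_abs (G : SimpleGraph V) (β : ℝ) (S : Finset V) (y : V → ℝ) (u v : V) :
    |cov G β S y u v| ≤ 2 := by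
  unfold cov
  have h1 : |Ee G β S y (fun A => sp A u * sp A v)| ≤ 1 :=
    abs_Ee_le _ _ _ _ _ (fun A => by rw [abs_mul, abs_sp, abs_sp]; norm_num)
  have h2 := abs_mean_le G β S y u
  have h3 := abs_mean_le G β S y v
  have h4 : |mean G β S y u * mean G β S y v| ≤ 1 := by
    rw [abs_mul]
    nlinarith [abs_nonneg (mean G β S y u), abs_nonneg (mean G β S y v)]
  rw [abs_le]
  constructor <;> linarith [(abs_le.1 h1).1, (abs_le.1 h1).2, (abs_le.1 h4).1, (abs_le.1 h4).2]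

private theorem ts_cov_not_mem (G : SimpleGraph V) (β : ℝ) {S : Finset V} {v : V} (hv : v ∉ S)
    (y : V → ℝ) (u : V) : cov G β S y u v = 0 := by
  unfold cov
  have h1 : mean G β S y v = -1 := by
    unfold mean Ee
    have : ∀ A ∈ S.powerset, mu G β S y A * sp A v = mu G β S y A * (-1) := fun A hA => by
      have h : v ∉ A := fun h => hv (Finset.mem_powerset.1 hA h)
      simp [sp, h]
    rw [Finset.sum_congr rfl this, ← Finset.sum_mul, sum_mu, one_mul]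
  have h2 : Ee G β S y (fun A => sp A u * sp A v) = - mean G β S y u := by
    unfold mean Ee
    rw [← Finset.sum_neg_distrib]
    refine Finset.sum_congr rfl fun A hA => ?_
    have h : v ∉ A := fun h => hv (Finset.mem_powerset.1 hA h)
    simp [sp, h]
  rw [h1, h2]
  ring

private theorem ts_meas_step (G : SimpleGraph V) (β : ℝ) (S : Finset V) (δ : ℝ) (y : V → ℝ) :
    Measurable (fun g : V → ℝ => eulerStep G β S δ g y) := by
  refine measurable_pi_iff.2 fun v => ?_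
  unfold eulerStep
  exact measurable_const.add ((measurable_pi_apply v).const_mul _)

private theorem ts_meas_mean (G : SimpleGraph V) (β : ℝ) (S : Finset V) (δ : ℝ) (y : V → ℝ) (x : V) :
    Measurable (fun g : V → ℝ => mean G β S (eulerStep G β S δ g y) x) :=
  (measurable_mean S x).comp (ts_meas_step G β S δ y)

private theorem ts_int_mean (G : SimpleGraph V) (β : ℝ) (S : Finset V) (δ : ℝ) (y : V → ℝ) (x : V) :
    Integrable (fun g : V → ℝ => mean G β S (eulerStep G β S δ g y) x) (gam V) :=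
  Integrable.of_bound (ts_meas_mean G β S δ y x).aestronglyMeasurable 1
    (Eventually.of_forall fun _ => by simpa using abs_mean_le G β S _ x)

private theorem ts_taylor (hδ0 : 0 ≤ δ) (hδ1 : δ ≤ 1) (G : SimpleGraph V) (β : ℝ) (S : Finset V)
    (y g : V → ℝ) (r : V) :
    |mean G β S (eulerStep G β S δ g y) r - mean G β S y r -
        Real.sqrt δ * ∑ v ∈ S, cov G β S y r v * g v| ≤
      δ * (2 * (S.card : ℝ) + 6 * ((S.card : ℝ) + ∑ v ∈ S, |g v|) ^ 2) := by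
  set w : V → ℝ := fun v => δ * mean G β S y v + Real.sqrt δ * g v with hw
  have hz : eulerStep G β S δ g y = y + w := by
    funext v
    simp only [eulerStep, hw, Pi.add_apply]
    ring
  have ht := mean_taylor G β S y w r
  rw [← hz] at ht
  set s := Real.sqrt δ with hs
  have hs0 : 0 ≤ s := Real.sqrt_nonneg _
  have hs2 : s * s = δ := Real.mul_self_sqrt hδ0
  have hs1 : s ≤ 1 := by
    rw [hs]
    exact Real.sqrt_le_one.2 hδ1
  have hδs : δ ≤ s := by nlinarith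
  set l := ∑ v ∈ S, |g v| with hl
  have hl0 : 0 ≤ l := Finset.sum_nonneg fun _ _ => abs_nonneg _
  have hsum : ∑ v ∈ S, cov G β S y r v * w v =
      δ * ∑ v ∈ S, cov G β S y r v * mean G β S y v + s * ∑ v ∈ S, cov G β S y r v * g v := by
    rw [Finset.mul_sum, Finset.mul_sum, ← Finset.sum_add_distrib]
    refine Finset.sum_congr rfl fun v _ => ?_
    simp only [hw]
    ring
  have hb : |∑ v ∈ S, cov G β S y r v * mean G β S y v| ≤ 2 * (S.card : ℝ) := by
    calc _ ≤ ∑ v ∈ S, |cov G β S y r v * mean G β S y v| := Finset.abs_sum_le_sum_abs _ _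
      _ ≤ ∑ _v ∈ S, (2 : ℝ) := Finset.sum_le_sum fun v _ => by
          rw [abs_mul]
          nlinarith [ts_cov_abs G β S y r v, abs_mean_le G β S y v, abs_nonneg (cov G β S y r v),
            abs_nonneg (mean G β S y v)]
      _ = 2 * (S.card : ℝ) := by
          rw [Finset.sum_const, nsmul_eq_mul]
          ring
  have hw1 : ∑ v ∈ S, |w v| ≤ s * ((S.card : ℝ) + l) := by
    calc _ ≤ ∑ v ∈ S, s * (1 + |g v|) := Finset.sum_le_sum fun v _ => by
          have h1 : |δ * mean G β S y v| ≤ s := by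
            rw [abs_mul, abs_of_nonneg hδ0]
            nlinarith [abs_mean_le G β S y v, abs_nonneg (mean G β S y v)]
          have h2 : |s * g v| = s * |g v| := by rw [abs_mul, abs_of_nonneg hs0]
          calc |w v| ≤ |δ * mean G β S y v| + |s * g v| := abs_add_le _ _
            _ ≤ s + s * |g v| := by rw [h2]; linarith
            _ = _ := by ring
      _ = s * ((S.card : ℝ) + l) := by
          rw [← Finset.mul_sum, Finset.sum_add_distrib, Finset.sum_const, nsmul_eq_mul, mul_one]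
  have hw2 : (∑ v ∈ S, |w v|) ^ 2 ≤ δ * ((S.card : ℝ) + l) ^ 2 := by
    have h0 : 0 ≤ ∑ v ∈ S, |w v| := Finset.sum_nonneg fun _ _ => abs_nonneg _
    calc _ ≤ (s * ((S.card : ℝ) + l)) ^ 2 := pow_le_pow_left₀ h0 hw1 2
      _ = _ := by rw [mul_pow, sq s, hs2]
  have key : mean G β S (eulerStep G β S δ g y) r - mean G β S y r -
      s * ∑ v ∈ S, cov G β S y r v * g v =
      (mean G β S (eulerStep G β S δ g y) r - mean G β S y r -
        ∑ v ∈ S, cov G β S y r v * w v) +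
      δ * ∑ v ∈ S, cov G β S y r v * mean G β S y v := by
    rw [hsum]
    ring
  rw [key]
  have hb2 : |δ * ∑ v ∈ S, cov G β S y r v * mean G β S y v| ≤ δ * (2 * (S.card : ℝ)) := by
    rw [abs_mul, abs_of_nonneg hδ0]
    exact mul_le_mul_of_nonneg_left hb hδ0
  calc _ ≤ |mean G β S (eulerStep G β S δ g y) r - mean G β S y r -
        ∑ v ∈ S, cov G β S y r v * w v| + |δ * ∑ v ∈ S, cov G β S y r v * mean G β S y v| :=
        abs_add_le _ _
    _ ≤ 6 * (δ * ((S.card : ℝ) + l) ^ 2) + δ * (2 * (S.card : ℝ)) := by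
        refine add_le_add (ht.trans ?_) hb2
        exact mul_le_mul_of_nonneg_left hw2 (by norm_num)
    _ = _ := by ring

/-- Martingale property of the mean along one Euler step, up to `O(δ²)`: by `EP_mean` with `h' = δ`,
`mean_taylor` around `z = y + δ m + √δ g`, and `∑_A μ_y(A) (σ_A - m) = 0`. -/
theorem euler_mean (hδ0 : 0 ≤ δ) (hδ1 : δ ≤ 1) (S : Finset V) (y : V → ℝ) (x : V) :
    |∫ g, mean G β₁ S (eulerStep G β₁ S δ g y) x ∂gam V - mean G β₁ S y x| ≤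
      100 * ((S.card : ℝ) + 1) ^ 2 * δ ^ 2 := by
  set m : V → ℝ := fun v => mean G β₁ S y v with hm
  set n : ℝ := (S.card : ℝ) with hn
  have hn0 : 0 ≤ n := Nat.cast_nonneg _
  -- the perturbations
  set wA : Finset V → V → ℝ := fun A v => δ * (stepVec S A v - m v) with hwA
  have hshift : ∀ (A : Finset V) (g : V → ℝ),
      y + δ • stepVec S A + Real.sqrt δ • g = eulerStep G β₁ S δ g y + wA A := by
    intro A g
    funext v
    simp only [Pi.add_apply, Pi.smul_apply, smul_eq_mul, eulerStep, hwA, hm]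
    ring
  -- the pointwise estimate
  have hpt : ∀ g : V → ℝ,
      |∑ A ∈ S.powerset, mu G β₁ S y A * mean G β₁ S (eulerStep G β₁ S δ g y + wA A) x -
        mean G β₁ S (eulerStep G β₁ S δ g y) x| ≤ 24 * n ^ 2 * δ ^ 2 := by
    intro g
    set z := eulerStep G β₁ S δ g y with hz
    have hlin : ∀ v ∈ S, ∑ A ∈ S.powerset, mu G β₁ S y A * (stepVec S A v - m v) = 0 := by
      intro v hv
      have h1 : ∑ A ∈ S.powerset, mu G β₁ S y A * stepVec S A v = m v := by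
        simp only [hm, mean, Ee, stepVec, hv, if_true]
      have h2 : ∑ A ∈ S.powerset, mu G β₁ S y A * m v = m v := by
        rw [← Finset.sum_mul, sum_mu, one_mul]
      simp only [mul_sub, Finset.sum_sub_distrib, h1, h2, sub_self]
    have hzero : ∑ A ∈ S.powerset, mu G β₁ S y A * ∑ v ∈ S, cov G β₁ S z x v * wA A v = 0 := by
      have : ∀ A ∈ S.powerset, mu G β₁ S y A * ∑ v ∈ S, cov G β₁ S z x v * wA A v =
          ∑ v ∈ S, (cov G β₁ S z x v * δ) * (mu G β₁ S y A * (stepVec S A v - m v)) := by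
        intro A _
        rw [Finset.mul_sum]
        refine Finset.sum_congr rfl fun v _ => ?_
        simp only [hwA]
        ring
      rw [Finset.sum_congr rfl this, Finset.sum_comm]
      refine Finset.sum_eq_zero fun v hv => ?_
      rw [← Finset.mul_sum, hlin v hv, mul_zero]
    have hmean : mean G β₁ S z x = ∑ A ∈ S.powerset, mu G β₁ S y A * mean G β₁ S z x := by
      rw [← Finset.sum_mul, sum_mu, one_mul]
    have hrw : ∑ A ∈ S.powerset, mu G β₁ S y A * mean G β₁ S (z + wA A) x - mean G β₁ S z x =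
        ∑ A ∈ S.powerset, mu G β₁ S y A *
          (mean G β₁ S (z + wA A) x - mean G β₁ S z x - ∑ v ∈ S, cov G β₁ S z x v * wA A v) := by
      have h3 : ∑ A ∈ S.powerset, mu G β₁ S y A *
          (mean G β₁ S (z + wA A) x - mean G β₁ S z x - ∑ v ∈ S, cov G β₁ S z x v * wA A v) =
          ∑ A ∈ S.powerset, mu G β₁ S y A * mean G β₁ S (z + wA A) x -
            ∑ A ∈ S.powerset, mu G β₁ S y A * mean G β₁ S z x -
            ∑ A ∈ S.powerset, mu G β₁ S y A * ∑ v ∈ S, cov G β₁ S z x v * wA A v := by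
        rw [← Finset.sum_sub_distrib, ← Finset.sum_sub_distrib]
        exact Finset.sum_congr rfl fun A _ => by ring
      rw [h3, hzero, ← hmean]
      ring
    rw [hrw]
    have hb : ∀ A, |mean G β₁ S (z + wA A) x - mean G β₁ S z x -
        ∑ v ∈ S, cov G β₁ S z x v * wA A v| ≤ 24 * n ^ 2 * δ ^ 2 := by
      intro A
      refine (mean_taylor G β₁ S z (wA A) x).trans ?_
      have h1 : ∑ v ∈ S, |wA A v| ≤ 2 * δ * n := by
        calc _ ≤ ∑ _v ∈ S, 2 * δ := Finset.sum_le_sum fun v hv => by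
              simp only [hwA]
              rw [abs_mul, abs_of_nonneg hδ0]
              have h2 : |stepVec S A v| = 1 := by
                simp only [stepVec, hv, if_true]
                exact abs_sp A v
              have h3 : |m v| ≤ 1 := abs_mean_le G β₁ S y v
              have h4 : |stepVec S A v - m v| ≤ 2 := by
                calc _ ≤ |stepVec S A v| + |m v| := abs_sub _ _
                  _ ≤ 2 := by rw [h2]; linarith
              nlinarith
          _ = 2 * δ * n := by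
              rw [Finset.sum_const, nsmul_eq_mul]
              ring
      have h0 : 0 ≤ ∑ v ∈ S, |wA A v| := Finset.sum_nonneg fun _ _ => abs_nonneg _
      calc 6 * (∑ v ∈ S, |wA A v|) ^ 2 ≤ 6 * (2 * δ * n) ^ 2 := by
            exact mul_le_mul_of_nonneg_left (pow_le_pow_left₀ h0 h1 2) (by norm_num)
        _ = 24 * n ^ 2 * δ ^ 2 := by ring
    calc _ ≤ ∑ A ∈ S.powerset, |mu G β₁ S y A * (mean G β₁ S (z + wA A) x - mean G β₁ S z x -
          ∑ v ∈ S, cov G β₁ S z x v * wA A v)| := Finset.abs_sum_le_sum_abs _ _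
      _ ≤ ∑ A ∈ S.powerset, mu G β₁ S y A * (24 * n ^ 2 * δ ^ 2) := by
          refine Finset.sum_le_sum fun A _ => ?_
          rw [abs_mul, abs_of_pos (mu_pos _ _ _ _ _)]
          exact mul_le_mul_of_nonneg_left (hb A) (mu_pos _ _ _ _ _).le
      _ = _ := by rw [← Finset.sum_mul, sum_mu, one_mul]
  -- integrate
  have hmeas : ∀ A : Finset V, Integrable
      (fun g => mean G β₁ S (eulerStep G β₁ S δ g y + wA A) x) (gam V) := by
    intro A
    have hm1 : Measurable (fun g => mean G β₁ S (eulerStep G β₁ S δ g y + wA A) x) := by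
      refine (measurable_mean S x).comp ?_
      exact (ts_meas_step G β₁ S δ y).add_const _
    exact Integrable.of_bound hm1.aestronglyMeasurable 1
      (Eventually.of_forall fun _ => by simpa using abs_mean_le G β₁ S _ x)
  have hEP : mean G β₁ S y x = ∫ g, ∑ A ∈ S.powerset, mu G β₁ S y A *
      mean G β₁ S (eulerStep G β₁ S δ g y + wA A) x ∂gam V := by
    rw [← EP_mean (G := G) (β := β₁) (S := S) (h' := δ) hδ0 y x]
    unfold EP
    rw [integral_finsetSum _ (fun A _ => (hmeas A).const_mul _)]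
    refine Finset.sum_congr rfl fun A _ => ?_
    rw [integral_const_mul]
    congr 1
    refine integral_congr_ae (Eventually.of_forall fun g => ?_)
    simp only
    rw [hshift]
  have hint1 : Integrable (fun g => ∑ A ∈ S.powerset, mu G β₁ S y A *
      mean G β₁ S (eulerStep G β₁ S δ g y + wA A) x) (gam V) :=
    integrable_finsetSum _ (fun A _ => (hmeas A).const_mul _)
  have hint2 := ts_int_mean G β₁ S δ y x
  rw [hEP, ← integral_sub hint2 hint1]
  have hb2 : ‖∫ g, (mean G β₁ S (eulerStep G β₁ S δ g y) x - ∑ A ∈ S.powerset, mu G β₁ S y A *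
      mean G β₁ S (eulerStep G β₁ S δ g y + wA A) x) ∂gam V‖ ≤ 24 * n ^ 2 * δ ^ 2 := by
    have := norm_integral_le_of_norm_le (μ := gam V) (integrable_const (24 * n ^ 2 * δ ^ 2))
      (f := fun g => (mean G β₁ S (eulerStep G β₁ S δ g y) x - ∑ A ∈ S.powerset, mu G β₁ S y A *
        mean G β₁ S (eulerStep G β₁ S δ g y + wA A) x))
      (Eventually.of_forall fun g => by
        rw [Real.norm_eq_abs, abs_sub_comm]
        exact hpt g)
    simpa using this
  rw [Real.norm_eq_abs] at hb2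
  refine hb2.trans ?_
  have hδ2 : 0 ≤ δ ^ 2 := by positivity
  have : 24 * n ^ 2 ≤ 100 * (n + 1) ^ 2 := by nlinarith
  exact mul_le_mul_of_nonneg_right this hδ2

/-- Constant of the two scheme step. -/
def Cts (N : ℝ) : ℝ := 100000 * (1 + N) ^ 4

private theorem ts_fourth (a b : ℝ) : (a + b) ^ 4 ≤ 8 * (a ^ 4 + b ^ 4) := by
  have h1 : (a + b) ^ 2 ≤ 2 * (a ^ 2 + b ^ 2) := by nlinarith [sq_nonneg (a - b)]
  have h2 : (a ^ 2 + b ^ 2) ^ 2 ≤ 2 * (a ^ 4 + b ^ 4) := by nlinarith [sq_nonneg (a ^ 2 - b ^ 2)]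
  have h3 : 0 ≤ (a + b) ^ 2 := sq_nonneg _
  have h4 : ((a + b) ^ 2) ^ 2 ≤ (2 * (a ^ 2 + b ^ 2)) ^ 2 := pow_le_pow_left₀ h3 h1 2
  calc (a + b) ^ 4 = ((a + b) ^ 2) ^ 2 := by ring
    _ ≤ (2 * (a ^ 2 + b ^ 2)) ^ 2 := h4
    _ = 4 * (a ^ 2 + b ^ 2) ^ 2 := by ring
    _ ≤ 4 * (2 * (a ^ 4 + b ^ 4)) := by linarith
    _ = _ := by ring

private theorem ts_diff_le {a b c d : ℝ} (h1 : |a| ≤ c) (h2 : |b| ≤ d) : |a - b| ≤ c + d :=
  (abs_sub a b).trans (add_le_add h1 h2)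

private theorem ts_E_point {s δ X D L T W : ℝ} (hs0 : 0 ≤ s) (hs1 : s ≤ 1) (hs2 : s * s = δ)
    (hU : |X - D - s * L| ≤ δ * (14 * T ^ 2)) (hL : |L| ≤ 4 * T) (hT : 1 ≤ T) (hW : T ^ 4 ≤ W) :
    |X ^ 2 - D ^ 2 - 2 * D * (X - D) - δ * L ^ 2| ≤ s ^ 3 * (308 * W) := by
  set U := X - D - s * L with hUdef
  have hEe : X ^ 2 - D ^ 2 - 2 * D * (X - D) - δ * L ^ 2 = 2 * s * L * U + U ^ 2 := by
    simp only [hUdef]
    rw [← hs2]
    ring
  have hUb : |U| ≤ s ^ 2 * (14 * T ^ 2) := by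
    rw [← hs2] at hU
    calc |U| ≤ s * s * (14 * T ^ 2) := hU
      _ = _ := by ring
  have hT34 : T ^ 3 ≤ T ^ 4 := pow_le_pow_right₀ hT (by norm_num)
  have h1 : |2 * s * L * U| ≤ s ^ 3 * (112 * T ^ 4) := by
    rw [abs_mul, abs_mul, abs_of_nonneg (by positivity : (0 : ℝ) ≤ 2 * s)]
    have h0 : 0 ≤ T := by linarith
    calc 2 * s * |L| * |U| ≤ 2 * s * (4 * T) * (s ^ 2 * (14 * T ^ 2)) := by
          refine mul_le_mul (mul_le_mul_of_nonneg_left hL (by positivity)) hUb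
            (abs_nonneg _) (by positivity)
      _ = s ^ 3 * (112 * T ^ 3) := by ring
      _ ≤ _ := by
          refine mul_le_mul_of_nonneg_left ?_ (by positivity)
          linarith
  have h2 : |U ^ 2| ≤ s ^ 3 * (196 * T ^ 4) := by
    rw [abs_pow]
    have h0 : 0 ≤ |U| := abs_nonneg _
    calc |U| ^ 2 ≤ (s ^ 2 * (14 * T ^ 2)) ^ 2 := pow_le_pow_left₀ h0 hUb 2
      _ = s * s ^ 3 * (196 * T ^ 4) := by ring
      _ ≤ 1 * s ^ 3 * (196 * T ^ 4) := by
          refine mul_le_mul_of_nonneg_right ?_ (by positivity)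
          exact mul_le_mul_of_nonneg_right hs1 (by positivity)
      _ = _ := by ring
  rw [hEe]
  calc _ ≤ |2 * s * L * U| + |U ^ 2| := abs_add_le _ _
    _ ≤ s ^ 3 * (112 * T ^ 4) + s ^ 3 * (196 * T ^ 4) := add_le_add h1 h2
    _ = s ^ 3 * (308 * T ^ 4) := by ring
    _ ≤ _ := by
        refine mul_le_mul_of_nonneg_left ?_ (by positivity)
        linarith

private theorem ts_U_point (hδ0 : 0 ≤ δ) (hδ1 : δ ≤ 1) (y₁ y₂ g : V → ℝ) :
    |(mean G β₁ S₁ (eulerStep G β₁ S₁ δ g y₁) r - mean G β₂ S₂ (eulerStep G β₂ S₂ δ g y₂) r) -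
        (mean G β₁ S₁ y₁ r - mean G β₂ S₂ y₂ r) -
        Real.sqrt δ * ∑ v ∈ S₁ ∪ S₂, (cov G β₁ S₁ y₁ r v - cov G β₂ S₂ y₂ r v) * g v| ≤
      δ * (14 * (1 + ((S₁.card : ℝ) + S₂.card) + ∑ v ∈ S₁ ∪ S₂, |g v|) ^ 2) := by
  set R := S₁ ∪ S₂ with hR
  have hsub₁ : S₁ ⊆ R := Finset.subset_union_left
  have hsub₂ : S₂ ⊆ R := Finset.subset_union_right
  set n₁ : ℝ := (S₁.card : ℝ) with hn₁
  set n₂ : ℝ := (S₂.card : ℝ) with hn₂
  have hn₁0 : 0 ≤ n₁ := Nat.cast_nonneg _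
  have hn₂0 : 0 ≤ n₂ := Nat.cast_nonneg _
  set ell := ∑ v ∈ R, |g v| with hell
  have hell0 : 0 ≤ ell := Finset.sum_nonneg fun _ _ => abs_nonneg _
  set T := 1 + (n₁ + n₂) + ell with hT
  have hl₁ : ∑ v ∈ S₁, |g v| ≤ ell :=
    Finset.sum_le_sum_of_subset_of_nonneg hsub₁ fun _ _ _ => abs_nonneg _
  have hl₂ : ∑ v ∈ S₂, |g v| ≤ ell :=
    Finset.sum_le_sum_of_subset_of_nonneg hsub₂ fun _ _ _ => abs_nonneg _
  have he₁ : ∑ v ∈ R, cov G β₁ S₁ y₁ r v * g v = ∑ v ∈ S₁, cov G β₁ S₁ y₁ r v * g v :=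
    (Finset.sum_subset hsub₁ fun v _ hv => by
      rw [ts_cov_not_mem G β₁ hv]
      simp).symm
  have he₂ : ∑ v ∈ R, cov G β₂ S₂ y₂ r v * g v = ∑ v ∈ S₂, cov G β₂ S₂ y₂ r v * g v :=
    (Finset.sum_subset hsub₂ fun v _ hv => by
      rw [ts_cov_not_mem G β₂ hv]
      simp).symm
  have hLamsplit : ∑ v ∈ R, (cov G β₁ S₁ y₁ r v - cov G β₂ S₂ y₂ r v) * g v =
      ∑ v ∈ S₁, cov G β₁ S₁ y₁ r v * g v - ∑ v ∈ S₂, cov G β₂ S₂ y₂ r v * g v := by
    rw [← he₁, ← he₂, ← Finset.sum_sub_distrib]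
    exact Finset.sum_congr rfl fun v _ => by ring
  have t₁ := ts_taylor hδ0 hδ1 G β₁ S₁ y₁ g r
  have t₂ := ts_taylor hδ0 hδ1 G β₂ S₂ y₂ g r
  rw [hLamsplit]
  have e : ∀ A B C D E F s : ℝ, (A - B) - (C - D) - s * (E - F) =
      (A - C - s * E) - (B - D - s * F) := fun A B C D E F s => by ring
  rw [e]
  have hT1 : 1 ≤ T := by simp only [hT]; linarith
  have hNT : n₁ + n₂ ≤ T ^ 2 := by
    have : n₁ + n₂ ≤ T := by simp only [hT]; linarith
    nlinarith
  have c₁ : δ * (2 * n₁ + 6 * (n₁ + ∑ v ∈ S₁, |g v|) ^ 2) ≤ δ * (2 * n₁ + 6 * T ^ 2) := by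
    refine mul_le_mul_of_nonneg_left ?_ hδ0
    have h0 : 0 ≤ n₁ + ∑ v ∈ S₁, |g v| := add_nonneg hn₁0 (Finset.sum_nonneg fun _ _ => abs_nonneg _)
    have h1 : n₁ + ∑ v ∈ S₁, |g v| ≤ T := by simp only [hT]; linarith
    have := pow_le_pow_left₀ h0 h1 2
    linarith
  have c₂ : δ * (2 * n₂ + 6 * (n₂ + ∑ v ∈ S₂, |g v|) ^ 2) ≤ δ * (2 * n₂ + 6 * T ^ 2) := by
    refine mul_le_mul_of_nonneg_left ?_ hδ0
    have h0 : 0 ≤ n₂ + ∑ v ∈ S₂, |g v| := add_nonneg hn₂0 (Finset.sum_nonneg fun _ _ => abs_nonneg _)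
    have h1 : n₂ + ∑ v ∈ S₂, |g v| ≤ T := by simp only [hT]; linarith
    have := pow_le_pow_left₀ h0 h1 2
    linarith
  refine (ts_diff_le (t₁.trans c₁) (t₂.trans c₂)).trans ?_
  have : δ * (2 * n₁ + 6 * T ^ 2) + δ * (2 * n₂ + 6 * T ^ 2) = δ * (2 * (n₁ + n₂) + 12 * T ^ 2) := by
    ring
  rw [this]
  refine mul_le_mul_of_nonneg_left ?_ hδ0
  linarith

private theorem ts_int_core {R : Finset V} {X L : (V → ℝ) → ℝ} {s δ D M : ℝ} (hs0 : 0 ≤ s)
    (hs1 : s ≤ 1) (hs2 : s * s = δ) (hM1 : 1 ≤ M) (hcard : (R.card : ℝ) + 1 ≤ M)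
    (hXm : Measurable X) (hXb : ∀ g, |X g| ≤ 2) (hLm : Measurable L)
    (hLb : ∀ g, |L g| ≤ 4 * ∑ v ∈ R, |g v|)
    (hU : ∀ g, |X g - D - s * L g| ≤ δ * (14 * (M + ∑ v ∈ R, |g v|) ^ 2)) :
    |∫ g, X g ^ 2 ∂gam V - D ^ 2 - 2 * D * (∫ g, X g ∂gam V - D) - δ * ∫ g, L g ^ 2 ∂gam V| ≤
      s ^ 3 * (308 * (8 * (4 * M ^ 4))) := by
  set ell : (V → ℝ) → ℝ := fun g => ∑ v ∈ R, |g v| with hell
  have hell0 : ∀ g, 0 ≤ ell g := fun g => Finset.sum_nonneg fun _ _ => abs_nonneg _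
  set B : (V → ℝ) → ℝ := fun g => s ^ 3 * (308 * (8 * (M ^ 4 + ell g ^ 4))) with hB
  have hEb : ∀ g, |X g ^ 2 - D ^ 2 - 2 * D * (X g - D) - δ * L g ^ 2| ≤ B g := by
    intro g
    have hL : |L g| ≤ 4 * (M + ell g) := by
      have h := hLb g
      have h2 := hell0 g
      simp only [hell]
      simp only [hell] at h2
      linarith
    exact ts_E_point hs0 hs1 hs2 (hU g) hL (by linarith [hell0 g]) (ts_fourth M (ell g))
  have hXi : Integrable X (gam V) :=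
    Integrable.of_bound hXm.aestronglyMeasurable 2 (Eventually.of_forall fun g => by
      rw [Real.norm_eq_abs]
      exact hXb g)
  have hX2i : Integrable (fun g => X g ^ 2) (gam V) := by
    refine Integrable.of_bound (hXm.pow_const 2).aestronglyMeasurable 4
      (Eventually.of_forall fun g => ?_)
    rw [Real.norm_eq_abs, abs_pow]
    have := pow_le_pow_left₀ (abs_nonneg _) (hXb g) 2
    linarith
  have hell2 : Integrable (fun g => ell g ^ 2) (gam V) := integrable_l1_pow R 2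
  have hell4 : Integrable (fun g => ell g ^ 4) (gam V) := integrable_l1_pow R 4
  have hL2i : Integrable (fun g => L g ^ 2) (gam V) := by
    refine Integrable.mono' (hell2.const_mul 16) (hLm.pow_const 2).aestronglyMeasurable
      (Eventually.of_forall fun g => ?_)
    rw [Real.norm_eq_abs, abs_pow]
    have := pow_le_pow_left₀ (abs_nonneg _) (hLb g) 2
    simp only [hell]
    nlinarith
  have hBi : Integrable B (gam V) := by
    refine Integrable.const_mul (Integrable.const_mul (Integrable.const_mul ?_ _) _) _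
    exact (integrable_const _).add hell4
  have hBint : ∫ g, B g ∂gam V ≤ s ^ 3 * (308 * (8 * (4 * M ^ 4))) := by
    have h1 : ∫ g, ell g ^ 4 ∂gam V ≤ 3 * M ^ 4 := by
      refine (integral_l1_pow_le R 4 (le_refl 4)).trans ?_
      have h0 : (0 : ℝ) ≤ (R.card : ℝ) + 1 := by positivity
      have := pow_le_pow_left₀ h0 hcard 4
      linarith
    have h2 : ∫ g, B g ∂gam V = s ^ 3 * (308 * (8 * (M ^ 4 + ∫ g, ell g ^ 4 ∂gam V))) := by
      simp only [hB]
      rw [integral_const_mul, integral_const_mul, integral_const_mul,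
        integral_add (integrable_const _) hell4]
      simp
    rw [h2]
    refine mul_le_mul_of_nonneg_left ?_ (by positivity)
    linarith
  have hEval : ∫ g, (X g ^ 2 - D ^ 2 - 2 * D * (X g - D) - δ * L g ^ 2) ∂gam V =
      ∫ g, X g ^ 2 ∂gam V - D ^ 2 - 2 * D * (∫ g, X g ∂gam V - D) - δ * ∫ g, L g ^ 2 ∂gam V := by
    have i1 : Integrable (fun g => X g ^ 2 - D ^ 2) (gam V) := hX2i.sub (integrable_const _)
    have i2 : Integrable (fun g => 2 * D * (X g - D)) (gam V) :=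
      (hXi.sub (integrable_const _)).const_mul _
    have i3 : Integrable (fun g => δ * L g ^ 2) (gam V) := hL2i.const_mul _
    have i12 : Integrable (fun g => X g ^ 2 - D ^ 2 - 2 * D * (X g - D)) (gam V) := i1.sub i2
    rw [integral_sub i12 i3, integral_sub i1 i2, integral_sub hX2i (integrable_const _),
      integral_const_mul, integral_const_mul, integral_sub hXi (integrable_const _)]
    simp only [integral_const, probReal_univ, one_smul]
  rw [← hEval]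
  have h1 := norm_integral_le_of_norm_le (μ := gam V)
    (f := fun g => X g ^ 2 - D ^ 2 - 2 * D * (X g - D) - δ * L g ^ 2) hBi
    (Eventually.of_forall fun g => by
      rw [Real.norm_eq_abs]
      exact hEb g)
  rw [Real.norm_eq_abs] at h1
  exact h1.trans hBint

/-- One step identity for the squared difference of the means. -/
theorem two_step (hδ0 : 0 ≤ δ) (hδ1 : δ ≤ 1) (y₁ y₂ : V → ℝ) :
    |∫ g, (mean G β₁ S₁ (eulerStep G β₁ S₁ δ g y₁) r - mean G β₂ S₂ (eulerStep G β₂ S₂ δ g y₂) r) ^ 2 ∂gam V -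
        (mean G β₁ S₁ y₁ r - mean G β₂ S₂ y₂ r) ^ 2 -
        δ * ∑ v ∈ S₁ ∪ S₂, (cov G β₁ S₁ y₁ r v - cov G β₂ S₂ y₂ r v) ^ 2| ≤
      Cts ((S₁.card : ℝ) + S₂.card) * δ ^ (3 / 2 : ℝ) := by
  set n₁ : ℝ := (S₁.card : ℝ) with hn₁
  set n₂ : ℝ := (S₂.card : ℝ) with hn₂
  have hn₁0 : 0 ≤ n₁ := Nat.cast_nonneg _
  have hn₂0 : 0 ≤ n₂ := Nat.cast_nonneg _
  set M : ℝ := 1 + (n₁ + n₂) with hM
  have hM1 : 1 ≤ M := by simp only [hM]; linarith
  set R := S₁ ∪ S₂ with hR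
  set s := Real.sqrt δ with hs
  have hs0 : 0 ≤ s := Real.sqrt_nonneg _
  have hs2 : s * s = δ := Real.mul_self_sqrt hδ0
  have hs1 : s ≤ 1 := by
    rw [hs]
    exact Real.sqrt_le_one.2 hδ1
  have hrpow : δ ^ (3 / 2 : ℝ) = s ^ 3 := by
    rw [hs, Real.sqrt_eq_rpow, ← Real.rpow_natCast, ← Real.rpow_mul hδ0]
    norm_num
  set a₁ := mean G β₁ S₁ y₁ r with ha₁
  set a₂ := mean G β₂ S₂ y₂ r with ha₂
  set D := a₁ - a₂ with hD
  have hD2 : |D| ≤ 2 := by
    have := ts_diff_le (abs_mean_le G β₁ S₁ y₁ r) (abs_mean_le G β₂ S₂ y₂ r)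
    have e : (1 : ℝ) + 1 = 2 := by norm_num
    rwa [e] at this
  set c : V → ℝ := fun v => cov G β₁ S₁ y₁ r v - cov G β₂ S₂ y₂ r v with hc
  set L : (V → ℝ) → ℝ := fun g => ∑ v ∈ R, c v * g v with hL
  set X₁ : (V → ℝ) → ℝ := fun g => mean G β₁ S₁ (eulerStep G β₁ S₁ δ g y₁) r with hX₁
  set X₂ : (V → ℝ) → ℝ := fun g => mean G β₂ S₂ (eulerStep G β₂ S₂ δ g y₂) r with hX₂
  set X : (V → ℝ) → ℝ := fun g => X₁ g - X₂ g with hX
  have hLb : ∀ g, |L g| ≤ 4 * ∑ v ∈ R, |g v| := by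
    intro g
    calc |L g| ≤ ∑ v ∈ R, |c v * g v| := Finset.abs_sum_le_sum_abs _ _
      _ ≤ ∑ v ∈ R, 4 * |g v| := Finset.sum_le_sum fun v _ => by
          rw [abs_mul]
          refine mul_le_mul_of_nonneg_right ?_ (abs_nonneg _)
          have h3 := ts_diff_le (ts_cov_abs G β₁ S₁ y₁ r v) (ts_cov_abs G β₂ S₂ y₂ r v)
          simp only [hc]
          linarith
      _ = _ := by rw [← Finset.mul_sum]
  have hX₁m : Measurable X₁ := ts_meas_mean G β₁ S₁ δ y₁ r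
  have hX₂m : Measurable X₂ := ts_meas_mean G β₂ S₂ δ y₂ r
  have hXm : Measurable X := hX₁m.sub hX₂m
  have hX₁i : Integrable X₁ (gam V) := ts_int_mean G β₁ S₁ δ y₁ r
  have hX₂i : Integrable X₂ (gam V) := ts_int_mean G β₂ S₂ δ y₂ r
  have hXb : ∀ g, |X g| ≤ 2 := by
    intro g
    have := ts_diff_le (abs_mean_le G β₁ S₁ (eulerStep G β₁ S₁ δ g y₁) r)
      (abs_mean_le G β₂ S₂ (eulerStep G β₂ S₂ δ g y₂) r)
    have e : (1 : ℝ) + 1 = 2 := by norm_num
    rwa [e] at this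
  have hLm : Measurable L := by
    refine Finset.measurable_sum _ fun v _ => ?_
    exact (measurable_pi_apply v).const_mul _
  have hcard : (R.card : ℝ) + 1 ≤ M := by
    have h := Finset.card_union_le S₁ S₂
    have h' : ((S₁ ∪ S₂).card : ℝ) ≤ (S₁.card : ℝ) + S₂.card := by exact_mod_cast h
    simp only [hM]
    linarith
  have hU : ∀ g, |X g - D - s * L g| ≤ δ * (14 * (M + ∑ v ∈ R, |g v|) ^ 2) := fun g =>
    ts_U_point (G := G) (β₁ := β₁) (β₂ := β₂) (S₁ := S₁) (S₂ := S₂) (r := r) hδ0 hδ1 y₁ y₂ g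
  have hcore := ts_int_core (V := V) hs0 hs1 hs2 hM1 hcard hXm hXb hLm hLb hU
  have hLval : ∫ g, L g ^ 2 ∂gam V = ∑ v ∈ R, c v ^ 2 := integral_linear_sq R c
  -- the martingale property
  have hm₁ : |∫ g, X₁ g ∂gam V - a₁| ≤ 100 * (n₁ + 1) ^ 2 * δ ^ 2 :=
    euler_mean (G := G) (β₁ := β₁) hδ0 hδ1 S₁ y₁ r
  have hm₂ : |∫ g, X₂ g ∂gam V - a₂| ≤ 100 * (n₂ + 1) ^ 2 * δ ^ 2 :=
    euler_mean (G := G) (β₁ := β₂) hδ0 hδ1 S₂ y₂ r
  have hXD : |∫ g, X g ∂gam V - D| ≤ 200 * M ^ 4 * s ^ 3 := by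
    have e : ∫ g, X g ∂gam V - D = (∫ g, X₁ g ∂gam V - a₁) - (∫ g, X₂ g ∂gam V - a₂) := by
      simp only [hX]
      rw [integral_sub hX₁i hX₂i]
      simp only [hD]
      ring
    rw [e]
    have hM4 : M ^ 2 ≤ M ^ 4 := pow_le_pow_right₀ hM1 (by norm_num)
    have h1 : (n₁ + 1) ^ 2 ≤ M ^ 2 :=
      pow_le_pow_left₀ (by positivity) (by simp only [hM]; linarith) 2
    have h2 : (n₂ + 1) ^ 2 ≤ M ^ 2 :=
      pow_le_pow_left₀ (by positivity) (by simp only [hM]; linarith) 2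
    have hδs : δ ^ 2 ≤ s ^ 3 := by
      have : δ ^ 2 = s * s ^ 3 := by
        rw [← hs2]
        ring
      rw [this]
      calc s * s ^ 3 ≤ 1 * s ^ 3 := mul_le_mul_of_nonneg_right hs1 (by positivity)
        _ = s ^ 3 := one_mul _
    have hM0 : 0 ≤ M ^ 4 := by positivity
    have h3 : 100 * (n₁ + 1) ^ 2 * δ ^ 2 ≤ 100 * M ^ 4 * s ^ 3 := by
      refine mul_le_mul (by linarith) hδs (by positivity) (by positivity)
    have h4 : 100 * (n₂ + 1) ^ 2 * δ ^ 2 ≤ 100 * M ^ 4 * s ^ 3 := by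
      refine mul_le_mul (by linarith) hδs (by positivity) (by positivity)
    refine (ts_diff_le (hm₁.trans h3) (hm₂.trans h4)).trans ?_
    linarith
  -- conclusion
  have hgoal : ∫ g, X g ^ 2 ∂gam V - D ^ 2 - δ * ∑ v ∈ R, c v ^ 2 =
      ∫ g, (mean G β₁ S₁ (eulerStep G β₁ S₁ δ g y₁) r - mean G β₂ S₂ (eulerStep G β₂ S₂ δ g y₂) r) ^ 2 ∂gam V -
        (mean G β₁ S₁ y₁ r - mean G β₂ S₂ y₂ r) ^ 2 -
        δ * ∑ v ∈ R, (cov G β₁ S₁ y₁ r v - cov G β₂ S₂ y₂ r v) ^ 2 := rfl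
  have hmain : ∫ g, X g ^ 2 ∂gam V - D ^ 2 - δ * ∑ v ∈ R, c v ^ 2 =
      (∫ g, X g ^ 2 ∂gam V - D ^ 2 - 2 * D * (∫ g, X g ∂gam V - D) - δ * ∫ g, L g ^ 2 ∂gam V) +
        2 * D * (∫ g, X g ∂gam V - D) := by
    rw [hLval]
    ring
  rw [← hgoal, hmain, hrpow]
  unfold Cts
  have h2D : |2 * D * (∫ g, X g ∂gam V - D)| ≤ 4 * (200 * M ^ 4 * s ^ 3) := by
    rw [abs_mul, abs_mul, abs_of_nonneg (by norm_num : (0 : ℝ) ≤ 2)]
    have : 2 * |D| ≤ 4 := by linarith
    exact mul_le_mul this hXD (abs_nonneg _) (by norm_num)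
  have hs3 : 0 ≤ s ^ 3 := by positivity
  have hM0 : 0 ≤ M ^ 4 := by positivity
  calc _ ≤ _ + _ := abs_add_le _ _
    _ ≤ s ^ 3 * (308 * (8 * (4 * M ^ 4))) + 4 * (200 * M ^ 4 * s ^ 3) := add_le_add hcore h2D
    _ = 10656 * (M ^ 4 * s ^ 3) := by ring
    _ ≤ 100000 * (M ^ 4 * s ^ 3) := by
        refine mul_le_mul_of_nonneg_right (by norm_num) (by positivity)
    _ = _ := by ring

private theorem ts_flow_noise (G : SimpleGraph V) (β : ℝ) (S : Finset V) (δ : ℝ) (n : ℕ) :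
    ∀ (i : ℕ) (x : V → ℝ) (ξ ξ' : ℕ → V → ℝ), (∀ j, i ≤ j → j < i + n → ξ j = ξ' j) →
      flow G β S δ ξ i n x = flow G β S δ ξ' i n x := by
  induction n with
  | zero => intro i x ξ ξ' _; rfl
  | succ n ih =>
    intro i x ξ ξ' h
    simp only [flow]
    rw [h i le_rfl (by omega)]
    exact ih (i + 1) _ ξ ξ' (fun j hj hj' => h j (by omega) (by omega))

private theorem ts_indep {W : Type*} [MeasurableSpace W] (k : ℕ) (P : (ℕ → V → ℝ) → W)
    (hP : Measurable P) (hdep : ∀ ξ ξ' : ℕ → V → ℝ, (∀ j, j < k → ξ j = ξ' j) → P ξ = P ξ') :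
    ProbabilityTheory.IndepFun (fun ξ : ℕ → V → ℝ => ξ k) P (nu V) := by
  have h0 : ProbabilityTheory.iIndepFun (fun (i : ℕ) (ξ : ℕ → V → ℝ) => ξ i) (nu V) :=
    ProbabilityTheory.iIndepFun_infinitePi (P := fun _ : ℕ => gam V) (X := fun _ x => x)
      (fun _ => measurable_id)
  have hd : Disjoint ({k} : Finset ℕ) (Finset.range k) := by simp
  have h1 := ProbabilityTheory.iIndepFun.indepFun_finset {k} (Finset.range k) hd h0
    (fun i => measurable_pi_apply i)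
  let ext : ((i : (Finset.range k : Finset ℕ)) → V → ℝ) → (ℕ → V → ℝ) :=
    fun p j => if h : j ∈ Finset.range k then p ⟨j, h⟩ else 0
  have hext : Measurable ext := by
    refine measurable_pi_iff.2 fun j => ?_
    by_cases h : j ∈ Finset.range k
    · have : (fun p => ext p j) = fun p => p ⟨j, h⟩ := by
        funext p
        simp only [ext, dif_pos h]
      rw [this]
      exact measurable_pi_apply _
    · have : (fun p => ext p j) = fun _ => 0 := by
        funext p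
        simp only [ext, dif_neg h]
      rw [this]
      exact measurable_const
  have hφ : Measurable (fun f : ((i : (({k} : Finset ℕ))) → V → ℝ) => f ⟨k, by simp⟩) :=
    measurable_pi_apply _
  have h2 := h1.comp hφ (hP.comp hext)
  have e : P = (P ∘ ext) ∘ (fun (a : ℕ → V → ℝ) (i : (Finset.range k : Finset ℕ)) => a i) := by
    funext ξ
    refine hdep _ _ fun j hj => ?_
    have hj' : j ∈ Finset.range k := Finset.mem_range.2 hj
    simp only [ext, dif_pos hj']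
  rw [e]
  exact h2

private theorem ts_fubini {W : Type*} [MeasurableSpace W] (k : ℕ) (P : (ℕ → V → ℝ) → W)
    (hP : Measurable P) (hdep : ∀ ξ ξ' : ℕ → V → ℝ, (∀ j, j < k → ξ j = ξ' j) → P ξ = P ξ')
    (Q : (V → ℝ) × W → ℝ) (hQ : Measurable Q) {C : ℝ} (hC : ∀ p, |Q p| ≤ C) :
    Integrable (fun ξ => ∫ g, Q (g, P ξ) ∂gam V) (nu V) ∧
    ∫ ξ, Q (ξ k, P ξ) ∂nu V = ∫ ξ, ∫ g, Q (g, P ξ) ∂gam V ∂nu V := by
  have hk : Measurable (fun ξ : ℕ → V → ℝ => ξ k) := measurable_pi_apply k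
  have hmap : (nu V).map (fun ξ => (ξ k, P ξ)) = (gam V).prod ((nu V).map P) := by
    have h := (ProbabilityTheory.indepFun_iff_map_prod_eq_prod_map_map hk.aemeasurable
      hP.aemeasurable).1 (ts_indep k P hP hdep)
    have h2 : (nu V).map (fun ξ : ℕ → V → ℝ => ξ k) = gam V := by
      unfold nu
      exact Measure.infinitePi_map_eval (fun _ : ℕ => gam V) k
    rw [h, h2]
  have : IsProbabilityMeasure ((nu V).map P) :=
    Measure.isProbabilityMeasure_map hP.aemeasurable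
  have hint : Integrable Q ((gam V).prod ((nu V).map P)) :=
    Integrable.of_bound hQ.aestronglyMeasurable C
      (Eventually.of_forall fun p => by
        rw [Real.norm_eq_abs]
        exact hC p)
  have hint2 := hint.integral_prod_right
  refine ⟨hint2.comp_measurable hP, ?_⟩
  calc ∫ ξ, Q (ξ k, P ξ) ∂nu V = ∫ p, Q p ∂(nu V).map (fun ξ => (ξ k, P ξ)) :=
        (integral_map (hk.prodMk hP).aemeasurable hQ.aestronglyMeasurable).symm
    _ = ∫ p, Q p ∂(gam V).prod ((nu V).map P) := by rw [hmap]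
    _ = ∫ w, ∫ g, Q (g, w) ∂gam V ∂(nu V).map P := integral_prod_symm Q hint
    _ = ∫ ξ, ∫ g, Q (g, P ξ) ∂gam V ∂nu V :=
        integral_map hP.aemeasurable hint2.aestronglyMeasurable

/-- Integrated form along two schemes, under the law of the noise array. -/
theorem two_step_flow (hδ0 : 0 ≤ δ) (hδ1 : δ ≤ 1) (k : ℕ) :
    |∫ ξ, (mean G β₁ S₁ (flow G β₁ S₁ δ ξ 0 (k + 1) 0) r - mean G β₂ S₂ (flow G β₂ S₂ δ ξ 0 (k + 1) 0) r) ^ 2 ∂nu V -
        ∫ ξ, (mean G β₁ S₁ (flow G β₁ S₁ δ ξ 0 k 0) r - mean G β₂ S₂ (flow G β₂ S₂ δ ξ 0 k 0) r) ^ 2 ∂nu V -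
        δ * ∫ ξ, ∑ v ∈ S₁ ∪ S₂, (cov G β₁ S₁ (flow G β₁ S₁ δ ξ 0 k 0) r v -
          cov G β₂ S₂ (flow G β₂ S₂ δ ξ 0 k 0) r v) ^ 2 ∂nu V| ≤
      Cts ((S₁.card : ℝ) + S₂.card) * δ ^ (3 / 2 : ℝ) := by
  set K := Cts ((S₁.card : ℝ) + S₂.card) * δ ^ (3 / 2 : ℝ) with hK
  -- the past
  have hzero : Measurable (fun ξ : ℕ → V → ℝ => ((ξ, (0 : V → ℝ)) : (ℕ → V → ℝ) × (V → ℝ))) :=
    measurable_id.prodMk measurable_const
  have hfm : ∀ (β : ℝ) (S : Finset V),
      Measurable (fun ξ : ℕ → V → ℝ => flow G β S δ ξ 0 k 0) := fun β S =>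
    (measurable_flow S δ 0 k).comp hzero
  set P : (ℕ → V → ℝ) → (V → ℝ) × (V → ℝ) :=
    fun ξ => (flow G β₁ S₁ δ ξ 0 k 0, flow G β₂ S₂ δ ξ 0 k 0) with hP
  have hPm : Measurable P := (hfm β₁ S₁).prodMk (hfm β₂ S₂)
  have hdep : ∀ ξ ξ' : ℕ → V → ℝ, (∀ j, j < k → ξ j = ξ' j) → P ξ = P ξ' := by
    intro ξ ξ' h
    simp only [hP]
    rw [ts_flow_noise G β₁ S₁ δ k 0 0 ξ ξ' (fun j _ hj => h j (by omega)),
      ts_flow_noise G β₂ S₂ δ k 0 0 ξ ξ' (fun j _ hj => h j (by omega))]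
  set Q : (V → ℝ) × ((V → ℝ) × (V → ℝ)) → ℝ := fun p =>
    (mean G β₁ S₁ (eulerStep G β₁ S₁ δ p.1 p.2.1) r -
      mean G β₂ S₂ (eulerStep G β₂ S₂ δ p.1 p.2.2) r) ^ 2 with hQ
  have hQm : Measurable Q := by
    have h1 : Measurable (fun p : (V → ℝ) × ((V → ℝ) × (V → ℝ)) =>
        mean G β₁ S₁ (eulerStep G β₁ S₁ δ p.1 p.2.1) r) := by
      refine (measurable_mean S₁ r).comp ?_
      have : Measurable (fun p : (V → ℝ) × ((V → ℝ) × (V → ℝ)) => ((p.1, p.2.1) : (V → ℝ) × (V → ℝ))) :=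
        measurable_fst.prodMk (measurable_fst.comp measurable_snd)
      exact (measurable_eulerStep_joint S₁ δ).comp this
    have h2 : Measurable (fun p : (V → ℝ) × ((V → ℝ) × (V → ℝ)) =>
        mean G β₂ S₂ (eulerStep G β₂ S₂ δ p.1 p.2.2) r) := by
      refine (measurable_mean S₂ r).comp ?_
      have : Measurable (fun p : (V → ℝ) × ((V → ℝ) × (V → ℝ)) => ((p.1, p.2.2) : (V → ℝ) × (V → ℝ))) :=
        measurable_fst.prodMk (measurable_snd.comp measurable_snd)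
      exact (measurable_eulerStep_joint S₂ δ).comp this
    exact (h1.sub h2).pow_const 2
  have hQb : ∀ p, |Q p| ≤ 4 := by
    intro p
    simp only [hQ]
    rw [abs_pow]
    have h1 := abs_mean_le G β₁ S₁ (eulerStep G β₁ S₁ δ p.1 p.2.1) r
    have h2 := abs_mean_le G β₂ S₂ (eulerStep G β₂ S₂ δ p.1 p.2.2) r
    have h3 : |mean G β₁ S₁ (eulerStep G β₁ S₁ δ p.1 p.2.1) r -
        mean G β₂ S₂ (eulerStep G β₂ S₂ δ p.1 p.2.2) r| ≤ 2 := by
      have := ts_diff_le h1 h2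
      linarith
    have := pow_le_pow_left₀ (abs_nonneg _) h3 2
    linarith
  obtain ⟨hAi, hfub⟩ := ts_fubini k P hPm hdep Q hQm hQb
  -- rewriting the first integrand
  have hfirst : ∀ ξ : ℕ → V → ℝ,
      (mean G β₁ S₁ (flow G β₁ S₁ δ ξ 0 (k + 1) 0) r - mean G β₂ S₂ (flow G β₂ S₂ δ ξ 0 (k + 1) 0) r) ^ 2 =
        Q (ξ k, P ξ) := by
    intro ξ
    simp only [hQ, hP]
    rw [flow_succ S₁ δ ξ 0 k 0, flow_succ S₂ δ ξ 0 k 0, zero_add]
  simp_rw [hfirst]
  rw [hfub]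
  -- the other two integrands
  set Bf : (ℕ → V → ℝ) → ℝ := fun ξ =>
    (mean G β₁ S₁ (flow G β₁ S₁ δ ξ 0 k 0) r - mean G β₂ S₂ (flow G β₂ S₂ δ ξ 0 k 0) r) ^ 2 with hBf
  set Cf' : (ℕ → V → ℝ) → ℝ := fun ξ => ∑ v ∈ S₁ ∪ S₂, (cov G β₁ S₁ (flow G β₁ S₁ δ ξ 0 k 0) r v -
      cov G β₂ S₂ (flow G β₂ S₂ δ ξ 0 k 0) r v) ^ 2 with hCf'
  have hBm : Measurable Bf :=
    (((measurable_mean S₁ r).comp (hfm β₁ S₁)).sub ((measurable_mean S₂ r).comp (hfm β₂ S₂))).pow_const 2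
  have hCm : Measurable Cf' :=
    Finset.measurable_sum _ fun v _ =>
      (((measurable_cov S₁ r v).comp (hfm β₁ S₁)).sub ((measurable_cov S₂ r v).comp (hfm β₂ S₂))).pow_const 2
  have hBi : Integrable Bf (nu V) := by
    refine Integrable.of_bound hBm.aestronglyMeasurable 4 (Eventually.of_forall fun ξ => ?_)
    simp only [hBf]
    rw [Real.norm_eq_abs, abs_pow]
    have h1 := abs_mean_le G β₁ S₁ (flow G β₁ S₁ δ ξ 0 k 0) r
    have h2 := abs_mean_le G β₂ S₂ (flow G β₂ S₂ δ ξ 0 k 0) r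
    have h3 : |mean G β₁ S₁ (flow G β₁ S₁ δ ξ 0 k 0) r - mean G β₂ S₂ (flow G β₂ S₂ δ ξ 0 k 0) r| ≤ 2 := by
      have := ts_diff_le h1 h2
      linarith
    have := pow_le_pow_left₀ (abs_nonneg _) h3 2
    linarith
  have hCi : Integrable Cf' (nu V) := by
    refine Integrable.of_bound hCm.aestronglyMeasurable (((S₁ ∪ S₂).card : ℝ) * 16)
      (Eventually.of_forall fun ξ => ?_)
    simp only [hCf']
    rw [Real.norm_eq_abs]
    calc _ ≤ ∑ v ∈ S₁ ∪ S₂, |(cov G β₁ S₁ (flow G β₁ S₁ δ ξ 0 k 0) r v -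
          cov G β₂ S₂ (flow G β₂ S₂ δ ξ 0 k 0) r v) ^ 2| := Finset.abs_sum_le_sum_abs _ _
      _ ≤ ∑ _v ∈ S₁ ∪ S₂, (16 : ℝ) := Finset.sum_le_sum fun v _ => by
          rw [abs_pow]
          have h1 := ts_cov_abs G β₁ S₁ (flow G β₁ S₁ δ ξ 0 k 0) r v
          have h2 := ts_cov_abs G β₂ S₂ (flow G β₂ S₂ δ ξ 0 k 0) r v
          have h3 : |cov G β₁ S₁ (flow G β₁ S₁ δ ξ 0 k 0) r v -
              cov G β₂ S₂ (flow G β₂ S₂ δ ξ 0 k 0) r v| ≤ 4 := by
            have := ts_diff_le h1 h2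
            linarith
          have := pow_le_pow_left₀ (abs_nonneg _) h3 2
          linarith
      _ = _ := by
          rw [Finset.sum_const, nsmul_eq_mul]
  have hpt : ∀ ξ, |∫ g, Q (g, P ξ) ∂gam V - Bf ξ - δ * Cf' ξ| ≤ K := by
    intro ξ
    exact two_step (G := G) (β₁ := β₁) (β₂ := β₂) (S₁ := S₁) (S₂ := S₂) (r := r) hδ0 hδ1
      (flow G β₁ S₁ δ ξ 0 k 0) (flow G β₂ S₂ δ ξ 0 k 0)
  have hcomb : ∫ ξ, ∫ g, Q (g, P ξ) ∂gam V ∂nu V - ∫ ξ, Bf ξ ∂nu V - δ * ∫ ξ, Cf' ξ ∂nu V =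
      ∫ ξ, (∫ g, Q (g, P ξ) ∂gam V - Bf ξ - δ * Cf' ξ) ∂nu V := by
    have i12 : Integrable (fun ξ => ∫ g, Q (g, P ξ) ∂gam V - Bf ξ) (nu V) := hAi.sub hBi
    rw [integral_sub i12 (hCi.const_mul δ), integral_sub hAi hBi, integral_const_mul]
  rw [hcomb]
  have := norm_integral_le_of_norm_le (μ := nu V) (integrable_const K)
    (f := fun ξ => ∫ g, Q (g, P ξ) ∂gam V - Bf ξ - δ * Cf' ξ)
    (Eventually.of_forall fun ξ => by
      rw [Real.norm_eq_abs]
      exact hpt ξ)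
  rw [Real.norm_eq_abs] at this
  simpa using this

end Vale.Agent.Lib.P161E
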