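import Vale.Agent.Lib.P161E.Flows

/-! Job E2a: parameters, the schemes, the limit field, measurability and equivariance. -/

open MeasureTheory Finset Filter Topology
open scoped Classical ENNReal

noncomputable section

namespace Vale.Agent.Lib.P161E

open Vale.Agent.Lib.P161

variable {V : Type*} {G : SimpleGraph V} [G.LocallyFinite] {β : ℝ} {d : ℕ}
  {g : ℕ → ℕ → unitInterval → ℝ}

/-- Parameters of the approximation for `β` below the endpoint. -/
structure Par (d : ℕ) (β : ℝ) where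
  κ : ℝ
  ρ : ℝ
  n : ℕ → ℕ
  l : ℕ → ℕ
  hθκ : Real.tanh β ≤ κ
  hκ : 0 < κ
  hκρ : κ < ρ
  hρ : ρ < 1
  hdκρ : ((d : ℝ) - 1) * κ * ρ < 1
  hρ2 : ((d : ℝ) - 1) * ρ ^ 2 < 1
  hs : Seqs d κ ρ n l

theorem exists_par (hd : 2 ≤ d) (hβ : 0 ≤ β) (hθ : ((d : ℝ) - 1) * Real.tanh β ^ 2 < 1) :
    Nonempty (Par d β) := by
  have hθ0 : 0 ≤ Real.tanh β := by
    rw [Real.tanh_eq_sinh_div_cosh]
    exact div_nonneg (Real.sinh_nonneg_iff.mpr hβ) (Real.cosh_pos β).le
  obtain ⟨κ, ρ, h1, h2, h3, h4, h5, h6⟩ := exists_params hd hθ0 hθ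
  obtain ⟨n, l, hs⟩ := exists_seqs d κ ρ hd h6
  exact ⟨⟨κ, ρ, n, l, h1, h2, h3, h4, h5, h6, hs⟩⟩

/-- `l j` tends to infinity: indeed `4 j ≤ l j`. -/
theorem Par.l_ge (P : Par d β) (hd : 2 ≤ d) (j : ℕ) : 4 * j ≤ P.l j := by
  by_contra hlt
  push Not at hlt
  have hR := P.hs.Rc_le j
  set N : ℝ := (((d + 1) ^ P.n j : ℕ) : ℝ) with hN
  have hN1 : 1 ≤ N := by
    rw [hN]
    exact_mod_cast Nat.one_le_pow _ _ (by omega)
  have h1 : 2 * 2 ^ j ≤ Rc N j := by
    unfold Rc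
    have h2 : 1 ≤ Real.exp (2 * N * 2 ^ j) := Real.one_le_exp (by positivity)
    have h3 : 1 ≤ N ^ 2 := one_le_pow₀ hN1
    have h4 : (0 : ℝ) < 2 ^ j := by positivity
    calc (2 : ℝ) * 2 ^ j = 2 * 1 * 2 ^ j * 1 := by ring
      _ ≤ _ := by gcongr
  have h5 : qq ^ (4 * j) ≤ qq ^ P.l j :=
    pow_le_pow_of_le_one qq_pos.le (qq_le.trans (by norm_num)) hlt.le
  have h6 : qq ^ (4 * j) = (1 / 4) ^ j := by
    rw [pow_mul]
    congr 1
    calc qq ^ 4 = (qq * qq) ^ 2 := by ring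
      _ = 1 / 4 := by rw [qq_sq]; norm_num
  have h8 : 4 * (2 * 2 ^ j) * (1 / 4 : ℝ) ^ j ≤ (1 / 2) ^ j := by
    calc _ ≤ 4 * Rc N j * qq ^ P.l j := by
          rw [← h6]
          have hR0 := Rc_nonneg N j
          have hq0 : 0 ≤ qq ^ (4 * j) := pow_nonneg qq_pos.le _
          have hq1 : 0 ≤ qq ^ P.l j := pow_nonneg qq_pos.le _
          exact mul_le_mul (mul_le_mul_of_nonneg_left h1 (by norm_num)) h5 hq0 (by positivity)
      _ ≤ _ := hR
  have h9 : (2 : ℝ) ^ j * (1 / 4) ^ j = (1 / 2) ^ j := by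
    rw [← mul_pow]
    norm_num
  have h10 : (0 : ℝ) < (1 / 2) ^ j := by positivity
  nlinarith

/-- The Euler scheme of stage `j` at time `u`. -/
def Zu (g : ℕ → ℕ → unitInterval → ℝ) (G : SimpleGraph V) [G.LocallyFinite] (β : ℝ) (P : Par d β)
    (u : ℝ) (j : ℕ) (x : V) (U : V → unitInterval) : ℝ :=
  flow G β (ball G x (P.n j)) (dlt (P.l j)) (xiN g (P.l j) U) 0 (stp u (P.l j)) 0 x

/-- The limit field at time `u`. -/
def Yf (g : ℕ → ℕ → unitInterval → ℝ) (G : SimpleGraph V) [G.LocallyFinite] (β : ℝ) (P : Par d β)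
    (u : ℝ) (x : V) (U : V → unitInterval) : ℝ :=
  limsup (fun j => Zu g G β P u j x U) atTop

omit [G.LocallyFinite] in
theorem measurable_flow_U (hg : DN g) (S : Finset V) (l K : ℕ) (x : V) :
    Measurable (fun U : V → unitInterval => flow G β S (dlt l) (xiN g l U) 0 K 0 x) :=
  (measurable_flow_noise _ _ _ _).comp (measurable_xiN g hg.hm l)

theorem measurable_Zu (hg : DN g) (P : Par d β) (u : ℝ) (j : ℕ) (x : V) :
    Measurable (Zu g G β P u j x) :=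
  measurable_flow_U hg _ _ _ _

theorem measurable_Yf (hg : DN g) (P : Par d β) (u : ℝ) (x : V) : Measurable (Yf g G β P u x) :=
  Measurable.limsup fun j => measurable_Zu hg P u j x

/-- Exact equivariance, at every `U`. -/
theorem Yf_map (hT : G.IsTree) (P : Par d β) (u : ℝ) (φ : G ≃g G) (x : V) (U : V → unitInterval) :
    Yf g G β P u (φ x) (U ∘ φ.symm) = Yf g G β P u x U := by
  unfold Yf
  have h : ∀ j, Zu g G β P u j (φ x) (U ∘ φ.symm) = Zu g G β P u j x U := by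
    intro j
    unfold Zu
    rw [ball_map φ hT]
    exact flow_map φ _ _ (xiN g (P.l j) U) 0 _ 0 x
  simp only [h]

end Vale.Agent.Lib.P161E
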