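import Vale.Agent.Lib.P161E.YA
import Vale.Agent.Lib.P161D.Lim2
import Vale.Agent.Lib.P161D.Marg
import Vale.Agent.Lib.P161D.GaussM

/-! Job E2b: convergence of the schemes to the limit field, exact law. -/

open MeasureTheory Finset Filter Topology
open scoped Classical ENNReal

noncomputable section

namespace Vale.Agent.Lib.P161E

open Vale.Agent.Lib.P161

variable {V : Type*} {G : SimpleGraph V} [G.LocallyFinite] {β : ℝ} {d : ℕ}
  {g : ℕ → ℕ → unitInterval → ℝ}

section chain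

variable {S' : Finset V} {δ : ℝ}

/-- The exact chain on a star set and the Euler scheme on a ball, in mean square. -/
theorem chain_flow_sq (hT : G.IsTree) (hd : 2 ≤ d) (hreg : G.IsRegularOfDegree d) (hβ : 0 ≤ β)
    (P : Par d β) (r : V) (n : ℕ) (hSS' : ball G r n ⊆ S') (hS' : Star G r S') (hδ0 : 0 < δ)
    (hδ1 : δ ≤ 1) (K : ℕ) :
    ∫⁻ ξ, chainFrom G β S' δ 0 ξ K
        (fun y => ENNReal.ofReal ((y r - flow G β (ball G r n) δ ξ 0 K 0 r) ^ 2)) 0 ∂nu V ≤
      ENNReal.ofReal (errC d P.κ P.ρ (ball G r n).card (K * δ) δ n) := by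
  rcases Nat.eq_zero_or_pos K with rfl | hK
  · simp [chainFrom, flow]
  set Z : (ℕ → V → ℝ) → ℝ := fun ξ => flow G β (ball G r n) δ ξ 0 K 0 r with hZ
  have hZm : Measurable Z := measurable_flow_noise _ _ _ _
  have hm2 : Measurable (Function.uncurry fun (ξ : ℕ → V → ℝ) (y : V → ℝ) =>
      ENNReal.ofReal ((y r - Z ξ) ^ 2)) := by
    refine ENNReal.measurable_ofReal.comp (Measurable.pow_const (Measurable.sub ?_ ?_) 2)
    · exact (measurable_pi_apply r).comp measurable_snd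
    · exact hZm.comp measurable_fst
  have hm3 : Measurable (fun ξ : ℕ → V → ℝ => chainFrom G β S' δ 0 ξ K
      (fun y => ENNReal.ofReal ((y r - Z ξ) ^ 2)) 0) :=
    measurable_chain_at S' δ 0 K _ hm2 0
  have hdep : ∀ ξ ξ' : ℕ → V → ℝ, (∀ i ∈ Finset.range K, ξ i = ξ' i) →
      chainFrom G β S' δ 0 ξ K (fun y => ENNReal.ofReal ((y r - Z ξ) ^ 2)) 0 =
        chainFrom G β S' δ 0 ξ' K (fun y => ENNReal.ofReal ((y r - Z ξ') ^ 2)) 0 := by
    intro ξ ξ' h
    have h' : ∀ j ∈ Finset.Ico 0 (0 + K), ξ j = ξ' j := fun j hj => h j (by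
      rw [Finset.mem_Ico] at hj
      rw [Finset.mem_range]
      omega)
    have h1 : Z ξ = Z ξ' := by
      simp only [hZ]
      rw [flow_congr_noise _ _ K 0 0 h']
    rw [h1]
    exact chainFrom_congr S' δ 0 K h' _ _
  rw [lintegral_nu_eq_lmarginal (Finset.range K) _ hm3 hdep 0]
  exact compare_flow hT hd hreg hβ P.hθκ P.hκ P.hκρ P.hρ P.hdκρ r n hSS' hS' hδ0 hδ1 K hK 0

/-- Two Euler schemes on balls about `r`, at the same level, in mean square. -/
theorem flow_flow_sq (hT : G.IsTree) (hd : 2 ≤ d) (hreg : G.IsRegularOfDegree d) (hβ : 0 ≤ β)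
    (P : Par d β) (r : V) (n₁ n₂ : ℕ) (hδ0 : 0 < δ) (hδ1 : δ ≤ 1) (K : ℕ) {e₁ e₂ : ℝ}
    (he₁0 : 0 ≤ e₁) (he₂0 : 0 ≤ e₂)
    (he₁ : errC d P.κ P.ρ (ball G r n₁).card (K * δ) δ n₁ ≤ e₁)
    (he₂ : errC d P.κ P.ρ (ball G r n₂).card (K * δ) δ n₂ ≤ e₂) :
    ∫⁻ ξ, ENNReal.ofReal ((flow G β (ball G r n₁) δ ξ 0 K 0 r -
        flow G β (ball G r n₂) δ ξ 0 K 0 r) ^ 2) ∂nu V ≤ ENNReal.ofReal (2 * (e₁ + e₂)) := by
  set S := ball G r (max n₁ n₂) with hS
  have hrr : r ∈ S := by rw [hS, mem_ball hT]; simp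
  have hstar : Star G r S := star_ball hT hrr
  have hsub : ∀ m, m ≤ max n₁ n₂ → ball G r m ⊆ S := by
    intro m hm v hv
    rw [hS, mem_ball hT]
    rw [mem_ball hT] at hv
    omega
  set Z₁ : (ℕ → V → ℝ) → ℝ := fun ξ => flow G β (ball G r n₁) δ ξ 0 K 0 r with hZ₁
  set Z₂ : (ℕ → V → ℝ) → ℝ := fun ξ => flow G β (ball G r n₂) δ ξ 0 K 0 r with hZ₂
  have hZ₁m : Measurable Z₁ := measurable_flow_noise _ _ _ _
  have hZ₂m : Measurable Z₂ := measurable_flow_noise _ _ _ _
  have h1 := chain_flow_sq hT hd hreg hβ P r n₁ (hsub n₁ (le_max_left _ _)) hstar hδ0 hδ1 K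
  have h2 := chain_flow_sq hT hd hreg hβ P r n₂ (hsub n₂ (le_max_right _ _)) hstar hδ0 hδ1 K
  have hm : ∀ Z : (ℕ → V → ℝ) → ℝ, Measurable Z → Measurable (fun ξ : ℕ → V → ℝ =>
      chainFrom G β S δ 0 ξ K (fun y => ENNReal.ofReal ((y r - Z ξ) ^ 2)) 0) := by
    intro Z hZ
    refine measurable_chain_at S δ 0 K _ ?_ 0
    refine ENNReal.measurable_ofReal.comp (Measurable.pow_const (Measurable.sub ?_ ?_) 2)
    · exact (measurable_pi_apply r).comp measurable_snd
    · exact hZ.comp measurable_fst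
  have hc : (0 : ℝ) ≤ 2 := by norm_num
  calc ∫⁻ ξ, ENNReal.ofReal ((Z₁ ξ - Z₂ ξ) ^ 2) ∂nu V
      ≤ ∫⁻ ξ, (ENNReal.ofReal 2 * chainFrom G β S δ 0 ξ K (fun y => ENNReal.ofReal ((y r - Z₁ ξ) ^ 2)) 0 +
          ENNReal.ofReal 2 * chainFrom G β S δ 0 ξ K (fun y => ENNReal.ofReal ((y r - Z₂ ξ) ^ 2)) 0) ∂nu V := by
        refine lintegral_mono fun ξ => ?_
        rw [← chainFrom_const_mul, ← chainFrom_const_mul, ← chainFrom_add']
        calc ENNReal.ofReal ((Z₁ ξ - Z₂ ξ) ^ 2)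
            = chainFrom G β S δ 0 ξ K (fun _ => ENNReal.ofReal ((Z₁ ξ - Z₂ ξ) ^ 2)) 0 :=
              (chainFrom_const K _ _).symm
          _ ≤ _ := by
              refine chainFrom_mono K (fun y => ?_) 0
              rw [← ENNReal.ofReal_mul hc, ← ENNReal.ofReal_mul hc,
                ← ENNReal.ofReal_add (by positivity) (by positivity)]
              refine ENNReal.ofReal_le_ofReal ?_
              nlinarith [sq_nonneg ((y r - Z₁ ξ) + (y r - Z₂ ξ))]
    _ = ENNReal.ofReal 2 * ∫⁻ ξ, chainFrom G β S δ 0 ξ K (fun y => ENNReal.ofReal ((y r - Z₁ ξ) ^ 2)) 0 ∂nu V +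
          ENNReal.ofReal 2 * ∫⁻ ξ, chainFrom G β S δ 0 ξ K (fun y => ENNReal.ofReal ((y r - Z₂ ξ) ^ 2)) 0 ∂nu V := by
        rw [lintegral_add_left ((hm Z₁ hZ₁m).const_mul _), lintegral_const_mul _ (hm Z₁ hZ₁m),
          lintegral_const_mul _ (hm Z₂ hZ₂m)]
    _ ≤ ENNReal.ofReal 2 * ENNReal.ofReal e₁ + ENNReal.ofReal 2 * ENNReal.ofReal e₂ := by
        gcongr
        · exact h1.trans (ENNReal.ofReal_le_ofReal he₁)
        · exact h2.trans (ENNReal.ofReal_le_ofReal he₂)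
    _ = ENNReal.ofReal (2 * (e₁ + e₂)) := by
        rw [← ENNReal.ofReal_mul hc, ← ENNReal.ofReal_mul hc,
          ← ENNReal.ofReal_add (by positivity) (by positivity)]
        congr 1
        ring

end chain

/-- Elementary bound on the error of stage `j`. -/
theorem errC_stage (hd : 2 ≤ d) (hreg : G.IsRegularOfDegree d) (P : Par d β) {j l : ℕ} (hl : P.l j ≤ l)
    {τ : ℝ} (hτ0 : 0 ≤ τ) (hτ : τ ≤ 2 ^ j) (v : V) :
    errC d P.κ P.ρ (ball G v (P.n j)).card τ (dlt l) (P.n j) ≤ (6 * τ ^ 2 + 3 * τ) * (1 / 2) ^ j := by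
  have hC := Vale.Agent.Lib.P161D.convC_nonneg (d := d) P.hκ P.hκρ P.hρ P.hdκρ
  have hd1 : (0 : ℝ) ≤ (d : ℝ) - 1 := by
    have : (2 : ℝ) ≤ d := by exact_mod_cast hd
    linarith
  have hx : 0 ≤ ((d : ℝ) - 1) * P.ρ ^ 2 := by positivity
  have hs1 : stat d P.κ P.ρ τ (P.n j) ≤ (1 / 2) ^ j :=
    (Vale.Agent.Lib.P161D.stat_mono_T hC hx hτ).trans (P.hs.stat_le j)
  have hN : ((ball G v (P.n j)).card : ℝ) ≤ (((d + 1) ^ P.n j : ℕ) : ℝ) := card_ball_cast hreg v _
  have hs2 : cS (ball G v (P.n j)).card τ (convC d P.κ P.ρ) * dlt l ≤ (1 / 2) ^ j := by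
    have h1 : cS (ball G v (P.n j)).card τ (convC d P.κ P.ρ) ≤
        cS (((d + 1) ^ P.n j : ℕ) : ℝ) (2 ^ j) (convC d P.κ P.ρ) :=
      (cS_mono (Nat.cast_nonneg _) hN hτ0).trans
        (Vale.Agent.Lib.P161D.cS_mono_T (Nat.cast_nonneg _) hC hτ0 hτ)
    have h2 : 0 ≤ cS (((d + 1) ^ P.n j : ℕ) : ℝ) (2 ^ j) (convC d P.κ P.ρ) :=
      cS_nonneg (Nat.cast_nonneg _) (by positivity)
    have h3 := dlt_anti hl
    have h4 := dlt_pos l
    calc _ ≤ cS (((d + 1) ^ P.n j : ℕ) : ℝ) (2 ^ j) (convC d P.κ P.ρ) * dlt (P.l j) :=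
          mul_le_mul h1 h3 h4.le h2
      _ ≤ _ := P.hs.cS_le j
  unfold errC
  have h5 : 6 * τ ^ 2 * stat d P.κ P.ρ τ (P.n j) ≤ 6 * τ ^ 2 * (1 / 2) ^ j := by gcongr
  have h6 : 3 * τ * (cS (ball G v (P.n j)).card τ (convC d P.κ P.ρ) * dlt l) ≤ 3 * τ * (1 / 2) ^ j := by
    gcongr
  nlinarith

/-- Elementary bound on the refinement error of stage `j`. -/
theorem refine_stage (hreg : G.IsRegularOfDegree d) (P : Par d β) {j l : ℕ} (hl : P.l j ≤ l)
    {τ : ℝ} (hτ0 : 0 ≤ τ) (hτ : τ ≤ 2 ^ j) (v : V) :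
    8 * Real.exp (2 * (ball G v (P.n j)).card * τ) * τ * ((ball G v (P.n j)).card : ℝ) ^ 2 * qq ^ l ≤
      (1 / 2) ^ j := by
  have hN : ((ball G v (P.n j)).card : ℝ) ≤ (((d + 1) ^ P.n j : ℕ) : ℝ) := card_ball_cast hreg v _
  have hN0 : (0 : ℝ) ≤ ((ball G v (P.n j)).card : ℝ) := Nat.cast_nonneg _
  set N : ℝ := ((ball G v (P.n j)).card : ℝ) with hNd
  set N' : ℝ := (((d + 1) ^ P.n j : ℕ) : ℝ) with hN'
  refine le_trans ?_ (P.hs.Rc_le j)
  unfold Rc
  have hq : qq ^ l ≤ qq ^ P.l j := pow_le_pow_of_le_one qq_pos.le (qq_le.trans (by norm_num)) hl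
  have hq0 : 0 ≤ qq ^ l := pow_nonneg qq_pos.le _
  have he : Real.exp (2 * N * τ) ≤ Real.exp (2 * N' * 2 ^ j) := by
    apply Real.exp_le_exp.mpr
    gcongr
  have hN'0 : 0 ≤ N' := hN0.trans hN
  calc 8 * Real.exp (2 * N * τ) * τ * N ^ 2 * qq ^ l
      ≤ 8 * Real.exp (2 * N' * 2 ^ j) * 2 ^ j * N' ^ 2 * qq ^ P.l j := by gcongr
    _ = _ := by ring

section main

variable (hg : DN g) (hT : G.IsTree) (hd : 2 ≤ d) (hreg : G.IsRegularOfDegree d) (hβ : 0 ≤ β)
  (P : Par d β) {u T : ℝ}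

include hg hT hd hreg hβ

/-- Lintegral form of the comparison of schemes. -/
theorem flow_stage_lint {L k : ℕ} {j j' : ℕ} (hu : dy L k ≤ 2 ^ j) (hjj' : j ≤ j') {l l'' : ℕ}
    (hl : P.l j ≤ l) (hLl : L ≤ l) (hl' : l ≤ l'') (hl'' : P.l j' ≤ l'') (x : V) :
    ∫⁻ U, ENNReal.ofReal ((flow G β (ball G x (P.n j)) (dlt l) (xiN g l U) 0 (stp (dy L k) l) 0 x -
        flow G β (ball G x (P.n j')) (dlt l'') (xiN g l'' U) 0 (stp (dy L k) l'') 0 x) ^ 2) ∂iidUniform V ≤
      ENNReal.ofReal (100 * (1 + dy L k) ^ 2 * (1 / 2) ^ j) := by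
  set τ : ℝ := dy L k with hτd
  have hτ0 : 0 ≤ τ := by
    rw [hτd]; unfold dy; have := dlt_pos L; positivity
  have hLl'' : L ≤ l'' := hLl.trans hl'
  set K := stp τ l with hK
  have hK'' : stp τ l'' = K * 2 ^ (l'' - l) := by
    rw [hK, hτd, stp_dy hLl'', stp_dy hLl, mul_assoc, ← pow_add]
    congr 2
    omega
  have hKδ : (K : ℝ) * dlt l = τ := stp_mul_dlt hLl
  have hKδ'' : ((K * 2 ^ (l'' - l) : ℕ) : ℝ) * dlt l'' = τ := by
    rw [← hK'']
    exact stp_mul_dlt hLl''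
  rw [hK'']
  set A : (V → unitInterval) → ℝ := fun U => flow G β (ball G x (P.n j)) (dlt l) (xiN g l U) 0 K 0 x with hA
  set C : (V → unitInterval) → ℝ :=
    fun U => flow G β (ball G x (P.n j)) (dlt l'') (xiN g l'' U) 0 (K * 2 ^ (l'' - l)) 0 x with hC
  set B : (V → unitInterval) → ℝ :=
    fun U => flow G β (ball G x (P.n j')) (dlt l'') (xiN g l'' U) 0 (K * 2 ^ (l'' - l)) 0 x with hB
  have hAm : Measurable A := measurable_flow_U hg _ _ _ _
  have hCm : Measurable C := measurable_flow_U hg _ _ _ _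
  have hBm : Measurable B := measurable_flow_U hg _ _ _ _
  have hCA : ∀ U, |C U - A U| ≤ 2 * τ := by
    intro U
    rw [← hKδ]
    exact abs_flow_level_le hg _ _ K hl' U x
  have hpt : ∀ U, ENNReal.ofReal ((A U - B U) ^ 2) ≤
      ENNReal.ofReal (4 * τ) * ENNReal.ofReal |C U - A U| + ENNReal.ofReal 2 * ENNReal.ofReal ((C U - B U) ^ 2) := by
    intro U
    rw [← ENNReal.ofReal_mul (by positivity), ← ENNReal.ofReal_mul (by norm_num),
      ← ENNReal.ofReal_add (by positivity) (by positivity)]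
    refine ENNReal.ofReal_le_ofReal ?_
    have h1 := hCA U
    have h2 : (C U - A U) ^ 2 ≤ 2 * τ * |C U - A U| := by
      rw [← sq_abs]
      have := abs_nonneg (C U - A U)
      nlinarith
    nlinarith [sq_nonneg ((C U - A U) + (C U - B U))]
  have hm1 : Measurable (fun U => ENNReal.ofReal |C U - A U|) :=
    ((hCm.sub hAm).abs).ennreal_ofReal
  have hm2 : Measurable (fun U => ENNReal.ofReal ((C U - B U) ^ 2)) :=
    ((hCm.sub hBm).pow_const 2).ennreal_ofReal
  have h1 : ∫⁻ U, ENNReal.ofReal |C U - A U| ∂iidUniform V ≤ ENNReal.ofReal ((1 / 2) ^ j) := by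
    have hr : x ∈ ball G x (P.n j) := by rw [mem_ball hT]; simp
    refine (refine_general hg (β := β) _ hr K hl').trans (ENNReal.ofReal_le_ofReal ?_)
    rw [hKδ]
    exact refine_stage hreg P hl hτ0 hu x
  have h2 : ∫⁻ U, ENNReal.ofReal ((C U - B U) ^ 2) ∂iidUniform V ≤
      ENNReal.ofReal (2 * ((6 * τ ^ 2 + 3 * τ) * (1 / 2) ^ j + (6 * τ ^ 2 + 3 * τ) * (1 / 2) ^ j)) := by
    have hQ : Measurable (fun ξ : ℕ → V → ℝ => ENNReal.ofReal
        ((flow G β (ball G x (P.n j)) (dlt l'') ξ 0 (K * 2 ^ (l'' - l)) 0 x -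
          flow G β (ball G x (P.n j')) (dlt l'') ξ 0 (K * 2 ^ (l'' - l)) 0 x) ^ 2)) :=
      (((measurable_flow_noise _ _ _ _).sub (measurable_flow_noise _ _ _ _)).pow_const 2).ennreal_ofReal
    have h := lintegral_xiN (V := V) g hg.hm hg.hlaw l'' _ hQ
    rw [h]
    have hll : P.l j ≤ l'' := hl.trans hl'
    have hτ' : τ ≤ 2 ^ j' := hu.trans (pow_le_pow_right₀ (by norm_num) hjj')
    refine flow_flow_sq hT hd hreg hβ P x _ _ (dlt_pos _) (dlt_le_one _) _ (by positivity) (by positivity) ?_ ?_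
    · rw [hKδ'']
      exact errC_stage hd hreg P hll hτ0 hu x
    · rw [hKδ'']
      refine (errC_stage hd hreg P hl'' hτ0 hτ' x).trans ?_
      have : ((1 : ℝ) / 2) ^ j' ≤ (1 / 2) ^ j :=
        pow_le_pow_of_le_one (by norm_num) (by norm_num) hjj'
      gcongr
  calc ∫⁻ U, ENNReal.ofReal ((A U - B U) ^ 2) ∂iidUniform V
      ≤ ∫⁻ U, (ENNReal.ofReal (4 * τ) * ENNReal.ofReal |C U - A U| +
          ENNReal.ofReal 2 * ENNReal.ofReal ((C U - B U) ^ 2)) ∂iidUniform V := lintegral_mono hpt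
    _ = ENNReal.ofReal (4 * τ) * ∫⁻ U, ENNReal.ofReal |C U - A U| ∂iidUniform V +
          ENNReal.ofReal 2 * ∫⁻ U, ENNReal.ofReal ((C U - B U) ^ 2) ∂iidUniform V := by
        rw [lintegral_add_left (hm1.const_mul _), lintegral_const_mul _ hm1, lintegral_const_mul _ hm2]
    _ ≤ ENNReal.ofReal (4 * τ) * ENNReal.ofReal ((1 / 2) ^ j) + ENNReal.ofReal 2 *
          ENNReal.ofReal (2 * ((6 * τ ^ 2 + 3 * τ) * (1 / 2) ^ j + (6 * τ ^ 2 + 3 * τ) * (1 / 2) ^ j)) := by
        gcongr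
    _ ≤ _ := by
        rw [← ENNReal.ofReal_mul (by positivity), ← ENNReal.ofReal_mul (by norm_num),
          ← ENNReal.ofReal_add (by positivity) (by positivity)]
        refine ENNReal.ofReal_le_ofReal ?_
        have hp : (0 : ℝ) < (1 / 2) ^ j := by positivity
        have e : 4 * τ * (1 / 2) ^ j + 2 * (2 * ((6 * τ ^ 2 + 3 * τ) * (1 / 2) ^ j +
            (6 * τ ^ 2 + 3 * τ) * (1 / 2) ^ j)) = (48 * τ ^ 2 + 28 * τ) * (1 / 2) ^ j := by ring
        rw [e]
        have : 48 * τ ^ 2 + 28 * τ ≤ 100 * (1 + τ) ^ 2 := by nlinarith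
        exact mul_le_mul_of_nonneg_right this hp.le

omit hg hT hd hreg hβ in
/-- A nonnegative function with a bound on its lintegral has the bound on its integral. -/
theorem integral_le_of_lintegral {Ω : Type*} [MeasurableSpace Ω] {μ : Measure Ω} {f : Ω → ℝ}
    (hf : Measurable f) (hf0 : ∀ ω, 0 ≤ f ω) {c : ℝ} (hc : 0 ≤ c)
    (h : ∫⁻ ω, ENNReal.ofReal (f ω) ∂μ ≤ ENNReal.ofReal c) : ∫ ω, f ω ∂μ ≤ c := by
  rw [integral_eq_lintegral_of_nonneg_ae (Eventually.of_forall hf0) hf.aestronglyMeasurable]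
  exact ENNReal.toReal_le_of_le_ofReal hc h

/-- E2a. Comparison of schemes at a common level, through the chain on the bigger ball: for `l ≥ P.l j`,
time `u = dy l' k ≤ 2 ^ j` on the grid of level `l`, and `j ≤ j'`, `l ≤ l''` with `P.l j' ≤ l''`. -/
theorem flow_stage_close {L k : ℕ} {j j' : ℕ} (hu : dy L k ≤ 2 ^ j) (hjj' : j ≤ j') {l l'' : ℕ}
    (hl : P.l j ≤ l) (hLl : L ≤ l) (hl' : l ≤ l'') (hl'' : P.l j' ≤ l'') (x : V) :
    ∫ U, (flow G β (ball G x (P.n j)) (dlt l) (xiN g l U) 0 (stp (dy L k) l) 0 x -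
        flow G β (ball G x (P.n j')) (dlt l'') (xiN g l'' U) 0 (stp (dy L k) l'') 0 x) ^ 2 ∂iidUniform V ≤
      100 * (1 + dy L k) ^ 2 * (1 / 2) ^ j := by
  refine integral_le_of_lintegral
    (((measurable_flow_U hg _ _ _ _).sub (measurable_flow_U hg _ _ _ _)).pow_const 2)
    (fun _ => sq_nonneg _) (by positivity)
    (flow_stage_lint hg hT hd hreg hβ P hu hjj' hl hLl hl' hl'' x)

omit hg hT hd hreg hβ in
/-- From a mean square bound to a mean bound. -/
theorem lint_abs_of_sq {Ω : Type*} [MeasurableSpace Ω] {μ : Measure Ω} [IsProbabilityMeasure μ]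
    {X : Ω → ℝ} (hX : Measurable X) {A : ℝ} (hA : 0 ≤ A) (j : ℕ)
    (h : ∫⁻ ω, ENNReal.ofReal (X ω ^ 2) ∂μ ≤ ENNReal.ofReal (A * (1 / 2) ^ j)) :
    ∫⁻ ω, ENNReal.ofReal |X ω| ∂μ ≤ ENNReal.ofReal ((1 + A) * qq ^ j) := by
  have hε : 0 < qq ^ j := pow_pos qq_pos _
  have hm : Measurable (fun ω => ENNReal.ofReal (X ω ^ 2)) := (hX.pow_const 2).ennreal_ofReal
  calc ∫⁻ ω, ENNReal.ofReal |X ω| ∂μ
      ≤ ∫⁻ ω, (ENNReal.ofReal (qq ^ j) + ENNReal.ofReal (1 / qq ^ j) * ENNReal.ofReal (X ω ^ 2)) ∂μ :=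
        lintegral_mono fun ω => Vale.Agent.Lib.P161D.ofReal_abs_le_sq _ hε
    _ = ENNReal.ofReal (qq ^ j) + ENNReal.ofReal (1 / qq ^ j) * ∫⁻ ω, ENNReal.ofReal (X ω ^ 2) ∂μ := by
        rw [lintegral_add_left measurable_const, lintegral_const_mul _ hm]
        simp
    _ ≤ ENNReal.ofReal (qq ^ j) + ENNReal.ofReal (1 / qq ^ j) * ENNReal.ofReal (A * (1 / 2) ^ j) := by
        gcongr
    _ = _ := by
        rw [← ENNReal.ofReal_mul (by positivity), ← ENNReal.ofReal_add hε.le (by positivity)]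
        congr 1
        have e : ((1 : ℝ) / 2) ^ j = qq ^ j * qq ^ j := by
          rw [← mul_pow, qq_sq]
        rw [e]
        field_simp

/-- E2a'. The schemes converge a.e. to `Yf`. -/
theorem Zu_tendsto {L k : ℕ} (x : V) :
    ∀ᵐ U ∂iidUniform V, Tendsto (fun j => Zu g G β P (dy L k) j x U) atTop (𝓝 (Yf g G β P (dy L k) x U)) := by
  set τ : ℝ := dy L k with hτd
  obtain ⟨j₂, hj₂⟩ : ∃ j₂ : ℕ, τ ≤ 2 ^ j₂ :=
    (pow_unbounded_of_one_lt τ (by norm_num : (1 : ℝ) < 2)).imp fun _ h => h.le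
  set c₀ : ℝ := 1 + 100 * (1 + τ) ^ 2 with hc₀
  have hq1 : qq < 1 := qq_le.trans_lt (by norm_num)
  have hsumm : Summable (fun j : ℕ => c₀ * qq ^ j) :=
    (summable_geometric_of_lt_one qq_pos.le hq1).mul_left c₀
  have hc0 : 0 ≤ c₀ := by positivity
  have h := Vale.Agent.Lib.P161D.ae_tendsto_of_summable_L1 (iidUniform V)
    (fun j => Zu g G β P τ j x) (fun j => measurable_Zu hg P τ j x) (max L j₂) _ hsumm
    (fun j => mul_nonneg hc0 (pow_nonneg qq_pos.le _)) (fun j hj => ?_)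
  · filter_upwards [h] with U hU
    obtain ⟨a, ha⟩ := hU
    have e : Yf g G β P τ x U = a := ha.limsup_eq
    rw [e]
    exact ha
  · have hjL : L ≤ j := (le_max_left _ _).trans hj
    have hj2 : τ ≤ 2 ^ j := hj₂.trans (pow_le_pow_right₀ (by norm_num) ((le_max_right _ _).trans hj))
    have hLl : L ≤ P.l j := by
      have := P.l_ge hd j
      omega
    have hmono : P.l j ≤ P.l (j + 1) := P.hs.mono_l (Nat.le_succ j)
    have h1 := flow_stage_lint hg hT hd hreg hβ P hj2 (Nat.le_succ j) (le_refl (P.l j)) hLl hmono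
      (le_refl _) x
    have hX : Measurable (fun U : V → unitInterval => Zu g G β P τ (j + 1) x U - Zu g G β P τ j x U) :=
      (measurable_Zu hg P τ _ x).sub (measurable_Zu hg P τ _ x)
    refine (lint_abs_of_sq hX (A := 100 * (1 + τ) ^ 2) (by positivity) j ?_).trans (le_of_eq ?_)
    · refine le_trans (le_of_eq ?_) h1
      refine lintegral_congr fun U => ?_
      congr 1
      unfold Zu
      ring
    · rw [hc₀]

/-- Lintegral form of the closeness of a scheme to the limit. -/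
theorem flow_close_lint {L k : ℕ} {j : ℕ} (hu : dy L k ≤ 2 ^ j) {l : ℕ} (hl : P.l j ≤ l) (hLl : L ≤ l) (x : V) :
    ∫⁻ U, ENNReal.ofReal ((flow G β (ball G x (P.n j)) (dlt l) (xiN g l U) 0 (stp (dy L k) l) 0 x -
        Yf g G β P (dy L k) x U) ^ 2) ∂iidUniform V ≤
      ENNReal.ofReal (100 * (1 + dy L k) ^ 2 * (1 / 2) ^ j) := by
  set τ : ℝ := dy L k with hτd
  set A : (V → unitInterval) → ℝ :=
    fun U => flow G β (ball G x (P.n j)) (dlt l) (xiN g l U) 0 (stp τ l) 0 x with hA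
  have hAm : Measurable A := measurable_flow_U hg _ _ _ _
  have hae := Zu_tendsto hg hT hd hreg hβ P (L := L) (k := k) x
  have hlim : ∀ᵐ U ∂iidUniform V, ENNReal.ofReal ((A U - Yf g G β P τ x U) ^ 2) =
      liminf (fun j' => ENNReal.ofReal ((A U - Zu g G β P τ j' x U) ^ 2)) atTop := by
    filter_upwards [hae] with U hU
    have h1 : Tendsto (fun j' => ENNReal.ofReal ((A U - Zu g G β P τ j' x U) ^ 2)) atTop
        (𝓝 (ENNReal.ofReal ((A U - Yf g G β P τ x U) ^ 2))) :=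
      ENNReal.continuous_ofReal.continuousAt.tendsto.comp
        ((tendsto_const_nhds.sub hU).pow 2)
    exact h1.liminf_eq.symm
  rw [lintegral_congr_ae hlim]
  refine (lintegral_liminf_le (fun j' =>
    ((hAm.sub (measurable_Zu hg P τ j' x)).pow_const 2).ennreal_ofReal)).trans ?_
  refine liminf_le_of_frequently_le' (Eventually.frequently ?_)
  filter_upwards [eventually_ge_atTop (max j l)] with j' hj'
  have hj1 : j ≤ j' := (le_max_left _ _).trans hj'
  have hl2 : l ≤ P.l j' := by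
    have h1 := P.l_ge hd j'
    have h2 : l ≤ j' := (le_max_right _ _).trans hj'
    omega
  exact flow_stage_lint hg hT hd hreg hβ P hu hj1 hl hLl hl2 (le_refl _) x

/-- E2a''. `L²` closeness of a scheme at any level `l ≥ P.l j` to the limit, with the constant uniform for
times at most `2 ^ j`. -/
theorem flow_close_Y {L k : ℕ} {j : ℕ} (hu : dy L k ≤ 2 ^ j) {l : ℕ} (hl : P.l j ≤ l) (hLl : L ≤ l) (x : V) :
    ∫ U, (flow G β (ball G x (P.n j)) (dlt l) (xiN g l U) 0 (stp (dy L k) l) 0 x -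
        Yf g G β P (dy L k) x U) ^ 2 ∂iidUniform V ≤ 100 * (1 + dy L k) ^ 2 * (1 / 2) ^ j :=
  integral_le_of_lintegral
    (((measurable_flow_U hg _ _ _ _).sub (measurable_Yf hg P _ x)).pow_const 2)
    (fun _ => sq_nonneg _) (by positivity)
    (flow_close_lint hg hT hd hreg hβ P hu hl hLl x)

/-- Law of the limit for test functions with a Lipschitz bound. -/
theorem law_lip {L k : ℕ} {S : Finset V} {r : V} (hr : r ∈ S) (hS : Star G r S) {T₀ : (V → ℝ) → ℝ≥0∞}
    (hTm : Measurable T₀) {c : ℝ≥0∞} (hc : c ≠ ∞)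
    (hLip : ∀ y y', T₀ y ≤ T₀ y' + c * ∑ v ∈ S, ENNReal.ofReal |y v - y' v|) :
    ∫⁻ U, T₀ (fun v => Yf g G β P (dy L k) v U) ∂iidUniform V = planted G β S (dy L k) 0 T₀ := by
  set τ : ℝ := dy L k with hτd
  have hτ0 : 0 ≤ τ := by
    rw [hτd]; unfold dy; have := dlt_pos L; positivity
  have hdep : Vale.Agent.Lib.P161D.DepOn S T₀ := by
    intro y y' h
    have h0 : ∑ v ∈ S, ENNReal.ofReal |y v - y' v| = 0 := by
      refine Finset.sum_eq_zero fun v hv => ?_
      rw [h v hv]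
      simp
    have h1 := hLip y y'
    have h2 := hLip y' y
    have h3 : ∑ v ∈ S, ENNReal.ofReal |y' v - y v| = 0 := by
      refine Finset.sum_eq_zero fun v hv => ?_
      rw [h v hv]
      simp
    rw [h0, mul_zero, add_zero] at h1
    rw [h3, mul_zero, add_zero] at h2
    exact le_antisymm h1 h2
  set a := ∫⁻ U, T₀ (fun v => Yf g G β P τ v U) ∂iidUniform V with ha
  set b := planted G β S τ 0 T₀ with hb
  set W : ℝ := 2 * (1 + 3 * τ) + (1 + 100 * (1 + τ) ^ 2) with hW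
  have hW0 : 0 ≤ W := by positivity
  obtain ⟨j₂, hj₂⟩ : ∃ j₂ : ℕ, τ ≤ 2 ^ j₂ :=
    (pow_unbounded_of_one_lt τ (by norm_num : (1 : ℝ) < 2)).imp fun _ h => h.le
  -- the two inequalities at each large stage
  have key : ∀ j, max L j₂ ≤ j → a ≤ b + c * ((S.card : ℝ≥0∞) * ENNReal.ofReal (W * qq ^ j)) ∧
      b ≤ a + c * ((S.card : ℝ≥0∞) * ENNReal.ofReal (W * qq ^ j)) := by
    intro j hj
    have hjL : L ≤ j := (le_max_left _ _).trans hj
    have hj2 : τ ≤ 2 ^ j := hj₂.trans (pow_le_pow_right₀ (by norm_num) ((le_max_right _ _).trans hj))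
    have hLl : L ≤ P.l j := by
      have := P.l_ge hd j
      omega
    set l := P.l j with hl
    set K := stp τ l with hK
    have hKδ : (K : ℝ) * dlt l = τ := stp_mul_dlt hLl
    -- the big set
    set R := S.sup (G.dist r) with hR
    have hdistR : ∀ v ∈ S, G.dist r v ≤ R := fun v hv => Finset.le_sup (f := G.dist r) hv
    set S' := ball G r (R + P.n j) with hS'
    have hmem : ∀ v ∈ S, v ∈ S' := fun v hv => by
      rw [hS', mem_ball hT]
      have := hdistR v hv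
      omega
    have hSS' : ∀ v ∈ S, ball G v (P.n j) ⊆ S' := by
      intro v hv u hu
      rw [hS', mem_ball hT]
      rw [mem_ball hT] at hu
      have h1 := hT.1.dist_triangle (u := r) (v := v) (w := u)
      have := hdistR v hv
      omega
    have hstar : ∀ v ∈ S, Star G v S' := fun v hv => star_ball hT (hmem v hv)
    have hplant : planted G β S' τ 0 T₀ = b :=
      Vale.Agent.Lib.P161D.planted_marginal hT hr hS hmem (hstar r hr) τ hdep
    -- the stage as a function of the noise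
    set ZZ : (ℕ → V → ℝ) → V → ℝ := fun ξ v => flow G β (ball G v (P.n j)) (dlt l) ξ 0 K 0 v with hZZ
    have hZZm : Measurable ZZ := measurable_pi_iff.2 fun v => measurable_flow_noise _ _ _ _
    have hZZv : ∀ v, Measurable (fun ξ => ZZ ξ v) := fun v => measurable_flow_noise _ _ _ _
    set Q : (ℕ → V → ℝ) → ℝ≥0∞ := fun ξ => T₀ (ZZ ξ) with hQ
    have hQm : Measurable Q := hTm.comp hZZm
    have hQU : ∫⁻ U, Q (xiN g l U) ∂iidUniform V = ∫⁻ ξ, Q ξ ∂nu V :=
      lintegral_xiN (V := V) g hg.hm hg.hlaw l Q hQm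
    -- chain distance
    set E : V → (ℕ → V → ℝ) → ℝ≥0∞ := fun v ξ =>
      chainFrom G β S' (dlt l) 0 ξ K (fun y => ENNReal.ofReal |y v - ZZ ξ v|) 0 with hE
    have hEm : ∀ v, Measurable (E v) := by
      intro v
      refine measurable_chain_at S' (dlt l) 0 K _ ?_ 0
      refine ENNReal.measurable_ofReal.comp (Measurable.abs (Measurable.sub ?_ ?_))
      · exact (measurable_pi_apply v).comp measurable_snd
      · exact (hZZv v).comp measurable_fst
    have hε : 0 < (1 + 3 * τ) * qq ^ j := by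
      have := pow_pos qq_pos j
      positivity
    have hqq2 : (qq ^ j) ^ 2 = (1 / 2) ^ j := by
      rw [← pow_mul, mul_comm, pow_mul, sq, qq_sq]
    have hEb : ∀ v ∈ S, ∫⁻ ξ, E v ξ ∂nu V ≤ ENNReal.ofReal (2 * ((1 + 3 * τ) * qq ^ j)) := by
      intro v hv
      refine Vale.Agent.Lib.P161D.chain_flow_L1 hT hd hreg hβ P.hθκ P.hκ P.hκρ P.hρ P.hdκρ v (P.n j)
        (hSS' v hv) (hstar v hv) (dlt_pos _) (dlt_le_one _) K hε ?_
      rw [hKδ]
      refine (errC_stage hd hreg P (le_refl _) hτ0 hj2 v).trans ?_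
      rw [mul_pow, hqq2]
      have : 6 * τ ^ 2 + 3 * τ ≤ (1 + 3 * τ) ^ 2 := by nlinarith
      exact mul_le_mul_of_nonneg_right this (by positivity)
    have hEsum : ∑ v ∈ S, ∫⁻ ξ, E v ξ ∂nu V ≤
        (S.card : ℝ≥0∞) * ENNReal.ofReal (2 * ((1 + 3 * τ) * qq ^ j)) := by
      calc _ ≤ ∑ _v ∈ S, ENNReal.ofReal (2 * ((1 + 3 * τ) * qq ^ j)) := Finset.sum_le_sum hEb
        _ = _ := by rw [Finset.sum_const, nsmul_eq_mul]
    have hchain : ∫⁻ ξ, chainFrom G β S' (dlt l) 0 ξ K T₀ 0 ∂nu V = b := by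
      rw [lintegral_chain_planted S' (dlt_pos l).le K T₀ hTm, hKδ, hplant]
    have hcm : Measurable (fun ξ : ℕ → V → ℝ => chainFrom G β S' (dlt l) 0 ξ K T₀ 0) :=
      measurable_chain_at S' (dlt l) 0 K (fun _ => T₀) (hTm.comp measurable_snd) 0
    -- comparison of the stage with the chain
    have hup : ∫⁻ ξ, Q ξ ∂nu V ≤ b + c * ∑ v ∈ S, ∫⁻ ξ, E v ξ ∂nu V := by
      rw [← hchain, ← lintegral_finsetSum _ (fun v _ => hEm v), ← lintegral_const_mul _
        (Finset.measurable_sum _ fun v _ => hEm v), ← lintegral_add_left hcm]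
      refine lintegral_mono fun ξ => ?_
      calc Q ξ = chainFrom G β S' (dlt l) 0 ξ K (fun _ => Q ξ) 0 := (chainFrom_const K _ _).symm
        _ ≤ chainFrom G β S' (dlt l) 0 ξ K
            (fun y => T₀ y + c * ∑ v ∈ S, ENNReal.ofReal |y v - ZZ ξ v|) 0 := by
            refine chainFrom_mono K (fun y => ?_) 0
            refine (hLip (ZZ ξ) y).trans (le_of_eq ?_)
            congr 2
            exact Finset.sum_congr rfl fun v _ => by rw [abs_sub_comm]
        _ = _ := by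
            rw [chainFrom_add', chainFrom_const_mul, chainFrom_sum]
    have hlo : b ≤ ∫⁻ ξ, Q ξ ∂nu V + c * ∑ v ∈ S, ∫⁻ ξ, E v ξ ∂nu V := by
      rw [← hchain, ← lintegral_finsetSum _ (fun v _ => hEm v), ← lintegral_const_mul _
        (Finset.measurable_sum _ fun v _ => hEm v), ← lintegral_add_left hQm]
      refine lintegral_mono fun ξ => ?_
      calc chainFrom G β S' (dlt l) 0 ξ K T₀ 0
          ≤ chainFrom G β S' (dlt l) 0 ξ K
            (fun y => Q ξ + c * ∑ v ∈ S, ENNReal.ofReal |y v - ZZ ξ v|) 0 :=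
            chainFrom_mono K (fun y => hLip y (ZZ ξ)) 0
        _ = _ := by
            rw [chainFrom_add', chainFrom_const_mul, chainFrom_sum, chainFrom_const]
    -- comparison of the limit with the stage
    have hYm : ∀ v, Measurable (fun U : V → unitInterval => Yf g G β P τ v U - ZZ (xiN g l U) v) := fun v =>
      (measurable_Yf hg P τ v).sub ((hZZv v).comp (measurable_xiN g hg.hm l))
    have hYb : ∀ v ∈ S, ∫⁻ U, ENNReal.ofReal |Yf g G β P τ v U - ZZ (xiN g l U) v| ∂iidUniform V ≤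
        ENNReal.ofReal ((1 + 100 * (1 + τ) ^ 2) * qq ^ j) := by
      intro v _
      refine lint_abs_of_sq (hYm v) (A := 100 * (1 + τ) ^ 2) (by positivity) j ?_
      refine le_trans (le_of_eq ?_) (flow_close_lint hg hT hd hreg hβ P hj2 (le_refl _) hLl v)
      refine lintegral_congr fun U => ?_
      congr 1
      simp only [hZZ]
      ring
    have hYsum : ∑ v ∈ S, ∫⁻ U, ENNReal.ofReal |Yf g G β P τ v U - ZZ (xiN g l U) v| ∂iidUniform V ≤
        (S.card : ℝ≥0∞) * ENNReal.ofReal ((1 + 100 * (1 + τ) ^ 2) * qq ^ j) := by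
      calc _ ≤ ∑ _v ∈ S, ENNReal.ofReal ((1 + 100 * (1 + τ) ^ 2) * qq ^ j) := Finset.sum_le_sum hYb
        _ = _ := by rw [Finset.sum_const, nsmul_eq_mul]
    have hYm' : ∀ v, Measurable (fun U : V → unitInterval =>
        ENNReal.ofReal |Yf g G β P τ v U - ZZ (xiN g l U) v|) := fun v => (hYm v).abs.ennreal_ofReal
    have hYcm : Measurable (fun U : V → unitInterval => T₀ (fun v => Yf g G β P τ v U)) :=
      hTm.comp (measurable_pi_iff.2 fun v => measurable_Yf hg P τ v)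
    have hQUm : Measurable (fun U : V → unitInterval => Q (xiN g l U)) :=
      hQm.comp (measurable_xiN g hg.hm l)
    have hup2 : a ≤ ∫⁻ U, Q (xiN g l U) ∂iidUniform V +
        c * ∑ v ∈ S, ∫⁻ U, ENNReal.ofReal |Yf g G β P τ v U - ZZ (xiN g l U) v| ∂iidUniform V := by
      rw [ha, ← lintegral_finsetSum _ (fun v _ => hYm' v), ← lintegral_const_mul _
        (Finset.measurable_sum _ fun v _ => hYm' v), ← lintegral_add_left hQUm]
      exact lintegral_mono fun U => hLip _ _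
    have hlo2 : ∫⁻ U, Q (xiN g l U) ∂iidUniform V ≤ a +
        c * ∑ v ∈ S, ∫⁻ U, ENNReal.ofReal |Yf g G β P τ v U - ZZ (xiN g l U) v| ∂iidUniform V := by
      rw [ha, ← lintegral_finsetSum _ (fun v _ => hYm' v), ← lintegral_const_mul _
        (Finset.measurable_sum _ fun v _ => hYm' v), ← lintegral_add_left hYcm]
      refine lintegral_mono fun U => ?_
      refine (hLip _ (fun v => Yf g G β P τ v U)).trans (le_of_eq ?_)
      congr 2
      exact Finset.sum_congr rfl fun v _ => by rw [abs_sub_comm]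
    have hsplit : ENNReal.ofReal (W * qq ^ j) = ENNReal.ofReal (2 * ((1 + 3 * τ) * qq ^ j)) +
        ENNReal.ofReal ((1 + 100 * (1 + τ) ^ 2) * qq ^ j) := by
      rw [← ENNReal.ofReal_add (by positivity) (by have := pow_pos qq_pos j; positivity)]
      congr 1
      rw [hW]
      ring
    have htot : c * ∑ v ∈ S, ∫⁻ ξ, E v ξ ∂nu V +
        c * ∑ v ∈ S, ∫⁻ U, ENNReal.ofReal |Yf g G β P τ v U - ZZ (xiN g l U) v| ∂iidUniform V ≤
        c * ((S.card : ℝ≥0∞) * ENNReal.ofReal (W * qq ^ j)) := by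
      rw [hsplit, mul_add, mul_add]
      exact add_le_add (mul_le_mul_right hEsum _) (mul_le_mul_right hYsum _)
    constructor
    · calc a ≤ ∫⁻ ξ, Q ξ ∂nu V +
            c * ∑ v ∈ S, ∫⁻ U, ENNReal.ofReal |Yf g G β P τ v U - ZZ (xiN g l U) v| ∂iidUniform V := by
            rw [← hQU]; exact hup2
        _ ≤ (b + c * ∑ v ∈ S, ∫⁻ ξ, E v ξ ∂nu V) +
            c * ∑ v ∈ S, ∫⁻ U, ENNReal.ofReal |Yf g G β P τ v U - ZZ (xiN g l U) v| ∂iidUniform V := by
            gcongr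
        _ ≤ _ := by
            rw [add_assoc]
            exact add_le_add le_rfl htot
    · calc b ≤ ∫⁻ ξ, Q ξ ∂nu V + c * ∑ v ∈ S, ∫⁻ ξ, E v ξ ∂nu V := hlo
        _ ≤ (a + c * ∑ v ∈ S, ∫⁻ U, ENNReal.ofReal |Yf g G β P τ v U - ZZ (xiN g l U) v| ∂iidUniform V) +
            c * ∑ v ∈ S, ∫⁻ ξ, E v ξ ∂nu V := by
            gcongr
            rw [← hQU]; exact hlo2
        _ ≤ _ := by
            rw [add_assoc, add_comm (c * ∑ v ∈ S, ∫⁻ U, _ ∂iidUniform V)]
            exact add_le_add le_rfl htot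
  -- take limits
  have hq1 : qq < 1 := qq_le.trans_lt (by norm_num)
  have hlim : Tendsto (fun j : ℕ => c * ((S.card : ℝ≥0∞) * ENNReal.ofReal (W * qq ^ j))) atTop (𝓝 0) := by
    have h1 : Tendsto (fun j : ℕ => W * qq ^ j) atTop (𝓝 (W * 0)) :=
      (tendsto_pow_atTop_nhds_zero_of_lt_one qq_pos.le hq1).const_mul W
    rw [mul_zero] at h1
    have h2 : Tendsto (fun j : ℕ => ENNReal.ofReal (W * qq ^ j)) atTop (𝓝 0) := by
      simpa using ENNReal.tendsto_ofReal h1
    have h3 : Tendsto (fun j : ℕ => (S.card : ℝ≥0∞) * ENNReal.ofReal (W * qq ^ j)) atTop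
        (𝓝 ((S.card : ℝ≥0∞) * 0)) :=
      ENNReal.Tendsto.const_mul h2 (Or.inr (ENNReal.natCast_ne_top _))
    rw [mul_zero] at h3
    have h4 : Tendsto (fun j : ℕ => c * ((S.card : ℝ≥0∞) * ENNReal.ofReal (W * qq ^ j))) atTop
        (𝓝 (c * 0)) := ENNReal.Tendsto.const_mul h3 (Or.inr hc)
    rwa [mul_zero] at h4
  have hle1 : a ≤ b := by
    have h1 : Tendsto (fun j : ℕ => b + c * ((S.card : ℝ≥0∞) * ENNReal.ofReal (W * qq ^ j))) atTop
        (𝓝 (b + 0)) := tendsto_const_nhds.add hlim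
    rw [add_zero] at h1
    exact ge_of_tendsto h1 ((eventually_ge_atTop (max L j₂)).mono fun j hj => (key j hj).1)
  have hle2 : b ≤ a := by
    have h1 : Tendsto (fun j : ℕ => a + c * ((S.card : ℝ≥0∞) * ENNReal.ofReal (W * qq ^ j))) atTop
        (𝓝 (a + 0)) := tendsto_const_nhds.add hlim
    rw [add_zero] at h1
    exact ge_of_tendsto h1 ((eventually_ge_atTop (max L j₂)).mono fun j hj => (key j hj).2)
  exact le_antisymm hle1 hle2

omit hg hT hd hreg hβ in
/-- Two finite measures with the same integrals of thickened indicators agree. -/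
theorem measure_ext_thick {Ω : Type*} [MeasurableSpace Ω] [PseudoEMetricSpace Ω] [BorelSpace Ω]
    {μ ν : Measure Ω} [IsFiniteMeasure μ] [IsFiniteMeasure ν] (huniv : μ Set.univ = ν Set.univ)
    (h : ∀ (δ : ℝ) (hδ : 0 < δ) (A : Set Ω), IsClosed A →
      ∫⁻ ω, (thickenedIndicator hδ A ω : ℝ≥0∞) ∂μ = ∫⁻ ω, (thickenedIndicator hδ A ω : ℝ≥0∞) ∂ν) :
    μ = ν := by
  refine ext_of_generate_finite _ ?_ isPiSystem_isClosed (fun A hA => ?_) huniv
  · rw [BorelSpace.measurable_eq (α := Ω), borel_eq_generateFrom_isClosed]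
  · have hA' : IsClosed A := hA
    have hδs : ∀ n : ℕ, (0 : ℝ) < 1 / ((n : ℝ) + 1) := fun n => by positivity
    have h1 := tendsto_lintegral_thickenedIndicator_of_isClosed μ hA' hδs
      tendsto_one_div_add_atTop_nhds_zero_nat
    have h2 := tendsto_lintegral_thickenedIndicator_of_isClosed ν hA' hδs
      tendsto_one_div_add_atTop_nhds_zero_nat
    simp only [h _ (hδs _) A hA'] at h1
    exact tendsto_nhds_unique h1 h2

omit hg hT hd hreg hβ in
/-- A Lipschitz bound for a thickened indicator read on the coordinates in `S`. -/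
theorem thick_lip (S : Finset V) {δ : ℝ} (hδ : 0 < δ) (A : Set (S → ℝ)) (y y' : V → ℝ) :
    (thickenedIndicator hδ A (fun v : S => y v) : ℝ≥0∞) ≤ thickenedIndicator hδ A (fun v : S => y' v) +
      ((δ.toNNReal⁻¹ : NNReal) : ℝ≥0∞) * ∑ v ∈ S, ENNReal.ofReal |y v - y' v| := by
  set f := thickenedIndicator hδ A
  set a := f (fun v : S => y v) with ha
  set b := f (fun v : S => y' v) with hb
  have hL := (lipschitzWith_thickenedIndicator hδ A) (fun v : S => y v) (fun v : S => y' v)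
  have h1 : (a : ℝ≥0∞) ≤ b + edist a b := by
    have h2 : edist a b = ENNReal.ofReal |(a : ℝ) - b| := by
      rw [edist_dist, NNReal.dist_eq]
    rw [h2, ← ENNReal.ofReal_coe_nnreal, ← ENNReal.ofReal_coe_nnreal,
      ← ENNReal.ofReal_add (NNReal.coe_nonneg _) (abs_nonneg _)]
    refine ENNReal.ofReal_le_ofReal ?_
    have := le_abs_self ((a : ℝ) - b)
    linarith
  refine h1.trans (add_le_add le_rfl (hL.trans ?_))
  refine mul_le_mul_right ?_ _
  refine edist_pi_le_iff.2 fun v => ?_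
  rw [edist_dist, Real.dist_eq]
  exact Finset.single_le_sum (f := fun v => ENNReal.ofReal |y v - y' v|) (fun _ _ => zero_le) v.2

/-- E2b. Exact law of the limit: the law of `Yf` on a star set `S` is the planted law. Proof: for bounded
Lipschitz `F`, compare with the exact chain on `S' ⊇` all `ball v (P.n j)` (`compare_flow`, `chain_law`, as in
`signs_law`), take limits, then pass to measurable `F` by closed sets (`Measure.ext_of_generateFrom...`); use
`marginal_eq` to go from `S'` to `S`. -/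
theorem Yf_law {L k : ℕ} {S : Finset V} {r : V} (hr : r ∈ S) (hS : Star G r S) {F : (V → ℝ) → ℝ≥0∞}
    (hF : Measurable F) (hdep : ∀ y y', (∀ v ∈ S, y v = y' v) → F y = F y') :
    ∫⁻ U, F (fun v => Yf g G β P (dy L k) v U) ∂iidUniform V = planted G β S (dy L k) 0 F := by
  set τ : ℝ := dy L k with hτd
  -- restriction and extension
  set rest : (V → ℝ) → (S → ℝ) := fun y v => y v with hrest
  have hrestm : Measurable rest := measurable_pi_iff.2 fun v => measurable_pi_apply _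
  set ext0 : (S → ℝ) → (V → ℝ) := fun w v => if h : v ∈ S then w ⟨v, h⟩ else 0 with hext0
  have hextm : Measurable ext0 := by
    refine measurable_pi_iff.2 fun v => ?_
    by_cases h : v ∈ S
    · simp only [hext0, dif_pos h]
      exact measurable_pi_apply _
    · simp only [hext0, dif_neg h]
      exact measurable_const
  have hF' : ∀ y, F (ext0 (rest y)) = F y := by
    intro y
    refine hdep _ _ fun v hv => ?_
    simp [hext0, hrest, hv]
  set Yr : (V → unitInterval) → (S → ℝ) := fun U => rest (fun v => Yf g G β P τ v U) with hYr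
  have hYrm : Measurable Yr := hrestm.comp (measurable_pi_iff.2 fun v => measurable_Yf hg P τ v)
  set μ₁ : Measure (S → ℝ) := (iidUniform V).map Yr with hμ₁
  have hgm : ∀ B : Finset V, Measurable (fun g' : V → ℝ =>
      rest (0 + τ • stepVec S B + Real.sqrt τ • g')) := by
    intro B
    refine hrestm.comp ?_
    refine measurable_const.add (measurable_const_smul _ |>.comp measurable_id)
  set ν : Finset V → Measure (S → ℝ) := fun B =>
    (gam V).map (fun g' : V → ℝ => rest (0 + τ • stepVec S B + Real.sqrt τ • g')) with hν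
  set μ₂ : Measure (S → ℝ) := ∑ B ∈ S.powerset, ENNReal.ofReal (mu G β S 0 B) • ν B with hμ₂
  have hint₂ : ∀ T : (S → ℝ) → ℝ≥0∞, Measurable T →
      ∫⁻ w, T w ∂μ₂ = planted G β S τ 0 (fun y => T (rest y)) := by
    intro T hT'
    rw [hμ₂, lintegral_finset_sum_measure]
    unfold planted
    refine Finset.sum_congr rfl fun B _ => ?_
    rw [lintegral_smul_measure, hν]
    simp only [smul_eq_mul]
    congr 1
    exact lintegral_map hT' (hgm B)
  have hint₁ : ∀ T : (S → ℝ) → ℝ≥0∞, Measurable T →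
      ∫⁻ w, T w ∂μ₁ = ∫⁻ U, T (Yr U) ∂iidUniform V := fun T hT' => lintegral_map hT' hYrm
  have hmass₁ : μ₁ Set.univ = 1 := by
    rw [hμ₁, Measure.map_apply hYrm MeasurableSet.univ]
    simp
  have hmass₂ : μ₂ Set.univ = 1 := by
    have : ∀ B, ν B Set.univ = 1 := by
      intro B
      simp only [hν]
      rw [Measure.map_apply (hgm B) MeasurableSet.univ]
      simp
    rw [hμ₂, Measure.finset_sum_apply]
    simp only [Measure.smul_apply, this, smul_eq_mul, mul_one]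
    exact sum_ofReal_mu S 0
  haveI : IsFiniteMeasure μ₁ := ⟨by rw [hmass₁]; simp⟩
  haveI : IsFiniteMeasure μ₂ := ⟨by rw [hmass₂]; simp⟩
  have heq : μ₁ = μ₂ := by
    refine measure_ext_thick (hmass₁.trans hmass₂.symm) fun δ hδ A hA => ?_
    have hm : Measurable (fun w : S → ℝ => (thickenedIndicator hδ A w : ℝ≥0∞)) :=
      (thickenedIndicator hδ A).continuous.measurable.coe_nnreal_ennreal
    rw [hint₁ _ hm, hint₂ _ hm]
    exact law_lip hg hT hd hreg hβ P (L := L) (k := k) hr hS (T₀ := fun y =>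
      (thickenedIndicator hδ A (rest y) : ℝ≥0∞)) (hm.comp hrestm) ENNReal.coe_ne_top
      (fun y y' => thick_lip S hδ A y y')
  have hFm : Measurable (fun w => F (ext0 w)) := hF.comp hextm
  calc ∫⁻ U, F (fun v => Yf g G β P τ v U) ∂iidUniform V
      = ∫⁻ U, F (ext0 (Yr U)) ∂iidUniform V := by
        refine lintegral_congr fun U => ?_
        exact (hF' _).symm
    _ = ∫⁻ w, F (ext0 w) ∂μ₁ := (hint₁ _ hFm).symm
    _ = ∫⁻ w, F (ext0 w) ∂μ₂ := by rw [heq]
    _ = planted G β S τ 0 (fun y => F (ext0 (rest y))) := hint₂ _ hFm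
    _ = planted G β S τ 0 F := by
        congr 1
        funext y
        exact hF' y

/-- The second moment of `Yf`. -/
theorem integrable_Yf_sq {L k : ℕ} (x : V) :
    Integrable (fun U => Yf g G β P (dy L k) x U ^ 2) (iidUniform V) := by
  set τ : ℝ := dy L k with hτd
  have hxb : x ∈ ball G x 0 := by rw [mem_ball hT]; simp
  have hm : Measurable (fun U : V → unitInterval => Yf g G β P τ x U ^ 2) :=
    (measurable_Yf hg P τ x).pow_const 2
  refine ⟨hm.aestronglyMeasurable, ?_⟩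
  rw [hasFiniteIntegral_iff_ofReal (Eventually.of_forall fun _ => sq_nonneg _)]
  have hlaw := Yf_law hg hT hd hreg hβ P (L := L) (k := k) hxb (star_ball hT hxb)
    (F := fun y => ENNReal.ofReal (y x ^ 2))
    (((measurable_pi_apply x).pow_const 2).ennreal_ofReal)
    (fun y y' h => by rw [h x hxb])
  rw [hlaw]
  unfold planted
  refine ENNReal.sum_lt_top.2 fun B _ => ENNReal.mul_lt_top ENNReal.ofReal_lt_top ?_
  have hmem : MemLp (fun g' : V → ℝ => (0 + τ • stepVec (ball G x 0) B + Real.sqrt τ • g') x) 2 (gam V) := by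
    have h1 := (Vale.Agent.Lib.P161D.memLp_coord (V := V) x 2 (by norm_num)).const_mul (Real.sqrt τ)
    have h2 := (memLp_const (μ := gam V) (p := 2) (τ * stepVec (ball G x 0) B x)).add h1
    refine h2.ae_eq (Eventually.of_forall fun g' => ?_)
    simp
  have hi := hmem.integrable_sq
  have := hi.2
  rw [hasFiniteIntegral_iff_ofReal (Eventually.of_forall fun _ => sq_nonneg _)] at this
  exact this

end main

end Vale.Agent.Lib.P161E
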