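import Vale.Agent.Lib.P161E.YB

/-! Job E2c: the exact law of the limit field, real form. -/

open MeasureTheory Finset Filter Topology
open scoped Classical ENNReal

noncomputable section

namespace Vale.Agent.Lib.P161E

open Vale.Agent.Lib.P161

variable {V : Type*} {G : SimpleGraph V} [G.LocallyFinite] {β : ℝ} {d : ℕ}
  {g : ℕ → ℕ → unitInterval → ℝ}

section main

variable (hg : DN g) (hT : G.IsTree) (hd : 2 ≤ d) (hreg : G.IsRegularOfDegree d) (hβ : 0 ≤ β)
  (P : Par d β) {u T : ℝ}

include hg hT hd hreg hβ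

/-- Real form of the law. -/
theorem Yf_EP {L k : ℕ} {S : Finset V} {r : V} (hr : r ∈ S) (hS : Star G r S) {F : (V → ℝ) → ℝ}
    (hF : Measurable F) {C : ℝ} (hFb : ∀ y, |F y| ≤ C) (hdep : DepOn S F) :
    ∫ U, F (fun v => Yf g G β P (dy L k) v U) ∂iidUniform V = EP G β S (dy L k) 0 F := by
  set τ : ℝ := dy L k with hτd
  have hC : 0 ≤ C := (abs_nonneg _).trans (hFb 0)
  set H : (V → ℝ) → ℝ := fun y => F y + C with hH
  have hHm : Measurable H := hF.add_const C
  have hH0 : ∀ y, 0 ≤ H y := fun y => by
    have := abs_le.1 (hFb y)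
    simp only [hH]
    linarith [this.1]
  have hHb : ∀ y, H y ≤ 2 * C := fun y => by
    have := abs_le.1 (hFb y)
    simp only [hH]
    linarith [this.2]
  have hpl := planted_ofReal (G := G) (β := β) (S := S) (t := τ) (y₀ := 0) hHm hH0 hHb
  have hlaw := Yf_law hg hT hd hreg hβ P (L := L) (k := k) hr hS (F := fun y => ENNReal.ofReal (H y))
    hHm.ennreal_ofReal (fun y y' h => by
      have := hdep y y' h
      simp only [hH, this])
  have hYm : Measurable (fun U : V → unitInterval => fun v => Yf g G β P τ v U) :=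
    measurable_pi_iff.2 fun v => measurable_Yf hg P τ v
  have hbH : ∀ y, |H y| ≤ 2 * C := fun y => by
    rw [abs_of_nonneg (hH0 y)]
    exact hHb y
  have hconst : ∀ y : V → ℝ, |(fun _ : V → ℝ => C) y| ≤ 2 * C := fun _ => by
    rw [abs_of_nonneg hC]
    linarith
  have hF2 : ∀ y, |F y| ≤ 2 * C := fun y => (hFb y).trans (by linarith)
  have hEPH : EP G β S τ 0 H = EP G β S τ 0 F + C := by
    have := EP_add (G := G) (β := β) (S := S) (t := τ) (y₀ := 0) hF (measurable_const (a := C)) hF2 hconst
    rw [EP_const] at this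
    exact this
  have hEP0 : 0 ≤ EP G β S τ 0 H := by
    have h0 : ∀ y : V → ℝ, |(fun _ : V → ℝ => (0 : ℝ)) y| ≤ 2 * C := fun _ => by
      simp only [abs_zero]
      linarith
    have := EP_mono (G := G) (β := β) (S := S) (t := τ) (y₀ := 0) (measurable_const (a := (0 : ℝ))) hHm h0 hbH hH0
    rwa [EP_const] at this
  have hint : ∫ U, H (fun v => Yf g G β P τ v U) ∂iidUniform V = EP G β S τ 0 H := by
    rw [integral_eq_lintegral_of_nonneg_ae (Eventually.of_forall fun U => hH0 _)
      (hHm.comp hYm).aestronglyMeasurable, hlaw, hpl, ENNReal.toReal_ofReal hEP0]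
  have hFi : Integrable (fun U : V → unitInterval => F (fun v => Yf g G β P τ v U)) (iidUniform V) := by
    refine Integrable.of_bound (hF.comp hYm).aestronglyMeasurable C (Eventually.of_forall fun U => ?_)
    rw [Real.norm_eq_abs]
    exact hFb _
  have hsplit : ∫ U, H (fun v => Yf g G β P τ v U) ∂iidUniform V =
      ∫ U, F (fun v => Yf g G β P τ v U) ∂iidUniform V + C := by
    simp only [hH]
    rw [integral_add hFi (integrable_const C)]
    simp
  linarith

end main

end Vale.Agent.Lib.P161E
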